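import Mathlib

/-! P205: basic definitions. Tame families, cylinder operators, plane algebra. -/

open Set Filter Topology
open scoped ContDiff

noncomputable section
namespace Vale.Agent.P205

abbrev E := ℝ × ℝ
abbrev V := Fin 4 → ℝ
abbrev Y := E × ℝ
/-- symmetric 2-tensors in the plane: components 11, 12, 22 -/
abbrev S3 := ℝ × ℝ × ℝ

/-- a family of open sets with a size parameter `τ ≥ 1` -/
structure Fam (ι : Type*) (X : Type) [TopologicalSpace X] where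
  O : ι → Set X
  op : ∀ i, IsOpen (O i)
  τ : ι → ℝ
  one_le : ∀ i, 1 ≤ τ i

section fam
variable {ι : Type*} {X : Type} [TopologicalSpace X]

/-- `w ≲ w'` up to a constant and a power of `τ`, uniformly in the family -/
def Fam.Le (A : Fam ι X) (w w' : ι → X → ℝ) : Prop :=
  ∃ (C : ℝ) (c : ℕ), 0 < C ∧ ∀ i, ∀ y ∈ A.O i, w i y ≤ C * A.τ i ^ c * w' i y

/-- the cylinder family `O × ℝ` -/
def Fam.cyl (A : Fam ι X) : Fam ι (X × ℝ) where
  O i := A.O i ×ˢ univ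
  op i := (A.op i).prod isOpen_univ
  τ := A.τ
  one_le := A.one_le

/-- intersect the domains with other open sets -/
def Fam.sub (A : Fam ι X) (O' : ι → Set X) (h : ∀ i, IsOpen (O' i)) : Fam ι X where
  O i := A.O i ∩ O' i
  op i := (A.op i).inter (h i)
  τ := A.τ
  one_le := A.one_le

/-- keep only the indices with `P i` (the other domains become empty) -/
def Fam.cut (A : Fam ι X) (P : ι → Prop) : Fam ι X :=
  A.sub (fun i => {_x | P i}) (fun i => by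
    by_cases h : P i
    · simp [h]
    · simp [h])

/-- lift a weight to the cylinder -/
def up (w : ι → X → ℝ) : ι → X × ℝ → ℝ := fun i y => w i y.1

end fam

section tm
variable {ι : Type*} {X W : Type} [NormedAddCommGroup X] [NormedSpace ℝ X]
  [NormedAddCommGroup W] [NormedSpace ℝ W]

/-- tame class with weight `w`: smooth, all derivatives `≲ w` -/
structure Tm (A : Fam ι X) (w : ι → X → ℝ) (u : ι → X → W) : Prop where
  sm : ∀ i, ContDiffOn ℝ ∞ (u i) (A.O i)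
  nn : ∀ i, ∀ y ∈ A.O i, 0 ≤ w i y
  bd : ∀ k : ℕ, A.Le (fun i y => ‖iteratedFDeriv ℝ k (u i) y‖) w

/-- tame class on the cylinder, weight depending on the base point only -/
abbrev TmC (A : Fam ι X) (w : ι → X → ℝ) (u : ι → X × ℝ → W) : Prop := Tm A.cyl (up w) u

/-- slow functions: bounded, derivative of size `η` -/
structure Sl (A : Fam ι X) (η : ι → X → ℝ) (u : ι → X → W) : Prop where
  t1 : Tm A (fun _ _ => 1) u
  td : Tm A η (fun i y => fderiv ℝ (u i) y)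

/-- derivative in the angle -/
def dθ (u : X × ℝ → W) : X × ℝ → W := fun y => fderiv ℝ u y (0, 1)
/-- derivative along the base vector field `C`, on the cylinder -/
def dX (C : X → X) (u : X × ℝ → W) : X × ℝ → W := fun y => fderiv ℝ u y (C y.1, 0)
/-- derivative along `C` on the base -/
def dV (C : X → X) (u : X → W) : X → W := fun x => fderiv ℝ u x (C x)
/-- primitive in the angle -/
def prim (g : X × ℝ → W) : X × ℝ → W := fun y => ∫ t in (0:ℝ)..y.2, g (y.1, t)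
/-- integral over a period -/
def tot (g : X × ℝ → W) : X → W := fun x => ∫ t in (-Real.pi)..Real.pi, g (x, t)
/-- primitive normalised to have `om`-mean zero -/
def nrm (om : X × ℝ → ℝ) (g : X × ℝ → W) : X × ℝ → W :=
  fun y => prim g y - tot (fun z => om z • prim g z) y.1
/-- `2π`-periodic in the angle over `O` -/
def Per {Z : Type} (O : Set X) (u : X × ℝ → Z) : Prop :=
  ∀ x ∈ O, ∀ t : ℝ, u (x, t + 2 * Real.pi) = u (x, t)

/-- second derivative in directions `v`, `w` -/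
def d2 (G : X → W) (x v w : X) : W := fderiv ℝ (fderiv ℝ G) x v w

/-- bounds on a set `K`, for a family, with order dependent weight -/
def KB (K : Set X) (τ : ι → ℝ) (w : ι → ℕ → ℝ) (u : ι → X → W) : Prop :=
  ∀ k : ℕ, ∃ (C : ℝ) (c : ℕ), 0 < C ∧ ∀ i, ∀ x ∈ K,
    ‖iteratedFDeriv ℝ k (u i) x‖ ≤ C * τ i ^ c * w i k

end tm

/-! plane algebra -/

def nsq (v : E) : ℝ := v.1 ^ 2 + v.2 ^ 2
def dotE (a v : E) : ℝ := a.1 * v.1 + a.2 * v.2
def rot (v : E) : E := (-v.2, v.1)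
def detE (a b : E) : ℝ := a.1 * b.2 - a.2 * b.1
/-- the bilinear form of a tensor -/
def qf (S : S3) (v w : E) : ℝ := S.1 * v.1 * w.1 + S.2.1 * (v.1 * w.2 + v.2 * w.1) + S.2.2 * v.2 * w.2
/-- square of a covector -/
def sqv (a : E) : S3 := (a.1 ^ 2, a.1 * a.2, a.2 ^ 2)
def det2 (S : S3) : ℝ := S.1 * S.2.2 - S.2.1 ^ 2
def PD (S : S3) : Prop := ∀ v : E, v ≠ 0 → 0 < qf S v v
/-- pull back of a tensor by a linear map -/
def pull (L : E →L[ℝ] E) (S : S3) : S3 :=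
  (qf S (L (1, 0)) (L (1, 0)), qf S (L (1, 0)) (L (0, 1)), qf S (L (0, 1)) (L (0, 1)))
def det3 (a : Fin 3 → S3) : ℝ :=
  (a 0).1 * ((a 1).2.1 * (a 2).2.2 - (a 1).2.2 * (a 2).2.1)
    - (a 0).2.1 * ((a 1).1 * (a 2).2.2 - (a 1).2.2 * (a 2).1)
    + (a 0).2.2 * ((a 1).1 * (a 2).2.1 - (a 1).2.1 * (a 2).1)
/-- Cramer coefficient of `S` in the basis `sqv (ξ j)` -/
def Lc (ξ : Fin 3 → E) (j : Fin 3) (S : S3) : ℝ :=
  det3 (Function.update (fun i => sqv (ξ i)) j S) / det3 (fun i => sqv (ξ i))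
/-- the differential of a function as a covector -/
def dcov (φ : E → ℝ) (x : E) : E := (fderiv ℝ φ x (1, 0), fderiv ℝ φ x (0, 1))
/-- the metric induced by a map -/
def met (G : E → V) (x : E) : S3 :=
  (fderiv ℝ G x (1, 0) ⬝ᵥ fderiv ℝ G x (1, 0), fderiv ℝ G x (1, 0) ⬝ᵥ fderiv ℝ G x (0, 1),
    fderiv ℝ G x (0, 1) ⬝ᵥ fderiv ℝ G x (0, 1))
/-- Hessian of `f` along the level direction of `ψ` -/
def hs (f ψ : E → ℝ) (x : E) : ℝ := d2 f x (rot (dcov ψ x)) (rot (dcov ψ x))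

/-- cross product of three vectors in dimension four -/
def cr (a b c : V) : V :=
  ![ a 1 * (b 2 * c 3 - b 3 * c 2) - a 2 * (b 1 * c 3 - b 3 * c 1) + a 3 * (b 1 * c 2 - b 2 * c 1),
    -(a 0 * (b 2 * c 3 - b 3 * c 2) - a 2 * (b 0 * c 3 - b 3 * c 0) + a 3 * (b 0 * c 2 - b 2 * c 0)),
     a 0 * (b 1 * c 3 - b 3 * c 1) - a 1 * (b 0 * c 3 - b 3 * c 0) + a 3 * (b 0 * c 1 - b 1 * c 0),
    -(a 0 * (b 1 * c 2 - b 2 * c 1) - a 1 * (b 0 * c 2 - b 2 * c 0) + a 2 * (b 0 * c 1 - b 1 * c 0))]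
/-- Gram determinant of two vectors -/
def gram2 (a b : V) : ℝ := (a ⬝ᵥ a) * (b ⬝ᵥ b) - (a ⬝ᵥ b) ^ 2
/-- `gram2 a b` times the inner product of the parts of `u`, `w` normal to `a`, `b` -/
def np (a b u w : V) : ℝ := cr a b u ⬝ᵥ cr a b w

/-- determinant form of `np` -/
def npd (s : S3) (c p1 p2 q1 q2 : ℝ) : ℝ :=
  c * det2 s - p1 * (s.2.2 * q1 - s.2.1 * q2) - p2 * (s.1 * q2 - s.2.1 * q1)
/-- Brioschi polynomial (Gauss curvature times det squared) of a 2-jet of a metric -/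
def cj (s s1 s2 s11 s12 s22 : S3) : ℝ :=
  npd s (-(1/2) * s22.1 + s12.2.1 - (1/2) * s11.2.2) ((1/2) * s1.1) (s1.2.1 - (1/2) * s2.1)
      (s2.2.1 - (1/2) * s1.2.2) ((1/2) * s2.2.2)
    - npd s 0 ((1/2) * s2.1) ((1/2) * s1.2.2) ((1/2) * s2.1) ((1/2) * s1.2.2)
/-- Gauss curvature times det squared -/
def curN (S : E → S3) (x : E) : ℝ :=
  cj (S x) (fderiv ℝ S x (1, 0)) (fderiv ℝ S x (0, 1))
    (d2 S x (1, 0) (1, 0)) (d2 S x (1, 0) (0, 1)) (d2 S x (0, 1) (0, 1))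

/-- `np` of second derivatives of `G` at `x`, tangent frame `c1`, `c2` -/
def npG (G : E → V) (x c1 c2 v w v' w' : E) : ℝ :=
  np (fderiv ℝ G x c1) (fderiv ℝ G x c2) (d2 G x v w) (d2 G x v' w')

/-- margin `μ` (no asymptotic direction) for the directions in the cone `Ψ ≤ η g` -/
def MgAt (G : E → V) (g Ψ : E → S3) (μ η : ℝ) (x : E) : Prop :=
  ∀ v : E, qf (Ψ x) v v ≤ η * qf (g x) v v →
    μ * det2 (g x) * qf (g x) v v ^ 2 ≤ npG G x (1, 0) (0, 1) v v v v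

/-- convexity of a 2-jet -/
def CvxJ (L : E →L[ℝ] V) (B : E →L[ℝ] E →L[ℝ] V) : Prop :=
  0 < gram2 (L (1, 0)) (L (0, 1)) ∧ ∃ ν : V, ν ⬝ᵥ L (1, 0) = 0 ∧ ν ⬝ᵥ L (0, 1) = 0 ∧
    ∀ v : E, v ≠ 0 → 0 < ν ⬝ᵥ B v v
def CvxAt (G : E → V) (x : E) : Prop := CvxJ (fderiv ℝ G x) (fderiv ℝ (fderiv ℝ G) x)

/-- a piece: commuting frame, phase `φ`, amplitude support function `f` -/
structure Pc where
  O : Set E
  K : Set E
  c1 : E → E
  c2 : E → E
  φ : E → ℝ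
  f : E → ℝ
  op : IsOpen O
  cp : IsCompact K
  sub : K ⊆ O
  s1 : ContDiffOn ℝ ∞ c1 O
  s2 : ContDiffOn ℝ ∞ c2 O
  sφ : ContDiffOn ℝ ∞ φ O
  sf : ContDiffOn ℝ ∞ f O
  comm : ∀ x ∈ O, fderiv ℝ c2 x (c1 x) = fderiv ℝ c1 x (c2 x)
  φ1 : ∀ x ∈ O, fderiv ℝ φ x (c1 x) = 1
  φ2 : ∀ x ∈ O, fderiv ℝ φ x (c2 x) = 0
  det : ∀ x ∈ O, detE (c1 x) (c2 x) ≠ 0
  fK : ∀ x ∈ O, 0 < f x → x ∈ K

/-- amplitude -/
def Pc.amp (P : Pc) (d : ℝ) (bh : E → ℝ) (x : E) : ℝ := expNegInvGlue (P.f x) * d * bh x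
/-- the primitive tensor added by the twist -/
def Pc.Q (P : Pc) (d : ℝ) (bh : E → ℝ) (x : E) : S3 := P.amp d bh x ^ 2 • sqv (dcov P.φ x)

/-- geometric output of a twist, valid everywhere on the piece -/
def Pc.Geo (P : Pc) (G : E → V) (x : E) (κ σ0 s : ℝ) : Prop :=
  1 ≤ κ * npG G x (P.c1 x) (P.c2 x) (P.c2 x) (P.c2 x) (P.c2 x) (P.c2 x) ∧
  npG G x (P.c1 x) (P.c2 x) (P.c2 x) (P.c2 x) (P.c2 x) (P.c2 x) ≤ κ ∧
  |npG G x (P.c1 x) (P.c2 x) (P.c2 x) (P.c2 x) (P.c1 x) (P.c2 x)| ≤ κ * σ0 ∧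
  npG G x (P.c1 x) (P.c2 x) (P.c1 x) (P.c2 x) (P.c1 x) (P.c2 x) ≤ κ * (σ0 * s ^ 2) ^ 2
/-- geometric output in the winding zone -/
def Pc.GeoW (P : Pc) (G : E → V) (x : E) (κ lam : ℝ) : Prop :=
  lam ^ 2 ≤ κ * npG G x (P.c1 x) (P.c2 x) (P.c1 x) (P.c1 x) (P.c1 x) (P.c1 x)

end Vale.Agent.P205
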