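import Vale.Agent.P205.T1
import Vale.Agent.P205.D1

open Set Filter Topology
open scoped ContDiff

noncomputable section
namespace Vale.Agent.P205

/-! PI: smoothness of parametric interval integrals. -/

variable {X : Type} [NormedAddCommGroup X] [NormedSpace ℝ X] [FiniteDimensional ℝ X]

section aux
variable {W : Type} [NormedAddCommGroup W] [NormedSpace ℝ W]

/-- restriction of a linear map on the cylinder to the base -/
def piL (X W : Type) [NormedAddCommGroup X] [NormedSpace ℝ X] [NormedAddCommGroup W]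
    [NormedSpace ℝ W] : (X × ℝ →L[ℝ] W) →L[ℝ] (X →L[ℝ] W) :=
  (ContinuousLinearMap.compL ℝ X (X × ℝ) W).flip (ContinuousLinearMap.inl ℝ X ℝ)
theorem piL_apply (f : X × ℝ →L[ℝ] W) (v : X) : piL X W f v = f (v, 0) := rfl
theorem piL_norm : ‖piL X W‖ ≤ 1 := by
  refine ContinuousLinearMap.opNorm_le_bound _ zero_le_one fun f => ?_
  refine ContinuousLinearMap.opNorm_le_bound _ (by positivity) fun v => ?_
  have := f.le_opNorm (v, 0)
  simpa [piL_apply] using this
/-- base derivative -/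
def piD (G : X × ℝ → W) : X × ℝ → (X →L[ℝ] W) := fun y => piL X W (fderiv ℝ G y)
theorem piD_sm {U : Set X} (hU : IsOpen U) {G : X × ℝ → W} (hG : ContDiffOn ℝ ∞ G (U ×ˢ univ)) :
    ContDiffOn ℝ ∞ (piD G) (U ×ˢ univ) :=
  (piL X W).contDiff.comp_contDiffOn (hG.fderiv_of_isOpen (hU.prod isOpen_univ) (by simp))
theorem piD_bd {U : Set X} (hU : IsOpen U) {G : X × ℝ → W} (hG : ContDiffOn ℝ ∞ G (U ×ˢ univ))
    {y : X × ℝ} (hy : y.1 ∈ U) (k : ℕ) :
    ‖iteratedFDeriv ℝ k (piD G) y‖ ≤ ‖iteratedFDeriv ℝ (k + 1) G y‖ := by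
  have hO := hU.prod (isOpen_univ (X := ℝ))
  have h1 : ContDiffAt ℝ ∞ (fderiv ℝ G) y :=
    (hG.fderiv_of_isOpen hO (by simp)).contDiffAt (hO.mem_nhds ⟨hy, mem_univ _⟩)
  have := (piL X W).norm_iteratedFDeriv_comp_left h1 (t1_nat_le k)
  rw [norm_iteratedFDeriv_fderiv] at this
  exact this.trans (mul_le_of_le_one_left (norm_nonneg _) piL_norm)
theorem pi_cont {U : Set X} {G : X × ℝ → W} (hG : ContinuousOn G (U ×ˢ univ)) {x : X} (hx : x ∈ U) :
    Continuous fun t => G (x, t) :=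
  hG.comp_continuous (by fun_prop) fun _ => ⟨hx, mem_univ _⟩
theorem pi_hasFDerivAt {U : Set X} (hU : IsOpen U) {G : X × ℝ → W}
    (hG : ContDiffOn ℝ ∞ G (U ×ˢ univ)) (a b : ℝ) {x : X} (hx : x ∈ U) :
    HasFDerivAt (fun x => ∫ t in a..b, G (x, t)) (∫ t in a..b, piD G (x, t)) x := by
  have : ProperSpace X := FiniteDimensional.proper_real X
  obtain ⟨K, hK, hKU, hKc⟩ := local_compact_nhds (hU.mem_nhds hx)
  have hO := hU.prod (isOpen_univ (X := ℝ))
  obtain ⟨C, hC⟩ := (hKc.prod (isCompact_uIcc (a := a) (b := b))).exists_bound_of_continuousOn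
    ((piD_sm hU hG).continuousOn.mono (Set.prod_mono hKU (subset_univ _)))
  refine intervalIntegral.hasFDerivAt_integral_of_dominated_of_fderiv_le (F := fun x t => G (x, t))
    (F' := fun x t => piD G (x, t)) (bound := fun _ => C) hK ?_ ?_ ?_ ?_ ?_ ?_
  · filter_upwards [hU.mem_nhds hx] with z hz
    exact (pi_cont hG.continuousOn hz).aestronglyMeasurable
  · exact (pi_cont hG.continuousOn hx).intervalIntegrable _ _
  · exact (pi_cont (piD_sm hU hG).continuousOn hx).aestronglyMeasurable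
  · exact Eventually.of_forall fun t ht z hz => hC (z, t) ⟨hz, uIoc_subset_uIcc ht⟩
  · exact intervalIntegrable_const
  · refine Eventually.of_forall fun t _ z hz => ?_
    have d : DifferentiableAt ℝ G (z, t) :=
      (hG.contDiffAt (hO.mem_nhds ⟨hKU hz, mem_univ _⟩)).differentiableAt (by simp)
    exact HasFDerivAt.comp (g := G) z d.hasFDerivAt (hasFDerivAt_prodMk_left z t)
end aux

theorem pi_nat (n : ℕ) : ∀ {W : Type} [NormedAddCommGroup W] [NormedSpace ℝ W]
    {U : Set X} (_ : IsOpen U) {G : X × ℝ → W} (_ : ContDiffOn ℝ ∞ G (U ×ˢ univ)) (a b : ℝ),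
    ContDiffOn ℝ n (fun x => ∫ t in a..b, G (x, t)) U := by
  induction n with
  | zero =>
    intro W _ _ U hU G hG a b
    exact contDiffOn_zero.2 fun x hx =>
      (pi_hasFDerivAt hU hG a b hx).continuousAt.continuousWithinAt
  | succ n ih =>
    intro W _ _ U hU G hG a b
    push_cast
    refine (contDiffOn_succ_iff_fderiv_of_isOpen hU).2 ⟨fun x hx =>
      (pi_hasFDerivAt hU hG a b hx).differentiableAt.differentiableWithinAt, by simp, ?_⟩
    exact (ih hU (piD_sm hU hG) a b).congr fun x hx => (pi_hasFDerivAt hU hG a b hx).fderiv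
theorem PI_contDiffOn {W : Type} [NormedAddCommGroup W] [NormedSpace ℝ W] [CompleteSpace W]
    {U : Set X} (hU : IsOpen U) {G : X × ℝ → W} (hG : ContDiffOn ℝ ∞ G (U ×ˢ univ)) (a b : ℝ) :
    ContDiffOn ℝ ∞ (fun x => ∫ t in a..b, G (x, t)) U := contDiffOn_infty.2 fun n => pi_nat n hU hG a b
theorem PI_fderiv {W : Type} [NormedAddCommGroup W] [NormedSpace ℝ W] [CompleteSpace W]
    {U : Set X} (hU : IsOpen U) {G : X × ℝ → W} (hG : ContDiffOn ℝ ∞ G (U ×ˢ univ)) (a b : ℝ)
    {x : X} (hx : x ∈ U) (v : X) :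
    fderiv ℝ (fun x => ∫ t in a..b, G (x, t)) x v = ∫ t in a..b, fderiv ℝ G (x, t) (v, 0) := by
  rw [(pi_hasFDerivAt hU hG a b hx).fderiv, ContinuousLinearMap.intervalIntegral_apply
    ((pi_cont (piD_sm hU hG).continuousOn hx).intervalIntegrable _ _)]
  rfl
theorem PI_bound {W : Type} [NormedAddCommGroup W] [NormedSpace ℝ W] [CompleteSpace W]
    {U : Set X} (hU : IsOpen U) {G : X × ℝ → W} (hG : ContDiffOn ℝ ∞ G (U ×ˢ univ)) (a b : ℝ)
    {x : X} (hx : x ∈ U) (k : ℕ) {C : ℝ}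
    (hC : ∀ t ∈ uIcc a b, ‖iteratedFDeriv ℝ k G (x, t)‖ ≤ C) :
    ‖iteratedFDeriv ℝ k (fun x => ∫ t in a..b, G (x, t)) x‖ ≤ |b - a| * C := by
  induction k generalizing W with
  | zero =>
    rw [norm_iteratedFDeriv_zero, mul_comm]
    refine intervalIntegral.norm_integral_le_of_norm_le_const fun t ht => ?_
    simpa using hC t (uIoc_subset_uIcc ht)
  | succ k ih =>
    rw [← norm_iteratedFDeriv_fderiv,
      t1_congr hU (fun x hx => (pi_hasFDerivAt hU hG a b hx).fderiv) hx k]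
    exact ih (piD_sm hU hG) fun t ht => (piD_bd hU hG hx k).trans (hC t ht)
theorem prim_contDiffOn {W : Type} [NormedAddCommGroup W] [NormedSpace ℝ W] [CompleteSpace W]
    {U : Set X} (hU : IsOpen U) {G : X × ℝ → W} (hG : ContDiffOn ℝ ∞ G (U ×ˢ univ)) :
    ContDiffOn ℝ ∞ (prim G) (U ×ˢ univ) := by
  have hO := hU.prod (isOpen_univ (X := ℝ))
  have h1 : ContDiffOn ℝ ∞ (fun z : (X × ℝ) × ℝ => G (z.1.1, z.1.2 * z.2)) ((U ×ˢ univ) ×ˢ univ) :=
    hG.comp (by fun_prop) fun z hz => ⟨hz.1.1, mem_univ _⟩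
  have h2 := contDiffOn_snd.smul (PI_contDiffOn hO h1 0 1)
  refine h2.congr fun y _ => ?_
  have := intervalIntegral.smul_integral_comp_mul_left (a := 0) (b := 1) (fun t => G (y.1, t)) y.2
  simp only [mul_zero, mul_one] at this
  exact this.symm
theorem prim_dθ {W : Type} [NormedAddCommGroup W] [NormedSpace ℝ W] [CompleteSpace W]
    {U : Set X} (hU : IsOpen U) {G : X × ℝ → W} (hG : ContDiffOn ℝ ∞ G (U ×ˢ univ))
    {y : X × ℝ} (hy : y.1 ∈ U) : dθ (prim G) y = G y := by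
  have hO := hU.prod (isOpen_univ (X := ℝ))
  have d : DifferentiableAt ℝ (prim G) y :=
    ((prim_contDiffOn hU hG).contDiffAt (hO.mem_nhds ⟨hy, mem_univ _⟩)).differentiableAt (by simp)
  have c := pi_cont hG.continuousOn hy
  exact (dθ_hasDerivAt d).unique (intervalIntegral.integral_hasDerivAt_right
    (c.intervalIntegrable 0 y.2) (c.stronglyMeasurableAtFilter _ _) c.continuousAt)
theorem prim_fderiv {W : Type} [NormedAddCommGroup W] [NormedSpace ℝ W] [CompleteSpace W]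
    {U : Set X} (hU : IsOpen U) {G : X × ℝ → W} (hG : ContDiffOn ℝ ∞ G (U ×ˢ univ))
    {y : X × ℝ} (hy : y.1 ∈ U) (v : X) :
    fderiv ℝ (prim G) y (v, 0) = prim (fun z => fderiv ℝ G z (v, 0)) y := by
  have hO := hU.prod (isOpen_univ (X := ℝ))
  have d : DifferentiableAt ℝ (prim G) y :=
    ((prim_contDiffOn hU hG).contDiffAt (hO.mem_nhds ⟨hy, mem_univ _⟩)).differentiableAt (by simp)
  exact (dX_eq (fun _ => v) d).trans (PI_fderiv hU hG 0 y.2 hy v)
theorem prim_bound {W : Type} [NormedAddCommGroup W] [NormedSpace ℝ W] [CompleteSpace W]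
    {U : Set X} (hU : IsOpen U) {G : X × ℝ → W} (hG : ContDiffOn ℝ ∞ G (U ×ˢ univ))
    {y : X × ℝ} (hy : y.1 ∈ U) (k : ℕ) {C : ℝ}
    (hC : ∀ j ≤ k, ∀ t, ‖iteratedFDeriv ℝ j G (y.1, t)‖ ≤ C) :
    ‖iteratedFDeriv ℝ k (prim G) y‖ ≤ 2 ^ k * (|y.2| + 1) * C := by
  have hO := hU.prod (isOpen_univ (X := ℝ))
  have hy' : y ∈ U ×ˢ (univ : Set ℝ) := ⟨hy, mem_univ _⟩
  have C0 : 0 ≤ C := (norm_nonneg _).trans (hC 0 (Nat.zero_le _) 0)
  induction k generalizing W with
  | zero =>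
    rw [norm_iteratedFDeriv_zero]
    have := intervalIntegral.norm_integral_le_of_norm_le_const (a := 0) (b := y.2) (C := C)
      (f := fun t => G (y.1, t)) fun t _ => by simpa using hC 0 le_rfl t
    refine le_trans this ?_
    simp only [sub_zero, pow_zero, one_mul]
    nlinarith
  | succ k ih =>
    let L1 : (X →L[ℝ] W) →L[ℝ] (X × ℝ →L[ℝ] W) :=
      (ContinuousLinearMap.compL ℝ (X × ℝ) X W).flip (ContinuousLinearMap.fst ℝ X ℝ)
    let L2 : W →L[ℝ] (X × ℝ →L[ℝ] W) :=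
      ContinuousLinearMap.smulRightL ℝ (X × ℝ) W (ContinuousLinearMap.snd ℝ X ℝ)
    have n1 : ‖L1‖ ≤ 1 := by
      refine ContinuousLinearMap.opNorm_le_bound _ zero_le_one fun f => ?_
      refine ContinuousLinearMap.opNorm_le_bound _ (by positivity) fun v => ?_
      refine (f.le_opNorm v.1).trans ?_
      rw [one_mul]
      exact mul_le_mul_of_nonneg_left (norm_fst_le v) (norm_nonneg _)
    have n2 : ‖L2‖ ≤ 1 := by
      refine ContinuousLinearMap.opNorm_le_bound _ zero_le_one fun f => ?_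
      refine ContinuousLinearMap.opNorm_le_bound _ (by positivity) fun v => ?_
      have : L2 f v = v.2 • f := rfl
      rw [this, norm_smul, one_mul, mul_comm]
      exact mul_le_mul_of_nonneg_left (norm_snd_le v) (norm_nonneg _)
    have e : ∀ z ∈ U ×ˢ (univ : Set ℝ), fderiv ℝ (prim G) z = L1 (prim (piD G) z) + L2 (G z) := by
      intro z hz
      refine ContinuousLinearMap.ext fun v => ?_
      have e1 : v = (v.1, 0) + v.2 • ((0 : X), (1 : ℝ)) := by simp
      have e2 := prim_dθ hU hG hz.1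
      have e3 := prim_fderiv hU hG hz.1 v.1
      have e4 : prim (piD G) z v.1 = prim (fun z => fderiv ℝ G z (v.1, 0)) z :=
        ContinuousLinearMap.intervalIntegral_apply
          ((pi_cont (piD_sm hU hG).continuousOn hz.1).intervalIntegrable _ _) _
      have e5 : (L1 (prim (piD G) z) + L2 (G z)) v = prim (piD G) z v.1 + v.2 • G z := rfl
      rw [e5, e4, ← e3, ← e2]
      conv_lhs => rw [e1, map_add, map_smul]
      rfl
    have c1 : ContDiffAt ℝ ∞ (prim (piD G)) y :=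
      (prim_contDiffOn hU (piD_sm hU hG)).contDiffAt (hO.mem_nhds hy')
    have c2 : ContDiffAt ℝ ∞ G y := hG.contDiffAt (hO.mem_nhds hy')
    have b1 := L1.norm_iteratedFDeriv_comp_left c1 (t1_nat_le k)
    have b2 := L2.norm_iteratedFDeriv_comp_left c2 (t1_nat_le k)
    have b3 := ih (piD_sm hU hG) fun j hj t =>
      (piD_bd hU hG (y := (y.1, t)) hy j).trans (hC (j + 1) (by omega) t)
    have b4 : ‖iteratedFDeriv ℝ k G y‖ ≤ C := hC k (by omega) y.2
    have e' : ∀ z ∈ U ×ˢ (univ : Set ℝ), fderiv ℝ (prim G) z = (L1 ∘ prim (piD G) + L2 ∘ G) z := e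
    rw [← norm_iteratedFDeriv_fderiv, t1_congr hO e' hy' k, iteratedFDeriv_add_apply
      ((L1.contDiff.contDiffAt.comp y c1).of_le (t1_nat_le k))
      ((L2.contDiff.contDiffAt.comp y c2).of_le (t1_nat_le k))]
    refine (norm_add_le _ _).trans ?_
    have b5 := b1.trans (mul_le_of_le_one_left (norm_nonneg _) n1)
    have b6 := b2.trans (mul_le_of_le_one_left (norm_nonneg _) n2)
    have b7 : C ≤ 2 ^ k * (|y.2| + 1) * C := by
      refine le_mul_of_one_le_left C0 ?_
      have : (1 : ℝ) ≤ 2 ^ k := one_le_pow₀ (by norm_num)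
      nlinarith [abs_nonneg y.2]
    rw [pow_succ]
    linarith

end Vale.Agent.P205
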