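import Vale.Agent.P205.D1

open Set Filter Topology
open scoped ContDiff

noncomputable section
namespace Vale.Agent.P205

variable {ι : Type*} {X W W1 W2 W3 : Type} [NormedAddCommGroup X] [NormedSpace ℝ X]
  [NormedAddCommGroup W] [NormedSpace ℝ W] [NormedAddCommGroup W1] [NormedSpace ℝ W1]
  [NormedAddCommGroup W2] [NormedSpace ℝ W2] [NormedAddCommGroup W3] [NormedSpace ℝ W3]
  {A : Fam ι X}

/-! T1: calculus of `Fam.Le` and `Tm` (algebra). Add any further helper lemma you like. -/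

theorem t1_pow_pos {X : Type} [TopologicalSpace X] (A : Fam ι X) (i : ι) (c : ℕ) : 0 < A.τ i ^ c :=
  pow_pos (lt_of_lt_of_le one_pos (A.one_le i)) c
theorem t1_pow_le {X : Type} [TopologicalSpace X] (A : Fam ι X) (i : ι) {c c' : ℕ} (h : c ≤ c') :
    A.τ i ^ c ≤ A.τ i ^ c' := pow_le_pow_right₀ (A.one_le i) h
theorem t1_nat_le (k : ℕ) : (k : WithTop ℕ∞) ≤ ∞ := by exact_mod_cast le_top
theorem Fam.Le.of_le {w w' : ι → X → ℝ} (h : ∀ i, ∀ y ∈ A.O i, w i y ≤ w' i y)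
    (h0 : ∀ i, ∀ y ∈ A.O i, 0 ≤ w' i y) : A.Le w w' := by
  have _ := h0
  exact ⟨1, 0, one_pos, fun i y hy => by simpa using h i y hy⟩
theorem Fam.Le.of_le_const {w w' : ι → X → ℝ} (C : ℝ) (h : ∀ i, ∀ y ∈ A.O i, w i y ≤ C * w' i y)
    (h0 : ∀ i, ∀ y ∈ A.O i, 0 ≤ w' i y) : A.Le w w' := by
  refine ⟨max C 1, 0, lt_of_lt_of_le one_pos (le_max_right _ _), fun i y hy => ?_⟩
  have := mul_le_mul_of_nonneg_right (le_max_left C 1) (h0 i y hy)
  simpa using (h i y hy).trans this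
theorem Fam.Le.trans {w w' w'' : ι → X → ℝ} (h : A.Le w w') (h' : A.Le w' w'') : A.Le w w'' := by
  obtain ⟨C, c, hC, h⟩ := h
  obtain ⟨C', c', hC', h'⟩ := h'
  refine ⟨C * C', c + c', mul_pos hC hC', fun i y hy => ?_⟩
  have p : 0 ≤ C * A.τ i ^ c := (mul_pos hC (t1_pow_pos A i c)).le
  calc w i y ≤ C * A.τ i ^ c * w' i y := h i y hy
    _ ≤ C * A.τ i ^ c * (C' * A.τ i ^ c' * w'' i y) := mul_le_mul_of_nonneg_left (h' i y hy) p
    _ = _ := by ring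
theorem Fam.Le.add {w1 w2 w : ι → X → ℝ} (h1 : A.Le w1 w) (h2 : A.Le w2 w)
    (h0 : ∀ i, ∀ y ∈ A.O i, 0 ≤ w i y) : A.Le (fun i y => w1 i y + w2 i y) w := by
  obtain ⟨C, c, hC, h⟩ := h1
  obtain ⟨C', c', hC', h'⟩ := h2
  refine ⟨C + C', c + c', add_pos hC hC', fun i y hy => ?_⟩
  have a1 : C * A.τ i ^ c * w i y ≤ C * A.τ i ^ (c + c') * w i y :=
    mul_le_mul_of_nonneg_right (mul_le_mul_of_nonneg_left (t1_pow_le A i (by omega)) hC.le) (h0 i y hy)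
  have a2 : C' * A.τ i ^ c' * w i y ≤ C' * A.τ i ^ (c + c') * w i y :=
    mul_le_mul_of_nonneg_right (mul_le_mul_of_nonneg_left (t1_pow_le A i (by omega)) hC'.le) (h0 i y hy)
  have := h i y hy
  have := h' i y hy
  linarith
theorem Fam.Le.mul {w1 w2 v1 v2 : ι → X → ℝ} (h1 : A.Le w1 v1) (h2 : A.Le w2 v2)
    (p2 : ∀ i, ∀ y ∈ A.O i, 0 ≤ w2 i y) (q1 : ∀ i, ∀ y ∈ A.O i, 0 ≤ v1 i y) :
    A.Le (fun i y => w1 i y * w2 i y) (fun i y => v1 i y * v2 i y) := by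
  obtain ⟨C, c, hC, h⟩ := h1
  obtain ⟨C', c', hC', h'⟩ := h2
  refine ⟨C * C', c + c', mul_pos hC hC', fun i y hy => ?_⟩
  have p : 0 ≤ C * A.τ i ^ c * v1 i y := mul_nonneg (mul_pos hC (t1_pow_pos A i c)).le (q1 i y hy)
  calc w1 i y * w2 i y ≤ C * A.τ i ^ c * v1 i y * w2 i y :=
        mul_le_mul_of_nonneg_right (h i y hy) (p2 i y hy)
    _ ≤ C * A.τ i ^ c * v1 i y * (C' * A.τ i ^ c' * v2 i y) := mul_le_mul_of_nonneg_left (h' i y hy) p
    _ = _ := by ring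
theorem Fam.Le.mul_right {w v u : ι → X → ℝ} (h : A.Le w v) (p : ∀ i, ∀ y ∈ A.O i, 0 ≤ u i y) :
    A.Le (fun i y => w i y * u i y) (fun i y => v i y * u i y) := by
  obtain ⟨C, c, hC, h⟩ := h
  refine ⟨C, c, hC, fun i y hy => ?_⟩
  calc w i y * u i y ≤ C * A.τ i ^ c * v i y * u i y := mul_le_mul_of_nonneg_right (h i y hy) (p i y hy)
    _ = _ := by ring
theorem Fam.Le.congr {w v w' v' : ι → X → ℝ} (h : A.Le w v) (hw : ∀ i, ∀ y ∈ A.O i, w' i y = w i y)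
    (hv : ∀ i, ∀ y ∈ A.O i, v' i y = v i y) : A.Le w' v' := by
  obtain ⟨C, c, hC, h⟩ := h
  refine ⟨C, c, hC, fun i y hy => ?_⟩
  rw [hw i y hy, hv i y hy]
  exact h i y hy
theorem Fam.Le.anti {A' : Fam ι X} {w v : ι → X → ℝ} (h : A.Le w v) (hτ : A'.τ = A.τ)
    (hO : ∀ i, A'.O i ⊆ A.O i) : A'.Le w v := by
  obtain ⟨C, c, hC, h⟩ := h
  refine ⟨C, c, hC, fun i y hy => ?_⟩
  rw [hτ]
  exact h i y (hO i hy)
theorem Fam.Le.up {w v : ι → X → ℝ} (h : A.Le w v) : A.cyl.Le (up w) (up v) := by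
  obtain ⟨C, c, hC, h⟩ := h
  exact ⟨C, c, hC, fun i y hy => h i y.1 hy.1⟩
theorem Fam.Le.tau (c : ℕ) : A.Le (fun i _ => A.τ i ^ c) (fun _ _ => 1) := ⟨1, c, one_pos, fun i y _ => by simp⟩

theorem Fam.Le.refl' (w : ι → X → ℝ) : A.Le w w := ⟨1, 0, one_pos, fun i y _ => by simp⟩
theorem Fam.Le.le_trans {w w' w'' : ι → X → ℝ} (h : ∀ i, ∀ y ∈ A.O i, w i y ≤ w' i y)
    (h' : A.Le w' w'') : A.Le w w'' := by
  obtain ⟨C, c, hC, h'⟩ := h'
  exact ⟨C, c, hC, fun i y hy => (h i y hy).trans (h' i y hy)⟩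
theorem Fam.Le.const_mul {w v : ι → X → ℝ} {c : ℝ} (hc : 0 ≤ c) (h : A.Le w v)
    (h0 : ∀ i, ∀ y ∈ A.O i, 0 ≤ v i y) : A.Le (fun i y => c * w i y) v := by
  obtain ⟨C, e, hC, h⟩ := h
  refine ⟨(c + 1) * C, e, by positivity, fun i y hy => ?_⟩
  have p : 0 ≤ C * A.τ i ^ e * v i y := mul_nonneg (mul_pos hC (t1_pow_pos A i e)).le (h0 i y hy)
  have := mul_le_mul_of_nonneg_left (h i y hy) hc
  nlinarith
theorem Fam.Le.sum {κ : Type*} (s : Finset κ) {f : κ → ι → X → ℝ} {v : ι → X → ℝ}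
    (h0 : ∀ i, ∀ y ∈ A.O i, 0 ≤ v i y) (h : ∀ j ∈ s, A.Le (f j) v) :
    A.Le (fun i y => ∑ j ∈ s, f j i y) v := by
  classical
  induction s using Finset.induction_on with
  | empty => exact Fam.Le.of_le (fun i y hy => by simpa using h0 i y hy) h0
  | insert a s ha ih =>
    have := (h a (Finset.mem_insert_self _ _)).add (ih fun j hj => h j (Finset.mem_insert_of_mem hj)) h0
    exact this.congr (fun i y _ => by rw [Finset.sum_insert ha]) (fun _ _ _ => rfl)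
theorem t1_congr {u v : X → W} {O : Set X} (hO : IsOpen O) (e : ∀ y ∈ O, v y = u y) {y : X}
    (hy : y ∈ O) (k : ℕ) : iteratedFDeriv ℝ k v y = iteratedFDeriv ℝ k u y := by
  have : v =ᶠ[𝓝 y] u := Filter.eventually_of_mem (hO.mem_nhds hy) e
  exact (this.iteratedFDeriv ℝ k).eq_of_nhds
theorem t1_bilin (B : W1 →L[ℝ] W2 →L[ℝ] W3) {u : X → W1} {v : X → W2} {O : Set X} (hO : IsOpen O)
    (hu : ContDiffOn ℝ ∞ u O) (hv : ContDiffOn ℝ ∞ v O) {y : X} (hy : y ∈ O) (k : ℕ) :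
    ‖iteratedFDeriv ℝ k (fun y => B (u y) (v y)) y‖ ≤ ‖B‖ * ∑ j ∈ Finset.range (k + 1),
      (k.choose j : ℝ) * (‖iteratedFDeriv ℝ j u y‖ * ‖iteratedFDeriv ℝ (k - j) v y‖) := by
  have := B.norm_iteratedFDerivWithin_le_of_bilinear hu hv hO.uniqueDiffOn hy (t1_nat_le k)
  simp only [iteratedFDerivWithin_of_isOpen _ hO hy, mul_assoc] at this
  exact this
theorem t1_comp_right {X' : Type} [NormedAddCommGroup X'] [NormedSpace ℝ X'] (L : X' →L[ℝ] X)
    {u : X → W} {O : Set X} (hO : IsOpen O) (hu : ContDiffOn ℝ ∞ u O) {y : X'} (hy : L y ∈ O) (k : ℕ) :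
    ‖iteratedFDeriv ℝ k (fun z => u (L z)) y‖ ≤ ‖iteratedFDeriv ℝ k u (L y)‖ * ‖L‖ ^ k := by
  have hO' : IsOpen (L ⁻¹' O) := hO.preimage L.continuous
  have := L.iteratedFDerivWithin_comp_right hu hO.uniqueDiffOn hO'.uniqueDiffOn hy (t1_nat_le k)
  rw [iteratedFDerivWithin_of_isOpen _ hO hy, iteratedFDerivWithin_of_isOpen _ hO' hy] at this
  have e : (fun z => u (L z)) = u ∘ L := rfl
  rw [e, this]
  simpa using ContinuousMultilinearMap.norm_compContinuousLinearMap_le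
    (iteratedFDeriv ℝ k u (L y)) (fun _ => L)
theorem Tm.mono {w w' : ι → X → ℝ} {u : ι → X → W} (h : Tm A w u) (hw : A.Le w w')
    (h0 : ∀ i, ∀ y ∈ A.O i, 0 ≤ w' i y) : Tm A w' u := ⟨h.sm, h0, fun k => (h.bd k).trans hw⟩
theorem Tm.mono_le {w w' : ι → X → ℝ} {u : ι → X → W} (h : Tm A w u)
    (hw : ∀ i, ∀ y ∈ A.O i, w i y ≤ w' i y) : Tm A w' u := h.mono (Fam.Le.of_le hw fun i y hy => (h.nn i y hy).trans (hw i y hy))
    fun i y hy => (h.nn i y hy).trans (hw i y hy)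
theorem Tm.congr {w : ι → X → ℝ} {u v : ι → X → W} (h : Tm A w u)
    (e : ∀ i, ∀ y ∈ A.O i, v i y = u i y) : Tm A w v := ⟨fun i => (h.sm i).congr (e i), h.nn, fun k => (h.bd k).congr
    (fun i y hy => by rw [t1_congr (A.op i) (e i) hy]) (fun _ _ _ => rfl)⟩
theorem Tm.anti {A' : Fam ι X} {w : ι → X → ℝ} {u : ι → X → W} (h : Tm A w u) (hτ : A'.τ = A.τ)
    (hO : ∀ i, A'.O i ⊆ A.O i) : Tm A' w u := ⟨fun i => (h.sm i).mono (hO i), fun i y hy => h.nn i y (hO i hy), fun k => (h.bd k).anti hτ hO⟩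
theorem TmC.anti {A' : Fam ι X} {w : ι → X → ℝ} {u : ι → X × ℝ → W} (h : TmC A w u)
    (hτ : A'.τ = A.τ) (hO : ∀ i, A'.O i ⊆ A.O i) : TmC A' w u := Tm.anti h hτ fun i => Set.prod_mono (hO i) Subset.rfl
theorem TmC.mono {w w' : ι → X → ℝ} {u : ι → X × ℝ → W} (h : TmC A w u) (hw : A.Le w w')
    (h0 : ∀ i, ∀ y ∈ A.O i, 0 ≤ w' i y) : TmC A w' u := Tm.mono h hw.up fun i y hy => h0 i y.1 hy.1
theorem TmC.mono_le {w w' : ι → X → ℝ} {u : ι → X × ℝ → W} (h : TmC A w u)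
    (hw : ∀ i, ∀ y ∈ A.O i, w i y ≤ w' i y) : TmC A w' u := Tm.mono_le h fun i y hy => hw i y.1 hy.1
theorem Tm.norm_le {w : ι → X → ℝ} {u : ι → X → W} (h : Tm A w u) :
    A.Le (fun i y => ‖u i y‖) w := (h.bd 0).congr (fun i y _ => by rw [norm_iteratedFDeriv_zero]) (fun _ _ _ => rfl)
theorem Tm.diffAt {w : ι → X → ℝ} {u : ι → X → W} (h : Tm A w u) (i : ι) {y : X} (hy : y ∈ A.O i) :
    DifferentiableAt ℝ (u i) y := ((h.sm i).contDiffAt ((A.op i).mem_nhds hy)).differentiableAt (by simp)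
theorem Tm.contDiffAt {w : ι → X → ℝ} {u : ι → X → W} (h : Tm A w u) (i : ι) {y : X}
    (hy : y ∈ A.O i) : ContDiffAt ℝ ∞ (u i) y := (h.sm i).contDiffAt ((A.op i).mem_nhds hy)
theorem Tm.zero {w : ι → X → ℝ} (h0 : ∀ i, ∀ y ∈ A.O i, 0 ≤ w i y) :
    Tm A w (fun _ _ => (0 : W)) := ⟨fun _ => contDiffOn_const, h0, fun k => Fam.Le.of_le (fun i y hy => by simpa using h0 i y hy) h0⟩
theorem Tm.const (c : W) : Tm A (fun _ _ => 1) (fun _ _ => c) := by
  refine ⟨fun _ => contDiffOn_const, fun _ _ _ => zero_le_one, fun k => ?_⟩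
  refine Fam.Le.of_le_const ‖c‖ (fun i y _ => ?_) (fun _ _ _ => zero_le_one)
  rcases k with _ | k
  · simp
  · rw [iteratedFDeriv_const_of_ne (Nat.succ_ne_zero k)]; simp
theorem Tm.famc {w : ι → X → ℝ} (c : ι → W) (h : A.Le (fun i _ => ‖c i‖) w)
    (h0 : ∀ i, ∀ y ∈ A.O i, 0 ≤ w i y) : Tm A w (fun i _ => c i) := by
  refine ⟨fun _ => contDiffOn_const, h0, fun k => ?_⟩
  refine Fam.Le.le_trans (fun i y _ => ?_) h
  rcases k with _ | k
  · simp
  · rw [iteratedFDeriv_const_of_ne (Nat.succ_ne_zero k)]; simp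
theorem Tm.add {w : ι → X → ℝ} {u v : ι → X → W} (h : Tm A w u) (h' : Tm A w v) :
    Tm A w (fun i y => u i y + v i y) := by
  refine ⟨fun i => (h.sm i).add (h'.sm i), h.nn, fun k => ?_⟩
  refine Fam.Le.le_trans (fun i y hy => ?_) ((h.bd k).add (h'.bd k) h.nn)
  rw [fun_iteratedFDeriv_add_apply ((h.contDiffAt i hy).of_le (t1_nat_le k))
    ((h'.contDiffAt i hy).of_le (t1_nat_le k))]
  exact norm_add_le _ _
theorem Tm.neg {w : ι → X → ℝ} {u : ι → X → W} (h : Tm A w u) : Tm A w (fun i y => -u i y) := by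
  refine ⟨fun i => (h.sm i).neg, h.nn, fun k => ?_⟩
  refine Fam.Le.le_trans (fun i y hy => ?_) (h.bd k)
  have e : (fun y => -u i y) = -u i := rfl
  rw [e, iteratedFDeriv_neg_apply, norm_neg]
theorem Tm.sub {w : ι → X → ℝ} {u v : ι → X → W} (h : Tm A w u) (h' : Tm A w v) :
    Tm A w (fun i y => u i y - v i y) := (h.add h'.neg).congr fun i y _ => sub_eq_add_neg _ _
theorem Tm.sum {κ : Type*} (s : Finset κ) {w : ι → X → ℝ} {u : κ → ι → X → W}
    (h0 : ∀ i, ∀ y ∈ A.O i, 0 ≤ w i y) (h : ∀ j ∈ s, Tm A w (u j)) :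
    Tm A w (fun i y => ∑ j ∈ s, u j i y) := by
  classical
  induction s using Finset.induction_on with
  | empty => exact (Tm.zero h0).congr fun i y _ => by simp
  | insert a s ha ih =>
    have := (h a (Finset.mem_insert_self _ _)).add (ih fun j hj => h j (Finset.mem_insert_of_mem hj))
    exact this.congr fun i y _ => by rw [Finset.sum_insert ha]
theorem Tm.clm (L : W →L[ℝ] W1) {w : ι → X → ℝ} {u : ι → X → W} (h : Tm A w u) :
    Tm A w (fun i y => L (u i y)) := by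
  refine ⟨fun i => L.contDiff.comp_contDiffOn (h.sm i), h.nn, fun k => ?_⟩
  refine Fam.Le.le_trans (fun i y hy => ?_) ((h.bd k).const_mul (norm_nonneg L) h.nn)
  exact L.norm_iteratedFDeriv_comp_left (h.contDiffAt i hy) (t1_nat_le k)
theorem Tm.const_smul (c : ℝ) {w : ι → X → ℝ} {u : ι → X → W} (h : Tm A w u) :
    Tm A w (fun i y => c • u i y) := (h.clm (c • ContinuousLinearMap.id ℝ W)).congr fun i y _ => by simp
theorem Tm.const_mul (c : ℝ) {w : ι → X → ℝ} {u : ι → X → ℝ} (h : Tm A w u) :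
    Tm A w (fun i y => c * u i y) := (h.const_smul c).congr fun i y _ => by simp
theorem Tm.bilin (B : W1 →L[ℝ] W2 →L[ℝ] W3) {w1 w2 : ι → X → ℝ} {u : ι → X → W1} {v : ι → X → W2}
    (h : Tm A w1 u) (h' : Tm A w2 v) :
    Tm A (fun i y => w1 i y * w2 i y) (fun i y => B (u i y) (v i y)) := by
  have nn : ∀ i, ∀ y ∈ A.O i, 0 ≤ w1 i y * w2 i y := fun i y hy => mul_nonneg (h.nn i y hy) (h'.nn i y hy)
  refine ⟨fun i => (B.contDiff.comp_contDiffOn (h.sm i)).clm_apply (h'.sm i), nn, fun k => ?_⟩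
  refine Fam.Le.le_trans (fun i y hy => t1_bilin B (A.op i) (h.sm i) (h'.sm i) hy k) ?_
  refine Fam.Le.const_mul (norm_nonneg B) (Fam.Le.sum _ nn fun j _ => ?_) nn
  exact Fam.Le.const_mul (Nat.cast_nonneg _)
    ((h.bd j).mul (h'.bd (k - j)) (fun _ _ _ => norm_nonneg _) h.nn) nn
theorem Tm.smul {w1 w2 : ι → X → ℝ} {u : ι → X → ℝ} {v : ι → X → W}
    (h : Tm A w1 u) (h' : Tm A w2 v) :
    Tm A (fun i y => w1 i y * w2 i y) (fun i y => u i y • v i y) := (Tm.bilin (ContinuousLinearMap.lsmul ℝ ℝ) h h').congr fun i y _ => by simp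
theorem Tm.mul {w1 w2 : ι → X → ℝ} {u v : ι → X → ℝ} (h : Tm A w1 u) (h' : Tm A w2 v) :
    Tm A (fun i y => w1 i y * w2 i y) (fun i y => u i y * v i y) := (h.smul h').congr fun i y _ => by simp
theorem Tm.coord {n : ℕ} {w : ι → X → ℝ} {u : ι → X → Fin n → ℝ} (h : Tm A w u) (j : Fin n) :
    Tm A w (fun i y => u i y j) :=
  (h.clm (ContinuousLinearMap.proj (R := ℝ) (φ := fun _ : Fin n => ℝ) j)).congr fun i y _ => by simp
theorem Tm.dot {w1 w2 : ι → X → ℝ} {u v : ι → X → V} (h : Tm A w1 u) (h' : Tm A w2 v) :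
    Tm A (fun i y => w1 i y * w2 i y) (fun i y => u i y ⬝ᵥ v i y) := (Tm.sum Finset.univ (fun i y hy => mul_nonneg (h.nn i y hy) (h'.nn i y hy))
    (fun j _ => (h.coord j).mul (h'.coord j))).congr fun i y _ => rfl
theorem Tm.app {w1 w2 : ι → X → ℝ} {u : ι → X → (W1 →L[ℝ] W2)} {v : ι → X → W1}
    (h : Tm A w1 u) (h' : Tm A w2 v) :
    Tm A (fun i y => w1 i y * w2 i y) (fun i y => u i y (v i y)) := (Tm.bilin (ContinuousLinearMap.id ℝ (W1 →L[ℝ] W2)) h h').congr fun i y _ => by simp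
theorem Tm.pi' {n : ℕ} {w : ι → X → ℝ} {u : ι → X → Fin n → ℝ}
    (h0 : ∀ i, ∀ y ∈ A.O i, 0 ≤ w i y) (h : ∀ j, Tm A w (fun i y => u i y j)) : Tm A w u := by
  have := Tm.sum Finset.univ h0 (fun j _ =>
    (h j).clm (ContinuousLinearMap.single ℝ (fun _ : Fin n => ℝ) j))
  refine this.congr fun i y _ => ?_
  simp only [ContinuousLinearMap.single_apply]
  exact (Finset.univ_sum_single _).symm
theorem Tm.cr {w1 w2 w3 : ι → X → ℝ} {u1 u2 u3 : ι → X → V} (h1 : Tm A w1 u1) (h2 : Tm A w2 u2)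
    (h3 : Tm A w3 u3) :
    Tm A (fun i y => w1 i y * w2 i y * w3 i y) (fun i y => cr (u1 i y) (u2 i y) (u3 i y)) := by
  have m : ∀ a b c : Fin 4, Tm A (fun i y => w1 i y * w2 i y * w3 i y)
      (fun i y => u1 i y a * u2 i y b * u3 i y c) := fun a b c =>
    ((h1.coord a).mul (h2.coord b)).mul (h3.coord c)
  have s6 : ∀ a b c : Fin 4, Tm A (fun i y => w1 i y * w2 i y * w3 i y)
      (fun i y => u1 i y a * (u2 i y b * u3 i y c - u2 i y c * u3 i y b)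
        - u1 i y b * (u2 i y a * u3 i y c - u2 i y c * u3 i y a)
        + u1 i y c * (u2 i y a * u3 i y b - u2 i y b * u3 i y a)) := fun a b c =>
    ((((m a b c).sub (m a c b)).sub ((m b a c).sub (m b c a))).add ((m c a b).sub (m c b a))).congr
      fun i y _ => by ring
  refine Tm.pi' (m 0 0 0).nn fun j => ?_
  fin_cases j
  · exact (s6 1 2 3).congr fun i y _ => rfl
  · exact (s6 0 2 3).neg.congr fun i y _ => rfl
  · exact (s6 0 1 3).congr fun i y _ => rfl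
  · exact (s6 0 1 2).neg.congr fun i y _ => rfl
theorem Tm.prodMk {w : ι → X → ℝ} {u : ι → X → W1} {v : ι → X → W2} (h : Tm A w u) (h' : Tm A w v) :
    Tm A w (fun i y => (u i y, v i y)) := ((h.clm (ContinuousLinearMap.inl ℝ W1 W2)).add (h'.clm (ContinuousLinearMap.inr ℝ W1 W2))).congr
    fun i y _ => by simp
theorem Tm.pi {n : ℕ} {w : ι → X → ℝ} {u : ι → X → Fin n → ℝ}
    (h0 : ∀ i, ∀ y ∈ A.O i, 0 ≤ w i y) (h : ∀ j, Tm A w (fun i y => u i y j)) : Tm A w u := Tm.pi' h0 h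
theorem Tm.fderiv {w : ι → X → ℝ} {u : ι → X → W} (h : Tm A w u) :
    Tm A w (fun i y => fderiv ℝ (u i) y) := by
  refine ⟨fun i => (h.sm i).fderiv_of_isOpen (A.op i) (by simp), h.nn, fun k => ?_⟩
  exact (h.bd (k + 1)).congr (fun i y _ => norm_iteratedFDeriv_fderiv) (fun _ _ _ => rfl)
theorem Tm.of_fderiv {w : ι → X → ℝ} {u : ι → X → W} (hs : ∀ i, ContDiffOn ℝ ∞ (u i) (A.O i))
    (h0 : A.Le (fun i y => ‖u i y‖) w) (h : Tm A w (fun i y => _root_.fderiv ℝ (u i) y)) :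
    Tm A w u := by
  refine ⟨hs, h.nn, fun k => ?_⟩
  rcases k with _ | k
  · exact h0.congr (fun i y _ => norm_iteratedFDeriv_zero) (fun _ _ _ => rfl)
  · exact (h.bd k).congr (fun i y _ => norm_iteratedFDeriv_fderiv.symm) (fun _ _ _ => rfl)
theorem Tm.lift {w : ι → X → ℝ} {u : ι → X → W} (h : Tm A w u) :
    TmC A w (fun i y => u i y.1) := by
  refine ⟨fun i => (h.sm i).comp contDiffOn_fst fun y hy => hy.1, fun i y hy => h.nn i y.1 hy.1,
    fun k => ?_⟩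
  refine Fam.Le.le_trans (fun i y hy => ?_) (h.bd k).up
  have := t1_comp_right (ContinuousLinearMap.fst ℝ X ℝ) (A.op i) (h.sm i) (y := y) hy.1 k
  refine this.trans ?_
  have h1 : ‖ContinuousLinearMap.fst ℝ X ℝ‖ ^ k ≤ 1 :=
    pow_le_one₀ (norm_nonneg _) (ContinuousLinearMap.norm_fst_le ..)
  exact mul_le_of_le_one_right (norm_nonneg _) h1
theorem TmC.dθ {w : ι → X → ℝ} {u : ι → X × ℝ → W} (h : TmC A w u) :
    TmC A w (fun i => dθ (u i)) := ((Tm.fderiv h).clm (ContinuousLinearMap.apply ℝ W ((0 : X), (1 : ℝ)))).congr fun i y _ => rfl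
theorem TmC.dX {w w' : ι → X → ℝ} {u : ι → X × ℝ → W} {C : ι → X → X} (hC : Tm A w' C)
    (h : TmC A w u) : TmC A (fun i x => w' i x * w i x) (fun i => dX (C i) (u i)) := by
  have := (Tm.fderiv h).app ((Tm.lift hC).clm (ContinuousLinearMap.inl ℝ X ℝ))
  refine (this.mono_le fun i y _ => le_of_eq (mul_comm _ _)).congr fun i y _ => rfl
theorem Tm.dV {w w' : ι → X → ℝ} {u : ι → X → W} {C : ι → X → X} (hC : Tm A w' C)
    (h : Tm A w u) : Tm A (fun i x => w' i x * w i x) (fun i => dV (C i) (u i)) := ((h.fderiv.app hC).mono_le fun i y _ => le_of_eq (mul_comm _ _)).congr fun i y _ => rfl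

/-! pointwise rules -/
theorem t1_fderiv_lift (u : X → W) (y : X × ℝ) (v : X × ℝ) :
    fderiv ℝ (fun z : X × ℝ => u z.1) y v = fderiv ℝ u y.1 v.1 := by
  by_cases hu : DifferentiableAt ℝ u y.1
  · have := hu.hasFDerivAt.comp y (hasFDerivAt_fst (𝕜 := ℝ) (p := y))
    have e : (fun z : X × ℝ => u z.1) = u ∘ Prod.fst := rfl
    rw [e, this.fderiv]
    simp
  · have h2 : ¬ DifferentiableAt ℝ (fun z : X × ℝ => u z.1) y := by
      intro h
      apply hu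
      have h3 : DifferentiableAt ℝ (fun x : X => (x, y.2)) y.1 := by fun_prop
      exact DifferentiableAt.comp (g := fun z : X × ℝ => u z.1) y.1 h h3
    rw [fderiv_zero_of_not_differentiableAt hu, fderiv_zero_of_not_differentiableAt h2]
    simp
theorem dθ_lift (u : X → W) (y : X × ℝ) : dθ (fun z : X × ℝ => u z.1) y = 0 := by
  simp [dθ, t1_fderiv_lift]
theorem dX_lift (C : X → X) (u : X → W) (y : X × ℝ) :
    dX C (fun z : X × ℝ => u z.1) y = dV C u y.1 := by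
  simp [dX, dV, t1_fderiv_lift]
theorem dθ_hasDerivAt {u : X × ℝ → W} {y : X × ℝ} (h : DifferentiableAt ℝ u y) :
    HasDerivAt (fun t => u (y.1, t)) (dθ u y) y.2 := by
  have h1 : HasDerivAt (fun t : ℝ => (y.1, t)) ((0 : X), (1 : ℝ)) y.2 :=
    (hasDerivAt_const _ _).prodMk (hasDerivAt_id _)
  exact h.hasFDerivAt.comp_hasDerivAt y.2 h1
theorem dX_eq {u : X × ℝ → W} {y : X × ℝ} (C : X → X) (h : DifferentiableAt ℝ u y) :
    dX C u y = dV C (fun x => u (x, y.2)) y.1 := by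
  have h1 : HasFDerivAt (fun x : X => (x, y.2)) (ContinuousLinearMap.inl ℝ X ℝ) y.1 :=
    hasFDerivAt_prodMk_left _ _
  have h2 := HasFDerivAt.comp (g := u) y.1 h.hasFDerivAt h1
  have e : (fun x => u (x, y.2)) = u ∘ fun x : X => (x, y.2) := rfl
  simp only [dX, dV]
  rw [e, h2.fderiv]
  simp
theorem fderiv_dot {u v : X → V} {y : X} (hu : DifferentiableAt ℝ u y) (hv : DifferentiableAt ℝ v y)
    (e : X) : fderiv ℝ (fun z => u z ⬝ᵥ v z) y e = fderiv ℝ u y e ⬝ᵥ v y + u y ⬝ᵥ fderiv ℝ v y e := by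
  have hu' : ∀ j, HasFDerivAt (fun z => u z j)
      ((ContinuousLinearMap.proj (R := ℝ) (φ := fun _ : Fin 4 => ℝ) j).comp (fderiv ℝ u y)) y :=
    fun j => hasFDerivAt_pi'.1 hu.hasFDerivAt j
  have hv' : ∀ j, HasFDerivAt (fun z => v z j)
      ((ContinuousLinearMap.proj (R := ℝ) (φ := fun _ : Fin 4 => ℝ) j).comp (fderiv ℝ v y)) y :=
    fun j => hasFDerivAt_pi'.1 hv.hasFDerivAt j
  have := HasFDerivAt.fun_sum (u := Finset.univ) fun j _ => (hu' j).fun_mul (hv' j)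
  have e1 : (fun z => u z ⬝ᵥ v z) = fun z => ∑ j, u z j * v z j := rfl
  rw [e1, this.fderiv]
  simp [dotProduct, Fin.sum_univ_four]
  ring
theorem fderiv_smul' {u : X → ℝ} {v : X → W} {y : X} (hu : DifferentiableAt ℝ u y)
    (hv : DifferentiableAt ℝ v y) (e : X) :
    fderiv ℝ (fun z => u z • v z) y e = fderiv ℝ u y e • v y + u y • fderiv ℝ v y e := by
  rw [fderiv_fun_smul hu hv]
  simp [add_comm]
theorem t1_d2_symm {G : X → W} {x : X} (h : ContDiffAt ℝ ∞ G x) (v w : X) :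
    fderiv ℝ (fderiv ℝ G) x v w = fderiv ℝ (fderiv ℝ G) x w v :=
  h.isSymmSndFDerivAt (by simp only [minSmoothness_of_isRCLikeNormedField]; exact t1_nat_le 2) v w
theorem t1_fderiv_app {G : X → W} {c : X → X} {x : X} (h : ContDiffAt ℝ ∞ G x)
    (hc : DifferentiableAt ℝ c x) (v : X) :
    fderiv ℝ (fun z => fderiv ℝ G z (c z)) x v
      = fderiv ℝ (fderiv ℝ G) x v (c x) + fderiv ℝ G x (fderiv ℝ c x v) := by
  have h1 : DifferentiableAt ℝ (fderiv ℝ G) x :=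
    (h.fderiv_right (m := 1) (t1_nat_le 2)).differentiableAt (by simp)
  rw [fderiv_clm_apply h1 hc]
  simp [add_comm]
theorem dX_dθ_comm {u : X × ℝ → W} {C : X → X} {y : X × ℝ} (hu : ContDiffAt ℝ ∞ u y)
    (hC : DifferentiableAt ℝ C y.1) : dX C (dθ u) y = dθ (dX C u) y := by
  have hc : HasFDerivAt (fun z : X × ℝ => (C z.1, (0 : ℝ)))
      ((ContinuousLinearMap.inl ℝ X ℝ).comp ((fderiv ℝ C y.1).comp (ContinuousLinearMap.fst ℝ X ℝ))) y :=
    (ContinuousLinearMap.inl ℝ X ℝ).hasFDerivAt.comp y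
      (hC.hasFDerivAt.comp y (hasFDerivAt_fst (𝕜 := ℝ) (p := y)))
  have e1 := t1_fderiv_app hu (c := fun _ => ((0 : X), (1 : ℝ))) (differentiableAt_const _) (C y.1, 0)
  have e2 := t1_fderiv_app hu hc.differentiableAt ((0 : X), (1 : ℝ))
  rw [hc.fderiv] at e2
  have e3 : dX C (dθ u) y = fderiv ℝ (fun z => fderiv ℝ u z ((0 : X), (1 : ℝ))) y (C y.1, 0) := rfl
  have e4 : dθ (dX C u) y = fderiv ℝ (fun z : X × ℝ => fderiv ℝ u z (C z.1, (0 : ℝ))) y (0, 1) := rfl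
  rw [e3, e4, e1, e2, t1_d2_symm hu]
  simp [Prod.mk_zero_zero]
theorem d2_symm {G : X → W} {x : X} (h : ContDiffAt ℝ ∞ G x) (v w : X) : d2 G x v w = d2 G x w v := t1_d2_symm h v w
theorem dV_dV {G : X → W} {c c' : X → X} {x : X} (h : ContDiffAt ℝ ∞ G x)
    (hc : DifferentiableAt ℝ c x) :
    dV c' (dV c G) x = d2 G x (c' x) (c x) + fderiv ℝ G x (fderiv ℝ c x (c' x)) := t1_fderiv_app h hc (c' x)
theorem Per.fderiv {O : Set X} (hO : IsOpen O) {u : X × ℝ → W} (h : Per O u) :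
    Per O (fun y => fderiv ℝ u y) := by
  intro x hx t
  have e : (fun z : X × ℝ => u (z + (0, 2 * Real.pi))) =ᶠ[𝓝 (x, t)] u := by
    have : O ×ˢ (univ : Set ℝ) ∈ 𝓝 (x, t) := (hO.prod isOpen_univ).mem_nhds ⟨hx, mem_univ _⟩
    filter_upwards [this] with z hz
    have := h z.1 hz.1 z.2
    rw [← this]
    congr 1
    ext <;> simp
  show _root_.fderiv ℝ u (x, t + 2 * Real.pi) = _root_.fderiv ℝ u (x, t)
  rw [← e.fderiv_eq, fderiv_comp_add_right]
  simp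
theorem Per.dθ {O : Set X} (hO : IsOpen O) {u : X × ℝ → W} (h : Per O u) : Per O (dθ u) := fun x hx t => by
  have := h.fderiv hO x hx t
  simp only [Vale.Agent.P205.dθ]
  simp only at this
  rw [this]
theorem Per.dX {O : Set X} (hO : IsOpen O) (C : X → X) {u : X × ℝ → W} (h : Per O u) :
    Per O (dX C u) := fun x hx t => by
  have := h.fderiv hO x hx t
  simp only [Vale.Agent.P205.dX]
  simp only at this
  rw [this]
theorem norm_d2_le (G : X → W) (x v w : X) :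
    ‖d2 G x v w‖ ≤ ‖iteratedFDeriv ℝ 2 G x‖ * ‖v‖ * ‖w‖ := by
  have := (iteratedFDeriv ℝ 2 G x).le_opNorm ![v, w]
  rw [iteratedFDeriv_two_apply] at this
  simpa [d2, Fin.prod_univ_two, mul_assoc] using this

end Vale.Agent.P205
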