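import Vale.Agent.P205.T2
import Vale.Agent.P205.T1
import Vale.Agent.P205.PI

open Set Filter Topology
open scoped ContDiff

noncomputable section
namespace Vale.Agent.P205

/-! T3: integrals in the angle. -/

variable {ι : Type*} {X W : Type} [NormedAddCommGroup X] [NormedSpace ℝ X] [FiniteDimensional ℝ X]
  [NormedAddCommGroup W] [NormedSpace ℝ W] [CompleteSpace W] {A : Fam ι X}

theorem TmC.tot {w : ι → X → ℝ} {g : ι → X × ℝ → W} (h : TmC A w g) :
    Tm A w (fun i => tot (g i)) := by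
  refine ⟨fun i => PI_contDiffOn (A.op i) (h.sm i) _ _, fun i x hx => h.nn i (x, 0) ⟨hx, mem_univ _⟩,
    fun k => ?_⟩
  obtain ⟨C, c, hC, hb⟩ := h.bd k
  refine ⟨2 * Real.pi * C, c, by positivity, fun i x hx => ?_⟩
  have := PI_bound (A.op i) (h.sm i) (-Real.pi) Real.pi hx k (C := C * A.τ i ^ c * w i x)
    fun t _ => hb i (x, t) ⟨hx, mem_univ _⟩
  rw [abs_of_pos (by linarith [Real.pi_pos])] at this
  calc _ ≤ _ := this
    _ = _ := by ring
omit [FiniteDimensional ℝ X] [CompleteSpace W] in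
theorem t3_prim_per {O : Set X} {g : X × ℝ → W} (hg : ContinuousOn g (O ×ˢ univ)) (hp : Per O g)
    (h0 : ∀ x ∈ O, tot g x = 0) : Per O (prim g) := by
  intro x hx t
  have hc : Continuous fun t => g (x, t) :=
    hg.comp_continuous (by fun_prop) fun _ => ⟨hx, mem_univ _⟩
  have hper : Function.Periodic (fun t => g (x, t)) (2 * Real.pi) := hp x hx
  have e1 := intervalIntegral.integral_add_adjacent_intervals (μ := MeasureTheory.volume)
    (hc.intervalIntegrable 0 t) (hc.intervalIntegrable t (t + 2 * Real.pi))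
  have e2 := hper.intervalIntegral_add_eq t (-Real.pi)
  have e3 : -Real.pi + 2 * Real.pi = Real.pi := by ring
  rw [e3] at e2
  have e4 : (∫ s in (-Real.pi)..Real.pi, g (x, s)) = 0 := h0 x hx
  show (∫ s in (0 : ℝ)..t + 2 * Real.pi, g (x, s)) = ∫ s in (0 : ℝ)..t, g (x, s)
  rw [← e1, e2, e4, add_zero]
theorem TmC.prim {w : ι → X → ℝ} {g : ι → X × ℝ → W} (h : TmC A w g) (hp : ∀ i, Per (A.O i) (g i))
    (h0 : ∀ i, ∀ x ∈ A.O i, Vale.Agent.P205.tot (g i) x = 0) :
    TmC A w (fun i => prim (g i)) ∧ ∀ i, Per (A.O i) (Vale.Agent.P205.prim (g i)) := by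
  have hper : ∀ i, Per (A.O i) (Vale.Agent.P205.prim (g i)) := fun i =>
    t3_prim_per (h.sm i).continuousOn (hp i) (h0 i)
  refine ⟨⟨fun i => prim_contDiffOn (A.op i) (h.sm i), h.nn, fun k => ?_⟩, hper⟩
  obtain ⟨C, c, hC, hb⟩ := Fam.Le.sum (Finset.range (k + 1)) h.nn fun j _ => h.bd j
  refine ⟨2 ^ k * (2 * Real.pi + 1) * C, c, by positivity, fun i y hy => ?_⟩
  obtain ⟨s, hs, e⟩ := ((hper i).iteratedFDeriv (A.op i) k).exists_Icc hy.1 y.2
  have hw : 0 ≤ w i y.1 := h.nn i y hy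
  have hτ := t1_pow_pos A i c
  have := prim_bound (A.op i) (h.sm i) (y := (y.1, s)) hy.1 k (C := C * A.τ i ^ c * w i y.1)
    fun j hj t => le_trans (Finset.single_le_sum
      (f := fun j => ‖iteratedFDeriv ℝ j (g i) (y.1, t)‖) (fun _ _ => norm_nonneg _)
      (Finset.mem_range.2 (by omega))) (hb i (y.1, t) ⟨hy.1, mem_univ _⟩)
  have e' : iteratedFDeriv ℝ k (Vale.Agent.P205.prim (g i)) y
      = iteratedFDeriv ℝ k (Vale.Agent.P205.prim (g i)) (y.1, s) := e
  have hs' : |s| ≤ 2 * Real.pi := by rw [abs_of_nonneg hs.1]; exact hs.2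
  show ‖iteratedFDeriv ℝ k (Vale.Agent.P205.prim (g i)) y‖ ≤ _ * A.τ i ^ c * w i y.1
  rw [e']
  calc _ ≤ _ := this
    _ ≤ 2 ^ k * (2 * Real.pi + 1) * (C * A.τ i ^ c * w i y.1) := by gcongr
    _ = _ := by ring
theorem TmC.nrm {w : ι → X → ℝ} {g : ι → X × ℝ → W} {om : ι → X × ℝ → ℝ} (h : TmC A w g)
    (hp : ∀ i, Per (A.O i) (g i)) (h0 : ∀ i, ∀ x ∈ A.O i, Vale.Agent.P205.tot (g i) x = 0)
    (ho : TmC A (fun _ _ => 1) om) :
    TmC A w (fun i => nrm (om i) (g i)) ∧ (∀ i, Per (A.O i) (Vale.Agent.P205.nrm (om i) (g i))) ∧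
      ∀ i, ∀ y : X × ℝ, y.1 ∈ A.O i → Vale.Agent.P205.dθ (Vale.Agent.P205.nrm (om i) (g i)) y = g i y := by
  obtain ⟨h1, h2⟩ := h.prim hp h0
  have h3 : TmC A w (fun i z => om i z • Vale.Agent.P205.prim (g i) z) :=
    (Tm.smul ho h1).mono_le fun i y _ => le_of_eq (one_mul _)
  have h4 := h3.tot.lift
  refine ⟨Tm.sub h1 h4, fun i x hx t => ?_, fun i y hy => ?_⟩
  · simp only [Vale.Agent.P205.nrm]
    rw [h2 i x hx t]
  · have hy' : y ∈ A.cyl.O i := ⟨hy, mem_univ _⟩
    have e := fderiv_fun_sub (Tm.diffAt h1 i hy') (Tm.diffAt h4 i hy')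
    have e1 := prim_dθ (A.op i) (h.sm i) hy
    have e2 := dθ_lift (Vale.Agent.P205.tot fun z => om i z • Vale.Agent.P205.prim (g i) z) y
    simp only [Vale.Agent.P205.dθ] at e1 e2 ⊢
    have e3 : Vale.Agent.P205.nrm (om i) (g i) = fun y => Vale.Agent.P205.prim (g i) y -
      Vale.Agent.P205.tot (fun z => om i z • Vale.Agent.P205.prim (g i) z) y.1 := rfl
    rw [e3, e, sub_apply, e1, e2, sub_zero]
/-- the mean of a normalised primitive gains the factor `a` -/
theorem TmC.tot_nrm {w a : ι → X → ℝ} {g : ι → X × ℝ → W} {om : ι → X × ℝ → ℝ} (h : TmC A w g)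
    (hp : ∀ i, Per (A.O i) (g i)) (h0 : ∀ i, ∀ x ∈ A.O i, Vale.Agent.P205.tot (g i) x = 0)
    (ho : TmC A (fun _ _ => 1) om) (h1 : ∀ i, ∀ x ∈ A.O i, Vale.Agent.P205.tot (om i) x = 1)
    (ha : TmC A a (fun i y => om i y - (2 * Real.pi)⁻¹)) :
    Tm A (fun i x => a i x * w i x)
      (fun i => Vale.Agent.P205.tot (Vale.Agent.P205.nrm (om i) (g i))) := by
  obtain ⟨h2, -, -⟩ := h.nrm hp h0 ho
  obtain ⟨h3, -⟩ := h.prim hp h0
  have h4 : TmC A (fun i x => a i x * w i x)
      (fun i y => (om i y - (2 * Real.pi)⁻¹) • Vale.Agent.P205.nrm (om i) (g i) y) := Tm.smul ha h2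
  refine (h4.tot.const_smul (-(2 * Real.pi))).congr fun i x hx => ?_
  have c1 := pi_cont (ho.sm i).continuousOn hx
  have c2 := pi_cont (h2.sm i).continuousOn hx
  have c3 := pi_cont (h3.sm i).continuousOn hx
  have e1 : (∫ t in (-Real.pi)..Real.pi, om i (x, t)) = 1 := h1 i x hx
  have e2 : (∫ t in (-Real.pi)..Real.pi, om i (x, t) • Vale.Agent.P205.nrm (om i) (g i) (x, t)) = 0 := by
    simp only [Vale.Agent.P205.nrm, smul_sub]
    rw [intervalIntegral.integral_sub ((c1.fun_smul c3).intervalIntegrable _ _)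
      ((c1.fun_smul continuous_const).intervalIntegrable _ _), intervalIntegral.integral_smul_const, e1,
      one_smul]
    exact sub_self _
  simp only [Vale.Agent.P205.tot, sub_smul]
  rw [intervalIntegral.integral_sub ((c1.fun_smul c2).intervalIntegrable _ _)
    ((c2.fun_const_smul _).intervalIntegrable _ _), e2, intervalIntegral.integral_smul, zero_sub, smul_neg,
    neg_smul, neg_neg, smul_smul, mul_inv_cancel₀ (by positivity), one_smul]

section pt
variable {O : Set X}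
theorem tot_congr {g g' : X × ℝ → W} {x : X} (h : ∀ t, g (x, t) = g' (x, t)) : tot g x = tot g' x := by
  simp only [tot, h]
theorem tot_add {g g' : X × ℝ → W} (hg : ContinuousOn g (O ×ˢ univ)) (hg' : ContinuousOn g' (O ×ˢ univ))
    {x : X} (hx : x ∈ O) : tot (fun y => g y + g' y) x = tot g x + tot g' x := intervalIntegral.integral_add ((pi_cont hg hx).intervalIntegrable _ _)
    ((pi_cont hg' hx).intervalIntegrable _ _)
theorem tot_sub {g g' : X × ℝ → W} (hg : ContinuousOn g (O ×ˢ univ)) (hg' : ContinuousOn g' (O ×ˢ univ))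
    {x : X} (hx : x ∈ O) : tot (fun y => g y - g' y) x = tot g x - tot g' x := intervalIntegral.integral_sub ((pi_cont hg hx).intervalIntegrable _ _)
    ((pi_cont hg' hx).intervalIntegrable _ _)
theorem tot_neg (g : X × ℝ → W) (x : X) : tot (fun y => -g y) x = -tot g x := intervalIntegral.integral_neg
theorem tot_sum {κ : Type*} (s : Finset κ) {g : κ → X × ℝ → W}
    (hg : ∀ j ∈ s, ContinuousOn (g j) (O ×ˢ univ)) {x : X} (hx : x ∈ O) :
    tot (fun y => ∑ j ∈ s, g j y) x = ∑ j ∈ s, tot (g j) x := intervalIntegral.integral_finsetSum fun j hj => (pi_cont (hg j hj) hx).intervalIntegrable _ _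
theorem tot_smul (c : X → ℝ) (g : X × ℝ → W) (x : X) :
    tot (fun y => c y.1 • g y) x = c x • tot g x := intervalIntegral.integral_smul (c x) fun t => g (x, t)
theorem tot_mul (c : X → ℝ) (g : X × ℝ → ℝ) (x : X) :
    tot (fun y => c y.1 * g y) x = c x * tot g x := intervalIntegral.integral_const_mul (c x) fun t => g (x, t)
theorem tot_smul_const (g : X × ℝ → ℝ) (c : X → W) (x : X) :
    tot (fun y => g y • c y.1) x = tot g x • c x := intervalIntegral.integral_smul_const (fun t => g (x, t)) (c x)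
/-- dot product with a fixed vector -/
def t3L (c : V) : V →L[ℝ] ℝ :=
  ∑ j, c j • ContinuousLinearMap.proj (R := ℝ) (φ := fun _ : Fin 4 => ℝ) j
theorem t3L_apply (c v : V) : t3L c v = c ⬝ᵥ v := by
  simp [t3L, dotProduct]
theorem t3_int_dot (c : V) {f : ℝ → V} (hf : Continuous f) (a b : ℝ) :
    (∫ t in a..b, c ⬝ᵥ f t) = c ⬝ᵥ ∫ t in a..b, f t := by
  simp only [← t3L_apply]
  exact (t3L c).intervalIntegral_comp_comm (hf.intervalIntegrable _ _)
theorem tot_dot (c : X → V) {g : X × ℝ → V} (hg : ContinuousOn g (O ×ˢ univ)) {x : X} (hx : x ∈ O) :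
    tot (fun y => c y.1 ⬝ᵥ g y) x = c x ⬝ᵥ tot g x := t3_int_dot (c x) (pi_cont hg hx) _ _
theorem tot_lift (c : X → W) (x : X) : tot (fun y : X × ℝ => c y.1) x = (2 * Real.pi) • c x := by
  simp only [tot, intervalIntegral.integral_const]
  congr 1
  ring
theorem tot_odd {g : X × ℝ → W} {x : X} (h : ∀ t, g (x, -t) = -g (x, t)) : tot g x = 0 := by
  have e := intervalIntegral.integral_comp_neg (a := -Real.pi) (b := Real.pi) (fun t => g (x, t))
  simp only [h, neg_neg, intervalIntegral.integral_neg] at e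
  have e2 : (2 : ℝ) • tot g x = 0 := by
    rw [two_smul]
    exact neg_eq_iff_add_eq_zero.1 e
  exact (smul_eq_zero.1 e2).resolve_left two_ne_zero
theorem tot_dθ (hO : IsOpen O) {g : X × ℝ → W} (hg : ContDiffOn ℝ ∞ g (O ×ˢ univ)) (hp : Per O g)
    {x : X} (hx : x ∈ O) : tot (dθ g) x = 0 := by
  have hO' := hO.prod (isOpen_univ (X := ℝ))
  have c : ContinuousOn (dθ g) (O ×ˢ univ) :=
    (hg.continuousOn_fderiv_of_isOpen hO' (by simp)).clm_apply continuousOn_const
  have := intervalIntegral.integral_eq_sub_of_hasDerivAt (a := -Real.pi) (b := Real.pi)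
    (f := fun t => g (x, t)) (f' := fun t => dθ g (x, t)) (fun t _ =>
      dθ_hasDerivAt (y := (x, t))
        ((hg.contDiffAt (hO'.mem_nhds ⟨hx, mem_univ _⟩)).differentiableAt (by simp)))
    ((pi_cont c hx).intervalIntegrable _ _)
  refine this.trans ?_
  have e := hp x hx (-Real.pi)
  have e3 : -Real.pi + 2 * Real.pi = Real.pi := by ring
  rw [e3] at e
  rw [e, sub_self]
theorem tot_dX (hO : IsOpen O) (C : X → X) {g : X × ℝ → W} (hg : ContDiffOn ℝ ∞ g (O ×ˢ univ))
    {x : X} (hx : x ∈ O) : tot (dX C g) x = dV C (tot g) x := (PI_fderiv hO hg _ _ hx (C x)).symm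
theorem nrm_dot (c : X → V) {om : X × ℝ → ℝ} {g : X × ℝ → V} (ho : ContinuousOn om (O ×ˢ univ))
    (hg : ContinuousOn g (O ×ˢ univ)) {y : X × ℝ} (hy : y.1 ∈ O)
    (h : ∀ t, g (y.1, t) ⬝ᵥ c y.1 = 0) : nrm om g y ⬝ᵥ c y.1 = 0 := by
  have c1 := pi_cont ho hy
  have c2 := pi_cont hg hy
  have c3 : Continuous fun t => prim g (y.1, t) :=
    intervalIntegral.continuous_primitive (fun a b => c2.intervalIntegrable a b) 0
  have e1 : ∀ t, c y.1 ⬝ᵥ prim g (y.1, t) = 0 := by
    intro t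
    refine (t3_int_dot (c y.1) c2 0 t).symm.trans ?_
    simp only [dotProduct_comm (c y.1), h, intervalIntegral.integral_zero]
  have e2 : c y.1 ⬝ᵥ tot (fun z => om z • prim g z) y.1 = 0 := by
    refine (t3_int_dot (c y.1) (c1.smul c3) _ _).symm.trans ?_
    simp only [Pi.smul_apply', dotProduct_smul, e1, smul_zero, intervalIntegral.integral_zero]
  have e3 : c y.1 ⬝ᵥ prim g y = 0 := e1 y.2
  rw [dotProduct_comm, nrm, dotProduct_sub, e2, e3, sub_zero]
theorem prim_odd {g : X × ℝ → W} {x : X} (h : ∀ t, g (x, -t) = g (x, t)) (t : ℝ) :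
    prim g (x, -t) = -prim g (x, t) := by
  have e := intervalIntegral.integral_comp_neg (a := t) (b := 0) (fun s => g (x, s))
  simp only [h, neg_zero] at e
  simp only [prim]
  rw [← e, intervalIntegral.integral_symm]
theorem prim_even {g : X × ℝ → W} {x : X} (h : ∀ t, g (x, -t) = -g (x, t)) (t : ℝ) :
    prim g (x, -t) = prim g (x, t) := by
  have e := intervalIntegral.integral_comp_neg (a := t) (b := 0) (fun s => g (x, s))
  simp only [h, neg_zero, intervalIntegral.integral_neg] at e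
  simp only [prim]
  rw [← e, ← intervalIntegral.integral_symm]
end pt

end Vale.Agent.P205
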