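import Vale.Agent.P205.D2
import Vale.Agent.P205.T3

open Set Filter Topology
open scoped ContDiff

noncomputable section
namespace Vale.Agent.P205

/-! A0: small helpers for the parts A1 to A4. -/

section gen
variable {ι : Type*} {X W : Type} [NormedAddCommGroup X] [NormedSpace ℝ X]
  [NormedAddCommGroup W] [NormedSpace ℝ W] {A : Fam ι X} {w w1 w2 a : ι → X → ℝ}

theorem TmC.mul {u v : ι → X × ℝ → ℝ} (h : TmC A w1 u) (h' : TmC A w2 v) :
    TmC A (fun i x => w1 i x * w2 i x) (fun i y => u i y * v i y) := Tm.mul h h'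
theorem TmC.smul {u : ι → X × ℝ → ℝ} {v : ι → X × ℝ → W} (h : TmC A w1 u) (h' : TmC A w2 v) :
    TmC A (fun i x => w1 i x * w2 i x) (fun i y => u i y • v i y) := Tm.smul h h'
theorem TmC.dot {u v : ι → X × ℝ → V} (h : TmC A w1 u) (h' : TmC A w2 v) :
    TmC A (fun i x => w1 i x * w2 i x) (fun i y => u i y ⬝ᵥ v i y) := Tm.dot h h'
theorem TmC.add {u v : ι → X × ℝ → W} (h : TmC A w u) (h' : TmC A w v) :
    TmC A w (fun i y => u i y + v i y) := Tm.add h h'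
theorem TmC.sub {u v : ι → X × ℝ → W} (h : TmC A w u) (h' : TmC A w v) :
    TmC A w (fun i y => u i y - v i y) := Tm.sub h h'
theorem TmC.neg {u : ι → X × ℝ → W} (h : TmC A w u) : TmC A w (fun i y => -u i y) := Tm.neg h
theorem TmC.const_mul (c : ℝ) {u : ι → X × ℝ → ℝ} (h : TmC A w u) :
    TmC A w (fun i y => c * u i y) := Tm.const_mul c h
theorem TmC.cg {u v : ι → X × ℝ → W} (h : TmC A w u)
    (e : ∀ i, ∀ y : X × ℝ, y.1 ∈ A.O i → v i y = u i y) : TmC A w v :=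
  Tm.congr h fun i y hy => e i y hy.1
theorem TmC.smo {u : ι → X × ℝ → W} (h : TmC A w u) (i : ι) :
    ContDiffOn ℝ ∞ (u i) (A.O i ×ˢ univ) := h.sm i
theorem TmC.con {u : ι → X × ℝ → W} (h : TmC A w u) (i : ι) :
    ContinuousOn (u i) (A.O i ×ˢ univ) := (h.sm i).continuousOn
theorem TmC.dAt {u : ι → X × ℝ → W} (h : TmC A w u) {i : ι} {y : X × ℝ} (hy : y.1 ∈ A.O i) :
    DifferentiableAt ℝ (u i) y := h.diffAt i ⟨hy, trivial⟩
theorem Tm.ma {u : ι → X → W} (h : Tm A w1 u) (ha : A.Le a fun _ _ => 1)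
    (h0 : ∀ i, ∀ x ∈ A.O i, 0 ≤ w i x) (hw : ∀ i, ∀ x ∈ A.O i, w1 i x ≤ a i x * w i x) :
    Tm A w u :=
  h.mono (Fam.Le.le_trans hw ((ha.mul_right h0).congr (fun _ _ _ => rfl)
    fun _ _ _ => (one_mul _).symm)) h0
theorem TmC.ma {u : ι → X × ℝ → W} (h : TmC A w1 u) (ha : A.Le a fun _ _ => 1)
    (h0 : ∀ i, ∀ x ∈ A.O i, 0 ≤ w i x) (hw : ∀ i, ∀ x ∈ A.O i, w1 i x ≤ a i x * w i x) :
    TmC A w u :=
  Tm.ma (a := up a) h ha.up (fun i y hy => h0 i y.1 hy.1) fun i y hy => hw i y.1 hy.1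
theorem Tm.cst (c : ι → ℝ) (hc : ∀ i, 0 < c i) : Tm A (fun i _ => c i) (fun i _ => c i) :=
  Tm.famc c (Fam.Le.of_le (fun i _ _ => by rw [Real.norm_eq_abs, abs_of_pos (hc i)])
    fun i _ _ => (hc i).le) fun i _ _ => (hc i).le

variable {u v : X × ℝ → W} {f : X × ℝ → ℝ} {p q : X × ℝ → V} {y : X × ℝ} {C : X → X} {O : Set X}

theorem dθ_add (hu : DifferentiableAt ℝ u y) (hv : DifferentiableAt ℝ v y) :
    dθ (fun z => u z + v z) y = dθ u y + dθ v y := by simp only [dθ, fderiv_fun_add hu hv]; rfl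
theorem dX_add (hu : DifferentiableAt ℝ u y) (hv : DifferentiableAt ℝ v y) :
    dX C (fun z => u z + v z) y = dX C u y + dX C v y := by
  simp only [dX, fderiv_fun_add hu hv]; rfl
theorem dθ_sub (hu : DifferentiableAt ℝ u y) (hv : DifferentiableAt ℝ v y) :
    dθ (fun z => u z - v z) y = dθ u y - dθ v y := by simp only [dθ, fderiv_fun_sub hu hv]; rfl
theorem dX_sub (hu : DifferentiableAt ℝ u y) (hv : DifferentiableAt ℝ v y) :
    dX C (fun z => u z - v z) y = dX C u y - dX C v y := by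
  simp only [dX, fderiv_fun_sub hu hv]; rfl
theorem dθ_smul (hf : DifferentiableAt ℝ f y) (hv : DifferentiableAt ℝ v y) :
    dθ (fun z => f z • v z) y = dθ f y • v y + f y • dθ v y := fderiv_smul' hf hv _
theorem dX_smul (hf : DifferentiableAt ℝ f y) (hv : DifferentiableAt ℝ v y) :
    dX C (fun z => f z • v z) y = dX C f y • v y + f y • dX C v y := fderiv_smul' hf hv _
theorem dθ_dot (hp : DifferentiableAt ℝ p y) (hq : DifferentiableAt ℝ q y) :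
    dθ (fun z => p z ⬝ᵥ q z) y = dθ p y ⬝ᵥ q y + p y ⬝ᵥ dθ q y := fderiv_dot hp hq _
theorem dX_dot (hp : DifferentiableAt ℝ p y) (hq : DifferentiableAt ℝ q y) :
    dX C (fun z => p z ⬝ᵥ q z) y = dX C p y ⬝ᵥ q y + p y ⬝ᵥ dX C q y := fderiv_dot hp hq _
theorem a0_fderiv (hO : IsOpen O) (e : ∀ z : X × ℝ, z.1 ∈ O → u z = v z) (hy : y.1 ∈ O) :
    fderiv ℝ u y = fderiv ℝ v y :=
  Filter.EventuallyEq.fderiv_eq (eventually_of_mem ((hO.preimage continuous_fst).mem_nhds hy) e)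
theorem dθ_cg (hO : IsOpen O) (e : ∀ z : X × ℝ, z.1 ∈ O → u z = v z) (hy : y.1 ∈ O) :
    dθ u y = dθ v y := by simp only [dθ, a0_fderiv hO e hy]
theorem dX_cg (hO : IsOpen O) (e : ∀ z : X × ℝ, z.1 ∈ O → u z = v z) (hy : y.1 ∈ O) :
    dX C u y = dX C v y := by simp only [dX, a0_fderiv hO e hy]

theorem tot_cg {x : X} (e : ∀ z : X × ℝ, z.1 ∈ O → u z = v z) (hx : x ∈ O) :
    tot u x = tot v x := by
  unfold tot
  congr 1
  funext t
  exact e (x, t) hx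
theorem dX_zero (hO : IsOpen O) (e : ∀ z : X × ℝ, z.1 ∈ O → u z = 0) (hy : y.1 ∈ O) :
    dX C u y = 0 := by
  rw [dX_cg (v := fun _ => 0) hO e hy]; simp [dX]

end gen

variable {ι : Type*} {A : Fam ι E} {D : ι → TD1} {σ : ι → ℝ} {η a w : ι → E → ℝ}

/-- the mean of `F · X W` -/
theorem a0_totF {F : ι → E → V} {C : ι → E → E} {W : ι → Y → V} {w' : ι → E → ℝ}
    (hF : Tm A (fun _ _ => 1) F) (hC : Tm A (fun i _ => σ i) C) (hW : TmC A w W)
    (ht : Tm A w' fun i => tot (W i)) :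
    Tm A (fun i x => σ i * w' i x) fun i => tot fun y => F i y.1 ⬝ᵥ dX (C i) (W i) y :=
  ((hF.dot (hC.dV ht)).mono_le fun _ _ _ => (one_mul _).le).congr fun i x hx => by
    rw [tot_dot _ ((hW.dX hC).con i) hx, tot_dX (A.op i) _ (hW.smo i) hx]

/-- the mean of `P · X W` when `P` is close to a function of the base point -/
theorem a0_totP {F : ι → E → V} {P : ι → Y → V} {C : ι → E → E} {W : ι → Y → V}
    (hF : Tm A (fun _ _ => 1) F) (hP : TmC A a fun i y => P i y - F i y.1)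
    (hC : Tm A (fun i _ => σ i) C) (hW : TmC A w W)
    (ht : Tm A (fun i x => a i x * w i x) fun i => tot (W i)) :
    Tm A (fun i x => σ i * (a i x * w i x)) fun i => tot fun y => P i y ⬝ᵥ dX (C i) (W i) y :=
  ((a0_totF hF hC hW ht).add ((hP.dot (hW.dX hC)).tot.mono_le
    fun _ _ _ => (mul_left_comm _ _ _).le)).congr fun i x hx => by
    rw [← tot_add ((hF.lift.dot (hW.dX hC)).con i) ((hP.dot (hW.dX hC)).con i) hx]
    exact tot_congr fun t => by rw [sub_dotProduct]; ring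

theorem Hyp0.TTh (h : Hyp0 A D σ η a) {i : ι} {y : Y} (hy : y.1 ∈ A.O i) :
    (D i).T y ⬝ᵥ (D i).Th y = (D i).ρ y.1 ∧ (D i).T y ⬝ᵥ (D i).nu y = 0 ∧
    (D i).T y ⬝ᵥ (D i).T y = (D i).T0 y.1 ⬝ᵥ (D i).T0 y.1 + (D i).ρ y.1 ^ 2 ∧
    (D i).T y ⬝ᵥ (D i).F2 y.1 = (D i).F1 y.1 ⬝ᵥ (D i).F2 y.1 ∧
    (D i).T y ⬝ᵥ (D i).F22 y.1 = (D i).F1 y.1 ⬝ᵥ (D i).F22 y.1 ∧
    (D i).T y ⬝ᵥ (D i).f2 y.1 = (D i).T0 y.1 ⬝ᵥ (D i).f2 y.1 ∧
    (D i).T y ⬝ᵥ (D i).fn y.1 = (D i).T0 y.1 ⬝ᵥ (D i).fn y.1 := by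
  obtain ⟨a1, -, a2⟩ := h.on i y hy
  obtain ⟨b1, b2, b3, b4, b5⟩ := h.oTh i y hy
  obtain ⟨c1, c2⟩ := h.hT0 i _ hy
  have d := (h.onu i y hy).2.2.2.2
  simp only [TD1.T, add_dotProduct, dotProduct_add, smul_dotProduct, dotProduct_smul, smul_eq_mul,
    dotProduct_comm ((D i).T0 y.1) ((D i).Th y), dotProduct_comm ((D i).T0 y.1) ((D i).nu y),
    a1, a2, b1, b2, b3, b4, b5, c1, c2, d]
  refine ⟨?_, ?_, ?_, ?_, ?_, ?_, ?_⟩ <;> ring

/-- numerical facts -/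
theorem Hyp0.num (h : Hyp0 A D σ η a) (i : ι) {x : E} (hx : x ∈ A.O i) :
    0 < (D i).ε ∧ 0 < σ i ∧ 0 < η i x ∧ 0 < a i x ∧ (D i).ε * σ i ≤ η i x / σ i ∧
      η i x / σ i ≤ η i x ∧ η i x ≤ 1 := by
  have e := h.eps i
  have s : 0 < σ i := one_pos.trans_le (h.sig i)
  have n : 0 < η i x := lt_of_lt_of_le (by positivity) (h.epsη i x hx)
  exact ⟨e, s, n, h.apos i x hx, by rw [le_div_iff₀ s]; linarith [h.epsη i x hx],
    div_le_self n.le (h.sig i), h.η1 i x hx⟩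

theorem Hyp0.tε (h : Hyp0 A D σ η a) : Tm A (fun i _ => (D i).ε) fun i _ => (D i).ε :=
  Tm.cst _ h.eps

theorem Hyp0.tT1 (h : Hyp0 A D σ η a) : TmC A (fun _ _ => 1) fun i => (D i).T :=
  h.tT0.lift.add ((h.tρ.lift.smul h.tTh).mono_le fun _ _ _ => (one_mul _).le)

/-- size of the linear functional -/
theorem Hyp0.ell_tm (h : Hyp0 A D σ η a) (tU0 : TmC A a fun i => (D i).U0) {W : ι → Y → V}
    (hW : TmC A w W) (ht : Tm A (fun i x => a i x * w i x) fun i => tot (W i)) :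
    Tm A (fun i x => σ i * (a i x * w i x)) fun i => (D i).ell (W i) := by
  have t1 := hW.dθ.dot (tU0.dX h.tC2)
  have t2 := h.tF2.lift.dot (hW.dX h.tC1)
  have t3 := h.tT1.dot (hW.dX h.tC2)
  refine (((t1.tot.mono_le fun _ _ _ => le_of_eq (by ring)).add (a0_totF h.tF2 h.tC1 hW ht)).add
    (a0_totP h.tF1 h.tT h.tC2 hW ht)).congr fun i x hx => ?_
  rw [← tot_add (t1.con i) (t2.con i) hx]
  exact tot_add ((t1.con i).add (t2.con i)) (t3.con i) hx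

theorem Hyp0.el_con (h : Hyp0 A D σ η a) (tU0 : TmC A a fun i => (D i).U0) {W : ι → Y → V}
    (hW : TmC A w W) (i : ι) : ContinuousOn (fun y => dθ (W i) y ⬝ᵥ dX (D i).C2 (D i).U0 y +
      (D i).F2 y.1 ⬝ᵥ dX (D i).C1 (W i) y + (D i).T y ⬝ᵥ dX (D i).C2 (W i) y) (A.O i ×ˢ univ) :=
  (((hW.dθ.dot (tU0.dX h.tC2)).con i).add ((h.tF2.lift.dot (hW.dX h.tC1)).con i)).add
    ((h.tT1.dot (hW.dX h.tC2)).con i)

/-- removing the mean -/
theorem Hyp0.rem (h : Hyp0 A D σ η a) {g : ι → Y → ℝ} (hg : TmC A w g)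
    (hp : ∀ i, Per (A.O i) (g i)) : TmC A w (fun i y => g i y - tot (g i) y.1 * (D i).b y) ∧
      (∀ i, Per (A.O i) fun y => g i y - tot (g i) y.1 * (D i).b y) ∧
      ∀ i, ∀ x ∈ A.O i, tot (fun y => g i y - tot (g i) y.1 * (D i).b y) x = 0 := by
  have t := hg.tot.lift.mul h.tb
  refine ⟨hg.sub (t.mono_le fun _ _ _ => (mul_one _).le),
    fun i x hx s => by simp only [hp i x hx s, h.pb i x hx s], fun i x hx => ?_⟩
  rw [tot_sub (hg.con i) (t.con i) hx, tot_mul, h.totb i x hx, mul_one, sub_self]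

theorem Hyp0.remn (h : Hyp0 A D σ η a) {g : ι → Y → ℝ} (hg : TmC A w g)
    (hp : ∀ i, Per (A.O i) (g i)) : TmC A w (fun i y => -(g i y - tot (g i) y.1 * (D i).b y)) ∧
      (∀ i, Per (A.O i) fun y => -(g i y - tot (g i) y.1 * (D i).b y)) ∧
      ∀ i, ∀ x ∈ A.O i, tot (fun y => -(g i y - tot (g i) y.1 * (D i).b y)) x = 0 := by
  obtain ⟨a1, a2, a3⟩ := h.rem hg hp
  exact ⟨a1.neg, fun i x hx s => congrArg Neg.neg (a2 i x hx s),
    fun i x hx => by rw [tot_neg, a3 i x hx, neg_zero]⟩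

theorem a0_perE (D : TD1) {O : Set E} (hO : IsOpen O) {U : Y → V} (hU : Per O U) :
    Per O (D.E11 U) ∧ Per O (D.E12 U) ∧ Per O (D.E22 U) := by
  refine ⟨fun x hx t => ?_, fun x hx t => ?_, fun x hx t => ?_⟩ <;>
    simp only [TD1.E11, TD1.E12, TD1.E22, TD1.A1, TD1.A2, hU.dθ hO x hx t, hU.dX hO _ x hx t]

/-- moving the derivative off `W` -/
theorem Hyp0.F2_dX (h : Hyp0 A D σ η a) {i : ι} {W : Y → V} {y : Y} (hy : y.1 ∈ A.O i)
    (hW : DifferentiableAt ℝ W y) : (D i).F2 y.1 ⬝ᵥ dX (D i).C2 W y =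
      dX (D i).C2 (fun z => (D i).F2 z.1 ⬝ᵥ W z) y - (D i).F22 y.1 ⬝ᵥ W y := by
  rw [dX_dot (h.tF2.lift.dAt hy) hW, dX_lift, h.hF22 i _ hy]; ring

end Vale.Agent.P205
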