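import Vale.Agent.P205.D2
import Vale.Agent.P205.T3
import Vale.Agent.P205.A0

open Set Filter Topology
open scoped ContDiff

noncomputable section
namespace Vale.Agent.P205

variable {ι : Type*} {A : Fam ι E} {D : ι → TD1} {σ : ι → ℝ} {η a : ι → E → ℝ}

/-! A1: basic consequences, and the invariant at order one. -/
theorem Hyp0.base (h : Hyp0 A D σ η a) : Base A D σ a := by
  obtain ⟨u1, u2, u3⟩ := h.tT.nrm (fun i x hx t => by simp only [TD1.T, h.pTh i x hx t])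
    h.totT h.tom
  have ai : ∀ i, ∀ x ∈ A.O i, 0 ≤ (a i x)⁻¹ := fun i x hx => (inv_pos.2 (h.apos i x hx)).le
  have aa : ∀ i, ∀ x ∈ A.O i, a i x * (a i x)⁻¹ = 1 := fun i x hx =>
    mul_inv_cancel₀ (h.apos i x hx).ne'
  have w1 : ∀ j, TmC A (fun i x => (a i x)⁻¹) fun i => (D i).Wj j := fun j =>
    (((h.txs j).smul h.tTh).ma h.ale ai fun i x hx => by rw [aa i x hx, one_mul]).add
      (((h.tys j).smul h.tnu).mono_le fun _ _ _ => (mul_one _).le)
  have w2 : ∀ j, Tm A (fun _ _ => 1) fun i => tot ((D i).Wj j) := fun j =>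
    ((((h.txs j).smul h.tTh).tot.mono_le fun _ _ _ => (mul_one _).le).add (h.tysnu j)).congr
      fun i x hx => tot_add (((h.txs j).smul h.tTh).con i) (((h.tys j).smul h.tnu).con i) hx
  refine ⟨u1, u2, u3, fun i y hy => ⟨?_, ?_⟩, ?_, h.tT1, ?_, w1, fun i j x hx t => ?_, w2,
    fun j => ?_, fun i j y hy => ?_⟩
  · exact nrm_dot _ (h.tom.con i) (h.tT.con i) hy fun t => by
      rw [sub_dotProduct, (h.TTh (y := (y.1, t)) hy).2.2.2.1, sub_self]
  · exact nrm_dot _ (h.tom.con i) (h.tT.con i) hy fun t => by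
      rw [sub_dotProduct, (h.TTh (y := (y.1, t)) hy).2.2.2.2.1, sub_self]
  · exact (h.tT.tot_nrm (fun i x hx t => by simp only [TD1.T, h.pTh i x hx t])
      h.totT h.tom h.totom h.tom').mono_le fun _ _ _ => (sq _).ge
  · refine ((h.tρi.lift.smul h.tT).mono_le fun _ _ _ => (one_mul _).le).cg fun i y hy => ?_
    have := (h.ρpos i _ hy).ne'
    ext l
    simp only [TD1.T, Pi.sub_apply, Pi.add_apply, Pi.smul_apply, smul_eq_mul]
    field_simp
    ring
  · simp only [TD1.Wj, h.pTh i x hx t, h.pnu i x hx t, h.pxs i j x hx t, h.pys i j x hx t]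
  · exact (h.ell_tm u1 (w1 j) ((w2 j).mono_le fun i x hx => (aa i x hx).ge)).mono_le
      fun i x hx => by rw [aa i x hx, mul_one]
  · obtain ⟨a1, a2, -⟩ := h.TTh hy
    obtain ⟨b1, b2, -⟩ := h.oTh i y hy
    obtain ⟨c1, c2, -⟩ := h.onu i y hy
    have e : dθ ((D i).Wj j) y = dθ ((D i).xs j) y • (D i).Th y + (D i).xs j y • dθ (D i).Th y +
        (dθ ((D i).ys j) y • (D i).nu y + (D i).ys j y • dθ (D i).nu y) := by
      rw [← dθ_smul ((h.txs j).dAt hy) (h.tTh.dAt hy), ← dθ_smul ((h.tys j).dAt hy) (h.tnu.dAt hy)]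
      exact dθ_add (((h.txs j).smul h.tTh).dAt hy) (((h.tys j).smul h.tnu).dAt hy)
    rw [dotProduct_comm] at b1 b2 c1 c2
    simp only [e, h.dTh i y hy, h.dnu i y hy, ← h.hys i j y hy, TD1.Wj, dotProduct_add,
      dotProduct_smul, dotProduct_neg, smul_eq_mul, a1, a2, b1, b2, c1, c2]
    refine ⟨?_, ?_, ?_, ?_⟩ <;> ring
theorem Hyp.inv1 (h : Hyp A D σ η a) : Inv A D σ η a 1 (fun i => (D i).U0) := by
  have b := h.toHyp0.base
  have n := h.toHyp0.num
  have x1 := b.tU0.dX h.tC1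
  have x2 := b.tU0.dX h.tC2
  have te := h.toHyp0.tε
  have eA : ∀ i, ∀ y : Y, y.1 ∈ A.O i → (D i).A1 (D i).U0 y =
      (D i).T y + (D i).ε • dX (D i).C1 (D i).U0 y := fun i y hy => by
    rw [TD1.A1, b.dU0 i y hy, add_sub_cancel]
  have e11 : ∀ i, ∀ y : Y, y.1 ∈ A.O i → (D i).E11 (D i).U0 y =
      2 * ((D i).ε * ((D i).T y ⬝ᵥ dX (D i).C1 (D i).U0 y)) +
        (D i).ε * ((D i).ε * (dX (D i).C1 (D i).U0 y ⬝ᵥ dX (D i).C1 (D i).U0 y)) := fun i y hy => by
    simp only [TD1.E11, eA i y hy, add_dotProduct, dotProduct_add, smul_dotProduct, dotProduct_smul,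
      smul_eq_mul, (h.toHyp0.TTh hy).2.2.1, dotProduct_comm (dX _ _ _) ((D i).T y)]
    ring
  have e12 : ∀ i, ∀ y : Y, y.1 ∈ A.O i → (D i).E12 (D i).U0 y =
      (D i).ε * ((D i).T y ⬝ᵥ dX (D i).C2 (D i).U0 y + (D i).F2 y.1 ⬝ᵥ dX (D i).C1 (D i).U0 y) +
        (D i).ε * ((D i).ε * (dX (D i).C1 (D i).U0 y ⬝ᵥ dX (D i).C2 (D i).U0 y)) := fun i y hy => by
    simp only [TD1.E12, TD1.A2, eA i y hy, add_dotProduct, dotProduct_add, smul_dotProduct,
      dotProduct_smul, smul_eq_mul, (h.toHyp0.TTh hy).2.2.2.1,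
      dotProduct_comm (dX _ _ _) ((D i).F2 y.1)]
    ring
  have e22 : ∀ i, ∀ y : Y, y.1 ∈ A.O i → (D i).E22 (D i).U0 y =
      (D i).ε * ((D i).ε * (dX (D i).C2 (D i).U0 y ⬝ᵥ dX (D i).C2 (D i).U0 y)) := fun i y hy => by
    have := h.toHyp0.F2_dX hy (b.tU0.dAt hy)
    rw [dX_zero (u := fun z => (D i).F2 z.1 ⬝ᵥ (D i).U0 z) (A.op i)
      (fun z hz => by rw [dotProduct_comm, (b.oU0 i z hz).1]) hy,
      dotProduct_comm ((D i).F22 _), (b.oU0 i y hy).2, sub_self] at this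
    simp only [TD1.E22, TD1.A2, add_dotProduct, dotProduct_add, smul_dotProduct,
      dotProduct_smul, smul_eq_mul, dotProduct_comm (dX _ _ _) ((D i).F2 y.1), this]
    ring
  have p1 := (te.lift.mul (b.tT1.dot x1)).const_mul 2
  have p2 := te.lift.mul (te.lift.mul (x1.dot x1))
  have p3 := te.lift.mul ((b.tT1.dot x2).add (h.tF2.lift.dot x1))
  have p4 := te.lift.mul (te.lift.mul (x1.dot x2))
  have p5 := te.lift.mul (te.lift.mul (x2.dot x2))
  have k1 : ∀ i, ∀ x ∈ A.O i, (D i).ε * ((D i).ε * (σ i * a i x * (σ i * a i x))) ≤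
      a i x ^ 2 * (η i x / σ i) ∧ (D i).ε * ((D i).ε * (σ i * a i x * (σ i * a i x))) ≤
      (D i).ε * σ i * a i x ^ 2 * η i x := fun i x hx => by
    obtain ⟨n1, n2, n3, n4, n5, n6, n7⟩ := n i hx
    rw [show (D i).ε * ((D i).ε * (σ i * a i x * (σ i * a i x))) =
      (D i).ε * σ i * a i x ^ 2 * ((D i).ε * σ i) by ring]
    refine ⟨?_, mul_le_mul_of_nonneg_left (n5.trans n6) (by positivity)⟩
    rw [mul_right_comm, mul_comm]
    exact mul_le_mul_of_nonneg_left ((mul_le_of_le_one_left (by positivity)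
      (n5.trans (n6.trans n7))).trans n5) (by positivity)
  refine ⟨(Tm.zero (A := A.cyl) fun i y hy => ?_).congr fun _ _ _ => sub_self _, b.pU0,
    ((p1.mono_le fun i x hx => ?_).add (p2.ma h.ale (fun i x hx => ?_) fun i x hx => ?_)).cg e11,
    ?_,
    ((p3.mono_le fun i x hx => ?_).add (p4.ma h.ale (fun i x hx => ?_) fun i x hx => ?_)).cg e12,
    ?_, (p5.mono_le fun i x hx => ?_).cg e22⟩
  · obtain ⟨n1, n2, n3, n4, -⟩ := n i hy.1
    exact (mul_pos n4 n3).le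
  · obtain ⟨n1, n2, n3, n4, n5, n6, n7⟩ := n i hx
    nlinarith [mul_le_mul_of_nonneg_left (n5.trans n6) n4.le]
  · obtain ⟨n1, n2, n3, n4, -⟩ := n i hx
    positivity
  · obtain ⟨n1, n2, n3, n4, n5, n6, n7⟩ := n i hx
    nlinarith [(k1 i x hx).1, mul_le_mul_of_nonneg_left n6 (sq_nonneg (a i x))]
  · refine ((((te.mul (a0_totP h.tF1 h.tT h.tC1 b.tU0 (b.totU0.mono_le fun _ _ _ =>
      (sq _).le))).const_mul 2).mono_le fun i x hx => ?_).add
        (p2.tot.mono_le fun i x hx => ?_)).congr fun i x hx => ?_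
    · obtain ⟨n1, n2, n3, n4, n5, n6, n7⟩ := n i hx
      nlinarith [mul_le_mul_of_nonneg_left (n5.trans n6) (sq_nonneg (a i x))]
    · obtain ⟨n1, n2, n3, n4, n5, n6, n7⟩ := n i hx
      nlinarith [(k1 i x hx).1, mul_le_mul_of_nonneg_left n6 (sq_nonneg (a i x))]
    · rw [tot_cg (e11 i) hx, tot_add (p1.con i) (p2.con i) hx,
        tot_mul (fun _ => 2), tot_mul fun _ => (D i).ε]
  · obtain ⟨n1, n2, n3, n4, n5, n6, n7⟩ := n i hx
    rw [pow_one, mul_div_assoc]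
    nlinarith [mul_le_mul_of_nonneg_left n5 n4.le]
  · obtain ⟨n1, n2, n3, n4, -⟩ := n i hx
    positivity
  · exact (k1 i x hx).1.trans_eq (by ring)
  · refine (((te.mul h.h0).mono_le fun i x hx => le_of_eq (by ring)).add
      (p4.tot.mono_le fun i x hx => (k1 i x hx).2.trans_eq (by ring))).congr fun i x hx => ?_
    rw [tot_cg (e12 i) hx, tot_add (p3.con i) (p4.con i) hx,
      tot_mul fun _ => (D i).ε]
  · obtain ⟨n1, n2, n3, n4, -⟩ := n i hx
    nlinarith [mul_le_mul_of_nonneg_left (h.epsη i x hx) (show 0 ≤ (D i).ε * a i x ^ 2 by positivity)]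

end Vale.Agent.P205
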