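import Vale.Agent.P205.T1

open Set Filter Topology
open scoped ContDiff

noncomputable section
namespace Vale.Agent.P205

variable {ι : Type*} {X W W1 W2 W3 : Type} [NormedAddCommGroup X] [NormedSpace ℝ X]
  [NormedAddCommGroup W] [NormedSpace ℝ W] [NormedAddCommGroup W1] [NormedSpace ℝ W1]
  [NormedAddCommGroup W2] [NormedSpace ℝ W2] [NormedAddCommGroup W3] [NormedSpace ℝ W3]
  {A : Fam ι X}

/-! T2: compositions, inverses, square roots, slow functions. -/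

theorem Fam.Le.pow_one' {f : ι → X → ℝ} (h : A.Le f (fun _ _ => 1)) (p : ∀ i, ∀ y ∈ A.O i, 0 ≤ f i y)
    (k : ℕ) : A.Le (fun i y => f i y ^ k) (fun _ _ => 1) := by
  obtain ⟨C, c, hC, h⟩ := h
  refine ⟨C ^ k, c * k, pow_pos hC k, fun i y hy => ?_⟩
  have := pow_le_pow_left₀ (p i y hy) (h i y hy) k
  calc f i y ^ k ≤ (C * A.τ i ^ c * 1) ^ k := this
    _ = _ := by rw [pow_mul]; ring
theorem Fam.Le.mul_one' {f g : ι → X → ℝ} (h : A.Le f (fun _ _ => 1)) (h' : A.Le g (fun _ _ => 1))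
    (p : ∀ i, ∀ y ∈ A.O i, 0 ≤ g i y) : A.Le (fun i y => f i y * g i y) (fun _ _ => 1) :=
  (h.mul h' p (fun _ _ _ => zero_le_one)).congr (fun _ _ _ => rfl) (fun _ _ _ => (mul_one _).symm)
theorem t2_comp_le {Φ : W → W1} {f : X → W} {O : Set X} {U : Set W} (hO : IsOpen O) (hU : IsOpen U)
    (hΦ : ContDiffOn ℝ ∞ Φ U) (hf : ContDiffOn ℝ ∞ f O) (hm : MapsTo f O U) {y : X} (hy : y ∈ O)
    (k : ℕ) : ‖iteratedFDeriv ℝ k (fun z => Φ (f z)) y‖ ≤ (k.factorial : ℝ) *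
      ((∑ j ∈ Finset.range (k + 1), ‖iteratedFDeriv ℝ j Φ (f y)‖) *
      (1 + ∑ j ∈ Finset.range k, ‖iteratedFDeriv ℝ (j + 1) f y‖) ^ k) := by
  have h0 : 0 ≤ ∑ j ∈ Finset.range k, ‖iteratedFDeriv ℝ (j + 1) f y‖ :=
    Finset.sum_nonneg fun _ _ => norm_nonneg _
  have := norm_iteratedFDerivWithin_comp_le hΦ hf (t1_nat_le k) hU.uniqueDiffOn hO.uniqueDiffOn hm hy
    (C := ∑ j ∈ Finset.range (k + 1), ‖iteratedFDeriv ℝ j Φ (f y)‖)
    (D := 1 + ∑ j ∈ Finset.range k, ‖iteratedFDeriv ℝ (j + 1) f y‖)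
    (fun j hj => by
      rw [iteratedFDerivWithin_of_isOpen _ hU (hm hy)]
      exact Finset.single_le_sum (f := fun j => ‖iteratedFDeriv ℝ j Φ (f y)‖)
        (fun _ _ => norm_nonneg _) (Finset.mem_range.2 (by omega)))
    (fun j h1 hj => by
      rw [iteratedFDerivWithin_of_isOpen _ hO hy]
      obtain ⟨j, rfl⟩ : ∃ j', j = j' + 1 := ⟨j - 1, by omega⟩
      have a := Finset.single_le_sum (f := fun j => ‖iteratedFDeriv ℝ (j + 1) f y‖)
        (fun _ _ => norm_nonneg _) (Finset.mem_range.2 (show j < k by omega))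
      refine le_trans ?_ (le_self_pow₀ (by linarith) (by omega))
      linarith)
  rw [iteratedFDerivWithin_of_isOpen _ hO hy, mul_assoc] at this
  exact this
/-- composition bound, inner map allowed to depend on the base point -/
theorem t2_gen {Φ : W → W1} {U : Set W} (hU : IsOpen U) (hΦ : ContDiffOn ℝ ∞ Φ U)
    {f : ι → X → X → W} (hf : ∀ i, ∀ y ∈ A.O i, ContDiffOn ℝ ∞ (f i y) (A.O i))
    (hm : ∀ i, ∀ y ∈ A.O i, MapsTo (f i y) (A.O i) U)
    (h1 : ∀ j, A.Le (fun i y => ‖iteratedFDeriv ℝ (j + 1) (f i y) y‖) (fun _ _ => 1))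
    (h2 : ∀ j, A.Le (fun i y => ‖iteratedFDeriv ℝ j Φ (f i y y)‖) (fun _ _ => 1)) (k : ℕ) :
    A.Le (fun i y => ‖iteratedFDeriv ℝ k (fun z => Φ (f i y z)) y‖) (fun _ _ => 1) := by
  have o : ∀ i, ∀ y ∈ A.O i, (0 : ℝ) ≤ 1 := fun _ _ _ => zero_le_one
  refine Fam.Le.le_trans (fun i y hy => t2_comp_le (A.op i) hU hΦ (hf i y hy) (hm i y hy) hy k) ?_
  refine Fam.Le.const_mul (Nat.cast_nonneg _) ?_ o
  refine Fam.Le.mul_one' (Fam.Le.sum _ o fun j _ => h2 j) (Fam.Le.pow_one' ?_ ?_ k) ?_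
  · exact (Fam.Le.refl' _).add (Fam.Le.sum _ o fun j _ => h1 j) o
  · intro i y _
    positivity
  · intro i y _
    positivity
theorem t2_contOn {Φ : W → W1} {U : Set W} (hU : IsOpen U) (hΦ : ContDiffOn ℝ ∞ Φ U) (j : ℕ) :
    ContinuousOn (iteratedFDeriv ℝ j Φ) U :=
  (hΦ.continuousOn_iteratedFDerivWithin (t1_nat_le j) hU.uniqueDiffOn).congr
    (iteratedFDerivWithin_of_isOpen j hU).symm
theorem t2_bdd {Φ : W → W1} {U K : Set W} (hU : IsOpen U) (hK : IsCompact K) (hKU : K ⊆ U)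
    (hΦ : ContDiffOn ℝ ∞ Φ U) (j : ℕ) : ∃ C, ∀ x ∈ K, ‖iteratedFDeriv ℝ j Φ x‖ ≤ C :=
  hK.exists_bound_of_continuousOn ((t2_contOn hU hΦ j).mono hKU)
theorem t2_scale {v : ι → X → ℝ} {u : ι → X → ℝ} (h : Tm A v u) (hp : ∀ i, ∀ y ∈ A.O i, 0 < v i y)
    (j : ℕ) :
    A.Le (fun i y => ‖iteratedFDeriv ℝ j (fun z => (v i y)⁻¹ • u i z) y‖) (fun _ _ => 1) := by
  have := (h.bd j).mul_right (u := fun i y => (v i y)⁻¹) fun i y hy => (inv_pos.2 (hp i y hy)).le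
  refine this.congr (fun i y hy => ?_) (fun i y hy => (mul_inv_cancel₀ (hp i y hy).ne').symm)
  rw [iteratedFDeriv_const_smul_apply' ((h.contDiffAt i hy).of_le (t1_nat_le j)), norm_smul,
    Real.norm_of_nonneg (inv_pos.2 (hp i y hy)).le, mul_comm]
theorem t2_pos_of_le {w f : ι → X → ℝ} (hp : ∀ i, ∀ y ∈ A.O i, 0 < w i y) (hl : A.Le w f) :
    ∀ i, ∀ y ∈ A.O i, 0 < f i y := by
  obtain ⟨C, c, hC, h⟩ := hl
  intro i y hy
  exact (mul_pos_iff_of_pos_left (mul_pos hC (t1_pow_pos A i c))).1 ((hp i y hy).trans_le (h i y hy))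
theorem t2_inv_le {w f : ι → X → ℝ} (hp : ∀ i, ∀ y ∈ A.O i, 0 < w i y) (hl : A.Le w f) :
    A.Le (fun i y => ((w i y)⁻¹ * f i y)⁻¹) (fun _ _ => 1) := by
  have hf := t2_pos_of_le hp hl
  have := hl.mul_right (u := fun i y => (f i y)⁻¹) fun i y hy => (inv_pos.2 (hf i y hy)).le
  refine this.congr (fun i y hy => ?_) (fun i y hy => (mul_inv_cancel₀ (hf i y hy).ne').symm)
  rw [mul_inv, inv_inv]
theorem Tm.comp {Φ : W → W1} {U K : Set W} (hU : IsOpen U) (hK : IsCompact K) (hKU : K ⊆ U)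
    (hΦ : ContDiffOn ℝ ∞ Φ U) {u : ι → X → W} (h : Tm A (fun _ _ => 1) u)
    (hm : ∀ i, ∀ y ∈ A.O i, u i y ∈ K) : Tm A (fun _ _ => 1) (fun i y => Φ (u i y)) := by
  refine ⟨fun i => hΦ.comp (h.sm i) fun y hy => hKU (hm i y hy), h.nn, fun k => ?_⟩
  refine t2_gen (f := fun i _ => u i) hU hΦ (fun i _ _ => h.sm i) (fun i _ _ y hy => hKU (hm i y hy))
    (fun j => h.bd (j + 1)) (fun j => ?_) k
  obtain ⟨C, hC⟩ := t2_bdd hU hK hKU hΦ j
  exact Fam.Le.of_le_const C (fun i y hy => by simpa using hC _ (hm i y hy)) h.nn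
theorem Tm.inv {w : ι → X → ℝ} {u : ι → X → ℝ} (h : Tm A w u) (hp : ∀ i, ∀ y ∈ A.O i, 0 < w i y)
    (hl : A.Le w (fun i y => |u i y|)) : Tm A (fun i y => (w i y)⁻¹) (fun i y => (u i y)⁻¹) := by
  have hu : ∀ i, ∀ y ∈ A.O i, u i y ≠ 0 := fun i y hy => abs_pos.1 (t2_pos_of_le hp hl i y hy)
  have hw : ∀ i, ∀ y ∈ A.O i, 0 ≤ (w i y)⁻¹ := fun i y hy => (inv_pos.2 (hp i y hy)).le
  refine ⟨fun i => (h.sm i).inv (hu i), hw, fun k => ?_⟩
  have hΦ : ContDiffOn ℝ ∞ (Inv.inv : ℝ → ℝ) {0}ᶜ := contDiffOn_inv ℝ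
  have key := t2_gen (A := A) (f := fun i y z => (w i y)⁻¹ • u i z) isOpen_compl_singleton hΦ
    (fun i y _ => (h.sm i).const_smul _)
    (fun i y hy z hz => smul_ne_zero (inv_ne_zero (hp i y hy).ne') (hu i z hz))
    (fun j => t2_scale h hp (j + 1)) (fun j => ?_) k
  · have := key.mul_right hw
    refine Fam.Le.le_trans (fun i y hy => le_of_eq ?_) (this.congr (fun _ _ _ => rfl)
      (fun _ _ _ => (one_mul _).symm))
    have e : (fun z => (u i z)⁻¹) = fun z => (w i y)⁻¹ • ((w i y)⁻¹ • u i z)⁻¹ := by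
      funext z
      have := (hp i y hy).ne'
      simp only [smul_eq_mul, mul_inv, inv_inv]
      field_simp
    have hc : ContDiffAt ℝ k (fun z => ((w i y)⁻¹ • u i z)⁻¹) y :=
      (((h.contDiffAt i hy).of_le (t1_nat_le k)).const_smul _).inv
        (smul_ne_zero (inv_ne_zero (hp i y hy).ne') (hu i y hy))
    rw [e, iteratedFDeriv_const_smul_apply' hc, norm_smul, Real.norm_of_nonneg (hw i y hy), mul_comm]
  · have a := (t2_inv_le hp hl).pow_one'
      (fun i y hy => inv_nonneg.2 (mul_nonneg (hw i y hy) (abs_nonneg _))) (j + 1)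
    refine Fam.Le.le_trans (fun i y hy => le_of_eq ?_)
      (a.const_mul (Nat.cast_nonneg j.factorial) fun _ _ _ => zero_le_one)
    rw [norm_iteratedFDeriv_eq_norm_iteratedDeriv, iteratedDeriv_eq_iterate, iter_deriv_inv]
    have e : (-1 - (j : ℤ)) = -((j + 1 : ℕ) : ℤ) := by push_cast; ring
    rw [e, zpow_neg, zpow_natCast]
    simp [abs_of_pos (hp i y hy), mul_pow]
theorem Tm.sqrt {w : ι → X → ℝ} {u : ι → X → ℝ} (h : Tm A (fun i y => w i y ^ 2) u)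
    (hp : ∀ i, ∀ y ∈ A.O i, 0 < w i y) (hl : A.Le (fun i y => w i y ^ 2) u) :
    Tm A w (fun i y => Real.sqrt (u i y)) := by
  have hp2 : ∀ i, ∀ y ∈ A.O i, 0 < w i y ^ 2 := fun i y hy => pow_pos (hp i y hy) 2
  have hu := t2_pos_of_le hp2 hl
  have hw : ∀ i, ∀ y ∈ A.O i, 0 ≤ w i y := fun i y hy => (hp i y hy).le
  have hx : ∀ i, ∀ y ∈ A.O i, ∀ z ∈ A.O i, 0 < (w i y ^ 2)⁻¹ • u i z := fun i y hy z hz =>
    mul_pos (inv_pos.2 (hp2 i y hy)) (hu i z hz)
  refine ⟨fun i => (h.sm i).sqrt fun y hy => (hu i y hy).ne', hw, fun k => ?_⟩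
  have hΦ : ContDiffOn ℝ ∞ (fun x : ℝ => Real.sqrt x) (Ioi 0) := fun x hx =>
    (Real.contDiffAt_sqrt (ne_of_gt hx)).contDiffWithinAt
  have key := t2_gen (A := A) (f := fun i y z => (w i y ^ 2)⁻¹ • u i z) isOpen_Ioi hΦ
    (fun i y _ => (h.sm i).const_smul _) (fun i y hy z hz => hx i y hy z hz)
    (fun j => t2_scale h hp2 (j + 1)) (fun j => ?_) k
  · have := key.mul_right hw
    refine Fam.Le.le_trans (fun i y hy => le_of_eq ?_) (this.congr (fun _ _ _ => rfl)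
      (fun _ _ _ => (one_mul _).symm))
    have e : (fun z => Real.sqrt (u i z)) = fun z => w i y • Real.sqrt ((w i y ^ 2)⁻¹ • u i z) := by
      funext z
      have := (hp i y hy).ne'
      rw [smul_eq_mul, smul_eq_mul, Real.sqrt_mul (inv_pos.2 (hp2 i y hy)).le, Real.sqrt_inv,
        Real.sqrt_sq (hw i y hy)]
      field_simp
    have hc : ContDiffAt ℝ k (fun z => Real.sqrt ((w i y ^ 2)⁻¹ • u i z)) y :=
      (((h.contDiffAt i hy).of_le (t1_nat_le k)).const_smul _).sqrt (hx i y hy y hy).ne'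
    rw [e, iteratedFDeriv_const_smul_apply' hc, norm_smul, Real.norm_of_nonneg (hw i y hy), mul_comm]
  · have o : ∀ i, ∀ y ∈ A.O i, (0 : ℝ) ≤ 1 := fun _ _ _ => zero_le_one
    have a := (t2_inv_le hp2 hl).pow_one' (fun i y hy => (inv_pos.2 (hx i y hy y hy)).le) j
    have b := (t2_scale h hp2 0).add (Fam.Le.refl' _) o
    have c := (b.mul_one' a fun i y hy => pow_nonneg (inv_pos.2 (hx i y hy y hy)).le j).const_mul
      (abs_nonneg ((descPochhammer ℝ j).eval (1 / 2 : ℝ))) o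
    refine Fam.Le.le_trans (fun i y hy => ?_) c
    have e : (fun x : ℝ => Real.sqrt x) = fun x => x ^ (1 / 2 : ℝ) := funext Real.sqrt_eq_rpow
    have hx0 := hx i y hy y hy
    rw [norm_iteratedFDeriv_eq_norm_iteratedDeriv, iteratedDeriv_eq_iterate, e,
      Real.iter_deriv_rpow_const, norm_iteratedFDeriv_zero, Real.rpow_sub hx0, Real.rpow_natCast,
      ← Real.sqrt_eq_rpow, norm_mul, Real.norm_eq_abs]
    refine mul_le_mul_of_nonneg_left ?_ (abs_nonneg _)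
    rw [Real.norm_of_nonneg (by positivity), Real.norm_of_nonneg hx0.le, div_eq_mul_inv, ← inv_pow _ j]
    refine mul_le_mul_of_nonneg_right ?_ (pow_nonneg (inv_pos.2 hx0).le j)
    have := Real.sq_sqrt hx0.le
    nlinarith [sq_nonneg (Real.sqrt ((w i y ^ 2)⁻¹ • u i y) - 1), Real.sqrt_nonneg ((w i y ^ 2)⁻¹ • u i y)]
theorem Per.iteratedFDeriv {O : Set X} (hO : IsOpen O) {u : X × ℝ → W} (h : Per O u) (k : ℕ) :
    Per O (iteratedFDeriv ℝ k u) := by
  intro x hx t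
  have e : ∀ z ∈ O ×ˢ (univ : Set ℝ), u (z + (0, 2 * Real.pi)) = u z := by
    intro z hz
    rw [← h z.1 hz.1 z.2]
    congr 1
    ext <;> simp
  rw [← t1_congr (hO.prod isOpen_univ) e (y := (x, t)) ⟨hx, mem_univ _⟩ k,
    iteratedFDeriv_comp_add_right]
  simp
theorem Per.exists_Icc {Z : Type} {O : Set X} {u : X × ℝ → Z} (h : Per O u) {x : X} (hx : x ∈ O)
    (t : ℝ) : ∃ s ∈ Icc (0 : ℝ) (2 * Real.pi), u (x, t) = u (x, s) := by
  have hp : Function.Periodic (fun t => u (x, t)) (2 * Real.pi) := h x hx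
  obtain ⟨s, hs, e⟩ := hp.exists_mem_Ico₀ Real.two_pi_pos t
  exact ⟨s, Ico_subset_Icc_self hs, e⟩
/-- composition with a fixed smooth periodic function of parameters in a compact set -/
theorem Tm.pcomp {Φ : W × ℝ → W1} {U K : Set W} (hU : IsOpen U) (hK : IsCompact K) (hKU : K ⊆ U)
    (hΦ : ContDiffOn ℝ ∞ Φ (U ×ˢ univ)) (hP : Per U Φ) {u : ι → X → W}
    (h : Tm A (fun _ _ => 1) u) (hm : ∀ i, ∀ y ∈ A.O i, u i y ∈ K) :
    TmC A (fun _ _ => 1) (fun i y => Φ (u i y.1, y.2)) := by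
  have hU' : IsOpen (U ×ˢ (univ : Set ℝ)) := hU.prod isOpen_univ
  have hl := h.lift
  have hs : ∀ i, ContDiffOn ℝ ∞ (fun y : X × ℝ => (u i y.1, y.2)) (A.cyl.O i) := fun i =>
    (hl.sm i).prodMk contDiffOn_snd
  have hmm : ∀ i, MapsTo (fun y : X × ℝ => (u i y.1, y.2)) (A.cyl.O i) (U ×ˢ univ) := fun i y hy =>
    ⟨hKU (hm i y.1 hy.1), mem_univ _⟩
  refine ⟨fun i => hΦ.comp (hs i) (hmm i), hl.nn, fun k => ?_⟩
  refine t2_gen (A := A.cyl) (f := fun i _ y => (u i y.1, y.2)) hU' hΦ (fun i _ _ => hs i)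
    (fun i _ _ => hmm i) (fun j => ?_) (fun j => ?_) k
  · have a := (hl.clm (ContinuousLinearMap.inl ℝ W ℝ)).fderiv.add
      (Tm.const ((ContinuousLinearMap.inr ℝ W ℝ).comp (ContinuousLinearMap.snd ℝ X ℝ)))
    have b : Tm A.cyl (fun _ _ => 1) (fun i y => _root_.fderiv ℝ (fun y : X × ℝ => (u i y.1, y.2)) y) := by
      refine a.congr fun i y hy => ?_
      have d1 := (hl.clm (ContinuousLinearMap.inl ℝ W ℝ)).diffAt i hy
      have d2 := ((ContinuousLinearMap.inr ℝ W ℝ).comp (ContinuousLinearMap.snd ℝ X ℝ)).hasFDerivAt (x := y)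
      refine HasFDerivAt.fderiv ?_
      refine (d1.hasFDerivAt.add d2).congr_of_eventuallyEq (Eventually.of_forall fun z => ?_)
      simp
    exact (b.bd j).congr (fun i y _ => norm_iteratedFDeriv_fderiv.symm) fun _ _ _ => rfl
  · obtain ⟨C, hC⟩ := t2_bdd hU' (hK.prod (isCompact_Icc (a := (0 : ℝ)) (b := 2 * Real.pi)))
      (Set.prod_mono hKU (subset_univ _)) hΦ j
    refine Fam.Le.of_le_const C (fun i y hy => ?_) hl.nn
    obtain ⟨s, hs, e⟩ := (hP.iteratedFDeriv hU j).exists_Icc (hKU (hm i y.1 hy.1)) y.2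
    rw [e, mul_one]
    exact hC _ ⟨hm i y.1 hy.1, hs⟩
/-- a fixed function all of whose derivatives are bounded -/
theorem Tm.fixed {f : X → W} (hf : ContDiff ℝ ∞ f)
    (hb : ∀ k, ∃ C, ∀ x, ‖iteratedFDeriv ℝ k f x‖ ≤ C) : Tm A (fun _ _ => 1) (fun _ => f) := by
  refine ⟨fun _ => hf.contDiffOn, fun _ _ _ => zero_le_one, fun k => ?_⟩
  obtain ⟨C, hC⟩ := hb k
  exact Fam.Le.of_le_const C (fun i y _ => by simpa using hC y) fun _ _ _ => zero_le_one
theorem t2_fixed_lin (L : X →L[ℝ] ℝ) {f : ℝ → ℝ} (hf : ContDiff ℝ ∞ f)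
    (hb : ∀ k x, |iteratedDeriv k f x| ≤ 1) : Tm A (fun _ _ => 1) (fun _ x => f (L x)) := by
  refine Tm.fixed (hf.comp L.contDiff) fun k => ⟨‖L‖ ^ k, fun x => ?_⟩
  refine (t1_comp_right L isOpen_univ hf.contDiffOn (mem_univ _) k).trans ?_
  rw [norm_iteratedFDeriv_eq_norm_iteratedDeriv]
  exact mul_le_of_le_one_left (by positivity) (hb k _)
theorem Tm.trig {A : Fam ι E} : Tm A (fun _ _ => 1)
    (fun _ (x : E) => (![Real.cos x.1, Real.sin x.1, Real.cos x.2, Real.sin x.2] : Fin 4 → ℝ)) := by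
  refine Tm.pi (fun _ _ _ => zero_le_one) fun j => ?_
  fin_cases j
  · exact t2_fixed_lin (ContinuousLinearMap.fst ℝ ℝ ℝ) Real.contDiff_cos Real.abs_iteratedDeriv_cos_le_one
  · exact t2_fixed_lin (ContinuousLinearMap.fst ℝ ℝ ℝ) Real.contDiff_sin Real.abs_iteratedDeriv_sin_le_one
  · exact t2_fixed_lin (ContinuousLinearMap.snd ℝ ℝ ℝ) Real.contDiff_cos Real.abs_iteratedDeriv_cos_le_one
  · exact t2_fixed_lin (ContinuousLinearMap.snd ℝ ℝ ℝ) Real.contDiff_sin Real.abs_iteratedDeriv_sin_le_one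
theorem TmC.perfun {f : ℝ → ℝ} (hf : ContDiff ℝ ∞ f) (hp : ∀ t, f (t + 2 * Real.pi) = f t) :
    TmC A (fun _ _ => 1) (fun _ y => f y.2) := Tm.pcomp (Φ := fun z : ℝ × ℝ => f z.2) (u := fun _ _ => (0 : ℝ)) isOpen_univ isCompact_singleton
    (subset_univ _) (hf.comp contDiff_snd).contDiffOn (fun _ _ t => hp t) (Tm.const 0) fun _ _ _ => rfl

variable {η : ι → X → ℝ}
theorem Sl.congr {u v : ι → X → W} (h : Sl A η u) (e : ∀ i, ∀ y ∈ A.O i, v i y = u i y) :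
    Sl A η v := by
  refine ⟨h.t1.congr e, h.td.congr fun i y hy => ?_⟩
  have : v i =ᶠ[𝓝 y] u i := Filter.eventually_of_mem ((A.op i).mem_nhds hy) (e i)
  exact this.fderiv_eq
theorem Sl.anti {A' : Fam ι X} {u : ι → X → W} (h : Sl A η u) (hτ : A'.τ = A.τ)
    (hO : ∀ i, A'.O i ⊆ A.O i) : Sl A' η u := ⟨h.t1.anti hτ hO, h.td.anti hτ hO⟩
theorem Sl.const (h0 : ∀ i, ∀ y ∈ A.O i, 0 ≤ η i y) (c : W) : Sl A η (fun _ _ => c) := ⟨Tm.const c, (Tm.zero h0).congr fun i y _ => by simp⟩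
theorem Sl.add {u v : ι → X → W} (h : Sl A η u) (h' : Sl A η v) :
    Sl A η (fun i y => u i y + v i y) := ⟨h.t1.add h'.t1, (h.td.add h'.td).congr fun i y hy =>
    fderiv_fun_add (h.t1.diffAt i hy) (h'.t1.diffAt i hy)⟩
theorem Sl.sub {u v : ι → X → W} (h : Sl A η u) (h' : Sl A η v) :
    Sl A η (fun i y => u i y - v i y) := ⟨h.t1.sub h'.t1, (h.td.sub h'.td).congr fun i y hy =>
    fderiv_fun_sub (h.t1.diffAt i hy) (h'.t1.diffAt i hy)⟩
theorem Sl.neg {u : ι → X → W} (h : Sl A η u) : Sl A η (fun i y => -u i y) := ⟨h.t1.neg, h.td.neg.congr fun i y _ => fderiv_fun_neg⟩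
theorem Sl.clm (L : W →L[ℝ] W1) {u : ι → X → W} (h : Sl A η u) :
    Sl A η (fun i y => L (u i y)) := ⟨h.t1.clm L, (h.td.clm (ContinuousLinearMap.compL ℝ X W W1 L)).congr fun i y hy =>
    (L.hasFDerivAt.comp y (h.t1.diffAt i hy).hasFDerivAt).fderiv⟩
theorem Sl.bilin (B : W1 →L[ℝ] W2 →L[ℝ] W3) {u : ι → X → W1} {v : ι → X → W2}
    (h : Sl A η u) (h' : Sl A η v) : Sl A η (fun i y => B (u i y) (v i y)) := by
  refine ⟨(Tm.bilin B h.t1 h'.t1).mono_le fun _ _ _ => le_of_eq (mul_one _), ?_⟩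
  have a := (Tm.bilin (B.precompR X) h.t1 h'.td).mono_le (w' := η) fun _ _ _ => le_of_eq (one_mul _)
  have b := (Tm.bilin (B.precompL X) h.td h'.t1).mono_le (w' := η) fun _ _ _ => le_of_eq (mul_one _)
  exact (a.add b).congr fun i y hy => B.fderiv_of_bilinear (h.t1.diffAt i hy) (h'.t1.diffAt i hy)
theorem Sl.mul {u v : ι → X → ℝ} (h : Sl A η u) (h' : Sl A η v) :
    Sl A η (fun i y => u i y * v i y) := (Sl.bilin (ContinuousLinearMap.mul ℝ ℝ) h h').congr fun i y _ => by simp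
theorem Sl.smul {u : ι → X → ℝ} {v : ι → X → W} (h : Sl A η u) (h' : Sl A η v) :
    Sl A η (fun i y => u i y • v i y) := (Sl.bilin (ContinuousLinearMap.lsmul ℝ ℝ) h h').congr fun i y _ => by simp
theorem Sl.coord {n : ℕ} {u : ι → X → Fin n → ℝ} (h : Sl A η u) (j : Fin n) :
    Sl A η (fun i y => u i y j) :=
  (h.clm (ContinuousLinearMap.proj (R := ℝ) (φ := fun _ : Fin n => ℝ) j)).congr fun i y _ => by simp
theorem Sl.sum {κ : Type*} (s : Finset κ) {u : κ → ι → X → W}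
    (h0 : ∀ i, ∀ y ∈ A.O i, 0 ≤ η i y) (h : ∀ j ∈ s, Sl A η (u j)) :
    Sl A η (fun i y => ∑ j ∈ s, u j i y) := by
  classical
  induction s using Finset.induction_on with
  | empty => exact (Sl.const h0 0).congr fun i y _ => by simp
  | insert a s ha ih =>
    have := (h a (Finset.mem_insert_self _ _)).add (ih fun j hj => h j (Finset.mem_insert_of_mem hj))
    exact this.congr fun i y _ => by rw [Finset.sum_insert ha]
theorem Sl.pi {n : ℕ} {u : ι → X → Fin n → ℝ}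
    (h0 : ∀ i, ∀ y ∈ A.O i, 0 ≤ η i y) (h : ∀ j, Sl A η (fun i y => u i y j)) : Sl A η u := by
  have := Sl.sum Finset.univ h0 (fun j _ =>
    (h j).clm (ContinuousLinearMap.single ℝ (fun _ : Fin n => ℝ) j))
  refine this.congr fun i y _ => ?_
  simp only [ContinuousLinearMap.single_apply]
  exact (Finset.univ_sum_single _).symm
theorem Sl.dot {u v : ι → X → V} (h : Sl A η u) (h' : Sl A η v) :
    Sl A η (fun i y => u i y ⬝ᵥ v i y) := (Sl.sum Finset.univ h.td.nn (fun j _ => (h.coord j).mul (h'.coord j))).congr fun i y _ => rfl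
theorem Sl.cr {u1 u2 u3 : ι → X → V} (h1 : Sl A η u1) (h2 : Sl A η u2) (h3 : Sl A η u3) :
    Sl A η (fun i y => cr (u1 i y) (u2 i y) (u3 i y)) := by
  have m : ∀ a b c : Fin 4, Sl A η (fun i y => u1 i y a * u2 i y b * u3 i y c) := fun a b c =>
    ((h1.coord a).mul (h2.coord b)).mul (h3.coord c)
  have s6 : ∀ a b c : Fin 4, Sl A η
      (fun i y => u1 i y a * (u2 i y b * u3 i y c - u2 i y c * u3 i y b)
        - u1 i y b * (u2 i y a * u3 i y c - u2 i y c * u3 i y a)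
        + u1 i y c * (u2 i y a * u3 i y b - u2 i y b * u3 i y a)) := fun a b c =>
    ((((m a b c).sub (m a c b)).sub ((m b a c).sub (m b c a))).add ((m c a b).sub (m c b a))).congr
      fun i y _ => by ring
  refine Sl.pi h1.td.nn fun j => ?_
  fin_cases j
  · exact (s6 1 2 3).congr fun i y _ => rfl
  · exact (s6 0 2 3).neg.congr fun i y _ => rfl
  · exact (s6 0 1 3).congr fun i y _ => rfl
  · exact (s6 0 1 2).neg.congr fun i y _ => rfl
theorem Sl.inv {u : ι → X → ℝ} (h : Sl A η u) (hl : A.Le (fun _ _ => 1) (fun i y => |u i y|)) :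
    Sl A η (fun i y => (u i y)⁻¹) := by
  have a : Tm A (fun _ _ => 1) (fun i y => (u i y)⁻¹) :=
    (h.t1.inv (fun _ _ _ => one_pos) hl).mono_le fun _ _ _ => le_of_eq inv_one
  have hu : ∀ i, ∀ y ∈ A.O i, u i y ≠ 0 := fun i y hy =>
    abs_pos.1 (t2_pos_of_le (fun _ _ _ => one_pos) hl i y hy)
  refine ⟨a, (((a.mul a).neg.smul h.td).mono_le fun _ _ _ => le_of_eq (by ring)).congr fun i y hy => ?_⟩
  have := (hasDerivAt_inv (hu i y hy)).comp_hasFDerivAt y (h.t1.diffAt i hy).hasFDerivAt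
  refine this.fderiv.trans ?_
  rw [sq, mul_inv]
theorem Sl.sqrt {u : ι → X → ℝ} (h : Sl A η u) (hl : A.Le (fun _ _ => 1) u) :
    Sl A η (fun i y => Real.sqrt (u i y)) := by
  have hu := t2_pos_of_le (fun _ _ _ => one_pos) hl
  have a : Tm A (fun _ _ => 1) (fun i y => Real.sqrt (u i y)) :=
    Tm.sqrt (h.t1.mono_le fun _ _ _ => le_of_eq (one_pow 2).symm) (fun _ _ _ => one_pos)
      (hl.congr (fun _ _ _ => one_pow 2) fun _ _ _ => rfl)
  have hl2 : A.Le (fun _ _ => 1) (fun i y => |2 * Real.sqrt (u i y)|) := by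
    obtain ⟨C, c, hC, h1⟩ := hl
    refine ⟨C + 1, c, by positivity, fun i y hy => ?_⟩
    have p1 : 1 ≤ A.τ i ^ c := one_le_pow₀ (A.one_le i)
    have p2 := h1 i y hy
    have p3 := Real.sq_sqrt (hu i y hy).le
    have p4 := Real.sqrt_nonneg (u i y)
    have p5 := hu i y hy
    simp only at p2 ⊢
    rw [abs_of_nonneg (by positivity)]
    set M := (C + 1) * A.τ i ^ c with hM
    have q1 : 1 ≤ M := by nlinarith
    have q2 : 1 ≤ M * u i y := by nlinarith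
    by_contra hc
    have q3 : M * Real.sqrt (u i y) < 1 := by nlinarith
    have q4 : Real.sqrt (u i y) < 1 := by nlinarith
    nlinarith
  have b := ((a.const_mul 2).inv (fun _ _ _ => one_pos) hl2).smul h.td
  refine ⟨a, (b.mono_le fun _ _ _ => le_of_eq (by simp)).congr fun i y hy => ?_⟩
  rw [fderiv_sqrt (h.t1.diffAt i hy) (hu i y hy).ne', one_div]
theorem Sl.dV {w : ι → X → ℝ} {u : ι → X → W} {C : ι → X → X} (hC : Tm A w C) (h : Sl A η u) :
    Tm A (fun i x => w i x * η i x) (fun i => dV (C i) (u i)) := ((h.td.app hC).mono_le fun i y _ => le_of_eq (mul_comm _ _)).congr fun i y _ => rfl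

end Vale.Agent.P205
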