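import Vale.Agent.P205.D2
import Vale.Agent.P205.T2
import Vale.Agent.P205.T3
import Vale.Agent.P205.A0

open Set Filter Topology
open scoped ContDiff

noncomputable section
namespace Vale.Agent.P205

variable {ι : Type*} {A : Fam ι E} {D : ι → TD1} {σ : ι → ℝ} {η a : ι → E → ℝ}

/-! A2: sizes of the ingredients of the correction. -/
theorem Hyp.ingr (h : Hyp A D σ η a) (b : Base A D σ a) {k : ℕ} {U : ι → Y → V}
    (I : Inv A D σ η a k U) : Ingr A D σ η a k U := by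
  have h0 := h.toHyp0
  have n := h0.num
  have pE := fun i => a0_perE (D i) (A.op i) (I.per i)
  have w0 : ∀ i, ∀ x ∈ A.O i, 0 ≤ a i x * η i x ^ k := fun i x hx => by
    obtain ⟨-, -, n3, n4, -⟩ := n i hx
    positivity
  have wσ : ∀ i, ∀ x ∈ A.O i, a i x * η i x ^ k / σ i ≤ a i x * η i x ^ k := fun i x hx =>
    div_le_self (w0 i x hx) (h.sig i)
  have wa : ∀ i, ∀ x ∈ A.O i, a i x ^ 2 * η i x ^ k * (a i x)⁻¹ ≤ a i x * η i x ^ k :=
    fun i x hx => le_of_eq (by have := (h.apos i x hx).ne'; field_simp)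
  obtain ⟨r1, r2, r3⟩ := h0.remn I.e12 fun i => (pE i).2.1
  obtain ⟨tcc, pcc, -⟩ : TmC A _ (fun i => (D i).cc (U i)) ∧ (∀ i, Per (A.O i) ((D i).cc (U i))) ∧ _ :=
    r1.nrm r2 r3 h.tom
  have totcc : Tm A (fun i x => a i x * (a i x * η i x ^ k / σ i)) fun i => tot ((D i).cc (U i)) :=
    r1.tot_nrm r2 r3 h.tom h.totom h.tom'
  have tcc' := tcc.mono_le wσ
  have te : Tm A (fun i _ => ((D i).ε)⁻¹) fun i _ => ((D i).ε)⁻¹ :=
    Tm.cst _ fun i => inv_pos.2 (h.eps i)
  have q0 : TmC A (fun i x => a i x ^ 2 * η i x ^ k) fun i y =>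
      1 / 2 * (((D i).ε)⁻¹ * (D i).E22 (U i) y) :=
    ((te.lift.mul I.e22).mono_le fun i x _ => le_of_eq (by
      have := (h.eps i).ne'; field_simp)).const_mul _
  have q1 : TmC A (fun i x => a i x * η i x ^ k) fun i => dX (D i).C2 ((D i).cc (U i)) :=
    (tcc.dX h.tC2).mono_le fun i x hx => le_of_eq (by have := (n i hx).2.1.ne'; field_simp)
  have enn : ∀ i y, (D i).nn (U i) y = dX (D i).C2 ((D i).cc (U i)) y +
      1 / 2 * (((D i).ε)⁻¹ * (D i).E22 (U i) y) := fun i y => by rw [TD1.nn]; ring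
  have tnn : TmC A (fun i x => a i x * η i x ^ k) fun i => (D i).nn (U i) :=
    (q1.add (q0.ma h.ale w0 fun i x _ => le_of_eq (by ring))).cg fun i y _ => enn i y
  have pnn : ∀ i, Per (A.O i) ((D i).nn (U i)) := fun i x hx t => by
    rw [TD1.nn, TD1.nn, (pcc i).dX (A.op i) _ x hx t, (pE i).2.2 x hx t]
  have totnn : Tm A (fun i x => a i x ^ 2 * η i x ^ k) fun i => tot ((D i).nn (U i)) :=
    (((h.tC2.dV totcc).mono_le fun i x hx => le_of_eq (by
      have := (n i hx).2.1.ne'; field_simp)).add q0.tot).congr fun i x hx => by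
      rw [funext (enn i), ← tot_dX (A.op i) _ (tcc.smo i) hx]
      exact tot_add (q1.con i) (q0.con i) hx
  have eg : ∀ i y, (D i).g1 (U i) y = -1 / 2 * (((D i).ρ y.1)⁻¹ * (D i).E11 (U i) y) -
      ((D i).ρ y.1)⁻¹ * ((D i).T0 y.1 ⬝ᵥ (D i).f2 y.1) * dθ ((D i).cc (U i)) y -
      ((D i).ρ y.1)⁻¹ * ((D i).T0 y.1 ⬝ᵥ (D i).fn y.1) * dθ ((D i).nn (U i)) y := fun i y => by
    simp only [TD1.g1, dotProduct_add, dotProduct_smul, smul_eq_mul]; ring
  have g1 := (h.tρi.lift.mul I.e11).const_mul (-1 / 2)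
  have g2 := (h.tρi.mul (h.tT0.dot h.tf2)).lift.mul tcc'.dθ
  have g3 := (h.tρi.mul (h.tT0.dot h.tfn)).lift.mul tnn.dθ
  have tg1 : TmC A (fun i x => a i x * η i x ^ k) fun i => (D i).g1 (U i) :=
    (((g1.mono_le fun _ _ _ => le_of_eq (by ring)).sub
      (g2.mono_le fun _ _ _ => le_of_eq (by ring))).sub
      (g3.mono_le fun _ _ _ => le_of_eq (by ring))).cg fun i y _ => eg i y
  have pg1 : ∀ i, Per (A.O i) ((D i).g1 (U i)) := fun i x hx t => by
    rw [TD1.g1, TD1.g1, (pcc i).dθ (A.op i) x hx t, (pnn i).dθ (A.op i) x hx t, (pE i).1 x hx t]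
  have totg1 : Tm A (fun i x => a i x ^ 2 * η i x ^ k) fun i => tot ((D i).g1 (U i)) :=
    (((h.tρi.mul I.t11).const_mul (-1 / 2)).mono_le fun _ _ _ => (one_mul _).le).congr
      fun i x hx => by
      rw [funext (eg i), tot_sub ((g1.con i).fun_sub (g2.con i)) (g3.con i) hx,
        tot_sub (g1.con i) (g2.con i) hx,
        tot_mul fun x => ((D i).ρ x)⁻¹ * ((D i).T0 x ⬝ᵥ (D i).f2 x),
        tot_mul fun x => ((D i).ρ x)⁻¹ * ((D i).T0 x ⬝ᵥ (D i).fn x), tot_mul fun _ => -1 / 2,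
        tot_mul fun x => ((D i).ρ x)⁻¹, tot_dθ (A.op i) (tcc.smo i) (pcc i) hx,
        tot_dθ (A.op i) (tnn.smo i) (pnn i) hx]
      ring
  obtain ⟨s1, s2, s3⟩ := h0.rem tg1 pg1
  obtain ⟨taa, paa, -⟩ : TmC A _ (fun i => (D i).aa (U i)) ∧ (∀ i, Per (A.O i) ((D i).aa (U i))) ∧ _ :=
    s1.nrm s2 s3 h.tom
  have totaa : Tm A (fun i x => a i x * (a i x * η i x ^ k)) fun i => tot ((D i).aa (U i)) :=
    s1.tot_nrm s2 s3 h.tom h.totom h.tom'
  have p1 := (tcc'.smul h.tf2.lift).mono_le fun _ _ _ => (mul_one _).le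
  have p2 := (tnn.smul h.tfn.lift).mono_le fun _ _ _ => (mul_one _).le
  have p3 := (taa.smul h.tTh).mono_le fun _ _ _ => (mul_one _).le
  have p4 := (((totg1.lift.mul h.tB).mono_le wa).smul h.tnu).mono_le fun _ _ _ => (mul_one _).le
  have m := h.tρi.smul (h.tF1.sub h.tT0)
  have sWp : CorS A η a k fun i => (D i).Wp (U i) := by
    refine ⟨((p1.add p2).add p3).sub p4, fun i x hx t => ?_, ?_⟩
    · simp only [TD1.Wp, pcc i x hx t, pnn i x hx t, paa i x hx t, h.pTh i x hx t, h.pB i x hx t,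
        h.pnu i x hx t]
    refine (((((totcc.smul h.tf2).mono_le fun i x hx => ?_).add
      ((totnn.smul h.tfn).mono_le fun _ _ _ => (mul_one _).le)).add
      (((taa.smul b.tThm).tot.mono_le fun _ _ _ => le_of_eq (by ring)).add
        ((totaa.smul m).mono_le fun _ _ _ => le_of_eq (by ring)))).sub
      ((totg1.smul h.tBnu).mono_le fun _ _ _ => (mul_one _).le)).congr fun i x hx => ?_
    · nlinarith [mul_le_mul_of_nonneg_left (wσ i x hx) (h.apos i x hx).le]
    refine (tot_sub (((p1.add p2).add p3).con i) (p4.con i) hx).trans ?_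
    rw [tot_add ((p1.add p2).con i) (p3.con i) hx, tot_add (p1.con i) (p2.con i) hx,
      tot_smul_const, tot_smul_const, ← tot_smul (tot ((D i).g1 (U i))),
      ← tot_smul_const ((D i).aa (U i)) fun x => ((D i).ρ x)⁻¹ • ((D i).F1 x - (D i).T0 x),
      ← tot_add ((taa.smul b.tThm).con i) ((taa.smul m.lift).con i) hx]
    congr 1
    · congr 1
      exact tot_congr fun t => by rw [← smul_add, sub_add_cancel]
    · exact tot_congr fun t => mul_smul _ _ _
  have ttg : Tm A (fun i x => σ i * (a i x * (a i x * η i x ^ k))) fun i => (D i).tgt (U i) :=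
    ((((te.mul I.t12).mono_le fun i x _ => le_of_eq (by
      have := (h.eps i).ne'; field_simp)).add (h0.ell_tm b.tU0 sWp.tW
        (sWp.totW.mono_le fun _ _ _ => le_of_eq (by ring)))).neg).congr fun i x _ => by
      rw [TD1.tgt]; ring
  have tL : Tm A (fun i _ => σ i ^ 2) fun i x => ∑ l, (D i).Lam l x ^ 2 :=
    Tm.sum _ (fun _ _ _ => sq_nonneg _) fun l _ => (((b.tLam l).mul (b.tLam l)).mono_le
      fun _ _ _ => (sq _).ge).congr fun _ _ _ => sq _
  have tLi := tL.inv (fun i x hx => pow_pos (n i hx).2.1 2)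
    (h.lam.congr (fun _ _ _ => rfl) fun i x _ =>
      abs_of_nonneg (Finset.sum_nonneg fun _ _ => sq_nonneg _))
  have tgam : ∀ j, Tm A (fun i x => a i x ^ 2 * η i x ^ k) fun i => (D i).gam (U i) j := fun j =>
    ((((b.tLam j).mul ttg).mul tLi).mono_le fun i x hx => le_of_eq (by
      have := (n i hx).2.1.ne'; field_simp)).congr fun i x _ => div_eq_mul_inv _ _
  have u1 := fun j => ((tgam j).lift.smul (b.tWj j)).mono_le wa
  refine ⟨tcc, pcc, tnn, pnn, tg1, pg1, totg1, taa, paa, sWp, tgam,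
    Tm.sum (A := A.cyl) _ (fun i y hy => w0 i y.1 hy.1) fun j _ => u1 j, fun i x hx t => ?_, ?_⟩
  · simp only [TD1.Wh, b.pWj i _ x hx t]
  refine (Tm.sum Finset.univ totg1.nn fun j _ => ((tgam j).smul (b.totWj j)).mono_le
    fun _ _ _ => (mul_one _).le).congr fun i x hx => ?_
  exact (tot_sum _ (fun j _ => (u1 j).con i) hx).trans
    (Finset.sum_congr rfl fun j _ => tot_smul _ _ _)

end Vale.Agent.P205
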