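import Vale.Agent.P205.D2
import Vale.Agent.P205.T3
import Vale.Agent.P205.A0

open Set Filter Topology
open scoped ContDiff

noncomputable section
namespace Vale.Agent.P205

variable {ι : Type*} {A : Fam ι E} {D : ι → TD1} {σ : ι → ℝ} {η a : ι → E → ℝ}

theorem a3_sum {c : Fin 4 → E → ℝ} {W : Fin 4 → Y → V} {y : Y}
    (hc : ∀ j, DifferentiableAt ℝ (fun z : Y => c j z.1) y) (hW : ∀ j, DifferentiableAt ℝ (W j) y)
    (v : Y) : fderiv ℝ (fun z => ∑ j, c j z.1 • W j z) y v =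
      ∑ j, (fderiv ℝ (c j) y.1 v.1 • W j y + c j y.1 • fderiv ℝ (W j) y v) := by
  rw [fderiv_fun_sum (A := fun j z => c j z.1 • W j z) fun j _ => (hc j).smul (hW j),
    _root_.sum_apply]
  exact Finset.sum_congr rfl fun j _ => by rw [fderiv_smul' (hc j) (hW j), t1_fderiv_lift]

/-! A3: identities satisfied by the correction. -/
theorem Hyp.corI (h : Hyp A D σ η a) (b : Base A D σ a) {k : ℕ} {U : ι → Y → V}
    (I : Inv A D σ η a k U) (J : Ingr A D σ η a k U) :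
    CorI A D U (fun i => (D i).Wc (U i)) := by
  have h0 := h.toHyp0
  have tW : TmC A _ fun i => (D i).Wc (U i) := J.sWp.tW.add J.sWh.tW
  have dcc := let r := h0.remn I.e12 fun i => (a0_perE _ (A.op i) (I.per i)).2.1
    (r.1.nrm r.2.1 r.2.2 h.tom).2.2
  have daa := let r := h0.rem J.tg1 J.pg1
    (r.1.nrm r.2.1 r.2.2 h.tom).2.2
  have dh : ∀ i, ∀ y : Y, y.1 ∈ A.O i → ∀ v, fderiv ℝ ((D i).Wh (U i)) y v =
      ∑ j, (fderiv ℝ ((D i).gam (U i) j) y.1 v.1 • (D i).Wj j y +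
        (D i).gam (U i) j y.1 • fderiv ℝ ((D i).Wj j) y v) := fun i y hy =>
    a3_sum (fun j => (J.tgam j).lift.dAt hy) fun j => (b.tWj j).dAt hy
  have o : ∀ i, ∀ y : Y, y.1 ∈ A.O i → (D i).F2 y.1 ⬝ᵥ (D i).Wc (U i) y = (D i).cc (U i) y ∧
      (D i).F22 y.1 ⬝ᵥ (D i).Wc (U i) y = (D i).nn (U i) y := fun i y hy => by
    obtain ⟨b1, b2, -⟩ := h.oTh i y hy
    obtain ⟨c1, c2, -⟩ := h.onu i y hy
    obtain ⟨d1, d2, d3, d4⟩ := h.dual i _ hy
    rw [dotProduct_comm] at b1 b2 c1 c2 d1 d2 d3 d4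
    simp only [TD1.Wc, TD1.Wp, TD1.Wh, dotProduct_add, dotProduct_sub, dotProduct_smul,
      dotProduct_sum, smul_eq_mul, b1, b2, c1, c2, d1, d2, d3, d4, (b.oWj i _ y hy).1,
      (b.oWj i _ y hy).2.1]
    simp
  refine ⟨fun i y hy => ?_, fun i y hy => ?_, fun i y hy => ?_, fun i x hx => ?_⟩
  · have p1 := J.tcc.smul h.tf2.lift
    have p2 := J.tnn.smul h.tfn.lift
    have p3 := J.taa.smul h.tTh
    have p4 := J.totg1.lift.smul h.tB
    have e1 : dθ ((D i).Wp (U i)) y = dθ ((D i).cc (U i)) y • (D i).f2 y.1 +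
        dθ ((D i).nn (U i)) y • (D i).fn y.1 + (dθ ((D i).aa (U i)) y • (D i).Th y +
          (D i).aa (U i) y • dθ (D i).Th y) -
        (dθ (fun z => tot ((D i).g1 (U i)) z.1 • (D i).B z) y • (D i).nu y +
          (tot ((D i).g1 (U i)) y.1 * (D i).B y) • dθ (D i).nu y) := by
      refine (dθ_sub (((p1.dAt hy).add (p2.dAt hy)).add (p3.dAt hy))
        ((p4.smul h.tnu).dAt hy)).trans ?_
      rw [dθ_smul (p4.dAt hy) (h.tnu.dAt hy), ← dθ_smul (J.taa.dAt hy) (h.tTh.dAt hy)]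
      congr 1
      refine (dθ_add ((p1.dAt hy).add (p2.dAt hy)) (p3.dAt hy)).trans ?_
      congr 1
      refine (dθ_add (p1.dAt hy) (p2.dAt hy)).trans ?_
      rw [dθ_smul (J.tcc.dAt hy) (h.tf2.lift.dAt hy), dθ_smul (J.tnn.dAt hy) (h.tfn.lift.dAt hy),
        dθ_lift, dθ_lift, smul_zero, smul_zero, add_zero, add_zero]
    have e2 : (D i).T y ⬝ᵥ dθ ((D i).Wh (U i)) y = 0 := by
      rw [dθ, dh i y hy, dotProduct_sum]
      refine Finset.sum_eq_zero fun j _ => ?_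
      have := (b.oWj i j y hy).2.2.1
      rw [dθ] at this
      simp [this]
    obtain ⟨a1, a2, -, -, -, a3, a4⟩ := h0.TTh hy
    have e3 : dθ ((D i).aa (U i)) y = _ := daa i y hy
    have e4 : dθ ((D i).Wc (U i)) y = _ := dθ_add (J.sWp.tW.dAt hy) (J.sWh.tW.dAt hy)
    have e5 : (D i).ρ y.1 * (D i).g1 (U i) y = _ := mul_div_cancel₀ _ (h.ρpos i _ hy).ne'
    simp only [dotProduct_add, dotProduct_smul, smul_eq_mul] at e5
    simp only [e4, e1, e2, e3, h.dTh i y hy, h.dnu i y hy, ← h.hB i y hy, dotProduct_add,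
      dotProduct_sub, dotProduct_smul, dotProduct_neg, smul_eq_mul, a1, a2, a3, a4]
    linarith
  · have e1 := dθ_dot (h.tF2.lift.dAt hy) (tW.dAt hy)
    rw [dθ_lift, zero_dotProduct, zero_add, dθ_cg (A.op i) (fun z hz => (o i z hz).1) hy] at e1
    have e2 : dθ ((D i).cc (U i)) y = _ := dcc i y hy
    have e3 : (D i).F2 y.1 ⬝ᵥ dθ ((D i).Wc (U i)) y = _ := e1.symm
    rw [e3, e2]; ring
  · have e1 := h0.F2_dX (W := (D i).Wc (U i)) hy (tW.dAt hy)
    rw [dX_cg (u := fun z => (D i).F2 z.1 ⬝ᵥ (D i).Wc (U i) z) (A.op i)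
      (fun z hz => (o i z hz).1) hy, (o i y hy).2, TD1.nn] at e1
    have := (h.eps i).ne'
    rw [e1]; field_simp; ring
  · have c := fun j => h0.el_con b.tU0 (b.tWj j) i
    have c1 := fun j => ((J.tgam j).lift.con i).fun_mul (c j)
    have c2 := fun j => (((h.tC2.dV (J.tgam j)).mul h.tρ).lift.mul (h.txs j)).con i
    have e1 : (D i).ell ((D i).Wh (U i)) x = ∑ j, (D i).gam (U i) j x * (D i).Lam j x := by
      rw [TD1.ell, tot_cg (v := fun y => ∑ j, ((D i).gam (U i) j y.1 *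
        (dθ ((D i).Wj j) y ⬝ᵥ dX (D i).C2 (D i).U0 y + (D i).F2 y.1 ⬝ᵥ dX (D i).C1 ((D i).Wj j) y +
          (D i).T y ⬝ᵥ dX (D i).C2 ((D i).Wj j) y) +
        dV (D i).C2 ((D i).gam (U i) j) y.1 * (D i).ρ y.1 * (D i).xs j y)) (fun y hy => ?_) hx,
        tot_sum _ (fun j _ => (c1 j).fun_add (c2 j)) hx]
      · refine Finset.sum_congr rfl fun j _ => (tot_add (c1 j) (c2 j) hx).trans ?_
        rw [tot_mul (fun x => dV (D i).C2 ((D i).gam (U i) j) x * (D i).ρ x), h.totxs i j x hx,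
          mul_zero, add_zero]
        exact tot_mul _ _ _
      · simp only [dθ, dX, dh i y hy, sum_dotProduct, dotProduct_sum, ← Finset.sum_add_distrib]
        refine Finset.sum_congr rfl fun j _ => ?_
        simp only [add_dotProduct, dotProduct_add, smul_dotProduct, dotProduct_smul, smul_eq_mul,
          (b.oWj i j y hy).1, (b.oWj i j y hy).2.2.2, map_zero, dV]
        ring
    have e2 : (D i).ell ((D i).Wc (U i)) x =
        (D i).ell ((D i).Wp (U i)) x + (D i).ell ((D i).Wh (U i)) x := by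
      refine (tot_cg (fun y hy => ?_) hx).trans
        (tot_add (h0.el_con b.tU0 J.sWp.tW i) (h0.el_con b.tU0 J.sWh.tW i) hx)
      have f1 : dθ ((D i).Wc (U i)) y = _ := dθ_add (J.sWp.tW.dAt hy) (J.sWh.tW.dAt hy)
      have f2 : ∀ C, dX C ((D i).Wc (U i)) y = _ := fun C =>
        dX_add (C := C) (J.sWp.tW.dAt hy) (J.sWh.tW.dAt hy)
      simp only [f1, f2, add_dotProduct, dotProduct_add]
      ring
    have e3 : ∑ l, (D i).Lam l x ^ 2 ≠ 0 := fun e => by
      obtain ⟨C, c, -, hl⟩ := h.lam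
      have := hl i x hx
      have s := (h0.num i hx).2.1
      simp only [e, mul_zero] at this
      exact absurd this (not_le.2 (by positivity))
    have e4 : ∑ j, (D i).gam (U i) j x * (D i).Lam j x = (D i).tgt (U i) x := by
      rw [← mul_div_cancel_left₀ ((D i).tgt (U i) x) e3, Finset.sum_mul, Finset.sum_div]
      exact Finset.sum_congr rfl fun j _ => by rw [TD1.gam]; ring
    have := (h.eps i).ne'
    rw [e2, e1, e4, TD1.tgt]; field_simp; ring

end Vale.Agent.P205
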