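import Vale.Agent.P205.D2
import Vale.Agent.P205.T3
import Vale.Agent.P205.A0

open Set Filter Topology
open scoped ContDiff

noncomputable section
namespace Vale.Agent.P205

variable {ι : Type*} {A : Fam ι E} {D : ι → TD1} {σ : ι → ℝ} {η a : ι → E → ℝ}

/-! A4: the new errors after a correction. -/
theorem Hyp0.invStep (h : Hyp0 A D σ η a) (b : Base A D σ a) {k : ℕ} (hk : 1 ≤ k)
    {U W : ι → Y → V} (I : Inv A D σ η a k U) (S : CorS A η a k W) (J : CorI A D U W) :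
    Inv A D σ η a (k + 1) (fun i y => U i y + W i y) := by
  have n := h.num
  have te := h.tε
  have ηk : ∀ i, ∀ x ∈ A.O i, 0 < η i x ^ k ∧ η i x ^ k ≤ η i x := fun i x hx => by
    obtain ⟨-, -, n3, -, -, -, n7⟩ := n i hx
    exact ⟨by positivity, pow_le_of_le_one n3.le n7 (by omega)⟩
  have tW := S.tW
  have tW' : TmC A (fun i x => a i x * η i x) W := tW.mono_le fun i x hx =>
    mul_le_mul_of_nonneg_left (ηk i x hx).2 (h.apos i x hx).le
  have aη : ∀ i, ∀ x ∈ A.O i, a i x * η i x ≤ a i x := fun i x hx =>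
    mul_le_of_le_one_right (h.apos i x hx).le (h.η1 i x hx)
  have tU : TmC A a U := (b.tU0.add (I.tV.mono_le aη)).cg fun i y _ => (add_sub_cancel _ _).symm
  have εX : ∀ {C : ι → E → E} {w : ι → E → ℝ} {G : ι → Y → V}, Tm A (fun i _ => σ i) C →
      TmC A w G → TmC A (fun i x => w i x * (η i x / σ i))
        fun i y => (D i).ε • dX (C i) (G i) y := fun hC hG =>
    (te.lift.smul (hG.dX hC)).mono_le fun i x hx => by
      rw [← mul_assoc, mul_comm]
      exact mul_le_mul_of_nonneg_left (n i hx).2.2.2.2.1 (hG.nn i (x, 0) ⟨hx, trivial⟩)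
  have εX' : ∀ {C : ι → E → E} {w : ι → E → ℝ} {G : ι → Y → V}, Tm A (fun i _ => σ i) C →
      TmC A w G → TmC A (fun i x => w i x * η i x)
        fun i y => (D i).ε • dX (C i) (G i) y := fun hC hG =>
    (εX hC hG).mono_le fun i x hx =>
      mul_le_mul_of_nonneg_left (n i hx).2.2.2.2.2.1 (hG.nn i (x, 0) ⟨hx, trivial⟩)
  have tR := I.tV.dθ.add (εX' h.tC1 tU)
  have tZ := εX h.tC2 tU
  have tp := tW.dθ.add ((εX' h.tC1 tW).mono_le fun i x hx =>
    mul_le_of_le_one_right (tW.nn i (x, 0) ⟨hx, trivial⟩) (h.η1 i x hx))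
  have tp' := tp.mono_le fun i x hx => mul_le_mul_of_nonneg_left (ηk i x hx).2 (h.apos i x hx).le
  have x1 := tW.dX h.tC1
  have x2 := tW.dX h.tC2
  have eP : ∀ i, ∀ y : Y, y.1 ∈ A.O i → (D i).A1 (U i) y = (D i).T y +
      (dθ (fun z => U i z - (D i).U0 z) y + (D i).ε • dX (D i).C1 (U i) y) := fun i y hy => by
    rw [dθ_sub (tU.dAt hy) (b.tU0.dAt hy), b.dU0 i y hy, TD1.A1]; abel
  have tPF : TmC A a fun i y => (D i).A1 (U i) y - (D i).F1 y.1 :=
    (h.tT.add (tR.mono_le aη)).cg fun i y hy => by rw [eP i y hy]; abel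
  have tP : TmC A (fun _ _ => 1) fun i => (D i).A1 (U i) :=
    (h.tF1.lift.add (tPF.mono h.ale fun _ _ _ => zero_le_one)).cg fun i y _ =>
      (add_sub_cancel _ _).symm
  have e1 : ∀ i, ∀ y : Y, y.1 ∈ A.O i → (D i).A1 (fun z => U i z + W i z) y =
      (D i).A1 (U i) y + (dθ (W i) y + (D i).ε • dX (D i).C1 (W i) y) := fun i y hy => by
    rw [TD1.A1, TD1.A1, dθ_add (tU.dAt hy) (tW.dAt hy), dX_add (tU.dAt hy) (tW.dAt hy), smul_add]
    abel
  have e2 : ∀ i, ∀ y : Y, y.1 ∈ A.O i → (D i).A2 (fun z => U i z + W i z) y =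
      (D i).A2 (U i) y + (D i).ε • dX (D i).C2 (W i) y := fun i y hy => by
    rw [TD1.A2, TD1.A2, dX_add (tU.dAt hy) (tW.dAt hy), smul_add, add_assoc]
  have f1 := ((tR.dot tW.dθ).const_mul 2).add (tp'.dot tp)
  have f2 := (te.lift.mul (tP.dot x1)).const_mul 2
  have e11 : ∀ i, ∀ y : Y, y.1 ∈ A.O i → (D i).E11 (fun z => U i z + W i z) y = _ + _ :=
    fun i y hy => show _ = (2 * ((dθ (fun z => U i z - (D i).U0 z) y +
        (D i).ε • dX (D i).C1 (U i) y) ⬝ᵥ dθ (W i) y) +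
      (dθ (W i) y + (D i).ε • dX (D i).C1 (W i) y) ⬝ᵥ (dθ (W i) y + (D i).ε • dX (D i).C1 (W i) y))
        + 2 * ((D i).ε * ((D i).A1 (U i) y ⬝ᵥ dX (D i).C1 (W i) y)) by
      have := J.i11 i y hy
      rw [TD1.E11] at this ⊢
      rw [e1 i y hy, ← sub_eq_iff_eq_add'.2 (eP i y hy), add_dotProduct, dotProduct_add,
        dotProduct_add (_ + _), dotProduct_comm (_ + _) ((D i).A1 (U i) y), dotProduct_add,
        sub_dotProduct, dotProduct_smul, smul_eq_mul]
      linarith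
  have tL := (((tW.dθ.dot (b.tU0.dX h.tC2)).ma h.ale (fun i x hx => x1.nn i (x, 0) ⟨hx, trivial⟩) fun _ _ _ =>
    le_of_eq (by simp only [up]; ring)).add ((h.tF2.lift.dot x1).mono_le fun _ _ _ => (one_mul _).le)).add
      ((b.tT1.dot x2).mono_le fun _ _ _ => (one_mul _).le)
  have tN : TmC A (fun i x => σ i * a i x ^ 2 * η i x ^ (k + 1)) _ :=
    (((((I.tV.dX h.tC2).dot tW.dθ).mono_le fun _ _ _ => le_of_eq (by ring)).add
      (((εX' h.tC2 tU).dot x1).mono_le fun _ _ _ => le_of_eq (by ring))).add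
      ((tR.dot x2).mono_le fun _ _ _ => le_of_eq (by ring))).add
      ((tp'.dot x2).mono_le fun _ _ _ => le_of_eq (by ring))
  have f3 := I.t12.lift.mul h.tb
  have f4 := te.lift.mul tL
  have f5 := te.lift.mul tN
  have e12 : ∀ i, ∀ y : Y, y.1 ∈ A.O i → (D i).E12 (fun z => U i z + W i z) y = _ + _ + _ :=
    fun i y hy => show _ = tot ((D i).E12 (U i)) y.1 * (D i).b y +
      (D i).ε * (dθ (W i) y ⬝ᵥ dX (D i).C2 (D i).U0 y + (D i).F2 y.1 ⬝ᵥ dX (D i).C1 (W i) y +
        (D i).T y ⬝ᵥ dX (D i).C2 (W i) y) +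
      (D i).ε * (dX (D i).C2 (fun z => U i z - (D i).U0 z) y ⬝ᵥ dθ (W i) y +
        ((D i).ε • dX (D i).C2 (U i) y) ⬝ᵥ dX (D i).C1 (W i) y +
        (dθ (fun z => U i z - (D i).U0 z) y + (D i).ε • dX (D i).C1 (U i) y) ⬝ᵥ dX (D i).C2 (W i) y +
        (dθ (W i) y + (D i).ε • dX (D i).C1 (W i) y) ⬝ᵥ dX (D i).C2 (W i) y) by
      rw [← J.i12 i y hy, TD1.E12, TD1.E12, e1 i y hy, e2 i y hy,
        ← sub_eq_iff_eq_add'.2 (eP i y hy), dX_sub (tU.dAt hy) (b.tU0.dAt hy)]
      simp only [TD1.A2, add_dotProduct, dotProduct_add, sub_dotProduct,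
        smul_dotProduct, dotProduct_smul, smul_eq_mul, dotProduct_comm (dθ (W i) y),
        dotProduct_comm (dX (D i).C1 (W i) y) ((D i).F2 y.1),
        dotProduct_comm (dX (D i).C1 (W i) y) (dX (D i).C2 (U i) y)]
      ring
  have f6 := (te.lift.mul (tZ.dot x2)).const_mul 2
  have f7 := te.lift.mul ((εX h.tC2 tW).dot x2)
  have e22 : ∀ i, ∀ y : Y, y.1 ∈ A.O i → (D i).E22 (fun z => U i z + W i z) y =
      2 * ((D i).ε * (((D i).ε • dX (D i).C2 (U i) y) ⬝ᵥ dX (D i).C2 (W i) y)) +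
      (D i).ε * (((D i).ε • dX (D i).C2 (W i) y) ⬝ᵥ dX (D i).C2 (W i) y) := fun i y hy => by
    have := J.i22 i y hy
    rw [TD1.E22] at this ⊢
    rw [e2 i y hy, add_dotProduct, dotProduct_add, dotProduct_add,
      dotProduct_comm (_ • _) ((D i).A2 (U i) y)]
    rw [← sub_eq_zero, ← this]
    simp only [TD1.A2, add_dotProduct, smul_dotProduct, dotProduct_smul, smul_eq_mul]
    ring
  have w1 : ∀ i, ∀ x ∈ A.O i, 0 ≤ a i x * η i x ^ (k + 1) ∧ 0 ≤ a i x * η i x ^ (k + 1) / σ i :=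
    fun i x hx => by
      obtain ⟨-, n2, n3, n4, -⟩ := n i hx
      exact ⟨by positivity, by positivity⟩
  have key : ∀ i, ∀ x ∈ A.O i, ∀ c, 0 ≤ c → (D i).ε * σ i * c ≤ η i x / σ i * c ∧
      (D i).ε * σ i * c ≤ η i x * c := fun i x hx c hc => by
    obtain ⟨-, -, -, -, n5, n6, -⟩ := n i hx
    exact ⟨mul_le_mul_of_nonneg_right n5 hc, mul_le_mul_of_nonneg_right (n5.trans n6) hc⟩
  refine ⟨(I.tV.add tW').cg fun i y _ => by abel,
    fun i x hx t => by simp only [I.per i x hx t, S.per i x hx t],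
    ((f1.ma h.ale (fun i x hx => (w1 i x hx).1) fun _ _ _ => le_of_eq (by ring)).add
      (f2.mono_le fun i x hx => ?_)).cg e11, ?_,
    (((f3.ma h.ale (fun i x hx => (w1 i x hx).2) fun i x hx => ?_).add
      (f4.mono_le fun i x hx => ?_)).add
      (f5.ma h.ale (fun i x hx => (w1 i x hx).2) fun i x hx => ?_)).cg e12, ?_,
    ((f6.mono_le fun i x hx => ?_).add (f7.mono_le fun i x hx => ?_)).cg e22⟩
  · have := (key i x hx _ (tW.nn i (x, 0) ⟨hx, trivial⟩)).2
    simp only [up] at this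
    rw [pow_succ]; linarith
  · refine ((f1.tot.mono_le fun _ _ _ => le_of_eq (by ring)).add
      (((te.mul (a0_totP h.tF1 tPF h.tC1 tW (S.totW.mono_le fun _ _ _ =>
        le_of_eq (by ring)))).const_mul 2).mono_le fun i x hx => ?_)).congr fun i x hx => ?_
    · have := (key i x hx _ (S.totW.nn i x hx)).2
      rw [pow_succ (η i x)]; linarith
    · rw [tot_cg (e11 i) hx, tot_add (f1.con i) (f2.con i) hx,
        tot_mul (fun _ => 2), tot_mul fun _ => (D i).ε]
  · refine le_trans (le_of_eq (by ring)) ((key i x hx _ (S.totW.nn i x hx)).1.trans_eq (by ring))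
  · have := (key i x hx _ (tW.nn i (x, 0) ⟨hx, trivial⟩)).1
    simp only [up] at this
    exact le_trans (le_of_eq (by simp only [up]; ring)) (this.trans_eq (by ring))
  · obtain ⟨-, n2, n3, n4, -, -, n7⟩ := n i hx
    have := (key i x hx (a i x ^ 2 * η i x ^ (k + 1)) (by positivity)).1
    refine le_trans (le_of_eq (by ring)) (this.trans ?_)
    calc _ = η i x * (a i x * (a i x * η i x ^ (k + 1) / σ i)) := by ring
      _ ≤ _ := mul_le_of_le_one_left (by positivity) n7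
  · refine (f5.tot.mono_le fun _ _ _ => le_of_eq (by ring)).congr fun i x hx => ?_
    have := J.itot i x hx
    rw [tot_cg (e12 i) hx, tot_add ((f3.con i).fun_add (f4.con i)) (f5.con i) hx,
      tot_add (f3.con i) (f4.con i) hx, tot_mul, h.totb i x hx, mul_one,
      tot_mul (fun _ => (D i).ε) (fun y => _ + _ + (D i).T y ⬝ᵥ _)]
    rw [TD1.ell] at this
    rw [this, zero_add]
  · exact le_of_eq (by have := (n i hx).2.1.ne'; rw [pow_succ _ k]; field_simp)
  · obtain ⟨n1, n2, n3, n4, -, -, n7⟩ := n i hx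
    calc _ = η i x ^ k * ((D i).ε * a i x ^ 2 * η i x ^ (k + 1)) := by
          rw [pow_succ _ k]; field_simp
      _ ≤ _ := mul_le_of_le_one_left (by positivity) (pow_le_one₀ n3.le n7)

end Vale.Agent.P205
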