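import Vale.Agent.P205.D2

open Set Filter Topology
open scoped ContDiff

noncomputable section
namespace Vale.Agent.P205

/-- agreement on the germ zone -/
def A5Eq {W : Type} (O : Set E) (δ : ℝ) (u v : Y → W) : Prop :=
  ∀ y : Y, y.1 ∈ O → |y.2| < δ → u y = v y

section
variable {W : Type} [NormedAddCommGroup W] [NormedSpace ℝ W] {O : Set E} {δ : ℝ} {u v : Y → W}

theorem A5Eq.fd (hO : IsOpen O) (h : A5Eq O δ u v) : A5Eq O δ (fderiv ℝ u) (fderiv ℝ v) :=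
  fun y hy ht => by
    have o : IsOpen {z : Y | z.1 ∈ O ∧ |z.2| < δ} :=
      (hO.preimage continuous_fst).inter (isOpen_lt continuous_snd.abs continuous_const)
    exact Filter.EventuallyEq.fderiv_eq
      (eventually_of_mem (o.mem_nhds ⟨hy, ht⟩) fun z hz => h z hz.1 hz.2)

theorem A5Eq.dθ (hO : IsOpen O) (h : A5Eq O δ u v) : A5Eq O δ (dθ u) (dθ v) :=
  fun y hy ht => by rw [P205.dθ, P205.dθ, h.fd hO y hy ht]

theorem A5Eq.dX (hO : IsOpen O) (h : A5Eq O δ u v) (C : E → E) : A5Eq O δ (dX C u) (dX C v) :=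
  fun y hy ht => by rw [P205.dX, P205.dX, h.fd hO y hy ht]

theorem A5Eq.prim (h : A5Eq O δ u v) : A5Eq O δ (prim u) (prim v) := fun y hy ht =>
  intervalIntegral.integral_congr fun s hs => h (y.1, s) hy <| lt_of_le_of_lt (by
    simpa using abs_sub_left_of_mem_uIcc hs) ht

theorem A5Eq.nrm {om : Y → ℝ} (hom : ∀ x ∈ O, ∀ t, |t| ≤ Real.pi → om (x, t) ≠ 0 → |t| < δ)
    (h : A5Eq O δ u v) : A5Eq O δ (nrm om u) (nrm om v) := fun y hy ht => by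
  rw [P205.nrm, P205.nrm, h.prim y hy ht]
  congr 1
  refine intervalIntegral.integral_congr fun s hs => ?_
  by_cases e : om (y.1, s) = 0
  · simp only [e, zero_smul]
  · rw [uIcc_of_le (by linarith [Real.pi_pos])] at hs
    simp only [h.prim (y.1, s) hy (hom _ hy s (abs_le.2 hs) e)]
end

/-! A5: germ locality of the iteration (no smoothness needed). -/
theorem it_local (D D' : TD1) {O : Set E} (hO : IsOpen O) {δ : ℝ} (hδ : δ ≤ 1)
    (e0 : D.ε = D'.ε) (e1 : D.C1 = D'.C1) (e2 : D.C2 = D'.C2) (e3 : D.F1 = D'.F1)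
    (e4 : D.F2 = D'.F2) (e5 : D.f2 = D'.f2) (e6 : D.fn = D'.fn) (e7 : D.T0 = D'.T0)
    (e8 : D.ρ = D'.ρ) (e9 : D.om = D'.om)
    (hTh : ∀ x ∈ O, ∀ t, |t| < δ → D.Th (x, t) = D'.Th (x, t))
    (hom : ∀ x ∈ O, ∀ t, |t| ≤ Real.pi → D.om (x, t) ≠ 0 → |t| < δ)
    (hz : ∀ x ∈ O, ∀ t, |t| < δ → D.b (x, t) = 0 ∧ D.B (x, t) = 0 ∧
      ∀ j, D.xs j (x, t) = 0 ∧ D.ys j (x, t) = 0)
    (hz' : ∀ x ∈ O, ∀ t, |t| < δ → D'.b (x, t) = 0 ∧ D'.B (x, t) = 0 ∧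
      ∀ j, D'.xs j (x, t) = 0 ∧ D'.ys j (x, t) = 0) (n : ℕ) :
    ∀ x ∈ O, ∀ t, |t| < δ → D.it n (x, t) = D'.it n (x, t) := by
  have hT : A5Eq O δ D.Th D'.Th := fun y hy ht => hTh y.1 hy y.2 ht
  have st : ∀ U U', A5Eq O δ U U' → A5Eq O δ (D.step U) (D'.step U') := fun U U' h => by
    have a1 : A5Eq O δ (D.A1 U) (D'.A1 U') := fun y hy ht => by
      rw [TD1.A1, TD1.A1, e0, e1, e3, h.dθ hO y hy ht, h.dX hO _ y hy ht]
    have a2 : A5Eq O δ (D.A2 U) (D'.A2 U') := fun y hy ht => by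
      rw [TD1.A2, TD1.A2, e0, e2, e4, h.dX hO _ y hy ht]
    have cc : A5Eq O δ (D.cc U) (D'.cc U') := by
      rw [TD1.cc, TD1.cc, ← e9]
      refine A5Eq.nrm hom fun y hy ht => ?_
      rw [TD1.E12, TD1.E12, a1 y hy ht, a2 y hy ht, e3, e4, (hz y.1 hy y.2 ht).1,
        (hz' y.1 hy y.2 ht).1, mul_zero, mul_zero]
    have nn : A5Eq O δ (D.nn U) (D'.nn U') := fun y hy ht => by
      rw [TD1.nn, TD1.nn, TD1.E22, TD1.E22, a2 y hy ht, e0, e2, e4, cc.dX hO _ y hy ht]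
    have g1 : A5Eq O δ (D.g1 U) (D'.g1 U') := fun y hy ht => by
      rw [TD1.g1, TD1.g1, TD1.E11, TD1.E11, a1 y hy ht, e5, e6, e7, e8, cc.dθ hO y hy ht,
        nn.dθ hO y hy ht]
    have aa : A5Eq O δ (D.aa U) (D'.aa U') := by
      rw [TD1.aa, TD1.aa, ← e9]
      refine A5Eq.nrm hom fun y hy ht => ?_
      rw [g1 y hy ht, (hz y.1 hy y.2 ht).1, (hz' y.1 hy y.2 ht).1, mul_zero, mul_zero]
    intro y hy ht
    obtain ⟨-, z1, z2⟩ := hz y.1 hy y.2 ht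
    obtain ⟨-, z3, z4⟩ := hz' y.1 hy y.2 ht
    simp only [TD1.step, TD1.Wc, TD1.Wp, TD1.Wh, TD1.Wj, h y hy ht, cc y hy ht, nn y hy ht,
      aa y hy ht, hT y hy ht, e5, e6, z1, z2, z3, z4, mul_zero, zero_smul, add_zero, smul_zero]
  suffices A5Eq O δ (D.it n) (D'.it n) from fun x hx t ht => this (x, t) hx ht
  induction n with
  | zero =>
    change A5Eq O δ D.U0 D'.U0
    rw [TD1.U0, TD1.U0, ← e9]
    refine A5Eq.nrm hom fun y hy ht => ?_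
    rw [TD1.T, TD1.T, e3, e7, e8, hT y hy ht]
  | succ n ih =>
    rw [TD1.it, TD1.it, Function.iterate_succ_apply', Function.iterate_succ_apply']
    exact st _ _ ih

end Vale.Agent.P205
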