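import Vale.Agent.P205.D1

open Set Filter Topology
open scoped ContDiff

noncomputable section
namespace Vale.Agent.P205

/-! G1: algebra of `cr`, `np`, plane tensors; margin lemmas. -/

theorem np_eq (a b u w : V) : np a b u w =
    npd (a ⬝ᵥ a, a ⬝ᵥ b, b ⬝ᵥ b) (u ⬝ᵥ w) (u ⬝ᵥ a) (u ⬝ᵥ b) (a ⬝ᵥ w) (b ⬝ᵥ w) := by
  simp [np, npd, det2, cr, dotProduct, Fin.sum_univ_four]; ring
theorem cr_orth (a b c : V) : cr a b c ⬝ᵥ a = 0 ∧ cr a b c ⬝ᵥ b = 0 ∧ cr a b c ⬝ᵥ c = 0 := by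
  refine ⟨?_, ?_, ?_⟩ <;> simp [cr, dotProduct, Fin.sum_univ_four] <;> ring
theorem np_comm (a b u w : V) : np a b u w = np a b w u := dotProduct_comm _ _
theorem g1_dot_nonneg (a : V) : 0 ≤ a ⬝ᵥ a := Finset.sum_nonneg fun _ _ => mul_self_nonneg _
theorem g1_cs (a b : V) : (a ⬝ᵥ b) ^ 2 ≤ (a ⬝ᵥ a) * (b ⬝ᵥ b) := by
  simpa only [dotProduct, sq] using Finset.sum_mul_sq_le_sq_mul_sq Finset.univ a b
theorem np_nonneg (a b u : V) : 0 ≤ np a b u u := g1_dot_nonneg _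
theorem np_cs (a b u w : V) : np a b u w ^ 2 ≤ np a b u u * np a b w w := g1_cs _ _
theorem cr_add3 (a b u w : V) : cr a b (u + w) = cr a b u + cr a b w := by
  ext i; fin_cases i <;> simp [cr] <;> ring
theorem cr_smul3 (a b u : V) (t : ℝ) : cr a b (t • u) = t • cr a b u := by
  ext i; fin_cases i <;> simp [cr] <;> ring
theorem cr_tan (a b u : V) (s t : ℝ) : cr a b (u + (s • a + t • b)) = cr a b u := by
  ext i; fin_cases i <;> simp [cr] <;> ring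
theorem cr_frame (a b u : V) (p q r s : ℝ) :
    cr (p • a + q • b) (r • a + s • b) u = (p * s - q * r) • cr a b u := by
  ext i; fin_cases i <;> simp [cr] <;> ring
theorem np_le_gram (a b u : V) : np a b u u ≤ gram2 a b * (u ⬝ᵥ u) := by
  have h := g1_dot_nonneg ((u ⬝ᵥ a) • b - (u ⬝ᵥ b) • a)
  rw [np_eq]
  simp only [sub_dotProduct, dotProduct_sub, smul_dotProduct, dotProduct_smul, smul_eq_mul,
    dotProduct_comm b a] at h
  simp only [npd, det2, gram2, dotProduct_comm a u, dotProduct_comm b u]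
  linarith
theorem gram2_nonneg (a b : V) : 0 ≤ gram2 a b := sub_nonneg.2 (g1_cs a b)
theorem np_normal (a b u ν : V) (ha : ν ⬝ᵥ a = 0) (hb : ν ⬝ᵥ b = 0) :
    np a b u ν = gram2 a b * (u ⬝ᵥ ν) := by
  rw [np_eq, dotProduct_comm a ν, dotProduct_comm b ν, ha, hb]
  simp [npd, det2, gram2, mul_comm]
/-- `np a b c c` is the symmetric Gram determinant -/
theorem np_perm (a b c : V) : np a b c c = np b c a a := by
  simp [np, cr, dotProduct, Fin.sum_univ_four]; ring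
theorem g1_abs (a : V) (i : Fin 4) : |a i| ≤ ‖a‖ := norm_le_pi_norm a i
theorem norm_cr_le (a b c : V) : ‖cr a b c‖ ≤ 6 * ‖a‖ * ‖b‖ * ‖c‖ := by
  have h : ∀ i j k, -(‖a‖ * ‖b‖ * ‖c‖) ≤ a i * b j * c k ∧ a i * b j * c k ≤ ‖a‖ * ‖b‖ * ‖c‖ := by
    intro i j k
    rw [← abs_le, abs_mul, abs_mul]
    gcongr <;> exact g1_abs _ _
  refine (pi_norm_le_iff_of_nonneg (by positivity)).2 fun i => ?_
  rw [Real.norm_eq_abs, abs_le]
  fin_cases i <;> simp [cr]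
  · constructor <;> linarith [h 1 2 3, h 1 3 2, h 2 1 3, h 2 3 1, h 3 1 2, h 3 2 1]
  · constructor <;> linarith [h 0 2 3, h 0 3 2, h 2 0 3, h 2 3 0, h 3 0 2, h 3 2 0]
  · constructor <;> linarith [h 0 1 3, h 0 3 1, h 1 0 3, h 1 3 0, h 3 0 1, h 3 1 0]
  · constructor <;> linarith [h 0 1 2, h 0 2 1, h 1 0 2, h 1 2 0, h 2 0 1, h 2 1 0]
theorem abs_dot_le (a b : V) : |a ⬝ᵥ b| ≤ 4 * ‖a‖ * ‖b‖ := by
  have h : ∀ i, |a i * b i| ≤ ‖a‖ * ‖b‖ := by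
    intro i
    rw [abs_mul]
    gcongr <;> exact g1_abs _ _
  refine (Finset.abs_sum_le_sum_abs _ _).trans ?_
  rw [Fin.sum_univ_four]
  linarith [h 0, h 1, h 2, h 3]
theorem norm_sq_le_dot (a : V) : ‖a‖ ^ 2 ≤ a ⬝ᵥ a := by
  refine (Real.le_sqrt (norm_nonneg _) (g1_dot_nonneg a)).1
    ((pi_norm_le_iff_of_nonneg (Real.sqrt_nonneg _)).2 fun i => Real.abs_le_sqrt ?_)
  rw [sq]
  exact Finset.single_le_sum (f := fun i => a i * a i) (fun _ _ => mul_self_nonneg _)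
    (Finset.mem_univ i)
theorem abs_np_le (a b u w : V) : |np a b u w| ≤ 144 * ‖a‖ ^ 2 * ‖b‖ ^ 2 * ‖u‖ * ‖w‖ := by
  refine (abs_dot_le _ _).trans ?_
  calc _ ≤ 4 * (6 * ‖a‖ * ‖b‖ * ‖u‖) * (6 * ‖a‖ * ‖b‖ * ‖w‖) := by
        gcongr <;> exact norm_cr_le _ _ _
    _ = _ := by ring
theorem np_lip {a b u w a' b' u' w' : V} {R δ : ℝ} (hR : 1 ≤ R) (hδ : 0 ≤ δ)
    (h1 : ‖a‖ ≤ R) (h2 : ‖b‖ ≤ R) (h3 : ‖u‖ ≤ R) (h4 : ‖w‖ ≤ R)
    (h1' : ‖a'‖ ≤ R) (h2' : ‖b'‖ ≤ R) (h3' : ‖u'‖ ≤ R) (h4' : ‖w'‖ ≤ R)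
    (e1 : ‖a' - a‖ ≤ δ) (e2 : ‖b' - b‖ ≤ δ) (e3 : ‖u' - u‖ ≤ δ) (e4 : ‖w' - w‖ ≤ δ) :
    |np a' b' u' w' - np a b u w| ≤ 1000 * R ^ 5 * δ := by
  have hR0 : 0 ≤ R := by linarith
  have _ := h4
  have k1 : ∀ {a b u : V}, ‖a‖ ≤ R → ‖b‖ ≤ R → ‖u‖ ≤ R → ‖cr a b u‖ ≤ 6 * R ^ 3 := by
    intro a b u h1 h2 h3
    calc _ ≤ 6 * R * R * R := (norm_cr_le _ _ _).trans (by gcongr)
      _ = _ := by ring
  have k2 : ∀ {u u' : V}, ‖u'‖ ≤ R → ‖u' - u‖ ≤ δ → ‖cr a' b' u' - cr a b u‖ ≤ 18 * R ^ 2 * δ := by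
    intro u u' h3' e3
    have e : cr a' b' u' - cr a b u = cr (a' - a) b' u' + cr a (b' - b) u' + cr a b (u' - u) := by
      ext i; fin_cases i <;> simp [cr] <;> ring
    rw [e]
    calc _ ≤ ‖cr (a' - a) b' u'‖ + ‖cr a (b' - b) u'‖ + ‖cr a b (u' - u)‖ := norm_add₃_le
      _ ≤ 6 * δ * R * R + 6 * R * δ * R + 6 * R * R * δ := by
          gcongr <;> exact (norm_cr_le _ _ _).trans (by gcongr)
      _ = _ := by ring
  have e : np a' b' u' w' - np a b u w =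
      (cr a' b' u' - cr a b u) ⬝ᵥ cr a' b' w' + cr a b u ⬝ᵥ (cr a' b' w' - cr a b w) := by
    simp only [np, sub_dotProduct, dotProduct_sub]; ring
  rw [e]
  calc _ ≤ 4 * (18 * R ^ 2 * δ) * (6 * R ^ 3) + 4 * (6 * R ^ 3) * (18 * R ^ 2 * δ) := by
        refine (abs_add_le _ _).trans (add_le_add ((abs_dot_le _ _).trans ?_)
          ((abs_dot_le _ _).trans ?_))
        · gcongr
          exacts [k2 h3' e3, k1 h1' h2' h4']
        · gcongr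
          exacts [k1 h1 h2 h3, k2 h4' e4]
    _ = 864 * (R ^ 5 * δ) := by ring
    _ ≤ _ := by nlinarith [mul_nonneg (pow_nonneg hR0 5) hδ]
theorem g1_lin {W : Type} [NormedAddCommGroup W] [NormedSpace ℝ W] (L : E →L[ℝ] W) (v : E) :
    L v = v.1 • L (1, 0) + v.2 • L (0, 1) := by
  rw [← map_smul, ← map_smul, ← map_add]; simp
/-- change of the tangent frame in `npG` -/
theorem npG_frame (G : E → V) (x c1 c2 v w v' w' : E) :
    npG G x c1 c2 v w v' w' = detE c1 c2 ^ 2 * npG G x (1, 0) (0, 1) v w v' w' := by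
  simp only [npG, np]
  rw [g1_lin _ c1, g1_lin _ c2, cr_frame, cr_frame]
  simp only [smul_dotProduct, dotProduct_smul, smul_eq_mul, detE]
  ring

theorem qf_sqv (a v w : E) : qf (sqv a) v w = dotE a v * dotE a w := by
  simp only [qf, sqv, dotE]; ring
theorem qf_add (S T : S3) (v w : E) : qf (S + T) v w = qf S v w + qf T v w := by
  simp only [qf, Prod.fst_add, Prod.snd_add]; ring
theorem qf_smul (c : ℝ) (S : S3) (v w : E) : qf (c • S) v w = c * qf S v w := by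
  simp only [qf, Prod.smul_fst, Prod.smul_snd, smul_eq_mul]; ring
theorem qf_pull (L : E →L[ℝ] E) (S : S3) (v w : E) : qf (pull L S) v w = qf S (L v) (L w) := by
  rw [g1_lin L v, g1_lin L w]
  simp [qf, pull]; ring
theorem qf_met (G : E → V) (x v w : E) : qf (met G x) v w = fderiv ℝ G x v ⬝ᵥ fderiv ℝ G x w := by
  rw [g1_lin _ v, g1_lin _ w]
  simp only [qf, met, add_dotProduct, dotProduct_add, smul_dotProduct, dotProduct_smul, smul_eq_mul,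
    dotProduct_comm (fderiv ℝ G x (0, 1)) (fderiv ℝ G x (1, 0))]
  ring
theorem dotE_dcov (φ : E → ℝ) (x v : E) : dotE (dcov φ x) v = fderiv ℝ φ x v := by
  rw [g1_lin _ v]; simp only [dotE, dcov, smul_eq_mul]; ring
theorem S3_ext {S T : S3} (h : ∀ v w, qf S v w = qf T v w) : S = T := by
  have h1 := h (1, 0) (1, 0)
  have h2 := h (1, 0) (0, 1)
  have h3 := h (0, 1) (0, 1)
  simp [qf] at h1 h2 h3
  exact Prod.ext h1 (Prod.ext h2 h3)
theorem det2_pull (L : E →L[ℝ] E) (S : S3) :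
    det2 (pull L S) = detE (L (1, 0)) (L (0, 1)) ^ 2 * det2 S := by
  simp only [det2, pull, qf, detE]; ring
theorem pull_id (S : S3) : pull (ContinuousLinearMap.id ℝ E) S = S := by
  simp [pull, qf]
theorem pull_comp (L L' : E →L[ℝ] E) (S : S3) : pull (L.comp L') S = pull L' (pull L S) := S3_ext fun v w => by simp only [qf_pull, ContinuousLinearMap.comp_apply]
theorem pull_add (L : E →L[ℝ] E) (S T : S3) : pull L (S + T) = pull L S + pull L T := S3_ext fun v w => by simp only [qf_pull, qf_add]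
theorem pull_smul (L : E →L[ℝ] E) (c : ℝ) (S : S3) : pull L (c • S) = c • pull L S := S3_ext fun v w => by simp only [qf_pull, qf_smul]
theorem abs_qf_le (S : S3) (v w : E) : |qf S v w| ≤ 4 * ‖S‖ * ‖v‖ * ‖w‖ := by
  have h : ∀ {s x y : ℝ}, |s| ≤ ‖S‖ → |x| ≤ ‖v‖ → |y| ≤ ‖w‖ →
      -(‖S‖ * ‖v‖ * ‖w‖) ≤ s * x * y ∧ s * x * y ≤ ‖S‖ * ‖v‖ * ‖w‖ := by
    intro s x y h1 h2 h3
    rw [← abs_le, abs_mul, abs_mul]
    gcongr
  have s2 : |S.2.1| ≤ ‖S‖ := (norm_fst_le S.2).trans (norm_snd_le S)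
  have s3 : |S.2.2| ≤ ‖S‖ := (norm_snd_le S.2).trans (norm_snd_le S)
  have a1 := h (norm_fst_le S) (norm_fst_le v) (norm_fst_le w)
  have a2 := h s2 (norm_fst_le v) (norm_snd_le w)
  have a3 := h s2 (norm_snd_le v) (norm_fst_le w)
  have a4 := h s3 (norm_snd_le v) (norm_snd_le w)
  rw [qf, abs_le]
  constructor <;> linarith [a1.1, a1.2, a2.1, a2.2, a3.1, a3.2, a4.1, a4.2]
theorem PD_iff (S : S3) : PD S ↔ 0 < S.1 ∧ 0 < det2 S := by
  constructor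
  · intro h
    have h1 : 0 < S.1 := by simpa [qf] using h (1, 0) (by simp)
    have h2 := h (-S.2.1, S.1) (by simp [h1.ne'])
    refine ⟨h1, pos_of_mul_pos_left (b := S.1) (h2.trans_eq ?_) h1.le⟩
    simp only [qf, det2]; ring
  · rintro ⟨h1, h2⟩ v hv
    have e : qf S v v * S.1 = (S.1 * v.1 + S.2.1 * v.2) ^ 2 + det2 S * v.2 ^ 2 := by
      simp only [qf, det2]; ring
    refine pos_of_mul_pos_left (b := S.1) ?_ h1.le
    rw [e]
    by_cases h3 : v.2 = 0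
    · have h4 : v.1 ≠ 0 := fun h4 => hv (Prod.ext h4 h3)
      rw [h3]
      have := mul_ne_zero h1.ne' h4
      simp only [mul_zero, add_zero, ne_eq, OfNat.ofNat_ne_zero, not_false_eq_true, zero_pow]
      positivity
    · positivity
theorem Lc_sum {ξ : Fin 3 → E} (h : det3 (fun j => sqv (ξ j)) ≠ 0) (S : S3) :
    ∑ j, Lc ξ j S • sqv (ξ j) = S := by
  have key : ∀ a : Fin 3 → S3, det3 a ≠ 0 →
      ∑ j, (det3 (Function.update a j S) / det3 a) • a j = S := by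
    intro a h
    rw [Fin.sum_univ_three]
    refine Prod.ext ?_ (Prod.ext ?_ ?_) <;> simp <;> field_simp <;> simp [det3] <;> ring
  exact key _ h
theorem Lc_linear (ξ : Fin 3 → E) (j : Fin 3) : ∃ L : S3 →L[ℝ] ℝ, ∀ S, Lc ξ j S = L S := by
  refine ⟨LinearMap.toContinuousLinearMap ⟨⟨Lc ξ j, fun S T => ?_⟩, fun c S => ?_⟩, fun _ => rfl⟩
  · fin_cases j <;> simp [Lc, det3] <;> ring
  · fin_cases j <;> simp [Lc, det3] <;> ring
/-- a tensor is recovered from its values on a frame -/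
theorem S3_frame {c1 c2 : E} (h : detE c1 c2 ≠ 0) (S : S3) :
    S = (detE c1 c2 ^ 2)⁻¹ • (qf S c1 c1 • sqv (rot c2) + qf S c2 c2 • sqv (rot c1)
      - qf S c1 c2 • (sqv (rot c1 + rot c2) - sqv (rot c1) - sqv (rot c2))) := by
  refine Prod.ext ?_ (Prod.ext ?_ ?_) <;> simp [sqv, rot] <;> field_simp <;> simp only [qf, detE] <;>
    ring
theorem E_frame {c1 c2 : E} (h : detE c1 c2 ≠ 0) (v : E) :
    v = (detE v c2 / detE c1 c2) • c1 + (detE c1 v / detE c1 c2) • c2 := by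
  refine Prod.ext ?_ ?_ <;> simp <;> field_simp <;> simp only [detE] <;> ring

theorem g1_cr (a b D11 D12 D22 : V) (x y z : ℝ) : cr a b (x • D11 + y • D12 + z • D22) =
    x • cr a b D11 + y • cr a b D12 + z • cr a b D22 := by simp only [cr_add3, cr_smul3]
theorem g1_np22 (a b D11 D12 D22 : V) (x y z : ℝ) : np a b D22 (x • D11 + y • D12 + z • D22) =
    x * np a b D11 D22 + y * np a b D22 D12 + z * np a b D22 D22 := by
  rw [np_comm a b D11]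
  simp only [np, g1_cr, dotProduct_add, dotProduct_smul, smul_eq_mul]
/-- margin in thin directions -/
theorem mg_thin {κ : ℝ} (hκ : 1 ≤ κ) : ∃ θ μ : ℝ, 0 < θ ∧ 0 < μ ∧ ∀ (a b D11 D12 D22 : V) (x y : ℝ),
    1 ≤ κ * np a b D22 D22 → np a b D22 D22 ≤ κ → |np a b D22 D12| ≤ κ →
    -κ ≤ np a b D11 D22 - np a b D12 D12 → |x| ≤ θ * |y| →
    μ * (x ^ 2 + y ^ 2) ^ 2 ≤ np a b (x ^ 2 • D11 + (2 * x * y) • D12 + y ^ 2 • D22)
      (x ^ 2 • D11 + (2 * x * y) • D12 + y ^ 2 • D22) := by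
  have k0 : 0 < κ := by linarith
  refine ⟨1 / (6 * κ ^ 2), 1 / (16 * κ ^ 3), by positivity, by positivity,
    fun a b D11 D12 D22 x y h1 h2 h3 h4 h5 => ?_⟩
  have c := np_cs a b D22 (x ^ 2 • D11 + (2 * x * y) • D12 + y ^ 2 • D22)
  have d0 := np_nonneg a b (x ^ 2 • D11 + (2 * x * y) • D12 + y ^ 2 • D22)
  rw [g1_np22] at c
  generalize np a b (x ^ 2 • D11 + (2 * x * y) • D12 + y ^ 2 • D22) _ = d at *
  have p0 := np_nonneg a b D12
  generalize np a b D22 D22 = R at *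
  generalize np a b D22 D12 = Q at *
  generalize np a b D11 D22 = N at *
  generalize np a b D12 D12 = P at *
  have t1 : 1 / (6 * κ ^ 2) ≤ 1 := by rw [div_le_one (by positivity)]; nlinarith
  have x1 : |x| ≤ |y| := h5.trans (mul_le_of_le_one_left (abs_nonneg _) t1)
  have x2 : x ^ 2 ≤ y ^ 2 := sq_le_sq.2 x1
  have x3 : 6 * κ ^ 2 * (|x| * |y|) ≤ y ^ 2 := by
    rw [one_div, inv_mul_eq_div, le_div_iff₀ (by positivity)] at h5
    nlinarith [mul_le_mul_of_nonneg_right h5 (abs_nonneg y), sq_abs y]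
  have x4 : x ^ 2 ≤ |x| * |y| := by
    rw [← sq_abs, sq]; exact mul_le_mul_of_nonneg_left x1 (abs_nonneg _)
  have x5 : -(κ * (|x| * |y|)) ≤ x * y * Q := by
    have : |x * y * Q| ≤ |x| * |y| * κ := by rw [abs_mul, abs_mul]; gcongr
    linarith [neg_abs_le (x * y * Q)]
  have x6 : -(κ * (|x| * |y|)) ≤ x ^ 2 * N := by
    nlinarith [mul_le_mul_of_nonneg_left (show -κ ≤ N by linarith) (sq_nonneg x)]
  have x7 : y ^ 2 ≤ 2 * κ * (x ^ 2 * N + 2 * x * y * Q + y ^ 2 * R) := by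
    nlinarith [mul_le_mul_of_nonneg_left h1 (sq_nonneg y), mul_le_mul_of_nonneg_left x5 k0.le,
      mul_le_mul_of_nonneg_left x6 k0.le]
  have x8 := pow_le_pow_left₀ (sq_nonneg y) x7 2
  have x9 : (x ^ 2 * N + 2 * x * y * Q + y ^ 2 * R) ^ 2 ≤ κ * d :=
    c.trans (mul_le_mul_of_nonneg_right h2 d0)
  rw [one_div, inv_mul_le_iff₀ (by positivity)]
  calc (x ^ 2 + y ^ 2) ^ 2 ≤ (2 * y ^ 2) ^ 2 := by gcongr; linarith
    _ = 4 * (y ^ 2) ^ 2 := by ring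
    _ ≤ 4 * ((2 * κ) ^ 2 * (κ * d)) := by
        rw [mul_pow] at x8
        gcongr; exact x8.trans (by gcongr)
    _ = _ := by ring
theorem g1_nn {a b : ℝ} (h : 0 ≤ a * b) (ha : 0 < a) : 0 ≤ b :=
  le_of_mul_le_mul_left (by simpa using h) ha
/-- margin under positive curvature -/
theorem mg_pos {κ : ℝ} (hκ : 1 ≤ κ) : ∃ μ : ℝ, 0 < μ ∧ ∀ (a b D11 D12 D22 : V) (x y : ℝ),
    1 ≤ κ * np a b D22 D22 → np a b D22 D22 ≤ κ → |np a b D22 D12| ≤ κ →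
    1 ≤ κ * (np a b D11 D22 - np a b D12 D12) →
    μ * (x ^ 2 + y ^ 2) ^ 2 ≤ np a b (x ^ 2 • D11 + (2 * x * y) • D12 + y ^ 2 • D22)
      (x ^ 2 • D11 + (2 * x * y) • D12 + y ^ 2 • D22) := by
  have k0 : 0 < κ := by linarith
  refine ⟨1 / (9 * κ ^ 15), by positivity, fun a b D11 D12 D22 x y h1 h2 h3 h4 => ?_⟩
  have c := np_cs a b D22 (x ^ 2 • D11 + (2 * x * y) • D12 + y ^ 2 • D22)
  have c2 := np_cs a b D22 D12
  have d0 := np_nonneg a b (x ^ 2 • D11 + (2 * x * y) • D12 + y ^ 2 • D22)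
  rw [g1_np22] at c
  generalize np a b (x ^ 2 • D11 + (2 * x * y) • D12 + y ^ 2 • D22) _ = d at *
  have r0 := np_nonneg a b D22
  generalize np a b D22 D22 = R at *
  generalize np a b D22 D12 = Q at *
  generalize np a b D11 D22 = N at *
  generalize np a b D12 D12 = P at *
  set L := x ^ 2 * N + 2 * x * y * Q + y ^ 2 * R with hL
  set A := (x * Q + y * R) ^ 2 with hA
  set B := x ^ 2 * ((N - P) * R) with hB
  have a0 : 0 ≤ A := sq_nonneg _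
  have x1 : A + B ≤ R * L := by
    nlinarith [mul_le_mul_of_nonneg_left c2 (sq_nonneg x)]
  have x2 : x ^ 2 ≤ κ ^ 2 * B := by
    have : 1 ≤ κ * (N - P) * (κ * R) := one_le_mul_of_one_le_of_one_le h4 h1
    nlinarith [mul_le_mul_of_nonneg_left this (sq_nonneg x)]
  have b0 : 0 ≤ B := g1_nn ((sq_nonneg x).trans x2) (by positivity)
  have x3 : y ^ 2 ≤ κ ^ 2 * (y * R) ^ 2 := by
    nlinarith [mul_le_mul_of_nonneg_left (one_le_pow₀ (n := 2) h1) (sq_nonneg y)]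
  have x4 : (y * R) ^ 2 ≤ 2 * A + 2 * (κ ^ 2 * x ^ 2) := by
    have : Q ^ 2 ≤ κ ^ 2 := sq_le_sq' (abs_le.1 h3).1 (abs_le.1 h3).2
    nlinarith [mul_le_mul_of_nonneg_left this (sq_nonneg x), sq_nonneg (2 * x * Q + y * R)]
  have p1 : κ ^ 2 ≤ κ ^ 6 := pow_le_pow_right₀ hκ (by norm_num)
  have x5 : x ^ 2 + y ^ 2 ≤ 3 * κ ^ 6 * (R * L) := by
    calc _ ≤ κ ^ 2 * B + κ ^ 2 * (2 * A + 2 * (κ ^ 2 * (κ ^ 2 * B))) :=
          add_le_add x2 (x3.trans (by gcongr; exact x4.trans (by gcongr)))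
      _ = κ ^ 2 * B + 2 * (κ ^ 2 * A) + 2 * κ ^ 6 * B := by ring
      _ ≤ κ ^ 6 * B + 2 * (κ ^ 6 * A) + 2 * κ ^ 6 * B := by gcongr
      _ ≤ 3 * κ ^ 6 * (A + B) := by nlinarith [mul_nonneg (pow_nonneg k0.le 6) a0]
      _ ≤ _ := by gcongr
  rw [one_div, inv_mul_le_iff₀ (by positivity)]
  calc (x ^ 2 + y ^ 2) ^ 2 ≤ (3 * κ ^ 6 * (R * L)) ^ 2 := by gcongr
    _ = 9 * κ ^ 12 * (R ^ 2 * L ^ 2) := by ring
    _ ≤ 9 * κ ^ 12 * (κ ^ 2 * (κ * d)) := by gcongr; exact c.trans (by gcongr)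
    _ = _ := by ring
/-- margin in the winding zone -/
theorem mg_wind {κ : ℝ} (hκ : 1 ≤ κ) : ∃ μ s0 : ℝ, 0 < μ ∧ ∀ s, s0 ≤ s →
    ∀ (a b D11 D12 D22 : V) (x y : ℝ),
    1 ≤ κ * np a b D22 D22 → np a b D22 D22 ≤ κ → |np a b D22 D12| ≤ κ →
    -κ ≤ np a b D11 D22 - np a b D12 D12 → np a b D12 D12 ≤ κ * (s ^ 2) ^ 2 →
    (s ^ 6) ^ 2 ≤ κ * np a b D11 D11 →
    μ * (x ^ 2 + y ^ 2) ^ 2 ≤ np a b (x ^ 2 • D11 + (2 * x * y) • D12 + y ^ 2 • D22)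
      (x ^ 2 • D11 + (2 * x * y) • D12 + y ^ 2 • D22) := by
  have k0 : 0 < κ := by linarith
  obtain ⟨θ, μ, θ0, μ0, H⟩ := mg_thin hκ
  obtain ⟨T, hT, T0⟩ : ∃ T : ℝ, T * θ ^ 2 = 1 ∧ 0 < T := ⟨1 / θ ^ 2, by field_simp, by positivity⟩
  refine ⟨min μ (1 / (1 + T) ^ 2), 2 * κ * (1 + 8 * κ * T + 2 * κ * T ^ 2), by positivity,
    fun s hs a b D11 D12 D22 x y h1 h2 h3 h4 h5 h6 => ?_⟩
  rcases le_total |x| (θ * |y|) with h | h
  · exact le_trans (by gcongr; exact min_le_left _ _) (H a b D11 D12 D22 x y h1 h2 h3 h4 h)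
  have y1 : y ^ 2 ≤ T * x ^ 2 := by
    have := pow_le_pow_left₀ (by positivity) h 2
    rw [mul_pow, sq_abs, sq_abs] at this
    calc y ^ 2 = T * (θ ^ 2 * y ^ 2) := by rw [← mul_assoc, hT, one_mul]
      _ ≤ _ := by gcongr
  have d1 : ∀ p q r : V, p ⬝ᵥ p / 2 - 2 * (q ⬝ᵥ q) - 2 * (r ⬝ᵥ r) ≤ (p + q + r) ⬝ᵥ (p + q + r) := by
    intro p q r
    have e1 := g1_dot_nonneg (p + (2 : ℝ) • (q + r))
    have e2 := g1_dot_nonneg (q - r)
    simp only [add_dotProduct, dotProduct_add, sub_dotProduct, dotProduct_sub, smul_dotProduct,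
      dotProduct_smul, smul_eq_mul, dotProduct_comm q p, dotProduct_comm r p,
      dotProduct_comm r q] at e1 e2 ⊢
    linarith
  have d2 := d1 (x ^ 2 • cr a b D11) ((2 * x * y) • cr a b D12) (y ^ 2 • cr a b D22)
  rw [← g1_cr] at d2
  refine le_trans ?_ d2
  simp only [smul_dotProduct, dotProduct_smul, smul_eq_mul]
  simp only [np] at h2 h5 h6
  have a1 : 0 ≤ κ * T := by positivity
  have a2 : 0 ≤ κ * T ^ 2 := by positivity
  have s1 : 1 ≤ s := by nlinarith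
  have s4 : 1 ≤ (s ^ 2) ^ 2 := one_le_pow₀ (one_le_pow₀ s1)
  have s5 : (s ^ 2) ^ 2 * s ≤ (s ^ 6) ^ 2 := by
    rw [← pow_mul, ← pow_mul, ← pow_succ]; exact pow_le_pow_right₀ s1 (by norm_num)
  have p0 := g1_dot_nonneg (cr a b D12)
  have r0 := g1_dot_nonneg (cr a b D22)
  generalize cr a b D11 ⬝ᵥ cr a b D11 = N at *
  generalize cr a b D12 ⬝ᵥ cr a b D12 = P at *
  generalize cr a b D22 ⬝ᵥ cr a b D22 = R at *
  generalize (s ^ 2) ^ 2 = S at *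
  have n1 : 2 * (1 + 8 * κ * T * S + 2 * κ * T ^ 2) ≤ N := by
    refine le_of_mul_le_mul_left (le_trans ?_ (s5.trans h6)) k0
    calc _ ≤ κ * (2 * (S + 8 * κ * T * S + 2 * κ * T ^ 2 * S)) := by
          have := mul_le_mul_of_nonneg_left s4 a2
          exact mul_le_mul_of_nonneg_left (by linarith) k0.le
      _ = S * (2 * κ * (1 + 8 * κ * T + 2 * κ * T ^ 2)) := by ring
      _ ≤ _ := by gcongr
  have n2 : x ^ 2 * y ^ 2 * P ≤ x ^ 2 * (T * x ^ 2) * (κ * S) := by gcongr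
  have n3 : (y ^ 2) ^ 2 * R ≤ (T * x ^ 2) ^ 2 * κ := by gcongr
  have n4 := mul_le_mul_of_nonneg_left n1 (sq_nonneg (x ^ 2))
  calc _ ≤ 1 / (1 + T) ^ 2 * (x ^ 2 + T * x ^ 2) ^ 2 := by gcongr; exact min_le_right _ _
    _ = (x ^ 2) ^ 2 := by field_simp
    _ ≤ _ := by linarith

end Vale.Agent.P205
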