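import Vale.Agent.P205.D2
import Vale.Agent.P205.T2
import Vale.Agent.P205.G1

open Set Filter Topology
open scoped ContDiff

noncomputable section
namespace Vale.Agent.P205

def b1f2 (b c : V) : V := (gram2 b c)⁻¹ • ((c ⬝ᵥ c) • b - (b ⬝ᵥ c) • c)
def b1fn (b c : V) : V := (gram2 b c)⁻¹ • ((b ⬝ᵥ b) • c - (b ⬝ᵥ c) • b)
def b1T0 (a b c : V) : V := (a ⬝ᵥ b) • b1f2 b c + (a ⬝ᵥ c) • b1fn b c
def b1r (a b c : V) : ℝ := Real.sqrt (np a b c c * (gram2 b c)⁻¹)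
def b1e1 (a b c : V) : V := (b1r a b c)⁻¹ • (a - b1T0 a b c)
def b1e2 (a b c : V) : V := (Real.sqrt (np a b c c))⁻¹ • cr a b c

theorem b1_dual {b c : V} (h : gram2 b c ≠ 0) : b1f2 b c ⬝ᵥ b = 1 ∧ b1f2 b c ⬝ᵥ c = 0 ∧
    b1fn b c ⬝ᵥ b = 0 ∧ b1fn b c ⬝ᵥ c = 1 := by
  simp only [b1f2, b1fn, smul_dotProduct, sub_dotProduct, smul_eq_mul, dotProduct_comm c b]
  refine ⟨?_, ?_, ?_, ?_⟩
  · field_simp
    simp only [gram2]
    ring
  · ring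
  · ring
  · field_simp
    simp only [gram2]
theorem b1_span (a b c : V) : ∃ al be : ℝ, b1T0 a b c = al • b + be • c := by
  refine ⟨(gram2 b c)⁻¹ * ((a ⬝ᵥ b) * (c ⬝ᵥ c) - (a ⬝ᵥ c) * (b ⬝ᵥ c)),
    (gram2 b c)⁻¹ * ((a ⬝ᵥ c) * (b ⬝ᵥ b) - (a ⬝ᵥ b) * (b ⬝ᵥ c)), ?_⟩
  simp only [b1T0, b1f2, b1fn]
  module
theorem b1_orth {a b c n : V} (hb : n ⬝ᵥ b = 0) (hc : n ⬝ᵥ c = 0) :
    n ⬝ᵥ b = 0 ∧ n ⬝ᵥ c = 0 ∧ n ⬝ᵥ b1f2 b c = 0 ∧ n ⬝ᵥ b1fn b c = 0 ∧ n ⬝ᵥ b1T0 a b c = 0 := by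
  simp [b1T0, b1f2, b1fn, dotProduct_smul, dotProduct_sub, dotProduct_add, hb, hc]
theorem b1_n {a b c : V} (h : gram2 b c ≠ 0) :
    (a - b1T0 a b c) ⬝ᵥ b = 0 ∧ (a - b1T0 a b c) ⬝ᵥ c = 0 := by
  obtain ⟨d1, d2, d3, d4⟩ := b1_dual h
  simp [b1T0, sub_dotProduct, add_dotProduct, smul_dotProduct, d1, d2, d3, d4]
theorem b1_nn {a b c : V} (h : gram2 b c ≠ 0) :
    np a b c c = gram2 b c * ((a - b1T0 a b c) ⬝ᵥ (a - b1T0 a b c)) := by
  obtain ⟨al, be, e⟩ := b1_span a b c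
  have e1 : cr b c a = cr b c (a - b1T0 a b c) := by
    rw [← cr_tan b c (a - b1T0 a b c) al be, ← e, sub_add_cancel]
  rw [np_perm, ← np_normal b c _ _ (b1_n h).1 (b1_n h).2, np, np, e1]
theorem b1_e1 {a b c : V} (h : gram2 b c ≠ 0) : b1e1 a b c ⬝ᵥ b = 0 ∧ b1e1 a b c ⬝ᵥ c = 0 := by
  simp only [b1e1, smul_dotProduct, (b1_n h).1, (b1_n h).2, smul_zero, and_self]
theorem b1_e2 (a b c : V) : b1e2 a b c ⬝ᵥ a = 0 ∧ b1e2 a b c ⬝ᵥ b = 0 ∧ b1e2 a b c ⬝ᵥ c = 0 := by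
  obtain ⟨o1, o2, o3⟩ := cr_orth a b c
  simp only [b1e2, smul_dotProduct, o1, o2, o3, smul_zero, and_self]
theorem b1_on {a b c : V} (h : 0 < gram2 b c) (h3 : 0 < np a b c c) :
    b1e1 a b c ⬝ᵥ b1e1 a b c = 1 ∧ b1e2 a b c ⬝ᵥ b1e2 a b c = 1 ∧ b1e1 a b c ⬝ᵥ b1e2 a b c = 0 := by
  refine ⟨?_, ?_, ?_⟩
  · have e := b1_nn (a := a) h.ne'
    have p : 0 < np a b c c * (gram2 b c)⁻¹ := mul_pos h3 (inv_pos.2 h)
    have e2 : b1r a b c * b1r a b c = np a b c c * (gram2 b c)⁻¹ := Real.mul_self_sqrt p.le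
    have p2 : 0 < b1r a b c := Real.sqrt_pos.2 p
    have e3 : (a - b1T0 a b c) ⬝ᵥ (a - b1T0 a b c) = b1r a b c * b1r a b c := by
      rw [e2, e]; field_simp
    simp only [b1e1, smul_dotProduct, dotProduct_smul, smul_eq_mul, e3]
    field_simp
  · have e2 := Real.mul_self_sqrt h3.le
    have p2 := Real.sqrt_pos.2 h3
    have e3 : cr a b c ⬝ᵥ cr a b c = Real.sqrt (np a b c c) * Real.sqrt (np a b c c) := e2.symm
    simp only [b1e2, smul_dotProduct, dotProduct_smul, smul_eq_mul, e3]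
    field_simp
  · obtain ⟨o1, o2, o3⟩ := b1_e2 a b c
    rw [dotProduct_comm, b1e1, dotProduct_smul, dotProduct_sub, o1, (b1_orth (a := a) o2 o3).2.2.2.2]
    simp

theorem Fam.Le.one_sqrt {ι : Type*} {X : Type} [TopologicalSpace X] {A : Fam ι X} {u : ι → X → ℝ}
    (hl : A.Le (fun _ _ => 1) u) : A.Le (fun _ _ => 1) (fun i y => Real.sqrt (u i y)) := by
  obtain ⟨C, c, hC, h1⟩ := hl
  refine ⟨C + 1, c, by positivity, fun i y hy => ?_⟩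
  have p1 : 1 ≤ A.τ i ^ c := one_le_pow₀ (A.one_le i)
  have p2 := h1 i y hy
  simp only at p2 ⊢
  have p5 : 0 < u i y := (mul_pos_iff_of_pos_left (by positivity)).1 (lt_of_lt_of_le one_pos p2)
  have p3 := Real.sq_sqrt p5.le
  have p4 := Real.sqrt_nonneg (u i y)
  set M := (C + 1) * A.τ i ^ c with hM
  have q1 : 1 ≤ M := by nlinarith
  have q2 : 1 ≤ M * u i y := by nlinarith
  by_contra hc
  have q3 : M * Real.sqrt (u i y) < 1 := not_le.1 hc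
  have q4 : Real.sqrt (u i y) < 1 := by nlinarith
  nlinarith
/-! B1: frames. -/
theorem exists_Fr {ι : Type*} {A : Fam ι E} {D : ι → TD0} (h : TD0.Hyp A D) :
    ∃ R : ι → Fr, Fr.Hyp A D R := by
  have s1 := h.sF1
  have s2 := h.sF2
  have s3 := h.sF22
  have ab : ∀ {u : ι → E → ℝ}, A.Le (fun _ _ => 1) u → A.Le (fun _ _ => 1) (fun i y => |u i y|) :=
    fun hu => hu.trans (Fam.Le.of_le (fun _ _ _ => le_abs_self _) fun _ _ _ => abs_nonneg _)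
  have sG2 : Sl A (fun i _ => (D i).η0) (fun i x => gram2 ((D i).F2 x) ((D i).F22 x)) :=
    (((s2.dot s2).mul (s3.dot s3)).sub ((s2.dot s3).mul (s2.dot s3))).congr fun i x _ => by
      simp only [gram2]; ring
  have sG3 : Sl A (fun i _ => (D i).η0)
      (fun i x => np ((D i).F1 x) ((D i).F2 x) ((D i).F22 x) ((D i).F22 x)) :=
    (s1.cr s2 s3).dot (s1.cr s2 s3)
  have lG2 : A.Le (fun _ _ => 1) (fun i x => gram2 ((D i).F2 x) ((D i).F22 x)) := by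
    refine h.low.trans (Fam.Le.le_trans (w' := fun i x =>
      ‖(D i).F1 x ⬝ᵥ (D i).F1 x‖ * gram2 ((D i).F2 x) ((D i).F22 x)) (fun i x _ => ?_) ?_)
    · rw [np_perm, mul_comm]
      exact (np_le_gram _ _ _).trans (mul_le_mul_of_nonneg_left (le_abs_self _) (gram2_nonneg _ _))
    · exact ((s1.dot s1).t1.norm_le.mul_right fun i x _ => gram2_nonneg _ _).congr (fun _ _ _ => rfl)
        fun _ _ _ => (one_mul _).symm
  have pG2 := t2_pos_of_le (fun _ _ _ => one_pos) lG2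
  have pG3 := t2_pos_of_le (fun _ _ _ => one_pos) h.low
  have iG2 := sG2.inv (ab lG2)
  have sf2 : Sl A (fun i _ => (D i).η0) (fun i x => b1f2 ((D i).F2 x) ((D i).F22 x)) :=
    iG2.smul (((s3.dot s3).smul s2).sub ((s2.dot s3).smul s3))
  have sfn : Sl A (fun i _ => (D i).η0) (fun i x => b1fn ((D i).F2 x) ((D i).F22 x)) :=
    iG2.smul (((s2.dot s2).smul s3).sub ((s2.dot s3).smul s2))
  have sT0 : Sl A (fun i _ => (D i).η0) (fun i x => b1T0 ((D i).F1 x) ((D i).F2 x) ((D i).F22 x)) :=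
    ((s1.dot s2).smul sf2).add ((s1.dot s3).smul sfn)
  have lq : A.Le (fun _ _ => 1) (fun i x => np ((D i).F1 x) ((D i).F2 x) ((D i).F22 x) ((D i).F22 x) *
      (gram2 ((D i).F2 x) ((D i).F22 x))⁻¹) := by
    have := (sG2.t1.norm_le.trans h.low).mul_right
      (u := fun i x => (gram2 ((D i).F2 x) ((D i).F22 x))⁻¹) fun i x hx => (inv_pos.2 (pG2 i x hx)).le
    refine this.congr (fun i x hx => ?_) fun _ _ _ => rfl
    rw [Real.norm_of_nonneg (pG2 i x hx).le, mul_inv_cancel₀ (pG2 i x hx).ne']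
  have sr : Sl A (fun i _ => (D i).η0) (fun i x => b1r ((D i).F1 x) ((D i).F2 x) ((D i).F22 x)) :=
    (sG3.mul iG2).sqrt lq
  have lr : A.Le (fun _ _ => 1) (fun i x => b1r ((D i).F1 x) ((D i).F2 x) ((D i).F22 x)) :=
    lq.one_sqrt
  have pr := t2_pos_of_le (fun _ _ _ => one_pos) lr
  refine ⟨fun i => ⟨fun x => b1e1 ((D i).F1 x) ((D i).F2 x) ((D i).F22 x),
    fun x => b1e2 ((D i).F1 x) ((D i).F2 x) ((D i).F22 x), fun x => b1f2 ((D i).F2 x) ((D i).F22 x),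
    fun x => b1fn ((D i).F2 x) ((D i).F22 x), fun x => b1T0 ((D i).F1 x) ((D i).F2 x) ((D i).F22 x),
    fun x => b1r ((D i).F1 x) ((D i).F2 x) ((D i).F22 x)⟩,
    (sr.inv (ab lr)).smul (s1.sub sT0), ((sG3.sqrt h.low).inv (ab h.low.one_sqrt)).smul (s1.cr s2 s3),
    sf2, sfn, sT0, sr, lr, fun i x hx => b1_on (pG2 i x hx) (pG3 i x hx),
    fun i x hx => b1_orth (b1_e1 (pG2 i x hx).ne').1 (b1_e1 (pG2 i x hx).ne').2,
    fun i x _ => b1_orth (b1_e2 _ _ _).2.1 (b1_e2 _ _ _).2.2,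
    fun i x hx => b1_dual (pG2 i x hx).ne', fun i x hx => ?_, fun i x _ => b1_span _ _ _⟩
  simp only [b1e1, smul_smul, mul_inv_cancel₀ (pr i x hx).ne', one_smul, add_sub_cancel]

end Vale.Agent.P205
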