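import Vale.Agent.P205.D2
import Vale.Agent.P205.T2
import Vale.Agent.P205.T3
import Vale.Agent.P205.A0

open Set Filter Topology
open scoped ContDiff

noncomputable section
namespace Vale.Agent.P205

variable {ι : Type*} {A : Fam ι E} {D : ι → TD0} {R : ι → Fr} {S : Sh} {tlo : ℝ}
  (L : LpC S tlo) (X : LpX L) (w : Om)

theorem b2_abs {u w : ι → E → ℝ} (hu : A.Le w u) : A.Le w fun i y => |u i y| :=
  hu.trans (Fam.Le.of_le (fun _ _ _ => le_abs_self _) fun _ _ _ => abs_nonneg _)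

theorem b2_le (D : TD0) (R : Fr) (x : E) : R.ρ0 x ≤ rho D R x ∧ D.a x ≤ rho D R x ∧
    rho D R x ^ 2 = R.ρ0 x ^ 2 + D.a x ^ 2 :=
  ⟨Real.le_sqrt_of_sq_le (by nlinarith), Real.le_sqrt_of_sq_le (by nlinarith),
    Real.sq_sqrt (by positivity)⟩

theorem b2_sl (h : TD0.Hyp A D) (hR : Fr.Hyp A D R) :
    Sl A (fun i _ => (D i).η0) (fun i => rho (D i) (R i)) ∧
      A.Le (fun _ _ => 1) (fun i => rho (D i) (R i)) ∧
      Sl A (fun i _ => (D i).η0) fun i x => (rho (D i) (R i) x + (R i).ρ0 x)⁻¹ := by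
  have p0 := t2_pos_of_le (fun _ _ _ => one_pos) hR.low
  have sa : Sl A (fun i _ => (D i).η0) fun i => (D i).a :=
    ⟨h.ta.mono h.ale fun _ _ _ => zero_le_one, h.tda.mono h.aη fun i _ _ => (h.η0pos i).le⟩
  have s1 : Sl A (fun i _ => (D i).η0) (fun i => rho (D i) (R i)) :=
    (((hR.sρ0.mul hR.sρ0).add (sa.mul sa)).congr (v := fun i x => (R i).ρ0 x ^ 2 + (D i).a x ^ 2)
      fun _ _ _ => by ring).sqrt
      (((hR.low.mul hR.low (fun _ _ _ => zero_le_one) fun i x hx => (p0 i x hx).le).congr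
        (fun _ _ _ => (one_mul _).symm) fun _ _ _ => rfl).trans
        (Fam.Le.of_le (fun _ _ _ => by nlinarith) fun _ _ _ => by positivity))
  refine ⟨s1, hR.low.trans (Fam.Le.of_le (fun i x _ => (b2_le _ _ x).1)
    fun _ _ _ => Real.sqrt_nonneg _), (s1.add hR.sρ0).inv (b2_abs (hR.low.trans ?_))⟩
  have : ∀ i x, 0 ≤ rho (D i) (R i) x := fun _ _ => Real.sqrt_nonneg _
  exact Fam.Le.of_le (fun i x _ => le_add_of_nonneg_left (this i x))
    fun i x hx => add_nonneg (this i x) (p0 i x hx).le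

/-! B2: the basic hypotheses hold for `mk1`. -/
theorem rho_facts (h : TD0.Hyp A D) (hR : Fr.Hyp A D R) :
    Tm A (fun _ _ => 1) (fun i => rho (D i) (R i)) ∧
    A.Le (fun _ _ => 1) (fun i => rho (D i) (R i)) ∧
    Tm A (fun i _ => (D i).η0) (fun i x => fderiv ℝ (rho (D i) (R i)) x) ∧
    Tm A (fun i => (D i).a) (fun i => tt (D i) (R i)) ∧
    Tm A (fun i x => ((D i).a x)⁻¹) (fun i x => (tt (D i) (R i) x)⁻¹) ∧
    Tm A (fun _ _ => 1) (fun i => prm (D i) (R i)) ∧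
    (∀ i, ∀ x ∈ A.O i, 0 < tt (D i) (R i) x ∧ 0 < (R i).ρ0 x ∧ 0 < rho (D i) (R i) x ∧
      rho (D i) (R i) x ^ 2 = (R i).ρ0 x ^ 2 + (D i).a x ^ 2) := by
  obtain ⟨s1, l1, s2⟩ := b2_sl h hR
  have p0 := t2_pos_of_le (fun _ _ _ => one_pos) hR.low
  have p1 := t2_pos_of_le (fun _ _ _ => one_pos) l1
  have t1 : Tm A (fun i => (D i).a) (fun i => tt (D i) (R i)) :=
    (((h.ta.mul (s1.inv (b2_abs l1)).t1).const_mul (1 / 4)).mono_le
      fun _ _ _ => (mul_one _).le).congr fun i x _ => by rw [tt]; ring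
  refine ⟨s1.t1, l1, s1.td, t1, ?_, ?_, fun i x hx => ⟨?_, p0 i x hx, p1 i x hx, (b2_le _ _ x).2.2⟩⟩
  · refine ((((h.ta.inv h.apos (b2_abs (Fam.Le.refl' _))).mul s1.t1).const_mul 4).mono_le
      fun _ _ _ => (mul_one _).le).congr fun i x _ => ?_
    rw [tt, inv_div]; ring
  · exact (t1.mono h.ale fun _ _ _ => zero_le_one).prodMk ((((s1.mul s2).t1).congr
      fun _ _ _ => div_eq_mul_inv _ _).prodMk (Tm.trig.const_smul _))
  · exact div_pos (h.apos i x hx) (mul_pos four_pos (p1 i x hx))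
theorem prm_mem (h : TD0.Hyp A D) (hR : Fr.Hyp A D R)
    (ht : ∀ i, ∀ x ∈ A.O i, tlo ≤ tt (D i) (R i) x) :
    ∀ i, ∀ x ∈ A.O i, prm (D i) (R i) x ∈ Kp tlo := fun i x hx => by
  obtain ⟨-, q1, q2, -⟩ := (rho_facts h hR).2.2.2.2.2.2 i x hx
  obtain ⟨q3, q4, -⟩ := b2_le (D i) (R i) x
  refine ⟨⟨ht i x hx, ?_⟩, ⟨?_, ?_⟩, ?_⟩
  · simp only [prm, tt]
    rw [div_le_iff₀ (by positivity)]; linarith
  · simp only [prm]
    rw [le_div_iff₀ (by positivity)]; linarith
  · simp only [prm]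
    rw [div_le_iff₀ (by positivity)]; linarith
  · rw [mem_closedBall_zero_iff]
    refine (pi_norm_le_iff_of_nonneg (by norm_num)).2 fun j => ?_
    simp only [prm, Pi.smul_apply, norm_smul, Real.norm_eq_abs]
    rw [abs_of_pos (by norm_num : (0 : ℝ) < 1 / 2)]
    refine mul_le_of_le_one_right (by norm_num) ?_
    fin_cases j
    exacts [Real.abs_cos_le_one _, Real.abs_sin_le_one _, Real.abs_cos_le_one _,
      Real.abs_sin_le_one _]

theorem b2_Kp : IsCompact (Kp tlo) :=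
  isCompact_Icc.prod (isCompact_Icc.prod (isCompact_closedBall _ _))

theorem SP.dAt {U : Set Pm} (hU : IsOpen U) {f : Pm × ℝ → ℝ} (hf : SP U f) {z : Pm × ℝ}
    (hz : z.1 ∈ U) : DifferentiableAt ℝ f z :=
  (hf.sm.contDiffAt ((hU.prod isOpen_univ).mem_nhds ⟨hz, trivial⟩)).differentiableAt (by simp)

/-- loop functions along the parameter map -/
theorem b2_pc (h : TD0.Hyp A D) (hR : Fr.Hyp A D R)
    (ht : ∀ i, ∀ x ∈ A.O i, tlo ≤ tt (D i) (R i) x) {f : Pm × ℝ → ℝ} (hf : SP L.U f) :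
    TmC A (fun _ _ => 1) (fun i y => f (prm (D i) (R i) y.1, y.2)) ∧
      ∀ i, ∀ y : Y, y.1 ∈ A.O i → dθ (fun z : Y => f (prm (D i) (R i) z.1, z.2)) y =
        dθ f (prm (D i) (R i) y.1, y.2) := by
  have m := prm_mem h hR ht
  have t := Tm.pcomp L.op b2_Kp L.sub hf.sm hf.per (rho_facts h hR).2.2.2.2.2.1 m
  exact ⟨t, fun i y hy => (dθ_hasDerivAt (t.dAt hy)).unique
    (dθ_hasDerivAt (y := (prm (D i) (R i) y.1, y.2)) (hf.dAt L.op (L.sub (m i _ hy))))⟩

theorem b2_comb {f g : ι → Y → ℝ} {p q : ι → E → V} {w : ι → E → ℝ} (hf : TmC A w f)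
    (hg : TmC A w g) (hp : Tm A (fun _ _ => 1) p) (hq : Tm A (fun _ _ => 1) q) :
    TmC A w (fun i y => f i y • p i y.1 + g i y • q i y.1) ∧
      (∀ i, ∀ y : Y, y.1 ∈ A.O i → dθ (fun y => f i y • p i y.1 + g i y • q i y.1) y =
        dθ (f i) y • p i y.1 + dθ (g i) y • q i y.1) ∧
      ∀ i, ∀ x ∈ A.O i, tot (fun y => f i y • p i y.1 + g i y • q i y.1) x =
        tot (f i) x • p i x + tot (g i) x • q i x := by
  have a := hf.smul hp.lift
  have b := hg.smul hq.lift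
  refine ⟨(a.add b).mono_le fun _ _ _ => (mul_one _).le, fun i y hy => ?_, fun i x hx => ?_⟩
  · rw [dθ_add (a.dAt hy) (b.dAt hy), dθ_smul (hf.dAt hy) (hp.lift.dAt hy),
      dθ_smul (hg.dAt hy) (hq.lift.dAt hy), dθ_lift, dθ_lift, smul_zero, smul_zero, add_zero,
      add_zero]
  · rw [tot_add (a.con i) (b.con i) hx, tot_smul_const, tot_smul_const]

theorem mk1_hyp0 (h : TD0.Hyp A D) (hR : Fr.Hyp A D R)
    (ht : ∀ i, ∀ x ∈ A.O i, tlo ≤ tt (D i) (R i) x) :
    Hyp0 A (fun i => mk1 L X w (D i) (R i)) (fun i => (D i).σ) (fun i => (D i).η)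
      (fun i => (D i).a) := by
  obtain ⟨r1, r2, -, r4, r5, -, r7⟩ := rho_facts h hR
  have m := fun i x hx => L.sub (prm_mem h hR ht i x hx)
  have pc := fun {f} (hf : SP L.U f) => (b2_pc L h hR ht hf).1
  have pd := fun {f} (hf : SP L.U f) => (b2_pc L h hR ht hf).2
  have e1 := hR.se1.t1
  have e2 := hR.se2.t1
  have tTh := b2_comb (pc L.scs) (pc L.ssn) e1 e2
  have tnu := b2_comb (pc L.ssn).neg (pc L.scs) e1 e2
  have nuL : ∀ {f0 f1 : Pm × ℝ → ℝ}, SP L.U f0 → SP L.U f1 → (∀ p ∈ L.U, tot f0 p = 0) →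
      TmC A (fun i x => ((D i).a x)⁻¹) (fun i y => f0 (prm (D i) (R i) y.1, y.2) /
        tt (D i) (R i) y.1 + f1 (prm (D i) (R i) y.1, y.2)) ∧
      Tm A (fun _ _ => 1) fun i => tot fun y => (f0 (prm (D i) (R i) y.1, y.2) /
        tt (D i) (R i) y.1 + f1 (prm (D i) (R i) y.1, y.2)) • (mk1 L X w (D i) (R i)).nu y := by
    intro f0 f1 h0 h1 h2
    have u0 := r5.lift.mul (pc h0)
    refine ⟨((u0.mono_le fun _ _ _ => (mul_one _).le).add ((pc h1).ma h.ale
      (fun i x hx => (inv_pos.2 (h.apos i x hx)).le) fun i x hx =>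
        (mul_inv_cancel₀ (h.apos i x hx).ne').ge)).cg fun i y _ => by rw [div_eq_inv_mul], ?_⟩
    have u1 := ((pc h0).smul (b2_comb (pc L.ssn1).neg (pc L.scs1) e1 e2).1).add
      ((pc h1).smul tnu.1)
    have u2 := u0.smul e2.lift
    refine (u1.tot.mono_le fun _ _ _ => (mul_one _).le).congr fun i x hx => ?_
    have e : tot (fun y : Y => ((tt (D i) (R i) y.1)⁻¹ * f0 (prm (D i) (R i) y.1, y.2)) •
        (R i).e2 y.1) x = 0 := by
      rw [tot_smul_const, tot_mul fun x => (tt (D i) (R i) x)⁻¹]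
      exact (congrArg (fun c => (_ * c) • _) (h2 _ (m i x hx))).trans (by simp)
    rw [← add_zero (tot (fun y => _ • _ + _) x), ← e, ← tot_add (u1.con i) (u2.con i) hx]
    refine tot_congr fun t => ?_
    have := (r7 i x hx).1.ne'
    have a1 := L.hcs (prm (D i) (R i) x, t) (m i x hx)
    have a2 := L.hsn (prm (D i) (R i) x, t) (m i x hx)
    ext l
    simp only [mk1, Pi.add_apply, Pi.smul_apply, smul_eq_mul, a1, a2, show (prm (D i) (R i) x).1 =
      tt (D i) (R i) x from rfl]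
    field_simp
    ring
  have tom' : TmC A (fun i => (D i).a) fun i y => (mk1 L X w (D i) (R i)).om y - (2 * Real.pi)⁻¹ :=
    ((h.tζ.lift.mul ((TmC.perfun w.sm w.per).sub (Tm.const (2 * Real.pi)⁻¹))).mono_le
      fun _ _ _ => (mul_one _).le).cg fun i y _ => by simp only [mk1]; ring
  have eT : ∀ i, ∀ y : Y, y.1 ∈ A.O i → (mk1 L X w (D i) (R i)).T y - (D i).F1 y.1 =
      (rho (D i) (R i) y.1 * L.cs (prm (D i) (R i) y.1, y.2) - (R i).ρ0 y.1) • (R i).e1 y.1 +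
      (rho (D i) (R i) y.1 * L.sn (prm (D i) (R i) y.1, y.2)) • (R i).e2 y.1 := fun i y hy => by
    rw [hR.hF1 i _ hy]
    simp only [TD1.T, mk1]
    module
  have rt := (r1.mul r4).mono_le fun _ _ _ => (one_mul _).le
  have c1 : TmC A (fun i => (D i).a) fun i y =>
      rho (D i) (R i) y.1 * L.cs (prm (D i) (R i) y.1, y.2) - (R i).ρ0 y.1 := by
    refine (((h.ta.mul ((h.ta.mono h.ale fun _ _ _ => zero_le_one).mul (b2_sl h hR).2.2.t1)).lift.mono_le
      fun _ _ _ => le_of_eq (by ring)).add ((rt.lift.mul (pc L.scs1)).mono_le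
        fun _ _ _ => (mul_one _).le)).cg fun i y hy => ?_
    obtain ⟨-, q1, q2, q3⟩ := r7 i _ hy
    rw [L.hcs _ (m i _ hy), ← mul_assoc, ← sq, ← sub_eq_iff_eq_add'.2 q3]
    simp only [prm]
    field_simp
    ring
  have c2 : TmC A (fun i => (D i).a) fun i y =>
      rho (D i) (R i) y.1 * L.sn (prm (D i) (R i) y.1, y.2) :=
    ((rt.lift.mul (pc L.ssn1)).mono_le fun _ _ _ => (mul_one _).le).cg fun i y hy => by
      rw [L.hsn _ (m i _ hy), mul_assoc]; rfl
  have c3 := b2_comb c1 c2 e1 e2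
  have orth : ∀ {p q : V} {c s : ℝ} {v : V}, p ⬝ᵥ v = 0 → q ⬝ᵥ v = 0 → (c • p + s • q) ⬝ᵥ v = 0 :=
    fun a b => by rw [add_dotProduct, smul_dotProduct, smul_dotProduct, a, b]; simp
  have hdiv : ∀ {t β f0 f1 g : ℝ}, 0 < t → β * (f0 + t * f1) = t * g → β * (f0 / t + f1) = g :=
    fun ht e => by field_simp; linarith
  refine
    { eps := h.eps, sig := h.sig, epsη := fun i x hx => (h.epsη i x hx).trans (h.η0le i x hx)
      η1 := fun i x hx => (le_mul_of_one_le_right ((h.η0pos i).le.trans (h.η0le i x hx))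
        (h.s1 i)).trans (h.ηs i x hx)
      apos := h.apos, ale := h.ale, tC1 := h.tC1, tC2 := h.tC2, tF1 := h.sF1.t1, tF2 := h.sF2.t1
      tF22 := h.sF22.t1, tf2 := hR.sf2.t1, tfn := hR.sfn.t1, tT0 := hR.sT0.t1, tρ := r1
      tρi := ((b2_sl h hR).1.inv (b2_abs r2)).t1, ρpos := fun i x hx => (r7 i x hx).2.2.1
      hF22 := fun _ _ _ => rfl, tTh := tTh.1, tnu := tnu.1, tb := pc L.sb
      tom := ((tom'.mono h.ale fun _ _ _ => zero_le_one).add (Tm.const (2 * Real.pi)⁻¹)).cg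
        fun _ _ _ => (sub_add_cancel _ _).symm
      txs := fun j => pc (X.sxs j), tB := (nuL L.sB0 L.sB1 L.totB0).1
      tys := fun j => (nuL (X.sY0 j) (X.sY1 j) (X.totY0 j)).1
      pTh := fun i x hx t => by simp only [mk1, L.scs.per _ (m i x hx) t, L.ssn.per _ (m i x hx) t]
      pnu := fun i x hx t => by simp only [mk1, L.scs.per _ (m i x hx) t, L.ssn.per _ (m i x hx) t]
      pb := fun i x hx t => L.sb.per _ (m i x hx) t
      pB := fun i x hx t => by simp only [mk1, L.sB0.per _ (m i x hx) t, L.sB1.per _ (m i x hx) t]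
      pom := fun i x _ t => by simp only [mk1, w.per]
      pxs := fun i j x hx t => (X.sxs j).per _ (m i x hx) t
      pys := fun i j x hx t => by
        simp only [mk1, (X.sY0 j).per _ (m i x hx) t, (X.sY1 j).per _ (m i x hx) t]
      on := fun i y hy => ?_
      oTh := fun i y hy => ?_
      onu := fun i y hy => ?_
      dual := hR.dual
      hT0 := fun i x hx => ?_
      dTh := fun i y hy => ?_
      dnu := fun i y hy => ?_
      tT := c3.1.cg eT
      totT := fun i x hx => ?_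
      hB := fun i y hy => hdiv (r7 i _ hy).1 (L.hB (_, y.2) (m i _ hy))
      totb := fun i x hx => L.totb _ (m i x hx)
      tBnu := (nuL L.sB0 L.sB1 L.totB0).2
      tysnu := fun j => (nuL (X.sY0 j) (X.sY1 j) (X.totY0 j)).2
      hys := fun i j y hy => (hdiv (r7 i _ hy).1 (X.hY j (_, y.2) (m i _ hy))).trans
        (pd (X.sxs j) i y hy).symm
      totxs := fun i j x hx => X.totxs j _ (m i x hx)
      totom := fun i x hx => ?_
      tom' := tom' }
  · obtain ⟨o1, o2, o3⟩ := hR.on i _ hy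
    have u := L.unit (prm (D i) (R i) y.1, y.2) (m i _ hy)
    simp only [mk1, add_dotProduct, dotProduct_add, smul_dotProduct, dotProduct_smul, smul_eq_mul,
      o1, o2, o3, dotProduct_comm ((R i).e2 _) ((R i).e1 _)]
    refine ⟨?_, ?_, ?_⟩ <;> nlinarith
  · obtain ⟨a1, a2, a3, a4, a5⟩ := hR.o1 i _ hy
    obtain ⟨b1, b2, b3, b4, b5⟩ := hR.o2 i _ hy
    exact ⟨orth a1 b1, orth a2 b2, orth a3 b3, orth a4 b4, orth a5 b5⟩
  · obtain ⟨a1, a2, a3, a4, a5⟩ := hR.o1 i _ hy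
    obtain ⟨b1, b2, b3, b4, b5⟩ := hR.o2 i _ hy
    exact ⟨orth a1 b1, orth a2 b2, orth a3 b3, orth a4 b4, orth a5 b5⟩
  · obtain ⟨a1, a2, -⟩ := hR.o1 i _ hx
    simp only [mk1, hR.hF1 i x hx, add_dotProduct, smul_dotProduct, a1, a2, smul_zero, add_zero,
      and_self]
  · refine (tTh.2.1 i y hy).trans ?_
    rw [pd L.scs i y hy, pd L.ssn i y hy, L.dcs _ (m i _ hy), L.dsn _ (m i _ hy)]
    simp only [mk1]
    module
  · refine (tnu.2.1 i y hy).trans ?_
    have e : dθ (fun z : Y => -L.sn (prm (D i) (R i) z.1, z.2)) y =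
        -dθ (fun z : Y => L.sn (prm (D i) (R i) z.1, z.2)) y := by
      simp only [dθ, fderiv_fun_neg]; rfl
    rw [e, pd L.scs i y hy, pd L.ssn i y hy, L.dcs _ (m i _ hy), L.dsn _ (m i _ hy)]
    simp only [mk1]
    module
  · obtain ⟨-, q1, q2, q3⟩ := r7 i _ hx
    refine (tot_cg (eT i) hx).trans ((c3.2.2 i x hx).trans ?_)
    rw [tot_sub ((r1.lift.mul (pc L.scs)).con i) (hR.sρ0.t1.lift.con i) hx, tot_mul, tot_mul,
      tot_lift, tot_odd (g := fun y : Y => L.sn (prm (D i) (R i) y.1, y.2))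
        fun t => L.od _ (m i x hx) t,
      show tot (fun y : Y => L.cs (prm (D i) (R i) y.1, y.2)) x = _ from L.mean _ (m i x hx)]
    have : rho (D i) (R i) x * (2 * Real.pi * (1 - 16 * (prm (D i) (R i) x).1 ^ 2 *
        (prm (D i) (R i) x).2.1)) - (2 * Real.pi) • (R i).ρ0 x = 0 := by
      simp only [prm, tt, div_pow, ← sub_eq_iff_eq_add'.2 q3, smul_eq_mul]
      field_simp
      ring
    rw [this, mul_zero, zero_smul, zero_smul, add_zero]
  · have t1 := ((Tm.const (A := A) (1 : ℝ)).sub (h.tζ.mono h.ale fun _ _ _ => zero_le_one)).mul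
      (Tm.const (2 * Real.pi)⁻¹)
    refine (tot_add (t1.lift.con i) ((h.tζ.lift.mul (TmC.perfun w.sm w.per)).con i) hx).trans ?_
    rw [tot_lift fun x => (1 - (D i).ζ x) * (2 * Real.pi)⁻¹, tot_mul,
      show tot (fun y : Y => w.w y.2) x = 1 from w.int, smul_eq_mul]
    have := Real.pi_pos
    field_simp
    ring

end Vale.Agent.P205
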