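import Vale.Agent.P205.B2
import Vale.Agent.P205.A1

open Set Filter Topology
open scoped ContDiff

noncomputable section
namespace Vale.Agent.P205

variable {ι : Type*} {A : Fam ι E} {D : ι → TD0} {R : ι → Fr} {S : Sh} {tlo : ℝ}
  (L : LpC S tlo) (X : LpX L) (w : Om)

theorem b3_dX {O : Set E} (hO : IsOpen O) {u v : Y → ℝ} (C : E → E) {x : E} (hx : x ∈ O) {t s : ℝ}
    (hu : DifferentiableAt ℝ u (x, t)) (hv : DifferentiableAt ℝ v (x, s))
    (e : ∀ x ∈ O, u (x, t) = v (x, s)) : dX C u (x, t) = dX C v (x, s) := by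
  rw [dX_eq C hu, dX_eq C hv, dV, dV,
    Filter.EventuallyEq.fderiv_eq (eventually_of_mem (hO.mem_nhds hx) e)]

theorem b3_nrm {O : Set E} {om f g : Y → ℝ} (p q : E → V) (ho : ContinuousOn om (O ×ˢ univ))
    (hf : ContinuousOn f (O ×ˢ univ)) (hg : ContinuousOn g (O ×ˢ univ))
    (hf' : ContinuousOn (prim f) (O ×ˢ univ)) (hg' : ContinuousOn (prim g) (O ×ˢ univ))
    {G : Y → V} (e : ∀ y : Y, y.1 ∈ O → G y = f y • p y.1 + g y • q y.1) {y : Y} (hy : y.1 ∈ O) :
    nrm om G y = nrm om f y • p y.1 + nrm om g y • q y.1 := by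
  have e1 : ∀ t, prim G (y.1, t) = prim f (y.1, t) • p y.1 + prim g (y.1, t) • q y.1 := fun t => by
    simp only [prim, ← intervalIntegral.integral_smul_const]
    rw [← intervalIntegral.integral_add
      (((pi_cont hf hy).fun_smul continuous_const).intervalIntegrable _ _)
      (((pi_cont hg hy).fun_smul continuous_const).intervalIntegrable _ _)]
    exact intervalIntegral.integral_congr fun s _ => e (y.1, s) hy
  have e2 : tot (fun z => om z • prim G z) y.1 = tot (fun z => om z • prim f z) y.1 • p y.1 +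
      tot (fun z => om z • prim g z) y.1 • q y.1 := by
    simp only [tot, ← intervalIntegral.integral_smul_const]
    rw [← intervalIntegral.integral_add
      (((pi_cont (ho.fun_smul hf') hy).fun_smul continuous_const).intervalIntegrable _ _)
      (((pi_cont (ho.fun_smul hg') hy).fun_smul continuous_const).intervalIntegrable _ _)]
    refine intervalIntegral.integral_congr fun s _ => ?_
    simp only [e1, smul_add, smul_assoc]
  rw [nrm, nrm, nrm, e2, e1 y.2]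
  module

theorem b3_orth {F G : ι → E → V} {C : ι → E → E} {σ : ι → ℝ} {η w : ι → E → ℝ} (hF : Sl A η F)
    (hC : Tm A (fun i _ => σ i) C) (hG : Tm A w G) (e : ∀ i, ∀ x ∈ A.O i, F i x ⬝ᵥ G i x = 0) :
    Tm A (fun i x => σ i * η i x * w i x) fun i x => F i x ⬝ᵥ dV (C i) (G i) x :=
  ((hF.dV hC).dot hG).neg.congr fun i x hx => by
    have := fderiv_dot (hF.t1.diffAt i hx) (hG.diffAt i hx) (C i x)
    rw [Filter.EventuallyEq.fderiv_eq (f := fun _ => 0)
      (eventually_of_mem ((A.op i).mem_nhds hx) (e i))] at this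
    simp only [fderiv_fun_const, Pi.zero_apply, _root_.zero_apply] at this
    simp only [dV]
    linarith

/-! B3: the parity estimate. -/
theorem mk1_h0 (h : TD0.Hyp A D) (hR : Fr.Hyp A D R)
    (ht : ∀ i, ∀ x ∈ A.O i, tlo ≤ tt (D i) (R i) x) :
    Tm A (fun i x => (D i).σ * (D i).η x * (D i).a x ^ 2) (fun i => tot (fun y =>
      (mk1 L X w (D i) (R i)).T y ⬝ᵥ dX (D i).C2 (mk1 L X w (D i) (R i)).U0 y
        + (D i).F2 y.1 ⬝ᵥ dX (D i).C1 (mk1 L X w (D i) (R i)).U0 y)) := by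
  have H := mk1_hyp0 L X w h hR ht
  have b := H.base
  have m := fun i x hx => L.sub (prm_mem h hR ht i x hx)
  have e1 := hR.se1.t1
  have e2 := hR.se2.t1
  set M := fun i => mk1 L X w (D i) (R i) with hM
  set f : ι → Y → ℝ := fun i y =>
    rho (D i) (R i) y.1 * L.cs (prm (D i) (R i) y.1, y.2) - (R i).ρ0 y.1 with hf
  set g : ι → Y → ℝ := fun i y => rho (D i) (R i) y.1 * L.sn (prm (D i) (R i) y.1, y.2) with hg
  have eT : ∀ i, ∀ y : Y, y.1 ∈ A.O i → (M i).T y - (D i).F1 y.1 =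
      f i y • (R i).e1 y.1 + g i y • (R i).e2 y.1 := fun i y hy => by
    rw [hR.hF1 i _ hy]
    simp only [TD1.T, hM, mk1, hf, hg]
    module
  have dd : ∀ i, ∀ x ∈ A.O i, ∀ c s : ℝ, (R i).e1 x ⬝ᵥ (c • (R i).e1 x + s • (R i).e2 x) = c ∧
      (R i).e2 x ⬝ᵥ (c • (R i).e1 x + s • (R i).e2 x) = s := fun i x hx c s => by
    obtain ⟨o1, o2, o3⟩ := hR.on i x hx
    simp [o1, o2, o3, dotProduct_comm ((R i).e2 x) ((R i).e1 x)]
  have tT : TmC A (fun i => (D i).a) fun i y => (M i).T y - (D i).F1 y.1 := H.tT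
  have ef : ∀ i, ∀ y : Y, y.1 ∈ A.O i → f i y = (R i).e1 y.1 ⬝ᵥ ((M i).T y - (D i).F1 y.1) :=
    fun i y hy => by rw [eT i y hy, (dd i _ hy _ _).1]
  have eg : ∀ i, ∀ y : Y, y.1 ∈ A.O i → g i y = (R i).e2 y.1 ⬝ᵥ ((M i).T y - (D i).F1 y.1) :=
    fun i y hy => by rw [eT i y hy, (dd i _ hy _ _).2]
  have tf : TmC A (fun i => (D i).a) f :=
    ((e1.lift.dot H.tT).mono_le fun _ _ _ => (one_mul _).le).cg ef
  have tg : TmC A (fun i => (D i).a) g :=
    ((e2.lift.dot H.tT).mono_le fun _ _ _ => (one_mul _).le).cg eg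
  have pf : ∀ i, Per (A.O i) (f i) := fun i x hx t => by simp only [hf, L.scs.per _ (m i x hx) t]
  have pg : ∀ i, Per (A.O i) (g i) := fun i x hx t => by simp only [hg, L.ssn.per _ (m i x hx) t]
  have zf : ∀ i, ∀ x ∈ A.O i, tot (f i) x = 0 := fun i x hx => by
    rw [tot_cg (ef i) hx, tot_dot _ (tT.con i) hx]
    exact (congrArg _ (H.totT i x hx)).trans (dotProduct_zero _)
  have zg : ∀ i, ∀ x ∈ A.O i, tot (g i) x = 0 := fun i x hx => by
    rw [tot_cg (eg i) hx, tot_dot _ (tT.con i) hx]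
    exact (congrArg _ (H.totT i x hx)).trans (dotProduct_zero _)
  have tc := (tf.nrm pf zf H.tom).1
  have ts := (tg.nrm pg zg H.tom).1
  have eU : ∀ i, ∀ y : Y, y.1 ∈ A.O i → (M i).U0 y =
      nrm (M i).om (f i) y • (R i).e1 y.1 + nrm (M i).om (g i) y • (R i).e2 y.1 := fun i y hy =>
    b3_nrm _ _ (H.tom.con i) (tf.con i) (tg.con i) ((tf.prim pf zf).1.con i)
      ((tg.prim pg zg).1.con i) (eT i) hy
  have fe : ∀ i, ∀ x ∈ A.O i, ∀ t, f i (x, -t) = f i (x, t) := fun i x hx t => by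
    simp only [hf, L.ev _ (m i x hx) t]
  have go : ∀ i, ∀ x ∈ A.O i, ∀ t, g i (x, -t) = -g i (x, t) := fun i x hx t => by
    simp only [hg, L.od _ (m i x hx) t, mul_neg]
  have co : ∀ i, ∀ x ∈ A.O i, ∀ t, nrm (M i).om (f i) (x, -t) = -nrm (M i).om (f i) (x, t) :=
    fun i x hx t => by
      rw [nrm, nrm, prim_odd (fe i x hx), tot_odd (x := x) fun t => by
        rw [prim_odd (fe i x hx), smul_neg]; simp only [hM, mk1, w.ev]]
      simp
  have se : ∀ i, ∀ x ∈ A.O i, ∀ t, nrm (M i).om (g i) (x, -t) = nrm (M i).om (g i) (x, t) :=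
    fun i x hx t => by rw [nrm, nrm, prim_even (go i x hx)]
  have k1 := b3_orth h.sF1 h.tC2 b.totU0 fun i x hx => by
    rw [← tot_dot _ (b.tU0.con i) hx, tot_cg (v := fun y => (R i).ρ0 y.1 * nrm (M i).om (f i) y)
      (fun y hy => ?_) hx, tot_mul, tot_odd (co i x hx), mul_zero]
    obtain ⟨-, -, -, -, a1⟩ := hR.o1 i _ hy
    obtain ⟨-, -, -, -, a2⟩ := hR.o2 i _ hy
    rw [dotProduct_comm] at a1 a2
    rw [eU i y hy, hR.hF1 i _ hy, add_dotProduct, smul_dotProduct, (dd i _ hy _ _).1]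
    simp [a1, a2]
  have k2 := b3_orth h.sF2 h.tC1 b.totU0 fun i x hx => by
    rw [← tot_dot _ (b.tU0.con i) hx, tot_cg (v := fun _ => 0)
      (fun y hy => by rw [dotProduct_comm]; exact (b.oU0 i y hy).1) hx]
    simp [tot]
  have k3 := tT.dot ((tc.smul (hR.se1.dV h.tC2).lift).add (ts.smul (hR.se2.dV h.tC2).lift))
  have k4 := (tf.mul (tc.dX h.tC2)).add (tg.mul (ts.dX h.tC2))
  have k5 := h.sF1.t1.lift.dot (b.tU0.dX h.tC2)
  have k6 := h.sF2.t1.lift.dot (b.tU0.dX h.tC1)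
  refine (((k1.add k2).add (k3.tot.mono_le fun _ _ _ => le_of_eq (by ring))).mono_le
    fun i x hx => ?_).congr fun i x hx => ?_
  · have := h.sig i
    have := h.η0le i x hx
    gcongr
  have z : tot (fun y => f i y * dX (D i).C2 (nrm (M i).om (f i)) y +
      g i y * dX (D i).C2 (nrm (M i).om (g i)) y) x = 0 := tot_odd fun t => by
    rw [fe i x hx, go i x hx, b3_dX (A.op i) _ hx (ts.dAt hx) (ts.dAt hx) fun x hx => se i x hx t,
      b3_dX (v := fun y => -nrm (M i).om (f i) y) (A.op i) _ hx (tc.dAt hx) (tc.neg.dAt hx)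
        fun x hx => co i x hx t]
    simp only [dX, fderiv_fun_neg, _root_.neg_apply]
    ring
  rw [← tot_dX (A.op i) _ (b.tU0.smo i) hx, ← tot_dX (A.op i) _ (b.tU0.smo i) hx,
    ← tot_dot _ ((b.tU0.dX h.tC2).con i) hx, ← tot_dot _ ((b.tU0.dX h.tC1).con i) hx,
    ← tot_add (k5.con i) (k6.con i) hx, ← tot_add ((k5.con i).fun_add (k6.con i)) (k3.con i) hx,
    ← add_zero (tot (fun y => _ + _ + _) x), ← z,
    ← tot_add (((k5.con i).fun_add (k6.con i)).fun_add (k3.con i)) (k4.con i) hx]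
  refine tot_cg (fun y hy => ?_) hx
  have e3 : dX (D i).C2 (M i).U0 y = (dX (D i).C2 (nrm (M i).om (f i)) y • (R i).e1 y.1 +
      dX (D i).C2 (nrm (M i).om (g i)) y • (R i).e2 y.1) +
      (nrm (M i).om (f i) y • dV (D i).C2 (R i).e1 y.1 +
        nrm (M i).om (g i) y • dV (D i).C2 (R i).e2 y.1) := by
    rw [dX_cg (A.op i) (eU i) hy, dX_add ((tc.smul e1.lift).dAt hy) ((ts.smul e2.lift).dAt hy),
      dX_smul (tc.dAt hy) (e1.lift.dAt hy), dX_smul (ts.dAt hy) (e2.lift.dAt hy), dX_lift, dX_lift]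
    abel
  have e4 : ((M i).T y - (D i).F1 y.1) ⬝ᵥ dX (D i).C2 (M i).U0 y =
      f i y * dX (D i).C2 (nrm (M i).om (f i)) y + g i y * dX (D i).C2 (nrm (M i).om (g i)) y +
      ((M i).T y - (D i).F1 y.1) ⬝ᵥ (nrm (M i).om (f i) y • dV (D i).C2 (R i).e1 y.1 +
        nrm (M i).om (g i) y • dV (D i).C2 (R i).e2 y.1) := by
    rw [e3, dotProduct_add, dotProduct_add, dotProduct_smul, dotProduct_smul,
      dotProduct_comm _ ((R i).e1 _), dotProduct_comm _ ((R i).e2 _), ← ef i y hy, ← eg i y hy,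
      smul_eq_mul, smul_eq_mul]
    ring
  rw [sub_dotProduct] at e4
  change (M i).T y ⬝ᵥ dX (D i).C2 (M i).U0 y + (D i).F2 y.1 ⬝ᵥ dX (D i).C1 (M i).U0 y = _
  linarith

end Vale.Agent.P205
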