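import Vale.Agent.P205.B2
import Vale.Agent.P205.A1

open Set Filter Topology
open scoped ContDiff

noncomputable section
namespace Vale.Agent.P205

variable {ι : Type*} {A : Fam ι E} {D : ι → TD0} {R : ι → Fr} {S : Sh} {tlo : ℝ}
  (L : LpC S tlo) (X : LpX L) (w : Om)

theorem b4_chain {P : E → Pm} {f : Pm × ℝ → ℝ} (C : E → E) {y : Y}
    (hP : DifferentiableAt ℝ P y.1) (hf : DifferentiableAt ℝ f (P y.1, y.2)) :
    dX C (fun z : Y => f (P z.1, z.2)) y = fderiv ℝ f (P y.1, y.2) (dV C P y.1, 0) := by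
  have h1 : HasFDerivAt (fun z : Y => (P z.1, z.2)) _ y :=
    (hP.hasFDerivAt.comp y hasFDerivAt_fst).prodMk hasFDerivAt_snd
  have h2 := HasFDerivAt.comp (g := f) y hf.hasFDerivAt h1
  exact (congrArg (fun F : Y →L[ℝ] ℝ => F (C y.1, 0)) h2.fderiv).trans rfl

theorem b4_trig {P : E → Pm} (C : E → E) {x : E} (hP : DifferentiableAt ℝ P x)
    (e : ∀ x, (P x).2.2 = (1/2 : ℝ) • ![Real.cos x.1, Real.sin x.1, Real.cos x.2, Real.sin x.2]) :
    ‖C x‖ ^ 2 ≤ 4 * ∑ j, (dV C P x).2.2 j ^ 2 := by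
  have k : ∀ j {g : E → ℝ} {g' : E →L[ℝ] ℝ}, (∀ x, (P x).2.2 j = 1 / 2 * g x) → HasFDerivAt g g' x →
      (dV C P x).2.2 j = 1 / 2 * g' (C x) := fun j g g' e hg => by
    have h1 := hasFDerivAt_pi'.1 hP.hasFDerivAt.snd.snd j
    rw [funext e] at h1
    exact congrArg (fun F : E →L[ℝ] ℝ => F (C x)) (h1.unique (hg.const_mul (1 / 2)))
  rw [Fin.sum_univ_four, k 0 (fun x => by rw [e]; rfl) hasFDerivAt_fst.cos,
    k 1 (fun x => by rw [e]; rfl) hasFDerivAt_fst.sin,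
    k 2 (fun x => by rw [e]; rfl) hasFDerivAt_snd.cos,
    k 3 (fun x => by rw [e]; rfl) hasFDerivAt_snd.sin]
  simp only [_root_.smul_apply, ContinuousLinearMap.coe_fst',
    ContinuousLinearMap.coe_snd', smul_eq_mul]
  have a := Real.sin_sq_add_cos_sq x.1
  have b := Real.sin_sq_add_cos_sq x.2
  have c : ‖C x‖ ^ 2 ≤ (C x).1 ^ 2 + (C x).2 ^ 2 := by
    rw [Prod.norm_def, Real.norm_eq_abs, Real.norm_eq_abs]
    rcases max_choice |(C x).1| |(C x).2| with m | m <;> rw [m, sq_abs] <;> nlinarith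
  calc _ ≤ _ := c
    _ = (C x).1 ^ 2 * (Real.sin x.1 ^ 2 + Real.cos x.1 ^ 2) +
      (C x).2 ^ 2 * (Real.sin x.2 ^ 2 + Real.cos x.2 ^ 2) := by rw [a, b]; ring
    _ = _ := by ring

/-- integration by parts -/
theorem Hyp0.lam_eq {D : ι → TD1} {σ : ι → ℝ} {η a : ι → E → ℝ} (h : Hyp0 A D σ η a)
    (hc : ∀ i, ∀ x ∈ A.O i, dV (D i).C1 (D i).F2 x = dV (D i).C2 (D i).F1 x) (j : Fin 4) {i : ι}
    {x : E} (hx : x ∈ A.O i) :
    (D i).Lam j x = -2 * tot (fun y => (D i).Wj j y ⬝ᵥ dX (D i).C2 (D i).T y) x := by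
  have b := h.base
  have tW := b.tWj j
  have x2 := b.tU0.dX h.tC2
  have t1 := tW.dot x2
  have t2 := h.tρ.lift.mul (h.txs j)
  have t3 := (tW.dot (b.tT1.dX h.tC2)).const_mul (-2)
  have z1 := tot_dθ (A.op i) (t1.smo i) (fun x hx t => by
    simp only [b.pWj i j x hx t, (b.pU0 i).dX (A.op i) _ x hx t]) hx
  have z2 := tot_dX (A.op i) (D i).C2 (t2.smo i) hx
  rw [dV, Filter.EventuallyEq.fderiv_eq (f := fun _ => (0 : ℝ)) (eventually_of_mem
    ((A.op i).mem_nhds hx) fun x hx => by rw [tot_mul, h.totxs i j x hx, mul_zero])] at z2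
  simp only [fderiv_fun_const, Pi.zero_apply, _root_.zero_apply] at z2
  rw [← tot_mul (X := E) (fun _ => -2)]
  refine Eq.trans ?_ ((congrArg₂ HAdd.hAdd (congrArg (HAdd.hAdd _) z1) z2).trans
    ((add_zero _).trans (add_zero _)))
  rw [← tot_add (t3.con i) (t1.dθ.con i) hx,
    ← tot_add ((t3.con i).fun_add (t1.dθ.con i)) ((t2.dX h.tC2).con i) hx]
  rw [TD1.Lam, TD1.ell]
  refine tot_cg (fun y hy => ?_) hx
  have e1 := dX_dot (C := (D i).C1) (h.tF2.lift.dAt hy) (tW.dAt hy)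
  rw [dX_zero (A.op i) (fun z hz => (b.oWj i j z hz).1) hy, dX_lift, hc i _ hy] at e1
  have e2 := dX_dot (C := (D i).C2) (b.tT1.dAt hy) (tW.dAt hy)
  rw [dX_cg (A.op i) (fun z hz => (b.oWj i j z hz).2.2.2) hy] at e2
  rw [dθ_dot (tW.dAt hy) (x2.dAt hy), e2, ← dX_dθ_comm (b.tU0.contDiffAt i ⟨hy, trivial⟩)
    (h.tC2.diffAt i hy), dX_cg (A.op i) (b.dU0 i) hy, dX_sub (b.tT1.dAt hy) (h.tF1.lift.dAt hy),
    dX_lift, dotProduct_sub, dotProduct_comm ((D i).Wj j y) (dV _ _ _),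
    dotProduct_comm (dX _ _ _) ((D i).Wj j y)]
  linarith

theorem b4_main (h : TD0.Hyp A D) (hR : Fr.Hyp A D R)
    (ht : ∀ i, ∀ x ∈ A.O i, tlo ≤ tt (D i) (R i) x) (j : Fin 4) :
    Tm A (fun i _ => (D i).σ * (D i).η0) fun i x => (mk1 L X w (D i) (R i)).Lam j x -
      2 * rho (D i) (R i) x * (dV (D i).C2 (prm (D i) (R i)) x).2.2 j /
        (1 + (prm (D i) (R i) x).2.2 j) := by
  have H := mk1_hyp0 L X w h hR ht
  have b := H.base
  obtain ⟨r1, -, -, -, -, r6, r7⟩ := rho_facts h hR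
  have m := fun i x hx => L.sub (prm_mem h hR ht i x hx)
  have pc := fun {f} (hf : SP L.U f) => (b2_pc L h hR ht hf).1
  have e1 := hR.se1.t1
  have e2 := hR.se2.t1
  set M := fun i => mk1 L X w (D i) (R i) with hM
  have k1 := (hR.sT0.dV h.tC2).dot (b.totWj j)
  have k2 := r1.mul (e2.dot (hR.se1.dV h.tC2))
  have k3 := k2.mul (pc (X.sY1 j)).tot
  refine (((k1.mono_le fun _ _ _ => (mul_one _).le).add
    (k3.mono_le fun _ _ _ => le_of_eq (by ring))).const_mul (-2)).congr fun i x hx => ?_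
  have c1 := (hR.sT0.dV h.tC2).lift.dot (b.tWj j)
  have c2 := (h.tC2.dV r1).lift.mul (H.txs j)
  have c3 := k2.lift.mul (H.tys j)
  have c4 := r1.lift.mul ((H.tys j).mul (((pc L.scs).mul ((pc L.ssn).dX h.tC2)).sub
    ((pc L.ssn).mul ((pc L.scs).dX h.tC2))))
  have t0 := (r7 i x hx).1.ne'
  have z1 : tot ((M i).ys j) x = tot (fun y : Y => X.Y1 j (prm (D i) (R i) y.1, y.2)) x := by
    have := tot_add (((rho_facts h hR).2.2.2.2.1.lift.mul (pc (X.sY0 j))).con i)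
      ((pc (X.sY1 j)).con i) hx
    rw [tot_mul fun x => (tt (D i) (R i) x)⁻¹, show tot (fun y : Y =>
      X.Y0 j (prm (D i) (R i) y.1, y.2)) x = 0 from X.totY0 j _ (m i x hx), mul_zero,
      zero_add] at this
    rw [← this]
    exact tot_congr fun t => by simp only [hM, mk1, div_eq_inv_mul]
  have z2 : tot (fun y : Y => (M i).ys j y * (L.cs (prm (D i) (R i) y.1, y.2) *
      dX (D i).C2 (fun y : Y => L.sn (prm (D i) (R i) y.1, y.2)) y -
      L.sn (prm (D i) (R i) y.1, y.2) *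
      dX (D i).C2 (fun y : Y => L.cs (prm (D i) (R i) y.1, y.2)) y)) x =
      -((dV (D i).C2 (prm (D i) (R i)) x).2.2 j / (1 + (prm (D i) (R i) x).2.2 j)) := by
    have := X.lam j _ (m i x hx) (dV (D i).C2 (prm (D i) (R i)) x)
    refine mul_left_cancel₀ t0 ?_
    rw [← tot_mul (tt (D i) (R i)), mul_neg, ← mul_div_assoc]
    refine Eq.trans ?_ this
    refine intervalIntegral.integral_congr fun t _ => ?_
    simp only [b4_chain (y := (x, t)) _ (r6.diffAt i hx) (L.ssn.dAt L.op (m i x hx)),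
      b4_chain (y := (x, t)) _ (r6.diffAt i hx) (L.scs.dAt L.op (m i x hx)), hM, mk1,
      show (prm (D i) (R i) x).1 = tt (D i) (R i) x from rfl]
    field_simp
  have z3 : tot (fun y => (M i).Wj j y ⬝ᵥ dX (D i).C2 (M i).T y) x = _ :=
    (tot_cg (fun y hy => ?_) hx).trans ((tot_add (((c1.con i).fun_add (c2.con i)).fun_add
      (c3.con i)) (c4.con i) hx).trans (by
        rw [tot_add ((c1.con i).fun_add (c2.con i)) (c3.con i) hx,
          tot_add (c1.con i) (c2.con i) hx, tot_dot _ ((b.tWj j).con i) hx, tot_mul,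
          tot_mul fun x => rho (D i) (R i) x * ((R i).e2 x ⬝ᵥ dV (D i).C2 (R i).e1 x), tot_mul,
          H.totxs i j x hx, z1, z2]))
  · rw [H.lam_eq h.comm j hx]
    refine (congrArg (fun c => -2 * c - _) z3).trans ?_
    ring
  have o : ∀ {p q : E → V} {c : ℝ}, DifferentiableAt ℝ p y.1 → DifferentiableAt ℝ q y.1 →
      (∀ x ∈ A.O i, p x ⬝ᵥ q x = c) →
      q y.1 ⬝ᵥ dV (D i).C2 p y.1 + p y.1 ⬝ᵥ dV (D i).C2 q y.1 = 0 := fun {p q c} hp hq e => by
    have := fderiv_dot hp hq ((D i).C2 y.1)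
    rw [Filter.EventuallyEq.fderiv_eq (f := fun _ => c)
      (eventually_of_mem ((A.op i).mem_nhds hy) e), dotProduct_comm] at this
    simp only [fderiv_fun_const, Pi.zero_apply, _root_.zero_apply] at this
    exact this.symm
  have o1 := o (e1.diffAt i hy) (e1.diffAt i hy) fun x hx => (hR.on i x hx).1
  have o2 := o (e2.diffAt i hy) (e2.diffAt i hy) fun x hx => (hR.on i x hx).2.1
  have o3 := o (e1.diffAt i hy) (e2.diffAt i hy) fun x hx => (hR.on i x hx).2.2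
  have o4 := dX_dot (C := (D i).C2) (H.tTh.dAt hy) (H.tTh.dAt hy)
  rw [dX_cg (v := fun _ => 1) (A.op i) (fun z hz => (H.on i z hz).1) hy, dotProduct_comm] at o4
  simp only [dX, fderiv_fun_const, Pi.zero_apply, _root_.zero_apply] at o4
  have o5 : (M i).Th y ⬝ᵥ dX (D i).C2 (M i).Th y = 0 := by rw [dX]; linarith
  have f1 : dX (D i).C2 (M i).T y = dV (D i).C2 (R i).T0 y.1 +
      (dV (D i).C2 (rho (D i) (R i)) y.1 • (M i).Th y +
        rho (D i) (R i) y.1 • dX (D i).C2 (M i).Th y) := by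
    rw [← dX_lift, ← dX_lift, ← dX_smul (r1.lift.dAt hy) (H.tTh.dAt hy)]
    exact dX_add (H.tT0.lift.dAt hy) ((r1.lift.smul H.tTh).dAt hy)
  have f2 : dX (D i).C2 (M i).Th y = _ :=
    dX_add (((pc L.scs).smul e1.lift).dAt hy) (((pc L.ssn).smul e2.lift).dAt hy)
  rw [dX_smul ((pc L.scs).dAt hy) (e1.lift.dAt hy), dX_smul ((pc L.ssn).dAt hy) (e2.lift.dAt hy),
    dX_lift, dX_lift] at f2
  obtain ⟨n1, n2, n3⟩ := hR.on i _ hy
  have u := L.unit (prm (D i) (R i) y.1, y.2) (m i _ hy)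
  have f3 : (M i).nu y ⬝ᵥ dX (D i).C2 (M i).Th y = (R i).e2 y.1 ⬝ᵥ dV (D i).C2 (R i).e1 y.1 +
      (L.cs (prm (D i) (R i) y.1, y.2) *
      dX (D i).C2 (fun y : Y => L.sn (prm (D i) (R i) y.1, y.2)) y -
      L.sn (prm (D i) (R i) y.1, y.2) *
      dX (D i).C2 (fun y : Y => L.cs (prm (D i) (R i) y.1, y.2)) y) := by
    rw [f2]
    simp only [hM, mk1, add_dotProduct, dotProduct_add, smul_dotProduct, dotProduct_smul,
      smul_eq_mul, n1, n2, n3, dotProduct_comm ((R i).e2 _) ((R i).e1 _)]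
    linear_combination (-(L.sn (prm (D i) (R i) y.1, y.2) * L.cs (prm (D i) (R i) y.1, y.2)) / 2) *
      (o1 - o2) - L.sn (prm (D i) (R i) y.1, y.2) ^ 2 * o3 +
      ((R i).e2 y.1 ⬝ᵥ dV (D i).C2 (R i).e1 y.1) * u
  obtain ⟨q1, -, q3⟩ := H.on i y hy
  rw [dotProduct_comm] at q3
  rw [f1, dotProduct_add, dotProduct_comm]
  simp only [TD1.Wj, add_dotProduct, dotProduct_add, smul_dotProduct, dotProduct_smul,
    smul_eq_mul, q1, q3, o5, f3]
  ring

/-! B4: nondegeneracy of the homogeneous corrections. -/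
theorem mk1_lam (h : TD0.Hyp A D) (hR : Fr.Hyp A D R)
    (ht : ∀ i, ∀ x ∈ A.O i, tlo ≤ tt (D i) (R i) x) :
    ∃ (C0 : ℝ) (c0 : ℕ), (A.cut (fun i => C0 * A.τ i ^ c0 ≤ (D i).s)).Le (fun i _ => (D i).σ ^ 2)
      (fun i x => ∑ l, (mk1 L X w (D i) (R i)).Lam l x ^ 2) := by
  obtain ⟨-, r2, -, -, -, r6, r7⟩ := rho_facts h hR
  have k := b4_main L X w h hR ht
  obtain ⟨C, c, hC, h1⟩ := (Tm.sum Finset.univ (fun i x hx => mul_nonneg ((k 0).nn i x hx)
    ((k 0).nn i x hx)) fun j _ => (k j).mul (k j)).norm_le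
  obtain ⟨C', c', hC', h2⟩ := r2.mul h.lC2 (fun i _ _ => zero_le_one.trans (h.sig i))
    fun i x hx => (r7 i x hx).2.2.1.le
  refine ⟨9 * C * C' ^ 2, c + 2 * c', 9 * C' ^ 2, 2 * c', by positivity, fun i x hx => ?_⟩
  obtain ⟨hx, hs⟩ := hx
  have a1 := h1 i x hx
  have a2 := h2 i x hx
  have a3 := b4_trig (D i).C2 (r6.diffAt i hx) fun _ => rfl
  have t : 0 < A.τ i := one_pos.trans_le (A.one_le i)
  have s1 := h.s1 i
  have s2 : (D i).η0 * (D i).s ≤ 1 :=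
    (mul_le_mul_of_nonneg_right (h.η0le i x hx) (by positivity)).trans (h.ηs i x hx)
  have s3 := h.η0pos i
  have s4 := h.sig i
  have s5 := (r7 i x hx).2.2.1
  change 9 * C * C' ^ 2 * A.τ i ^ (c + 2 * c') ≤ (D i).s at hs
  change (D i).σ ^ 2 ≤ 9 * C' ^ 2 * A.τ i ^ (2 * c') * _
  simp only [one_mul] at a1 a2
  set K := C' * A.τ i ^ c' with hK
  set K2 := C * A.τ i ^ c with hK2
  rw [show 9 * C * C' ^ 2 * A.τ i ^ (c + 2 * c') = 9 * K2 * K ^ 2 by rw [hK, hK2]; ring] at hs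
  rw [show 9 * C' ^ 2 * A.τ i ^ (2 * c') = 9 * K ^ 2 by rw [hK]; ring]
  have K0 : 0 < K := by positivity
  have K1 : 0 < K2 := by positivity
  have a4 : ∀ j, 8 / 9 * rho (D i) (R i) x ^ 2 * (dV (D i).C2 (prm (D i) (R i)) x).2.2 j ^ 2 ≤
      (mk1 L X w (D i) (R i)).Lam j x ^ 2 + ((mk1 L X w (D i) (R i)).Lam j x -
      2 * rho (D i) (R i) x * (dV (D i).C2 (prm (D i) (R i)) x).2.2 j /
        (1 + (prm (D i) (R i) x).2.2 j)) * ((mk1 L X w (D i) (R i)).Lam j x -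
      2 * rho (D i) (R i) x * (dV (D i).C2 (prm (D i) (R i)) x).2.2 j /
        (1 + (prm (D i) (R i) x).2.2 j)) := fun j => by
    have b1 := (norm_le_pi_norm _ j).trans
      (mem_closedBall_zero_iff.1 (prm_mem h hR ht i x hx).2.2)
    obtain ⟨b2, b3⟩ := abs_le.1 b1
    generalize (prm (D i) (R i) x).2.2 j = κ at *
    generalize (mk1 L X w (D i) (R i)).Lam j x = l
    have b4 : 0 < 1 + κ := by linarith
    obtain ⟨q, hq⟩ : ∃ q, 2 * rho (D i) (R i) x * (dV (D i).C2 (prm (D i) (R i)) x).2.2 j =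
      q * (1 + κ) := ⟨_, (div_mul_cancel₀ _ b4.ne').symm⟩
    rw [hq, mul_div_cancel_right₀ _ b4.ne']
    calc _ = 2 / 9 * (q * (1 + κ)) ^ 2 := by rw [← hq]; ring
      _ = 2 / 9 * (q ^ 2 * (1 + κ) ^ 2) := by ring
      _ ≤ 2 / 9 * (q ^ 2 * (3 / 2) ^ 2) := by gcongr; linarith
      _ ≤ _ := by nlinarith [sq_nonneg (2 * l - q)]
  have a5 := Finset.sum_le_sum fun j (_ : j ∈ Finset.univ) => a4 j
  rw [← Finset.mul_sum, Finset.sum_add_distrib] at a5
  have a6 := (le_abs_self _).trans a1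
  have a7 : (D i).σ ^ 2 ≤ K ^ 2 * (rho (D i) (R i) x ^ 2 * ‖(D i).C2 x‖ ^ 2) := by
    rw [← mul_pow, ← mul_pow]; gcongr
  have a8 : 9 * K2 * K ^ 2 * (D i).η0 ^ 2 ≤ 1 := by
    calc _ ≤ (D i).s * (D i).η0 ^ 2 := by gcongr
      _ = (D i).η0 * (D i).s * (D i).η0 := by ring
      _ ≤ 1 * 1 := by gcongr; nlinarith
      _ = 1 := one_mul _
  have a9 := mul_le_mul_of_nonneg_left a3 (show 0 ≤ K ^ 2 * rho (D i) (R i) x ^ 2 by positivity)
  have a10 := mul_le_mul_of_nonneg_left (a5.trans (add_le_add_right a6 _))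
    (show 0 ≤ 9 * K ^ 2 by positivity)
  nlinarith [mul_le_mul_of_nonneg_left a8 (sq_nonneg (D i).σ)]

end Vale.Agent.P205
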