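import Vale.Agent.P205.B5a
import Vale.Agent.P205.B2
import Vale.Agent.P205.A1
import Vale.Agent.P205.G1

open Set Filter Topology
open scoped ContDiff

noncomputable section
namespace Vale.Agent.P205

variable {ι : Type*} {A : Fam ι E} {D : ι → TD0} {R : ι → Fr} {S : Sh} {tlo : ℝ}
  (L : LpC S tlo) (X : LpX L) (w : Om)

theorem b5_slow (h : TD0.Hyp A D) {G : ι → E → V} {P : ι → Y → V} {g : ι → E → ℝ}
    (hG : Sl A (fun i _ => (D i).η0) G) (hP : TmC A (fun _ _ => 1) P)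
    (hg : Sl A (fun i _ => (D i).η0) g) (e : ∀ i, ∀ y : Y, y.1 ∈ A.O i → G i y.1 ⬝ᵥ P i y = g i y.1) :
    TmC A (fun i _ => (D i).σ * (D i).η0) fun i y => G i y.1 ⬝ᵥ dX (D i).C2 (P i) y := by
  have t1 := (hg.dV h.tC2).lift
  have t2 := ((hG.dV h.tC2).lift.dot hP).mono_le (w' := fun i _ => (D i).σ * (D i).η0)
    fun _ _ _ => (mul_one _).le
  refine (t1.sub t2).cg fun i y hy => ?_
  have e1 := dX_dot (C := (D i).C2) (hG.t1.lift.dAt hy) (hP.dAt hy)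
  rw [dX_cg (v := fun z => g i z.1) (A.op i) (e i) hy, dX_lift, dX_lift] at e1
  rw [e1]
  ring

theorem b5_ref (h : TD0.Hyp A D) (hR : Fr.Hyp A D R)
    (ht : ∀ i, ∀ x ∈ A.O i, tlo ≤ tt (D i) (R i) x) :
    TmC A (fun i _ => (D i).σ * (D i).η0) fun i y => np ((mk1 L X w (D i) (R i)).T y) ((D i).F2 y.1)
      ((D i).F22 y.1) (dX (D i).C2 (mk1 L X w (D i) (R i)).T y) := by
  have H := mk1_hyp0 L X w h hR ht
  have hT := H.tT1
  have sρ : Sl A (fun i _ => (D i).η0) (fun i => rho (D i) (R i)) :=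
    ⟨(rho_facts h hR).1, (rho_facts h hR).2.2.1⟩
  have q2 := b5_slow h h.sF2 hT (h.sF1.dot h.sF2) fun i y hy => by
    rw [dotProduct_comm]; exact (H.TTh hy).2.2.2.1
  have q3 := b5_slow h h.sF22 hT (h.sF1.dot h.sF22) fun i y hy => by
    rw [dotProduct_comm]; exact (H.TTh hy).2.2.2.2.1
  have q1 : TmC A (fun i _ => (D i).σ * (D i).η0) fun i y =>
      (mk1 L X w (D i) (R i)).T y ⬝ᵥ dX (D i).C2 (mk1 L X w (D i) (R i)).T y := by
    have t1 := (((hR.sT0.dot hR.sT0).add (sρ.mul sρ)).dV h.tC2).lift.const_mul (1 / 2)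
    refine t1.cg fun i y hy => ?_
    have e1 := dX_dot (C := (D i).C2) (hT.dAt hy) (hT.dAt hy)
    rw [dX_cg (v := fun z => (R i).T0 z.1 ⬝ᵥ (R i).T0 z.1 + rho (D i) (R i) z.1 * rho (D i) (R i) z.1)
      (A.op i) (fun z hz => by rw [← sq]; exact (H.TTh hz).2.2.1) hy,
      dX_lift (D i).C2 (fun x => (R i).T0 x ⬝ᵥ (R i).T0 x + rho (D i) (R i) x * rho (D i) (R i) x),
      dotProduct_comm] at e1
    rw [e1]
    ring
  have m1 : ∀ {u v : ι → Y → ℝ}, TmC A (fun _ _ => 1) u → TmC A (fun _ _ => 1) v →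
      TmC A (fun _ _ => 1) fun i y => u i y * v i y := fun hu hv =>
    (hu.mul hv).mono_le fun _ _ _ => (mul_one _).le
  have m2 : ∀ {u v : ι → Y → ℝ}, TmC A (fun _ _ => 1) u → TmC A (fun i _ => (D i).σ * (D i).η0) v →
      TmC A (fun i _ => (D i).σ * (D i).η0) fun i y => u i y * v i y := fun hu hv =>
    (hu.mul hv).mono_le fun _ _ _ => (one_mul _).le
  have d1 : ∀ {u v : ι → Y → V}, TmC A (fun _ _ => 1) u → TmC A (fun _ _ => 1) v →
      TmC A (fun _ _ => 1) fun i y => u i y ⬝ᵥ v i y := fun hu hv =>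
    (hu.dot hv).mono_le fun _ _ _ => (mul_one _).le
  have f2 := h.sF2.t1.lift
  have f22 := h.sF22.t1.lift
  have s11 := d1 hT hT
  have s12 := d1 hT f2
  have s22 := d1 f2 f2
  have t := ((m2 ((m1 s11 s22).sub (m1 s12 s12)) q3).sub
    (m2 (d1 f22 hT) ((m2 s22 q1).sub (m2 s12 q2)))).sub
    (m2 (d1 f22 f2) ((m2 s11 q2).sub (m2 s12 q1)))
  refine t.cg fun i y _ => ?_
  rw [np_eq]
  simp only [npd, det2]
  ring
/-! B5: geometric output. The constants `C`, `c` do not depend on `U`. -/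
theorem mk1_geo (h : TD0.Hyp A D) (hR : Fr.Hyp A D R)
    (ht : ∀ i, ∀ x ∈ A.O i, tlo ≤ tt (D i) (R i) x) {W1 : ι → Y → V}
    (hW : TmC A (fun i x => (D i).a x * (D i).η x) W1) :
    ∃ (C : ℝ) (c : ℕ), 0 < C ∧ ∀ U : ι → Y → V,
      TmC A (fun i x => (D i).a x * (D i).η x ^ 2)
        (fun i y => U i y - (mk1 L X w (D i) (R i)).U0 y - W1 i y) →
      ∃ (C0 : ℝ) (c0 : ℕ), GeoC (A.cut (fun i => C0 * A.τ i ^ c0 ≤ (D i).s)) D U C c := by
  have H := mk1_hyp0 L X w h hR ht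
  have B := H.base
  have one : ∀ i, ∀ y ∈ A.cyl.O i, (0 : ℝ) ≤ 1 := fun _ _ _ => zero_le_one
  have hσ : ∀ i, 0 < (D i).σ := fun i => lt_of_lt_of_le one_pos (h.sig i)
  have hη : ∀ i, ∀ x ∈ A.O i, 0 ≤ (D i).η x := fun i x hx =>
    (h.η0pos i).le.trans (h.η0le i x hx)
  have η1 : A.Le (fun i => (D i).η) fun _ _ => 1 :=
    Fam.Le.of_le (fun i x hx => (b5_num h i hx).2.2.2.2.1) fun _ _ _ => zero_le_one
  obtain ⟨b1, b2, b3, b4⟩ := b5_close h (U := fun i y => (mk1 L X w (D i) (R i)).U0 y + W1 i y)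
    B.tU0 B.tT1 B.dU0 (hW.cg fun i y _ => by simp)
  have r1 := b1.np b2 b3 b3
  have r3 := b1.np b2 b3 b4
  have r4 := b1.np b2 b4 b4
  have r3' : TmC A (fun i _ => (D i).σ * (D i).η0) _ :=
    (b5_ref L X w h hR ht).add (r3.d.mono_le fun _ _ _ => le_of_eq (by ring))
  obtain ⟨C1, c1, p1, k1⟩ := b5_big (b5_low L X w h hR ht) fun _ _ _ => np_nonneg _ _ _
  obtain ⟨C2, c2, p2, k2⟩ := b5_big r1.l.norm_le r1.l.nn
  obtain ⟨C3, c3, p3, k3⟩ := b5_big r3'.norm_le r3'.nn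
  obtain ⟨C4, c4, p4, k4⟩ := b5_big r4.l.norm_le r4.l.nn
  set K := C1 + C2 + C3 + C4 + 1 with hK
  set c := c1 + c2 + c3 + c4 with hc
  have K1 : 1 ≤ K := by linarith
  refine ⟨2 * K, c, by linarith, fun U hU => ?_⟩
  have hZ : TmC A (fun i x => (D i).a x * (D i).η x) fun i y =>
      U i y - (mk1 L X w (D i) (R i)).U0 y :=
    (hW.add (hU.ma η1 hW.tot.nn fun i x _ => le_of_eq (by ring))).cg fun i y _ => by simp
  obtain ⟨u1, u2, u3, u4⟩ := b5_close h B.tU0 B.tT1 B.dU0 hZ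
  have up1 : ∀ {p : ι → E → ℝ} {f : ι → Y → ℝ}, (∀ i, ∀ x ∈ A.O i, 0 ≤ p i x) →
      TmC A (fun i x => p i x * (D i).η0) f → TmC A (fun i x => p i x * (D i).η x) f :=
    fun hp hf => hf.mono_le fun i x hx => mul_le_mul_of_nonneg_left (h.η0le i x hx) (hp i x hx)
  have δ1 : A.Le (fun i x => (D i).η0 * (D i).η x) fun _ _ => 1 := (b5_η0 h).mul_one' η1 hη
  have hUb : TmC A (fun _ _ => 1) fun i y => (mk1 L X w (D i) (R i)).U0 y + W1 i y :=
    (B.tU0.mono h.ale fun _ _ _ => zero_le_one).add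
      (hW.mono (h.aη.trans (b5_η0 h)) fun _ _ _ => zero_le_one)
  have hZ2 : TmC A (fun i x => (D i).η0 * (D i).η x) fun i y =>
      U i y - ((mk1 L X w (D i) (R i)).U0 y + W1 i y) :=
    (hU.mono ((h.aη.mul_right hη).congr (fun i x _ => by ring) fun _ _ _ => rfl)
      fun i x hx => mul_nonneg (h.η0pos i).le (hη i x hx)).cg fun i y _ => by rw [sub_sub]
  obtain ⟨-, d1, d2, d3, d4⟩ := b5_diff h δ1 hUb hZ2
  have v3 := (Cl.mk' δ1 b1.r (d1.mono_le fun _ _ _ => (one_mul _).ge)).np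
    (Cl.mk' δ1 b2.r (d2.mono_le fun _ _ _ => (one_mul _).ge))
    (Cl.mk' δ1 b3.r (d3.mono_le fun _ _ _ => (one_mul _).ge)) (Cl.mk' δ1 b4.r d4)
  obtain ⟨E1, e1, q1, j1⟩ := b5_abs h (up1 (fun _ _ _ => by norm_num) (u1.np u2 u3 u3).d)
    (fun _ _ _ => by norm_num) (K := 2 * K) (by linarith) c
  obtain ⟨E3, e3, q3, j3⟩ := b5_abs h (p := fun i _ => (D i).σ * (D i).η0)
    (v3.d.mono_le fun _ _ _ => le_of_eq (by ring))
    (fun i _ _ => (mul_pos (hσ i) (h.η0pos i)).le) one_pos 0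
  obtain ⟨E4, e4, q4, j4⟩ := b5_abs h
    (up1 (fun i _ _ => (mul_pos (hσ i) (hσ i)).le) (u1.np u2 u4 u4).d)
    (fun i _ _ => (mul_pos (hσ i) (hσ i)).le) one_pos 0
  refine ⟨E1 + E3 + E4, e1 + e3 + e4, fun i y hy => ?_⟩
  have hy1 : y.1 ∈ A.O i := hy.1
  have hy2 : y ∈ A.cyl.O i := ⟨hy1, mem_univ _⟩
  have hs : (E1 + E3 + E4) * A.τ i ^ (e1 + e3 + e4) ≤ (D i).s := hy.2
  have x1 := k1 K c (by linarith) (by omega) i y hy2
  have x2 := k2 K c (by linarith) (by omega) i y hy2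
  have x3 := k3 K c (by linarith) (by omega) i y hy2
  have x4 := k4 K c (by linarith) (by omega) i y hy2
  have y1 := j1 _ _ (by linarith) (by omega) i hs y hy1
  have y3 := j3 _ _ (by linarith) (by omega) i hs y hy1
  have y4 := j4 _ _ (by linarith) (by omega) i hs y hy1
  have eτ : ∀ n, (A.cut fun i => (E1 + E3 + E4) * A.τ i ^ (e1 + e3 + e4) ≤ (D i).s).τ i ^ n
    = A.cyl.τ i ^ n := fun _ => rfl
  have eτ' : A.τ i ^ c = A.cyl.τ i ^ c := rfl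
  have hM : 1 ≤ K * A.cyl.τ i ^ c := one_le_mul_of_one_le_of_one_le K1 (one_le_pow₀ (A.one_le i))
  simp only [up, Real.norm_eq_abs, pow_zero, mul_one, one_mul, eτ'] at x1 x2 x3 x4 y1 y3 y4
  rw [eτ, mul_assoc 2 K] at *
  generalize K * A.cyl.τ i ^ c = M at *
  have s1 := mul_pos (hσ i) (h.η0pos i)
  have s2 := mul_pos (hσ i) (hσ i)
  rw [add_sub_cancel] at x3
  refine ⟨?_, ?_, ?_, ?_⟩
  · have := neg_abs_le (np ((D i).A1 (U i) y) ((D i).A2 (U i) y) ((D i).A22 (U i) y) ((D i).A22 (U i) y) -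
      np ((mk1 L X w (D i) (R i)).T y) ((D i).F2 y.1) ((D i).F22 y.1) ((D i).F22 y.1))
    nlinarith
  · have := le_abs_self (np ((D i).A1 (U i) y) ((D i).A2 (U i) y) ((D i).A22 (U i) y) ((D i).A22 (U i) y) -
      np ((mk1 L X w (D i) (R i)).T y) ((D i).F2 y.1) ((D i).F22 y.1) ((D i).F22 y.1))
    have := le_abs_self
      (np ((mk1 L X w (D i) (R i)).T y) ((D i).F2 y.1) ((D i).F22 y.1) ((D i).F22 y.1))
    nlinarith
  · rw [abs_le] at x3 y3 ⊢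
    constructor <;> nlinarith
  · rw [abs_le] at x4 y4
    nlinarith

end Vale.Agent.P205
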