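import Vale.Agent.P205.B2
import Vale.Agent.P205.A1
import Vale.Agent.P205.G1

open Set Filter Topology
open scoped ContDiff

noncomputable section
namespace Vale.Agent.P205

/-! B5a: perturbation lemmas shared by B5 and B6. -/

section cl
variable {ι : Type*} {X : Type} [NormedAddCommGroup X] [NormedSpace ℝ X] {A : Fam ι X}

/-- two functions of size `p` that differ by `p δ` -/
structure Cl {W : Type} [NormedAddCommGroup W] [NormedSpace ℝ W] (A : Fam ι X) (δ p : ι → X → ℝ)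
    (u u' : ι → X × ℝ → W) : Prop where
  l : TmC A p u
  r : TmC A p u'
  d : TmC A (fun i x => p i x * δ i x) (fun i y => u' i y - u i y)

variable {δ p q : ι → X → ℝ}

theorem Cl.mk' {W : Type} [NormedAddCommGroup W] [NormedSpace ℝ W] {u u' : ι → X × ℝ → W}
    (hδ : A.Le δ fun _ _ => 1) (l : TmC A p u)
    (d : TmC A (fun i x => p i x * δ i x) (fun i y => u' i y - u i y)) : Cl A δ p u u' := by
  have nn : ∀ i, ∀ x ∈ A.O i, 0 ≤ p i x := fun i x hx => l.nn i (x, 0) ⟨hx, mem_univ _⟩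
  refine ⟨l, ?_, d⟩
  exact (l.add (d.ma hδ nn fun i x _ => le_of_eq (mul_comm _ _))).cg fun i y _ => by simp

theorem b5_cr_sub (a b u a' b' u' : V) :
    cr a' b' u' - cr a b u = cr (a' - a) b' u' + cr a (b' - b) u' + cr a b (u' - u) := by
  funext j
  fin_cases j <;> simp [cr] <;> ring

theorem Cl.cr {a a' b b' u u' : ι → X × ℝ → V} (ha : Cl A δ (fun _ _ => 1) a a')
    (hb : Cl A δ (fun _ _ => 1) b b') (hu : Cl A δ p u u') :
    Cl A δ p (fun i y => cr (a i y) (b i y) (u i y)) (fun i y => cr (a' i y) (b' i y) (u' i y)) := by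
  refine ⟨(Tm.cr ha.l hb.l hu.l).mono_le fun i y _ => le_of_eq (by simp [up]),
    (Tm.cr ha.r hb.r hu.r).mono_le fun i y _ => le_of_eq (by simp [up]), ?_⟩
  have t1 : TmC A (fun i x => p i x * δ i x) _ :=
    (Tm.cr ha.d hb.r hu.r).mono_le fun i y _ => le_of_eq (by simp only [up]; ring)
  have t2 : TmC A (fun i x => p i x * δ i x) _ :=
    (Tm.cr ha.l hb.d hu.r).mono_le fun i y _ => le_of_eq (by simp only [up]; ring)
  have t3 : TmC A (fun i x => p i x * δ i x) _ :=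
    (Tm.cr ha.l hb.l hu.d).mono_le fun i y _ => le_of_eq (by simp only [up]; ring)
  exact ((t1.add t2).add t3).cg fun i y _ => b5_cr_sub _ _ _ _ _ _

theorem Cl.dot {u u' v v' : ι → X × ℝ → V} (hu : Cl A δ p u u') (hv : Cl A δ q v v') :
    Cl A δ (fun i x => p i x * q i x) (fun i y => u i y ⬝ᵥ v i y) (fun i y => u' i y ⬝ᵥ v' i y) := by
  refine ⟨hu.l.dot hv.l, hu.r.dot hv.r, ?_⟩
  have t1 : TmC A (fun i x => p i x * q i x * δ i x) _ :=
    (hu.d.dot hv.r).mono_le fun i y _ => le_of_eq (by ring)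
  have t2 : TmC A (fun i x => p i x * q i x * δ i x) _ :=
    (hu.l.dot hv.d).mono_le fun i y _ => le_of_eq (by ring)
  exact (t1.add t2).cg fun i y _ => by simp only [sub_dotProduct, dotProduct_sub]; ring

theorem Cl.np {a a' b b' u u' v v' : ι → X × ℝ → V} (ha : Cl A δ (fun _ _ => 1) a a')
    (hb : Cl A δ (fun _ _ => 1) b b') (hu : Cl A δ p u u') (hv : Cl A δ q v v') :
    Cl A δ (fun i x => p i x * q i x) (fun i y => np (a i y) (b i y) (u i y) (v i y))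
      (fun i y => np (a' i y) (b' i y) (u' i y) (v' i y)) :=
  (ha.cr hb hu).dot (ha.cr hb hv)

theorem b5_big {w v : ι → X → ℝ} (h : A.Le w v) (hv : ∀ i, ∀ x ∈ A.O i, 0 ≤ v i x) :
    ∃ (C : ℝ) (c : ℕ), 0 < C ∧ ∀ C' c', C ≤ C' → c ≤ c' → ∀ i, ∀ x ∈ A.O i,
      w i x ≤ C' * A.τ i ^ c' * v i x := by
  obtain ⟨C, c, hC, h⟩ := h
  refine ⟨C, c, hC, fun C' c' h1 h2 i x hx => (h i x hx).trans ?_⟩
  exact mul_le_mul_of_nonneg_right (mul_le_mul h1 (t1_pow_le A i h2) (t1_pow_pos A i c).le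
    (hC.le.trans h1)) (hv i x hx)
end cl

variable {ι : Type*} {A : Fam ι E} {D : ι → TD0}

theorem b5_num (h : TD0.Hyp A D) (i : ι) {x : E} (hx : x ∈ A.O i) :
    0 < (D i).ε ∧ 1 ≤ (D i).σ ∧ 0 < (D i).η0 ∧ (D i).η0 ≤ (D i).η x ∧ (D i).η x ≤ 1 ∧
      (D i).ε * (D i).σ ≤ (D i).η0 ∧ (D i).ε * (D i).σ ^ 2 ≤ (D i).η0 ∧ 0 < (D i).a x := by
  have e := h.eps i
  have s := h.sig i
  have a1 := h.epsη i x hx
  have a2 := h.η0le i x hx
  have a3 := h.ηs i x hx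
  have a4 := h.s1 i
  have a5 := h.η0pos i
  refine ⟨e, s, a5, a2, by nlinarith, ?_, a1, h.apos i x hx⟩
  have : (D i).ε * (D i).σ * 1 ≤ (D i).ε * (D i).σ * (D i).σ :=
    mul_le_mul_of_nonneg_left s (by positivity)
  nlinarith

theorem b5_η0 (h : TD0.Hyp A D) : A.Le (fun i _ => (D i).η0) fun _ _ => 1 :=
  Fam.Le.of_le (fun i x hx => (b5_num h i hx).2.2.2.1.trans (b5_num h i hx).2.2.2.2.1)
    fun _ _ _ => zero_le_one

/-- absorb a factor `η` when `s` is large -/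
theorem b5_abs (h : TD0.Hyp A D) {f : ι → Y → ℝ} {p : ι → E → ℝ}
    (hf : TmC A (fun i x => p i x * (D i).η x) f) (hp : ∀ i, ∀ x ∈ A.O i, 0 ≤ p i x) {K : ℝ}
    (hK : 0 < K) (c1 : ℕ) : ∃ (C0 : ℝ) (c0 : ℕ), 0 < C0 ∧ ∀ C' c', C0 ≤ C' → c0 ≤ c' →
      ∀ i, C' * A.τ i ^ c' ≤ (D i).s → ∀ y : Y, y.1 ∈ A.O i →
        K * A.τ i ^ c1 * |f i y| ≤ p i y.1 := by
  obtain ⟨C, c, hC, hb⟩ := hf.norm_le
  refine ⟨K * C, c1 + c, by positivity, fun C' c' h1 h2 i hs y hy => ?_⟩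
  have a1 : |f i y| ≤ C * A.τ i ^ c * (p i y.1 * (D i).η y.1) := hb i y ⟨hy, mem_univ _⟩
  have a2 : K * C * A.τ i ^ (c1 + c) ≤ (D i).s :=
    (mul_le_mul h1 (t1_pow_le A i h2) (t1_pow_pos A i _).le (by nlinarith [mul_pos hK hC])).trans hs
  have t1 := t1_pow_pos A i c1
  obtain ⟨-, -, n1, n2, -⟩ := b5_num h i hy
  have a3 := h.ηs i y.1 hy
  have a4 := hp i y.1 hy
  calc K * A.τ i ^ c1 * |f i y| ≤ K * A.τ i ^ c1 * (C * A.τ i ^ c * (p i y.1 * (D i).η y.1)) := by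
        gcongr
    _ = K * C * A.τ i ^ (c1 + c) * (D i).η y.1 * p i y.1 := by ring
    _ ≤ (D i).s * (D i).η y.1 * p i y.1 := by
        have : 0 ≤ (D i).η y.1 := by linarith
        gcongr
    _ ≤ 1 * p i y.1 := by gcongr; linarith
    _ = _ := one_mul _

theorem b5_tε (h : TD0.Hyp A D) : TmC A (fun i _ => (D i).ε) fun i _ => (D i).ε :=
  (Tm.cst _ h.eps).lift

theorem b5_A1 (h : TD0.Hyp A D) {U : ι → Y → V} (hU : TmC A (fun _ _ => 1) U) :
    TmC A (fun _ _ => 1) fun i => (D i).A1 (U i) :=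
  (h.sF1.t1.lift.add hU.dθ).add (((b5_tε h).smul (hU.dX h.tC1)).mono_le fun i x hx => by
    obtain ⟨-, -, -, n1, n2, n3, -⟩ := b5_num h i hx
    linarith)
theorem b5_A2 (h : TD0.Hyp A D) {U : ι → Y → V} (hU : TmC A (fun _ _ => 1) U) :
    TmC A (fun _ _ => 1) fun i => (D i).A2 (U i) :=
  h.sF2.t1.lift.add (((b5_tε h).smul (hU.dX h.tC2)).mono_le fun i x hx => by
    obtain ⟨-, -, -, n1, n2, n3, -⟩ := b5_num h i hx
    linarith)

/-- the jets depend on `U` in a Lipschitz way -/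
theorem b5_diff (h : TD0.Hyp A D) {U U' : ι → Y → V} {δ : ι → E → ℝ}
    (hδ : A.Le δ fun _ _ => 1) (hU' : TmC A (fun _ _ => 1) U')
    (hZ : TmC A δ fun i y => U i y - U' i y) :
    TmC A (fun _ _ => 1) U ∧
    TmC A δ (fun i y => (D i).A1 (U i) y - (D i).A1 (U' i) y) ∧
    TmC A δ (fun i y => (D i).A2 (U i) y - (D i).A2 (U' i) y) ∧
    TmC A δ (fun i y => (D i).A22 (U i) y - (D i).A22 (U' i) y) ∧
    TmC A (fun i x => (D i).σ * δ i x) (fun i y => (D i).A12 (U i) y - (D i).A12 (U' i) y) := by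
  have nn : ∀ i, ∀ x ∈ A.O i, 0 ≤ δ i x := fun i x hx => hZ.nn i (x, 0) ⟨hx, mem_univ _⟩
  have hU : TmC A (fun _ _ => 1) U :=
    (hU'.add (hZ.mono hδ fun _ _ _ => zero_le_one)).cg fun i y _ => by simp
  have a1 : TmC A δ (fun i y => (D i).A1 (U i) y - (D i).A1 (U' i) y) := by
    have t := ((b5_tε h).smul (hZ.dX h.tC1)).mono_le (w' := δ) fun i x hx => by
      obtain ⟨-, -, -, n1, n2, n3, -⟩ := b5_num h i hx
      have := nn i x hx
      nlinarith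
    refine (hZ.dθ.add t).cg fun i y hy => ?_
    rw [dθ_sub (hU.dAt hy) (hU'.dAt hy), dX_sub (hU.dAt hy) (hU'.dAt hy)]
    simp only [TD0.A1]
    module
  have a2 : TmC A (fun i x => (D i).ε * ((D i).σ * δ i x))
      (fun i y => (D i).A2 (U i) y - (D i).A2 (U' i) y) := by
    refine ((b5_tε h).smul (hZ.dX h.tC2)).cg fun i y hy => ?_
    rw [dX_sub (hU.dAt hy) (hU'.dAt hy)]
    simp only [TD0.A2]
    module
  refine ⟨hU, a1, a2.mono_le fun i x hx => ?_, ((a2.dX h.tC2).mono_le fun i x hx => ?_).cg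
    fun i y hy => ?_, (a1.dX h.tC2).cg fun i y hy => ?_⟩
  · obtain ⟨-, -, -, n1, n2, n3, -⟩ := b5_num h i hx
    have := nn i x hx
    nlinarith
  · obtain ⟨-, -, -, n1, n2, -, n3, -⟩ := b5_num h i hx
    have := nn i x hx
    nlinarith
  · exact (dX_sub ((b5_A2 h hU).dAt hy) ((b5_A2 h hU').dAt hy)).symm
  · exact (dX_sub ((b5_A1 h hU).dAt hy) ((b5_A1 h hU').dAt hy)).symm

/-- the jets are close to the reference jets -/
theorem b5_close (h : TD0.Hyp A D) {U0 T U : ι → Y → V} (hU0 : TmC A (fun i => (D i).a) U0)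
    (hT : TmC A (fun _ _ => 1) T)
    (hd : ∀ i, ∀ y : Y, y.1 ∈ A.O i → dθ (U0 i) y = T i y - (D i).F1 y.1)
    (hZ : TmC A (fun i x => (D i).a x * (D i).η x) fun i y => U i y - U0 i y) :
    Cl A (fun i _ => (D i).η0) (fun _ _ => 1) T (fun i => (D i).A1 (U i)) ∧
    Cl A (fun i _ => (D i).η0) (fun _ _ => 1) (fun i y => (D i).F2 y.1) (fun i => (D i).A2 (U i)) ∧
    Cl A (fun i _ => (D i).η0) (fun _ _ => 1) (fun i y => (D i).F22 y.1) (fun i => (D i).A22 (U i)) ∧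
    Cl A (fun i _ => (D i).η0) (fun i _ => (D i).σ) (fun i => dX (D i).C2 (T i))
      (fun i => (D i).A12 (U i)) := by
  have n0 : ∀ i, ∀ x ∈ A.O i, 0 ≤ (D i).η0 := fun i _ _ => (h.η0pos i).le
  have hU1 : TmC A (fun _ _ => 1) U0 := hU0.mono h.ale fun _ _ _ => zero_le_one
  obtain ⟨-, d1, d2, d3, d4⟩ := b5_diff h (b5_η0 h) hU1 (hZ.mono h.aη n0)
  have a1 : TmC A (fun i _ => (D i).η0) (fun i y => (D i).A1 (U0 i) y - T i y) := by
    refine (((b5_tε h).smul (hU1.dX h.tC1)).mono_le fun i x hx => ?_).cg fun i y hy => ?_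
    · obtain ⟨-, -, -, -, -, n3, -⟩ := b5_num h i hx
      linarith
    · simp only [TD0.A1, hd i y hy]
      module
  have a2 : TmC A (fun i x => (D i).ε * ((D i).σ * 1))
      (fun i y => (D i).A2 (U0 i) y - (D i).F2 y.1) :=
    ((b5_tε h).smul (hU1.dX h.tC2)).cg fun i y hy => by simp only [TD0.A2]; module
  have a2' : TmC A (fun i _ => (D i).η0) (fun i y => (D i).A2 (U0 i) y - (D i).F2 y.1) :=
    a2.mono_le fun i x hx => by
      obtain ⟨-, -, -, -, -, n3, -⟩ := b5_num h i hx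
      linarith
  have a3 : TmC A (fun i _ => (D i).η0) (fun i y => (D i).A22 (U0 i) y - (D i).F22 y.1) := by
    refine ((a2.dX h.tC2).mono_le fun i x hx => ?_).cg fun i y hy => ?_
    · obtain ⟨-, -, -, -, -, -, n3, -⟩ := b5_num h i hx
      linarith
    · rw [dX_sub ((b5_A2 h hU1).dAt hy) (h.sF2.t1.lift.dAt hy), dX_lift]
      rfl
  have a4 : TmC A (fun i _ => (D i).σ * (D i).η0)
      (fun i y => (D i).A12 (U0 i) y - dX (D i).C2 (T i) y) :=
    (a1.dX h.tC2).cg fun i y hy => (dX_sub ((b5_A1 h hU1).dAt hy) (hT.dAt hy)).symm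
  refine ⟨Cl.mk' (b5_η0 h) hT ?_, Cl.mk' (b5_η0 h) h.sF2.t1.lift ?_,
    Cl.mk' (b5_η0 h) h.sF22.t1.lift ?_, Cl.mk' (b5_η0 h)
      ((hT.dX h.tC2).mono_le fun _ _ _ => (mul_one _).le) ?_⟩
  · exact ((d1.add a1).mono_le fun _ _ _ => (one_mul _).ge).cg fun i y _ => by simp
  · exact ((d2.add a2').mono_le fun _ _ _ => (one_mul _).ge).cg fun i y _ => by simp
  · exact ((d3.add a3).mono_le fun _ _ _ => (one_mul _).ge).cg fun i y _ => by simp
  · exact (d4.add a4).cg fun i y _ => by simp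

theorem b5_np_span {F T0 n b c : V} {r al be : ℝ} (e : F = T0 + r • n) (e0 : T0 = al • b + be • c)
    (h1 : n ⬝ᵥ n = 1) (hb : n ⬝ᵥ b = 0) (hc : n ⬝ᵥ c = 0) : np F b c c = r ^ 2 * gram2 b c := by
  have e1 : cr b c F = r • cr b c n := by
    rw [e, e0, add_comm, cr_tan, cr_smul3]
  have e2 := np_normal b c n n hb hc
  rw [np_perm, np, e1, smul_dotProduct, dotProduct_smul, ← np, e2, h1]
  simp only [smul_eq_mul]
  ring

variable {R : ι → Fr} {S : Sh} {tlo : ℝ} (L : LpC S tlo) (X : LpX L) (w : Om)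

theorem b5_low (h : TD0.Hyp A D) (hR : Fr.Hyp A D R)
    (ht : ∀ i, ∀ x ∈ A.O i, tlo ≤ tt (D i) (R i) x) :
    A.cyl.Le (fun _ _ => 1) fun i y =>
      np ((mk1 L X w (D i) (R i)).T y) ((D i).F2 y.1) ((D i).F22 y.1) ((D i).F22 y.1) := by
  have H := mk1_hyp0 L X w h hR ht
  refine h.low.up.trans (Fam.Le.of_le (fun i y hy => ?_) fun _ _ _ => np_nonneg _ _ _)
  obtain ⟨al, be, e0⟩ := hR.hT0 i y.1 hy.1
  have e1 := b5_np_span (hR.hF1 i y.1 hy.1) e0 (hR.on i y.1 hy.1).1 (hR.o1 i y.1 hy.1).1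
    (hR.o1 i y.1 hy.1).2.1
  have e2 := b5_np_span (F := (mk1 L X w (D i) (R i)).T y) rfl e0 (H.on i y hy.1).1
    (H.oTh i y hy.1).1 (H.oTh i y hy.1).2.1
  have e3 : (mk1 L X w (D i) (R i)).ρ y.1 ^ 2 = _ := ((rho_facts h hR).2.2.2.2.2.2 i y.1 hy.1).2.2.2
  simp only [up]
  rw [e1, e2, e3]
  exact mul_le_mul_of_nonneg_right (le_add_of_nonneg_right (sq_nonneg _)) (gram2_nonneg _ _)

end Vale.Agent.P205
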