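import Vale.Agent.P205.B5a
import Vale.Agent.P205.B2
import Vale.Agent.P205.A1
import Vale.Agent.P205.G1

open Set Filter Topology
open scoped ContDiff

noncomputable section
namespace Vale.Agent.P205

variable {ι : Type*} {A : Fam ι E} {D : ι → TD0} {R : ι → Fr} {S : Sh} {tlo : ℝ}
  (L : LpC S tlo) (X : LpX L) (w : Om)

theorem b6_beta (hβ : ∀ z : Pm × ℝ, z.1 ∈ L.U → 0 < L.β z) :
    ∃ m : ℝ, 0 < m ∧ ∀ p ∈ Kp tlo, ∀ t, m ≤ L.β (p, t) := by
  have hK : IsCompact (Kp tlo ×ˢ Icc (0 : ℝ) (2 * Real.pi)) :=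
    (isCompact_Icc.prod (isCompact_Icc.prod (isCompact_closedBall _ _))).prod isCompact_Icc
  obtain ⟨m, hm, h⟩ := hK.exists_forall_le'
    (L.sβ.sm.continuousOn.mono (Set.prod_mono L.sub (subset_univ _))) (a := 0)
    fun z hz => hβ z (L.sub hz.1)
  refine ⟨m, hm, fun p hp t => ?_⟩
  obtain ⟨s, hs, e⟩ := L.sβ.per.exists_Icc (L.sub hp) t
  rw [e]
  exact h (p, s) ⟨hp, hs⟩

theorem b6_low (h : TD0.Hyp A D) (hR : Fr.Hyp A D R)
    (ht : ∀ i, ∀ x ∈ A.O i, tlo ≤ tt (D i) (R i) x) (hβ : ∀ z : Pm × ℝ, z.1 ∈ L.U → 0 < L.β z) :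
    A.cyl.Le (fun _ _ => 1) fun i y => np ((mk1 L X w (D i) (R i)).T y) ((D i).F2 y.1)
      (dθ (mk1 L X w (D i) (R i)).T y) (dθ (mk1 L X w (D i) (R i)).T y) := by
  have H := mk1_hyp0 L X w h hR ht
  obtain ⟨m, hm, hb⟩ := b6_beta L hβ
  have one : ∀ i, ∀ y ∈ A.cyl.O i, (0 : ℝ) ≤ 1 := fun _ _ _ => zero_le_one
  have l1 : A.cyl.Le (fun _ _ => 1) fun i y =>
      gram2 ((mk1 L X w (D i) (R i)).T y) ((D i).F2 y.1) := by
    refine (b5_low L X w h hR ht).trans (Fam.Le.le_trans (w' := fun i y =>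
      ‖(D i).F22 y.1 ⬝ᵥ (D i).F22 y.1‖ * gram2 ((mk1 L X w (D i) (R i)).T y) ((D i).F2 y.1))
      (fun i y _ => ?_) ?_)
    · rw [mul_comm]
      exact (np_le_gram _ _ _).trans (mul_le_mul_of_nonneg_left (le_abs_self _) (gram2_nonneg _ _))
    · exact ((h.sF22.dot h.sF22).t1.lift.norm_le.mul_right fun i x _ => gram2_nonneg _ _).congr
        (fun _ _ _ => rfl) fun _ _ _ => (one_mul _).symm
  have l2 : A.cyl.Le (fun _ _ => 1) fun i y => rho (D i) (R i) y.1 := (rho_facts h hR).2.1.up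
  have l3 : A.cyl.Le (fun _ _ => 1) fun i y => L.β (prm (D i) (R i) y.1, y.2) := by
    refine Fam.Le.of_le_const m⁻¹ (fun i y hy => ?_) fun i y hy =>
      hm.le.trans (hb _ (prm_mem h hR ht i y.1 hy.1) _)
    have := hb _ (prm_mem h hR ht i y.1 hy.1) y.2
    rw [← div_eq_inv_mul, le_div_iff₀ hm, one_mul]
    exact this
  have p2 := fun i y hy => (t2_pos_of_le (fun _ _ _ => one_pos) l2 i y hy).le
  have p3 := fun i y hy => (t2_pos_of_le (fun _ _ _ => one_pos) l3 i y hy).le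
  have l4 := l2.mul l3 one p2
  have p4 : ∀ i, ∀ y ∈ A.cyl.O i, 0 ≤ rho (D i) (R i) y.1 * L.β (prm (D i) (R i) y.1, y.2) :=
    fun i y hy => mul_nonneg (p2 i y hy) (p3 i y hy)
  have l5 := (l4.mul l4 (fun _ _ _ => by norm_num) p4).mul l1 one
    fun i y hy => mul_nonneg (p4 i y hy) (p4 i y hy)
  refine l5.congr (fun _ _ _ => by norm_num) fun i y hy => ?_
  have e1 : dθ (mk1 L X w (D i) (R i)).T y = (rho (D i) (R i) y.1 * L.β (prm (D i) (R i) y.1, y.2)) •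
      (mk1 L X w (D i) (R i)).nu y := by
    have a1 := dθ_add (H.tT0.lift.dAt hy.1) ((H.tρ.lift.smul H.tTh).dAt hy.1)
    rw [dθ_smul (H.tρ.lift.dAt hy.1) (H.tTh.dAt hy.1), dθ_lift, dθ_lift, H.dTh i y hy.1, zero_smul,
      zero_add, zero_add, smul_smul] at a1
    exact a1
  have e2 := np_normal ((mk1 L X w (D i) (R i)).T y) ((D i).F2 y.1) ((mk1 L X w (D i) (R i)).nu y)
    ((mk1 L X w (D i) (R i)).nu y) (by rw [dotProduct_comm]; exact (H.TTh hy.1).2.1) (H.onu i y hy.1).1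
  rw [(H.on i y hy.1).2.1] at e2
  rw [e1, np, cr_smul3, smul_dotProduct, dotProduct_smul, ← np, e2]
  simp only [smul_eq_mul]
  ring
/-! B6: geometric output in the winding case. The constants `C`, `c` do not depend on `U`. -/
theorem mk1_wind (h : TD0.Hyp A D) (hR : Fr.Hyp A D R)
    (ht : ∀ i, ∀ x ∈ A.O i, tlo ≤ tt (D i) (R i) x) (hβ : ∀ z : Pm × ℝ, z.1 ∈ L.U → 0 < L.β z) :
    ∃ (C : ℝ) (c : ℕ), 0 < C ∧ ∀ U : ι → Y → V,
      TmC A (fun i x => (D i).a x * (D i).η x) (fun i y => U i y - (mk1 L X w (D i) (R i)).U0 y) →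
      ∃ (C0 : ℝ) (c0 : ℕ), WindC (A.cut (fun i => C0 * A.τ i ^ c0 ≤ (D i).s)) D U C c := by
  have H := mk1_hyp0 L X w h hR ht
  have B := H.base
  obtain ⟨C1, c1, p1, k1⟩ := b6_low L X w h hR ht hβ
  refine ⟨2 * C1, c1, by linarith, fun U hU => ?_⟩
  obtain ⟨u1, u2, -, -⟩ := b5_close h B.tU0 B.tT1 B.dU0 hU
  have u3 : Cl A (fun i _ => (D i).η0) (fun _ _ => 1) (fun i => dθ (mk1 L X w (D i) (R i)).T)
      (fun i y => (D i).ε • (D i).A11 (U i) y) := by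
    refine Cl.mk' (b5_η0 h) B.tT1.dθ ?_
    have t1 := ((b5_tε h).smul (u1.r.dX h.tC1)).mono_le (w' := fun i _ => 1 * (D i).η0)
      fun i x hx => by
        obtain ⟨-, -, -, -, -, n3, -⟩ := b5_num h i hx
        linarith
    refine (t1.add u1.d.dθ).cg fun i y hy => ?_
    rw [dθ_sub (u1.r.dAt hy) (u1.l.dAt hy)]
    simp only [TD0.A11, smul_add, smul_smul, mul_inv_cancel₀ (h.eps i).ne', one_smul]
    module
  have v := ((u1.np u2 u3 u3).d).mono_le (w' := fun i x => 1 * (D i).η x) fun i x hx => by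
    have := h.η0le i x hx
    linarith
  obtain ⟨E1, e1, -, j1⟩ := b5_abs h v (fun _ _ _ => zero_le_one) (K := 2 * C1) (by linarith) c1
  refine ⟨E1, e1, fun i y hy => ?_⟩
  have hy1 : y.1 ∈ A.O i := hy.1
  have x1 := k1 i y ⟨hy1, mem_univ _⟩
  have y1 := j1 _ _ le_rfl le_rfl i hy.2 y hy1
  have e2 : np ((D i).A1 (U i) y) ((D i).A2 (U i) y) ((D i).ε • (D i).A11 (U i) y)
      ((D i).ε • (D i).A11 (U i) y) = (D i).ε ^ 2 *
      np ((D i).A1 (U i) y) ((D i).A2 (U i) y) ((D i).A11 (U i) y) ((D i).A11 (U i) y) := by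
    rw [np, cr_smul3, smul_dotProduct, dotProduct_smul, ← np]
    simp only [smul_eq_mul]
    ring
  have eτ : (A.cut fun i => E1 * A.τ i ^ e1 ≤ (D i).s).τ i ^ c1 = A.τ i ^ c1 := rfl
  have eτ' : A.cyl.τ i ^ c1 = A.τ i ^ c1 := rfl
  simp only [e2, eτ'] at x1 y1
  rw [eτ, mul_assoc 2 C1] at *
  have hM : 0 < C1 * A.τ i ^ c1 := mul_pos p1 (t1_pow_pos A i c1)
  generalize C1 * A.τ i ^ c1 = M at *
  have he := h.eps i
  have := neg_abs_le ((D i).ε ^ 2 *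
    np ((D i).A1 (U i) y) ((D i).A2 (U i) y) ((D i).A11 (U i) y) ((D i).A11 (U i) y) -
    np ((mk1 L X w (D i) (R i)).T y) ((D i).F2 y.1) (dθ (mk1 L X w (D i) (R i)).T y)
      (dθ (mk1 L X w (D i) (R i)).T y))
  rw [inv_pow, inv_le_iff_one_le_mul₀' (by positivity)]
  nlinarith

end Vale.Agent.P205
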