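import Vale.Agent.P205.LA
import Vale.Agent.P205.T3

open Set Filter Topology
open scoped ContDiff

noncomputable section
namespace Vale.Agent.P205

theorem l2_md_deriv {g : ℝ → ℝ} (hg : Differentiable ℝ g) (h0 : ∀ t, 3 ≤ |t| → g t = 0) (θ : ℝ) :
    HasDerivAt (fun t => g (md t)) (deriv g (md θ)) θ := by
  refine ((hg (md θ)).hasDerivAt.comp_sub_const θ _).congr_of_eventuallyEq ?_
  have h2 : ∀ᶠ y : ℝ in 𝓝 θ, |y - 2 * Real.pi * (round (θ / (2 * Real.pi)) : ℤ)| <
      2 * Real.pi - 3 :=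
    ContinuousAt.eventually_lt (by fun_prop) continuousAt_const
      ((abs_le.2 (md_mem θ)).trans_lt (by linarith [Real.pi_gt_three]))
  filter_upwards [h2] with y h3
  exact md_alt h0 _ h3

theorem Per.md {Z : Type} {U : Set Pm} {f : Pm × ℝ → Z} (h : Per U f) {p : Pm} (hp : p ∈ U) (θ : ℝ) :
    f (p, md θ) = f (p, θ) := by
  have h1 : Function.Periodic (fun t => f (p, t)) (2 * Real.pi) := h p hp
  rw [Vale.Agent.P205.md, mul_comm]
  exact h1.sub_int_mul_eq _

theorem SP.diff {U : Set Pm} (hU : IsOpen U) {f : Pm × ℝ → ℝ} (h : SP U f) {z : Pm × ℝ}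
    (hz : z.1 ∈ U) : DifferentiableAt ℝ f z :=
  (h.sm.contDiffAt ((hU.prod isOpen_univ).mem_nhds ⟨hz, trivial⟩)).differentiableAt (by simp)

theorem l2_chain {X : Type} [NormedAddCommGroup X] [NormedSpace ℝ X] {c s q : X → ℝ} {z : X}
    (hq : DifferentiableAt ℝ q z) (hc : c =ᶠ[𝓝 z] fun y => (1 - q y ^ 2) / (1 + q y ^ 2))
    (hs : s =ᶠ[𝓝 z] fun y => 2 * q y / (1 + q y ^ 2)) (v : X) :
    c z * fderiv ℝ s z v - s z * fderiv ℝ c z v = 2 * fderiv ℝ q z v / (1 + q z ^ 2) := by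
  have h0 : (1 + q z ^ 2) ≠ 0 := by positivity
  have h1 := (((hasDerivAt_pow 2 (q z)).const_sub 1).div ((hasDerivAt_pow 2 (q z)).const_add 1)
    h0).comp_hasFDerivAt z hq.hasFDerivAt
  have h2 := (((hasDerivAt_id (q z)).const_mul 2).div ((hasDerivAt_pow 2 (q z)).const_add 1)
    h0).comp_hasFDerivAt z hq.hasFDerivAt
  rw [(h1.congr_of_eventuallyEq hc).fderiv, (h2.congr_of_eventuallyEq hs).fderiv, hc.eq_of_nhds,
    hs.eq_of_nhds]
  simp
  field_simp
  ring

/-- the slope parameter on the zone -/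
def Sh.q (S : Sh) (z : Pm × ℝ) : ℝ := z.1.1 * S.bk z.1.2.2 z.2
/-- the derivative of `bk` -/
def Sh.D (S : Sh) (z : Pm × ℝ) : ℝ := 1 + ∑ j, z.1.2.2 j * deriv (S.bt j) z.2

theorem Sh.q_sm (S : Sh) : ContDiff ℝ ∞ S.q := ContDiff.mul (by fun_prop) S.bk_contDiff
theorem Sh.D_sm (S : Sh) : ContDiff ℝ ∞ S.D :=
  contDiff_const.add (ContDiff.sum fun j _ => ContDiff.mul (by fun_prop)
    ((contDiff_infty_iff_deriv.1 (S.sbt j)).2.comp contDiff_snd))
theorem Sh.D_ge (S : Sh) {z : Pm × ℝ} (h : ‖z.1.2.2‖ < 3 / 4) : 1 / 4 ≤ S.D z ∧ S.D z ≤ 2 := by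
  have := S.bk_deriv_pos h z.2
  rwa [(S.bk_hasDerivAt _ _).deriv] at this
theorem Sh.dθ_q (S : Sh) (z : Pm × ℝ) : dθ S.q z = z.1.1 * S.D z :=
  (dθ_hasDerivAt (S.q_sm.differentiable (by simp) z)).unique 
    ((S.bk_hasDerivAt z.1.2.2 z.2).const_mul z.1.1)
theorem Sh.dp_q (S : Sh) (z : Pm × ℝ) (dp : Pm) : fderiv ℝ S.q z (dp, 0) =
    dp.1 * S.bk z.1.2.2 z.2 + z.1.1 * ∑ j, dp.2.2 j * S.bt j z.2 := by
  have h1 := (S.q_sm.differentiable (by simp) z).hasFDerivAt.hasLineDerivAt (dp, 0)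
  refine HasDerivAt.unique h1 ?_
  have h2 := (((hasDerivAt_id (0 : ℝ)).mul_const dp.1).const_add z.1.1).mul
    (((hasDerivAt_id (0 : ℝ)).mul_const (∑ j, dp.2.2 j * S.bt j z.2)).const_add (S.bk z.1.2.2 z.2))
  refine (h2.congr_deriv (by simp)).congr_of_eventuallyEq (Eventually.of_forall fun t => ?_)
  simp [Sh.q, Sh.bk, add_mul, Finset.sum_add_distrib, Finset.mul_sum, mul_assoc, add_assoc]

theorem LpC.zoneD {S : Sh} {tlo : ℝ} (L : LpC S tlo) {z : Pm × ℝ} (hz : z.1 ∈ L.U)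
    (h : |z.2| < 1 / 4) (v : Pm × ℝ) : L.cs z * fderiv ℝ L.sn z v - L.sn z * fderiv ℝ L.cs z v =
      2 * fderiv ℝ S.q z v / (1 + S.q z ^ 2) := by
  have h1 : ∀ᶠ y : Pm × ℝ in 𝓝 z, y.1 ∈ L.U ∧ |y.2| < 1 / 4 :=
    (continuousAt_fst.eventually_mem (L.op.mem_nhds hz)).and
      (ContinuousAt.eventually_lt (by fun_prop) continuousAt_const h)
  exact l2_chain (S.q_sm.differentiable (by simp) z)
    (h1.mono fun y hy => (L.zone _ hy.1 _ hy.2.le).1)
    (h1.mono fun y hy => (L.zone _ hy.1 _ hy.2.le).2) v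

theorem LpC.zoneβ {S : Sh} {tlo : ℝ} (L : LpC S tlo) {z : Pm × ℝ} (hz : z.1 ∈ L.U)
    (h : |z.2| < 1 / 4) : L.β z = 2 * (z.1.1 * S.D z) / (1 + S.q z ^ 2) := by
  have h1 := L.zoneD hz h (0, 1)
  change L.cs z * dθ L.sn z - L.sn z * dθ L.cs z = 2 * dθ S.q z / _ at h1
  rw [← S.dθ_q, ← h1, L.dsn z hz, L.dcs z hz]
  linear_combination (-L.β z) * L.unit z hz

theorem l2_ibp {f h h' : ℝ → ℝ} (hf : ContDiff ℝ ∞ f) (hs : ∀ t, f t ≠ 0 → t ∈ Icc (1/50 : ℝ) (1/5))
    (hi : ∫ t in (-Real.pi)..Real.pi, f t = 1) (hh : ∀ t, HasDerivAt h (h' t) t)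
    (hc : Continuous h') {c : ℝ} (he : ∀ t ∈ tsupport f, h' t = c) :
    ∫ t in (-Real.pi)..Real.pi, h t * deriv f t = -c := by
  have hp := Real.pi_gt_three
  rw [intervalIntegral.integral_mul_deriv_eq_deriv_mul (fun t _ => hh t)
    (fun t _ => (hf.differentiable (by simp) t).hasDerivAt) (hc.intervalIntegrable _ _)
    ((hf.continuous_deriv (by simp)).intervalIntegrable _ _),
    show f Real.pi = 0 from by_contra fun hn => by linarith [(hs _ hn).2],
    show f (-Real.pi) = 0 from by_contra fun hn => by linarith [(hs _ hn).1],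
    intervalIntegral.integral_congr (g := fun t => c * f t) fun t _ => ?_]
  · rw [intervalIntegral.integral_const_mul, hi]; ring
  · by_cases e : f t = 0
    · simp [e]
    · simp only [he t (subset_tsupport _ e)]

theorem l2_supp {f : ℝ → ℝ} (hs : ∀ t, f t ≠ 0 → t ∈ Icc (1/50 : ℝ) (1/5)) {t : ℝ}
    (h : deriv f t ≠ 0) : t ∈ tsupport f ∧ t ∈ Icc (1/50 : ℝ) (1/5) :=
  ⟨support_deriv_subset h, closure_minimal hs isClosed_Icc (support_deriv_subset h)⟩

theorem l2_tot {g : Pm × ℝ → ℝ} {g' : ℝ → ℝ} {p : Pm} (h : ∀ t, |t| < Real.pi → g (p, t) = g' t) :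
    tot g p = ∫ t in (-Real.pi)..Real.pi, g' t := by
  have hp := Real.pi_pos
  rw [tot, intervalIntegral.integral_of_le (by linarith),
    intervalIntegral.integral_of_le (by linarith), MeasureTheory.integral_Ioc_eq_integral_Ioo,
    MeasureTheory.integral_Ioc_eq_integral_Ioo]
  exact MeasureTheory.setIntegral_congr_fun measurableSet_Ioo fun t ht => h t (abs_lt.2 ht)

/-! L2: homogeneous corrections. -/
theorem exists_LpX {S : Sh} {tlo : ℝ} (L : LpC S tlo) : Nonempty (LpX L) := by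
  set x : Fin 4 → ℝ → ℝ := fun j t => S.bm j t - S.b0 t with hx
  have sx : ∀ j, ContDiff ℝ ∞ (x j) := fun j => (S.sbm j).sub S.sb0
  have sx' : ∀ j, ContDiff ℝ ∞ (deriv (x j)) := fun j => (contDiff_infty_iff_deriv.1 (sx j)).2
  have x0 : ∀ j t, x j t ≠ 0 → t ∈ Icc (1/50 : ℝ) (1/5) := fun j t h => by
    by_contra hn
    exact h (by simp only [hx]; rw [by_contra fun e => hn (S.m1 j t e),
      by_contra fun e => hn (S.m0 t e), sub_zero])
  have x3 : ∀ j t, 3 ≤ |t| ∨ |t| < 1 / 100 → x j t = 0 ∧ deriv (x j) t = 0 := fun j t h => by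
    have : t ∉ Icc (1/50 : ℝ) (1/5) := fun hn => by
      rw [abs_of_nonneg (by linarith [hn.1])] at h
      rcases h with h | h <;> linarith [hn.1, hn.2]
    exact ⟨by_contra fun e => this (x0 j t e), by_contra fun e => this (l2_supp (x0 j) e).2⟩
  have D0 : ∀ {z : Pm × ℝ}, z.1 ∈ L.U → S.D z ≠ 0 := fun hz =>
    (lt_of_lt_of_le (by norm_num) (S.D_ge (L.kb _ hz)).1).ne'
  have D1 : ∀ j (p : Pm), ∀ t ∈ tsupport (S.bm j), S.D (p, t) = 1 + p.2.2 j := fun j p t h => by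
    simp [Sh.D, S.w1 j _ t h]
  have D2 : ∀ (p : Pm), ∀ t ∈ tsupport S.b0, S.D (p, t) = 1 := fun p t h => by
    simp [Sh.D, S.w0 _ t h]
  have key : ∀ j, ∀ p ∈ L.U, ∀ {h h' : ℝ → ℝ} {c c0 : ℝ}, (∀ t, HasDerivAt h (h' t) t) →
      Continuous h' → (∀ t ∈ tsupport (S.bm j), h' t = c) → (∀ t ∈ tsupport S.b0, h' t = c0) →
      ∫ t in (-Real.pi)..Real.pi, deriv (x j) t / S.D (p, t) * h t = c0 - c / (1 + p.2.2 j) := by
    intro j p hp h h' c c0 hh hc h1 h2
    have ch : Continuous h := continuous_iff_continuousAt.2 fun t => (hh t).continuousAt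
    rw [intervalIntegral.integral_congr (g := fun t => h t * deriv (S.bm j) t / (1 + p.2.2 j) -
      h t * deriv S.b0 t) fun t _ => ?_, intervalIntegral.integral_sub
      (((ch.fun_mul ((S.sbm j).continuous_deriv (by simp))).div_const _).intervalIntegrable _ _)
      ((ch.fun_mul (S.sb0.continuous_deriv (by simp))).intervalIntegrable _ _),
      intervalIntegral.integral_div, l2_ibp (S.sbm j) (S.m1 j) (S.im j) hh hc h1,
      l2_ibp S.sb0 S.m0 S.i0 hh hc h2]
    · ring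
    · have e : deriv (x j) t = deriv (S.bm j) t - deriv S.b0 t :=
        deriv_fun_sub ((S.sbm j).differentiable (by simp) t) (S.sb0.differentiable (by simp) t)
      have e1 : deriv (S.bm j) t / S.D (p, t) = deriv (S.bm j) t / (1 + p.2.2 j) := by
        by_cases e : deriv (S.bm j) t = 0
        · simp [e]
        · rw [D1 j p t (support_deriv_subset e)]
      have e2 : deriv S.b0 t / S.D (p, t) = deriv S.b0 t := by
        by_cases e : deriv S.b0 t = 0
        · simp [e]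
        · rw [D2 p t (support_deriv_subset e), div_one]
      simp only [e, sub_div, e1, e2]
      ring
  have s0 : ∀ j, ContDiffOn ℝ ∞ (fun z : Pm × ℝ => deriv (x j) z.2 / S.D z * (1 / 2)) (L.U ×ˢ univ) :=
    fun j => ((((sx' j).comp contDiff_snd).contDiffOn.div S.D_sm.contDiffOn
      fun z hz => D0 hz.1).mul contDiffOn_const)
  have sxs : ∀ j, SP L.U fun z => x j (md z.2) := fun j =>
    periodize L.op (f := fun z => x j z.2) ((sx j).comp contDiff_snd).contDiffOn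
      fun _ _ t h => (x3 j t (Or.inl h)).1
  refine ⟨{
    xs j z := x j (md z.2)
    Y0 j z := deriv (x j) (md z.2) / S.D (z.1, md z.2) * (1 / 2)
    Y1 j z := deriv (x j) (md z.2) / S.D (z.1, md z.2) * (1 / 2) *
      (z.1.1 * S.bk z.1.2.2 (md z.2) ^ 2)
    sxs := sxs
    sY0 j := periodize L.op (s0 j) fun _ _ t h => by simp [(x3 j t (Or.inl h)).2]
    sY1 j := periodize L.op (f := fun z => deriv (x j) z.2 / S.D z * (1 / 2) *
      (z.1.1 * S.bk z.1.2.2 z.2 ^ 2)) ((s0 j).mul (ContDiff.mul (by fun_prop)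
        (S.bk_contDiff.pow 2)).contDiffOn) fun _ _ t h => by simp [(x3 j t (Or.inl h)).2]
    hY j z hz := ?_
    totxs j p hp := ?_
    totY0 j p hp := ?_
    lam j p hp dp := ?_
    germ j p hp t h := ?_ }⟩
  · rw [(dθ_hasDerivAt ((sxs j).diff L.op hz)).unique (l2_md_deriv ((sx j).differentiable (by simp))
      (fun t h => (x3 j t (Or.inl h)).1) z.2), show L.β z = _ from (L.sβ.per.md hz z.2).symm]
    by_cases e : deriv (x j) (md z.2) = 0
    · simp [e]
    · have h1 := (l2_supp (x0 j) e).2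
      have h2 := D0 (z := (z.1, md z.2)) hz
      rw [L.zoneβ (z := (z.1, md z.2)) hz (abs_lt.2 ⟨by linarith [h1.1], by linarith [h1.2]⟩), Sh.q]
      field_simp
  · rw [l2_tot (g' := x j) fun t h => by simp only [md_eq h], intervalIntegral.integral_sub
      ((S.sbm j).continuous.intervalIntegrable _ _) (S.sb0.continuous.intervalIntegrable _ _),
      S.im, S.i0, sub_self]
  · rw [l2_tot (g' := fun t => deriv (x j) t / S.D (p, t) * (1 / 2)) fun t h => by
      simp only [md_eq h], key j p hp (fun t => hasDerivAt_const t _) continuous_const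
      (fun _ _ => rfl) fun _ _ => rfl]
    simp
  · have h1 : 1 + p.2.2 j ≠ 0 := by
      have := abs_lt.1 ((norm_le_pi_norm p.2.2 j).trans_lt (L.kb p hp))
      linarith [this.1]
    have c1 : Continuous fun t => S.D (p, t) := S.D_sm.continuous.comp (Continuous.prodMk_right p)
    have c2 : ∀ i, Continuous (deriv (S.bt i)) := fun i => (S.sbt i).continuous_deriv (by simp)
    have c3 : ∀ t, HasDerivAt (fun t => dp.1 * S.bk p.2.2 t + p.1 * ∑ i, dp.2.2 i * S.bt i t)
        (dp.1 * S.D (p, t) + p.1 * ∑ i, dp.2.2 i * deriv (S.bt i) t) t := fun t =>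
      ((S.bk_hasDerivAt p.2.2 t).const_mul dp.1).add ((HasDerivAt.fun_sum fun i _ =>
        ((S.sbt i).differentiable (by simp) t).hasDerivAt.const_mul (dp.2.2 i)).const_mul p.1)
    rw [l2_tot (g' := fun t => deriv (x j) t / S.D (p, t) *
      (dp.1 * S.bk p.2.2 t + p.1 * ∑ i, dp.2.2 i * S.bt i t)) fun t h => ?_,
      key j p hp (c := dp.1 * (1 + p.2.2 j) + p.1 * dp.2.2 j) (c0 := dp.1) c3 (by fun_prop)
        (fun t h => by simp [D1 j p t h, S.w1 j _ t h]) fun t h => by simp [D2 p t h, S.w0 _ t h]]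
    · field_simp; ring
    · simp only [md_eq h]
      by_cases e : deriv (x j) t = 0
      · simp [e]
      · have h1 := (l2_supp (x0 j) e).2
        rw [L.zoneD (z := (p, t)) hp (abs_lt.2 ⟨by linarith [h1.1], by linarith [h1.2]⟩), S.dp_q,
          Sh.q]
        field_simp
  · simp [md_eq (h.trans (by linarith [Real.pi_gt_three])), x3 j t (Or.inr h)]

end Vale.Agent.P205
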