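import Vale.Agent.P205.LA
import Vale.Agent.P205.T3
import Vale.Agent.P205.L2

open Set Filter Topology
open scoped ContDiff

noncomputable section
namespace Vale.Agent.P205

theorem SP.dθ {U : Set Pm} (hU : IsOpen U) {f : Pm × ℝ → ℝ} (h : SP U f) : SP U (dθ f) :=
  ⟨(h.sm.fderiv_of_isOpen (hU.prod isOpen_univ) (by simp)).clm_apply contDiffOn_const,
    h.per.dθ hU⟩

theorem SP.comp2 {U : Set Pm} {f g : Pm × ℝ → ℝ} (h : SP U f) (h' : SP U g) (F : ℝ → ℝ → ℝ → ℝ)
    (hF : ContDiff ℝ ∞ fun x : ℝ × ℝ × ℝ => F x.1 x.2.1 x.2.2) :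
    SP U (fun z => F z.1.1 (f z) (g z)) :=
  ⟨hF.comp_contDiffOn (f := fun z : Pm × ℝ => (z.1.1, f z, g z))
    (ContDiffOn.prodMk (by fun_prop) (h.sm.prodMk h'.sm)),
    fun p hp t => by simp only [h.per p hp t, h'.per p hp t]⟩

theorem SP.hasDerivAt {U : Set Pm} (hU : IsOpen U) {f : Pm × ℝ → ℝ} (h : SP U f) {z : Pm × ℝ}
    (hz : z.1 ∈ U) : HasDerivAt (fun t => f (z.1, t)) (Vale.Agent.P205.dθ f z) z.2 :=
  dθ_hasDerivAt (h.diff hU hz)

theorem Sh.bk_abs (S : Sh) {κ : Fin 4 → ℝ} (h : ‖κ‖ < 3/4) (t : ℝ) : |S.bk κ t| ≤ 2 * |t| := by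
  have h0 : S.bk κ 0 = 0 := by have := S.bk_odd κ 0; rw [neg_zero] at this; linarith
  simpa [h0] using convex_univ.norm_image_sub_le_of_norm_deriv_le (f := S.bk κ) (C := 2)
    (fun x _ => (S.bk_hasDerivAt κ x).differentiableAt) (fun x _ => by
      have := S.bk_deriv_pos h x
      rw [Real.norm_eq_abs, abs_le]; constructor <;> linarith [this.1, this.2])
    (mem_univ 0) (mem_univ t)

theorem Sh.bk_eq (S : Sh) (κ : Fin 4 → ℝ) {t : ℝ} (h : 1 / 5 ≤ |t|) : S.bk κ t = t := by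
  simp [Sh.bk, S.z2 _ t h]

theorem Sh.int_shift (S : Sh) {c : ℝ} (h0 : 0 ≤ c) (h1 : c ≤ 27 / 10) :
    ∫ t in (-Real.pi)..Real.pi, S.b0 (t - c) = 1 := by
  have hp := Real.pi_gt_three
  have h := S.i0
  rw [intervalIntegral.integral_eq_integral_of_support_subset fun t ht =>
    ⟨by linarith [(S.m0 t ht).1], by linarith [(S.m0 t ht).2]⟩] at h
  rw [intervalIntegral.integral_eq_integral_of_support_subset fun t ht =>
    ⟨by linarith [(S.m0 _ ht).1], by linarith [(S.m0 _ ht).2]⟩,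
    MeasureTheory.integral_sub_right_eq_self, h]

/-- cutoff of the zone -/
def l0c : ContDiffBump (0 : ℝ) := ⟨1 / 4, 3 / 10, by norm_num, by norm_num⟩
/-- cutoff of the middle -/
def l0m : ContDiffBump (0 : ℝ) := ⟨21 / 20, 11 / 10, by norm_num, by norm_num⟩
theorem l0c1 {t : ℝ} (h : |t| ≤ 1 / 4) : l0c t = 1 :=
  l0c.one_of_mem_closedBall (by simpa [l0c] using h)
theorem l0c0 {t : ℝ} (h : 3 / 10 ≤ |t|) : l0c t = 0 := l0c.zero_of_le_dist (by simpa [l0c] using h)
theorem l0m1 {t : ℝ} (h : |t| ≤ 21 / 20) : l0m t = 1 :=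
  l0m.one_of_mem_closedBall (by simpa [l0m] using h)
theorem l0m0 {t : ℝ} (h : 11 / 10 ≤ |t|) : l0m t = 0 := l0m.zero_of_le_dist (by simpa [l0m] using h)
def l0e (t : ℝ) : ℝ := (27 / 10 - t) * l0c (t - 27 / 10)
def l0s (t : ℝ) : ℝ := l0m (t - 27 / 20) - l0m (-t - 27 / 20)
def l0b (S : Sh) (z : Pm × ℝ) : ℝ := l0c z.2 * S.bk z.1.2.2 z.2 + (l0e z.2 - l0e (-z.2))
def l0f (S : Sh) (p : Pm) (r t : ℝ) : ℝ := l0b S (p, t) + r * l0s t

theorem l0e0 {t : ℝ} (h : t ≤ 12 / 5 ∨ 3 ≤ t) : l0e t = 0 := by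
  rw [l0e, l0c0 (le_abs.2 (h.symm.imp (fun h => by linarith) fun h => by linarith)), mul_zero]
theorem l0m0' {t : ℝ} (h : t ≤ 1 / 4 ∨ 49 / 20 ≤ t) : l0m (t - 27 / 20) = 0 :=
  l0m0 (le_abs.2 (h.symm.imp (fun h => by linarith) fun h => by linarith))
theorem l0s_sm : ContDiff ℝ ∞ l0s :=
  (l0m.contDiff.comp (by fun_prop)).sub (l0m.contDiff.comp (by fun_prop))
theorem l0b_sm (S : Sh) : ContDiff ℝ ∞ (l0b S) := by
  have h : ContDiff ℝ ∞ l0e := ContDiff.mul (by fun_prop) (l0c.contDiff.comp (by fun_prop))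
  exact ((l0c.contDiff.comp contDiff_snd).mul S.bk_contDiff).add
    ((h.comp contDiff_snd).sub (h.comp contDiff_snd.neg))
theorem l0s_odd (t : ℝ) : l0s (-t) = -l0s t := by simp [l0s]
theorem l0b_odd (S : Sh) (p : Pm) (t : ℝ) : l0b S (p, -t) = -l0b S (p, t) := by
  simp only [l0b, S.bk_odd, l0c.neg, neg_neg]; ring
theorem l0f_odd (S : Sh) (p : Pm) (r t : ℝ) : l0f S p r (-t) = -l0f S p r t := by
  simp only [l0f, l0b_odd, l0s_odd]; ring
theorem l0f1 (S : Sh) (p : Pm) (r : ℝ) {t : ℝ} (h : |t| ≤ 1 / 4) : l0f S p r t = S.bk p.2.2 t := by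
  have := abs_le.1 h
  simp [l0f, l0b, l0s, l0c1 h, l0e0 (t := t) (Or.inl (by linarith)),
    l0e0 (t := -t) (Or.inl (by linarith)), l0m0' (t := t) (Or.inl (by linarith)),
    l0m0' (t := -t) (Or.inl (by linarith))]
theorem l0f2 (S : Sh) (p : Pm) (r : ℝ) {t : ℝ} (h : 49 / 20 ≤ t) (h' : t ≤ 59 / 20) :
    l0f S p r t = 27 / 10 - t := by
  simp [l0f, l0b, l0s, l0c0 (t := t) (le_abs.2 (Or.inl (by linarith))), l0m0' (t := t) (Or.inr h),
    l0m0' (t := -t) (Or.inl (by linarith)), l0e,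
    l0c1 (t := t - 27 / 10) (abs_le.2 ⟨by linarith, by linarith⟩),
    l0c0 (t := -t - 27 / 10) (le_abs.2 (Or.inr (by linarith)))]
theorem l0f3 (S : Sh) (p : Pm) (r : ℝ) {t : ℝ} (h : 3 / 10 ≤ t) (h' : t ≤ 12 / 5) :
    l0f S p r t = r ∧ l0s t = 1 := by
  simp [l0f, l0b, l0s, l0c0 (t := t) (le_abs.2 (Or.inl h)), l0e0 (t := t) (Or.inl h'),
    l0e0 (t := -t) (Or.inl (by linarith)), l0m0' (t := -t) (Or.inl (by linarith)),
    l0m1 (t := t - 27 / 20) (abs_le.2 ⟨by linarith, by linarith⟩)]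
theorem l0f4 (S : Sh) (p : Pm) (r : ℝ) {t : ℝ} (h : 3 ≤ |t|) : l0f S p r t = 0 := by
  have k : ∀ t : ℝ, 3 ≤ t → l0f S p r t = 0 := fun t h => by
    simp [l0f, l0b, l0s, l0c0 (t := t) (le_abs.2 (Or.inl (by linarith))), l0e0 (t := t) (Or.inr h),
      l0e0 (t := -t) (Or.inl (by linarith)), l0m0' (t := -t) (Or.inl (by linarith)),
      l0m0' (t := t) (Or.inr (by linarith))]
  rcases le_abs.1 h with h | h
  · exact k t h
  · have := k _ h
    rw [l0f_odd] at this; linarith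
theorem l0f5 (S : Sh) (p : Pm) {r : ℝ} (hr : 0 ≤ r) (t : ℝ) : 0 ≤ l0f S p r t * l0s t := by
  have k : ∀ t : ℝ, 0 ≤ t → 0 ≤ l0b S (p, t) * l0s t := fun t h => by
    rw [l0s, l0m0' (t := -t) (Or.inl (by linarith)), sub_zero]
    by_cases h1 : t ≤ 1 / 4 ∨ 49 / 20 ≤ t
    · rw [l0m0' h1, mul_zero]
    · push Not at h1
      rw [l0b, l0e0 (t := -t) (Or.inl (by linarith)), sub_zero,
        S.bk_eq _ (le_abs.2 (Or.inl (by linarith)))]
      exact mul_nonneg (add_nonneg (mul_nonneg l0c.nonneg h)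
        (mul_nonneg (by linarith) l0c.nonneg)) l0m.nonneg
  have : 0 ≤ l0b S (p, t) * l0s t := by
    rcases le_total 0 t with h | h
    · exact k t h
    · have := k (-t) (by linarith)
      rwa [l0b_odd, l0s_odd, neg_mul_neg] at this
  rw [l0f, add_mul, mul_assoc]
  exact add_nonneg this (mul_nonneg hr (mul_self_nonneg _))
theorem l0f6 (S : Sh) {p : Pm} (hp : ‖p.2.2‖ < 3 / 4) (t : ℝ) : |l0f S p (1 / 2) t| ≤ 17 / 10 := by
  have k : ∀ {t x : ℝ}, |x| ≤ 2 * |t| → |l0c t * x| ≤ 2 * (3 / 10) := by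
    intro t x h
    rcases le_total (3 / 10) |t| with h1 | h1
    · rw [l0c0 h1]; norm_num
    · rw [abs_mul, abs_of_nonneg l0c.nonneg]
      nlinarith [l0c.le_one (x := t), l0c.nonneg' t, abs_nonneg x]
  have e : ∀ t, |2 * l0e t| ≤ 2 * (3 / 10) := fun t => by
    rw [l0e, ← mul_assoc, mul_comm]
    exact k (by rw [abs_mul, abs_sub_comm]; simp)
  have h1 := abs_le.1 (k (S.bk_abs hp t))
  have h2 := abs_le.1 (e t)
  have h3 := abs_le.1 (e (-t))
  rw [l0f, l0b, l0s, abs_le]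
  constructor <;> linarith [h1.1, h1.2, h2.1, h2.2, h3.1, h3.2, l0m.le_one (x := t - 27 / 20),
    l0m.nonneg' (t - 27 / 20), l0m.le_one (x := -t - 27 / 20), l0m.nonneg' (-t - 27 / 20)]

/-- the parameter domain -/
def l0U : Set Pm := {p | |p.1| < 13 / 50 ∧ 9 / 20 < p.2.1 ∧ p.2.1 < 21 / 20 ∧ ‖p.2.2‖ < 3 / 4}
theorem l0U_op : IsOpen l0U := by
  refine IsOpen.and ?_ (IsOpen.and ?_ (IsOpen.and ?_ ?_)) <;>
    exact isOpen_lt (by fun_prop) (by fun_prop)

def l0G (S : Sh) (y : (Pm × ℝ) × ℝ) : ℝ :=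
  l0f S y.1.1 y.1.2 y.2 ^ 2 / (1 + (y.1.1.1 * l0f S y.1.1 y.1.2 y.2) ^ 2)

theorem l0F_sm (S : Sh) : ContDiff ℝ ∞ fun y : (Pm × ℝ) × ℝ => l0f S y.1.1 y.1.2 y.2 :=
  ((l0b_sm S).comp (f := fun y : (Pm × ℝ) × ℝ => (y.1.1, y.2)) (by fun_prop)).add
    (ContDiff.mul (by fun_prop) (l0s_sm.comp contDiff_snd))

theorem l0G_sm (S : Sh) : ContDiff ℝ ∞ (l0G S) :=
  ((l0F_sm S).pow 2).div (contDiff_const.add ((ContDiff.mul (by fun_prop) (l0F_sm S)).pow 2))
    fun _ => by positivity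

theorem l0G_d (S : Sh) (p : Pm) (r t : ℝ) : fderiv ℝ (l0G S) ((p, r), t) ((0, 1), 0) =
    2 * (l0f S p r t * l0s t) / (1 + (p.1 * l0f S p r t) ^ 2) ^ 2 := by
  refine HasDerivAt.unique (((l0G_sm S).differentiable (by simp) _).hasFDerivAt.hasLineDerivAt _) ?_
  have h1 : HasDerivAt (fun x : ℝ => l0f S p (r + x) t) (l0s t) 0 := by
    simpa [l0f] using ((((hasDerivAt_id (0 : ℝ)).const_add r).mul_const (l0s t)).const_add
      (l0b S (p, t)))
  refine (((h1.pow 2).div (((h1.const_mul p.1).pow 2).const_add 1)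
    (by simp only [Pi.pow_apply]; positivity)).congr_deriv ?_).congr_of_eventuallyEq (Eventually.of_forall fun x => ?_)
  · simp; ring
  · simp [l0G]

theorem l0_r (S : Sh) : ∃ r : Pm → ℝ, ContDiffOn ℝ ∞ r l0U ∧ ∀ p ∈ l0U,
    ∫ t in (-Real.pi)..Real.pi, l0G S ((p, r p), t) = 16 * Real.pi * p.2.1 := by
  have hp := Real.pi_gt_three
  have hp' := Real.pi_lt_d2
  have hG : ContDiffOn ℝ ∞ (l0G S) (univ ×ˢ univ) := (l0G_sm S).contDiffOn
  have h1 := contDiffOn_univ.1 (PI_contDiffOn isOpen_univ hG (-Real.pi) Real.pi)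
  have c1 : ∀ p r, Continuous fun t => l0f S p r t := fun p r =>
    (l0F_sm S).continuous.comp (Continuous.prodMk_right (p, r))
  have i1 : ∀ y a b, IntervalIntegrable (fun t => l0G S (y, t)) MeasureTheory.volume a b :=
    fun y a b => ((l0G_sm S).continuous.comp (Continuous.prodMk_right y)).intervalIntegrable _ _
  obtain ⟨r, h2, h3⟩ := MIF l0U_op (Φ := fun y => (∫ t in (-Real.pi)..Real.pi, l0G S (y, t)) -
    16 * Real.pi * y.1.2.1) (h1.sub (by fun_prop)).contDiffOn (r0 := 1 / 2) (r1 := 100)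
    (by norm_num) (fun p _ r hr => by
      have e : dθ (fun y : Pm × ℝ => (∫ t in (-Real.pi)..Real.pi, l0G S (y, t)) -
          16 * Real.pi * y.1.2.1) (p, r) =
          fderiv ℝ (fun y => ∫ t in (-Real.pi)..Real.pi, l0G S (y, t)) (p, r) (0, 1) := by
        refine (dθ_hasDerivAt ((h1.sub (by fun_prop)).differentiable (by simp) _)).unique ?_
        exact (dθ_hasDerivAt (h1.differentiable (by simp) (p, r))).sub_const
          (16 * Real.pi * p.2.1)
      rw [e, PI_fderiv isOpen_univ hG _ _ (mem_univ _)]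
      simp only [l0G_d]
      refine intervalIntegral.integral_pos (by linarith) (Continuous.continuousOn ?_)
        (fun t _ => div_nonneg (by linarith [l0f5 S p (r := r) (by linarith [hr.1]) t])
          (sq_nonneg _)) ⟨1, ⟨by linarith, by linarith⟩, ?_⟩
      · have := c1 p r
        have := l0s_sm.continuous
        exact Continuous.div (by fun_prop) (by fun_prop) fun _ => by positivity
      · obtain ⟨a1, a2⟩ := l0f3 S p r (t := 1) (by norm_num) (by norm_num)
        have : 0 < r := by linarith [hr.1]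
        rw [a1, a2]; positivity)
    (fun p hp' => by
      have := intervalIntegral.integral_mono_on (by linarith : -Real.pi ≤ Real.pi) (i1 (p, 1 / 2) _ _)
        (intervalIntegrable_const (c := (3 : ℝ))) fun t _ => by
          refine (div_le_self (sq_nonneg _) (by simp [sq_nonneg])).trans ?_
          nlinarith [abs_le.1 (l0f6 S hp'.2.2.2 t)]
      simp only [intervalIntegral.integral_const, smul_eq_mul] at this
      nlinarith [hp'.2.1])
    fun p hp' => by
      have g0 : ∀ μ : MeasureTheory.Measure ℝ, 0 ≤ᵐ[μ] fun t => l0G S ((p, 100), t) := fun _ =>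
        Eventually.of_forall fun t => div_nonneg (sq_nonneg _) (by positivity)
      have g1 : ∀ t, 3 / 10 ≤ |t| → |t| ≤ 12 / 5 → 14 ≤ l0G S ((p, 100), t) := by
        intro t a1 a2
        have a3 : l0f S p 100 t ^ 2 = 100 ^ 2 := by
          refine Eq.trans ?_ (congrArg (· ^ 2) (l0f3 S p 100 a1 a2).1)
          rcases abs_choice t with e | e <;> simp [e, l0f_odd]
        have := abs_lt.1 hp'.1
        rw [l0G, le_div_iff₀ (by positivity), mul_pow, a3]
        nlinarith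
      have a1 := intervalIntegral.integral_mono_on (by norm_num : (3 / 10 : ℝ) ≤ 12 / 5)
        (intervalIntegrable_const (c := (14 : ℝ))) (i1 (p, 100) _ _) fun t ht =>
        g1 t (le_abs.2 (Or.inl ht.1)) (abs_le.2 ⟨by linarith [ht.1], ht.2⟩)
      have a2 := intervalIntegral.integral_mono_on (by norm_num : (-(12 / 5) : ℝ) ≤ -(3 / 10))
        (intervalIntegrable_const (c := (14 : ℝ))) (i1 (p, 100) _ _) fun t ht =>
        g1 t (le_abs.2 (Or.inr (by linarith [ht.2]))) (abs_le.2 ⟨ht.1, by linarith [ht.2]⟩)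
      have a3 := intervalIntegral.integral_mono_interval (by norm_num : (0 : ℝ) ≤ 3 / 10)
        (by norm_num) (by linarith : 12 / 5 ≤ Real.pi) (g0 _) (i1 (p, 100) _ _)
      have a4 := intervalIntegral.integral_mono_interval (by linarith : -Real.pi ≤ -(12 / 5))
        (by norm_num) (by norm_num : -(3 / 10 : ℝ) ≤ 0) (g0 _) (i1 (p, 100) _ _)
      have a5 := intervalIntegral.integral_add_adjacent_intervals (i1 (p, 100) (-Real.pi) 0)
        (i1 (p, 100) 0 Real.pi)
      simp only [intervalIntegral.integral_const, smul_eq_mul] at a1 a2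
      nlinarith [hp'.2.2.1]
  exact ⟨r, h2, fun p hp => sub_eq_zero.1 (h3 p hp).2⟩

/-! L0: non-winding loops. -/
theorem exists_L0 (S : Sh) : Nonempty (LpC S 0) := by
  obtain ⟨r, hr, hm⟩ := l0_r S
  have hp := Real.pi_gt_three
  set Q : Pm × ℝ → ℝ := fun z => l0f S z.1 (r z.1) (md z.2) with hQ
  have sQ : SP l0U Q := periodize l0U_op (f := fun z => l0f S z.1 (r z.1) z.2)
    ((l0F_sm S).comp_contDiffOn (f := fun z : Pm × ℝ => ((z.1, r z.1), z.2))
      ((contDiffOn_fst.prodMk (hr.comp contDiffOn_fst fun _ h => h.1)).prodMk contDiffOn_snd))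
    fun p _ t h => l0f4 S p _ h
  have z1 : ∀ t, 3 ≤ |t| ∨ |t| < 1 / 100 → S.b0 t = 0 ∧ S.b0 (t - 27 / 10) = 0 := fun t h =>
    ⟨by_contra fun e => by
      have := S.m0 t e
      rw [abs_of_nonneg (by linarith [this.1])] at h
      rcases h with h | h <;> linarith [this.1, this.2], by_contra fun e => by
      have := S.m0 _ e
      rw [abs_of_nonneg (by linarith [this.1])] at h
      rcases h with h | h <;> linarith [this.1, this.2]⟩
  have s1 : SP l0U fun z => S.b0 (md z.2) := periodize l0U_op (f := fun z => S.b0 z.2)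
    (S.sb0.comp contDiff_snd).contDiffOn fun _ _ t h => (z1 t (Or.inl h)).1
  have s2 : SP l0U fun z => S.b0 (md z.2 - 27 / 10) :=
    periodize l0U_op (f := fun z => S.b0 (z.2 - 27 / 10))
      (S.sb0.comp (by fun_prop)).contDiffOn fun _ _ t h => (z1 t (Or.inl h)).2
  have s3 := s1.comp2 s2 (fun _ x y => (x - y) / 4) (by fun_prop)
  have od : ∀ p t, Q (p, -t) = -Q (p, t) := fun p t =>
    periodize_odd (f := l0f S p (r p)) (fun _ => l0f4 S p _) (l0f_odd S p _) t
  have scs := sQ.comp2 sQ (fun t x _ => (1 - (t * x) ^ 2) / (1 + (t * x) ^ 2))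
    (by fun_prop (disch := intros; positivity))
  have ssn := sQ.comp2 sQ (fun t x _ => 2 * (t * x) / (1 + (t * x) ^ 2))
    (by fun_prop (disch := intros; positivity))
  have dQ : ∀ z : Pm × ℝ, z.1 ∈ l0U → dθ Q z = deriv (l0f S z.1 (r z.1)) (md z.2) := fun z hz =>
    (sQ.hasDerivAt l0U_op hz).unique (l2_md_deriv (((l0F_sm S).comp
      (contDiff_prodMk_right (z.1, r z.1))).differentiable (by simp)) (fun _ => l0f4 S _ _) z.2)
  have i1 := fun a b => S.sb0.continuous.intervalIntegrable (μ := MeasureTheory.volume) a b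
  have i2 : IntervalIntegrable (fun t => S.b0 (t - 27 / 10)) MeasureTheory.volume
      (-Real.pi) Real.pi := (S.sb0.continuous.comp (by fun_prop)).intervalIntegrable _ _
  refine ⟨{
    U := l0U
    op := l0U_op
    sub p h := ⟨abs_lt.2 ⟨by linarith [h.1.1], by linarith [h.1.2]⟩, by linarith [h.2.1.1],
      by linarith [h.2.1.2], lt_of_le_of_lt (mem_closedBall_zero_iff.1 h.2.2) (by norm_num)⟩
    kb p h := h.2.2.2
    cs z := (1 - (z.1.1 * Q z) ^ 2) / (1 + (z.1.1 * Q z) ^ 2)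
    sn z := 2 * (z.1.1 * Q z) / (1 + (z.1.1 * Q z) ^ 2)
    cs1 z := -(2 * z.1.1 * Q z ^ 2) / (1 + (z.1.1 * Q z) ^ 2)
    sn1 z := 2 * Q z / (1 + (z.1.1 * Q z) ^ 2)
    β z := 2 * (z.1.1 * dθ Q z) / (1 + (z.1.1 * Q z) ^ 2)
    b z := (S.b0 (md z.2) + S.b0 (md z.2 - 27 / 10)) / 2
    B0 z := (S.b0 (md z.2) - S.b0 (md z.2 - 27 / 10)) / 4
    B1 z := z.1.1 * Q z ^ 2 * ((S.b0 (md z.2) - S.b0 (md z.2 - 27 / 10)) / 4)
    scs := scs
    ssn := ssn
    scs1 := sQ.comp2 sQ (fun t x _ => -(2 * t * x ^ 2) / (1 + (t * x) ^ 2))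
      (by fun_prop (disch := intros; positivity))
    ssn1 := sQ.comp2 sQ (fun t x _ => 2 * x / (1 + (t * x) ^ 2))
      (by fun_prop (disch := intros; positivity))
    sβ := sQ.comp2 (sQ.dθ l0U_op) (fun t x y => 2 * (t * y) / (1 + (t * x) ^ 2))
      (by fun_prop (disch := intros; positivity))
    sb := s1.comp2 s2 (fun _ x y => (x + y) / 2) (by fun_prop)
    sB0 := s3
    sB1 := sQ.comp2 s3 (fun t x y => t * x ^ 2 * y) (by fun_prop)
    hcs z _ := by field_simp; ring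
    hsn z _ := by field_simp
    unit z _ := by field_simp; ring
    dcs z hz := ?_
    dsn z hz := ?_
    hB z hz := ?_
    totb p _ := ?_
    totB0 p _ := ?_
    ev p _ t := by simp only [od, mul_neg, neg_sq]
    od p _ t := by simp only [od, mul_neg, neg_sq, neg_div]
    mean p h := ?_
    zone p _ t h := by
      simp only [hQ, md_eq (h.trans_lt (by linarith)), l0f1 S p _ h, and_self]
    germ p _ t h := by simp [md_eq (h.trans (by linarith)), z1 t (Or.inr h)] }⟩
  · have h1 := (sQ.hasDerivAt l0U_op hz).const_mul z.1.1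
    refine (scs.hasDerivAt l0U_op hz).unique ((((h1.pow 2).const_sub 1).div
      ((h1.pow 2).const_add 1) (by simp only [Pi.pow_apply]; positivity)).congr_deriv ?_)
    simp; field_simp; ring
  · have h1 := (sQ.hasDerivAt l0U_op hz).const_mul z.1.1
    refine (ssn.hasDerivAt l0U_op hz).unique (((h1.const_mul 2).div
      ((h1.pow 2).const_add 1) (by simp only [Pi.pow_apply]; positivity)).congr_deriv ?_)
    simp; field_simp; ring
  · have a1 : dθ Q z * S.b0 (md z.2) = S.b0 (md z.2) := by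
      by_cases e : S.b0 (md z.2) = 0
      · simp [e]
      · have h1 := S.m0 _ e
        have h2 : l0f S z.1 (r z.1) =ᶠ[𝓝 (md z.2)] S.bk z.1.2.2 := by
          filter_upwards [Icc_mem_nhds (a := -(1 / 4)) (b := 1 / 4) (by linarith [h1.1])
            (by linarith [h1.2])] with t ht using l0f1 S _ _ (abs_le.2 ht)
        rw [dQ z hz, h2.deriv_eq, (S.bk_hasDerivAt _ _).deriv]
        simp [S.w0 _ _ (subset_tsupport _ e)]
    have a2 : dθ Q z * S.b0 (md z.2 - 27 / 10) = -S.b0 (md z.2 - 27 / 10) := by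
      by_cases e : S.b0 (md z.2 - 27 / 10) = 0
      · simp [e]
      · have h1 := S.m0 _ e
        have h2 : l0f S z.1 (r z.1) =ᶠ[𝓝 (md z.2)] fun t => 27 / 10 - t := by
          filter_upwards [Icc_mem_nhds (a := 49 / 20) (b := 59 / 20) (by linarith [h1.1])
            (by linarith [h1.2])] with t ht using l0f2 S _ _ ht.1 ht.2
        rw [dQ z hz, h2.deriv_eq, ((hasDerivAt_id' _).const_sub _).deriv]
        simp
    generalize S.b0 (md z.2 - 27 / 10) = y at a2 ⊢
    field_simp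
    linear_combination (4 * z.1.1) * (a1 - a2)
  · rw [l2_tot (g' := fun t => (S.b0 t + S.b0 (t - 27 / 10)) / 2) fun t h => by simp only [md_eq h],
      intervalIntegral.integral_div, intervalIntegral.integral_add (i1 _ _) i2, S.i0,
      S.int_shift (by norm_num) le_rfl]
    norm_num
  · rw [l2_tot (g' := fun t => (S.b0 t - S.b0 (t - 27 / 10)) / 4) fun t h => by simp only [md_eq h],
      intervalIntegral.integral_div, intervalIntegral.integral_sub (i1 _ _) i2, S.i0,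
      S.int_shift (by norm_num) le_rfl]
    norm_num
  · have c : Continuous fun t => l0G S ((p, r p), t) :=
      (l0G_sm S).continuous.comp (Continuous.prodMk_right (p, r p))
    rw [l2_tot (g' := fun t => 1 - 2 * p.1 ^ 2 * l0G S ((p, r p), t)) fun t h => by
      simp only [hQ, md_eq h, l0G]; field_simp; ring, intervalIntegral.integral_sub
      intervalIntegrable_const ((c.intervalIntegrable _ _).const_mul _),
      intervalIntegral.integral_const_mul, hm p h]
    simp; ring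

end Vale.Agent.P205
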