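import Vale.Agent.P205.LA
import Vale.Agent.P205.T3
import Vale.Agent.P205.L0

open Set Filter Topology
open scoped ContDiff

noncomputable section
namespace Vale.Agent.P205
open Real intervalIntegral

theorem l1_even {f : ℝ → ℝ} (hf : Continuous f) (he : ∀ t, f (-t) = f t) :
    ∫ t in (-π)..π, f t = 2 * ∫ t in (0 : ℝ)..π, f t := by
  have h := integral_comp_neg (a := 0) (b := π) f
  simp only [he, neg_zero] at h
  rw [← integral_add_adjacent_intervals (hf.intervalIntegrable _ 0) (hf.intervalIntegrable 0 _), h]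
  ring

structure L1B (c ρ : ℝ) (e : ℝ → ℝ) : Prop where
  sm : ContDiff ℝ ∞ e
  per : ∀ t, e (t + 2 * π) = e t
  ev : ∀ t, e (-t) = e t
  nn : ∀ t, 0 ≤ e t
  int : ∫ t in (0 : ℝ)..π, e t = 1 / 2
  supp : ∀ t ∈ Icc 0 π, e t ≠ 0 → |t - c| < ρ

theorem l1_bump {c ρ : ℝ} (h0 : 0 < ρ) (h1 : ρ ≤ c) (h2 : c ≤ π) (h3 : ρ ≤ 1) : ∃ e, L1B c ρ e := by
  have hp := pi_gt_three
  let φ : ContDiffBump (0 : ℝ) := ⟨ρ / 2, ρ, by positivity, by linarith⟩
  set ψ := φ.normed MeasureTheory.volume
  have hs : ∀ t, ψ t ≠ 0 → |t| < ρ := fun t h => by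
    have : t ∈ Function.support ψ := h
    rw [φ.support_normed_eq] at this
    simpa [φ] using this
  have h4 := (periodize isOpen_univ (f := fun z => ψ z.2)
    (φ.contDiff_normed.comp contDiff_snd).contDiffOn fun _ _ t h =>
      by_contra fun hn => by linarith [hs t hn]).sm
  rw [univ_prod_univ, contDiffOn_univ] at h4
  have sk : ContDiff ℝ ∞ fun t => ψ (md t) := h4.comp (contDiff_prodMk_right (0 : Pm))
  have pk : Function.Periodic (fun t => ψ (md t)) (2 * π) := fun t => by simp only [md_per]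
  have ik : ∀ a, ∫ t in a..a + 2 * π, ψ (md t) = 1 := fun a => by
    rw [pk.intervalIntegral_add_eq a (-π), show -π + 2 * π = π by ring, la_tot_md,
      integral_eq_integral_of_support_subset fun t ht =>
        ⟨by linarith [abs_lt.1 (hs t ht)], by linarith [abs_lt.1 (hs t ht)]⟩, φ.integral_normed]
  have s1 : ContDiff ℝ ∞ fun t => ψ (md (t - c)) := sk.comp (by fun_prop)
  have s2 : ContDiff ℝ ∞ fun t => ψ (md (-t - c)) := sk.comp (by fun_prop)
  have ev : ∀ t, (ψ (md (-t - c)) + ψ (md (- -t - c))) / 2 =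
      (ψ (md (t - c)) + ψ (md (-t - c))) / 2 := fun t => by rw [neg_neg, add_comm]
  refine ⟨fun t => (ψ (md (t - c)) + ψ (md (-t - c))) / 2, (s1.add s2).div_const _, fun t => ?_, ev,
    fun t => div_nonneg (add_nonneg (φ.nonneg_normed _) (φ.nonneg_normed _)) two_pos.le, ?_,
    fun t ht h => ?_⟩
  · rw [show t + 2 * π - c = t - c + 2 * π by ring, md_per, ← md_per (-(t + 2 * π) - c),
      show -(t + 2 * π) - c + 2 * π = -t - c by ring]
  · have h5 := l1_even ((s1.add s2).div_const 2).continuous ev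
    rw [intervalIntegral.integral_div, integral_add (s1.continuous.intervalIntegrable _ _)
      (s2.continuous.intervalIntegrable _ _), integral_comp_neg fun t => ψ (md (t - c)), neg_neg,
      integral_comp_sub_right fun t => ψ (md t), show π - c = -π - c + 2 * π by ring, ik] at h5
    linarith
  · have k : ∀ x, ψ (md x) ≠ 0 → ∃ n : ℤ, |x - 2 * π * n| < ρ := fun x h => ⟨_, hs _ h⟩
    by_cases e : ψ (md (t - c)) = 0
    · obtain ⟨n, hn⟩ := k (-t - c) fun e' => h (by simp [e, e'])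
      have := abs_lt.1 hn
      have a1 : (n : ℝ) < 0 := by nlinarith [ht.1]
      have a2 : (-2 : ℝ) < n := by nlinarith [ht.2]
      obtain rfl : n = -1 := by norm_cast at a1 a2; omega
      push_cast at this
      exact abs_lt.2 ⟨by linarith, by linarith [ht.2]⟩
    · obtain ⟨n, hn⟩ := k _ e
      have := abs_lt.1 hn
      have a1 : (n : ℝ) < 1 := by nlinarith [ht.2]
      have a2 : (-1 : ℝ) < n := by nlinarith [ht.1]
      obtain rfl : n = 0 := by norm_cast at a1 a2; omega
      simpa using hn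

/-- primitive from zero -/
def l1P (e : ℝ → ℝ) (t : ℝ) : ℝ := ∫ s in (0 : ℝ)..t, e s

theorem L1B.P_sm {c ρ : ℝ} {e : ℝ → ℝ} (h : L1B c ρ e) : ContDiff ℝ ∞ (l1P e) := by
  have d : ∀ t, HasDerivAt (l1P e) (e t) t := fun t =>
    (h.sm.continuous.integral_hasStrictDerivAt 0 t).hasDerivAt
  rw [contDiff_infty_iff_deriv, show deriv (l1P e) = e from funext fun t => (d t).deriv]
  exact ⟨fun t => (d t).differentiableAt, h.sm⟩

theorem L1B.P_bd {c ρ : ℝ} {e : ℝ → ℝ} (h : L1B c ρ e) {t : ℝ} (ht : t ∈ Icc 0 π) :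
    0 ≤ l1P e t ∧ l1P e t ≤ 1 / 2 ∧ (t ≤ c - ρ → l1P e t = 0) ∧ (c + ρ ≤ t → l1P e t = 1 / 2) := by
  have i := fun a b => h.sm.continuous.intervalIntegrable (μ := MeasureTheory.volume) a b
  have e1 := integral_add_adjacent_intervals (i 0 t) (i t π)
  have e2 : 0 ≤ ∫ s in t..π, e s := integral_nonneg ht.2 fun s _ => h.nn s
  rw [h.int] at e1
  refine ⟨integral_nonneg ht.1 fun s _ => h.nn s, by rw [l1P]; linarith, fun h1 => ?_, fun h1 => ?_⟩
  · rw [l1P, integral_congr (g := fun _ => 0) fun s hs => by_contra fun hn => ?_]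
    · simp
    · rw [uIcc_of_le ht.1] at hs
      linarith [abs_lt.1 (h.supp s ⟨hs.1, hs.2.trans ht.2⟩ hn), hs.2]
  · rw [integral_congr (a := t) (g := fun _ => 0) fun s hs => by_contra fun hn => ?_] at e1
    · simpa [l1P] using e1
    · rw [uIcc_of_le ht.2] at hs
      linarith [abs_lt.1 (h.supp s ⟨ht.1.trans hs.1, hs.2⟩ hn), hs.1]

/-- angular speed on the zone -/
def l1z (S : Sh) (z : Pm × ℝ) : ℝ := 2 * (z.1.1 * S.D z) / (1 + S.q z ^ 2)
def l1f (S : Sh) (z : Pm × ℝ) : ℝ := l0c z.2 * (l1z S z - z.1.1 / 10)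
def l1g (S : Sh) (z : Pm × ℝ) : ℝ := z.1.1 / 10 + l1f S z
def l1l (S : Sh) (p : Pm) : ℝ := 2 * π - 2 * prim (l1g S) (p, π)
def l1a (S : Sh) (e l : ℝ → ℝ) (y : (Pm × ℝ) × ℝ) : ℝ :=
  prim (l1g S) (y.1.1, y.2) + l1l S y.1.1 * ((1 - y.1.2) * l1P e y.2 + y.1.2 * l1P l y.2)
def l1U (a : ℝ) : Set Pm := {p | a < p.1 ∧ p ∈ l0U}

theorem l1U_op (a : ℝ) : IsOpen (l1U a) := (isOpen_lt continuous_const continuous_fst).and l0U_op
theorem l1f_sm (S : Sh) : ContDiff ℝ ∞ (l1f S) :=
  (l0c.contDiff.comp contDiff_snd).mul (((contDiff_const.mul (ContDiff.mul (by fun_prop) S.D_sm)).div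
    (contDiff_const.add (S.q_sm.pow 2)) fun _ => by positivity).sub (by fun_prop))
theorem l1g_sm (S : Sh) : ContDiff ℝ ∞ (l1g S) := ContDiff.add (by fun_prop) (l1f_sm S)
theorem l1p_sm (S : Sh) : ContDiff ℝ ∞ (prim (l1g S)) := by
  have := prim_contDiffOn isOpen_univ (l1g_sm S).contDiffOn
  rwa [univ_prod_univ, contDiffOn_univ] at this
theorem l1l_sm (S : Sh) : ContDiff ℝ ∞ (l1l S) :=
  contDiff_const.sub (contDiff_const.mul ((l1p_sm S).comp (contDiff_prodMk_left π)))
theorem l1f_ev (S : Sh) (p : Pm) (t : ℝ) : l1f S (p, -t) = l1f S (p, t) := by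
  have h : ∀ j, deriv (S.bt j) (-t) = deriv (S.bt j) t := fun j => by
    have h1 := deriv_comp_neg (S.bt j) t
    simp only [S.odd, deriv.fun_neg] at h1
    linarith
  simp only [l1f, l1z, Sh.D, Sh.q, h, S.bk_odd, l0c.neg, mul_neg, neg_sq]

theorem l1g_bd (S : Sh) {p : Pm} (h0 : 0 < p.1) (hp : p ∈ l0U) (t : ℝ) :
    0 < l1g S (p, t) ∧ l1g S (p, t) ≤ 4 * p.1 := by
  obtain ⟨h1, h2⟩ := S.D_ge (z := (p, t)) hp.2.2.2
  have h3 : 0 < l1z S (p, t) := div_pos (by dsimp only; positivity) (by positivity)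
  have h4 : l1z S (p, t) ≤ 4 * p.1 :=
    (div_le_self (by dsimp only; positivity) (by simp [sq_nonneg])).trans (by dsimp only; nlinarith)
  have h5 := l0c.nonneg' t
  have h6 := l0c.le_one (x := t)
  simp only [l1g, l1f]
  refine ⟨?_, by nlinarith⟩
  rcases h5.eq_or_lt with e | e
  · rw [← e]; linarith
  · nlinarith [mul_pos e h3]

theorem l1p_bd (S : Sh) {p : Pm} (h0 : 0 < p.1) (hp : p ∈ l0U) :
    StrictMono (fun t => prim (l1g S) (p, t)) ∧ prim (l1g S) (p, 0) = 0 ∧
    prim (l1g S) (p, π) ≤ 3 / 2 * p.1 ∧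
    ∀ t ∈ Icc (3 / 10) π, prim (l1g S) (p, π) - prim (l1g S) (p, t) ≤ 3 / 10 * p.1 := by
  have c : Continuous fun t => l1g S (p, t) := (l1g_sm S).continuous.comp (.prodMk_right p)
  have i := fun a b => c.intervalIntegrable (μ := MeasureTheory.volume) a b
  have hπ := pi_lt_d2
  have k : ∀ t ∈ Icc (3 / 10) π, prim (l1g S) (p, π) - prim (l1g S) (p, t) ≤ 3 / 10 * p.1 := by
    intro t ht
    simp only [prim]
    rw [integral_interval_sub_left (i _ _) (i _ _), integral_congr (g := fun _ => p.1 / 10)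
      fun s hs => ?_]
    · simp only [integral_const, smul_eq_mul]; nlinarith [ht.1]
    · rw [uIcc_of_le ht.2] at hs
      simp [l1g, l1f, l0c0 (t := s) (le_abs.2 (Or.inl (ht.1.trans hs.1)))]
  refine ⟨strictMono_of_deriv_pos fun t => ?_, by simp [prim], ?_, k⟩
  · exact (l1g_bd S h0 hp t).1.trans_eq (c.integral_hasStrictDerivAt 0 t).hasDerivAt.deriv.symm
  · have h1 := integral_mono_on (by norm_num : (0 : ℝ) ≤ 3 / 10) (i _ _)
      (intervalIntegrable_const (c := 4 * p.1)) fun t _ => (l1g_bd S h0 hp t).2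
    have h2 := k (3 / 10) ⟨le_rfl, by linarith [pi_gt_three]⟩
    simp only [integral_const, smul_eq_mul, prim] at h1 h2 ⊢
    linarith

theorem l1_r (S : Sh) {a : ℝ} (ha : 0 < a) (ha1 : a ≤ 1) {e l : ℝ → ℝ} (he : L1B π (a ^ 2) e)
    (hl : L1B (11 / 40) (1 / 40) l) : ∃ r : Pm → ℝ, ContDiffOn ℝ ∞ r (l1U a) ∧ ∀ p ∈ l1U a,
      r p ∈ Ioo 0 1 ∧ ∫ t in (0 : ℝ)..π, cos (l1a S e l ((p, r p), t)) =
        π * (1 - 16 * p.1 ^ 2 * p.2.1) := by
  have hp := pi_gt_three
  have hp' := pi_lt_d2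
  have a2 : a ^ 2 ≤ 1 := pow_le_one₀ ha.le ha1
  have sa : ContDiff ℝ ∞ (l1a S e l) :=
    ((l1p_sm S).comp (f := fun y : (Pm × ℝ) × ℝ => (y.1.1, y.2)) (by fun_prop)).add
      (((l1l_sm S).comp (by fun_prop)).mul ((ContDiff.mul (by fun_prop)
        (he.P_sm.comp contDiff_snd)).add (ContDiff.mul (by fun_prop) (hl.P_sm.comp contDiff_snd))))
  have sG : ContDiff ℝ ∞ fun y => cos (l1a S e l y) := sa.cos
  have h1 := contDiffOn_univ.1 (PI_contDiffOn isOpen_univ sG.contDiffOn 0 π)
  have c1 : ∀ y, Continuous fun t => l1a S e l (y, t) := fun y =>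
    sa.continuous.comp (.prodMk_right y)
  have i1 : ∀ y a b, IntervalIntegrable (fun t => cos (l1a S e l (y, t))) MeasureTheory.volume a b :=
    fun y a b => (continuous_cos.comp (c1 y)).intervalIntegrable _ _
  have dG : ∀ p r t, fderiv ℝ (fun y => cos (l1a S e l y)) ((p, r), t) ((0, 1), 0) =
      -(sin (l1a S e l ((p, r), t)) * (l1l S p * (l1P l t - l1P e t))) := by
    intro p r t
    refine HasDerivAt.unique ((sG.differentiable (by simp) _).hasFDerivAt.hasLineDerivAt _) ?_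
    have h2 := (((hasDerivAt_id (0 : ℝ)).mul_const (l1l S p * (l1P l t - l1P e t))).const_add
      (l1a S e l ((p, r), t))).cos
    refine (h2.congr_deriv (by simp)).congr_of_eventuallyEq (Eventually.of_forall fun x => ?_)
    simp only [l1a, id, Prod.smul_mk, smul_zero, smul_eq_mul, mul_one, mul_zero, Prod.mk_add_mk,
      add_zero]
    congr 1; ring
  obtain ⟨r, h2, h3⟩ := MIF (l1U_op a) (Φ := fun y => π * (1 - 16 * y.1.1 ^ 2 * y.1.2.1) -
    ∫ t in (0 : ℝ)..π, cos (l1a S e l (y, t))) (ContDiff.sub (by fun_prop) h1).contDiffOn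
    (r0 := 0) (r1 := 1) one_pos (fun p hU r hr => by
      obtain ⟨m, m0, m1, -⟩ := l1p_bd S (ha.trans hU.1) hU.2
      have l0 : 0 < l1l S p := by rw [l1l]; linarith [(abs_lt.1 hU.2.1).2]
      rw [(dθ_hasDerivAt ((ContDiff.sub (by fun_prop) h1).differentiable (by simp) (p, r))).unique
        ((dθ_hasDerivAt (h1.differentiable (by simp) (p, r))).const_sub
          (π * (1 - 16 * p.1 ^ 2 * p.2.1))), dθ, PI_fderiv isOpen_univ sG.contDiffOn _ _ (mem_univ _)]
      simp only [dG, integral_neg, neg_neg]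
      have b : ∀ t ∈ Icc 0 π, prim (l1g S) (p, t) ≤ l1a S e l ((p, r), t) ∧
          l1a S e l ((p, r), t) ≤ π - (prim (l1g S) (p, π) - prim (l1g S) (p, t)) := by
        intro t ht
        obtain ⟨e0, e1, -⟩ := he.P_bd ht
        obtain ⟨f0, f1, -⟩ := hl.P_bd ht
        have b1 : 0 ≤ (1 - r) * l1P e t + r * l1P l t := by nlinarith [hr.1, hr.2]
        have b2 : (1 - r) * l1P e t + r * l1P l t ≤ 1 / 2 := by nlinarith [hr.1, hr.2]
        have b3 := mul_le_mul_of_nonneg_left b2 l0.le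
        rw [l1a]
        exact ⟨le_add_of_nonneg_right (mul_nonneg l0.le b1), by rw [l1l] at b3 ⊢; linarith⟩
      refine integral_pos (by linarith) (Continuous.continuousOn ?_) (fun t ht => ?_)
        ⟨1, ⟨by linarith, by linarith⟩, ?_⟩
      · have := c1 (p, r)
        have := he.P_sm.continuous
        have := hl.P_sm.continuous
        fun_prop
      · have ht' := Ioc_subset_Icc_self ht
        refine mul_nonneg (sin_nonneg_of_nonneg_of_le_pi ?_ ?_) (mul_nonneg l0.le ?_)
        · linarith [(b t ht').1, m.monotone ht'.1]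
        · linarith [(b t ht').2, m.monotone ht'.2]
        · rcases le_total t 1 with h | h
          · linarith [(he.P_bd ht').2.2.1 (by linarith), (hl.P_bd ht').1]
          · linarith [(hl.P_bd ht').2.2.2 (by linarith), (he.P_bd ht').2.1]
      · have ht : (1 : ℝ) ∈ Icc 0 π := ⟨by linarith, by linarith⟩
        refine mul_pos (sin_pos_of_pos_of_lt_pi ?_ ?_) (mul_pos l0 ?_)
        · linarith [(b 1 ht).1, m one_pos]
        · linarith [(b 1 ht).2, m (show 1 < π by linarith)]
        · linarith [(he.P_bd ht).2.2.1 (by linarith), (hl.P_bd ht).2.2.2 (by linarith)])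
    (fun p hU => by
      obtain ⟨m, m0, m1, -⟩ := l1p_bd S (ha.trans hU.1) hU.2
      have b1 := integral_mono_on (by linarith : 0 ≤ π - a ^ 2)
        (intervalIntegrable_const (c := 1 - 9 / 8 * p.1 ^ 2)) (i1 (p, 0) _ _) fun t ht => by
          have ht' : t ∈ Icc 0 π := ⟨ht.1, by linarith [ht.2, sq_nonneg a]⟩
          refine le_trans ?_ one_sub_sq_div_two_le_cos
          simp only [l1a, (he.P_bd ht').2.2.1 ht.2, mul_zero, zero_mul, add_zero]
          nlinarith [m.monotone ht'.1, m.monotone ht'.2]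
      have b2 := integral_mono_on (by linarith [sq_nonneg a] : π - a ^ 2 ≤ π)
        (intervalIntegrable_const (c := (-1 : ℝ))) (i1 (p, 0) _ _) fun t _ => neg_one_le_cos _
      have b3 := integral_add_adjacent_intervals (i1 (p, 0) 0 (π - a ^ 2)) (i1 (p, 0) _ π)
      have b4 : a ^ 2 < p.1 ^ 2 := pow_lt_pow_left₀ hU.1 ha.le two_ne_zero
      have b5 := mul_le_mul_of_nonneg_left hU.2.2.1.le (sq_nonneg p.1)
      simp only [integral_const, smul_eq_mul] at b1 b2
      nlinarith [sq_nonneg a, mul_nonneg (sq_nonneg a) (sq_nonneg p.1)])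
    fun p hU => by
      obtain ⟨m, m0, m1, m2⟩ := l1p_bd S (ha.trans hU.1) hU.2
      have t1 := abs_lt.1 hU.2.1
      have b1 := integral_mono_on (by linarith : 3 / 10 ≤ π) (i1 (p, 1) _ _)
        (intervalIntegrable_const (c := (-(9 / 10) : ℝ))) fun t ht => by
          have ht' : t ∈ Icc 0 π := ⟨by linarith [ht.1], ht.2⟩
          have e1 : l1a S e l ((p, 1), t) = π - (prim (l1g S) (p, π) - prim (l1g S) (p, t)) := by
            simp only [l1a, l1l, (hl.P_bd ht').2.2.2 (by linarith [ht.1])]; ring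
          have e2 := one_sub_sq_div_two_le_cos (x := prim (l1g S) (p, π) - prim (l1g S) (p, t))
          rw [e1, cos_pi_sub]
          nlinarith [m.monotone ht'.2, m2 t ht]
      have b2 := integral_mono_on (by norm_num : (0 : ℝ) ≤ 3 / 10) (i1 (p, 1) _ _)
        (intervalIntegrable_const (c := (1 : ℝ))) fun t _ => cos_le_one _
      have b3 := integral_add_adjacent_intervals (i1 (p, 1) 0 (3 / 10)) (i1 (p, 1) _ π)
      have b4 : p.1 ^ 2 ≤ 7 / 100 := by nlinarith
      have b5 := mul_le_mul b4 hU.2.2.2.1.le (by linarith [hU.2.2.1]) (by norm_num)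
      simp only [integral_const, smul_eq_mul] at b1 b2
      nlinarith
  exact ⟨r, h2, fun p hp => ⟨(h3 p hp).1, (sub_eq_zero.1 (h3 p hp).2).symm⟩⟩

/-! L1: winding loops. -/
theorem exists_L1 (S : Sh) {tlo : ℝ} (h : 0 < tlo) :
    ∃ L : LpC S tlo, ∀ z : Pm × ℝ, z.1 ∈ L.U → 0 < L.β z := by
  have hp := pi_gt_three
  obtain ⟨a, ha, ha1, ha2⟩ : ∃ a : ℝ, 0 < a ∧ a ≤ 1 ∧ a < tlo :=
    ⟨min 1 (tlo / 2), by positivity, min_le_left _ _, (min_le_right _ _).trans_lt (by linarith)⟩
  have a2 : a ^ 2 ≤ 1 := pow_le_one₀ ha.le ha1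
  obtain ⟨e, he⟩ := l1_bump (c := π) (ρ := a ^ 2) (by positivity) (by linarith) le_rfl a2
  obtain ⟨l, hl⟩ := l1_bump (c := 11 / 40) (ρ := 1 / 40) (by norm_num) (by norm_num) (by linarith)
    (by norm_num)
  obtain ⟨r, hr, hm⟩ := l1_r S ha ha1 he hl
  have op := l1U_op a
  have f0 : ∀ p t, 3 ≤ |t| → l1f S (p, t) = 0 := fun p t h => by
    simp [l1f, l0c0 (t := t) (by linarith)]
  set β : Pm × ℝ → ℝ := fun z => l1g S (z.1, md z.2) +
    l1l S z.1 * ((1 - r z.1) * e z.2 + r z.1 * l z.2) with hβ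
  have sr : ContDiffOn ℝ ∞ (fun z : Pm × ℝ => r z.1) (l1U a ×ˢ univ) :=
    hr.comp contDiffOn_fst fun _ h => h.1
  have sβ : SP (l1U a) β := ⟨(ContDiffOn.add (by fun_prop)
    (periodize op (l1f_sm S).contDiffOn fun p _ => f0 p).sm).add
    (((l1l_sm S).comp contDiff_fst).contDiffOn.mul (((contDiffOn_const.sub sr).mul
      (he.sm.comp contDiff_snd).contDiffOn).add (sr.mul (hl.sm.comp contDiff_snd).contDiffOn))),
    fun p _ t => by simp only [hβ, md_per, he.per, hl.per]⟩
  have β0 : ∀ z : Pm × ℝ, z.1 ∈ l1U a → 0 < β z := fun z hz => by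
    obtain ⟨-, -, m1, -⟩ := l1p_bd S (ha.trans hz.1) hz.2
    have l0 : 0 ≤ l1l S z.1 := by rw [l1l]; linarith [(abs_lt.1 hz.2.1).2]
    have := (hm _ hz).1
    exact add_pos_of_pos_of_nonneg (l1g_bd S (ha.trans hz.1) hz.2 _).1 (mul_nonneg l0
      (add_nonneg (mul_nonneg (by linarith [this.2]) (he.nn _)) (mul_nonneg this.1.le (hl.nn _))))
  have ev : ∀ p t, β (p, -t) = β (p, t) := fun p t => by
    simp only [hβ, l1g, he.ev, hl.ev,
      periodize_even (f := fun t => l1f S (p, t)) (f0 p) (l1f_ev S p) t]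
  have β1 : ∀ p t, |t| ≤ π → β (p, t) =
      l1g S (p, t) + l1l S p * ((1 - r p) * e t + r p * l t) := fun p t h => by
    have := md_alt (g := fun t => l1f S (p, t)) (f0 p) (t := t) 0 (by simpa using by linarith)
    simp only [Int.cast_zero, mul_zero, sub_zero] at this
    simp only [hβ, l1g, this]
  have α1 : ∀ p, ∀ t ∈ Icc 0 π, prim β (p, t) = l1a S e l ((p, r p), t) := fun p t ht => by
    have c : Continuous fun t => l1g S (p, t) := (l1g_sm S).continuous.comp (.prodMk_right p)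
    have := he.sm.continuous
    have := hl.sm.continuous
    simp only [prim, l1a, l1P]
    rw [integral_congr (g := fun t => l1g S (p, t) + l1l S p * ((1 - r p) * e t + r p * l t))
      fun s hs => β1 p s (by
        rw [uIcc_of_le ht.1] at hs; exact abs_le.2 ⟨by linarith [hs.1], hs.2.trans ht.2⟩),
      integral_add (c.intervalIntegrable _ _) (Continuous.intervalIntegrable (by fun_prop) _ _),
      integral_const_mul, integral_add (Continuous.intervalIntegrable (by fun_prop) _ _)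
      (Continuous.intervalIntegrable (by fun_prop) _ _), integral_const_mul, integral_const_mul]
  have cβ : ∀ p ∈ l1U a, Continuous fun t => β (p, t) := fun p h =>
    continuous_iff_continuousAt.2 fun t => (sβ.hasDerivAt op (z := (p, t)) h).continuousAt
  have αp : ∀ p ∈ l1U a, ∀ t, prim β (p, t + 2 * π) = prim β (p, t) + 2 * π := fun p h t => by
    have h1 : Function.Periodic (fun t => β (p, t)) (2 * π) := sβ.per p h
    have h2 := α1 p π ⟨by linarith, le_rfl⟩
    simp only [prim, l1a, l1P, he.int, hl.int, l1l] at h2 ⊢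
    rw [← integral_add_adjacent_intervals ((cβ p h).intervalIntegrable 0 t)
      ((cβ p h).intervalIntegrable t _), h1.intervalIntegral_add_eq t (-π),
      show -π + 2 * π = π by ring, l1_even (cβ p h) (ev p), h2]
    ring
  have sα := prim_contDiffOn op sβ.sm
  have dα : ∀ z : Pm × ℝ, z.1 ∈ l1U a → HasDerivAt (fun t => prim β (z.1, t)) (β z) z.2 :=
    fun z hz => ((cβ _ hz).integral_hasStrictDerivAt 0 z.2).hasDerivAt
  have scs : SP (l1U a) fun z => cos (prim β z) :=
    ⟨sα.cos, fun p h t => by simp only [αp p h, cos_add_two_pi]⟩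
  have ssn : SP (l1U a) fun z => sin (prim β z) :=
    ⟨sα.sin, fun p h t => by simp only [αp p h, sin_add_two_pi]⟩
  have t0 : ∀ z : Pm × ℝ, z.1 ∈ l1U a → z.1.1 ≠ 0 := fun z hz => (ha.trans hz.1).ne'
  have z1 : ∀ t, 3 ≤ |t| ∨ |t| < 1 / 100 → S.b0 t = 0 := fun t h => by_contra fun e => by
    have := S.m0 t e
    rw [abs_of_nonneg (by linarith [this.1])] at h
    rcases h with h | h <;> linarith [this.1, this.2]
  have s1 : SP (l1U a) fun z => S.b0 (md z.2) := periodize op (f := fun z => S.b0 z.2)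
    (S.sb0.comp contDiff_snd).contDiffOn fun _ _ t h => z1 t (Or.inl h)
  have od : ∀ p t, prim β (p, -t) = -prim β (p, t) := fun p => prim_odd (ev p)
  have zo : ∀ p ∈ l1U a, ∀ t, |t| ≤ 1 / 4 → prim β (p, t) = 2 * arctan (S.q (p, t)) := by
    intro p h t ht
    have h0 : S.bk p.2.2 0 = 0 := by have := S.bk_odd p.2.2 0; rw [neg_zero] at this; linarith
    simp only [prim]
    rw [integral_eq_sub_of_hasDerivAt (f := fun t => 2 * arctan (S.q (p, t))) (fun s hs => ?_)
      ((cβ p h).intervalIntegrable _ _)]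
    · simp [Sh.q, h0]
    · have h1 : |s| ≤ 1 / 4 := (abs_sub_left_of_mem_uIcc hs).trans' (by simp) |>.trans
        (by simpa using ht)
      have k : ∀ {c ρ f}, L1B c ρ f → 1 / 4 ≤ c - ρ → f s = 0 := fun {c ρ f} hf h2 => by
        have : f |s| = 0 := by_contra fun hn => by
          linarith [abs_lt.1 (hf.supp _ ⟨abs_nonneg s, by linarith⟩ hn)]
        rcases abs_choice s with e | e <;> simpa [e, hf.ev] using this
      refine ((((S.bk_hasDerivAt p.2.2 s).const_mul p.1).arctan).const_mul 2).congr_deriv ?_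
      simp only [β1 p s (by linarith), k he (by linarith), k hl (by norm_num), l1g, l1f, l0c1 h1,
        l1z, Sh.q, Sh.D]
      ring
  refine ⟨{
    U := l1U a
    op := op
    sub p h := ⟨ha2.trans_le h.1.1, abs_lt.2 ⟨by linarith [h.1.1], by linarith [h.1.2]⟩,
      by linarith [h.2.1.1], by linarith [h.2.1.2],
      lt_of_le_of_lt (mem_closedBall_zero_iff.1 h.2.2) (by norm_num)⟩
    kb p h := h.2.2.2.2
    cs z := cos (prim β z)
    sn z := sin (prim β z)
    cs1 z := (cos (prim β z) - 1) / z.1.1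
    sn1 z := sin (prim β z) / z.1.1
    β := β
    b z := S.b0 (md z.2)
    B0 _ := 0
    B1 z := S.b0 (md z.2) / β z
    scs := scs
    ssn := ssn
    scs1 := ⟨(scs.sm.sub contDiffOn_const).div (by fun_prop) fun z hz => t0 z hz.1,
      fun p h t => by simp only [αp p h, cos_add_two_pi]⟩
    ssn1 := ⟨ssn.sm.div (by fun_prop) fun z hz => t0 z hz.1,
      fun p h t => by simp only [αp p h, sin_add_two_pi]⟩
    sβ := sβ
    sb := s1
    sB0 := ⟨contDiffOn_const, fun _ _ _ => rfl⟩
    sB1 := ⟨s1.sm.div sβ.sm fun z hz => (β0 z hz.1).ne',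
      fun p h t => by simp only [md_per, sβ.per p h t]⟩
    hcs z hz := by field_simp [t0 z hz]; ring
    hsn z hz := by field_simp [t0 z hz]
    unit z _ := cos_sq_add_sin_sq _
    dcs z hz := ((scs.hasDerivAt op hz).unique (dα z hz).cos).trans (by ring)
    dsn z hz := ((ssn.hasDerivAt op hz).unique (dα z hz).sin).trans (by ring)
    hB z hz := by field_simp [(β0 z hz).ne']; ring
    totb p _ := (la_tot_md _).trans S.i0
    totB0 p _ := by simp [tot]
    ev p _ t := by simp only [od, cos_neg]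
    od p _ t := by simp only [od, sin_neg]
    mean p h := ?_
    zone p h t ht := ?_
    germ p _ t h := by simp [md_eq (h.trans (by linarith)), z1 t (Or.inr h)] }, β0⟩
  · rw [tot, l1_even (f := fun t => cos (prim β (p, t))) (continuous_iff_continuousAt.2 fun t =>
      (scs.hasDerivAt op (z := (p, t)) h).continuousAt) (fun t => by simp only [od, cos_neg]),
      integral_congr (g := fun t => cos (l1a S e l ((p, r p), t))) fun t ht => by
        rw [uIcc_of_le (by linarith)] at ht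
        simp only [α1 p t ht], (hm p h).2]
    ring
  · simp only [zo p h t ht, Sh.q]
    generalize p.1 * S.bk p.2.2 t = x
    have h1 : 0 < 1 + x ^ 2 := by positivity
    have h2 := sqrt_pos.2 h1
    rw [cos_two_mul, cos_sq_arctan, sin_two_mul, sin_arctan, cos_arctan]
    refine ⟨by field_simp; ring, ?_⟩
    field_simp
    rw [sq_sqrt h1.le]

end Vale.Agent.P205
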