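import Vale.Agent.P205.A1
import Vale.Agent.P205.A2
import Vale.Agent.P205.A3
import Vale.Agent.P205.A4
import Vale.Agent.P205.A5
import Vale.Agent.P205.B1
import Vale.Agent.P205.B3
import Vale.Agent.P205.B4
import Vale.Agent.P205.B5
import Vale.Agent.P205.B6
import Vale.Agent.P205.L0
import Vale.Agent.P205.L1
import Vale.Agent.P205.L2

open Set Filter Topology
open scoped ContDiff

noncomputable section
namespace Vale.Agent.P205

/-! CORE: the twist on the cylinder. -/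

section
variable {ι : Type*} {A A' : Fam ι E} {D : ι → TD0} {R : ι → Fr}

theorem TD0.Hyp.anti (h : TD0.Hyp A D) (hτ : A'.τ = A.τ) (hO : ∀ i, A'.O i ⊆ A.O i) :
    TD0.Hyp A' D where
  eps := h.eps
  sig := h.sig
  s1 := h.s1
  η0pos := h.η0pos
  epsη i x hx := h.epsη i x (hO i hx)
  η0le i x hx := h.η0le i x (hO i hx)
  ηs i x hx := h.ηs i x (hO i hx)
  apos i x hx := h.apos i x (hO i hx)
  ale := h.ale.anti hτ hO
  aη := h.aη.anti hτ hO
  tC1 := h.tC1.anti hτ hO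
  tC2 := h.tC2.anti hτ hO
  lC2 := h.lC2.anti hτ hO
  sF1 := h.sF1.anti hτ hO
  sF2 := h.sF2.anti hτ hO
  sF22 := h.sF22.anti hτ hO
  comm i x hx := h.comm i x (hO i hx)
  low := h.low.anti hτ hO
  ta := h.ta.anti hτ hO
  tda := h.tda.anti hτ hO
  tζ := h.tζ.anti hτ hO

theorem Fr.Hyp.anti (h : Fr.Hyp A D R) (hτ : A'.τ = A.τ) (hO : ∀ i, A'.O i ⊆ A.O i) :
    Fr.Hyp A' D R where
  se1 := h.se1.anti hτ hO
  se2 := h.se2.anti hτ hO
  sf2 := h.sf2.anti hτ hO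
  sfn := h.sfn.anti hτ hO
  sT0 := h.sT0.anti hτ hO
  sρ0 := h.sρ0.anti hτ hO
  low := h.low.anti hτ hO
  on i x hx := h.on i x (hO i hx)
  o1 i x hx := h.o1 i x (hO i hx)
  o2 i x hx := h.o2 i x (hO i hx)
  dual i x hx := h.dual i x (hO i hx)
  hF1 i x hx := h.hF1 i x (hO i hx)
  hT0 i x hx := h.hT0 i x (hO i hx)

theorem Out.anti {N : ℕ} {U : ι → Y → V} (h : Out A D N U) (hτ : A'.τ = A.τ)
    (hO : ∀ i, A'.O i ⊆ A.O i) : Out A' D N U where
  tm := TmC.anti h.tm hτ hO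
  per i x hx := h.per i x (hO i hx)
  e11 := TmC.anti h.e11 hτ hO
  e12 := TmC.anti h.e12 hτ hO
  e22 := TmC.anti h.e22 hτ hO

theorem core_cc (A : Fam ι E) (i : ι) {C C' : ℝ} {c c' : ℕ} (h0 : 0 < C) (hC : C ≤ C') (hc : c ≤ c') :
    C * A.τ i ^ c ≤ C' * A.τ i ^ c' :=
  mul_le_mul hC (t1_pow_le A i hc) (t1_pow_pos A i c).le (h0.le.trans hC)

theorem GeoC.anti {U : ι → Y → V} {C C' : ℝ} {c c' : ℕ} (h : GeoC A D U C c) (hD : TD0.Hyp A D)
    (hτ : A'.τ = A.τ) (hO : ∀ i, A'.O i ⊆ A.O i) (h0 : 0 < C) (hC : C ≤ C') (hc : c ≤ c') :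
    GeoC A' D U C' c' := by
  intro i y hy
  obtain ⟨h1, h2, h3, h4⟩ := h i y (hO i hy)
  have e := core_cc A i h0 hC hc
  rw [hτ]
  refine ⟨h1.trans (mul_le_mul_of_nonneg_right e (np_nonneg _ _ _)), h2.trans e,
    h3.trans (mul_le_mul_of_nonneg_right e ?_), h4.trans (mul_le_mul_of_nonneg_right e (by positivity))⟩
  have := hD.sig i
  have := hD.η0pos i
  positivity

theorem WindC.anti {U : ι → Y → V} {C C' : ℝ} {c c' : ℕ} (h : WindC A D U C c)
    (hτ : A'.τ = A.τ) (hO : ∀ i, A'.O i ⊆ A.O i) (h0 : 0 < C) (hC : C ≤ C') (hc : c ≤ c') :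
    WindC A' D U C' c' := by
  intro i y hy
  have e := core_cc A i h0 hC hc
  rw [hτ]
  exact (h i y (hO i hy)).trans (mul_le_mul_of_nonneg_right e (np_nonneg _ _ _))

theorem core_good (A : Fam ι E) (i : ι) {C C' s : ℝ} {c c' : ℕ} (hC : |C| ≤ C') (hc : c ≤ c')
    (h : C' * A.τ i ^ c' ≤ s) : C * A.τ i ^ c ≤ s := by
  refine le_trans ?_ h
  calc C * A.τ i ^ c ≤ |C| * A.τ i ^ c :=
        mul_le_mul_of_nonneg_right (le_abs_self C) (t1_pow_pos A i c).le
    _ ≤ C' * A.τ i ^ c' :=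
        mul_le_mul hC (t1_pow_le A i hc) (t1_pow_pos A i c).le ((abs_nonneg C).trans hC)

theorem core_iter {D : ι → TD1} {σ : ι → ℝ} {η a : ι → E → ℝ} (H : Hyp A D σ η a) (n : ℕ) :
    Inv A D σ η a (n + 1) (fun i => (D i).it n) ∧
      CorS A η a (n + 1) (fun i => (D i).Wc ((D i).it n)) := by
  have b := H.toHyp0.base
  have key : ∀ {k U}, Inv A D σ η a k U → CorS A η a k (fun i => (D i).Wc (U i)) := by
    intro k U I
    have J := H.ingr b I
    refine ⟨J.sWp.tW.add J.sWh.tW, fun i x hx t => ?_, ?_⟩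
    · simp only [TD1.Wc]
      rw [J.sWp.per i x hx t, J.sWh.per i x hx t]
    · refine (J.sWp.totW.add J.sWh.totW).congr fun i x hx => ?_
      exact tot_add (J.sWp.tW.sm i).continuousOn (J.sWh.tW.sm i).continuousOn hx
  induction n with
  | zero => exact ⟨H.inv1, key H.inv1⟩
  | succ n ih =>
    have I : Inv A D σ η a (n + 1 + 1) (fun i => (D i).it (n + 1)) := by
      have := H.toHyp0.invStep b (by omega) ih.1 ih.2 (H.corI b ih.1 (H.ingr b ih.1))
      convert this using 2 with i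
      simp only [TD1.it]
      rw [Function.iterate_succ_apply']
      rfl
    exact ⟨I, key I⟩

theorem core_rem {D : ι → TD1} {σ : ι → ℝ} {η a : ι → E → ℝ} (H : Hyp A D σ η a) (n : ℕ) :
    TmC A (fun i x => a i x * η i x ^ 2)
      (fun i y => (D i).it (n + 1) y - (D i).U0 y - (D i).Wc (D i).U0 y) := by
  have hη : ∀ i, ∀ x ∈ A.O i, 0 ≤ η i x := fun i x hx => by
    have h1 := H.epsη i x hx
    have h2 := H.eps i
    exact le_trans (by positivity) h1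
  induction n with
  | zero =>
    refine (Tm.zero (W := V) (fun i y hy => ?_)).congr fun i y hy => ?_
    · have := H.apos i y.1 hy.1
      simp only [up]
      positivity
    · simp [TD1.it, TD1.step]
  | succ n ih =>
    have S := (core_iter H (n + 1)).2.tW
    have S' : TmC A (fun i x => a i x * η i x ^ 2) (fun i => (D i).Wc ((D i).it (n + 1))) := by
      refine TmC.mono_le S fun i x hx => ?_
      exact mul_le_mul_of_nonneg_left
        (pow_le_pow_of_le_one (hη i x hx) (H.η1 i x hx) (by omega)) (H.apos i x hx).le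
    refine (Tm.add ih S').congr fun i y hy => ?_
    have : (D i).it (n + 1 + 1) = (D i).step ((D i).it (n + 1)) := by
      simp only [TD1.it]
      rw [Function.iterate_succ_apply']
    rw [this]
    simp only [TD1.step]
    abel

variable {S : Sh} {tlo : ℝ} (L : LpC S tlo) (X : LpX L) (w : Om)

theorem core_out (h : TD0.Hyp A D) (hR : Fr.Hyp A D R)
    (H : Hyp A (fun i => mk1 L X w (D i) (R i)) (fun i => (D i).σ) (fun i => (D i).η)
      (fun i => (D i).a)) (N : ℕ) :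
    Out A D N (fun i => (mk1 L X w (D i) (R i)).it (N + 1)) := by
  have I := (core_iter H (N + 1)).1
  have b := H.toHyp0.base
  have hη : ∀ i, ∀ x ∈ A.O i, 0 ≤ (D i).η x := fun i x hx =>
    (h.η0pos i).le.trans (h.η0le i x hx)
  have hp : ∀ i, ∀ x ∈ A.O i, (D i).η x ^ (N + 1 + 1) ≤ (D i).η x ^ N := fun i x hx =>
    pow_le_pow_of_le_one (hη i x hx) (H.η1 i x hx) (by omega)
  obtain ⟨-, -, -, -, -, -, hρ⟩ := rho_facts h hR
  refine ⟨?_, I.per, ?_, ?_, ?_⟩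
  · have h1 : TmC A (fun i => (D i).a)
        (fun i y => (mk1 L X w (D i) (R i)).it (N + 1) y - (mk1 L X w (D i) (R i)).U0 y) := by
      refine TmC.mono_le I.tV fun i x hx => ?_
      have := h.apos i x hx
      have := H.η1 i x hx
      nlinarith
    refine (Tm.add h1 b.tU0).congr fun i y hy => ?_
    simp
  · refine Tm.congr (TmC.mono_le I.e11 fun i x hx =>
      mul_le_mul_of_nonneg_left (hp i x hx) (h.apos i x hx).le) fun i y hy => ?_
    have hy' : y.1 ∈ A.O i := hy.1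
    have e1 := hR.hF1 i y.1 hy'
    have e2 := (hR.on i y.1 hy').1
    have e3 := (hR.o1 i y.1 hy').2.2.2.2
    have e4 := (hρ i y.1 hy').2.2.2
    have e5 : (D i).F1 y.1 ⬝ᵥ (D i).F1 y.1 = (R i).T0 y.1 ⬝ᵥ (R i).T0 y.1 + (R i).ρ0 y.1 ^ 2 := by
      rw [e1]
      simp only [add_dotProduct, dotProduct_add, smul_dotProduct, dotProduct_smul, smul_eq_mul]
      rw [dotProduct_comm ((R i).T0 y.1) ((R i).e1 y.1), e2, e3]
      ring
    show _ = (D i).A1 _ y ⬝ᵥ (D i).A1 _ y - ((R i).T0 y.1 ⬝ᵥ (R i).T0 y.1 + rho (D i) (R i) y.1 ^ 2)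
    rw [e4, e5]
    ring
  · refine Tm.congr (TmC.mono_le I.e12 fun i x hx => ?_) fun i y hy => rfl
    have h1 := h.sig i
    have h2 := h.apos i x hx
    have h3 := hη i x hx
    calc (D i).a x * (D i).η x ^ (N + 1 + 1) / (D i).σ ≤ (D i).a x * (D i).η x ^ (N + 1 + 1) :=
          div_le_self (by positivity) h1
      _ ≤ _ := mul_le_mul_of_nonneg_left (hp i x hx) h2.le
  · refine Tm.congr (TmC.mono I.e22 ?_ fun i x hx => ?_) fun i y hy => rfl
    · have h1 : A.Le (fun i x => (D i).a x * ((D i).a x * (D i).η x ^ N))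
          (fun i x => 1 * ((D i).a x * (D i).η x ^ N)) :=
        h.ale.mul_right fun i x hx => by
          have := h.apos i x hx
          have := hη i x hx
          positivity
      refine Fam.Le.trans (Fam.Le.of_le (fun i x hx => ?_) fun i x hx => ?_)
        (h1.congr (fun _ _ _ => rfl) fun _ _ _ => by ring)
      · have h2 := h.apos i x hx
        have h3 := hη i x hx
        have h4 : (D i).ε ≤ 1 := by
          have a1 := H.epsη i x hx
          have a2 := H.η1 i x hx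
          have a3 := h.sig i
          have a4 := h.eps i
          have a5 : (D i).ε * 1 ≤ (D i).ε * (D i).σ ^ 2 :=
            mul_le_mul_of_nonneg_left (one_le_pow₀ a3) a4.le
          have a6 : (D i).ε * (D i).σ ^ 2 ≤ (D i).η x := a1
          have a7 : (D i).η x ≤ 1 := a2
          linarith
        have h5 := h.eps i
        show (D i).ε * (D i).a x ^ 2 * (D i).η x ^ (N + 1 + 1) ≤ _
        calc (D i).ε * (D i).a x ^ 2 * (D i).η x ^ (N + 1 + 1)
            ≤ 1 * (D i).a x ^ 2 * (D i).η x ^ N := by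
              exact mul_le_mul (mul_le_mul_of_nonneg_right h4 (by positivity)) (hp i x hx)
                (by positivity) (by positivity)
          _ = _ := by ring
      · have := h.apos i x hx
        have := hη i x hx
        positivity
    · have := h.apos i x hx
      have := hη i x hx
      positivity

theorem core_one (h : TD0.Hyp A D) (hR : Fr.Hyp A D R)
    (ht : ∀ i, ∀ x ∈ A.O i, tlo ≤ tt (D i) (R i) x) :
    ∃ (C : ℝ) (c : ℕ), 0 < C ∧ ∀ N : ℕ, ∃ (C0 : ℝ) (c1 : ℕ),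
      Out (A.cut (fun i => C0 * A.τ i ^ c1 ≤ (D i).s)) D N
        (fun i => (mk1 L X w (D i) (R i)).it (N + 1)) ∧
      GeoC (A.cut (fun i => C0 * A.τ i ^ c1 ≤ (D i).s)) D
        (fun i => (mk1 L X w (D i) (R i)).it (N + 1)) C c ∧
      ((∀ z : Pm × ℝ, z.1 ∈ L.U → 0 < L.β z) →
        WindC (A.cut (fun i => C0 * A.τ i ^ c1 ≤ (D i).s)) D
          (fun i => (mk1 L X w (D i) (R i)).it (N + 1)) C c) := by
  obtain ⟨Cl, cl, hlam⟩ := mk1_lam L X w h hR ht
  set A1 := A.cut (fun i => Cl * A.τ i ^ cl ≤ (D i).s) with hA1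
  have hO : ∀ i, A1.O i ⊆ A.O i := fun i x hx => hx.1
  have h' : TD0.Hyp A1 D := h.anti rfl hO
  have hR' : Fr.Hyp A1 D R := hR.anti rfl hO
  have ht' : ∀ i, ∀ x ∈ A1.O i, tlo ≤ tt (D i) (R i) x := fun i x hx => ht i x (hO i hx)
  have H : Hyp A1 (fun i => mk1 L X w (D i) (R i)) (fun i => (D i).σ) (fun i => (D i).η)
      (fun i => (D i).a) :=
    { mk1_hyp0 L X w h' hR' ht' with lam := hlam, h0 := mk1_h0 L X w h' hR' ht' }
  have hW : TmC A1 (fun i x => (D i).a x * (D i).η x)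
      (fun i => (mk1 L X w (D i) (R i)).Wc (mk1 L X w (D i) (R i)).U0) :=
    TmC.mono_le (core_iter H 0).2.tW fun i x hx => by simp
  obtain ⟨Cg, cg, hCg, hg⟩ := mk1_geo L X w h' hR' ht' hW
  have hwd : ∃ (C : ℝ) (c : ℕ), 0 < C ∧ ∀ N : ℕ, ∃ (C0 : ℝ) (c0 : ℕ),
      (∀ z : Pm × ℝ, z.1 ∈ L.U → 0 < L.β z) →
        WindC (A1.cut (fun i => C0 * A1.τ i ^ c0 ≤ (D i).s)) D
          (fun i => (mk1 L X w (D i) (R i)).it (N + 1)) C c := by
    by_cases hβ : ∀ z : Pm × ℝ, z.1 ∈ L.U → 0 < L.β z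
    · obtain ⟨C, c, hC, hw⟩ := mk1_wind L X w h' hR' ht' hβ
      refine ⟨C, c, hC, fun N => ?_⟩
      obtain ⟨C0, c0, hh⟩ := hw _ (core_iter H (N + 1)).1.tV
      exact ⟨C0, c0, fun _ => hh⟩
    · exact ⟨1, 0, one_pos, fun N => ⟨0, 0, fun hh => absurd hh hβ⟩⟩
  obtain ⟨Cw, cw, hCw, hw⟩ := hwd
  refine ⟨Cg + Cw, cg + cw, by positivity, fun N => ?_⟩
  obtain ⟨Ca, ca, ha⟩ := hg _ (core_rem H N)
  obtain ⟨Cb, cb, hb⟩ := hw N
  have p1 := abs_nonneg Cl
  have p2 := abs_nonneg Ca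
  have p3 := abs_nonneg Cb
  refine ⟨|Cl| + |Ca| + |Cb|, cl + ca + cb, ?_, ?_, fun hβ => ?_⟩
  · exact (core_out L X w h' hR' H N).anti rfl fun i x hx =>
      ⟨hx.1, core_good A i (by linarith) (by omega) hx.2⟩
  · exact ha.anti (h'.anti rfl fun i x hx => hx.1) rfl (fun i x hx =>
      ⟨⟨hx.1, core_good A i (by linarith) (by omega) hx.2⟩,
        core_good A i (by linarith) (by omega) hx.2⟩) hCg (by linarith) (by omega)
  · exact (hb hβ).anti rfl (fun i x hx =>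
      ⟨⟨hx.1, core_good A i (by linarith) (by omega) hx.2⟩,
        core_good A i (by linarith) (by omega) hx.2⟩) hCw (by linarith) (by omega)

theorem core_tlo (h : TD0.Hyp A D) (hR : Fr.Hyp A D R) {c0 : ℝ} (hc0 : 0 < c0) (i : ι) {x : E}
    (hx : x ∈ A.O i) (hw : c0 * (1 + ‖(D i).F1 x‖) ≤ (D i).a x) :
    1 / (4 * (1 + 2 / c0)) ≤ tt (D i) (R i) x := by
  obtain ⟨-, -, -, -, -, -, hρ⟩ := rho_facts h hR
  obtain ⟨-, h1, h2, h3⟩ := hρ i x hx
  have ha := h.apos i x hx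
  have e1 := hR.hF1 i x hx
  have e2 := (hR.on i x hx).1
  have e3 := (hR.o1 i x hx).2.2.2.2
  have e5 : (D i).F1 x ⬝ᵥ (D i).F1 x = (R i).T0 x ⬝ᵥ (R i).T0 x + (R i).ρ0 x ^ 2 := by
    rw [e1]
    simp only [add_dotProduct, dotProduct_add, smul_dotProduct, dotProduct_smul, smul_eq_mul]
    rw [dotProduct_comm ((R i).T0 x) ((R i).e1 x), e2, e3]
    ring
  have e6 : 0 ≤ (R i).T0 x ⬝ᵥ (R i).T0 x := le_trans (by positivity) (norm_sq_le_dot _)
  have e7 := (le_abs_self _).trans (abs_dot_le ((D i).F1 x) ((D i).F1 x))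
  have hn := norm_nonneg ((D i).F1 x)
  have e8 : (R i).ρ0 x ≤ 2 * ‖(D i).F1 x‖ := by
    refine (pow_le_pow_iff_left₀ (by positivity) (by positivity) two_ne_zero).1 ?_
    nlinarith
  have e9 : ‖(D i).F1 x‖ ≤ (D i).a x / c0 := by
    rw [le_div_iff₀ hc0]
    nlinarith
  have e10 : rho (D i) (R i) x ≤ (D i).a x * (1 + 2 / c0) := by
    have : rho (D i) (R i) x ≤ (R i).ρ0 x + (D i).a x := by
      refine (pow_le_pow_iff_left₀ (by positivity) (by positivity) two_ne_zero).1 ?_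
      nlinarith
    have e11 : (D i).a x * (1 + 2 / c0) = (D i).a x + 2 * ((D i).a x / c0) := by ring
    linarith
  unfold tt
  rw [div_le_div_iff₀ (by positivity) (by positivity)]
  linarith

end

theorem CORE {ι : Type*} {A : Fam ι E} {D : ι → TD0} (h : TD0.Hyp A D) (O1 : ι → Set E)
    (hO1 : ∀ i, IsOpen (O1 i)) {c0 : ℝ} (hc0 : 0 < c0)
    (hw : ∀ i, ∀ x ∈ A.O i ∩ O1 i, c0 * (1 + ‖(D i).F1 x‖) ≤ (D i).a x) :
    ∃ (C : ℝ) (c : ℕ), 0 < C ∧ ∀ N : ℕ, ∃ (C0 : ℝ) (c1 : ℕ) (U0 U1 : ι → Y → V),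
      Out (A.cut (fun i => C0 * A.τ i ^ c1 ≤ (D i).s)) D N U0 ∧
      GeoC (A.cut (fun i => C0 * A.τ i ^ c1 ≤ (D i).s)) D U0 C c ∧
      Out ((A.sub O1 hO1).cut (fun i => C0 * A.τ i ^ c1 ≤ (D i).s)) D N U1 ∧
      GeoC ((A.sub O1 hO1).cut (fun i => C0 * A.τ i ^ c1 ≤ (D i).s)) D U1 C c ∧
      WindC ((A.sub O1 hO1).cut (fun i => C0 * A.τ i ^ c1 ≤ (D i).s)) D U1 C c ∧
      ∀ i, ∀ O' : Set E, IsOpen O' → O' ⊆ A.O i ∩ O1 i → (∀ x ∈ O', (D i).ζ x = 1) →
        ∀ x ∈ O', ∀ t, |t| < 1/100 → U0 i (x, t) = U1 i (x, t) := by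
  obtain ⟨S⟩ := exists_Sh
  obtain ⟨w⟩ := exists_Om
  obtain ⟨R, hR⟩ := exists_Fr h
  obtain ⟨L0⟩ := exists_L0 S
  obtain ⟨X0⟩ := exists_LpX L0
  obtain ⟨L1, hβ⟩ := exists_L1 S (tlo := 1 / (4 * (1 + 2 / c0))) (by positivity)
  obtain ⟨X1⟩ := exists_LpX L1
  have ht0 : ∀ i, ∀ x ∈ A.O i, 0 ≤ tt (D i) (R i) x := fun i x hx =>
    ((rho_facts h hR).2.2.2.2.2.2 i x hx).1.le
  have hs : ∀ i, (A.sub O1 hO1).O i ⊆ A.O i := fun i x hx => hx.1
  have h1 : TD0.Hyp (A.sub O1 hO1) D := h.anti rfl hs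
  have hR1 : Fr.Hyp (A.sub O1 hO1) D R := hR.anti rfl hs
  have ht1 : ∀ i, ∀ x ∈ (A.sub O1 hO1).O i, 1 / (4 * (1 + 2 / c0)) ≤ tt (D i) (R i) x :=
    fun i x hx => core_tlo h hR hc0 i hx.1 (hw i x hx)
  obtain ⟨Ca, ca, hCa, ha⟩ := core_one L0 X0 w h hR ht0
  obtain ⟨Cb, cb, hCb, hb⟩ := core_one L1 X1 w h1 hR1 ht1
  refine ⟨Ca + Cb, ca + cb, by positivity, fun N => ?_⟩
  obtain ⟨Cx, cx, a1, a2, -⟩ := ha N
  obtain ⟨Cy, cy, b1, b2, b3⟩ := hb N
  have p1 := abs_nonneg Cx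
  have p2 := abs_nonneg Cy
  refine ⟨|Cx| + |Cy|, cx + cy, _, _,
    a1.anti rfl fun i x hx => ⟨hx.1, core_good A i (by linarith) (by omega) hx.2⟩,
    a2.anti (h.anti rfl fun i x hx => hx.1) rfl
      (fun i x hx => ⟨hx.1, core_good A i (by linarith) (by omega) hx.2⟩) hCa (by linarith) (by omega),
    b1.anti rfl fun i x hx => ⟨hx.1, core_good A i (by linarith) (by omega) hx.2⟩,
    b2.anti (h1.anti rfl fun i x hx => hx.1) rfl
      (fun i x hx => ⟨hx.1, core_good A i (by linarith) (by omega) hx.2⟩) hCb (by linarith) (by omega),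
    (b3 hβ).anti rfl
      (fun i x hx => ⟨hx.1, core_good A i (by linarith) (by omega) hx.2⟩) hCb (by linarith) (by omega),
    fun i O' hO' hsub hζ => ?_⟩
  have m0 : ∀ x ∈ O', prm (D i) (R i) x ∈ L0.U := fun x hx =>
    L0.sub (prm_mem h hR ht0 i x (hsub hx).1)
  have m1 : ∀ x ∈ O', prm (D i) (R i) x ∈ L1.U := fun x hx =>
    L1.sub (prm_mem h1 hR1 ht1 i x (hsub hx))
  refine it_local (mk1 L0 X0 w (D i) (R i)) (mk1 L1 X1 w (D i) (R i)) hO' (δ := 1/100) (by norm_num)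
    rfl rfl rfl rfl rfl rfl rfl rfl rfl rfl (fun x hx t ht => ?_) (fun x hx t ht hne => ?_)
    (fun x hx t ht => ?_) (fun x hx t ht => ?_) (N + 1)
  · have z0 := L0.zone _ (m0 x hx) t (by linarith)
    have z1 := L1.zone _ (m1 x hx) t (by linarith)
    simp only [mk1]
    rw [z0.1, z0.2, z1.1, z1.2]
  · apply w.supp t ht
    intro h0
    apply hne
    simp [mk1, hζ x hx, h0]
  · obtain ⟨g1, g2, g3⟩ := L0.germ _ (m0 x hx) t ht
    refine ⟨g1, by simp [mk1, g2, g3], fun j => ?_⟩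
    obtain ⟨k1, k2, k3⟩ := X0.germ j _ (m0 x hx) t ht
    exact ⟨k1, by simp [mk1, k2, k3]⟩
  · obtain ⟨g1, g2, g3⟩ := L1.germ _ (m1 x hx) t ht
    refine ⟨g1, by simp [mk1, g2, g3], fun j => ?_⟩
    obtain ⟨k1, k2, k3⟩ := X1.germ j _ (m1 x hx) t ht
    exact ⟨k1, by simp [mk1, k2, k3]⟩

end Vale.Agent.P205
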