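import Vale.Agent.P205.M2

open Set Filter Topology
open scoped ContDiff

noncomputable section
namespace Vale.Agent.P205

variable {M : Type*} [TopologicalSpace M] [T2Space M] [CompactSpace M] {A : Atl M}

/-! PATCH: existence of patch systems. -/

theorem patch_norm {v : E} {r : ℝ} (hr : 0 ≤ r) (h : nsq v ≤ r ^ 2) : ‖v‖ ≤ r := by
  rw [Prod.norm_def, max_le_iff, Real.norm_eq_abs, Real.norm_eq_abs]
  unfold nsq at h
  exact ⟨abs_le_of_sq_le_sq (by nlinarith) hr, abs_le_of_sq_le_sq (by nlinarith) hr⟩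

theorem patch_qf (v w : E) : Continuous fun S : S3 => qf S v w := by
  unfold qf; fun_prop

theorem triple_thin (g : S3) (hg : PD g) (a : E) {η : ℝ} (hη : 0 < η) : ∃ ξ : Fin 3 → E,
    det3 (fun j => sqv (ξ j)) ≠ 0 ∧ (∀ j, 0 < Lc ξ j (sqv a + (η / 4) • g)) ∧
    ∀ j, qf (sqv a) (rot (ξ j)) (rot (ξ j)) < η * qf g (rot (ξ j)) (rot (ξ j)) := by
  obtain ⟨n, v, l, h1, h2, h3⟩ : ∃ (n v : E) (l : ℝ), g = sqv n + sqv v ∧ a = l • n ∧
      detE n v ≠ 0 := by
    obtain ⟨g1, g2⟩ := (PD_iff g).1 hg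
    obtain ⟨p, p0, hp⟩ : ∃ p : ℝ, 0 < p ∧ g.1 = p ^ 2 :=
      ⟨√g.1, Real.sqrt_pos.2 g1, (Real.sq_sqrt g1.le).symm⟩
    obtain ⟨q, q0, hq⟩ : ∃ q : ℝ, 0 < q ∧ det2 g = q ^ 2 :=
      ⟨√(det2 g), Real.sqrt_pos.2 g2, (Real.sq_sqrt g2.le).symm⟩
    obtain ⟨l, c, s, e1, e2, e3⟩ : ∃ l c s : ℝ, c ^ 2 + s ^ 2 = 1 ∧ a.1 = l * c * p ∧
        a.2 * p - a.1 * g.2.1 / p = l * s * q := by
      let z : ℂ := ⟨a.1 / p, (a.2 * p - a.1 * g.2.1 / p) / q⟩
      refine ⟨‖z‖, Real.cos z.arg, Real.sin z.arg, Real.cos_sq_add_sin_sq _, ?_, ?_⟩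
      · rw [Complex.norm_mul_cos_arg, div_mul_cancel₀ _ p0.ne']
      · rw [Complex.norm_mul_sin_arg, div_mul_cancel₀ _ q0.ne']
    have e4 : g.2.2 = (q ^ 2 + g.2.1 ^ 2) / p ^ 2 := by
      rw [← hq, det2, hp]; field_simp; ring
    refine ⟨(c * p, (c * g.2.1 + s * q) / p), (-s * p, (-s * g.2.1 + c * q) / p), l, ?_, ?_, ?_⟩
    · refine Prod.ext ?_ (Prod.ext ?_ ?_) <;> simp only [sqv, Prod.fst_add, Prod.snd_add]
      · linear_combination hp - p ^ 2 * e1
      · field_simp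
        linear_combination -g.2.1 * e1
      · rw [e4]
        field_simp
        linear_combination -(q ^ 2 + g.2.1 ^ 2) * e1
    · refine Prod.ext ?_ ?_ <;> simp only [Prod.smul_fst, Prod.smul_snd, smul_eq_mul]
      · rw [e2]; ring
      · rw [e2] at e3
        field_simp at e3 ⊢
        linear_combination e3
    · have : detE (c * p, (c * g.2.1 + s * q) / p) (-s * p, (-s * g.2.1 + c * q) / p) = q := by
        simp only [detE]
        field_simp
        linear_combination q * e1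
      rw [this]; exact q0.ne'
  obtain ⟨m, m0, hm⟩ : ∃ m : ℝ, 0 < m ∧ m ^ 2 * (l ^ 2 + η / 4) = 3 * (η / 4) :=
    ⟨√(3 * (η / 4) / (l ^ 2 + η / 4)), by positivity, by
      rw [Real.sq_sqrt (by positivity), div_mul_cancel₀ _ (by positivity)]⟩
  have d0 : 0 < detE n v ^ 2 := by positivity
  have e0 : det3 (fun j => sqv (![n, n + m • v, n - m • v] j)) = 2 * m ^ 3 * detE n v ^ 3 := by
    simp [det3, sqv, detE]; ring
  have k : ∀ (j : Fin 3) (c : ℝ), 0 < c → det3 (Function.update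
      (fun i => sqv (![n, n + m • v, n - m • v] i)) j (sqv a + (η / 4) • g)) =
      c * m * detE n v ^ 3 → 0 < Lc ![n, n + m • v, n - m • v] j (sqv a + (η / 4) • g) :=
    fun j c hc h => by
      rw [Lc, h, e0, mul_div_mul_right _ _ (pow_ne_zero _ h3)]
      positivity
  refine ⟨![n, n + m • v, n - m • v], by rw [e0]; positivity, fun j => ?_, fun j => ?_⟩
  · fin_cases j
    · refine k 0 η hη ?_
      simp [det3, sqv, detE, h1, h2]
      linear_combination 2 * m * (n.1 * v.2 - n.2 * v.1) ^ 3 * hm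
    · refine k 1 (η / 4) (by positivity) ?_
      simp [det3, sqv, detE, h1, h2]
      ring
    · refine k 2 (η / 4) (by positivity) ?_
      simp [det3, sqv, detE, h1, h2]
      ring
  · have k2 : ∀ t : ℝ, t ^ 2 ≤ m ^ 2 → qf (sqv a) (rot (n + t • v)) (rot (n + t • v)) <
        η * qf g (rot (n + t • v)) (rot (n + t • v)) := fun t ht => by
      have c1 : qf (sqv a) (rot (n + t • v)) (rot (n + t • v)) = l ^ 2 * t ^ 2 * detE n v ^ 2 := by
        simp [qf, sqv, rot, detE, h2]; ring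
      have c2 : qf g (rot (n + t • v)) (rot (n + t • v)) = (1 + t ^ 2) * detE n v ^ 2 := by
        simp [qf, sqv, rot, detE, h1]; ring
      rw [c1, c2, ← mul_assoc]
      refine mul_lt_mul_of_pos_right ?_ d0
      nlinarith [mul_le_mul_of_nonneg_left ht (sq_nonneg l), mul_nonneg hη.le (sq_nonneg t),
        mul_nonneg hη.le (sq_nonneg m)]
    fin_cases j
    · simpa using k2 0 (by simpa using sq_nonneg m)
    · exact k2 m le_rfl
    · simpa [sub_eq_add_neg] using k2 (-m) (by simp)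
theorem exists_Pat {g Ψ H0 : M → S3} (hg : A.TSm g) (hΨ : A.TSm Ψ) (hH : A.TSm H0) {η : ℝ}
    (h : ∀ p, ∀ y ∈ Metric.ball (0 : E) 1, ∃ ξ : Fin 3 → E, det3 (fun j => sqv (ξ j)) ≠ 0 ∧
      (∀ j, 0 < Lc ξ j (A.rep H0 p y)) ∧ ∀ j, qf (A.rep Ψ p y) (rot (ξ j)) (rot (ξ j))
        < η * qf (A.rep g p y) (rot (ξ j)) (rot (ξ j))) : Nonempty (Pat A g Ψ η H0) := by
  have key : ∀ m : M, ∃ (ξ : Fin 3 → E) (r e : ℝ), 0 < r ∧ 0 < e ∧
      det3 (fun j => sqv (ξ j)) ≠ 0 ∧ ∀ y, nsq (y - A.ch (A.idx m) m) ≤ 4 * r ^ 2 →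
        y ∈ Metric.ball (0 : E) 3 ∧
        (∀ S : S3, ‖S - A.rep H0 (A.idx m) y‖ ≤ e → ∀ j, e ≤ Lc ξ j S) ∧
        ∀ j, qf (A.rep Ψ (A.idx m) y) (rot (ξ j)) (rot (ξ j))
          ≤ η * qf (A.rep g (A.idx m) y) (rot (ξ j)) (rot (ξ j)) := fun m => by
    obtain ⟨ξ, h1, h2, h3⟩ := h _ _ (A.b1 m)
    have ht := (A.ch _).map_source (A.mem m)
    set y0 := A.ch (A.idx m) m
    have c1 := (hg.contDiffAt ht).continuousAt
    have c2 := (hΨ.contDiffAt ht).continuousAt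
    have c3 := (hH.contDiffAt ht).continuousAt
    have e1 : ∀ᶠ q : E × S3 × ℝ in 𝓝 (y0, 0, 0), q.1 ∈ Metric.ball (0 : E) 3 :=
      continuousAt_fst.eventually_mem (Metric.isOpen_ball.mem_nhds
        (Metric.ball_subset_ball (by norm_num) (A.b1 m)))
    have e2 : ∀ j, ∀ᶠ q : E × S3 × ℝ in 𝓝 (y0, 0, 0),
        q.2.2 < Lc ξ j (A.rep H0 (A.idx m) q.1 + q.2.1) := fun j => by
      obtain ⟨L, hL⟩ := Lc_linear ξ j
      simp only [hL]
      exact ContinuousAt.eventually_lt (by fun_prop) (L.continuous.continuousAt.comp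
        ((c3.comp_of_eq continuousAt_fst rfl).add (by fun_prop))) (by simpa [hL] using h2 j)
    have e3 : ∀ j, ∀ᶠ y in 𝓝 y0, qf (A.rep Ψ (A.idx m) y) (rot (ξ j)) (rot (ξ j))
        < η * qf (A.rep g (A.idx m) y) (rot (ξ j)) (rot (ξ j)) := fun j =>
      ContinuousAt.eventually_lt ((patch_qf _ _).continuousAt.comp c2)
        (continuousAt_const.mul ((patch_qf _ _).continuousAt.comp c1)) (h3 j)
    obtain ⟨ε, ε0, hε⟩ := Metric.eventually_nhds_iff.1 (e1.and ((eventually_all.2 e2).and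
      ((continuousAt_fst (p := (y0, (0 : S3), (0 : ℝ)))).eventually (eventually_all.2 e3))))
    refine ⟨ξ, ε / 4, ε / 2, by positivity, by positivity, h1, fun y hy => ?_⟩
    have d : dist y y0 < ε := by
      rw [dist_eq_norm]
      exact (patch_norm (r := ε / 2) (by positivity) (by linarith)).trans_lt (by linarith)
    have k := hε (y := (y, 0, 0)) (by simpa [Prod.dist_eq, ε0] using d)
    refine ⟨k.1, fun S hS j => ?_, fun j => (k.2.2 j).le⟩
    simpa using ((hε (y := (y, S - A.rep H0 (A.idx m) y, ε / 2)) (by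
      simp only [Prod.dist_eq (x := (y, _, _)), Prod.dist_eq (x := (_, ε / 2)), max_lt_iff,
        dist_zero_right, Real.norm_of_nonneg (half_pos ε0).le]
      exact ⟨d, by linarith, by linarith⟩)).2.1 j).le
  choose ξ r e r0 e0 h1 h2 using key
  obtain ⟨t, -, ht⟩ := isCompact_univ.elim_nhds_subcover
    (fun m => {x | x ∈ (A.ch (A.idx m)).source ∧ nsq (A.ch (A.idx m) x - A.ch (A.idx m) m) < r m ^ 2})
    fun m _ => by
      have c := (A.ch _).continuousAt (A.mem m)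
      exact inter_mem ((A.ch _).open_source.mem_nhds (A.mem m)) (ContinuousAt.eventually_lt
        (f := fun x => nsq (A.ch (A.idx m) x - A.ch (A.idx m) m)) (by unfold nsq; fun_prop)
        continuousAt_const (by simpa [nsq] using pow_pos (r0 m) 2))
  obtain ⟨η0, k0, k1⟩ := ((eventually_mem_nhdsWithin (a := (0 : ℝ)) (s := Ioi 0)).and
    ((eventually_all_finset t).2 fun m _ => Ioc_mem_nhdsGT (e0 m))).exists
  let f : Fin t.card → t := t.equivFin.symm
  exact ⟨⟨t.card, fun k => A.idx (f k), fun k => A.ch (A.idx (f k)) (f k), fun k => r (f k),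
    fun k => ξ (f k), η0, fun k => r0 _, k0, fun k y hy => (h2 _ y hy).1, fun m => by
      obtain ⟨x, hx, hm⟩ := mem_iUnion₂.1 (ht (mem_univ m))
      exact ⟨t.equivFin ⟨x, hx⟩, by simpa [f] using hm⟩, fun k => h1 _,
    fun k y hy S hS j => (k1 _ (f k).2).2.trans ((h2 _ y hy).2.1 S (hS.trans (k1 _ (f k).2).2) j),
    fun k j y hy => (h2 _ y hy).2.2 j⟩⟩
theorem Pat_thin {g : M → S3} (hg : A.PosD g) (hgs : A.TSm g) {ψ : M → ℝ} (hψ : A.Sm ψ) {η : ℝ}
    (hη : 0 < η) : Nonempty (Pat A g (A.sqA ψ) η (A.sqA ψ + (η / 4) • g)) :=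
  exists_Pat hgs (Atl.TSm_sqA hψ) ((Atl.TSm_sqA hψ).add (hgs.smul _)) fun p y hy => by
    have ht := Atl.ball3_sub' p (Metric.ball_subset_ball (by norm_num) hy)
    simp only [Atl.rep_add, Atl.rep_smul, Atl.rep_sqA hψ ht]
    exact triple_thin _ (hg.rep ht) _ hη
theorem Pat_all {g H0 : M → S3} (hg : A.PosD g) (hgs : A.TSm g) (hH : A.PosD H0) (hHs : A.TSm H0) :
    Nonempty (Pat A g 0 1 H0) :=
  exists_Pat hgs Atl.TSm.zero hHs fun p y hy => by
    have ht := Atl.ball3_sub' p (Metric.ball_subset_ball (by norm_num) hy)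
    obtain ⟨ξ, h1, h2, h3⟩ := triple_thin _ (hH.rep ht) 0 four_pos
    have e : sqv 0 = 0 := by simp [sqv]
    refine ⟨ξ, h1, by simpa [e] using h2, fun j => ?_⟩
    simp only [Atl.rep_zero, one_mul]
    refine lt_of_eq_of_lt (by simp [qf]) (hg.rep ht _ fun h => ?_)
    simpa [h, qf] using h3 j

end Vale.Agent.P205
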