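import Vale.Agent.P205.P3
import Vale.Agent.P205.PATCH

open Set Filter Topology
open scoped ContDiff

noncomputable section
namespace Vale.Agent.P205

variable {M : Type*} [TopologicalSpace M] [T2Space M] [CompactSpace M] {A : Atl M}

/-! F0: flexibility of the metric of a convex immersion. -/

theorem Flex.mono {g Ψ G : M → S3} (hg : A.PosD g) {η η' : ℝ} (h : A.Flex g Ψ G η) (hη : η' ≤ η) :
    A.Flex g Ψ G η' := by
  obtain ⟨μ, δ0, B, h1, h2, h3⟩ := h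
  refine ⟨μ, δ0, B, h1, h2, fun a ha b hb => ?_⟩
  obtain ⟨F, f1, f2, f3, f4⟩ := h3 a ha b hb
  exact ⟨F, f1, f2, f3, f4.mono hg le_rfl hη⟩

theorem flex_base {g Ψ : M → S3} (hg : A.PosD g) (hgs : A.TSm g) (hΨ : A.TSm Ψ) {F : M → V}
    (hF : A.Sm F) (hc : A.Cvx F) (η : ℝ) : A.Flex g Ψ (A.metA F) η := by
  have hG := Atl.TSm_metA hF
  obtain ⟨Pt⟩ := Pat_all hg hgs hc.posD hG
  obtain ⟨μ, hμ, hm⟩ := hc.mg hF hg hgs
  obtain ⟨S, hS, hPT⟩ := PT hg hgs hG Pt 1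
  choose bF hbF0 hbF using hF.nb
  choose bG hbG0 hbG using hG.tn
  choose bΨ hbΨ0 hbΨ using hΨ.tn
  choose bg hbg0 hbg using hgs.tn
  obtain ⟨CM, hCM, hMg⟩ := Atl.Mg_stable hg hgs
  set Bt : ℕ → ℝ := fun k => 1 + bF k + bG k + bΨ k + bg k with hBt
  obtain ⟨τ0, hτ0⟩ := hPT Bt
  have ev : ∀ a b : ℝ, 0 < b → ∀ᶠ s : ℝ in atTop, a * s⁻¹ ≤ b := fun a b hb => by
    have : Tendsto (fun s : ℝ => a * s⁻¹) atTop (𝓝 (a * 0)) := tendsto_inv_atTop_zero.const_mul a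
    rw [mul_zero] at this
    exact this.eventually (ge_mem_nhds hb)
  obtain ⟨τ, t1, t2, t3, t4⟩ := ((eventually_ge_atTop 2).and ((eventually_ge_atTop τ0).and
    ((ev 1 (μ / 8) (by positivity)).and (ev (CM * Bt 2 ^ 5) (μ / 16) (by positivity))))).exists
  have τ1 : 1 ≤ τ := by linarith
  have τi : τ⁻¹ ≤ 2⁻¹ := inv_anti₀ two_pos t1
  have τi0 : 0 < τ⁻¹ := by positivity
  set δ := τ⁻¹ ^ S with hδ
  have δp : 0 < δ := by positivity
  have δs : δ ≤ 2⁻¹ := (pow_le_of_le_one τi0.le (by linarith) (by omega)).trans τi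
  obtain ⟨B', hB'⟩ := hτ0 τ t2 τ1
  have hη0 := Pt.η0pos
  have p1 := hbΨ0 0
  have p2 := hbg0 0
  set c := Real.sqrt (1 - δ) with hc'
  have c2 : c ^ 2 = 1 - δ := Real.sq_sqrt (by linarith)
  have c0 : 0 ≤ c := Real.sqrt_nonneg _
  have c1 : c ≤ 1 := by nlinarith
  have c6 : μ / 8 ≤ c ^ 6 * μ := by
    have : c ^ 6 = (1 - δ) ^ 3 := by rw [← c2]; ring
    have a : (2⁻¹ : ℝ) ^ 3 ≤ (1 - δ) ^ 3 := pow_le_pow_left₀ (by norm_num) (by linarith) 3
    rw [this]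
    nlinarith
  have sc : A.Sm (fun m => c • F m) := (Atl.Sm.const c).smul hF
  have bc : ∀ k, A.Nb k (fun m => c • F m) (Bt k) := fun k => by
    refine (Atl.Nb.const_smul hF c (hbF k)).mono le_rfl ?_
    rw [abs_of_nonneg c0]
    have := hbF0 k
    have := hbG0 k
    have := hbΨ0 k
    have := hbg0 k
    have : c * bF k ≤ 1 * bF k := by gcongr
    simp only [hBt]
    linarith
  have Bt1 : ∀ k, 1 ≤ Bt k := fun k => by
    have := hbF0 k
    have := hbG0 k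
    have := hbΨ0 k
    have := hbg0 k
    simp only [hBt]
    linarith
  have Btk : ∀ k, Bt k ≤ Bt k * τ ^ k := fun k =>
    le_mul_of_one_le_right (by linarith [Bt1 k]) (one_le_pow₀ τ1)
  have mc : ∀ Ψ η, A.Mg (fun m => c • F m) g Ψ (μ / 8) η := fun Ψ η =>
    ((hm Ψ η).const_smul hF c).mono hg c6 le_rfl
  refine ⟨μ / 16, δ * min 1 (Pt.η0 / (2 * (bΨ 0 + bg 0))), B', by positivity, by positivity,
    fun δ1 h1 δ2 h2 => ?_⟩
  have m1 : δ * min 1 (Pt.η0 / (2 * (bΨ 0 + bg 0))) ≤ δ * 1 := by gcongr; exact min_le_left _ _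
  have m2 : δ * min 1 (Pt.η0 / (2 * (bΨ 0 + bg 0))) ≤ δ * (Pt.η0 / (2 * (bΨ 0 + bg 0))) := by
    gcongr; exact min_le_right _ _
  have h10 := h1.1
  have h20 := h2.1
  have h11 := h1.2
  have h21 := h2.2
  have eE : A.metA F - δ1 • Ψ - δ2 • g - A.metA (fun m => c • F m) - δ • A.metA F
      = (-δ1) • Ψ - δ2 • g := by
    rw [Atl.metA_smul c hF, c2]
    module
  have bE : ∀ k, A.TN k ((-δ1) • Ψ - δ2 • g) (δ1 * bΨ k + δ2 * bg k) := fun k => by
    have := Atl.TN.sub (hΨ.smul _) (hgs.smul _) (Atl.TN.smul hΨ (-δ1) (hbΨ k))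
      (Atl.TN.smul hgs δ2 (hbg k))
    rwa [abs_neg, abs_of_nonneg h10, abs_of_nonneg h20] at this
  obtain ⟨F', r1, r2, r3, r4⟩ := hB' (fun m => c • F m) (A.metA F - δ1 • Ψ - δ2 • g) sc
    ((hG.sub (hΨ.smul _)).sub (hgs.smul _)) (fun k => (bc k).mono le_rfl (Btk k))
    (fun k => by
      refine (Atl.TN.sub (hG.sub (hΨ.smul _)) (hgs.smul _) (Atl.TN.sub hG
        (hΨ.smul _) (hbG k) (Atl.TN.smul hΨ _ (hbΨ k))) (Atl.TN.smul hgs _ (hbg k))).mono le_rfl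
        (le_trans ?_ (Btk k))
      rw [abs_of_nonneg h10, abs_of_nonneg h20]
      have := hbF0 k
      have := hbΨ0 k
      have := hbg0 k
      have a1 : δ1 * bΨ k ≤ 1 * bΨ k := by gcongr; linarith
      have a2 : δ2 * bg k ≤ 1 * bg k := by gcongr; linarith
      simp only [hBt]
      linarith)
    ((mc 0 1).mono hg (by linarith) le_rfl)
    (fun k => by
      rw [eE]
      refine (bE k).mono le_rfl (le_trans ?_ (mul_le_mul_of_nonneg_left (Btk k) δp.le))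
      have := hbF0 k
      have := hbG0 k
      have := hbΨ0 k
      have := hbg0 k
      have a1 : δ1 * bΨ k ≤ δ * bΨ k := by gcongr; linarith
      have a2 : δ2 * bg k ≤ δ * bg k := by gcongr; linarith
      have a3 : 0 ≤ δ * (1 + bF k + bG k) := by positivity
      simp only [hBt]
      linarith)
    (by
      rw [eE]
      refine (bE 0).mono le_rfl ?_
      calc δ1 * bΨ 0 + δ2 * bg 0 ≤ δ * (Pt.η0 / (2 * (bΨ 0 + bg 0))) * bΨ 0
            + δ * (Pt.η0 / (2 * (bΨ 0 + bg 0))) * bg 0 := by gcongr <;> linarith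
        _ = _ := by rw [← hδ]; field_simp)
  refine ⟨F', r1, r2, r4, ?_⟩
  refine (hMg _ F' Ψ (μ / 8) η (Bt 2) (τ⁻¹ ^ 1) sc r1 (Bt1 2) (by positivity)
    (by rw [pow_one]; linarith) (bc 2) r3 (mc Ψ η)).mono hg ?_ le_rfl
  rw [pow_one]
  linarith

end Vale.Agent.P205
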