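import Vale.Agent.P205.T1
import Vale.Agent.P205.G1

open Set Filter Topology
open scoped ContDiff

noncomputable section
namespace Vale.Agent.P205

/-! G2: Gauss equation, continuity of the curvature, openness of convexity. -/

section aux
variable {W W1 W2 : Type} [NormedAddCommGroup W] [NormedSpace ℝ W] [NormedAddCommGroup W1]
  [NormedSpace ℝ W1] [NormedAddCommGroup W2] [NormedSpace ℝ W2] {x : E}

theorem g2_two {f : E → W} (h : ContDiffAt ℝ ∞ f x) : ContDiffAt ℝ 2 f x :=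
  h.of_le (t1_nat_le 2)
theorem g2_ev {f : E → W} (h : ContDiffAt ℝ 2 f x) : ∀ᶠ y in 𝓝 x, DifferentiableAt ℝ f y :=
  (h.eventually (by simp)).mono fun _ hy => hy.differentiableAt (by simp)
theorem g2_dd {f : E → W} (h : ContDiffAt ℝ 2 f x) : DifferentiableAt ℝ (fderiv ℝ f) x :=
  (h.fderiv_right (m := 1) (by norm_num)).differentiableAt (by simp)
theorem g2_d1 {f : E → W} (h : ContDiffAt ℝ 2 f x) (b : E) :
    DifferentiableAt ℝ (fun y => fderiv ℝ f y b) x := (g2_dd h).clm_apply (differentiableAt_const _)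
theorem g2_d2 {f : E → W} (h : ContDiffAt ℝ 2 f x) (a b : E) :
    d2 f x a b = fderiv ℝ (fun y => fderiv ℝ f y b) x a := by
  rw [fderiv_clm_apply (g2_dd h) (differentiableAt_const _)]; simp [d2]
theorem g2_D {f : E → W} (h : ContDiffAt ℝ ∞ f x) (b : E) :
    ContDiffAt ℝ ∞ (fun y => fderiv ℝ f y b) x :=
  (h.fderiv_right (by simp)).clm_apply contDiffAt_const

theorem g2_bil1 (B : W1 →L[ℝ] W2 →L[ℝ] W) {u : E → W1} {v : E → W2} (hu : DifferentiableAt ℝ u x)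
    (hv : DifferentiableAt ℝ v x) (a : E) : fderiv ℝ (fun y => B (u y) (v y)) x a =
      B (fderiv ℝ u x a) (v x) + B (u x) (fderiv ℝ v x a) := by
  rw [B.fderiv_of_bilinear hu hv]; simp [add_comm]

theorem g2_bil2 (B : W1 →L[ℝ] W2 →L[ℝ] W) {u : E → W1} {v : E → W2} (hu : ContDiffAt ℝ 2 u x)
    (hv : ContDiffAt ℝ 2 v x) (a b : E) : d2 (fun y => B (u y) (v y)) x a b =
      B (d2 u x a b) (v x) + B (fderiv ℝ u x b) (fderiv ℝ v x a) +
        (B (fderiv ℝ u x a) (fderiv ℝ v x b) + B (u x) (d2 v x a b)) := by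
  have du := (g2_ev hu).self_of_nhds
  have dv := (g2_ev hv).self_of_nhds
  have e : (fun y => fderiv ℝ (fun y => B (u y) (v y)) y b) =ᶠ[𝓝 x]
      fun y => B (fderiv ℝ u y b) (v y) + B (u y) (fderiv ℝ v y b) := by
    filter_upwards [g2_ev hu, g2_ev hv] with y h1 h2 using g2_bil1 B h1 h2 b
  have k : ∀ {u : E → W1} {v : E → W2}, DifferentiableAt ℝ u x → DifferentiableAt ℝ v x →
      DifferentiableAt ℝ (fun y => B (u y) (v y)) x := fun hu hv =>
    (B.differentiableAt.comp x hu).clm_apply hv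
  rw [g2_d2 (f := fun y => B (u y) (v y)) ((B.contDiff.contDiffAt.comp x hu).clm_apply hv),
    e.fderiv_eq, fderiv_fun_add (k (g2_d1 hu b) dv) (k du (g2_d1 hv b)), add_apply,
    g2_bil1 B (g2_d1 hu b) dv, g2_bil1 B du (g2_d1 hv b), g2_d2 hu, g2_d2 hv]

theorem g2_clm1 (L : W1 →L[ℝ] W) {u : E → W1} (hu : DifferentiableAt ℝ u x) (a : E) :
    fderiv ℝ (fun y => L (u y)) x a = L (fderiv ℝ u x a) := by
  rw [show fderiv ℝ (fun y => L (u y)) x = _ from (L.hasFDerivAt.comp x hu.hasFDerivAt).fderiv]; rfl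

theorem g2_clm2 (L : W1 →L[ℝ] W) {u : E → W1} (hu : ContDiffAt ℝ 2 u x) (a b : E) :
    d2 (fun y => L (u y)) x a b = L (d2 u x a b) := by
  have e : (fun y => fderiv ℝ (fun y => L (u y)) y b) =ᶠ[𝓝 x] fun y => L (fderiv ℝ u y b) := by
    filter_upwards [g2_ev hu] with y h1 using g2_clm1 L h1 b
  rw [g2_d2 (f := fun y => L (u y)) (L.contDiff.contDiffAt.comp x hu), e.fderiv_eq,
    g2_clm1 L (g2_d1 hu b), g2_d2 hu]

theorem g2_add2 {u v : E → W} (hu : ContDiffAt ℝ 2 u x) (hv : ContDiffAt ℝ 2 v x) (a b : E) :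
    d2 (fun y => u y + v y) x a b = d2 u x a b + d2 v x a b := by
  have e : fderiv ℝ (fun y => u y + v y) =ᶠ[𝓝 x] fun y => fderiv ℝ u y + fderiv ℝ v y := by
    filter_upwards [g2_ev hu, g2_ev hv] with y h1 h2 using fderiv_fun_add h1 h2
  rw [d2, e.fderiv_eq, fderiv_fun_add (g2_dd hu) (g2_dd hv)]; rfl

theorem g2_exp {G : E → W} (h : ContDiffAt ℝ ∞ G x) (v w : E) : d2 G x v w =
    (v.1 * w.1) • d2 G x (1, 0) (1, 0) + (v.1 * w.2 + v.2 * w.1) • d2 G x (1, 0) (0, 1) +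
      (v.2 * w.2) • d2 G x (0, 1) (0, 1) := by
  have := d2_symm h (0, 1) (1, 0)
  simp only [d2] at this ⊢
  rw [g1_lin _ v, add_apply, smul_apply,
    smul_apply, g1_lin _ w, g1_lin _ w, this]
  module
end aux

def g2dot : V →L[ℝ] V →L[ℝ] ℝ :=
  LinearMap.mkContinuous₂ (dotProductBilin ℝ ℝ) 4 fun a b => abs_dot_le a b
theorem g2dot_apply (a b : V) : g2dot a b = a ⬝ᵥ b := rfl
def g2qf (v w : E) : S3 →L[ℝ] ℝ := LinearMap.toContinuousLinearMap
  ⟨⟨fun S => qf S v w, fun S T => qf_add S T v w⟩, fun c S => qf_smul c S v w⟩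
theorem g2qf_apply (v w : E) (S : S3) : g2qf v w S = qf S v w := rfl

theorem gauss {G : E → V} {x : E} (h : ContDiffAt ℝ ∞ G x) (c1 c2 : E) :
    npG G x c1 c2 c1 c1 c2 c2 - npG G x c1 c2 c1 c2 c1 c2 = detE c1 c2 ^ 4 * curN (met G) x := by
  have hd := fun v => g2_two (g2_D h v)
  have hm : ContDiffAt ℝ 2 (met G) x := by
    have := fun v w => (g2dot.contDiff.contDiffAt.comp x (hd v)).clm_apply (hd w)
    exact (this _ _).prodMk ((this _ _).prodMk (this _ _))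
  have A1 : ∀ a v w, qf (fderiv ℝ (met G) x a) v w =
      d2 G x a v ⬝ᵥ fderiv ℝ G x w + fderiv ℝ G x v ⬝ᵥ d2 G x a w := by
    intro a v w
    rw [← g2qf_apply, ← g2_clm1 _ (g2_ev hm).self_of_nhds, g2_d2 (g2_two h), g2_d2 (g2_two h)]
    simp only [g2qf_apply, qf_met]
    exact g2_bil1 g2dot (g2_d1 (g2_two h) v) (g2_d1 (g2_two h) w) a
  have A2 : ∀ a b v w, qf (d2 (met G) x a b) v w =
      d2 (fun y => fderiv ℝ G y v) x a b ⬝ᵥ fderiv ℝ G x w + d2 G x b v ⬝ᵥ d2 G x a w +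
        (d2 G x a v ⬝ᵥ d2 G x b w + fderiv ℝ G x v ⬝ᵥ d2 (fun y => fderiv ℝ G y w) x a b) := by
    intro a b v w
    rw [← g2qf_apply, ← g2_clm2 _ hm]
    simp only [g2qf_apply, qf_met, g2_d2 (g2_two h)]
    exact g2_bil2 g2dot (hd v) (hd w) a b
  have T1 : ∀ a b v, d2 (fun y => fderiv ℝ G y v) x a b = d2 (fun y => fderiv ℝ G y b) x a v := by
    intro a b v
    rw [g2_d2 (hd v), g2_d2 (hd b), EventuallyEq.fderiv_eq]
    filter_upwards [(g2_two h).eventually (by simp)] with y hy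
    rw [← g2_d2 hy, ← g2_d2 hy]
    exact hy.isSymmSndFDerivAt (by simp) b v
  have q1 : ∀ S : S3, S.1 = qf S (1, 0) (1, 0) := fun S => by simp [qf]
  have q2 : ∀ S : S3, S.2.1 = qf S (1, 0) (0, 1) := fun S => by simp [qf]
  have q3 : ∀ S : S3, S.2.2 = qf S (0, 1) (0, 1) := fun S => by simp [qf]
  have key : npG G x (1, 0) (0, 1) (1, 0) (1, 0) (0, 1) (0, 1) -
      npG G x (1, 0) (0, 1) (1, 0) (0, 1) (1, 0) (0, 1) = curN (met G) x := by
    rw [curN, cj, npG, npG, np_eq, np_eq]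
    simp only [q1, q2, q3, A1, A2]
    rw [T1 (0, 1) (0, 1) (1, 0), d2_symm (g2_D h _) (0, 1) (1, 0), T1 (1, 0) (1, 0) (0, 1),
      d2_symm h (0, 1) (1, 0)]
    simp only [npd, det2, met]
    generalize fderiv ℝ G x (1, 0) = a
    generalize fderiv ℝ G x (0, 1) = b
    generalize d2 G x (1, 0) (1, 0) = p
    generalize d2 G x (1, 0) (0, 1) = q
    generalize d2 G x (0, 1) (0, 1) = r
    generalize d2 (fun y => fderiv ℝ G y (0, 1)) x (1, 0) (0, 1) = t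
    generalize d2 (fun y => fderiv ℝ G y (1, 0)) x (1, 0) (0, 1) = t'
    simp only [dotProduct_comm p a, dotProduct_comm q a, dotProduct_comm t a,
      dotProduct_comm p b, dotProduct_comm q b, dotProduct_comm r b, dotProduct_comm t' b]
    ring
  rw [npG_frame, npG_frame G x c1 c2, ← key]
  simp only [npG]
  rw [g2_exp h c1 c1, g2_exp h c2 c2, g2_exp h c1 c2]
  simp only [np, g1_cr, add_dotProduct, dotProduct_add, smul_dotProduct, dotProduct_smul,
    smul_eq_mul, detE]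
  generalize cr _ _ (d2 G x (1, 0) (1, 0)) = p
  generalize cr _ _ (d2 G x (1, 0) (0, 1)) = q
  generalize cr _ _ (d2 G x (0, 1) (0, 1)) = r
  simp only [dotProduct_comm q p, dotProduct_comm r p, dotProduct_comm r q]
  ring

/-- two-jets -/
abbrev J2 (W : Type) := W × W × W × W × W × W
def jet {W : Type} [NormedAddCommGroup W] [NormedSpace ℝ W] (S : E → W) (x : E) : J2 W :=
  (S x, fderiv ℝ S x (1, 0), fderiv ℝ S x (0, 1), d2 S x (1, 0) (1, 0), d2 S x (1, 0) (0, 1),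
    d2 S x (0, 1) (0, 1))
def cjJ (j : J2 S3) : ℝ := cj j.1 j.2.1 j.2.2.1 j.2.2.2.1 j.2.2.2.2.1 j.2.2.2.2.2
theorem cjJ_cont : Continuous cjJ := by unfold cjJ cj npd det2; fun_prop

theorem jet_cont {S : E → S3} {x : E} (h : ContDiffAt ℝ ∞ S x) : ContinuousAt (jet S) x := by
  have h1 : ContinuousAt (fderiv ℝ S) x := (g2_dd (g2_two h)).continuousAt
  have h2 : ContinuousAt (fderiv ℝ (fderiv ℝ S)) x :=
    (g2_dd (g2_two (h.fderiv_right (by simp)))).continuousAt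
  have h0 := h.continuousAt
  unfold jet d2
  fun_prop

theorem jet_add {S T : E → S3} {x : E} (h : ContDiffAt ℝ ∞ S x) (h' : ContDiffAt ℝ ∞ T x) :
    jet (fun y => S y + T y) x = jet S x + jet T x := by
  simp only [jet, g2_add2 (g2_two h) (g2_two h'), fderiv_fun_add (h.differentiableAt (by simp))
    (h'.differentiableAt (by simp)), add_apply, Prod.mk_add_mk]

theorem g2_n1 {W : Type} [NormedAddCommGroup W] [NormedSpace ℝ W] (T : E → W) (x : E) {v : E}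
    (hv : ‖v‖ = 1) : ‖fderiv ℝ T x v‖ ≤ ‖iteratedFDeriv ℝ 1 T x‖ := by
  simpa [hv, norm_iteratedFDeriv_one] using (fderiv ℝ T x).le_opNorm v

theorem jet_norm {T : E → S3} {x : E} {γ : ℝ} (h : ∀ j ≤ 2, ‖iteratedFDeriv ℝ j T x‖ ≤ γ) :
    ‖jet T x‖ ≤ γ := by
  have n1 : ‖((1, 0) : E)‖ = 1 := by simp
  have n2 : ‖((0, 1) : E)‖ = 1 := by simp
  have k : ∀ {v w : E}, ‖v‖ = 1 → ‖w‖ = 1 → ‖d2 T x v w‖ ≤ γ := fun hv hw =>
    (norm_d2_le T x _ _).trans (by rw [hv, hw, mul_one, mul_one]; exact h 2 le_rfl)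
  exact max_le ((norm_iteratedFDeriv_zero (f := T)).ge.trans (h 0 (by norm_num))) (max_le
    ((g2_n1 T x n1).trans (h 1 one_le_two)) (max_le ((g2_n1 T x n2).trans (h 1 one_le_two))
    (max_le (k n1 n1) (max_le (k n1 n2) (k n2 n2)))))

theorem g2_tube {X : Type} [NormedAddCommGroup X] {K : Set E} (hK : IsCompact K)
    {P : X → E → Prop} (hP : ∀ y ∈ K, ∀ᶠ z : X × E in 𝓝 (0, y), P z.1 z.2) :
    ∃ γ > 0, ∀ e : X, ‖e‖ ≤ γ → ∀ y ∈ K, P e y := by
  obtain ⟨γ, h1, h2⟩ := Metric.nhds_basis_closedBall.eventually_iff.1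
    (hK.eventually_forall_of_forall_eventually hP)
  exact ⟨γ, h1, fun e he => h2 (mem_closedBall_zero_iff.2 he)⟩

/-- the curvature numerator is uniformly continuous in the 2-jet over a compact set -/
theorem curN_near {O K : Set E} (hO : IsOpen O) (hK : IsCompact K) (hKO : K ⊆ O) {S : E → S3}
    (hS : ContDiffOn ℝ ∞ S O) {e : ℝ} (he : 0 < e) : ∃ γ > 0, ∀ x ∈ K, ∀ T : E → S3,
    ContDiffAt ℝ ∞ T x → (∀ j ≤ 2, ‖iteratedFDeriv ℝ j (fun y => T y - S y) x‖ ≤ γ) →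
    |curN T x - curN S x| ≤ e := by
  have hc : ∀ x ∈ K, ContDiffAt ℝ ∞ S x := fun x hx => hS.contDiffAt (hO.mem_nhds (hKO hx))
  obtain ⟨γ, h1, h2⟩ := g2_tube hK (P := fun (j : J2 S3) y =>
    |cjJ (jet S y + j) - cjJ (jet S y)| < e) fun y hy => by
      have := jet_cont (hc y hy)
      have := cjJ_cont
      exact ContinuousAt.eventually_lt (by fun_prop) continuousAt_const (by simpa using he)
  refine ⟨γ, h1, fun x hx T hT h => ?_⟩
  have h3 := (h2 _ (jet_norm h) x hx).le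
  rw [← jet_add (hc x hx) (hT.sub (hc x hx))] at h3
  simp only [add_sub_cancel] at h3
  exact h3
theorem curN_continuousOn {O : Set E} (hO : IsOpen O) {S : E → S3} (hS : ContDiffOn ℝ ∞ S O) :
    ContinuousOn (curN S) O := fun _ hx =>
  (cjJ_cont.continuousAt.comp (jet_cont (hS.contDiffAt (hO.mem_nhds hx)))).continuousWithinAt
theorem curN_congr {S T : E → S3} {x : E} (h : S =ᶠ[𝓝 x] T) : curN S x = curN T x := by
  simp only [curN, d2, h.eq_of_nhds, h.fderiv_eq, h.fderiv.fderiv_eq]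

/-- the symmetric form of a normal component -/
def g2σ (ν : V) (B : E →L[ℝ] E →L[ℝ] V) : S3 :=
  (ν ⬝ᵥ B (1, 0) (1, 0), (ν ⬝ᵥ B (1, 0) (0, 1) + ν ⬝ᵥ B (0, 1) (1, 0)) / 2, ν ⬝ᵥ B (0, 1) (0, 1))
theorem g2σ_qf (ν : V) (B : E →L[ℝ] E →L[ℝ] V) (v : E) : qf (g2σ ν B) v v = ν ⬝ᵥ B v v := by
  rw [g1_lin B v, add_apply, smul_apply,
    smul_apply, g1_lin _ v, g1_lin _ v]
  simp only [qf, g2σ, dotProduct_add, dotProduct_smul, smul_eq_mul]
  ring
def g2ν (ν a b : V) : V := gram2 a b • ν - (b ⬝ᵥ b * (a ⬝ᵥ ν) - a ⬝ᵥ b * (b ⬝ᵥ ν)) • a -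
  (a ⬝ᵥ a * (b ⬝ᵥ ν) - a ⬝ᵥ b * (a ⬝ᵥ ν)) • b

theorem isOpen_CvxJ :
    IsOpen {J : (E →L[ℝ] V) × (E →L[ℝ] E →L[ℝ] V) | CvxJ J.1 J.2} := by
  refine isOpen_iff_eventually.2 fun J ⟨h1, ν, h2, h3, h4⟩ => ?_
  have e : g2ν ν (J.1 (1, 0)) (J.1 (0, 1)) = gram2 (J.1 (1, 0)) (J.1 (0, 1)) • ν := by
    simp [g2ν, dotProduct_comm _ ν, h2, h3]
  obtain ⟨h5, h6⟩ := (PD_iff (g2σ (g2ν ν (J.1 (1, 0)) (J.1 (0, 1))) J.2)).1 fun v hv => by
    rw [g2σ_qf, e, smul_dotProduct]; exact mul_pos h1 (h4 v hv)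
  have d1 : ∀ v, Continuous fun J : (E →L[ℝ] V) × (E →L[ℝ] E →L[ℝ] V) => J.1 v := fun v =>
    continuous_fst.clm_apply continuous_const
  have d2 : ∀ v w, Continuous fun J : (E →L[ℝ] V) × (E →L[ℝ] E →L[ℝ] V) => J.2 v w := fun v w =>
    (continuous_snd.clm_apply continuous_const).clm_apply continuous_const
  have d3 : Continuous fun x : V × V => g2ν ν x.1 x.2 := by unfold g2ν gram2; fun_prop
  have d4 : Continuous fun x : V × V => gram2 x.1 x.2 := by unfold gram2; fun_prop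
  have d5 := fun v w => (d3.comp ((d1 (1, 0)).prodMk (d1 (0, 1)))).dotProduct (d2 v w)
  have c : Continuous fun J : (E →L[ℝ] V) × (E →L[ℝ] E →L[ℝ] V) =>
      g2σ (g2ν ν (J.1 (1, 0)) (J.1 (0, 1))) J.2 :=
    (d5 _ _).prodMk ((((d5 _ _).add (d5 _ _)).div_const 2).prodMk (d5 _ _))
  have c1 : Continuous det2 := by unfold det2; fun_prop
  filter_upwards [continuousAt_const.eventually_lt
      (d4.comp ((d1 (1, 0)).prodMk (d1 (0, 1)))).continuousAt h1,
    continuousAt_const.eventually_lt c.fst.continuousAt h5,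
    continuousAt_const.eventually_lt (c1.comp c).continuousAt h6] with J' a1 a2 a3
  refine ⟨a1, g2ν ν (J'.1 (1, 0)) (J'.1 (0, 1)), ?_, ?_, fun v hv => ?_⟩
  · simp only [g2ν, gram2, sub_dotProduct, smul_dotProduct, smul_eq_mul, dotProduct_comm ν,
      dotProduct_comm (J'.1 (0, 1)) (J'.1 (1, 0))]
    ring
  · simp only [g2ν, gram2, sub_dotProduct, smul_dotProduct, smul_eq_mul, dotProduct_comm ν]
    ring
  · rw [← g2σ_qf]; exact (PD_iff _).2 ⟨a2, a3⟩ v hv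

/-- the jet of `f • q` without the Hessian of `f` -/
def g2r (f : ℝ × ℝ × ℝ) (q : J2 S3) : J2 S3 :=
  (f.1 • q.1, f.2.1 • q.1 + f.1 • q.2.1, f.2.2 • q.1 + f.1 • q.2.2.1,
    f.2.1 • q.2.1 + (f.2.1 • q.2.1 + f.1 • q.2.2.2.1),
    f.2.2 • q.2.1 + (f.2.1 • q.2.2.1 + f.1 • q.2.2.2.2.1),
    f.2.2 • q.2.2.1 + (f.2.2 • q.2.2.1 + f.1 • q.2.2.2.2.2))

/-- C1: a large Hessian along the levels of `ψ` forces positive curvature -/
theorem curN_ridge {O K : Set E} (hO : IsOpen O) (hK : IsCompact K) (hKO : K ⊆ O) {S : E → S3}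
    (hS : ContDiffOn ℝ ∞ S O) (hP : ∀ x ∈ K, PD (S x)) {ψ : E → ℝ} (hψ : ContDiffOn ℝ ∞ ψ O) :
    ∃ C γ : ℝ, 0 < γ ∧ ∀ x ∈ K, ∀ (f : E → ℝ) (T : E → S3), ContDiffAt ℝ ∞ f x → ContDiffAt ℝ ∞ T x →
      (∀ j ≤ 1, ‖iteratedFDeriv ℝ j f x‖ ≤ γ) → (∀ j ≤ 2, ‖iteratedFDeriv ℝ j T x‖ ≤ γ) →
      C ≤ hs f ψ x → 0 < curN (fun y => S y - f y • sqv (dcov ψ y) + T y) x := by
  have hc : ∀ x ∈ K, ContDiffAt ℝ ∞ S x := fun x hx => hS.contDiffAt (hO.mem_nhds (hKO hx))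
  have hq : ∀ x ∈ K, ContDiffAt ℝ ∞ (fun y => -sqv (dcov ψ y)) x := fun x hx => by
    have := g2_D (hψ.contDiffAt (hO.mem_nhds (hKO hx)))
    exact (((this _).pow 2).prodMk (((this _).mul (this _)).prodMk ((this _).pow 2))).neg
  have c1 : Continuous det2 := by unfold det2; fun_prop
  obtain ⟨M, hM⟩ := hK.exists_bound_of_continuousOn ((curN_continuousOn hO hS).mono hKO)
  obtain ⟨m, m0, hm⟩ := hK.exists_forall_le' (c1.comp_continuousOn (hS.continuousOn.mono hKO))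
    fun x hx => ((PD_iff _).1 (hP x hx)).2
  obtain ⟨γ, h1, h2⟩ := g2_tube hK (P := fun (e : (ℝ × ℝ × ℝ) × J2 S3) y =>
    -(M + 1) < cjJ (jet S y + g2r e.1 (jet (fun y => -sqv (dcov ψ y)) y) + e.2) ∧
    m / 2 < det2 (jet S y + g2r e.1 (jet (fun y => -sqv (dcov ψ y)) y) + e.2).1) fun y hy => by
      have := jet_cont (hc y hy)
      have j2 := jet_cont (hq y hy)
      generalize jet (fun y => -sqv (dcov ψ y)) = jq at j2 ⊢
      have c : ContinuousAt (fun z : ((ℝ × ℝ × ℝ) × J2 S3) × E => jet S z.2 +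
          g2r z.1.1 (jq z.2) + z.1.2) (0, y) := by
        unfold g2r; fun_prop
      have e : ∀ q, g2r 0 q = 0 := fun q => by simp [g2r]
      refine (continuousAt_const.eventually_lt (cjJ_cont.continuousAt.comp c) ?_).and
        (continuousAt_const.eventually_lt (c1.continuousAt.comp c.fst) ?_)
      · have : -M ≤ cjJ (jet S y) := (abs_le.1 (hM y hy)).1
        simp only [Function.comp, Prod.fst_zero, Prod.snd_zero, e, add_zero]
        linarith
      · have : m ≤ det2 (jet S y).1 := hm y hy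
        simp only [Prod.fst_zero, Prod.snd_zero, e, add_zero]
        linarith
  refine ⟨4 * |M + 1| / m, γ, h1, fun x hx f T hf hT a1 a2 a3 => ?_⟩
  obtain ⟨b1, b2⟩ := h2 ((f x, fderiv ℝ f x (1, 0), fderiv ℝ f x (0, 1)), jet T x)
    (max_le (max_le ((norm_iteratedFDeriv_zero (f := f)).ge.trans (a1 0 (by norm_num)))
      (max_le ((g2_n1 f x (by simp)).trans (a1 1 le_rfl))
        ((g2_n1 f x (by simp)).trans (a1 1 le_rfl)))) (jet_norm a2)) x hx
  have hfq : ContDiffAt ℝ ∞ (fun y => f y • -sqv (dcov ψ y)) x := hf.smul (hq x hx)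
  have e1 : jet (fun y => f y • -sqv (dcov ψ y)) x =
      g2r (f x, fderiv ℝ f x (1, 0), fderiv ℝ f x (0, 1)) (jet (fun y => -sqv (dcov ψ y)) x) +
      (0, 0, 0, d2 f x (1, 0) (1, 0) • -sqv (dcov ψ x), d2 f x (1, 0) (0, 1) • -sqv (dcov ψ x),
        d2 f x (0, 1) (0, 1) • -sqv (dcov ψ x)) := by
    have k1 := g2_bil1 (ContinuousLinearMap.lsmul ℝ ℝ) (hf.differentiableAt (by simp))
      ((hq x hx).differentiableAt (by simp))
    have k2 := g2_bil2 (ContinuousLinearMap.lsmul ℝ ℝ) (g2_two hf) (g2_two (hq x hx))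
    simp only [ContinuousLinearMap.lsmul_apply] at k1 k2
    simp only [jet, g2r, k1, k2, Prod.mk_add_mk, add_zero, Prod.mk.injEq, true_and]
    refine ⟨?_, ?_, ?_⟩ <;> abel
  have e2 : curN (fun y => S y - f y • sqv (dcov ψ y) + T y) x =
      cjJ (jet (fun y => S y + f y • -sqv (dcov ψ y) + T y) x) := by
    simp only [smul_neg, ← sub_eq_add_neg]; rfl
  rw [e2, jet_add ((hc x hx).add hfq) hT, jet_add (hc x hx) hfq, e1,
    ← add_assoc, add_right_comm]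
  rw [hs, g2_exp hf] at a3
  generalize jet S x + _ + jet T x = j at b1 b2 ⊢
  have e3 : ∀ a b c : ℝ, ∀ w : E, cjJ (j + (0, 0, 0, a • -sqv w, b • -sqv w, c • -sqv w)) = cjJ j +
      (((rot w).1 * (rot w).1) • a + ((rot w).1 * (rot w).2 + (rot w).2 * (rot w).1) • b +
        ((rot w).2 * (rot w).2) • c) / 2 * det2 j.1 := by
    intro a b c w
    simp [cjJ, cj, npd, sqv, rot]; ring
  rw [e3]
  rw [div_le_iff₀ m0] at a3
  generalize ((rot _).1 * (rot _).1) • d2 f x (1, 0) (1, 0) + _ + _ = H at a3 ⊢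
  have H0 : 0 ≤ H := g1_nn (a := m) (by linarith [abs_nonneg (M + 1)]) m0
  nlinarith [le_abs_self (M + 1), mul_le_mul_of_nonneg_left b2.le H0]

end Vale.Agent.P205
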