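import Vale.Agent.P205.TWG
import Vale.Agent.P205.T2
import Vale.Agent.P205.PATCH

open Set Filter Topology
open scoped ContDiff

noncomputable section
namespace Vale.Agent.P205

variable {M : Type*} [TopologicalSpace M] [T2Space M] [CompactSpace M] {A : Atl M}

/-! PD0: decomposition of a tensor near `H0` into linear pieces. -/

theorem pd0_nsq (z : E) : ContDiff ℝ ∞ fun y => nsq (y - z) := by
  unfold nsq; fun_prop

theorem pd0_cp (z : E) (c : ℝ) : IsCompact {y | nsq (y - z) ≤ c} :=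
  Metric.isCompact_of_isClosed_isBounded (isClosed_le (pd0_nsq z).continuous continuous_const)
    ((Metric.isBounded_closedBall (x := z) (r := |c| + 1)).subset fun y hy => by
      rw [mem_closedBall_iff_norm]
      exact patch_norm (by positivity) (le_trans hy (by nlinarith [le_abs_self c, abs_nonneg c])))

theorem pd0_fd (ξ x v : E) : fderiv ℝ (dotE ξ) x v = dotE ξ v := by
  have : HasFDerivAt (dotE ξ)
      (ξ.1 • ContinuousLinearMap.fst ℝ ℝ ℝ + ξ.2 • ContinuousLinearMap.snd ℝ ℝ ℝ) x :=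
    (hasFDerivAt_fst.const_mul ξ.1).add (hasFDerivAt_snd.const_mul ξ.2)
  rw [this.fderiv]
  simp [dotE]

theorem pd0_ne {ξ : Fin 3 → E} (h : det3 (fun j => sqv (ξ j)) ≠ 0) (j : Fin 3) : nsq (ξ j) ≠ 0 := by
  intro h0
  have h1 : (ξ j).1 = 0 := by unfold nsq at h0; nlinarith
  have h2 : (ξ j).2 = 0 := by unfold nsq at h0; nlinarith
  apply h
  fin_cases j <;> simp_all [det3, sqv]

/-- the linear piece -/
def pd0_pc (z ξ : E) {r : ℝ} (hr : 0 < r) (hξ : nsq ξ ≠ 0) : Pc where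
  O := {y | nsq (y - z) < 4 * r ^ 2}
  K := {y | nsq (y - z) ≤ r ^ 2}
  c1 _ := (nsq ξ)⁻¹ • ξ
  c2 _ := rot ξ
  φ := dotE ξ
  f y := r ^ 2 - nsq (y - z)
  op := isOpen_lt (pd0_nsq z).continuous continuous_const
  cp := pd0_cp z _
  sub y hy := by
    simp only [mem_ofPred_eq] at hy ⊢
    nlinarith [pow_pos hr 2]
  s1 := contDiffOn_const
  s2 := contDiffOn_const
  sφ := ContDiff.contDiffOn (by unfold dotE; fun_prop)
  sf := (contDiff_const.sub (pd0_nsq z)).contDiffOn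
  comm := by simp
  φ1 x _ := by
    rw [pd0_fd, ← inv_mul_cancel₀ hξ]
    simp only [dotE, nsq, Prod.smul_fst, Prod.smul_snd, smul_eq_mul]; ring
  φ2 x _ := by rw [pd0_fd]; simp only [dotE, rot]; ring
  det x _ := by
    rw [show detE ((nsq ξ)⁻¹ • ξ) (rot ξ) = (nsq ξ)⁻¹ * nsq ξ by
      simp only [detE, rot, nsq, Prod.smul_fst, Prod.smul_snd, smul_eq_mul]; ring,
      inv_mul_cancel₀ hξ]
    exact one_ne_zero
  fK x _ h := le_of_lt (sub_pos.1 h)

theorem pd0_bound {O K : Set E} (hO : IsOpen O) (hK : IsCompact K) (hKO : K ⊆ O) {w : E → ℝ}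
    (hw : ContDiffOn ℝ ∞ w O) (L : S3 →L[ℝ] ℝ) {e : ℝ} (he : 0 < e) (R : ℝ) (k : ℕ) :
    ∃ C, 0 < C ∧ ∀ (h : E → S3) (D : ℝ), ContDiffOn ℝ ∞ h O → (∀ y ∈ O, e ≤ L (h y)) → 1 ≤ D →
      ∀ x ∈ K, ‖h x‖ ≤ R → (∀ i, 1 ≤ i → i ≤ k → ‖iteratedFDeriv ℝ i h x‖ ≤ D ^ i) →
      ‖iteratedFDeriv ℝ k (fun y => √(L (h y)) * w y) x‖ ≤ C * D ^ k := by
  have hU : IsOpen {S | 0 < L S} := isOpen_lt continuous_const L.continuous
  have hΦ : ContDiffOn ℝ ∞ (fun S => √(L S)) {S | 0 < L S} := fun S hS =>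
    (L.contDiff.contDiffAt.sqrt (ne_of_gt hS)).contDiffWithinAt
  obtain ⟨b, b1, hb⟩ := Atl.m1_bound hK (fun y hy => hw.contDiffAt (hO.mem_nhds (hKO hy))) k
  choose c hc using t2_bdd hU ((isCompact_closedBall (0 : S3) R).inter_right
    (isClosed_le continuous_const L.continuous : IsClosed {S | e ≤ L S}))
    (fun S hS => he.trans_le hS.2) hΦ
  refine ⟨∑ i ∈ Finset.range (k + 1), (k.choose i : ℝ) *
    (i.factorial * ∑ j ∈ Finset.range (k + 1), |c j|) * b + 1, by positivity,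
    fun h D hh hl hD x hx hR hd => ?_⟩
  have hm : MapsTo h O {S | 0 < L S} := fun y hy => he.trans_le (hl y hy)
  refine (Atl.m1_smul_le hO (hΦ.comp hh hm) hw (hKO hx) k).trans ?_
  rw [add_mul, Finset.sum_mul]
  refine le_add_of_le_of_nonneg (Finset.sum_le_sum fun i hi => ?_) (by positivity)
  have hi' : i ≤ k := Nat.lt_succ_iff.1 (Finset.mem_range.1 hi)
  have := norm_iteratedFDerivWithin_comp_le hΦ hh (t1_nat_le i) hU.uniqueDiffOn hO.uniqueDiffOn hm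
    (hKO hx) (C := ∑ j ∈ Finset.range (k + 1), |c j|) (D := D)
    (fun j hj => by
      rw [iteratedFDerivWithin_of_isOpen _ hU (hm (hKO hx))]
      exact (hc j _ ⟨mem_closedBall_zero_iff.2 hR, hl x (hKO hx)⟩).trans ((le_abs_self _).trans
        (Finset.single_le_sum (f := fun j => |c j|) (fun _ _ => abs_nonneg _)
          (Finset.mem_range.2 (by omega)))))
    fun j h1 hj => by
      rw [iteratedFDerivWithin_of_isOpen _ hO (hKO hx)]
      exact hd j h1 (by omega)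
  rw [iteratedFDerivWithin_of_isOpen _ hO (hKO hx)] at this
  calc _ ≤ (k.choose i : ℝ) * (i.factorial * (∑ j ∈ Finset.range (k + 1), |c j|) * D ^ k) * b := by
        gcongr
        · exact this.trans (by gcongr)
        · exact hb _ (by omega) x hx
    _ = _ := by ring

theorem Pat.decomp {g Ψ H0 : M → S3} {η : ℝ} (Pt : Pat A g Ψ η H0) :
    ∃ (J : ℕ) (p : Fin J → Fin A.n) (P : Fin J → Pc), (∀ j, (P j).O ⊆ Metric.ball 0 3) ∧
      (∀ j, ∀ x ∈ (P j).K, qf (A.rep Ψ (p j) x) ((P j).c2 x) ((P j).c2 x)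
        ≤ η * qf (A.rep g (p j) x) ((P j).c2 x) ((P j).c2 x)) ∧
      ∃ bh : Fin J → (M → S3) → E → ℝ, ∃ (c : ℝ) (C : ℕ → ℝ), 0 < c ∧ (∀ k, 0 < C k) ∧
        ∀ H : M → S3, A.TSm H → A.TN 0 (H - H0) Pt.η0 →
          (∀ j, ContDiffOn ℝ ∞ (bh j H) (P j).O) ∧ (∀ j, ∀ x ∈ (P j).K, c ≤ bh j H x) ∧
          (∀ d : ℝ, ∑ j, A.extT (p j) ((P j).K.indicator ((P j).Q d (bh j H))) = d ^ 2 • H) ∧
          ∀ (k : ℕ) (b lam : ℝ), 1 ≤ b → 1 ≤ lam → (∀ i ≤ k, A.TN i H (b * lam ^ i)) →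
            ∀ j, ∀ x ∈ (P j).K, ‖iteratedFDeriv ℝ k (bh j H) x‖ ≤ C k * b ^ (k + 1) * lam ^ k := by
  let u : Fin Pt.J → E → ℝ := fun k y => expNegInvGlue (Pt.r k ^ 2 - nsq (y - Pt.z k)) ^ 2
  have u0 : ∀ k y, ¬nsq (y - Pt.z k) ≤ Pt.r k ^ 2 →
      expNegInvGlue (Pt.r k ^ 2 - nsq (y - Pt.z k)) = 0 := fun k y h =>
    expNegInvGlue.zero_of_nonpos (by linarith [not_le.1 h])
  have s4 : ∀ k y, nsq (y - Pt.z k) ≤ Pt.r k ^ 2 → nsq (y - Pt.z k) ≤ 4 * Pt.r k ^ 2 :=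
    fun k y h => by nlinarith [sq_nonneg (Pt.r k)]
  let Wt : M → ℝ := fun m => ∑ k, A.extF (Pt.p k) (u k) m
  have W1 : A.Sm Wt := Atl.Sm.sum _ fun k _ => Atl.Sm_extF _ (pd0_cp (Pt.z k) (Pt.r k ^ 2))
    (fun y hy => Atl.ball3_sub' _ (Pt.sub k y (s4 k y hy)))
    (fun y _ => ((expNegInvGlue.contDiff.comp (contDiff_const.sub (pd0_nsq _))).pow 2).contDiffAt)
    fun y _ hy => by simp only [u, u0 k y hy]; simp
  have W0 : ∀ m, 0 < Wt m := fun m => by
    obtain ⟨k, h1, h2⟩ := Pt.cov m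
    refine Finset.sum_pos' (fun k _ => ?_) ⟨k, Finset.mem_univ k, ?_⟩
    · unfold Atl.extF; split_ifs <;> positivity
    · rw [Atl.extF, if_pos h1]
      exact pow_pos (expNegInvGlue.pos_of_pos (sub_pos.2 h2)) 2
  obtain ⟨B, B0, hB⟩ := W1.nb 0
  have h00 : ∀ H, A.TN 0 (H - H0) Pt.η0 → ∀ p, ∀ y ∈ Metric.ball (0 : E) 3,
      ‖A.rep H p y - A.rep H0 p y‖ ≤ Pt.η0 := fun H hN p y hy => by
    simpa [Atl.rep_sub] using hN p 0 le_rfl y hy
  obtain ⟨R, hR⟩ : ∃ R, ∀ H, A.TSm H → A.TN 0 (H - H0) Pt.η0 → ∀ p, ∀ y ∈ Metric.ball (0 : E) 3,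
      ‖A.rep H p y‖ ≤ R := by
    by_cases c : ∃ H, A.TSm H ∧ A.TN 0 (H - H0) Pt.η0
    · obtain ⟨H1, c1, c2⟩ := c
      obtain ⟨b, -, hb⟩ := c1.tn 0
      refine ⟨b + Pt.η0 + Pt.η0, fun H _ hN p y hy => (norm_le_insert' _ _).trans
        (add_le_add ((norm_le_insert _ _).trans (add_le_add ?_ (h00 H1 c2 p y hy)))
          (h00 H hN p y hy))⟩
      simpa using hb p 0 le_rfl y hy
    · exact ⟨0, fun H c1 c2 => absurd ⟨H, c1, c2⟩ c⟩
  choose L hL using Lc_linear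
  let e : Fin (Pt.J * 3) ≃ Fin Pt.J × Fin 3 := finProdFinEquiv.symm
  let P : Fin Pt.J × Fin 3 → Pc := fun q =>
    pd0_pc (Pt.z q.1) (Pt.ξ q.1 q.2) (Pt.rpos q.1) (pd0_ne (Pt.det q.1) q.2)
  have hO : ∀ q, (P q).O ⊆ Metric.ball 0 3 := fun q y hy => Pt.sub q.1 y (le_of_lt hy)
  have hw : ∀ q, ContDiffOn ℝ ∞ (fun y => (√(A.loc Wt (Pt.p q.1) y))⁻¹) (P q).O := fun q y hy =>
    (((W1.contDiffAt (Atl.ball3_sub' _ (hO q hy))).sqrt (W0 _).ne').inv
      (Real.sqrt_pos.2 (W0 _)).ne').contDiffWithinAt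
  choose C C0 hC using fun q k => pd0_bound (P q).op (P q).cp (P q).sub (hw q)
    (L (Pt.ξ q.1) q.2) Pt.η0pos R k
  refine ⟨Pt.J * 3, fun j => Pt.p (e j).1, fun j => P (e j), fun j => hO _,
    fun j x hx => Pt.dir _ _ x (s4 (e j).1 x hx), fun j H y => √(L (Pt.ξ (e j).1) (e j).2
      (A.rep H (Pt.p (e j).1) y)) * (√(A.loc Wt (Pt.p (e j).1) y))⁻¹, √Pt.η0 * (√B)⁻¹,
    fun k => ∑ q, C q k + 1, by have := Pt.η0pos; positivity,
    fun k => add_pos_of_nonneg_of_pos (Finset.sum_nonneg fun q _ => (C0 q k).le) one_pos,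
    fun H hH hN => ?_⟩
  have h1 : ∀ q, ∀ y ∈ (P q).O, Pt.η0 ≤ L (Pt.ξ q.1) q.2 (A.rep H (Pt.p q.1) y) := fun q y hy =>
    hL _ _ _ ▸ Pt.pos q.1 y (show _ < _ from hy).le _ (h00 H hN _ y (hO q hy)) q.2
  have h2 : ∀ q, ContDiffOn ℝ ∞ (A.rep H (Pt.p q.1)) (P q).O := fun q =>
    (hH _).mono ((hO q).trans (Atl.ball3_sub' _))
  refine ⟨fun j => ContDiffOn.mul (((L _ _).contDiff.comp_contDiffOn (h2 _)).sqrt fun y hy =>
    (Pt.η0pos.trans_le (h1 _ y hy)).ne') (hw _), fun j x hx => ?_, fun d => ?_,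
    fun k b lam hb hl hT j x hx => ?_⟩
  · exact mul_le_mul (Real.sqrt_le_sqrt (h1 _ x ((P _).sub hx))) (inv_anti₀
      (Real.sqrt_pos.2 (W0 _)) (Real.sqrt_le_sqrt ((le_abs_self _).trans (hB.norm_le _))))
      (by positivity) (by positivity)
  · rw [e.sum_comp fun q => A.extT (Pt.p q.1) ((P q).K.indicator ((P q).Q d fun y =>
      √(L (Pt.ξ q.1) q.2 (A.rep H (Pt.p q.1) y)) * (√(A.loc Wt (Pt.p q.1) y))⁻¹)),
      Fintype.sum_prod_type]
    have k1 : ∀ k, ∑ j, A.extT (Pt.p k) ((P (k, j)).K.indicator ((P (k, j)).Q d fun y =>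
        √(L (Pt.ξ k) j (A.rep H (Pt.p k) y)) * (√(A.loc Wt (Pt.p k) y))⁻¹)) =
        fun m => (A.extF (Pt.p k) (u k) m * (d ^ 2 / Wt m)) • H m := fun k => by
      rw [← Atl.extT_sum, Atl.extT_congr (T := fun y =>
        (u k y * (d ^ 2 / A.loc Wt (Pt.p k) y)) • A.rep H (Pt.p k) y), Atl.extT_smul_rep]
      · funext m
        simp only [Atl.extF, Atl.loc]
        split_ifs with c
        · rw [(A.ch _).left_inv c]
        · rw [zero_mul]
      · intro y _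
        by_cases c : nsq (y - Pt.z k) ≤ Pt.r k ^ 2
        · conv_rhs => rw [← Lc_sum (Pt.det k) (A.rep H (Pt.p k) y), Finset.smul_sum]
          refine Finset.sum_congr rfl fun j _ => ?_
          have hy : y ∈ (P (k, j)).K := c
          have e1 : dcov (P (k, j)).φ y = Pt.ξ k j := by
            simp [dcov, P, pd0_pc, pd0_fd, dotE]
          rw [indicator_of_mem hy, Pc.Q, Pc.amp, e1, smul_smul, hL, mul_pow, mul_pow, mul_pow,
            inv_pow, Real.sq_sqrt (Pt.η0pos.le.trans (h1 (k, j) y ((P _).sub hy))),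
            Real.sq_sqrt (x := A.loc Wt (Pt.p k) y) (W0 _).le]
          congr 1
          simp only [u, P, pd0_pc, Atl.loc]
          ring
        · rw [Finset.sum_eq_zero fun j _ => indicator_of_notMem (show y ∉ (P (k, j)).K from c) _]
          simp [u, u0 k y c]
    simp only [k1]
    funext m
    rw [Finset.sum_apply, ← Finset.sum_smul, ← Finset.sum_mul, mul_div_cancel₀ _ (W0 m).ne']
    rfl
  · have hx' := (P _).sub hx
    refine (hC (e j) k _ (b * lam) (h2 _) (h1 _) (one_le_mul_of_one_le_of_one_le hb hl) x hx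
      (hR H hH hN _ x (hO _ hx')) fun i i1 hi =>
        (hT i hi _ i le_rfl x (hO _ hx')).trans ?_).trans ?_
    · rw [mul_pow]
      exact mul_le_mul_of_nonneg_right (le_self_pow₀ hb (by omega)) (by positivity)
    · rw [mul_pow, mul_assoc]
      have := Finset.single_le_sum (f := fun q => C q k) (fun q _ => (C0 q k).le)
        (Finset.mem_univ (e j))
      have := C0 (e j) k
      gcongr
      · linarith
      · linarith
      · omega

end Vale.Agent.P205
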