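import Vale.Agent.P205.FSA
import Vale.Agent.P205.PATCH
import Vale.Agent.P205.PD0
import Vale.Agent.P205.G2

open Set Filter Topology
open scoped ContDiff

noncomputable section
namespace Vale.Agent.P205

variable {M : Type*} [TopologicalSpace M] [T2Space M] [CompactSpace M] {A : Atl M}

/-! FSC: common lemmas for FSN and FSP. -/

theorem fsc_met {G : E → V} {x : E} (h : ContDiffAt ℝ ∞ G x) : ContDiffAt ℝ ∞ (met G) x := by
  have h1 : ∀ v, ContDiffAt ℝ ∞ (fun y => fderiv ℝ G y v) x := fun v =>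
    (h.fderiv_right (m := ∞) le_rfl).clm_apply contDiffAt_const
  have h2 : ∀ v w, ContDiffAt ℝ ∞ (fun y => fderiv ℝ G y v ⬝ᵥ fderiv ℝ G y w) x := fun v w =>
    ContDiffAt.sum fun i _ => (contDiffAt_pi.1 (h1 v) i).mul (contDiffAt_pi.1 (h1 w) i)
  exact (h2 _ _).prodMk ((h2 _ _).prodMk (h2 _ _))

theorem fsc_bd {X : Type} [NormedAddCommGroup X] {K : Set E} (hK : IsCompact K) {f : E → X}
    (hf : ContinuousOn f K) : ∃ B, 1 ≤ B ∧ ∀ x ∈ K, ‖f x‖ ≤ B := by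
  obtain ⟨B, hB⟩ := hK.exists_bound_of_continuousOn hf
  exact ⟨max 1 B, le_max_left _ _, fun x hx => (hB x hx).trans (le_max_right _ _)⟩

theorem fsc_det (P : Pc) : ContinuousOn (fun x => detE (P.c1 x) (P.c2 x)) P.K := by
  have h1 := P.s1.continuousOn.mono P.sub
  have h2 := P.s2.continuousOn.mono P.sub
  exact (h1.fst.mul h2.snd).sub (h1.snd.mul h2.fst)

theorem fsc_cur (P : Pc) {S : E → S3} (hS : ContDiffOn ℝ ∞ S P.O) : ∃ B γ : ℝ, 0 < γ ∧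
    ∀ G : E → V, ∀ x ∈ P.K, ContDiffAt ℝ ∞ G x →
      (∀ j ≤ 2, ‖iteratedFDeriv ℝ j (fun y => met G y - S y) x‖ ≤ γ) →
      -B ≤ npG G x (P.c1 x) (P.c2 x) (P.c1 x) (P.c1 x) (P.c2 x) (P.c2 x) -
        npG G x (P.c1 x) (P.c2 x) (P.c1 x) (P.c2 x) (P.c1 x) (P.c2 x) := by
  obtain ⟨γ, γ0, hγ⟩ := curN_near P.op P.cp P.sub hS one_pos
  obtain ⟨B1, b1, h1⟩ := fsc_bd P.cp ((curN_continuousOn P.op hS).mono P.sub)
  obtain ⟨B2, b2, h2⟩ := fsc_bd P.cp ((fsc_det P).pow 4)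
  refine ⟨B2 * (B1 + 1), γ, γ0, fun G x hx hG hn => ?_⟩
  rw [gauss hG]
  refine neg_le_of_abs_le ?_
  rw [abs_mul]
  refine mul_le_mul (h2 x hx) ?_ (abs_nonneg _) (by linarith)
  have := abs_sub_abs_le_abs_sub (curN (met G) x) (curN S x)
  linarith [hγ x hx _ (fsc_met hG) hn, show |curN S x| ≤ B1 from h1 x hx]

theorem fsc_mg {g : M → S3} (hg : A.PosD g) (hgs : A.TSm g) (p : Fin A.n) (P : Pc)
    (hP : P.O ⊆ Metric.ball 0 3) : ∃ C, 0 < C ∧ ∀ x ∈ P.K, ∀ v, ∃ s t : ℝ,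
      v = s • P.c1 x + t • P.c2 x ∧ qf (A.rep g p x) v v ≤ C * (s ^ 2 + t ^ 2) ∧
      ∀ (G : E → V) (μ : ℝ), 0 ≤ μ → ContDiffAt ℝ ∞ G x →
        μ * (s ^ 2 + t ^ 2) ^ 2 ≤ np (fderiv ℝ G x (P.c1 x)) (fderiv ℝ G x (P.c2 x))
          (s ^ 2 • d2 G x (P.c1 x) (P.c1 x) + (2 * s * t) • d2 G x (P.c1 x) (P.c2 x) +
            t ^ 2 • d2 G x (P.c2 x) (P.c2 x))
          (s ^ 2 • d2 G x (P.c1 x) (P.c1 x) + (2 * s * t) • d2 G x (P.c1 x) (P.c2 x) +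
            t ^ 2 • d2 G x (P.c2 x) (P.c2 x)) →
        μ / C ^ 3 * det2 (A.rep g p x) * qf (A.rep g p x) v v ^ 2 ≤
          npG G x (1, 0) (0, 1) v v v v := by
  have ht : P.K ⊆ (A.ch p).target := P.sub.trans (hP.trans (Atl.ball3_sub' p))
  have c0 := (hgs p).continuousOn.mono ht
  obtain ⟨B0, b0, h0⟩ := fsc_bd P.cp c0
  obtain ⟨B1, b1, h1⟩ := fsc_bd P.cp (P.s1.continuousOn.mono P.sub)
  obtain ⟨B2, b2, h2⟩ := fsc_bd P.cp (P.s2.continuousOn.mono P.sub)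
  obtain ⟨B3, b3, h3⟩ := fsc_bd P.cp (f := fun x => det2 (A.rep g p x) * detE (P.c1 x) (P.c2 x) ^ 2)
    (((c0.fst.mul c0.snd.snd).sub (c0.snd.fst.pow 2)).mul ((fsc_det P).pow 2))
  refine ⟨8 * B0 * (B1 + B2) ^ 2 + B3, by positivity, fun x hx v => ?_⟩
  have hd := P.det x (P.sub hx)
  have e := E_frame hd v
  set s := detE v (P.c2 x) / detE (P.c1 x) (P.c2 x)
  set t := detE (P.c1 x) v / detE (P.c1 x) (P.c2 x)
  set C := 8 * B0 * (B1 + B2) ^ 2 + B3 with hC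
  have k1 : ‖v‖ ≤ (|s| + |t|) * (B1 + B2) := by
    rw [e]
    refine (norm_add_le _ _).trans ?_
    rw [norm_smul, norm_smul, Real.norm_eq_abs, Real.norm_eq_abs, add_mul]
    gcongr
    exacts [(h1 x hx).trans (by linarith), (h2 x hx).trans (by linarith)]
  have k2 : qf (A.rep g p x) v v ≤ C * (s ^ 2 + t ^ 2) := by
    calc _ ≤ 4 * B0 * ((|s| + |t|) * (B1 + B2)) * ((|s| + |t|) * (B1 + B2)) := by
          refine ((le_abs_self _).trans (abs_qf_le _ _ _)).trans ?_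
          gcongr
          exact h0 x hx
      _ = 4 * B0 * (B1 + B2) ^ 2 * (|s| + |t|) ^ 2 := by ring
      _ ≤ 4 * B0 * (B1 + B2) ^ 2 * (2 * (s ^ 2 + t ^ 2)) := by
          gcongr
          nlinarith [sq_nonneg (|s| - |t|), sq_abs s, sq_abs t]
      _ ≤ _ := by nlinarith [mul_nonneg (zero_le_one.trans b3) (add_nonneg (sq_nonneg s) (sq_nonneg t))]
  refine ⟨s, t, e, k2, fun G μ μ0 hG h => ?_⟩
  have k3 : d2 G x v v = s ^ 2 • d2 G x (P.c1 x) (P.c1 x) + (2 * s * t) • d2 G x (P.c1 x) (P.c2 x) +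
      t ^ 2 • d2 G x (P.c2 x) (P.c2 x) := by
    have := d2_symm hG (P.c2 x) (P.c1 x)
    rw [e]
    simp only [d2, map_add, map_smul, add_apply, smul_apply] at this ⊢
    rw [this]
    module
  rw [← k3] at h
  have k4 := npG_frame G x (P.c1 x) (P.c2 x) v v v v
  have k5 : 0 ≤ qf (A.rep g p x) v v := by
    by_cases c : v = 0
    · simp [c, qf]
    · exact (hg.rep (ht hx) v c).le
  have C0 : 0 < C := by positivity
  have k6 : det2 (A.rep g p x) * detE (P.c1 x) (P.c2 x) ^ 2 ≤ C :=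
    ((le_abs_self _).trans (h3 x hx)).trans (le_add_of_nonneg_left (by positivity))
  refine le_of_mul_le_mul_left (le_trans ?_ (h.trans (le_of_eq k4))) (sq_pos_of_ne_zero hd)
  calc _ = μ / C ^ 3 * (det2 (A.rep g p x) * detE (P.c1 x) (P.c2 x) ^ 2) *
        qf (A.rep g p x) v v ^ 2 := by ring
    _ ≤ μ / C ^ 3 * C * (C * (s ^ 2 + t ^ 2)) ^ 2 := by gcongr
    _ = _ := by field_simp

end Vale.Agent.P205
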