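import Vale.Agent.P205.FSA
import Vale.Agent.P205.PATCH
import Vale.Agent.P205.G2
import Vale.Agent.P205.FSC

open Set Filter Topology
open scoped ContDiff

noncomputable section
namespace Vale.Agent.P205

variable {M : Type*} [TopologicalSpace M] [T2Space M] [CompactSpace M] {A : Atl M}

/-! FSN: flexibility step for an annulus. -/

theorem fsn_d (o x : E) : HasFDerivAt (fun y => nsq (y - o))
    ((2 * (x - o).1) • ContinuousLinearMap.fst ℝ ℝ ℝ +
      (2 * (x - o).2) • ContinuousLinearMap.snd ℝ ℝ ℝ) x := by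
  have h := (hasFDerivAt_id (𝕜 := ℝ) x).sub_const o
  refine ((h.fst.pow 2).add (h.snd.pow 2)).congr_fderiv ?_
  ext <;> simp

theorem fsn_φ (o x v : E) : fderiv ℝ (fun y => nsq (y - o) / 2) x v = dotE (x - o) v := by
  simp only [div_eq_mul_inv]
  rw [((fsn_d o x).mul_const _).fderiv]
  simp [dotE]
  ring

theorem fsn_ne {v : E} (h : v ≠ 0) : nsq v ≠ 0 := fun h0 => h (by
  unfold nsq at h0
  exact Prod.ext (by simp only [Prod.fst_zero]; nlinarith) (by simp only [Prod.snd_zero]; nlinarith))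

/-- the annulus piece -/
def fsn_pc (o : E) (ho : ‖o‖ ≤ 2) : Pc where
  O := Metric.ball 0 3 ∩ {o}ᶜ
  K := {y | nsq (y - o) ≤ 1 / 4} ∩ {y | 1 / 64 ≤ nsq (y - o)}
  c1 y := (nsq (y - o))⁻¹ • (y - o)
  c2 y := rot (y - o)
  φ y := nsq (y - o) / 2
  f := annf o
  op := Metric.isOpen_ball.inter isOpen_compl_singleton
  cp := (pd0_cp o _).inter_right (isClosed_le continuous_const (pd0_nsq o).continuous)
  sub y hy := by
    refine ⟨?_, fun h => ?_⟩
    · have := patch_norm (v := y - o) (r := 1 / 2) (by norm_num) (le_trans hy.1 (by norm_num))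
      rw [mem_ball_zero_iff]
      linarith [norm_le_insert' y o]
    · have := hy.2
      simp only [mem_ofPred_eq, show y = o from h, nsq] at this
      norm_num at this
  s1 := ((pd0_nsq o).contDiffOn.inv fun y hy => fsn_ne (sub_ne_zero.2 hy.2)).smul (by fun_prop)
  s2 := ContDiff.contDiffOn (by unfold rot; fun_prop)
  sφ := ((pd0_nsq o).div_const _).contDiffOn
  sf := ((((pd0_nsq o).div_const _).sub contDiff_const).mul
    (contDiff_const.sub ((pd0_nsq o).div_const _))).contDiffOn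
  comm x hx := by
    have h := (hasFDerivAt_id (𝕜 := ℝ) x).sub_const o
    have h1 := ((hasDerivAt_inv (fsn_ne (sub_ne_zero.2 hx.2))).comp_hasFDerivAt x
      (fsn_d o x)).smul h
    rw [HasFDerivAt.fderiv (f := fun y => (nsq (y - o))⁻¹ • (y - o)) h1,
      HasFDerivAt.fderiv (f := fun y => rot (y - o)) (h.snd.neg.prodMk h.fst)]
    ext <;> simp [rot] <;> ring_nf <;> simp
  φ1 x hx := by
    rw [fsn_φ, ← inv_mul_cancel₀ (fsn_ne (sub_ne_zero.2 hx.2))]
    simp only [dotE, nsq, Prod.smul_fst, Prod.smul_snd, smul_eq_mul]; ring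
  φ2 x _ := by rw [fsn_φ]; simp only [dotE, rot]; ring
  det x hx := by
    rw [show detE ((nsq (x - o))⁻¹ • (x - o)) (rot (x - o)) = (nsq (x - o))⁻¹ * nsq (x - o) by
      simp only [detE, rot, nsq, Prod.smul_fst, Prod.smul_snd, smul_eq_mul]; ring,
      inv_mul_cancel₀ (fsn_ne (sub_ne_zero.2 hx.2))]
    exact one_ne_zero
  fK x _ h := by
    unfold annf at h
    constructor <;> simp only [mem_ofPred_eq] <;> nlinarith

theorem fsn_Q (a : AnnP A) :
    A.extT a.p ((fsn_pc a.o a.ho).K.indicator ((fsn_pc a.o a.ho).Q 1 a.bh)) = a.Q :=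
  Atl.extT_congr _ fun y _ => by
    by_cases c : y ∈ (fsn_pc a.o a.ho).K
    · rw [indicator_of_mem c, Pc.Q, Pc.amp, mul_one]
      congr 2
      simp only [dcov, fsn_pc, fsn_φ]
      ext <;> simp [dotE]
    · have : annf a.o y ≤ 0 := by
        by_contra h
        have h := not_le.1 h
        unfold annf at h
        exact c (by constructor <;> simp only [mem_ofPred_eq] <;> nlinarith)
      simp [indicator_of_notMem c, expNegInvGlue.zero_of_nonpos this]

theorem AnnP.tsm (a : AnnP A) : A.TSm a.Q :=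
  fsn_Q a ▸ TSm_Q a.p inter_subset_left 1 (a.sb.mono inter_subset_left)

theorem flex_ann {g G : M → S3} (hg : A.PosD g) (hgs : A.TSm g) {ψ : M → ℝ} (hψ : A.Sm ψ)
    (hG : A.TSm G) {η : ℝ} (hη : 0 < η)
    (hall : ∀ p, ∀ y ∈ (A.ch p).target, ∀ v,
      qf (A.rep (A.sqA ψ) p y) v v ≤ η * qf (A.rep g p y) v v)
    (hfl : A.Flex g (A.sqA ψ) G η) (a : AnnP A)
    (hcur : ∀ y, (nsq (y - a.o) = 1/64 ∨ nsq (y - a.o) = 1/4) → 0 < curN (A.rep (G + a.Q) a.p) y) :
    A.Flex g (A.sqA ψ) (G + a.Q) η := by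
  let P := fsn_pc a.o a.ho
  have hP : P.O ⊆ Metric.ball 0 3 := inter_subset_left
  have hS : ContDiffOn ℝ ∞ (A.rep (G + a.Q) a.p) P.O :=
    ((hG.add a.tsm) a.p).mono (hP.trans (Atl.ball3_sub' _))
  have c1 := (curN_continuousOn P.op hS).mono P.sub
  have c2 := P.sf.continuousOn.mono P.sub
  obtain ⟨c, c0, hc⟩ := (P.cp.of_isClosed_subset (c1.preimage_isClosed_of_isClosed P.cp.isClosed
    (isClosed_Iic (a := 0))) inter_subset_left).exists_forall_le' (c2.mono inter_subset_left)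
    (a := 0) fun x hx => by
      have h1 : nsq (x - a.o) < 1 / 4 := lt_of_le_of_ne hx.1.1 fun h =>
        (hcur x (Or.inr h)).not_ge hx.2
      have h2 : 1 / 64 < nsq (x - a.o) := lt_of_le_of_ne hx.1.2 fun h =>
        (hcur x (Or.inl h.symm)).not_ge hx.2
      exact mul_pos (by linarith) (by linarith)
  obtain ⟨e, e0, he⟩ := (P.cp.of_isClosed_subset (c2.preimage_isClosed_of_isClosed P.cp.isClosed
    (isClosed_Iic (a := c / 2))) inter_subset_left).exists_forall_le' (c1.mono inter_subset_left)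
    (a := 0) fun x hx => not_le.1 fun h => by
      linarith [hc x ⟨hx.1, h⟩, show P.f x ≤ c / 2 from hx.2]
  obtain ⟨t, t0, t1, t2⟩ : ∃ t : ℝ, 0 < t ∧ t ≤ c ∧ t ≤ 1 / 32 :=
    ⟨min c (1 / 32), by positivity, min_le_left _ _, min_le_right _ _⟩
  obtain ⟨κ, k1, h⟩ := FSA hg hgs (Atl.TSm_sqA hψ) hG hfl a.p P hP (a.sb.mono hP)
    (fun x hx => a.pos x (hP (P.sub hx))) (l' := 1 / 128 + t / 2) (l := 1 / 128 + t)
    (r := 1 / 8 - t) (r' := 1 / 8 - t / 2) (c0 := t / 2 * (t / 2)) (by linarith) (by linarith)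
    (by linarith) (by positivity) (fun x _ _ hx => by
      have a1 : _ ≤ nsq (x - a.o) / 2 := hx.1
      have a2 : nsq (x - a.o) / 2 ≤ _ := hx.2
      exact mul_le_mul (by linarith) (by linarith) (by positivity) (by linarith))
    fun x hx => hall _ x (Atl.ball3_sub' _ (hP (P.sub hx))) _
  rw [fsn_Q] at h
  refine h η (η / 4) le_rfl (by positivity) (Pat_thin hg hgs hψ hη) ?_
  obtain ⟨B, γ1, g1, hB⟩ := fsc_cur P hS
  obtain ⟨γ2, g2, hγ⟩ := curN_near P.op P.cp P.sub hS (half_pos e0)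
  obtain ⟨C, C0, hC⟩ := fsc_mg hg hgs a.p P hP
  obtain ⟨κ', k2, k3, k4⟩ : ∃ κ', κ ≤ κ' ∧ B ≤ κ' ∧ 2 / e ≤ κ' :=
    ⟨max κ (max B (2 / e)), le_max_left _ _, le_max_of_le_right (le_max_left _ _),
      le_max_of_le_right (le_max_right _ _)⟩
  obtain ⟨μ1, m1, h1⟩ := mg_pos (k1.trans k2)
  obtain ⟨μ2, s0, m2, h2⟩ := mg_wind (k1.trans k2)
  refine ⟨min μ1 μ2 / C ^ 3, s0, min γ1 γ2, by positivity, by positivity,
    fun s hs G' x hx hG' hn hgeo hw v _ => ?_⟩
  obtain ⟨s', t', -, -, k⟩ := hC x hx v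
  refine k G' _ (by positivity) hG' ?_
  have q1 := hgeo.1.trans (mul_le_mul_of_nonneg_right k2 (np_nonneg _ _ _))
  have q2 := hgeo.2.1.trans k2
  have q3 := hgeo.2.2.1.trans ((mul_one κ).trans_le k2)
  by_cases cc : 0 < P.f x ∧ P.φ x ∈ Icc (1 / 128 + t) (1 / 8 - t)
  · refine le_trans (mul_le_mul_of_nonneg_right (min_le_right _ _) (sq_nonneg _))
      (h2 s hs _ _ _ _ _ _ _ q1 q2 q3 ((neg_le_neg k3).trans
        (hB G' x hx hG' fun j hj => (hn j hj).trans (min_le_left _ _))) (hgeo.2.2.2.trans ?_)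
        ((hw cc.1 cc.2).trans (mul_le_mul_of_nonneg_right k2 (np_nonneg _ _ _))))
    rw [one_mul]
    exact mul_le_mul_of_nonneg_right k2 (sq_nonneg _)
  · refine le_trans (mul_le_mul_of_nonneg_right (min_le_left _ _) (sq_nonneg _))
      (h1 _ _ _ _ _ _ _ q1 q2 q3 ?_)
    have r1 : P.f x ≤ c / 2 := by
      by_contra r
      have a1 : nsq (x - a.o) ≤ 1 / 4 := hx.1
      have a2 : 1 / 64 ≤ nsq (x - a.o) := hx.2
      have a3 : c / 2 < (nsq (x - a.o) / 2 - 1 / 128) * (1 / 8 - nsq (x - a.o) / 2) := not_le.1 r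
      refine cc ⟨by linarith [not_le.1 r], ?_, ?_⟩ <;> simp only [P, fsn_pc] <;> nlinarith
    have r2 := abs_le.1 (hγ x hx _ (fsc_met hG') fun j hj => (hn j hj).trans (min_le_right _ _))
    have r3 := gauss hG' (P.c1 x) (P.c2 x)
    have r4 : detE (P.c1 x) (P.c2 x) = 1 := by
      rw [← inv_mul_cancel₀ (fsn_ne (sub_ne_zero.2 (P.sub hx).2))]
      simp only [P, fsn_pc, detE, rot, nsq, Prod.smul_fst, Prod.smul_snd, smul_eq_mul]; ring
    rw [r4, one_pow, one_mul] at r3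
    refine le_trans ?_ (le_of_eq (congrArg _ r3.symm))
    rw [div_le_iff₀ e0] at k4
    nlinarith [he x ⟨hx, r1⟩, r2.1]

end Vale.Agent.P205
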