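import Vale.Agent.P205.FSA
import Vale.Agent.P205.PATCH
import Vale.Agent.P205.G2
import Vale.Agent.P205.FSC

open Set Filter Topology
open scoped ContDiff

noncomputable section
namespace Vale.Agent.P205

variable {M : Type*} [TopologicalSpace M] [T2Space M] [CompactSpace M] {A : Atl M}

/-! FSP: flexibility step along the foliation. -/

theorem fsp_sm {ψ : M → ℝ} (hψ : A.Sm ψ) (p : Fin A.n) (v : E) :
    ContDiffOn ℝ ∞ (fun y => fderiv ℝ (A.loc ψ p) y v) (Metric.ball 0 3) := fun _ hy =>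
  (((hψ.contDiffAt (Atl.ball3_sub' p hy)).fderiv_right (m := ∞) le_rfl).clm_apply
    contDiffAt_const).contDiffWithinAt

/-- the piece along the foliation -/
def fsp_pc {ψ : M → ℝ} (hψ : A.Sm ψ) (a : PsiD A ψ) : Pc where
  O := Metric.ball 0 3 ∩ (fun y => fderiv ℝ (A.loc ψ a.p) y a.w) ⁻¹' {0}ᶜ
  K := {y | nsq (y - a.z) ≤ a.r ^ 2}
  c1 y := (fderiv ℝ (A.loc ψ a.p) y a.w)⁻¹ • a.w
  c2 y := rot a.w - (fderiv ℝ (A.loc ψ a.p) y (rot a.w) * (fderiv ℝ (A.loc ψ a.p) y a.w)⁻¹) • a.w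
  φ := A.loc ψ a.p
  f := a.f
  op := (fsp_sm hψ a.p a.w).continuousOn.isOpen_inter_preimage Metric.isOpen_ball
    isOpen_compl_singleton
  cp := pd0_cp _ _
  sub y hy := ⟨a.sub y hy, fun h => a.nz y hy ((dotE_dcov (A.loc ψ a.p) y a.w).trans h)⟩
  s1 := (((fsp_sm hψ a.p _).mono inter_subset_left).inv fun _ hy => hy.2).smul contDiffOn_const
  s2 := contDiffOn_const.sub ((((fsp_sm hψ a.p _).mono inter_subset_left).mul
    (((fsp_sm hψ a.p _).mono inter_subset_left).inv fun _ hy => hy.2)).smul contDiffOn_const)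
  sφ := (hψ a.p).mono (inter_subset_left.trans (Atl.ball3_sub' _))
  sf := (contDiff_const.sub (pd0_nsq _)).contDiffOn
  comm x hx := by
    have h0 := hψ.contDiffAt (Atl.ball3_sub' a.p hx.1)
    have h : ∀ v, HasFDerivAt (fun y => fderiv ℝ (A.loc ψ a.p) y v)
        ((fderiv ℝ (fderiv ℝ (A.loc ψ a.p)) x).flip v) x := fun v => by
      simpa using ((h0.fderiv_right (m := 1) (by norm_cast)).differentiableAt
        one_ne_zero).hasFDerivAt.clm_apply (hasFDerivAt_const v x)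
    have h1 := (hasDerivAt_inv hx.2).comp_hasFDerivAt x (h a.w)
    rw [HasFDerivAt.fderiv (f := fun y => (fderiv ℝ (A.loc ψ a.p) y a.w)⁻¹ • a.w)
      (h1.smul_const a.w), HasFDerivAt.fderiv (f := fun y => rot a.w -
        (fderiv ℝ (A.loc ψ a.p) y (rot a.w) * (fderiv ℝ (A.loc ψ a.p) y a.w)⁻¹) • a.w)
      ((((h (rot a.w)).mul h1).smul_const a.w).const_sub _)]
    have e := t1_d2_symm h0 a.w (rot a.w)
    simp only [neg_apply, ContinuousLinearMap.smulRight_apply, add_apply, smul_apply, map_smul,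
      map_sub, ContinuousLinearMap.flip_apply, smul_eq_mul, Function.comp, e, ← inv_pow]
    module
  φ1 x hx := by rw [map_smul, smul_eq_mul, inv_mul_cancel₀ hx.2]
  φ2 x hx := by rw [map_sub, map_smul, smul_eq_mul, inv_mul_cancel_right₀ hx.2, sub_self]
  det x hx := by
    have h : nsq a.w ≠ 0 := fun h0 => hx.2 (by
      have : a.w = 0 := by
        unfold nsq at h0
        exact Prod.ext (by simp only [Prod.fst_zero]; nlinarith)
          (by simp only [Prod.snd_zero]; nlinarith)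
      simp [this])
    refine ne_of_eq_of_ne ?_ (mul_ne_zero (inv_ne_zero hx.2) h)
    simp only [detE, rot, nsq, Prod.smul_fst, Prod.smul_snd, Prod.fst_sub, Prod.snd_sub,
      smul_eq_mul]
    ring
  fK x _ h := le_of_lt (sub_pos.1 h)

theorem fsp_Q {ψ : M → ℝ} (hψ : A.Sm ψ) (a : PsiP A ψ) :
    A.extT a.p ((fsp_pc hψ a.toPsiD).K.indicator ((fsp_pc hψ a.toPsiD).Q 1 a.bh)) = a.Q :=
  Atl.extT_congr _ fun y _ => by
    by_cases c : y ∈ (fsp_pc hψ a.toPsiD).K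
    · rw [indicator_of_mem c, Pc.Q, Pc.amp, mul_one]
      rfl
    · have : a.toPsiD.f y ≤ 0 := sub_nonpos.2 (not_le.1 c).le
      simp [indicator_of_notMem c, expNegInvGlue.zero_of_nonpos this]

theorem PsiP.tsm {ψ : M → ℝ} (hψ : A.Sm ψ) (a : PsiP A ψ) : A.TSm a.Q :=
  fsp_Q hψ a ▸ TSm_Q a.p inter_subset_left 1 (a.sb.mono inter_subset_left)

theorem flex_psi {g G : M → S3} (hg : A.PosD g) (hgs : A.TSm g) {ψ : M → ℝ} (hψ : A.Sm ψ)
    (hG : A.TSm G) {η : ℝ} (hη : 0 < η) (hfl : A.Flex g (A.sqA ψ) G η) (a : PsiP A ψ) :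
    ∃ η', 0 < η' ∧ A.Flex g (A.sqA ψ) (G + a.Q) η' := by
  let P := fsp_pc hψ a.toPsiD
  have hP : P.O ⊆ Metric.ball 0 3 := inter_subset_left
  have ht : P.K ⊆ (A.ch a.p).target := P.sub.trans (hP.trans (Atl.ball3_sub' _))
  have hS : ContDiffOn ℝ ∞ (A.rep (G + a.Q) a.p) P.O :=
    ((hG.add (a.tsm hψ)) a.p).mono (hP.trans (Atl.ball3_sub' _))
  have e : ∀ x ∈ P.K, ∀ s t : ℝ, qf (A.rep (A.sqA ψ) a.p x) (s • P.c1 x + t • P.c2 x)
      (s • P.c1 x + t • P.c2 x) = s ^ 2 := fun x hx s t => by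
    have h1 : fderiv ℝ (A.loc ψ a.p) x (P.c1 x) = 1 := P.φ1 x (P.sub hx)
    have h2 : fderiv ℝ (A.loc ψ a.p) x (P.c2 x) = 0 := P.φ2 x (P.sub hx)
    rw [Atl.rep_sqA hψ (ht hx), qf_sqv, dotE_dcov, map_add, map_smul, map_smul, h1, h2]
    simp [sq]
  obtain ⟨l', hl⟩ := P.exists_vacuous
  obtain ⟨κ, k1, h⟩ := FSA hg hgs (Atl.TSm_sqA hψ) hG hfl a.p P hP (a.sb.mono hP)
    (fun x hx => a.pos x (hP (P.sub hx))) (l' := l') (l := l' + 1) (r := l' + 1) (r' := l' + 2)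
    (c0 := 1) (by linarith) le_rfl (by linarith) one_pos
    (fun x hx h1 h2 => absurd h2.1 (hl x hx h1).not_ge) fun x hx => by
      have := e x hx 0 1
      rw [zero_smul, one_smul, zero_add] at this
      rw [this, zero_pow two_ne_zero]
      by_cases c : P.c2 x = 0
      · simp [c, qf]
      · exact (mul_pos hη (hg.rep (ht hx) _ c)).le
  rw [fsp_Q] at h
  obtain ⟨B, γ, g1, hB⟩ := fsc_cur P hS
  obtain ⟨C, C0, hC⟩ := fsc_mg hg hgs a.p P hP
  obtain ⟨θ, μ, t0, m0, h1⟩ := mg_thin (k1.trans (le_max_left κ B))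
  obtain ⟨η', e0, e1, e2⟩ : ∃ η', 0 < η' ∧ η' ≤ η ∧ η' * C * (1 + θ ^ 2) ≤ θ ^ 2 :=
    ⟨min η (θ ^ 2 / (C * (1 + θ ^ 2))), by positivity, min_le_left _ _, by
      rw [mul_assoc]; exact (le_div_iff₀ (by positivity)).1 (min_le_right _ _)⟩
  refine ⟨η', e0, h η' (η' / 4) e1 (by positivity) (Pat_thin hg hgs hψ e0)
    ⟨μ / C ^ 3, 0, γ, by positivity, g1, fun s _ G' x hx hG' hn hgeo _ v hv => ?_⟩⟩
  obtain ⟨s', t', c1, c2, k⟩ := hC x hx v
  refine k G' _ m0.le hG' (h1 _ _ _ _ _ _ _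
    (hgeo.1.trans (mul_le_mul_of_nonneg_right (le_max_left _ _) (np_nonneg _ _ _)))
    (hgeo.2.1.trans (le_max_left _ _)) (hgeo.2.2.1.trans ((mul_one κ).trans_le (le_max_left _ _)))
    ((neg_le_neg (le_max_right _ _)).trans (hB G' x hx hG' hn)) ?_)
  have c3 := (c1 ▸ e x hx s' t').symm.trans_le (hv.trans (mul_le_mul_of_nonneg_left c2 e0.le))
  refine abs_le_of_sq_le_sq ?_ (by positivity) |> (le_abs_self _).trans
  rw [sq_abs, mul_pow, sq_abs]
  nlinarith [mul_le_mul_of_nonneg_right e2 (add_nonneg (sq_nonneg s') (sq_nonneg t')),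
    mul_le_mul_of_nonneg_right c3 (show 0 ≤ 1 + θ ^ 2 by positivity)]

end Vale.Agent.P205
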