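import Vale.Agent.P205.Z3
import Vale.Agent.P205.F0
import Vale.Agent.P205.FSN
import Vale.Agent.P205.FSP

open Set Filter Topology
open scoped ContDiff

noncomputable section
namespace Vale.Agent.P205

/-! CT: the theorem on the level of finite atlases. -/
theorem core (M : Type*) [TopologicalSpace M] [T2Space M] [CompactSpace M] : Core M := by
  intro A g ι hgs hg hι hi
  obtain ⟨ψ, F, n, an, m, ps, hψ, hF, hc, hsum, hcur⟩ := GEO hg hgs hι hi
  have hΨ := Atl.TSm_sqA hψ
  obtain ⟨η, hη, hdom⟩ := hg.dominates hgs hΨ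
  have hall : ∀ p, ∀ y ∈ (A.ch p).target, ∀ v,
      qf (A.rep (A.sqA ψ) p y) v v ≤ η * qf (A.rep g p y) v v :=
    fun p y hy v => (le_abs_self _).trans (hdom p y hy v)
  have hM := Atl.TSm_metA hF
  have h1 : ∀ k : ℕ, k ≤ n → A.Flex g (A.sqA ψ)
      (A.metA F + ∑ j ∈ Finset.univ.filter (fun j : Fin n => j.val < k), (an j).Q) η := by
    intro k
    induction k with
    | zero => intro _; simpa using flex_base hg hgs hΨ hF hc η
    | succ k ih =>
      intro hk
      have e : Finset.univ.filter (fun j : Fin n => j.val < k + 1)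
          = insert (⟨k, hk⟩ : Fin n) (Finset.univ.filter (fun j : Fin n => j.val < k)) := by
        ext j
        simp only [Finset.mem_filter, Finset.mem_univ, true_and, Finset.mem_insert, Fin.ext_iff]
        omega
      have e' : Finset.univ.filter (fun j : Fin n => j.val < k + 1)
          = Finset.univ.filter (· ≤ (⟨k, hk⟩ : Fin n)) := by
        ext j
        simp only [Finset.mem_filter, Finset.mem_univ, true_and, Fin.le_def]
        omega
      have e2 : A.metA F + ∑ j ∈ Finset.univ.filter (fun j : Fin n => j.val < k + 1), (an j).Q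
          = A.metA F + ∑ j ∈ Finset.univ.filter (fun j : Fin n => j.val < k), (an j).Q
            + (an ⟨k, hk⟩).Q := by
        rw [e, Finset.sum_insert (by simp)]
        abel
      rw [e2]
      refine flex_ann hg hgs hψ (hM.add (Atl.TSm.sum _ fun j _ => (an j).tsm)) hη hall
        (ih (by omega)) _ fun y hy => ?_
      rw [← e2, e']
      exact hcur _ y hy
  have h2 : A.Flex g (A.sqA ψ) (A.metA F + ∑ j, (an j).Q) η := by
    have := h1 n le_rfl
    simpa using this
  have hG : A.TSm (A.metA F + ∑ j, (an j).Q) := hM.add (Atl.TSm.sum _ fun j _ => (an j).tsm)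
  have h3 : ∀ s : Finset (Fin m), ∃ η', 0 < η' ∧
      A.Flex g (A.sqA ψ) (A.metA F + ∑ j, (an j).Q + ∑ l ∈ s, (ps l).Q) η' := by
    intro s
    induction s using Finset.induction_on with
    | empty => exact ⟨η, hη, by simpa using h2⟩
    | insert l s hl ih =>
      obtain ⟨η', hη', ih⟩ := ih
      obtain ⟨η'', h'', hf⟩ := flex_psi hg hgs hψ
        (hG.add (Atl.TSm.sum _ fun j _ => (ps j).tsm hψ)) hη' ih (ps l)
      refine ⟨η'', h'', ?_⟩
      rw [Finset.sum_insert hl]
      convert hf using 1
      abel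
  obtain ⟨η', -, μ, δ0, B, -, hδ, hf⟩ := h3 Finset.univ
  obtain ⟨F', hF', hm, -, -⟩ := hf 0 ⟨le_rfl, hδ.le⟩ 0 ⟨le_rfl, hδ.le⟩
  refine ⟨F', hF', ?_⟩
  rw [hm, ← hsum]
  simp

end Vale.Agent.P205
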