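import Vale.Agent.P205.D1

/-! P205: the twist iteration, loops, frames. -/

open Set Filter Topology
open scoped ContDiff

noncomputable section
namespace Vale.Agent.P205

/-- data of the abstract twist iteration -/
structure TD1 where
  ε : ℝ
  C1 : E → E
  C2 : E → E
  F1 : E → V
  F2 : E → V
  F22 : E → V
  f2 : E → V
  fn : E → V
  T0 : E → V
  ρ : E → ℝ
  Th : Y → V
  nu : Y → V
  β : Y → ℝ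
  b : Y → ℝ
  B : Y → ℝ
  om : Y → ℝ
  xs : Fin 4 → Y → ℝ
  ys : Fin 4 → Y → ℝ

namespace TD1
variable (D : TD1)
def T (y : Y) : V := D.T0 y.1 + D.ρ y.1 • D.Th y
def A1 (U : Y → V) (y : Y) : V := D.F1 y.1 + dθ U y + D.ε • dX D.C1 U y
def A2 (U : Y → V) (y : Y) : V := D.F2 y.1 + D.ε • dX D.C2 U y
def E11 (U : Y → V) (y : Y) : ℝ := D.A1 U y ⬝ᵥ D.A1 U y - (D.T0 y.1 ⬝ᵥ D.T0 y.1 + D.ρ y.1 ^ 2)
def E12 (U : Y → V) (y : Y) : ℝ := D.A1 U y ⬝ᵥ D.A2 U y - D.F1 y.1 ⬝ᵥ D.F2 y.1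
def E22 (U : Y → V) (y : Y) : ℝ := D.A2 U y ⬝ᵥ D.A2 U y - D.F2 y.1 ⬝ᵥ D.F2 y.1
def U0 : Y → V := nrm D.om (fun y => D.T y - D.F1 y.1)
def cc (U : Y → V) : Y → ℝ := nrm D.om (fun y => -(D.E12 U y - tot (D.E12 U) y.1 * D.b y))
def nn (U : Y → V) (y : Y) : ℝ := dX D.C2 (D.cc U) y + D.E22 U y / (2 * D.ε)
def g1 (U : Y → V) (y : Y) : ℝ :=
  -(D.E11 U y / 2 + D.T0 y.1 ⬝ᵥ (dθ (D.cc U) y • D.f2 y.1 + dθ (D.nn U) y • D.fn y.1)) / D.ρ y.1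
def aa (U : Y → V) : Y → ℝ := nrm D.om (fun z => D.g1 U z - tot (D.g1 U) z.1 * D.b z)
def Wp (U : Y → V) (y : Y) : V :=
  D.cc U y • D.f2 y.1 + D.nn U y • D.fn y.1 + D.aa U y • D.Th y
    - (tot (D.g1 U) y.1 * D.B y) • D.nu y
def ell (W : Y → V) : E → ℝ :=
  tot (fun y => dθ W y ⬝ᵥ dX D.C2 D.U0 y + D.F2 y.1 ⬝ᵥ dX D.C1 W y + D.T y ⬝ᵥ dX D.C2 W y)
def Wj (j : Fin 4) (y : Y) : V := D.xs j y • D.Th y + D.ys j y • D.nu y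
def Lam (j : Fin 4) : E → ℝ := D.ell (D.Wj j)
def tgt (U : Y → V) (x : E) : ℝ := -(tot (D.E12 U) x / D.ε + D.ell (D.Wp U) x)
def gam (U : Y → V) (j : Fin 4) (x : E) : ℝ := D.Lam j x * D.tgt U x / ∑ l, D.Lam l x ^ 2
def Wh (U : Y → V) (y : Y) : V := ∑ j, D.gam U j y.1 • D.Wj j y
/-- the full correction -/
def Wc (U : Y → V) (y : Y) : V := D.Wp U y + D.Wh U y
def step (U : Y → V) : Y → V := fun y => U y + D.Wc U y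
def it (n : ℕ) : Y → V := D.step^[n] D.U0
end TD1

section hyp
variable {ι : Type*}

/-- basic hypotheses of the twist iteration -/
structure Hyp0 (A : Fam ι E) (D : ι → TD1) (σ : ι → ℝ) (η a : ι → E → ℝ) : Prop where
  eps : ∀ i, 0 < (D i).ε
  sig : ∀ i, 1 ≤ σ i
  epsη : ∀ i, ∀ x ∈ A.O i, (D i).ε * σ i ^ 2 ≤ η i x
  η1 : ∀ i, ∀ x ∈ A.O i, η i x ≤ 1
  apos : ∀ i, ∀ x ∈ A.O i, 0 < a i x
  ale : A.Le a (fun _ _ => 1)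
  tC1 : Tm A (fun i _ => σ i) (fun i => (D i).C1)
  tC2 : Tm A (fun i _ => σ i) (fun i => (D i).C2)
  tF1 : Tm A (fun _ _ => 1) (fun i => (D i).F1)
  tF2 : Tm A (fun _ _ => 1) (fun i => (D i).F2)
  tF22 : Tm A (fun _ _ => 1) (fun i => (D i).F22)
  tf2 : Tm A (fun _ _ => 1) (fun i => (D i).f2)
  tfn : Tm A (fun _ _ => 1) (fun i => (D i).fn)
  tT0 : Tm A (fun _ _ => 1) (fun i => (D i).T0)
  tρ : Tm A (fun _ _ => 1) (fun i => (D i).ρ)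
  tρi : Tm A (fun _ _ => 1) (fun i x => ((D i).ρ x)⁻¹)
  ρpos : ∀ i, ∀ x ∈ A.O i, 0 < (D i).ρ x
  hF22 : ∀ i, ∀ x ∈ A.O i, (D i).F22 x = dV (D i).C2 (D i).F2 x
  tTh : TmC A (fun _ _ => 1) (fun i => (D i).Th)
  tnu : TmC A (fun _ _ => 1) (fun i => (D i).nu)
  tb : TmC A (fun _ _ => 1) (fun i => (D i).b)
  tom : TmC A (fun _ _ => 1) (fun i => (D i).om)
  txs : ∀ j, TmC A (fun _ _ => 1) (fun i => (D i).xs j)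
  tB : TmC A (fun i x => (a i x)⁻¹) (fun i => (D i).B)
  tys : ∀ j, TmC A (fun i x => (a i x)⁻¹) (fun i => (D i).ys j)
  pTh : ∀ i, Per (A.O i) (D i).Th
  pnu : ∀ i, Per (A.O i) (D i).nu
  pb : ∀ i, Per (A.O i) (D i).b
  pB : ∀ i, Per (A.O i) (D i).B
  pom : ∀ i, Per (A.O i) (D i).om
  pxs : ∀ i j, Per (A.O i) ((D i).xs j)
  pys : ∀ i j, Per (A.O i) ((D i).ys j)
  on : ∀ i, ∀ y : Y, y.1 ∈ A.O i → (D i).Th y ⬝ᵥ (D i).Th y = 1 ∧ (D i).nu y ⬝ᵥ (D i).nu y = 1 ∧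
    (D i).Th y ⬝ᵥ (D i).nu y = 0
  oTh : ∀ i, ∀ y : Y, y.1 ∈ A.O i → (D i).Th y ⬝ᵥ (D i).F2 y.1 = 0 ∧ (D i).Th y ⬝ᵥ (D i).F22 y.1 = 0 ∧
    (D i).Th y ⬝ᵥ (D i).f2 y.1 = 0 ∧ (D i).Th y ⬝ᵥ (D i).fn y.1 = 0 ∧ (D i).Th y ⬝ᵥ (D i).T0 y.1 = 0
  onu : ∀ i, ∀ y : Y, y.1 ∈ A.O i → (D i).nu y ⬝ᵥ (D i).F2 y.1 = 0 ∧ (D i).nu y ⬝ᵥ (D i).F22 y.1 = 0 ∧
    (D i).nu y ⬝ᵥ (D i).f2 y.1 = 0 ∧ (D i).nu y ⬝ᵥ (D i).fn y.1 = 0 ∧ (D i).nu y ⬝ᵥ (D i).T0 y.1 = 0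
  dual : ∀ i, ∀ x ∈ A.O i, (D i).f2 x ⬝ᵥ (D i).F2 x = 1 ∧ (D i).f2 x ⬝ᵥ (D i).F22 x = 0 ∧
    (D i).fn x ⬝ᵥ (D i).F2 x = 0 ∧ (D i).fn x ⬝ᵥ (D i).F22 x = 1
  hT0 : ∀ i, ∀ x ∈ A.O i, (D i).T0 x ⬝ᵥ (D i).F2 x = (D i).F1 x ⬝ᵥ (D i).F2 x ∧
    (D i).T0 x ⬝ᵥ (D i).F22 x = (D i).F1 x ⬝ᵥ (D i).F22 x
  dTh : ∀ i, ∀ y : Y, y.1 ∈ A.O i → dθ (D i).Th y = (D i).β y • (D i).nu y
  dnu : ∀ i, ∀ y : Y, y.1 ∈ A.O i → dθ (D i).nu y = -((D i).β y • (D i).Th y)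
  tT : TmC A a (fun i y => (D i).T y - (D i).F1 y.1)
  totT : ∀ i, ∀ x ∈ A.O i, tot (fun y => (D i).T y - (D i).F1 y.1) x = 0
  hB : ∀ i, ∀ y : Y, y.1 ∈ A.O i → (D i).β y * (D i).B y = (D i).b y
  totb : ∀ i, ∀ x ∈ A.O i, tot (D i).b x = 1
  tBnu : Tm A (fun _ _ => 1) (fun i => tot (fun y => (D i).B y • (D i).nu y))
  tysnu : ∀ j, Tm A (fun _ _ => 1) (fun i => tot (fun y => (D i).ys j y • (D i).nu y))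
  hys : ∀ i j, ∀ y : Y, y.1 ∈ A.O i → (D i).β y * (D i).ys j y = dθ ((D i).xs j) y
  totxs : ∀ i j, ∀ x ∈ A.O i, tot ((D i).xs j) x = 0
  totom : ∀ i, ∀ x ∈ A.O i, tot (D i).om x = 1
  tom' : TmC A a (fun i y => (D i).om y - (2 * Real.pi)⁻¹)

/-- full hypotheses -/
structure Hyp (A : Fam ι E) (D : ι → TD1) (σ : ι → ℝ) (η a : ι → E → ℝ) : Prop
    extends Hyp0 A D σ η a where
  lam : A.Le (fun i _ => σ i ^ 2) (fun i x => ∑ l, (D i).Lam l x ^ 2)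
  h0 : Tm A (fun i x => σ i * η i x * a i x ^ 2) (fun i => tot (fun y =>
    (D i).T y ⬝ᵥ dX (D i).C2 (D i).U0 y + (D i).F2 y.1 ⬝ᵥ dX (D i).C1 (D i).U0 y))

/-- basic consequences -/
structure Base (A : Fam ι E) (D : ι → TD1) (σ : ι → ℝ) (a : ι → E → ℝ) : Prop where
  tU0 : TmC A a (fun i => (D i).U0)
  pU0 : ∀ i, Per (A.O i) (D i).U0
  dU0 : ∀ i, ∀ y : Y, y.1 ∈ A.O i → dθ (D i).U0 y = (D i).T y - (D i).F1 y.1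
  oU0 : ∀ i, ∀ y : Y, y.1 ∈ A.O i → (D i).U0 y ⬝ᵥ (D i).F2 y.1 = 0 ∧ (D i).U0 y ⬝ᵥ (D i).F22 y.1 = 0
  totU0 : Tm A (fun i x => a i x ^ 2) (fun i => tot (D i).U0)
  tT1 : TmC A (fun _ _ => 1) (fun i => (D i).T)
  tThm : TmC A a (fun i y => (D i).Th y - ((D i).ρ y.1)⁻¹ • ((D i).F1 y.1 - (D i).T0 y.1))
  tWj : ∀ j, TmC A (fun i x => (a i x)⁻¹) (fun i => (D i).Wj j)
  pWj : ∀ i j, Per (A.O i) ((D i).Wj j)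
  totWj : ∀ j, Tm A (fun _ _ => 1) (fun i => tot ((D i).Wj j))
  tLam : ∀ j, Tm A (fun i _ => σ i) (fun i => (D i).Lam j)
  oWj : ∀ i j, ∀ y : Y, y.1 ∈ A.O i → (D i).F2 y.1 ⬝ᵥ (D i).Wj j y = 0 ∧
    (D i).F22 y.1 ⬝ᵥ (D i).Wj j y = 0 ∧ (D i).T y ⬝ᵥ dθ ((D i).Wj j) y = 0 ∧
    (D i).T y ⬝ᵥ (D i).Wj j y = (D i).ρ y.1 * (D i).xs j y

/-- invariant of the iteration at order `k` -/
structure Inv (A : Fam ι E) (D : ι → TD1) (σ : ι → ℝ) (η a : ι → E → ℝ) (k : ℕ)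
    (U : ι → Y → V) : Prop where
  tV : TmC A (fun i x => a i x * η i x) (fun i y => U i y - (D i).U0 y)
  per : ∀ i, Per (A.O i) (U i)
  e11 : TmC A (fun i x => a i x * η i x ^ k) (fun i => (D i).E11 (U i))
  t11 : Tm A (fun i x => a i x ^ 2 * η i x ^ k) (fun i => tot ((D i).E11 (U i)))
  e12 : TmC A (fun i x => a i x * η i x ^ k / σ i) (fun i => (D i).E12 (U i))
  t12 : Tm A (fun i x => (D i).ε * σ i * a i x ^ 2 * η i x ^ k) (fun i => tot ((D i).E12 (U i)))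
  e22 : TmC A (fun i x => (D i).ε * a i x ^ 2 * η i x ^ k) (fun i => (D i).E22 (U i))

/-- sizes of a correction -/
structure CorS (A : Fam ι E) (η a : ι → E → ℝ) (k : ℕ) (W : ι → Y → V) : Prop where
  tW : TmC A (fun i x => a i x * η i x ^ k) W
  per : ∀ i, Per (A.O i) (W i)
  totW : Tm A (fun i x => a i x ^ 2 * η i x ^ k) (fun i => tot (W i))

/-- identities satisfied by the correction -/
structure CorI (A : Fam ι E) (D : ι → TD1) (U W : ι → Y → V) : Prop where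
  i11 : ∀ i, ∀ y : Y, y.1 ∈ A.O i → (D i).E11 (U i) y + 2 * ((D i).T y ⬝ᵥ dθ (W i) y) = 0
  i12 : ∀ i, ∀ y : Y, y.1 ∈ A.O i →
    (D i).E12 (U i) y + (D i).F2 y.1 ⬝ᵥ dθ (W i) y = tot ((D i).E12 (U i)) y.1 * (D i).b y
  i22 : ∀ i, ∀ y : Y, y.1 ∈ A.O i →
    (D i).E22 (U i) y + 2 * (D i).ε * ((D i).F2 y.1 ⬝ᵥ dX (D i).C2 (W i) y) = 0
  itot : ∀ i, ∀ x ∈ A.O i, tot ((D i).E12 (U i)) x + (D i).ε * (D i).ell (W i) x = 0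

/-- sizes of the ingredients of the correction -/
structure Ingr (A : Fam ι E) (D : ι → TD1) (σ : ι → ℝ) (η a : ι → E → ℝ) (k : ℕ)
    (U : ι → Y → V) : Prop where
  tcc : TmC A (fun i x => a i x * η i x ^ k / σ i) (fun i => (D i).cc (U i))
  pcc : ∀ i, Per (A.O i) ((D i).cc (U i))
  tnn : TmC A (fun i x => a i x * η i x ^ k) (fun i => (D i).nn (U i))
  pnn : ∀ i, Per (A.O i) ((D i).nn (U i))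
  tg1 : TmC A (fun i x => a i x * η i x ^ k) (fun i => (D i).g1 (U i))
  pg1 : ∀ i, Per (A.O i) ((D i).g1 (U i))
  totg1 : Tm A (fun i x => a i x ^ 2 * η i x ^ k) (fun i => tot ((D i).g1 (U i)))
  taa : TmC A (fun i x => a i x * η i x ^ k) (fun i => (D i).aa (U i))
  paa : ∀ i, Per (A.O i) ((D i).aa (U i))
  sWp : CorS A η a k (fun i => (D i).Wp (U i))
  tgam : ∀ j, Tm A (fun i x => a i x ^ 2 * η i x ^ k) (fun i => (D i).gam (U i) j)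
  sWh : CorS A η a k (fun i => (D i).Wh (U i))

end hyp

/-! loops -/

/-- loop parameters `(t, s', κ)` -/
abbrev Pm := ℝ × ℝ × (Fin 4 → ℝ)
def Kp (tlo : ℝ) : Set Pm := Icc tlo (1/4) ×ˢ Icc (1/2) 1 ×ˢ Metric.closedBall 0 (1/2)

/-- smooth and periodic over `U` -/
structure SP (U : Set Pm) (f : Pm × ℝ → ℝ) : Prop where
  sm : ContDiffOn ℝ ∞ f (U ×ˢ univ)
  per : Per U f

/-- window functions of the shared zone -/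
structure Sh where
  bt : Fin 4 → ℝ → ℝ
  bm : Fin 4 → ℝ → ℝ
  b0 : ℝ → ℝ
  sbt : ∀ j, ContDiff ℝ ∞ (bt j)
  sbm : ∀ j, ContDiff ℝ ∞ (bm j)
  sb0 : ContDiff ℝ ∞ b0
  odd : ∀ j t, bt j (-t) = -bt j t
  z1 : ∀ j t, |t| ≤ 1/50 → bt j t = 0
  z2 : ∀ j t, 1/5 ≤ |t| → bt j t = 0
  dle : ∀ t, ∑ j, |deriv (bt j) t| ≤ 1
  m1 : ∀ j t, bm j t ≠ 0 → t ∈ Icc (1/50 : ℝ) (1/5)
  m0 : ∀ t, b0 t ≠ 0 → t ∈ Icc (1/50 : ℝ) (1/5)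
  im : ∀ j, ∫ t in (-Real.pi)..Real.pi, bm j t = 1
  i0 : ∫ t in (-Real.pi)..Real.pi, b0 t = 1
  w1 : ∀ j i, ∀ t ∈ tsupport (bm j), deriv (bt i) t = if i = j then 1 else 0
  w0 : ∀ i, ∀ t ∈ tsupport b0, deriv (bt i) t = 0

def Sh.bk (S : Sh) (κ : Fin 4 → ℝ) (t : ℝ) : ℝ := t + ∑ j, κ j * S.bt j t

/-- a family of loops on the unit circle with prescribed mean -/
structure LpC (S : Sh) (tlo : ℝ) where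
  U : Set Pm
  op : IsOpen U
  sub : Kp tlo ⊆ U
  kb : ∀ p ∈ U, ‖p.2.2‖ < 3/4
  cs : Pm × ℝ → ℝ
  sn : Pm × ℝ → ℝ
  cs1 : Pm × ℝ → ℝ
  sn1 : Pm × ℝ → ℝ
  β : Pm × ℝ → ℝ
  b : Pm × ℝ → ℝ
  B0 : Pm × ℝ → ℝ
  B1 : Pm × ℝ → ℝ
  scs : SP U cs
  ssn : SP U sn
  scs1 : SP U cs1
  ssn1 : SP U sn1
  sβ : SP U β
  sb : SP U b
  sB0 : SP U B0
  sB1 : SP U B1
  hcs : ∀ z : Pm × ℝ, z.1 ∈ U → cs z = 1 + z.1.1 * cs1 z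
  hsn : ∀ z : Pm × ℝ, z.1 ∈ U → sn z = z.1.1 * sn1 z
  unit : ∀ z : Pm × ℝ, z.1 ∈ U → cs z ^ 2 + sn z ^ 2 = 1
  dcs : ∀ z : Pm × ℝ, z.1 ∈ U → dθ cs z = -(β z * sn z)
  dsn : ∀ z : Pm × ℝ, z.1 ∈ U → dθ sn z = β z * cs z
  hB : ∀ z : Pm × ℝ, z.1 ∈ U → β z * (B0 z + z.1.1 * B1 z) = z.1.1 * b z
  totb : ∀ p ∈ U, tot b p = 1
  totB0 : ∀ p ∈ U, tot B0 p = 0
  ev : ∀ p ∈ U, ∀ t, cs (p, -t) = cs (p, t)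
  od : ∀ p ∈ U, ∀ t, sn (p, -t) = -sn (p, t)
  mean : ∀ p ∈ U, tot cs p = 2 * Real.pi * (1 - 16 * p.1 ^ 2 * p.2.1)
  zone : ∀ p ∈ U, ∀ t, |t| ≤ 1/4 →
    cs (p, t) = (1 - (p.1 * S.bk p.2.2 t) ^ 2) / (1 + (p.1 * S.bk p.2.2 t) ^ 2) ∧
    sn (p, t) = 2 * (p.1 * S.bk p.2.2 t) / (1 + (p.1 * S.bk p.2.2 t) ^ 2)
  germ : ∀ p ∈ U, ∀ t, |t| < 1/100 → b (p, t) = 0 ∧ B0 (p, t) = 0 ∧ B1 (p, t) = 0

/-- the homogeneous corrections attached to a loop family -/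
structure LpX {S : Sh} {tlo : ℝ} (L : LpC S tlo) where
  xs : Fin 4 → Pm × ℝ → ℝ
  Y0 : Fin 4 → Pm × ℝ → ℝ
  Y1 : Fin 4 → Pm × ℝ → ℝ
  sxs : ∀ j, SP L.U (xs j)
  sY0 : ∀ j, SP L.U (Y0 j)
  sY1 : ∀ j, SP L.U (Y1 j)
  hY : ∀ j, ∀ z : Pm × ℝ, z.1 ∈ L.U → L.β z * (Y0 j z + z.1.1 * Y1 j z) = z.1.1 * dθ (xs j) z
  totxs : ∀ j, ∀ p ∈ L.U, tot (xs j) p = 0
  totY0 : ∀ j, ∀ p ∈ L.U, tot (Y0 j) p = 0
  lam : ∀ j, ∀ p ∈ L.U, ∀ dp : Pm, tot (fun z => (Y0 j z + z.1.1 * Y1 j z) *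
      (L.cs z * fderiv ℝ L.sn z (dp, 0) - L.sn z * fderiv ℝ L.cs z (dp, 0))) p
    = -(p.1 * dp.2.2 j / (1 + p.2.2 j))
  germ : ∀ j, ∀ p ∈ L.U, ∀ t, |t| < 1/100 → xs j (p, t) = 0 ∧ Y0 j (p, t) = 0 ∧ Y1 j (p, t) = 0

/-- an even periodic density concentrated near `2πℤ` -/
structure Om where
  w : ℝ → ℝ
  sm : ContDiff ℝ ∞ w
  per : ∀ t, w (t + 2 * Real.pi) = w t
  ev : ∀ t, w (-t) = w t
  int : ∫ t in (-Real.pi)..Real.pi, w t = 1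
  supp : ∀ t, |t| ≤ Real.pi → w t ≠ 0 → |t| < 1/100

/-! rescaled twist data -/

structure TD0 where
  ε : ℝ
  σ : ℝ
  s : ℝ
  η0 : ℝ
  C1 : E → E
  C2 : E → E
  F1 : E → V
  F2 : E → V
  a : E → ℝ
  ζ : E → ℝ
  η : E → ℝ

namespace TD0
variable (D : TD0)
def F22 : E → V := dV D.C2 D.F2
def A1 (U : Y → V) (y : Y) : V := D.F1 y.1 + dθ U y + D.ε • dX D.C1 U y
def A2 (U : Y → V) (y : Y) : V := D.F2 y.1 + D.ε • dX D.C2 U y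
def A22 (U : Y → V) : Y → V := dX D.C2 (D.A2 U)
def A12 (U : Y → V) : Y → V := dX D.C2 (D.A1 U)
def A11 (U : Y → V) (y : Y) : V := dX D.C1 (D.A1 U) y + D.ε⁻¹ • dθ (D.A1 U) y
end TD0

/-- frames -/
structure Fr where
  e1 : E → V
  e2 : E → V
  f2 : E → V
  fn : E → V
  T0 : E → V
  ρ0 : E → ℝ

def rho (D : TD0) (R : Fr) (x : E) : ℝ := Real.sqrt (R.ρ0 x ^ 2 + D.a x ^ 2)
def tt (D : TD0) (R : Fr) (x : E) : ℝ := D.a x / (4 * rho D R x)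
def prm (D : TD0) (R : Fr) (x : E) : Pm :=
  (tt D R x, rho D R x / (rho D R x + R.ρ0 x),
    (1/2 : ℝ) • ![Real.cos x.1, Real.sin x.1, Real.cos x.2, Real.sin x.2])

/-- the iteration data built from rescaled data, frames and loops -/
def mk1 {S : Sh} {tlo : ℝ} (L : LpC S tlo) (X : LpX L) (w : Om) (D : TD0) (R : Fr) : TD1 where
  ε := D.ε
  C1 := D.C1
  C2 := D.C2
  F1 := D.F1
  F2 := D.F2
  F22 := D.F22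
  f2 := R.f2
  fn := R.fn
  T0 := R.T0
  ρ := rho D R
  Th y := L.cs (prm D R y.1, y.2) • R.e1 y.1 + L.sn (prm D R y.1, y.2) • R.e2 y.1
  nu y := (-L.sn (prm D R y.1, y.2)) • R.e1 y.1 + L.cs (prm D R y.1, y.2) • R.e2 y.1
  β y := L.β (prm D R y.1, y.2)
  b y := L.b (prm D R y.1, y.2)
  B y := L.B0 (prm D R y.1, y.2) / tt D R y.1 + L.B1 (prm D R y.1, y.2)
  om y := (1 - D.ζ y.1) * (2 * Real.pi)⁻¹ + D.ζ y.1 * w.w y.2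
  xs j y := X.xs j (prm D R y.1, y.2)
  ys j y := X.Y0 j (prm D R y.1, y.2) / tt D R y.1 + X.Y1 j (prm D R y.1, y.2)

section hyp0
variable {ι : Type*}

structure TD0.Hyp (A : Fam ι E) (D : ι → TD0) : Prop where
  eps : ∀ i, 0 < (D i).ε
  sig : ∀ i, 1 ≤ (D i).σ
  s1 : ∀ i, 1 ≤ (D i).s
  η0pos : ∀ i, 0 < (D i).η0
  epsη : ∀ i, ∀ x ∈ A.O i, (D i).ε * (D i).σ ^ 2 ≤ (D i).η0
  η0le : ∀ i, ∀ x ∈ A.O i, (D i).η0 ≤ (D i).η x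
  ηs : ∀ i, ∀ x ∈ A.O i, (D i).η x * (D i).s ≤ 1
  apos : ∀ i, ∀ x ∈ A.O i, 0 < (D i).a x
  ale : A.Le (fun i => (D i).a) (fun _ _ => 1)
  aη : A.Le (fun i x => (D i).a x * (D i).η x) (fun i _ => (D i).η0)
  tC1 : Tm A (fun i _ => (D i).σ) (fun i => (D i).C1)
  tC2 : Tm A (fun i _ => (D i).σ) (fun i => (D i).C2)
  lC2 : A.Le (fun i _ => (D i).σ) (fun i x => ‖(D i).C2 x‖)
  sF1 : Sl A (fun i _ => (D i).η0) (fun i => (D i).F1)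
  sF2 : Sl A (fun i _ => (D i).η0) (fun i => (D i).F2)
  sF22 : Sl A (fun i _ => (D i).η0) (fun i => (D i).F22)
  comm : ∀ i, ∀ x ∈ A.O i, dV (D i).C1 (D i).F2 x = dV (D i).C2 (D i).F1 x
  low : A.Le (fun _ _ => 1)
    (fun i x => np ((D i).F1 x) ((D i).F2 x) ((D i).F22 x) ((D i).F22 x))
  ta : Tm A (fun i => (D i).a) (fun i => (D i).a)
  tda : Tm A (fun i x => (D i).a x * (D i).η x) (fun i x => fderiv ℝ (D i).a x)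
  tζ : Tm A (fun i => (D i).a) (fun i => (D i).ζ)

structure Fr.Hyp (A : Fam ι E) (D : ι → TD0) (R : ι → Fr) : Prop where
  se1 : Sl A (fun i _ => (D i).η0) (fun i => (R i).e1)
  se2 : Sl A (fun i _ => (D i).η0) (fun i => (R i).e2)
  sf2 : Sl A (fun i _ => (D i).η0) (fun i => (R i).f2)
  sfn : Sl A (fun i _ => (D i).η0) (fun i => (R i).fn)
  sT0 : Sl A (fun i _ => (D i).η0) (fun i => (R i).T0)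
  sρ0 : Sl A (fun i _ => (D i).η0) (fun i => (R i).ρ0)
  low : A.Le (fun _ _ => 1) (fun i => (R i).ρ0)
  on : ∀ i, ∀ x ∈ A.O i, (R i).e1 x ⬝ᵥ (R i).e1 x = 1 ∧ (R i).e2 x ⬝ᵥ (R i).e2 x = 1 ∧
    (R i).e1 x ⬝ᵥ (R i).e2 x = 0
  o1 : ∀ i, ∀ x ∈ A.O i, (R i).e1 x ⬝ᵥ (D i).F2 x = 0 ∧ (R i).e1 x ⬝ᵥ (D i).F22 x = 0 ∧
    (R i).e1 x ⬝ᵥ (R i).f2 x = 0 ∧ (R i).e1 x ⬝ᵥ (R i).fn x = 0 ∧ (R i).e1 x ⬝ᵥ (R i).T0 x = 0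
  o2 : ∀ i, ∀ x ∈ A.O i, (R i).e2 x ⬝ᵥ (D i).F2 x = 0 ∧ (R i).e2 x ⬝ᵥ (D i).F22 x = 0 ∧
    (R i).e2 x ⬝ᵥ (R i).f2 x = 0 ∧ (R i).e2 x ⬝ᵥ (R i).fn x = 0 ∧ (R i).e2 x ⬝ᵥ (R i).T0 x = 0
  dual : ∀ i, ∀ x ∈ A.O i, (R i).f2 x ⬝ᵥ (D i).F2 x = 1 ∧ (R i).f2 x ⬝ᵥ (D i).F22 x = 0 ∧
    (R i).fn x ⬝ᵥ (D i).F2 x = 0 ∧ (R i).fn x ⬝ᵥ (D i).F22 x = 1
  hF1 : ∀ i, ∀ x ∈ A.O i, (D i).F1 x = (R i).T0 x + (R i).ρ0 x • (R i).e1 x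
  hT0 : ∀ i, ∀ x ∈ A.O i, ∃ al be : ℝ, (R i).T0 x = al • (D i).F2 x + be • (D i).F22 x

/-- analytic output of the twist on the cylinder -/
structure Out (A : Fam ι E) (D : ι → TD0) (N : ℕ) (U : ι → Y → V) : Prop where
  tm : TmC A (fun i => (D i).a) U
  per : ∀ i, Per (A.O i) (U i)
  e11 : TmC A (fun i x => (D i).a x * (D i).η x ^ N) (fun i y =>
    (D i).A1 (U i) y ⬝ᵥ (D i).A1 (U i) y - (D i).F1 y.1 ⬝ᵥ (D i).F1 y.1 - (D i).a y.1 ^ 2)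
  e12 : TmC A (fun i x => (D i).a x * (D i).η x ^ N) (fun i y =>
    (D i).A1 (U i) y ⬝ᵥ (D i).A2 (U i) y - (D i).F1 y.1 ⬝ᵥ (D i).F2 y.1)
  e22 : TmC A (fun i x => (D i).a x * (D i).η x ^ N) (fun i y =>
    (D i).A2 (U i) y ⬝ᵥ (D i).A2 (U i) y - (D i).F2 y.1 ⬝ᵥ (D i).F2 y.1)

/-- geometric output on the cylinder, with explicit constants -/
def GeoC (A : Fam ι E) (D : ι → TD0) (U : ι → Y → V) (C : ℝ) (c : ℕ) : Prop :=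
  ∀ i, ∀ y : Y, y.1 ∈ A.O i →
    1 ≤ C * A.τ i ^ c * np ((D i).A1 (U i) y) ((D i).A2 (U i) y) ((D i).A22 (U i) y) ((D i).A22 (U i) y) ∧
    np ((D i).A1 (U i) y) ((D i).A2 (U i) y) ((D i).A22 (U i) y) ((D i).A22 (U i) y) ≤ C * A.τ i ^ c ∧
    |np ((D i).A1 (U i) y) ((D i).A2 (U i) y) ((D i).A22 (U i) y) ((D i).A12 (U i) y)|
      ≤ C * A.τ i ^ c * ((D i).σ * (D i).η0) ∧
    np ((D i).A1 (U i) y) ((D i).A2 (U i) y) ((D i).A12 (U i) y) ((D i).A12 (U i) y)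
      ≤ C * A.τ i ^ c * (D i).σ ^ 2

def WindC (A : Fam ι E) (D : ι → TD0) (U : ι → Y → V) (C : ℝ) (c : ℕ) : Prop :=
  ∀ i, ∀ y : Y, y.1 ∈ A.O i → (D i).ε⁻¹ ^ 2 ≤
    C * A.τ i ^ c * np ((D i).A1 (U i) y) ((D i).A2 (U i) y) ((D i).A11 (U i) y) ((D i).A11 (U i) y)

/-- rescaled data of a piece -/
def Pc.td (P : Pc) (M s σ0 d : ℝ) (F : E → V) (bh : E → ℝ) (ζ0 : ℝ → ℝ) : TD0 where
  ε := (σ0 ^ 2 * s ^ 6)⁻¹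
  σ := σ0 * s ^ 2
  s := s
  η0 := (s ^ 2)⁻¹
  C1 x := (σ0 * s ^ 2) • P.c1 ((σ0 * s ^ 2)⁻¹ • x)
  C2 x := (σ0 * s ^ 2) • P.c2 ((σ0 * s ^ 2)⁻¹ • x)
  F1 x := dV P.c1 F ((σ0 * s ^ 2)⁻¹ • x)
  F2 x := dV P.c2 F ((σ0 * s ^ 2)⁻¹ • x)
  a x := P.amp d bh ((σ0 * s ^ 2)⁻¹ • x)
  ζ x := ζ0 (P.φ ((σ0 * s ^ 2)⁻¹ • x))
  η x := M ^ 2 / (s ^ 2 * P.f ((σ0 * s ^ 2)⁻¹ • x) ^ 2)

/-- rescaled domains of a piece -/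
def Pc.fam (P : Pc) (M : ℝ) (τ s σ0 : ι → ℝ) (hτ : ∀ i, 1 ≤ τ i) : Fam ι E where
  O i := (fun x : E => (σ0 i * s i ^ 2)⁻¹ • x) ⁻¹'
    (P.O ∩ (fun x => Real.sqrt (s i) * P.f x) ⁻¹' Ioi M)
  op i := ((continuousOn_const.mul P.sf.continuousOn).isOpen_inter_preimage P.op
    isOpen_Ioi).preimage (continuous_const_smul _)
  τ := τ
  one_le := hτ

/-- the oscillating map -/
def Pc.ev (P : Pc) (s σ0 : ℝ) (U : Y → V) (x : E) : V :=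
  (σ0 ^ 2 * s ^ 6)⁻¹ • U ((σ0 * s ^ 2) • x, (σ0 ^ 2 * s ^ 6) * P.φ x)

/-- metric error of a twist -/
def Pc.err (P : Pc) (d : ℝ) (bh : E → ℝ) (F u : E → V) (x : E) : S3 :=
  met (fun y => F y + u y) x - met F x - P.Q d bh x

/-- hypotheses of the twist theorem -/
structure Pc.Hyp (P : Pc) (τ s σ0 d : ι → ℝ) (F : ι → E → V) (bh : ι → E → ℝ)
    (l' l r r' c0 : ℝ) : Prop where
  hτ : ∀ i, 1 ≤ τ i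
  hs : ∀ i, 1 ≤ s i
  hσ1 : ∀ i, 1 ≤ σ0 i
  hσ : ∀ i, σ0 i ≤ s i ^ 2
  hd0 : ∀ i, 0 < d i
  hd1 : ∀ i, d i ≤ 1
  sF : ∀ i, ContDiffOn ℝ ∞ (F i) P.O
  sb : ∀ i, ContDiffOn ℝ ∞ (bh i) P.O
  bF : KB P.K τ (fun i k => σ0 i ^ (k - 2)) F
  bb : KB P.K τ (fun i k => σ0 i ^ k) bh
  lb : ∃ (C : ℝ) (c : ℕ), 0 < C ∧ ∀ i, ∀ x ∈ P.K, 1 ≤ C * τ i ^ c * bh i x
  mg : ∃ (C : ℝ) (c : ℕ), 0 < C ∧ ∀ i, ∀ x ∈ P.K, 1 ≤ C * τ i ^ c *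
    npG (F i) x (P.c1 x) (P.c2 x) (P.c2 x) (P.c2 x) (P.c2 x) (P.c2 x)
  hl : l' < l
  hlr : l ≤ r
  hr : r < r'
  hc0 : 0 < c0
  hw : ∀ i, ∀ x ∈ P.O, 0 < P.f x → P.φ x ∈ Icc l' r' →
    c0 ≤ P.f x ∧ c0 * (1 + ‖fderiv ℝ (F i) x‖) ≤ P.amp (d i) (bh i) x

end hyp0

end Vale.Agent.P205
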