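import Vale.Agent.P205.D1

/-! P205: finite atlases, global maps and tensors. -/

open Set Filter Topology
open scoped ContDiff

noncomputable section
namespace Vale.Agent.P205

/-- a finite smooth atlas with charts onto neighbourhoods of `closedBall 0 4`, such that the
preimages of `ball 0 1` cover; `idx m` is a preferred chart at `m` -/
structure Atl (M : Type*) [TopologicalSpace M] where
  n : ℕ
  ch : Fin n → OpenPartialHomeomorph M E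
  tgt : ∀ p, Metric.closedBall 0 4 ⊆ (ch p).target
  idx : M → Fin n
  mem : ∀ m, m ∈ (ch (idx m)).source
  b1 : ∀ m, ch (idx m) m ∈ Metric.ball (0 : E) 1
  sm : ∀ p q, ContDiffOn ℝ ∞ (ch q ∘ (ch p).symm) ((ch p).target ∩ (ch p).symm ⁻¹' (ch q).source)

namespace Atl
variable {M : Type*} [TopologicalSpace M] (A : Atl M)
variable {W : Type} [NormedAddCommGroup W] [NormedSpace ℝ W]

/-- chart representation of a map -/
def loc {Z : Type} (F : M → Z) (p : Fin A.n) : E → Z := fun y => F ((A.ch p).symm y)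
/-- transition map from chart `p` to chart `q` -/
def tr (p q : Fin A.n) : E → E := A.ch q ∘ (A.ch p).symm
def Sm (F : M → W) : Prop := ∀ p, ContDiffOn ℝ ∞ (A.loc F p) (A.ch p).target
/-- `C^k` bound -/
def Nb (k : ℕ) (F : M → W) (b : ℝ) : Prop :=
  ∀ p, ∀ j ≤ k, ∀ y ∈ Metric.ball (0 : E) 3, ‖iteratedFDeriv ℝ j (A.loc F p) y‖ ≤ b
/-- a tensor field is given by its components in the preferred charts;
`rep T p` is its representation in chart `p` -/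
def rep (T : M → S3) (p : Fin A.n) (y : E) : S3 :=
  pull (fderiv ℝ (A.tr p (A.idx ((A.ch p).symm y))) y) (T ((A.ch p).symm y))
def TSm (T : M → S3) : Prop := ∀ p, ContDiffOn ℝ ∞ (A.rep T p) (A.ch p).target
def TN (k : ℕ) (T : M → S3) (b : ℝ) : Prop :=
  ∀ p, ∀ j ≤ k, ∀ y ∈ Metric.ball (0 : E) 3, ‖iteratedFDeriv ℝ j (A.rep T p) y‖ ≤ b
/-- induced metric -/
def metA (F : M → V) (m : M) : S3 := met (A.loc F (A.idx m)) (A.ch (A.idx m) m)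
/-- the tensor `dψ ⊗ dψ` -/
def sqA (ψ : M → ℝ) (m : M) : S3 := sqv (dcov (A.loc ψ (A.idx m)) (A.ch (A.idx m) m))
open Classical in
/-- extension by zero of a function given in chart `p` -/
def extF (p : Fin A.n) (u : E → W) (m : M) : W := if m ∈ (A.ch p).source then u (A.ch p m) else 0
open Classical in
/-- extension by zero of a tensor given in chart `p` -/
def extT (p : Fin A.n) (T : E → S3) (m : M) : S3 :=
  if m ∈ (A.ch p).source then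
    pull (fderiv ℝ (A.tr (A.idx m) p) (A.ch (A.idx m) m)) (T (A.ch p m)) else 0
def PosD (_A : Atl M) (T : M → S3) : Prop := ∀ m, PD (T m)
def Mg (F : M → V) (g Ψ : M → S3) (μ η : ℝ) : Prop :=
  ∀ p, ∀ y ∈ (A.ch p).target, MgAt (A.loc F p) (A.rep g p) (A.rep Ψ p) μ η y
def Cvx (F : M → V) : Prop := ∀ p, ∀ y ∈ (A.ch p).target, CvxAt (A.loc F p) y
/-- immersion into three-space -/
def Imm (ι : M → Fin 3 → ℝ) : Prop :=
  ∀ p, ∀ y ∈ (A.ch p).target, Function.Injective (fderiv ℝ (A.loc ι p) y)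

/-- family bounds for maps -/
def GB {ι : Type*} (τ : ι → ℝ) (w : ι → ℕ → ℝ) (F : ι → M → W) : Prop :=
  ∀ k : ℕ, ∃ (C : ℝ) (c : ℕ), 0 < C ∧ ∀ i, A.Nb k (F i) (C * τ i ^ c * w i k)
/-- family bounds for tensors -/
def GT {ι : Type*} (τ : ι → ℝ) (w : ι → ℕ → ℝ) (T : ι → M → S3) : Prop :=
  ∀ k : ℕ, ∃ (C : ℝ) (c : ℕ), 0 < C ∧ ∀ i, A.TN k (T i) (C * τ i ^ c * w i k)

/-- flexibility of the metric `G` with margin in the cone `Ψ ≤ η g` -/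
def Flex (g Ψ G : M → S3) (η : ℝ) : Prop :=
  ∃ (μ δ0 : ℝ) (B : ℕ → ℝ), 0 < μ ∧ 0 < δ0 ∧ ∀ δ1 ∈ Icc 0 δ0, ∀ δ2 ∈ Icc 0 δ0,
    ∃ F : M → V, A.Sm F ∧ A.metA F = G - δ1 • Ψ - δ2 • g ∧ (∀ k, A.Nb k F (B k)) ∧ A.Mg F g Ψ μ η

end Atl

section
variable {M : Type*} [TopologicalSpace M]

/-- a system of patches with linear phases decomposing tensors near `H0` -/
structure Pat (A : Atl M) (g Ψ : M → S3) (η : ℝ) (H0 : M → S3) where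
  J : ℕ
  p : Fin J → Fin A.n
  z : Fin J → E
  r : Fin J → ℝ
  ξ : Fin J → Fin 3 → E
  η0 : ℝ
  rpos : ∀ k, 0 < r k
  η0pos : 0 < η0
  sub : ∀ k y, nsq (y - z k) ≤ 4 * r k ^ 2 → y ∈ Metric.ball (0 : E) 3
  cov : ∀ m, ∃ k, m ∈ (A.ch (p k)).source ∧ nsq (A.ch (p k) m - z k) < r k ^ 2
  det : ∀ k, det3 (fun j => sqv (ξ k j)) ≠ 0
  pos : ∀ k y, nsq (y - z k) ≤ 4 * r k ^ 2 → ∀ S : S3, ‖S - A.rep H0 (p k) y‖ ≤ η0 →
    ∀ j, η0 ≤ Lc (ξ k) j S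
  dir : ∀ k j y, nsq (y - z k) ≤ 4 * r k ^ 2 →
    qf (A.rep Ψ (p k) y) (rot (ξ k j)) (rot (ξ k j))
      ≤ η * qf (A.rep g (p k) y) (rot (ξ k j)) (rot (ξ k j))

/-- support function of the standard annulus `1/8 ≤ |y - o| ≤ 1/2` -/
def annf (o y : E) : ℝ := (nsq (y - o) / 2 - 1/128) * (1/8 - nsq (y - o) / 2)

/-- an annulus piece -/
structure AnnP (A : Atl M) where
  p : Fin A.n
  o : E
  bh : E → ℝ
  ho : ‖o‖ ≤ 2
  sb : ContDiffOn ℝ ∞ bh (Metric.ball 0 3)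
  pos : ∀ y ∈ Metric.ball (0 : E) 3, 0 < bh y

def AnnP.Q {A : Atl M} (a : AnnP A) : M → S3 :=
  A.extT a.p (fun y => (expNegInvGlue (annf a.o y) * a.bh y) ^ 2 • sqv (y - a.o))

/-- a disc on which `ψ` has no critical point -/
structure PsiD (A : Atl M) (ψ : M → ℝ) where
  p : Fin A.n
  z : E
  r : ℝ
  w : E
  rpos : 0 < r
  sub : ∀ y, nsq (y - z) ≤ r ^ 2 → y ∈ Metric.ball (0 : E) 3
  nz : ∀ y, nsq (y - z) ≤ r ^ 2 → dotE (dcov (A.loc ψ p) y) w ≠ 0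

def PsiD.f {A : Atl M} {ψ : M → ℝ} (a : PsiD A ψ) (y : E) : ℝ := a.r ^ 2 - nsq (y - a.z)

/-- a piece along the foliation of `ψ` -/
structure PsiP (A : Atl M) (ψ : M → ℝ) extends PsiD A ψ where
  bh : E → ℝ
  sb : ContDiffOn ℝ ∞ bh (Metric.ball 0 3)
  pos : ∀ y ∈ Metric.ball (0 : E) 3, 0 < bh y

def PsiP.Q {A : Atl M} {ψ : M → ℝ} (a : PsiP A ψ) : M → S3 :=
  A.extT a.p (fun y => (expNegInvGlue (a.toPsiD.f y) * a.bh y) ^ 2 • sqv (dcov (A.loc ψ a.p) y))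

/-- the circle of squared radius `ρ2` around `o` is good for the function `ψ` -/
def GoodC (ψ : E → ℝ) (o : E) (ρ2 : ℝ) : Prop :=
  ∀ y, nsq (y - o) = ρ2 → dcov ψ y ≠ 0 ∧
    (dotE (y - o) (rot (dcov ψ y)) ≠ 0 ∨
      fderiv ℝ (fun x => dotE (x - o) (rot (dcov ψ x))) y (rot (dcov ψ y)) ≠ 0)

end

/-- small in `C²` on `[-R, R]` -/
def SmA (R γ : ℝ) (p : ℝ → ℝ) : Prop :=
  ∀ x ∈ Icc (-R) R, |p x| ≤ γ ∧ |deriv p x| ≤ γ ∧ |deriv (deriv p) x| ≤ γ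
/-- small in `C¹`, bounded in `C²`, on `[-R, R]` -/
def SmB (R γ C : ℝ) (p : ℝ → ℝ) : Prop :=
  ∀ x ∈ Icc (-R) R, |p x| ≤ γ ∧ |deriv p x| ≤ γ ∧ |deriv (deriv p) x| ≤ C

/-- profile functions of a ridge -/
structure Rdg (Mx R C γ : ℝ) where
  w : ℝ
  h : ℝ → ℝ
  k : ℝ → ℝ
  k1 : ℝ → ℝ
  wpos : 0 < w
  sh : ContDiff ℝ ∞ h
  sk : ContDiff ℝ ∞ k
  sk1 : ContDiff ℝ ∞ k1
  dk : ∀ x, deriv k x = h x
  dk1 : ∀ x, deriv k1 x = deriv h x ^ 2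
  h2 : ∀ x, 0 ≤ deriv (deriv h) x ∧ deriv (deriv h) x ≤ Mx
  core : ∀ x, |x| ≤ w → deriv (deriv h) x = Mx
  bh : SmB R γ C h
  bm : SmB R γ C (fun x => deriv h x ^ 2)
  ak : SmA R γ k
  ak1 : SmA R γ k1
  a1 : SmA R γ (fun x => deriv h x * h x)
  a2 : SmA R γ (fun x => deriv h x * k x)
  a3 : SmA R γ (fun x => deriv h x * k1 x)

/-- local fields of a ridge for the map `G`, on the open set `O` -/
structure RdF (G : E → V) (ψ : E → ℝ) (O : Set E) where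
  K : Set E
  φ : E → ℝ
  N : E → V
  V0 : E → V
  V1 : E → V
  S : E → ℝ
  cp : IsCompact K
  sub : K ⊆ O
  sφ : ContDiff ℝ ∞ φ
  sN : ContDiff ℝ ∞ N
  sV0 : ContDiff ℝ ∞ V0
  sV1 : ContDiff ℝ ∞ V1
  sS : ContDiff ℝ ∞ S
  tφ : tsupport φ ⊆ K
  tN : tsupport N ⊆ K
  tV0 : tsupport V0 ⊆ K
  tV1 : tsupport V1 ⊆ K
  tS : tsupport S ⊆ K
  S0 : ∀ y, 0 ≤ S y
  nor : ∀ y ∈ O, ∀ v, N y ⬝ᵥ fderiv ℝ G y v = 0
  nV : ∀ y ∈ O, N y ⬝ᵥ V0 y = 0 ∧ N y ⬝ᵥ V1 y = 0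
  cvx : ∀ y ∈ O, ∃ (ν : V) (t : ℝ), 0 ≤ t ∧ N y = t • ν ∧ (∀ v, ν ⬝ᵥ fderiv ℝ G y v = 0) ∧
    ∀ v : E, v ≠ 0 → 0 < ν ⬝ᵥ d2 G y v v
  id0 : ∀ y ∈ O, ∀ v w, -2 * (N y ⬝ᵥ d2 G y v w) + (fderiv ℝ G y v ⬝ᵥ V0 y) * fderiv ℝ φ y w
    + (fderiv ℝ G y w ⬝ᵥ V0 y) * fderiv ℝ φ y v = -(S y * (fderiv ℝ ψ y v * fderiv ℝ ψ y w))
  id1 : ∀ y ∈ O, ∀ v, fderiv ℝ G y v ⬝ᵥ V1 y = -(1/2) * (N y ⬝ᵥ N y) * fderiv ℝ φ y v

/-- the ridge perturbation -/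
def RdF.u {G : E → V} {ψ : E → ℝ} {O : Set E} (R : RdF G ψ O) (h k k1 : ℝ → ℝ) (y : E) : V :=
  h (R.φ y) • R.N y + k (R.φ y) • R.V0 y + k1 (R.φ y) • R.V1 y

/-- the statement proved on the level of finite atlases -/
def Core (M : Type*) [TopologicalSpace M] : Prop :=
  ∀ (A : Atl M) (g : M → S3) (ι : M → Fin 3 → ℝ), A.TSm g → A.PosD g → A.Sm ι → A.Imm ι →
    ∃ F : M → V, A.Sm F ∧ A.metA F = g

end Vale.Agent.P205
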