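import Vale.Agent.P205.D3

/-! P205: definitions for the existence of an immersion of a closed surface in three-space. -/

open Set Filter Topology
open scoped ContDiff

noncomputable section
namespace Vale.Agent.P205

abbrev R3 := Fin 3 → ℝ
abbrev Mat := E →L[ℝ] R3

namespace Atl
variable {M : Type*} [TopologicalSpace M] (A : Atl M)

/-- a bundle map `TM → R³` is given in the preferred charts; representation in chart `p` -/
def rep1 (L : M → Mat) (p : Fin A.n) (y : E) : Mat :=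
  (L ((A.ch p).symm y)).comp (fderiv ℝ (A.tr p (A.idx ((A.ch p).symm y))) y)
/-- the differential of a map as a bundle map -/
def dA (f : M → R3) (m : M) : Mat := fderiv ℝ (A.loc f (A.idx m)) (A.ch (A.idx m) m)
open Classical in
/-- extension by zero of a bundle map given in chart `p` -/
def ext1 (p : Fin A.n) (L : E → Mat) (m : M) : Mat :=
  if m ∈ (A.ch p).source then
    (L (A.ch p m)).comp (fderiv ℝ (A.tr (A.idx m) p) (A.ch (A.idx m) m)) else 0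
/-- smooth off `B` -/
def SmOff (B : Set M) (L : M → Mat) : Prop :=
  ∀ p, ∀ y ∈ (A.ch p).target, (A.ch p).symm y ∉ B → ContDiffAt ℝ ∞ (A.rep1 L p) y
/-- a formal immersion off `B` -/
def Fml (B : Set M) (L : M → Mat) : Prop := A.SmOff B L ∧ ∀ m, m ∉ B → Function.Injective (L m)
def Good (B : Set M) : Prop := ∃ L, A.Fml B L

/-- a finite family of functions separating 1-jets at pairs of points -/
structure TP {N : ℕ} (φ : M → Fin N → ℝ) : Prop where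
  sm : A.Sm φ
  one : ∀ p, ∀ y ∈ (A.ch p).target, Function.Injective (fderiv ℝ (A.loc φ p) y)
  jet : ∀ p, ∀ y ∈ (A.ch p).target, ∀ (a : ℝ) (ξ : E →L[ℝ] ℝ), ∃ c : Fin N → ℝ,
    c ⬝ᵥ A.loc φ p y = a ∧ ∀ v, c ⬝ᵥ fderiv ℝ (A.loc φ p) y v = ξ v
  two : ∀ p q, ∀ y ∈ (A.ch p).target, ∀ z ∈ (A.ch q).target, (A.ch p).symm y ≠ (A.ch q).symm z →
    ∀ (a b : ℝ) (ξ ξ' : E →L[ℝ] ℝ), ∃ c : Fin N → ℝ,
      c ⬝ᵥ A.loc φ p y = a ∧ c ⬝ᵥ A.loc φ q z = b ∧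
      (∀ v, c ⬝ᵥ fderiv ℝ (A.loc φ p) y v = ξ v) ∧ ∀ v, c ⬝ᵥ fderiv ℝ (A.loc φ q) z v = ξ' v
end Atl

/-- the Whitney umbrella -/
def umb (y : E) : R3 := ![y.1, y.1 * y.2, y.2 ^ 2]

/-- the linear map with columns `a`, `b` -/
def mat2 (a b : R3) : Mat :=
  (ContinuousLinearMap.fst ℝ ℝ ℝ).smulRight a + (ContinuousLinearMap.snd ℝ ℝ ℝ).smulRight b

/-- free homotopy of loops of injective linear maps -/
def Hom (γ γ' : ℝ → Mat) : Prop :=
  ∃ H : ℝ × ℝ → Mat, Continuous H ∧ (∀ s t, H (s, t + 2 * Real.pi) = H (s, t)) ∧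
    (∀ z, Function.Injective (H z)) ∧ (∀ t, H (0, t) = γ t) ∧ ∀ t, H (1, t) = γ' t

/-- `c` parametrizes an open arc of `D` -/
def Arc {Z : Type*} [TopologicalSpace Z] (D : Set Z) (c : ℝ → Z) : Prop :=
  InjOn c (Ioo (-1) 1) ∧ ∀ s ∈ Ioo (-1 : ℝ) 1, map c (𝓝 s) = 𝓝[D] (c s)

section
variable {M : Type*} [TopologicalSpace M]

/-- a map with exactly one singular point on the clopen set `M0`, a Whitney umbrella at `p` -/
structure Umb (A : Atl M) (M0 : Set M) (p : M) (f : M → R3) : Prop where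
  clo : IsClopen M0
  mem : p ∈ M0
  sm : A.Sm f
  inj : ∀ m ∈ M0, m ≠ p → Function.Injective (A.dA f m)
  germ : A.loc f (A.idx p) =ᶠ[𝓝 (A.ch (A.idx p) p)] fun y => umb (y - A.ch (A.idx p) p)

/-- self-transversality -/
structure Trv (A : Atl M) (M0 : Set M) (p : M) (f : M → R3) : Prop where
  tr : ∀ x ∈ M0, ∀ y ∈ M0, x ≠ p → y ≠ p → x ≠ y → f x = f y → ∀ l : R3,
    (∀ v, l ⬝ᵥ A.dA f x v = 0) → (∀ v, l ⬝ᵥ A.dA f y v = 0) → l = 0
  sep : ∀ y ∈ M0, y ≠ p → f y ≠ f p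

/-- the closed double point set -/
def Dbl (M0 : Set M) (p : M) (f : M → R3) : Set (M × M) :=
  {z | z.1 ∈ M0 ∧ z.2 ∈ M0 ∧ f z.1 = f z.2 ∧ (z.1 ≠ z.2 ∨ z.1 = p)}

/-- a smooth arc of the double point set through `z`, in charts -/
structure DArc (A : Atl M) (D : Set (M × M)) (z : M × M) where
  q1 : Fin A.n
  q2 : Fin A.n
  c1 : ℝ → E
  c2 : ℝ → E
  s1 : ContDiffOn ℝ ∞ c1 (Ioo (-1) 1)
  s2 : ContDiffOn ℝ ∞ c2 (Ioo (-1) 1)
  t1 : ∀ s ∈ Ioo (-1 : ℝ) 1, c1 s ∈ (A.ch q1).target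
  t2 : ∀ s ∈ Ioo (-1 : ℝ) 1, c2 s ∈ (A.ch q2).target
  arc : Arc D (fun s => ((A.ch q1).symm (c1 s), (A.ch q2).symm (c2 s)))
  at0 : ((A.ch q1).symm (c1 0), (A.ch q2).symm (c2 0)) = z
  reg : ∀ s ∈ Ioo (-1 : ℝ) 1,
    ((A.ch q1).symm (c1 s) ≠ (A.ch q2).symm (c2 s) ∧ (deriv c1 s ≠ 0 ∨ deriv c2 s ≠ 0)) ∨
    (q1 = q2 ∧ c1 s = c2 s ∧ deriv c1 s ≠ deriv c2 s)

end

/-- the unconditional statement on the level of finite atlases -/
def Core0 (M : Type*) [TopologicalSpace M] : Prop :=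
  ∀ (A : Atl M) (g : M → S3), A.TSm g → A.PosD g → ∃ F : M → V, A.Sm F ∧ A.metA F = g

end Vale.Agent.P205
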