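import Vale.Agent.P205.D2
import Vale.Agent.P205.T2
import Vale.Agent.P205.G1

open Set Filter Topology
open scoped ContDiff

noncomputable section
namespace Vale.Agent.P205

/-! E0a: graded pointwise bounds for families of germs. -/

/-- a family of points with a size parameter -/
structure eCx (J : Type*) (X : Type) where
  p : J → X
  τ : J → ℝ
  hτ : ∀ j, 1 ≤ τ j

section le
variable {J : Type*} {X : Type} {Z : eCx J X}

def eCx.Le (Z : eCx J X) (w w' : J → ℝ) : Prop :=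
  ∃ (C : ℝ) (c : ℕ), 0 < C ∧ ∀ j, w j ≤ C * Z.τ j ^ c * w' j

theorem eCx.pos (Z : eCx J X) (j : J) (c : ℕ) : 0 < Z.τ j ^ c :=
  pow_pos (lt_of_lt_of_le one_pos (Z.hτ j)) c
theorem eCx.Le.refl (w : J → ℝ) : Z.Le w w := ⟨1, 0, one_pos, fun j => by simp⟩
theorem eCx.Le.le_trans {w w' w'' : J → ℝ} (h : ∀ j, w j ≤ w' j) (h' : Z.Le w' w'') :
    Z.Le w w'' := by
  obtain ⟨C, c, hC, h'⟩ := h'
  exact ⟨C, c, hC, fun j => (h j).trans (h' j)⟩
theorem eCx.Le.of_le {w w' : J → ℝ} (h : ∀ j, w j ≤ w' j) : Z.Le w w' :=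
  eCx.Le.le_trans h (eCx.Le.refl _)
theorem eCx.Le.of_const {w w' : J → ℝ} (C : ℝ) (h : ∀ j, w j ≤ C * w' j) (h0 : ∀ j, 0 ≤ w' j) :
    Z.Le w w' :=
  ⟨|C| + 1, 0, by positivity, fun j => (h j).trans (by
    rw [pow_zero, mul_one]
    exact mul_le_mul_of_nonneg_right (by linarith [le_abs_self C]) (h0 j))⟩
theorem eCx.Le.trans {w w' w'' : J → ℝ} (h : Z.Le w w') (h' : Z.Le w' w'') : Z.Le w w'' := by
  obtain ⟨C, c, hC, h⟩ := h
  obtain ⟨C', c', hC', h'⟩ := h'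
  refine ⟨C * C', c + c', mul_pos hC hC', fun j => (h j).trans ?_⟩
  have := mul_le_mul_of_nonneg_left (h' j) (mul_pos hC (Z.pos j c)).le
  rw [pow_add]
  linarith
theorem eCx.Le.trans_le {w w' w'' : J → ℝ} (h : Z.Le w w') (h' : ∀ j, w' j ≤ w'' j) :
    Z.Le w w'' := h.trans (eCx.Le.of_le h')
theorem eCx.Le.add {w1 w2 w : J → ℝ} (h1 : Z.Le w1 w) (h2 : Z.Le w2 w) (h0 : ∀ j, 0 ≤ w j) :
    Z.Le (fun j => w1 j + w2 j) w := by
  obtain ⟨C, c, hC, h⟩ := h1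
  obtain ⟨C', c', hC', h'⟩ := h2
  refine ⟨C + C', c + c', by positivity, fun j => ?_⟩
  have a1 : Z.τ j ^ c ≤ Z.τ j ^ (c + c') := pow_le_pow_right₀ (Z.hτ j) (by omega)
  have a2 : Z.τ j ^ c' ≤ Z.τ j ^ (c + c') := pow_le_pow_right₀ (Z.hτ j) (by omega)
  have b1 := mul_le_mul_of_nonneg_right (mul_le_mul_of_nonneg_left a1 hC.le) (h0 j)
  have b2 := mul_le_mul_of_nonneg_right (mul_le_mul_of_nonneg_left a2 hC'.le) (h0 j)
  have := h j
  have := h' j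
  show w1 j + w2 j ≤ _
  linarith
theorem eCx.Le.mul {w1 w2 v1 v2 : J → ℝ} (h1 : Z.Le w1 v1) (h2 : Z.Le w2 v2)
    (p2 : ∀ j, 0 ≤ w2 j) (q1 : ∀ j, 0 ≤ v1 j) :
    Z.Le (fun j => w1 j * w2 j) (fun j => v1 j * v2 j) := by
  obtain ⟨C, c, hC, h⟩ := h1
  obtain ⟨C', c', hC', h'⟩ := h2
  refine ⟨C * C', c + c', mul_pos hC hC', fun j => ?_⟩
  have := mul_le_mul (h j) (h' j) (p2 j) (mul_nonneg (mul_pos hC (Z.pos j c)).le (q1 j))
  rw [pow_add]
  show w1 j * w2 j ≤ _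
  linarith
theorem eCx.Le.congr {w v w' v' : J → ℝ} (h : Z.Le w v) (hw : ∀ j, w' j = w j)
    (hv : ∀ j, v' j = v j) : Z.Le w' v' := by
  obtain ⟨C, c, hC, h⟩ := h
  exact ⟨C, c, hC, fun j => by rw [hw j, hv j]; exact h j⟩
theorem eCx.Le.mul_right {w v u : J → ℝ} (h : Z.Le w v) (p : ∀ j, 0 ≤ u j) :
    Z.Le (fun j => w j * u j) (fun j => v j * u j) := by
  obtain ⟨C, c, hC, h⟩ := h
  refine ⟨C, c, hC, fun j => ?_⟩
  have := mul_le_mul_of_nonneg_right (h j) (p j)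
  show w j * u j ≤ _
  linarith
theorem eCx.Le.mul_left {w v u : J → ℝ} (h : Z.Le w v) (p : ∀ j, 0 ≤ u j) :
    Z.Le (fun j => u j * w j) (fun j => u j * v j) :=
  (h.mul_right p).congr (fun _ => mul_comm _ _) (fun _ => mul_comm _ _)
theorem eCx.Le.const_mul {w v : J → ℝ} {c : ℝ} (hc : 0 ≤ c) (h : Z.Le w v) (h0 : ∀ j, 0 ≤ v j) :
    Z.Le (fun j => c * w j) v :=
  (h.mul_left (u := fun _ => c) fun _ => hc).trans (eCx.Le.of_const c (fun _ => le_rfl) h0)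
theorem eCx.Le.sum {κ : Type*} (s : Finset κ) {f : κ → J → ℝ} {v : J → ℝ}
    (h0 : ∀ j, 0 ≤ v j) (h : ∀ a ∈ s, Z.Le (f a) v) : Z.Le (fun j => ∑ a ∈ s, f a j) v := by
  classical
  induction s using Finset.induction_on with
  | empty => exact eCx.Le.of_le (fun j => by simpa using h0 j)
  | insert a s ha ih =>
    have := (h a (Finset.mem_insert_self _ _)).add (ih fun j hj => h j (Finset.mem_insert_of_mem hj)) h0
    exact this.congr (fun j => by rw [Finset.sum_insert ha]) (fun _ => rfl)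
theorem eCx.Le.pow {f g : J → ℝ} (h : Z.Le f g) (p : ∀ j, 0 ≤ f j) (k : ℕ) :
    Z.Le (fun j => f j ^ k) (fun j => g j ^ k) := by
  obtain ⟨C, c, hC, h⟩ := h
  refine ⟨C ^ k, c * k, pow_pos hC k, fun j => ?_⟩
  calc f j ^ k ≤ (C * Z.τ j ^ c * g j) ^ k := pow_le_pow_left₀ (p j) (h j) k
    _ = _ := by rw [pow_mul]; ring
theorem eCx.Le.unif {f : ℕ → J → ℝ} {g : ℕ → J → ℝ} (n : ℕ) (h0 : ∀ k j, 0 ≤ g k j)
    (h : ∀ k ≤ n, Z.Le (f k) (g k)) :
    ∃ (C : ℝ) (c : ℕ), 1 ≤ C ∧ ∀ k ≤ n, ∀ j, f k j ≤ C * Z.τ j ^ c * g k j := by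
  induction n with
  | zero =>
    obtain ⟨C, c, hC, h⟩ := h 0 le_rfl
    refine ⟨C + 1, c, by linarith, fun k hk j => ?_⟩
    obtain rfl : k = 0 := by omega
    have := mul_nonneg (Z.pos j c).le (h0 0 j)
    have := h j
    nlinarith
  | succ n ih =>
    obtain ⟨C, c, hC, h1⟩ := ih fun k hk => h k (by omega)
    obtain ⟨C', c', hC', h2⟩ := h (n + 1) le_rfl
    refine ⟨C + C', c + c', by linarith, fun k hk j => ?_⟩
    have a1 : Z.τ j ^ c ≤ Z.τ j ^ (c + c') := pow_le_pow_right₀ (Z.hτ j) (by omega)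
    have a2 : Z.τ j ^ c' ≤ Z.τ j ^ (c + c') := pow_le_pow_right₀ (Z.hτ j) (by omega)
    have a3 := Z.pos j (c + c')
    rcases Nat.lt_or_ge k (n + 1) with hlt | hge
    · refine (h1 k (by omega) j).trans (mul_le_mul_of_nonneg_right ?_ (h0 k j))
      nlinarith
    · obtain rfl : k = n + 1 := by omega
      refine (h2 j).trans (mul_le_mul_of_nonneg_right ?_ (h0 _ j))
      nlinarith

end le

variable {J : Type*} {X W W1 W2 W3 : Type} [NormedAddCommGroup X] [NormedSpace ℝ X]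
  [NormedAddCommGroup W] [NormedSpace ℝ W] [NormedAddCommGroup W1] [NormedSpace ℝ W1]
  [NormedAddCommGroup W2] [NormedSpace ℝ W2] [NormedAddCommGroup W3] [NormedSpace ℝ W3]

theorem e0_open {u : X → W} {x : X} (h : ContDiffAt ℝ ∞ u x) (k : ℕ) :
    ∃ O, IsOpen O ∧ x ∈ O ∧ ContDiffOn ℝ k u O := by
  obtain ⟨O, h1, h2, h3⟩ := eventually_nhds_iff.1
    ((h.of_le (t1_nat_le k)).eventually (by simp))
  exact ⟨O, h2, h3, fun y hy => (h1 y hy).contDiffWithinAt⟩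

theorem e0_bilin (B : W1 →L[ℝ] W2 →L[ℝ] W3) {u : X → W1} {v : X → W2} {y : X}
    (hu : ContDiffAt ℝ ∞ u y) (hv : ContDiffAt ℝ ∞ v y) (k : ℕ) :
    ‖iteratedFDeriv ℝ k (fun y => B (u y) (v y)) y‖ ≤ ‖B‖ * ∑ j ∈ Finset.range (k + 1),
      (k.choose j : ℝ) * (‖iteratedFDeriv ℝ j u y‖ * ‖iteratedFDeriv ℝ (k - j) v y‖) := by
  obtain ⟨O1, a1, a2, a3⟩ := e0_open hu k
  obtain ⟨O2, b1, b2, b3⟩ := e0_open hv k
  have hO := a1.inter b1
  have hy : y ∈ O1 ∩ O2 := ⟨a2, b2⟩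
  have := B.norm_iteratedFDerivWithin_le_of_bilinear (a3.mono inter_subset_left)
    (b3.mono inter_subset_right) hO.uniqueDiffOn hy (le_refl (k : WithTop ℕ∞))
  simp only [iteratedFDerivWithin_of_isOpen _ hO hy, mul_assoc] at this
  exact this

theorem e0_comp {Φ : W1 → W} {g : X → W1} {x : X} (hg : ContDiffAt ℝ ∞ g x)
    (hΦ : ContDiffAt ℝ ∞ Φ (g x)) (k : ℕ) {C D : ℝ}
    (h1 : ∀ i ≤ k, ‖iteratedFDeriv ℝ i Φ (g x)‖ ≤ C)
    (h2 : ∀ i, 1 ≤ i → i ≤ k → ‖iteratedFDeriv ℝ i g x‖ ≤ D ^ i) :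
    ‖iteratedFDeriv ℝ k (fun y => Φ (g y)) x‖ ≤ k.factorial * C * D ^ k := by
  obtain ⟨O1, a1, a2, a3⟩ := e0_open hg k
  obtain ⟨O2, b1, b2, b3⟩ := e0_open hΦ k
  have hO : IsOpen (O1 ∩ g ⁻¹' O2) := a3.continuousOn.isOpen_inter_preimage a1 b1
  have hy : x ∈ O1 ∩ g ⁻¹' O2 := ⟨a2, b2⟩
  have := norm_iteratedFDerivWithin_comp_le b3 (a3.mono inter_subset_left)
    (le_refl (k : WithTop ℕ∞)) b1.uniqueDiffOn hO.uniqueDiffOn (fun z hz => hz.2) hy (C := C) (D := D)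
    (fun j hj => by rw [iteratedFDerivWithin_of_isOpen _ b1 b2]; exact h1 j hj)
    (fun j hj hj' => by rw [iteratedFDerivWithin_of_isOpen _ hO hy]; exact h2 j hj hj')
  rw [iteratedFDerivWithin_of_isOpen _ hO hy] at this
  exact this

theorem e0_scale (u : X → W) {a : ℝ} (ha : 0 < a) (x : X) (k : ℕ) :
    ‖iteratedFDeriv ℝ k (fun z => u (a • z)) x‖ ≤ ‖iteratedFDeriv ℝ k u (a • x)‖ * a ^ k := by
  let g : X ≃L[ℝ] X := ContinuousLinearEquiv.smulLeft (Units.mk0 a ha.ne')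
  have hg : ∀ z, g z = a • z := fun z => rfl
  have := g.iteratedFDerivWithin_comp_right u uniqueDiffOn_univ (x := x) (mem_univ _) k
  rw [preimage_univ, iteratedFDerivWithin_univ, iteratedFDerivWithin_univ] at this
  have e : (fun z => u (a • z)) = u ∘ g := rfl
  rw [e, this]
  refine (ContinuousMultilinearMap.norm_compContinuousLinearMap_le _ _).trans ?_
  rw [Finset.prod_const, Finset.card_univ, Fintype.card_fin, hg]
  refine mul_le_mul_of_nonneg_left (pow_le_pow_left₀ (norm_nonneg _) ?_ k) (norm_nonneg _)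
  refine ContinuousLinearMap.opNorm_le_bound _ ha.le fun z => ?_
  show ‖a • z‖ ≤ _
  rw [norm_smul, Real.norm_of_nonneg ha.le]

/-- graded bound up to order `n` at the points of the family -/
structure eGB (Z : eCx J X) (n : ℕ) (lam w : J → ℝ) (u : J → X → W) : Prop where
  sm : ∀ j, ContDiffAt ℝ ∞ (u j) (Z.p j)
  nn : ∀ j, 0 ≤ w j
  hl : ∀ j, 1 ≤ lam j
  bd : ∀ k ≤ n, Z.Le (fun j => ‖iteratedFDeriv ℝ k (u j) (Z.p j)‖) (fun j => w j * lam j ^ k)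

variable {Z : eCx J X} {n : ℕ} {lam : J → ℝ}

theorem eGB.nn' {w : J → ℝ} {u : J → X → W} (h : eGB Z n lam w u) (k : ℕ) (j : J) :
    0 ≤ w j * lam j ^ k := mul_nonneg (h.nn j) (pow_nonneg (zero_le_one.trans (h.hl j)) k)
theorem eGB.mono {w w' : J → ℝ} {u : J → X → W} (h : eGB Z n lam w u) (hw : Z.Le w w')
    (h0 : ∀ j, 0 ≤ w' j) : eGB Z n lam w' u :=
  ⟨h.sm, h0, h.hl, fun k hk => (h.bd k hk).trans
    (hw.mul_right fun j => pow_nonneg (zero_le_one.trans (h.hl j)) k)⟩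
theorem eGB.mono_le {w w' : J → ℝ} {u : J → X → W} (h : eGB Z n lam w u) (hw : ∀ j, w j ≤ w' j) :
    eGB Z n lam w' u := h.mono (eCx.Le.of_le hw) fun j => (h.nn j).trans (hw j)
theorem eGB.mono_eq {w w' : J → ℝ} {u : J → X → W} (h : eGB Z n lam w u) (hw : ∀ j, w j = w' j) :
    eGB Z n lam w' u := h.mono_le fun j => (hw j).le
theorem eGB.order {w : J → ℝ} {u : J → X → W} (h : eGB Z n lam w u) {m : ℕ} (hm : m ≤ n) :
    eGB Z m lam w u := ⟨h.sm, h.nn, h.hl, fun k hk => h.bd k (hk.trans hm)⟩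
theorem eGB.relam {w lam' : J → ℝ} {u : J → X → W} (h : eGB Z n lam w u) (hl : Z.Le lam lam')
    (h1 : ∀ j, 1 ≤ lam' j) : eGB Z n lam' w u :=
  ⟨h.sm, h.nn, h1, fun k hk => (h.bd k hk).trans
    ((hl.pow (fun j => zero_le_one.trans (h.hl j)) k).mul_left h.nn)⟩
theorem eGB.congr {w : J → ℝ} {u v : J → X → W} (h : eGB Z n lam w u)
    (e : ∀ j, v j =ᶠ[𝓝 (Z.p j)] u j) : eGB Z n lam w v :=
  ⟨fun j => (h.sm j).congr_of_eventuallyEq (e j), h.nn, h.hl, fun k hk => (h.bd k hk).congr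
    (fun j => by rw [((e j).iteratedFDeriv ℝ k).eq_of_nhds]) (fun _ => rfl)⟩
theorem eGB.norm_le {w : J → ℝ} {u : J → X → W} (h : eGB Z n lam w u) :
    Z.Le (fun j => ‖u j (Z.p j)‖) w :=
  (h.bd 0 (Nat.zero_le _)).congr (fun j => norm_iteratedFDeriv_zero.symm) (fun j => by simp)
theorem eGB.famc {w : J → ℝ} (c : J → W) (h : Z.Le (fun j => ‖c j‖) w) (h0 : ∀ j, 0 ≤ w j)
    (hl : ∀ j, 1 ≤ lam j) : eGB Z n lam w (fun j _ => c j) := by
  refine ⟨fun j => contDiffAt_const, h0, hl, fun k _ => ?_⟩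
  rcases Nat.eq_zero_or_pos k with rfl | hk
  · exact h.congr (fun j => norm_iteratedFDeriv_zero) (fun j => by simp)
  · refine eCx.Le.of_le fun j => ?_
    rw [iteratedFDeriv_const_of_ne hk.ne']
    simpa using mul_nonneg (h0 j) (pow_nonneg (zero_le_one.trans (hl j)) k)
theorem eGB.add {w : J → ℝ} {u v : J → X → W} (h : eGB Z n lam w u) (h' : eGB Z n lam w v) :
    eGB Z n lam w (fun j y => u j y + v j y) :=
  ⟨fun j => (h.sm j).add (h'.sm j), h.nn, h.hl, fun k hk => eCx.Le.le_trans (fun j => by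
    have := iteratedFDeriv_add_apply ((h.sm j).of_le (t1_nat_le k)) ((h'.sm j).of_le (t1_nat_le k))
    show ‖iteratedFDeriv ℝ k (u j + v j) (Z.p j)‖ ≤ _
    rw [this]
    exact norm_add_le _ _) ((h.bd k hk).add (h'.bd k hk) (h.nn' k))⟩
theorem eGB.clm (L : W →L[ℝ] W1) {w : J → ℝ} {u : J → X → W} (h : eGB Z n lam w u) :
    eGB Z n lam w (fun j y => L (u j y)) :=
  ⟨fun j => L.contDiff.contDiffAt.comp _ (h.sm j), h.nn, h.hl, fun k hk => eCx.Le.le_trans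
    (fun j => L.norm_iteratedFDeriv_comp_left (h.sm j) (t1_nat_le k))
    ((h.bd k hk).const_mul (norm_nonneg _) (h.nn' k))⟩
theorem eGB.neg {w : J → ℝ} {u : J → X → W} (h : eGB Z n lam w u) :
    eGB Z n lam w (fun j y => -u j y) := h.clm (-ContinuousLinearMap.id ℝ W)
theorem eGB.sub {w : J → ℝ} {u v : J → X → W} (h : eGB Z n lam w u) (h' : eGB Z n lam w v) :
    eGB Z n lam w (fun j y => u j y - v j y) :=
  (h.add h'.neg).congr fun j => Eventually.of_forall fun y => sub_eq_add_neg _ _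
theorem eGB.bilin (B : W1 →L[ℝ] W2 →L[ℝ] W3) {w1 w2 : J → ℝ} {u : J → X → W1} {v : J → X → W2}
    (h : eGB Z n lam w1 u) (h' : eGB Z n lam w2 v) :
    eGB Z n lam (fun j => w1 j * w2 j) (fun j y => B (u j y) (v j y)) := by
  have h0 : ∀ j, 0 ≤ w1 j * w2 j := fun j => mul_nonneg (h.nn j) (h'.nn j)
  refine ⟨fun j => (B.contDiff.contDiffAt.comp _ (h.sm j)).clm_apply (h'.sm j), h0, h.hl,
    fun k hk => ?_⟩
  have h1 : ∀ j, 0 ≤ w1 j * w2 j * lam j ^ k := fun j =>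
    mul_nonneg (h0 j) (pow_nonneg (zero_le_one.trans (h.hl j)) k)
  refine eCx.Le.le_trans (fun j => e0_bilin B (h.sm j) (h'.sm j) k) ?_
  refine eCx.Le.const_mul (norm_nonneg B) (eCx.Le.sum _ h1 fun a ha => ?_) h1
  have ha' : a ≤ k := by simpa [Nat.lt_succ_iff] using ha
  refine eCx.Le.const_mul (Nat.cast_nonneg _) ?_ h1
  refine ((h.bd a (by omega)).mul (h'.bd (k - a) (by omega)) (fun _ => norm_nonneg _)
    (h.nn' a)).congr (fun _ => rfl) (fun j => ?_)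
  obtain ⟨b, rfl⟩ := Nat.exists_eq_add_of_le ha'
  simp only [Nat.add_sub_cancel_left]
  ring
theorem eGB.smul {w1 w2 : J → ℝ} {u : J → X → ℝ} {v : J → X → W}
    (h : eGB Z n lam w1 u) (h' : eGB Z n lam w2 v) :
    eGB Z n lam (fun j => w1 j * w2 j) (fun j y => u j y • v j y) :=
  h.bilin (ContinuousLinearMap.lsmul ℝ ℝ) h'
theorem eGB.mul {w1 w2 : J → ℝ} {u v : J → X → ℝ}
    (h : eGB Z n lam w1 u) (h' : eGB Z n lam w2 v) :
    eGB Z n lam (fun j => w1 j * w2 j) (fun j y => u j y * v j y) := h.smul h'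
theorem eGB.app {w1 w2 : J → ℝ} {u : J → X → (W1 →L[ℝ] W2)} {v : J → X → W1}
    (h : eGB Z n lam w1 u) (h' : eGB Z n lam w2 v) :
    eGB Z n lam (fun j => w1 j * w2 j) (fun j y => u j y (v j y)) :=
  h.bilin (ContinuousLinearMap.id ℝ (W1 →L[ℝ] W2)) h'
theorem eGB.app_const {w : J → ℝ} {u : J → X → (W1 →L[ℝ] W2)} (h : eGB Z n lam w u) (v : W1) :
    eGB Z n lam w (fun j y => u j y v) := h.clm (ContinuousLinearMap.apply ℝ W2 v)
theorem eGB.const_smul (c : ℝ) {w : J → ℝ} {u : J → X → W} (h : eGB Z n lam w u) :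
    eGB Z n lam w (fun j y => c • u j y) := h.clm (c • ContinuousLinearMap.id ℝ W)
theorem eGB.fam_smul {w : J → ℝ} {u : J → X → W} (c : J → ℝ) (hc : ∀ j, 0 ≤ c j)
    (h : eGB Z n lam w u) : eGB Z n lam (fun j => c j * w j) (fun j y => c j • u j y) :=
  (eGB.famc c (eCx.Le.of_le fun j => (Real.norm_of_nonneg (hc j)).le) hc h.hl).smul h
theorem eGB.prodMk {w : J → ℝ} {u : J → X → W1} {v : J → X → W2} (h : eGB Z n lam w u)
    (h' : eGB Z n lam w v) : eGB Z n lam w (fun j y => (u j y, v j y)) :=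
  ((h.clm (ContinuousLinearMap.inl ℝ W1 W2)).add (h'.clm (ContinuousLinearMap.inr ℝ W1 W2))).congr
    fun j => Eventually.of_forall fun y => by simp

/-- the dot product as a continuous bilinear map -/
def e0_dotL : V →L[ℝ] V →L[ℝ] ℝ :=
  ∑ i : Fin 4, (ContinuousLinearMap.mul ℝ ℝ).bilinearComp (ContinuousLinearMap.proj i)
    (ContinuousLinearMap.proj i)
theorem e0_dotL_apply (a b : V) : e0_dotL a b = a ⬝ᵥ b := by
  simp [e0_dotL, dotProduct]
theorem eGB.dot {w1 w2 : J → ℝ} {u v : J → X → V}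
    (h : eGB Z n lam w1 u) (h' : eGB Z n lam w2 v) :
    eGB Z n lam (fun j => w1 j * w2 j) (fun j y => u j y ⬝ᵥ v j y) :=
  (h.bilin e0_dotL h').congr fun j => Eventually.of_forall fun y => (e0_dotL_apply _ _).symm
theorem eGB.fderiv {w : J → ℝ} {u : J → X → W} (h : eGB Z (n + 1) lam w u) :
    eGB Z n lam (fun j => w j * lam j) (fun j => fderiv ℝ (u j)) :=
  ⟨fun j => (h.sm j).fderiv_right (m := ∞) le_rfl,
    fun j => mul_nonneg (h.nn j) (zero_le_one.trans (h.hl j)), h.hl, fun k hk =>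
    (h.bd (k + 1) (by omega)).congr (fun j => norm_iteratedFDeriv_fderiv) (fun j => by ring)⟩
theorem eGB.fderiv_of {w : J → ℝ} {u : J → X → W} (hs : ∀ j, ContDiffAt ℝ ∞ (u j) (Z.p j))
    (h0 : ∀ j, 0 ≤ w j) (hl : ∀ j, 1 ≤ lam j)
    (h : ∀ k ≤ n, Z.Le (fun j => ‖iteratedFDeriv ℝ (k + 1) (u j) (Z.p j)‖) (fun j => w j * lam j ^ k)) :
    eGB Z n lam w (fun j => _root_.fderiv ℝ (u j)) :=
  ⟨fun j => (hs j).fderiv_right (m := ∞) le_rfl, h0, hl, fun k hk =>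
    (h k hk).congr (fun j => norm_iteratedFDeriv_fderiv) (fun j => rfl)⟩
theorem eGB.comp {w μ ν : J → ℝ} {g : J → X → W1} {Φ : J → W1 → W}
    (hg : ∀ j, ContDiffAt ℝ ∞ (g j) (Z.p j)) (hΦ : ∀ j, ContDiffAt ℝ ∞ (Φ j) (g j (Z.p j)))
    (h0 : ∀ j, 0 ≤ w j) (hμ : ∀ j, 1 ≤ μ j) (hν : ∀ j, 1 ≤ ν j)
    (b1 : ∀ k ≤ n, Z.Le (fun j => ‖iteratedFDeriv ℝ k (Φ j) (g j (Z.p j))‖) (fun j => w j * μ j ^ k))
    (b2 : ∀ k ≤ n, 1 ≤ k → Z.Le (fun j => ‖iteratedFDeriv ℝ k (g j) (Z.p j)‖) (fun j => ν j ^ k)) :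
    eGB Z n (fun j => μ j * ν j) w (fun j y => Φ j (g j y)) := by
  refine ⟨fun j => (hΦ j).comp _ (hg j), h0, fun j => one_le_mul_of_one_le_of_one_le (hμ j) (hν j),
    fun k hk => ?_⟩
  obtain ⟨C, c, hC, h1⟩ := eCx.Le.unif (Z := Z) k
    (fun k j => mul_nonneg (h0 j) (pow_nonneg (zero_le_one.trans (hμ j)) k))
    (fun a ha => b1 a (ha.trans hk))
  obtain ⟨C', c', hC', h2⟩ := eCx.Le.unif (Z := Z)
    (f := fun a j => if 1 ≤ a then ‖iteratedFDeriv ℝ a (g j) (Z.p j)‖ else 0)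
    (g := fun a j => ν j ^ a) k
    (fun k j => pow_nonneg (zero_le_one.trans (hν j)) k) (fun a ha => by
      by_cases h1 : 1 ≤ a
      · simp only [h1, if_true]
        exact b2 a (ha.trans hk) h1
      · simp only [h1, if_false]
        exact eCx.Le.of_le fun j => pow_nonneg (zero_le_one.trans (hν j)) a)
  refine ⟨k.factorial * C * C' ^ k, c + c' * k, by positivity, fun j => ?_⟩
  have t1 : 1 ≤ C' * Z.τ j ^ c' := one_le_mul_of_one_le_of_one_le hC' (one_le_pow₀ (Z.hτ j))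
  have := e0_comp (hg j) (hΦ j) k (C := C * Z.τ j ^ c * (w j * μ j ^ k))
    (D := C' * Z.τ j ^ c' * ν j) (fun a ha => (h1 a ha j).trans
      (mul_le_mul_of_nonneg_left (mul_le_mul_of_nonneg_left (pow_le_pow_right₀ (hμ j) ha) (h0 j))
        (mul_nonneg (zero_le_one.trans hC) (Z.pos j c).le)))
    (fun a ha1 ha => by
      have := h2 a ha j
      simp only [ha1, if_true] at this
      refine this.trans ?_
      rw [mul_pow]
      exact mul_le_mul_of_nonneg_right (le_self_pow₀ t1 (by omega))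
        (pow_nonneg (zero_le_one.trans (hν j)) a))
  refine this.trans (le_of_eq ?_)
  rw [pow_add, pow_mul]
  simp only [mul_pow]
  ring
/-- a fixed smooth function on a compact set -/
theorem eGB.fixed {f : X → W} {O K : Set X} (hO : IsOpen O) (hK : IsCompact K) (hKO : K ⊆ O)
    (hf : ContDiffOn ℝ ∞ f O) (hp : ∀ j, Z.p j ∈ K) (hl : ∀ j, 1 ≤ lam j) :
    eGB Z n lam (fun _ => 1) (fun _ => f) := by
  refine ⟨fun j => hf.contDiffAt (hO.mem_nhds (hKO (hp j))), fun _ => zero_le_one, hl,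
    fun k _ => ?_⟩
  obtain ⟨C, hC⟩ := t2_bdd hO hK hKO hf k
  have h1 : ∀ j, 1 ≤ 1 * lam j ^ k := fun j => by rw [one_mul]; exact one_le_pow₀ (hl j)
  exact (eCx.Le.of_const C (w' := fun _ => 1) (fun j => by simpa using hC _ (hp j))
    (fun _ => zero_le_one)).trans_le h1
theorem eGB.cases {w : J → ℝ} {u v v' : J → X → W} (h : eGB Z n lam w v) (h' : eGB Z n lam w v')
    (e : ∀ j, u j =ᶠ[𝓝 (Z.p j)] v j ∨ u j =ᶠ[𝓝 (Z.p j)] v' j) : eGB Z n lam w u := by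
  refine ⟨fun j => ?_, h.nn, h.hl, fun k hk => eCx.Le.le_trans (fun j => ?_)
    ((h.bd k hk).add (h'.bd k hk) (h.nn' k))⟩
  · rcases e j with e | e
    · exact (h.sm j).congr_of_eventuallyEq e
    · exact (h'.sm j).congr_of_eventuallyEq e
  · rcases e j with e | e
    · rw [(e.iteratedFDeriv ℝ k).eq_of_nhds]
      exact le_add_of_nonneg_right (norm_nonneg _)
    · rw [(e.iteratedFDeriv ℝ k).eq_of_nhds]
      exact le_add_of_nonneg_left (norm_nonneg _)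

/-! link with tame families -/

section fam
variable {ι : Type*}

/-- the points of a family, moved by a map -/
def e0_cx (A : Fam ι X) {X' : Type} (q : ι → X → X') : eCx {z : ι × X // z.2 ∈ A.O z.1} X' where
  p z := q z.1.1 z.1.2
  τ z := A.τ z.1.1
  hτ z := A.one_le z.1.1

theorem e0_le_iff {A : Fam ι X} {X' : Type} (q : ι → X → X') (w v : ι → X → ℝ) :
    A.Le w v ↔ (e0_cx A q).Le (fun z => w z.1.1 z.1.2) (fun z => v z.1.1 z.1.2) :=
  ⟨fun ⟨C, c, hC, h⟩ => ⟨C, c, hC, fun z => h z.1.1 z.1.2 z.2⟩,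
    fun ⟨C, c, hC, h⟩ => ⟨C, c, hC, fun i y hy => h ⟨(i, y), hy⟩⟩⟩

/-- rescaling -/
theorem e0_res {A : Fam ι X} {σ : ι → ℝ} (hσ : ∀ i, 0 < σ i) {u : ι → X → W} {w e : ι → X → ℝ}
    (he0 : ∀ i, ∀ x ∈ A.O i, 0 ≤ e i x) (he : ∀ i, ∀ x ∈ A.O i, e i x ≤ 1)
    (h : ∀ n, eGB (e0_cx A (fun i x => (σ i)⁻¹ • x)) n (fun z => σ z.1.1 * e z.1.1 z.1.2)
      (fun z => w z.1.1 z.1.2) (fun z => u z.1.1)) :
    Tm A w (fun i x => u i ((σ i)⁻¹ • x)) ∧
      Tm A (fun i x => w i x * e i x) (fun i x => fderiv ℝ (fun x => u i ((σ i)⁻¹ • x)) x) := by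
  have w0 : ∀ i, ∀ x ∈ A.O i, 0 ≤ w i x := fun i x hx => (h 0).nn ⟨(i, x), hx⟩
  have sm : ∀ i, ContDiffOn ℝ ∞ (fun x => u i ((σ i)⁻¹ • x)) (A.O i) := fun i x hx =>
    (((h 0).sm ⟨(i, x), hx⟩).comp x (contDiff_const_smul _).contDiffAt).contDiffWithinAt
  have key : ∀ k, A.Le (fun i x => ‖iteratedFDeriv ℝ k (fun x => u i ((σ i)⁻¹ • x)) x‖)
      (fun i x => w i x * e i x ^ k) := fun k => by
    have := (e0_le_iff (A := A) (fun i x => (σ i)⁻¹ • x)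
      (fun i x => ‖iteratedFDeriv ℝ k (u i) ((σ i)⁻¹ • x)‖)
      (fun i x => w i x * (σ i * e i x) ^ k)).2 ((h k).bd k le_rfl)
    refine Fam.Le.le_trans (fun i x _ => e0_scale (u i) (inv_pos.2 (hσ i)) x k) ?_
    refine (this.mul_right (u := fun i _ => (σ i)⁻¹ ^ k)
      fun i _ _ => pow_nonneg (inv_pos.2 (hσ i)).le k).congr (fun _ _ _ => rfl) (fun i x _ => ?_)
    have := (hσ i).ne'
    rw [mul_pow, inv_pow]
    field_simp
  refine ⟨⟨sm, w0, fun k => (key k).trans (Fam.Le.of_le (fun i x hx => ?_) w0)⟩,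
    ⟨fun i => (sm i).fderiv_of_isOpen (A.op i) le_rfl,
      fun i x hx => mul_nonneg (w0 i x hx) (he0 i x hx), fun k => ?_⟩⟩
  · exact mul_le_of_le_one_right (w0 i x hx) (pow_le_one₀ (he0 i x hx) (he i x hx))
  · refine ((key (k + 1)).congr (fun i x _ => norm_iteratedFDeriv_fderiv) (fun _ _ _ => rfl)).trans
      (Fam.Le.of_le (fun i x hx => ?_) fun i x hx => mul_nonneg (w0 i x hx) (he0 i x hx))
    rw [pow_succ']
    exact mul_le_mul_of_nonneg_left (mul_le_of_le_one_right (he0 i x hx)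
      (pow_le_one₀ (he0 i x hx) (he i x hx))) (w0 i x hx)

end fam

end Vale.Agent.P205
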