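import Vale.Agent.P205.D2
import Vale.Agent.P205.T2
import Vale.Agent.P205.G1
import Vale.Agent.P205.E0a

open Set Filter Topology
open scoped ContDiff

noncomputable section
namespace Vale.Agent.P205

variable {ι : Type*} {P : Pc} {τ s σ0 d : ι → ℝ} {F : ι → E → V} {bh : ι → E → ℝ}
  {l' l r r' c0 M : ℝ} {ζ0 : ℝ → ℝ}

/-! E0: the rescaled data of a piece satisfy the hypotheses. -/

theorem e0_egd (k : ℕ) : ∃ p : Polynomial ℝ, p.natDegree ≤ 2 * k ∧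
    iteratedDeriv k expNegInvGlue = fun x => p.eval x⁻¹ * expNegInvGlue x := by
  induction k with
  | zero => exact ⟨1, by simp, by ext x; simp⟩
  | succ k ih =>
    obtain ⟨p, h1, h2⟩ := ih
    refine ⟨Polynomial.X ^ 2 * (p - Polynomial.derivative p), ?_, ?_⟩
    · refine Polynomial.natDegree_mul_le.trans ?_
      have a := Polynomial.natDegree_sub_le p (Polynomial.derivative p)
      have b := Polynomial.natDegree_derivative_le p
      rw [Polynomial.natDegree_X_pow]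
      have := max_le (le_refl p.natDegree) (b.trans (Nat.sub_le _ _))
      omega
    · rw [iteratedDeriv_succ, h2]
      ext x
      exact (expNegInvGlue.hasDerivAt_polynomial_eval_inv_mul p x).deriv

theorem e0_egb (k : ℕ) : ∃ C, 0 < C ∧ ∀ x, 0 < x →
    ‖iteratedFDeriv ℝ k expNegInvGlue x‖ ≤ C * (expNegInvGlue x * ((x ^ 2)⁻¹ + 1) ^ k) := by
  obtain ⟨p, h1, h2⟩ := e0_egd k
  refine ⟨∑ i ∈ Finset.range (2 * k + 1), |p.coeff i| + 1, by positivity, fun x hx => ?_⟩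
  rw [norm_iteratedFDeriv_eq_norm_iteratedDeriv, h2]
  have e0 := expNegInvGlue.nonneg x
  have t0 : 0 < x⁻¹ := inv_pos.2 hx
  have q0 : 1 ≤ (x ^ 2)⁻¹ + 1 := by have := inv_pos.2 (pow_pos hx 2); linarith
  have q1 : ∀ i ≤ 2 * k, x⁻¹ ^ i ≤ ((x ^ 2)⁻¹ + 1) ^ k := fun i hi => by
    rcases le_total x⁻¹ 1 with h | h
    · exact (pow_le_one₀ t0.le h).trans (one_le_pow₀ q0)
    · refine (pow_le_pow_right₀ h hi).trans ?_
      rw [pow_mul]
      exact pow_le_pow_left₀ (by positivity) (by rw [inv_pow]; linarith) k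
  have q2 : |p.eval x⁻¹| ≤ (∑ i ∈ Finset.range (2 * k + 1), |p.coeff i|) * ((x ^ 2)⁻¹ + 1) ^ k := by
    rw [Polynomial.eval_eq_sum_range' (n := 2 * k + 1) (by omega), Finset.sum_mul]
    refine (Finset.abs_sum_le_sum_abs _ _).trans (Finset.sum_le_sum fun i hi => ?_)
    rw [abs_mul, abs_of_nonneg (pow_nonneg t0.le i)]
    exact mul_le_mul_of_nonneg_left (q1 i (by simpa [Nat.lt_succ_iff] using hi)) (abs_nonneg _)
  rw [Real.norm_eq_abs, abs_mul, abs_of_nonneg e0]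
  have := mul_le_mul_of_nonneg_right q2 e0
  have := mul_nonneg e0 (pow_nonneg (zero_le_one.trans q0) k)
  nlinarith

theorem e0_eg0 (k : ℕ) {x : ℝ} (hx : x ≤ 0) : ‖iteratedFDeriv ℝ k expNegInvGlue x‖ = 0 := by
  obtain ⟨p, -, h2⟩ := e0_egd k
  rw [norm_iteratedFDeriv_eq_norm_iteratedDeriv, h2]
  simp [expNegInvGlue.zero_of_nonpos hx]

theorem e0_eg_le (m : ℕ) {x : ℝ} (hx : 0 < x) : expNegInvGlue x ≤ m.factorial * x ^ m := by
  have h := Real.pow_div_factorial_le_exp x⁻¹ (inv_pos.2 hx).le m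
  have hf : (0 : ℝ) < m.factorial := by exact_mod_cast m.factorial_pos
  have : expNegInvGlue x = (Real.exp x⁻¹)⁻¹ := by simp [expNegInvGlue, hx.not_ge, Real.exp_neg]
  rw [this]
  refine (inv_anti₀ (by positivity) h).trans (le_of_eq ?_)
  rw [inv_pow]
  field_simp

theorem e0_eg_le_one (x : ℝ) : expNegInvGlue x ≤ 1 := by
  rcases le_or_gt x 0 with h | h
  · rw [expNegInvGlue.zero_of_nonpos h]; exact zero_le_one
  · simpa using e0_eg_le 0 h

/-- derivatives of the flat amplitude factor -/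
theorem eg_bound (P : Pc) (k : ℕ) : ∃ C, 0 < C ∧ ∀ x ∈ P.K, 0 < P.f x →
    ‖iteratedFDeriv ℝ k (fun y => expNegInvGlue (P.f y)) x‖
      ≤ C * expNegInvGlue (P.f x) * ((P.f x ^ 2)⁻¹ + 1) ^ k := by
  let Z : eCx {x : E // x ∈ P.K ∧ 0 < P.f x} E := ⟨fun z => z.1, fun _ => 1, fun _ => le_rfl⟩
  have hf : eGB Z k (fun _ => 1) (fun _ => 1) (fun _ => P.f) :=
    eGB.fixed P.op P.cp P.sub P.sf (fun z => z.2.1) (fun _ => le_rfl)
  have := eGB.comp (Z := Z) (n := k) (w := fun z => expNegInvGlue (P.f z.1))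
    (μ := fun z => (P.f z.1 ^ 2)⁻¹ + 1) (ν := fun _ => 1) (g := fun _ => P.f)
    (Φ := fun _ => expNegInvGlue) hf.sm (fun _ => expNegInvGlue.contDiff.contDiffAt)
    (fun _ => expNegInvGlue.nonneg _)
    (fun z => by have := inv_pos.2 (pow_pos z.2.2 2); linarith) (fun _ => le_rfl)
    (fun a _ => by
      obtain ⟨C, hC, h⟩ := e0_egb a
      exact ⟨C, 0, hC, fun z => by rw [pow_zero, mul_one]; exact h _ z.2.2⟩)
    (fun a ha _ => (hf.bd a ha).congr (fun _ => rfl) (fun _ => by simp))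
  obtain ⟨C, c, hC, h⟩ := this.bd k le_rfl
  refine ⟨C, hC, fun x hx hf => (h ⟨x, hx, hf⟩).trans (le_of_eq ?_)⟩
  simp only [Z, one_pow, mul_one]
  ring
theorem eg_flat (P : Pc) (k N : ℕ) : ∃ C, 0 < C ∧ ∀ x ∈ P.K, ∀ t : ℝ, 0 < t → P.f x ≤ t →
    ‖iteratedFDeriv ℝ k (fun y => expNegInvGlue (P.f y)) x‖ ≤ C * t ^ N := by
  obtain ⟨C, hC, h⟩ := eg_bound P k
  refine ⟨C * (2 ^ (k - 1) * ((2 * k + N).factorial + N.factorial)), by positivity,
    fun x hx t ht hft => ?_⟩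
  rcases le_or_gt (P.f x) 0 with h0 | h0
  · have hf := P.sf.contDiffAt (P.op.mem_nhds (P.sub hx))
    have := e0_comp (Φ := expNegInvGlue) hf expNegInvGlue.contDiff.contDiffAt k (C := 0)
      (D := 1 + ∑ j ∈ Finset.range (k + 1), ‖iteratedFDeriv ℝ j P.f x‖)
      (fun i _ => (e0_eg0 i h0).le) (fun i h1 hi => by
        have a := Finset.single_le_sum (f := fun j => ‖iteratedFDeriv ℝ j P.f x‖)
          (fun _ _ => norm_nonneg _) (Finset.mem_range.2 (show i < k + 1 by omega))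
        have b : 0 ≤ ∑ j ∈ Finset.range (k + 1), ‖iteratedFDeriv ℝ j P.f x‖ :=
          Finset.sum_nonneg fun _ _ => norm_nonneg _
        refine le_trans ?_ (le_self_pow₀ (by linarith) (by omega))
        linarith)
    refine this.trans ?_
    simp only [mul_zero, zero_mul]
    positivity
  · refine (h x hx h0).trans ?_
    set y := P.f x
    have a1 := add_pow_le (a := (y ^ 2)⁻¹) (b := 1) (by positivity) zero_le_one k
    have a2 := e0_eg_le (2 * k + N) h0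
    have a3 := e0_eg_le N h0
    have a4 : y ^ N ≤ t ^ N := pow_le_pow_left₀ h0.le hft N
    have e0 := expNegInvGlue.nonneg y
    have a5 : expNegInvGlue y * (y ^ 2)⁻¹ ^ k ≤ (2 * k + N).factorial * y ^ N := by
      refine (mul_le_mul_of_nonneg_right a2 (by positivity)).trans (le_of_eq ?_)
      rw [pow_add, pow_mul, inv_pow]
      field_simp
    have a6 : expNegInvGlue y * ((y ^ 2)⁻¹ + 1) ^ k ≤
        2 ^ (k - 1) * (((2 * k + N).factorial + N.factorial) * t ^ N) := by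
      refine (mul_le_mul_of_nonneg_left a1 e0).trans ?_
      rw [one_pow, mul_left_comm]
      refine mul_le_mul_of_nonneg_left ?_ (by positivity)
      have : ((2 * k + N).factorial + N.factorial : ℝ) * y ^ N ≤
          ((2 * k + N).factorial + N.factorial) * t ^ N :=
        mul_le_mul_of_nonneg_left a4 (by positivity)
      linarith
    have := mul_le_mul_of_nonneg_left a6 hC.le
    linarith

section cx
variable {J : Type*} {Z : eCx J E} {ix : J → ι} {n : ℕ}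

theorem e0_KB {W : Type} [NormedAddCommGroup W] [NormedSpace ℝ W] {K : Set E} {w : ι → ℕ → ℝ}
    {u : ι → E → W} (h : KB K τ w u) (hp : ∀ j, Z.p j ∈ K) (ht : ∀ j, Z.τ j = τ (ix j)) (k : ℕ) :
    Z.Le (fun j => ‖iteratedFDeriv ℝ k (u (ix j)) (Z.p j)‖) (fun j => w (ix j) k) := by
  obtain ⟨C, c, hC, h⟩ := h k
  exact ⟨C, c, hC, fun j => by rw [ht j]; exact h _ _ (hp j)⟩

theorem e0_sF (h : P.Hyp τ s σ0 d F bh l' l r r' c0) (i : ι) {x : E} (hx : x ∈ P.O) :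
    ContDiffAt ℝ ∞ (F i) x := (h.sF i).contDiffAt (P.op.mem_nhds hx)

theorem e0_F1 (h : P.Hyp τ s σ0 d F bh l' l r r' c0) (hp : ∀ j, Z.p j ∈ P.K)
    (ht : ∀ j, Z.τ j = τ (ix j)) :
    eGB Z n (fun j => σ0 (ix j)) (fun _ => 1) (fun j => fderiv ℝ (F (ix j))) :=
  eGB.fderiv_of (fun j => e0_sF h _ (P.sub (hp j))) (fun _ => zero_le_one) (fun j => h.hσ1 _)
    fun k _ => (e0_KB h.bF hp ht (k + 1)).trans_le fun j => by
      rw [one_mul]
      exact pow_le_pow_right₀ (h.hσ1 _) (by omega)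

theorem e0_F2 (h : P.Hyp τ s σ0 d F bh l' l r r' c0) (hp : ∀ j, Z.p j ∈ P.K)
    (ht : ∀ j, Z.τ j = τ (ix j)) :
    eGB Z n (fun j => σ0 (ix j)) (fun _ => 1) (fun j => fderiv ℝ (fderiv ℝ (F (ix j)))) :=
  eGB.fderiv_of (fun j => (e0_sF h _ (P.sub (hp j))).fderiv_right (m := ∞) le_rfl)
    (fun _ => zero_le_one) (fun j => h.hσ1 _)
    fun k _ => ((e0_KB h.bF hp ht (k + 2)).congr (fun j => norm_iteratedFDeriv_fderiv)
      (fun _ => rfl)).trans_le fun j => by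
      rw [one_mul]
      exact pow_le_pow_right₀ (h.hσ1 _) (by omega)

theorem e0_bh (h : P.Hyp τ s σ0 d F bh l' l r r' c0) (hp : ∀ j, Z.p j ∈ P.K)
    (ht : ∀ j, Z.τ j = τ (ix j)) :
    eGB Z n (fun j => σ0 (ix j)) (fun _ => 1) (fun j => bh (ix j)) :=
  ⟨fun j => (h.sb _).contDiffAt (P.op.mem_nhds (P.sub (hp j))), fun _ => zero_le_one,
    fun j => h.hσ1 _, fun k _ => (e0_KB h.bb hp ht k).trans_le fun j => by rw [one_mul]⟩

theorem e0_fix {W : Type} [NormedAddCommGroup W] [NormedSpace ℝ W] {lam : J → ℝ} {g : E → W}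
    (hg : ContDiffOn ℝ ∞ g P.O) (hp : ∀ j, Z.p j ∈ P.K) (hl : ∀ j, 1 ≤ lam j) :
    eGB Z n lam (fun _ => 1) (fun _ => g) := eGB.fixed P.op P.cp P.sub hg hp hl

theorem e0_dV1 (h : P.Hyp τ s σ0 d F bh l' l r r' c0) (hp : ∀ j, Z.p j ∈ P.K)
    (ht : ∀ j, Z.τ j = τ (ix j)) {c : E → E} (hc : ContDiffOn ℝ ∞ c P.O) :
    eGB Z n (fun j => σ0 (ix j)) (fun _ => 1) (fun j => dV c (F (ix j))) :=
  ((e0_F1 h hp ht).app (e0_fix hc hp fun _ => h.hσ1 _)).mono_eq fun _ => one_mul _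

theorem e0_dV2 (h : P.Hyp τ s σ0 d F bh l' l r r' c0) (hp : ∀ j, Z.p j ∈ P.K)
    (ht : ∀ j, Z.τ j = τ (ix j)) {c c' : E → E} (hc : ContDiffOn ℝ ∞ c P.O)
    (hc' : ContDiffOn ℝ ∞ c' P.O) :
    eGB Z n (fun j => σ0 (ix j)) (fun _ => 1) (fun j => dV c' (dV c (F (ix j)))) := by
  have g1 : eGB Z n (fun j => σ0 (ix j)) (fun _ => 1) (fun _ => c) := e0_fix hc hp fun _ => h.hσ1 _
  have g2 : eGB Z n (fun j => σ0 (ix j)) (fun _ => 1) (fun _ => c') := e0_fix hc' hp fun _ => h.hσ1 _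
  have g3 : eGB Z n (fun j => σ0 (ix j)) (fun _ => 1) (fun _ => fderiv ℝ c) :=
    e0_fix (hc.fderiv_of_isOpen P.op le_rfl) hp fun _ => h.hσ1 _
  have a := (((e0_F2 (n := n) h hp ht).app g2).app g1).mono_eq (w' := fun _ => 1) fun _ => by simp
  have b := ((e0_F1 (n := n) h hp ht).app (g3.app g2)).mono_eq (w' := fun _ => 1) fun _ => by simp
  refine (a.add b).congr fun j => ?_
  filter_upwards [P.op.mem_nhds (P.sub (hp j))] with y hy
  exact dV_dV (e0_sF h _ hy) ((hc.contDiffAt (P.op.mem_nhds hy)).differentiableAt (by simp))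

theorem e0_eg {lam : J → ℝ} (hp : ∀ j, Z.p j ∈ P.K) (hf : ∀ j, 0 < P.f (Z.p j))
    (hl : Z.Le (fun j => (P.f (Z.p j) ^ 2)⁻¹ + 1) lam) (h1 : ∀ j, 1 ≤ lam j) :
    eGB Z n lam (fun j => expNegInvGlue (P.f (Z.p j))) (fun _ y => expNegInvGlue (P.f y)) := by
  refine eGB.relam ⟨fun j => expNegInvGlue.contDiff.contDiffAt.comp _
    (P.sf.contDiffAt (P.op.mem_nhds (P.sub (hp j)))), fun _ => expNegInvGlue.nonneg _,
    fun j => by have := inv_pos.2 (pow_pos (hf j) 2); linarith, fun k _ => ?_⟩ hl h1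
  obtain ⟨C, hC, h⟩ := eg_bound P k
  exact ⟨C, 0, hC, fun j => (h _ (hp j) (hf j)).trans (le_of_eq (by ring))⟩

theorem e0_lb (h : P.Hyp τ s σ0 d F bh l' l r r' c0) (hp : ∀ j, Z.p j ∈ P.K)
    (ht : ∀ j, Z.τ j = τ (ix j)) : Z.Le (fun _ => 1) (fun j => bh (ix j) (Z.p j)) := by
  obtain ⟨C, c, hC, h⟩ := h.lb
  exact ⟨C, c, hC, fun j => by rw [ht j]; exact h _ _ (hp j)⟩

theorem e0_bh_pos (h : P.Hyp τ s σ0 d F bh l' l r r' c0) (i : ι) {x : E} (hx : x ∈ P.K) :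
    0 < bh i x := by
  obtain ⟨C, c, hC, h'⟩ := h.lb
  have := h' i x hx
  exact (mul_pos_iff_of_pos_left
    (mul_pos hC (pow_pos (lt_of_lt_of_le one_pos (h.hτ i)) c))).1 (lt_of_lt_of_le one_pos this)

theorem e0_ub (h : P.Hyp τ s σ0 d F bh l' l r r' c0) (hp : ∀ j, Z.p j ∈ P.K)
    (ht : ∀ j, Z.τ j = τ (ix j)) : Z.Le (fun j => bh (ix j) (Z.p j)) (fun _ => 1) :=
  eCx.Le.le_trans (fun _ => le_abs_self _) (e0_bh (n := 0) h hp ht).norm_le

/-- the amplitude, with the weight `eg · d` -/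
theorem e0_amp (h : P.Hyp τ s σ0 d F bh l' l r r' c0) (hp : ∀ j, Z.p j ∈ P.K)
    (ht : ∀ j, Z.τ j = τ (ix j)) {lam w : J → ℝ}
    (hg : eGB Z n lam w (fun _ y => expNegInvGlue (P.f y)))
    (hl : ∀ j, σ0 (ix j) ≤ lam j) :
    eGB Z n lam (fun j => w j * d (ix j)) (fun j => P.amp (d (ix j)) (bh (ix j))) :=
  ((hg.mul (eGB.famc (fun j => d (ix j)) (eCx.Le.of_le fun j => (Real.norm_of_nonneg (h.hd0 _).le).le)
    (fun j => (h.hd0 _).le) hg.hl)).mul ((e0_bh h hp ht).relam (eCx.Le.of_le hl) hg.hl)).mono_eq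
      fun _ => mul_one _

end cx

theorem e0_mem {hτ : ∀ i, 1 ≤ τ i} (hM1 : 1 ≤ M) {i : ι} {x : E}
    (hx : x ∈ (P.fam M τ s σ0 hτ).O i) :
    (σ0 i * s i ^ 2)⁻¹ • x ∈ P.O ∧ M < Real.sqrt (s i) * P.f ((σ0 i * s i ^ 2)⁻¹ • x) ∧
      0 < P.f ((σ0 i * s i ^ 2)⁻¹ • x) ∧ (σ0 i * s i ^ 2)⁻¹ • x ∈ P.K := by
  have h1 : (σ0 i * s i ^ 2)⁻¹ • x ∈ P.O := hx.1
  have h2 : M < Real.sqrt (s i) * P.f ((σ0 i * s i ^ 2)⁻¹ • x) := hx.2
  have h3 : 0 < P.f ((σ0 i * s i ^ 2)⁻¹ • x) := by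
    by_contra hc
    have := mul_nonpos_of_nonneg_of_nonpos (Real.sqrt_nonneg (s i)) (not_lt.1 hc)
    linarith
  exact ⟨h1, h2, h3, P.fK _ h1 h3⟩

theorem e0_dV_scale {W : Type} [NormedAddCommGroup W] [NormedSpace ℝ W] {a : ℝ} (ha : a ≠ 0)
    (G : E → W) (c : E → E) (x : E) :
    dV (fun x => a • c (a⁻¹ • x)) (fun x => G (a⁻¹ • x)) x = dV c G (a⁻¹ • x) := by
  unfold dV
  rw [fderiv_comp_smul]
  simp [smul_smul, ha]

theorem e0_cr_tan (L : E →L[ℝ] V) {c1 c2 : E} (h : detE c1 c2 ≠ 0) (u : V) (v : E) :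
    cr (L c1) (L c2) (u + L v) = cr (L c1) (L c2) u := by
  have := E_frame h v
  conv_lhs => rw [this]
  rw [map_add, map_smul, map_smul, cr_tan]

theorem e0_sig (h : P.Hyp τ s σ0 d F bh l' l r r' c0) (i : ι) : 1 ≤ σ0 i * s i ^ 2 :=
  one_le_mul_of_one_le_of_one_le (h.hσ1 i) (one_le_pow₀ (h.hs i))

theorem e0_Sl (h : P.Hyp τ s σ0 d F bh l' l r r' c0) {W : Type} [NormedAddCommGroup W]
    [NormedSpace ℝ W] {A : Fam ι E} {u : ι → E → W}
    (hu : ∀ n, eGB (e0_cx A (fun i x => (σ0 i * s i ^ 2)⁻¹ • x)) n (fun z => σ0 z.1.1) (fun _ => 1)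
      (fun z => u z.1.1)) :
    Sl A (fun i _ => (s i ^ 2)⁻¹) (fun i x => u i ((σ0 i * s i ^ 2)⁻¹ • x)) := by
  have hs : ∀ i, 0 < s i ^ 2 := fun i => pow_pos (lt_of_lt_of_le one_pos (h.hs i)) 2
  have e : ∀ i, σ0 i = σ0 i * s i ^ 2 * (s i ^ 2)⁻¹ := fun i => by
    rw [mul_assoc, mul_inv_cancel₀ (hs i).ne', mul_one]
  have := e0_res (A := A) (σ := fun i => σ0 i * s i ^ 2) (u := u) (w := fun _ _ => 1)
    (e := fun i _ => (s i ^ 2)⁻¹) (fun i => lt_of_lt_of_le one_pos (e0_sig h i))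
    (fun i _ _ => (inv_pos.2 (hs i)).le)
    (fun i _ _ => inv_le_one_of_one_le₀ (one_le_pow₀ (h.hs i)))
    (fun n => (hu n).relam (eCx.Le.of_le fun z => (e z.1.1).le) fun z => (h.hσ1 _).trans (e _).le)
  exact ⟨this.1, this.2.mono_le fun i _ _ => (one_mul _).le⟩

theorem td_hyp (h : P.Hyp τ s σ0 d F bh l' l r r' c0) (hM1 : 1 ≤ M) (hM : ∀ x ∈ P.K, P.f x ≤ M)
    (hζ : ContDiff ℝ ∞ ζ0) (hζs : tsupport ζ0 ⊆ Icc l' r') :
    TD0.Hyp (P.fam M τ s σ0 h.hτ) (fun i => P.td M (s i) (σ0 i) (d i) (F i) (bh i) ζ0) := by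
  set A := P.fam M τ s σ0 h.hτ with hA
  set Z := e0_cx A (fun i x => (σ0 i * s i ^ 2)⁻¹ • x) with hZ
  have hp : ∀ z, Z.p z ∈ P.K := fun z => (e0_mem hM1 z.2).2.2.2
  have hf : ∀ z, 0 < P.f (Z.p z) := fun z => (e0_mem hM1 z.2).2.2.1
  have ht : ∀ z, Z.τ z = τ z.1.1 := fun _ => rfl
  have hs0 : ∀ i, 0 < s i := fun i => lt_of_lt_of_le one_pos (h.hs i)
  have hσ0 : ∀ i, 0 < σ0 i := fun i => lt_of_lt_of_le one_pos (h.hσ1 i)
  have hσ : ∀ i, 0 < σ0 i * s i ^ 2 := fun i => lt_of_lt_of_le one_pos (e0_sig h i)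
  have hM0 : 0 < M := lt_of_lt_of_le one_pos hM1
  have le_iff := e0_le_iff (A := A) (fun i x => (σ0 i * s i ^ 2)⁻¹ • x)
  have apos : ∀ i, ∀ x ∈ A.O i, 0 < P.amp (d i) (bh i) ((σ0 i * s i ^ 2)⁻¹ • x) := fun i x hx =>
    mul_pos (mul_pos (expNegInvGlue.pos_of_pos (e0_mem hM1 hx).2.2.1) (h.hd0 i))
      (e0_bh_pos h i (e0_mem hM1 hx).2.2.2)
  have ηs : ∀ i, ∀ x ∈ A.O i,
      M ^ 2 / (s i ^ 2 * P.f ((σ0 i * s i ^ 2)⁻¹ • x) ^ 2) * s i ≤ 1 := fun i x hx => by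
    obtain ⟨-, h2, h3, -⟩ := e0_mem hM1 hx
    set y := P.f ((σ0 i * s i ^ 2)⁻¹ • x)
    have a := pow_le_pow_left₀ hM0.le h2.le 2
    rw [mul_pow, Real.sq_sqrt (hs0 i).le] at a
    have := hs0 i
    rw [div_mul_eq_mul_div, div_le_one (by positivity)]
    nlinarith
  have η1 : ∀ i, ∀ x ∈ A.O i,
      M ^ 2 / (s i ^ 2 * P.f ((σ0 i * s i ^ 2)⁻¹ • x) ^ 2) ≤ 1 := fun i x hx =>
    (le_mul_of_one_le_right (by positivity) (h.hs i)).trans (ηs i x hx)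
  have hq : ∀ z, 1 ≤ M ^ 2 / P.f (Z.p z) ^ 2 := fun z =>
    (one_le_div (pow_pos (hf z) 2)).2 (pow_le_pow_left₀ (hf z).le (hM _ (hp z)) 2)
  have lamE : ∀ z : {z : ι × E // z.2 ∈ A.O z.1}, σ0 z.1.1 * s z.1.1 ^ 2 *
      (M ^ 2 / (s z.1.1 ^ 2 * P.f ((σ0 z.1.1 * s z.1.1 ^ 2)⁻¹ • z.1.2) ^ 2))
      = σ0 z.1.1 * (M ^ 2 / P.f (Z.p z) ^ 2) := fun z => by
    have := (hs0 z.1.1).ne'
    have := (hf z).ne'
    show _ * (M ^ 2 / (_ * P.f (Z.p z) ^ 2)) = _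
    field_simp
  have lam1 : ∀ z : {z : ι × E // z.2 ∈ A.O z.1}, σ0 z.1.1 ≤ σ0 z.1.1 * s z.1.1 ^ 2 *
      (M ^ 2 / (s z.1.1 ^ 2 * P.f ((σ0 z.1.1 * s z.1.1 ^ 2)⁻¹ • z.1.2) ^ 2)) := fun z => by
    rw [lamE]
    exact le_mul_of_one_le_right (hσ0 _).le (hq z)
  have tC : ∀ c : E → E, ContDiffOn ℝ ∞ c P.O → Tm A (fun i _ => σ0 i * s i ^ 2)
      (fun i x => (σ0 i * s i ^ 2) • c ((σ0 i * s i ^ 2)⁻¹ • x)) := fun c hc =>
    (e0_res (A := A) (σ := fun i => σ0 i * s i ^ 2) (u := fun i y => (σ0 i * s i ^ 2) • c y)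
      (e := fun _ _ => 1) hσ (fun _ _ _ => zero_le_one) (fun _ _ _ => le_rfl)
      (fun n => ((e0_fix hc hp fun z => by rw [mul_one]; exact e0_sig h _).fam_smul
        (fun z => σ0 z.1.1 * s z.1.1 ^ 2) fun z => (hσ _).le).mono_eq fun _ => mul_one _)).1
  have hamp := e0_res (A := A) (σ := fun i => σ0 i * s i ^ 2) (u := fun i => P.amp (d i) (bh i))
    (w := fun i x => P.amp (d i) (bh i) ((σ0 i * s i ^ 2)⁻¹ • x))
    (e := fun i x => M ^ 2 / (s i ^ 2 * P.f ((σ0 i * s i ^ 2)⁻¹ • x) ^ 2)) hσ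
    (fun _ _ _ => by positivity) η1 (fun n => by
      refine (e0_amp (ix := fun z => z.1.1) h hp ht (e0_eg hp hf ?_ fun z => (h.hσ1 _).trans (lam1 z))
        lam1).mono ?_ fun z => (apos _ _ z.2).le
      · refine eCx.Le.of_const 2 (fun z => ?_) fun z => (hσ0 _).le.trans (lam1 z)
        rw [lamE]
        have a := hq z
        have b : (P.f (Z.p z) ^ 2)⁻¹ ≤ M ^ 2 / P.f (Z.p z) ^ 2 := by
          rw [div_eq_mul_inv]
          exact le_mul_of_one_le_left (inv_pos.2 (pow_pos (hf z) 2)).le (one_le_pow₀ hM1)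
        have := h.hσ1 z.1.1
        nlinarith
      · exact ((e0_lb h hp ht).mul_left (u := fun z => expNegInvGlue (P.f (Z.p z)) * d z.1.1)
          fun z => mul_nonneg (expNegInvGlue.nonneg _) (h.hd0 _).le).congr
            (fun _ => (mul_one _).symm) (fun _ => rfl))
  have F22 : ∀ i x, (P.td M (s i) (σ0 i) (d i) (F i) (bh i) ζ0).F22 x =
      dV P.c2 (dV P.c2 (F i)) ((σ0 i * s i ^ 2)⁻¹ • x) := fun i x =>
    e0_dV_scale (hσ i).ne' (dV P.c2 (F i)) P.c2 x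
  refine
    { eps := fun i => ?_
      sig := e0_sig h
      s1 := h.hs
      η0pos := fun i => inv_pos.2 (pow_pos (hs0 i) 2)
      epsη := fun i x _ => ?_
      η0le := fun i x hx => ?_
      ηs := ηs
      apos := apos
      ale := ?_
      aη := ?_
      tC1 := tC _ P.s1
      tC2 := tC _ P.s2
      lC2 := ?_
      sF1 := e0_Sl (u := fun i => dV P.c1 (F i)) h fun n => e0_dV1 h hp ht P.s1
      sF2 := e0_Sl (u := fun i => dV P.c2 (F i)) h fun n => e0_dV1 h hp ht P.s2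
      sF22 := (e0_Sl (u := fun i => dV P.c2 (dV P.c2 (F i))) h
        fun n => e0_dV2 h hp ht P.s2 P.s2).congr fun i x _ => F22 i x
      comm := fun i x hx => ?_
      low := ?_
      ta := hamp.1
      tda := hamp.2
      tζ := ?_ }
  · have := hs0 i
    have := hσ0 i
    show 0 < (σ0 i ^ 2 * s i ^ 6)⁻¹
    positivity
  · have := (hs0 i).ne'
    have := (hσ0 i).ne'
    show (σ0 i ^ 2 * s i ^ 6)⁻¹ * (σ0 i * s i ^ 2) ^ 2 ≤ (s i ^ 2)⁻¹
    refine le_of_eq ?_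
    field_simp
  · show (s i ^ 2)⁻¹ ≤ M ^ 2 / (s i ^ 2 * P.f ((σ0 i * s i ^ 2)⁻¹ • x) ^ 2)
    have a := hq ⟨(i, x), hx⟩
    rw [mul_comm (s i ^ 2), ← div_div, div_eq_mul_inv _ (s i ^ 2)]
    exact le_mul_of_one_le_left (inv_pos.2 (pow_pos (hs0 i) 2)).le a
  · refine (le_iff _ _).2 (eCx.Le.le_trans (fun z => ?_) (e0_ub h hp ht))
    refine mul_le_of_le_one_left (e0_bh_pos h _ (hp z)).le ?_
    exact mul_le_one₀ (e0_eg_le_one _) (h.hd0 _).le (h.hd1 _)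
  · refine (le_iff _ _).2 ((eCx.Le.of_const (2 * M ^ 2) (w' := fun z => bh z.1.1 (Z.p z) * (s z.1.1 ^ 2)⁻¹)
      (fun z => ?_) fun z => mul_nonneg (e0_bh_pos h _ (hp z)).le (by positivity)).trans ?_)
    · show expNegInvGlue (P.f (Z.p z)) * d z.1.1 * bh z.1.1 (Z.p z) *
        (M ^ 2 / (s z.1.1 ^ 2 * P.f (Z.p z) ^ 2)) ≤ _
      have a := e0_eg_le 2 (hf z)
      have b := e0_bh_pos h z.1.1 (hp z)
      have c := hf z
      have c' := hs0 z.1.1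
      have e : expNegInvGlue (P.f (Z.p z)) * d z.1.1 ≤ 2 * P.f (Z.p z) ^ 2 :=
        (mul_le_of_le_one_right (expNegInvGlue.nonneg _) (h.hd1 _)).trans (by simpa using a)
      refine (mul_le_mul_of_nonneg_right (mul_le_mul_of_nonneg_right e b.le) (by positivity)).trans
        (le_of_eq ?_)
      field_simp
    · exact ((e0_ub h hp ht).mul_right (u := fun z => (s z.1.1 ^ 2)⁻¹) fun z => by positivity).congr
        (fun _ => rfl) (fun _ => (one_mul _).symm)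
  · obtain ⟨m, hm, hm'⟩ := P.cp.exists_forall_le' (f := fun x => ‖P.c2 x‖)
      (P.s2.continuousOn.mono P.sub).norm (a := 0) (fun x hx => norm_pos_iff.2 fun h0 =>
        P.det x (P.sub hx) (by rw [h0]; simp [detE]))
    refine Fam.Le.of_le_const m⁻¹ (fun i x hx => ?_) fun _ _ _ => norm_nonneg _
    show σ0 i * s i ^ 2 ≤ m⁻¹ * ‖(σ0 i * s i ^ 2) • P.c2 ((σ0 i * s i ^ 2)⁻¹ • x)‖
    rw [norm_smul, Real.norm_of_nonneg (hσ i).le, mul_left_comm]
    refine le_mul_of_one_le_right (hσ i).le ?_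
    rw [← div_eq_inv_mul, one_le_div hm]
    exact hm' _ (e0_mem hM1 hx).2.2.2
  · have hy := (e0_mem hM1 hx).1
    refine (e0_dV_scale (hσ i).ne' (dV P.c2 (F i)) P.c1 x).trans
      (Eq.trans ?_ (e0_dV_scale (hσ i).ne' (dV P.c1 (F i)) P.c2 x).symm)
    rw [dV_dV (e0_sF h i hy) ((P.s2.contDiffAt (P.op.mem_nhds hy)).differentiableAt (by simp)),
      dV_dV (e0_sF h i hy) ((P.s1.contDiffAt (P.op.mem_nhds hy)).differentiableAt (by simp)),
      P.comm _ hy, d2_symm (e0_sF h i hy)]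
  · obtain ⟨C, c, hC, h'⟩ := h.mg
    refine ⟨C, c, hC, fun i x hx => (h' i _ (e0_mem hM1 hx).2.2.2).trans (le_of_eq ?_)⟩
    have hy := (e0_mem hM1 hx).1
    congr 1
    show _ = np (fderiv ℝ (F i) _ (P.c1 _)) (fderiv ℝ (F i) _ (P.c2 _)) _ _
    rw [F22, dV_dV (e0_sF h i hy) ((P.s2.contDiffAt (P.op.mem_nhds hy)).differentiableAt (by simp))]
    unfold npG np
    rw [e0_cr_tan _ (P.det _ hy)]
  · refine (e0_res (A := A) (σ := fun i => σ0 i * s i ^ 2) (u := fun i y => ζ0 (P.φ y))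
      (e := fun _ _ => 1) hσ (fun _ _ _ => zero_le_one) (fun _ _ _ => le_rfl) (fun n => ?_)).1
    have g : eGB Z n (fun z => σ0 z.1.1 * s z.1.1 ^ 2 * 1) (fun _ => 1) (fun _ y => ζ0 (P.φ y)) :=
      e0_fix (hζ.comp_contDiffOn P.sφ) hp fun z => by rw [mul_one]; exact e0_sig h _
    refine ⟨g.sm, fun z => (apos _ _ z.2).le, g.hl, fun k hk => ?_⟩
    obtain ⟨C, c, hC, hb⟩ := g.bd k hk
    refine ⟨C / c0, c, div_pos hC h.hc0, fun z => ?_⟩
    have a0 := apos _ _ z.2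
    have l0 := pow_nonneg (zero_le_one.trans (g.hl z)) k
    have t0 := Z.pos z c
    by_cases hz : P.φ (Z.p z) ∈ Icc l' r'
    · refine (hb z).trans ?_
      have a := (h.hw z.1.1 _ (P.sub (hp z)) (hf z) hz).2
      have a' : c0 ≤ P.amp (d z.1.1) (bh z.1.1) (Z.p z) :=
        (le_mul_of_one_le_right h.hc0.le (le_add_of_nonneg_right (norm_nonneg _))).trans a
      have b : 1 ≤ c0⁻¹ * P.amp (d z.1.1) (bh z.1.1) (Z.p z) := by
        rw [← div_eq_inv_mul, one_le_div h.hc0]; exact a'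
      have := mul_le_mul_of_nonneg_left (mul_le_mul_of_nonneg_right b l0) (mul_pos hC t0).le
      refine this.trans (le_of_eq ?_)
      show _ = C / c0 * Z.τ z ^ c * (P.amp (d z.1.1) (bh z.1.1) (Z.p z) * _)
      ring
    · have hz' : P.φ (Z.p z) ∉ tsupport ζ0 := fun hc => hz (hζs hc)
      have e : (fun y => ζ0 (P.φ y)) =ᶠ[𝓝 (Z.p z)] fun _ => 0 :=
        ((P.sφ.continuousOn.continuousAt (P.op.mem_nhds (P.sub (hp z)))).eventually
          (notMem_tsupport_iff_eventuallyEq.1 hz'))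
      show ‖iteratedFDeriv ℝ k (fun y => ζ0 (P.φ y)) (Z.p z)‖ ≤ _
      rw [(e.iteratedFDeriv ℝ k).eq_of_nhds, iteratedFDeriv_fun_zero]
      have := h.hc0
      simp only [Pi.zero_apply, norm_zero]
      exact mul_nonneg (mul_pos (div_pos hC h.hc0) t0).le (mul_nonneg a0.le l0)

end Vale.Agent.P205
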