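import Vale.Agent.P205.D2
import Vale.Agent.P205.T2
import Vale.Agent.P205.G1
import Vale.Agent.P205.E0

open Set Filter Topology
open scoped ContDiff

noncomputable section
namespace Vale.Agent.P205

variable {ι : Type*} {P : Pc} {τ s σ0 d : ι → ℝ} {F : ι → E → V} {bh : ι → E → ℝ}
  {l' l r r' c0 M : ℝ} {ζ0 : ℝ → ℝ}

/-! E1: analytic bounds for the oscillating map. -/

theorem e1_cancel (h : P.Hyp τ s σ0 d F bh l' l r r' c0) (i : ι) (x : E) :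
    (σ0 i * s i ^ 2)⁻¹ • (σ0 i * s i ^ 2) • x = x :=
  inv_smul_smul₀ (lt_of_lt_of_le one_pos (e0_sig h i)).ne' x

theorem e1_lam (h : P.Hyp τ s σ0 d F bh l' l r r' c0) (i : ι) :
    σ0 i * s i ^ 2 ≤ σ0 i ^ 2 * s i ^ 6 :=
  mul_le_mul (le_self_pow₀ (h.hσ1 i) (by omega)) (pow_le_pow_right₀ (h.hs i) (by omega))
    (by have := h.hs i; positivity) (by positivity)

theorem e1_lam1 (h : P.Hyp τ s σ0 d F bh l' l r r' c0) (i : ι) : 1 ≤ σ0 i ^ 2 * s i ^ 6 :=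
  (e0_sig h i).trans (e1_lam h i)

theorem e1_lam0 (h : P.Hyp τ s σ0 d F bh l' l r r' c0) (i : ι) : σ0 i ≤ σ0 i ^ 2 * s i ^ 6 :=
  (le_mul_of_one_le_right (zero_le_one.trans (h.hσ1 i)) (one_le_pow₀ (h.hs i))).trans (e1_lam h i)

theorem e1_memO (h : P.Hyp τ s σ0 d F bh l' l r r' c0) {i : ι} {x : E}
    (hx : (σ0 i * s i ^ 2) • x ∈ (P.fam M τ s σ0 h.hτ).O i) :
    x ∈ P.O ∧ M < Real.sqrt (s i) * P.f x := by
  have h1 : (σ0 i * s i ^ 2)⁻¹ • (σ0 i * s i ^ 2) • x ∈ P.O := hx.1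
  have h2 : M < Real.sqrt (s i) * P.f ((σ0 i * s i ^ 2)⁻¹ • (σ0 i * s i ^ 2) • x) := hx.2
  rw [e1_cancel h] at h1 h2
  exact ⟨h1, h2⟩

theorem e1_memK (h : P.Hyp τ s σ0 d F bh l' l r r' c0) (hM1 : 1 ≤ M) {i : ι} {x : E}
    (hx : (σ0 i * s i ^ 2) • x ∈ (P.fam M τ s σ0 h.hτ).O i) : x ∈ P.K ∧ 0 < P.f x := by
  have := e0_mem hM1 hx
  rw [e1_cancel h] at this
  exact ⟨this.2.2.2, this.2.2.1⟩

theorem e1_mem_of (h : P.Hyp τ s σ0 d F bh l' l r r' c0) {i : ι} {x : E} (h1 : x ∈ P.O)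
    (h2 : M < Real.sqrt (s i) * P.f x) : (σ0 i * s i ^ 2) • x ∈ (P.fam M τ s σ0 h.hτ).O i := by
  show (σ0 i * s i ^ 2)⁻¹ • (σ0 i * s i ^ 2) • x ∈ P.O ∩ _
  rw [e1_cancel h]
  exact ⟨h1, h2⟩

theorem e1_fast_sm (P : Pc) (a b : ℝ) {x : E} (hx : x ∈ P.O) :
    ContDiffAt ℝ ∞ (fun y => ((a • y, b * P.φ y) : Y)) x :=
  (contDiff_const_smul a).contDiffAt.prodMk
    (contDiffAt_const.mul (P.sφ.contDiffAt (P.op.mem_nhds hx)))

theorem e1_chain {W : Type} [NormedAddCommGroup W] [NormedSpace ℝ W] (P : Pc) (a b : ℝ) {x : E}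
    (hx : x ∈ P.O) {H : Y → W} (hH : DifferentiableAt ℝ H (a • x, b * P.φ x)) (v : E) :
    fderiv ℝ (fun y => H (a • y, b * P.φ y)) x v = fderiv ℝ H (a • x, b * P.φ x) (a • v, 0)
      + (b * fderiv ℝ P.φ x v) • dθ H (a • x, b * P.φ x) := by
  have h1 : DifferentiableAt ℝ P.φ x :=
    (P.sφ.contDiffAt (P.op.mem_nhds hx)).differentiableAt (by simp)
  have h2 : HasFDerivAt (fun y => ((a • y, b * P.φ y) : Y))
      ((a • ContinuousLinearMap.id ℝ E).prod (b • fderiv ℝ P.φ x)) x :=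
    ((hasFDerivAt_id x).const_smul a).prodMk (h1.hasFDerivAt.const_mul b)
  have h3 := (hH.hasFDerivAt.comp x h2).fderiv
  have e : (fun y => H (a • y, b * P.φ y)) = H ∘ fun y => ((a • y, b * P.φ y) : Y) := rfl
  rw [e, h3, dθ, ← map_smul, ← map_add]
  simp

theorem ev_contDiffAt (h : P.Hyp τ s σ0 d F bh l' l r r' c0) {A' : Fam ι E}
    (hO : ∀ i, A'.O i ⊆ (P.fam M τ s σ0 h.hτ).O i) {U : ι → Y → V} {w : ι → E → ℝ}
    (hU : TmC A' w U) (i : ι) (x : E) (hx : (σ0 i * s i ^ 2) • x ∈ A'.O i) :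
    ContDiffAt ℝ ∞ (P.ev (s i) (σ0 i) (U i)) x :=
  ((Tm.contDiffAt hU i (y := ((σ0 i * s i ^ 2) • x, (σ0 i ^ 2 * s i ^ 6) * P.φ x))
    ⟨hx, mem_univ _⟩).comp x (e1_fast_sm P _ _ (e1_memO h (hO i hx)).1)).const_smul _

theorem e1_fast (h : P.Hyp τ s σ0 d F bh l' l r r' c0) (hM1 : 1 ≤ M) {A' : Fam ι E}
    (hτ : A'.τ = τ) (hO : ∀ i, A'.O i ⊆ (P.fam M τ s σ0 h.hτ).O i)
    {W : Type} [NormedAddCommGroup W] [NormedSpace ℝ W] {U : ι → Y → W} {w : ι → E → ℝ}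
    (hU : TmC A' w U) {J : Type*} {Z : eCx J E} {ix : J → ι}
    (hp : ∀ j, (σ0 (ix j) * s (ix j) ^ 2) • Z.p j ∈ A'.O (ix j)) (ht : ∀ j, Z.τ j = τ (ix j))
    (n : ℕ) : eGB Z n (fun j => σ0 (ix j) ^ 2 * s (ix j) ^ 6)
      (fun j => w (ix j) ((σ0 (ix j) * s (ix j) ^ 2) • Z.p j))
      (fun j y => U (ix j) ((σ0 (ix j) * s (ix j) ^ 2) • y, (σ0 (ix j) ^ 2 * s (ix j) ^ 6) * P.φ y)) := by
  have hK : ∀ j, Z.p j ∈ P.K := fun j => (e1_memK h hM1 (hO _ (hp j))).1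
  have g1 : eGB Z n (fun _ => 1) (fun _ => 1) (fun _ y => ((y, 0) : Y)) :=
    e0_fix (contDiff_id.prodMk contDiff_const).contDiffOn hK fun _ => le_rfl
  have g2 : eGB Z n (fun _ => 1) (fun _ => 1) (fun _ y => ((0, P.φ y) : Y)) :=
    e0_fix (contDiffOn_const.prodMk P.sφ) hK fun _ => le_rfl
  have g : eGB Z n (fun _ => 1) (fun j => σ0 (ix j) ^ 2 * s (ix j) ^ 6) (fun j y =>
      (((σ0 (ix j) * s (ix j) ^ 2) • y, (σ0 (ix j) ^ 2 * s (ix j) ^ 6) * P.φ y) : Y)) :=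
    (((g1.fam_smul (fun j => σ0 (ix j) * s (ix j) ^ 2)
      fun j => zero_le_one.trans (e0_sig h _)).mono_le fun j => by
        rw [mul_one]; exact e1_lam h _).add
      ((g2.fam_smul (fun j => σ0 (ix j) ^ 2 * s (ix j) ^ 6)
        fun j => zero_le_one.trans (e1_lam1 h _)).mono_eq fun j => mul_one _)).congr
      fun j => Eventually.of_forall fun y => by simp
  have hm : ∀ j, (((σ0 (ix j) * s (ix j) ^ 2) • Z.p j,
      (σ0 (ix j) ^ 2 * s (ix j) ^ 6) * P.φ (Z.p j)) : Y) ∈ A'.cyl.O (ix j) :=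
    fun j => ⟨hp j, mem_univ _⟩
  refine (eGB.comp (μ := fun _ => 1) (ν := fun j => σ0 (ix j) ^ 2 * s (ix j) ^ 6)
    (Φ := fun j => U (ix j)) g.sm
    (fun j => Tm.contDiffAt hU _ (hm j)) (fun j => hU.nn _ _ (hm j)) (fun _ => le_rfl)
    (fun j => e1_lam1 h _) (fun k _ => ?_) (fun k hk h1 => (g.bd k hk).trans_le fun j => ?_)).relam
      (eCx.Le.of_le fun j => (one_mul _).le) fun j => e1_lam1 h _
  · obtain ⟨C, c, hC, hb⟩ := hU.bd k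
    refine ⟨C, c, hC, fun j => ?_⟩
    beta_reduce
    rw [one_pow, mul_one, ht j, ← hτ]
    exact hb _ _ (hm j)
  · rw [one_pow, mul_one]
    exact le_self_pow₀ (e1_lam1 h _) (by omega)

/-- the points whose rescaling lies in the family -/
def e1_cx (A' : Fam ι E) (σ : ι → ℝ) : eCx {z : ι × E // σ z.1 • z.2 ∈ A'.O z.1} E where
  p z := z.1.2
  τ z := A'.τ z.1.1
  hτ z := A'.one_le z.1.1

/-- composition with the fast phase -/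
theorem fast_bound (h : P.Hyp τ s σ0 d F bh l' l r r' c0) (hM1 : 1 ≤ M) {A' : Fam ι E}
    (hτ : A'.τ = τ) (hO : ∀ i, A'.O i ⊆ (P.fam M τ s σ0 h.hτ).O i)
    {W : Type} [NormedAddCommGroup W] [NormedSpace ℝ W] {U : ι → Y → W} {w : ι → E → ℝ}
    (hU : TmC A' w U) (k : ℕ) : ∃ (C : ℝ) (c : ℕ), 0 < C ∧ ∀ i x, (σ0 i * s i ^ 2) • x ∈ A'.O i →
      ‖iteratedFDeriv ℝ k (fun y => U i ((σ0 i * s i ^ 2) • y, (σ0 i ^ 2 * s i ^ 6) * P.φ y)) x‖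
        ≤ C * τ i ^ c * w i ((σ0 i * s i ^ 2) • x) * (σ0 i ^ 2 * s i ^ 6) ^ k := by
  obtain ⟨C, c, hC, hb⟩ := (e1_fast h hM1 hτ hO hU (Z := e1_cx A' fun i => σ0 i * s i ^ 2)
    (ix := fun z => z.1.1) (fun z => z.2) (fun z => by rw [← hτ]; rfl) k).bd k le_rfl
  refine ⟨C, c, hC, fun i x hx => (hb ⟨(i, x), hx⟩).trans (le_of_eq ?_)⟩
  rw [← hτ, mul_assoc (C * _)]
  rfl
/-- first derivatives along the frame -/
theorem ev_d1 (h : P.Hyp τ s σ0 d F bh l' l r r' c0) (i : ι) {U : Y → V} {x : E} (hx : x ∈ P.O)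
    (hU : DifferentiableAt ℝ U ((σ0 i * s i ^ 2) • x, (σ0 i ^ 2 * s i ^ 6) * P.φ x)) :
    fderiv ℝ (fun y => F i y + P.ev (s i) (σ0 i) U y) x (P.c1 x) =
      (P.td M (s i) (σ0 i) (d i) (F i) (bh i) ζ0).A1 U
        ((σ0 i * s i ^ 2) • x, (σ0 i ^ 2 * s i ^ 6) * P.φ x) ∧
    fderiv ℝ (fun y => F i y + P.ev (s i) (σ0 i) U y) x (P.c2 x) =
      (P.td M (s i) (σ0 i) (d i) (F i) (bh i) ζ0).A2 U
        ((σ0 i * s i ^ 2) • x, (σ0 i ^ 2 * s i ^ 6) * P.φ x) := by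
  have h1 : DifferentiableAt ℝ (F i) x := (e0_sF h i hx).differentiableAt (by simp)
  have h2 : DifferentiableAt ℝ
      (fun y => U ((σ0 i * s i ^ 2) • y, (σ0 i ^ 2 * s i ^ 6) * P.φ y)) x :=
    hU.comp x ((e1_fast_sm P _ _ hx).differentiableAt (by simp))
  have key : ∀ v, fderiv ℝ (fun y => F i y + P.ev (s i) (σ0 i) U y) x v = fderiv ℝ (F i) x v +
      (σ0 i ^ 2 * s i ^ 6)⁻¹ • fderiv ℝ
        (fun y => U ((σ0 i * s i ^ 2) • y, (σ0 i ^ 2 * s i ^ 6) * P.φ y)) x v := fun v => by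
    have := (h1.hasFDerivAt.add (h2.hasFDerivAt.const_smul (σ0 i ^ 2 * s i ^ 6)⁻¹)).fderiv
    exact congrArg (fun L : E →L[ℝ] V => L v) this
  have l0 : σ0 i ^ 2 * s i ^ 6 ≠ 0 := (lt_of_lt_of_le one_pos (e1_lam1 h i)).ne'
  constructor
  · rw [key, e1_chain P _ _ hx hU, P.φ1 x hx]
    simp only [TD0.A1, Pc.td, dX, dV, e1_cancel h]
    rw [smul_add, mul_one, inv_smul_smul₀ l0]
    abel
  · rw [key, e1_chain P _ _ hx hU, P.φ2 x hx]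
    simp only [TD0.A2, Pc.td, dX, dV, e1_cancel h]
    rw [mul_zero, zero_smul, add_zero]

theorem e1_qf_sub (S T : S3) (v w : E) : qf (S - T) v w = qf S v w - qf T v w := by
  simp only [qf, Prod.fst_sub, Prod.snd_sub]
  ring

theorem e1_qf_err (P : Pc) (d : ℝ) (bh : E → ℝ) (F u : E → V) (x v w : E) :
    qf (P.err d bh F u x) v w =
      fderiv ℝ (fun y => F y + u y) x v ⬝ᵥ fderiv ℝ (fun y => F y + u y) x w
        - fderiv ℝ F x v ⬝ᵥ fderiv ℝ F x w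
        - P.amp d bh x ^ 2 * (fderiv ℝ P.φ x v * fderiv ℝ P.φ x w) := by
  unfold Pc.err Pc.Q
  rw [e1_qf_sub, e1_qf_sub, qf_met, qf_met, qf_smul, qf_sqv, dotE_dcov, dotE_dcov]

theorem e1_sm_sqv : ContDiff ℝ ∞ sqv := by
  unfold sqv
  fun_prop
theorem e1_sm_rot : ContDiff ℝ ∞ rot := by
  unfold rot
  fun_prop
theorem e1_sm_det (P : Pc) : ContDiffOn ℝ ∞ (fun y => (detE (P.c1 y) (P.c2 y) ^ 2)⁻¹) P.O := by
  refine ContDiffOn.inv (ContDiffOn.pow ?_ 2) fun x hx => pow_ne_zero 2 (P.det x hx)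
  exact (P.s1.fst.mul P.s2.snd).sub (P.s1.snd.mul P.s2.fst)

theorem ev_err (h : P.Hyp τ s σ0 d F bh l' l r r' c0) (hM1 : 1 ≤ M) (hM : ∀ x ∈ P.K, P.f x ≤ M)
    {A' : Fam ι E} (hτ : A'.τ = τ) (hO : ∀ i, A'.O i ⊆ (P.fam M τ s σ0 h.hτ).O i) {N : ℕ}
    {U : ι → Y → V} (hU : Out A' (fun i => P.td M (s i) (σ0 i) (d i) (F i) (bh i) ζ0) N U)
    (k : ℕ) : ∃ (C : ℝ) (c : ℕ), 0 < C ∧ ∀ i x, (σ0 i * s i ^ 2) • x ∈ A'.O i →
      ‖iteratedFDeriv ℝ k (P.err (d i) (bh i) (F i) (P.ev (s i) (σ0 i) (U i))) x‖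
        ≤ C * τ i ^ c * (s i)⁻¹ ^ N * (σ0 i ^ 2 * s i ^ 6) ^ k := by
  set Z := e1_cx A' fun i => σ0 i * s i ^ 2 with hZ
  have hp : ∀ z, (σ0 z.1.1 * s z.1.1 ^ 2) • Z.p z ∈ A'.O z.1.1 := fun z => z.2
  have ht : ∀ z, Z.τ z = τ z.1.1 := fun z => by rw [← hτ]; rfl
  have hK : ∀ z, Z.p z ∈ P.K := fun z => (e1_memK h hM1 (hO _ (hp z))).1
  have hl : ∀ z : {z : ι × E // (σ0 z.1 * s z.1 ^ 2) • z.2 ∈ A'.O z.1},
      1 ≤ σ0 z.1.1 ^ 2 * s z.1.1 ^ 6 := fun z => e1_lam1 h _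
  have g11 := e1_fast h hM1 hτ hO hU.e11 hp ht k
  have g12 := e1_fast h hM1 hτ hO hU.e12 hp ht k
  have g22 := e1_fast h hM1 hτ hO hU.e22 hp ht k
  have r1 := e1_sm_rot.comp_contDiffOn P.s1
  have r2 := e1_sm_rot.comp_contDiffOn P.s2
  have f0 := e0_fix (n := k) (e1_sm_det P) hK hl
  have f1 := e0_fix (n := k) (e1_sm_sqv.comp_contDiffOn r2) hK hl
  have f2 := e0_fix (n := k) (e1_sm_sqv.comp_contDiffOn r1) hK hl
  have f3 := e0_fix (n := k) (((e1_sm_sqv.comp_contDiffOn (r1.add r2)).sub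
    (e1_sm_sqv.comp_contDiffOn r1)).sub (e1_sm_sqv.comp_contDiffOn r2)) hK hl
  have g := f0.smul (((g11.smul f1).add (g22.smul f2)).sub (g12.smul f3))
  have H := td_hyp (ζ0 := fun _ => 0) h hM1 hM contDiff_const (by simp)
  have g' : eGB Z k (fun z => σ0 z.1.1 ^ 2 * s z.1.1 ^ 6) (fun z => (s z.1.1)⁻¹ ^ N)
      (fun z => P.err (d z.1.1) (bh z.1.1) (F z.1.1) (P.ev (s z.1.1) (σ0 z.1.1) (U z.1.1))) := by
    have s0 : ∀ i, 0 < s i := fun i => lt_of_lt_of_le one_pos (h.hs i)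
    refine (g.mono ?_ fun z => pow_nonneg (inv_pos.2 (s0 _)).le N).congr fun z => ?_
    · obtain ⟨C, c, hC, hb⟩ := H.ale
      refine ⟨C, c, hC, fun z => ?_⟩
      have a1 := hb _ _ (hO _ (hp z))
      have a2 := H.ηs _ _ (hO _ (hp z))
      have a3 := (H.η0pos _).le.trans (H.η0le _ _ (hO _ (hp z)))
      have a4 := (H.apos _ _ (hO _ (hp z))).le
      beta_reduce at a1 ⊢
      rw [one_mul, mul_one, ht z]
      rw [mul_one] at a1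
      refine mul_le_mul a1 (pow_le_pow_left₀ a3 ?_ N) (pow_nonneg a3 N) (a4.trans a1)
      rw [← one_div, le_div_iff₀ (s0 _)]
      exact a2
    · have : {y | (σ0 z.1.1 * s z.1.1 ^ 2) • y ∈ A'.O z.1.1} ∈ 𝓝 (Z.p z) :=
        ((A'.op _).preimage (continuous_const_smul _)).mem_nhds (hp z)
      filter_upwards [this] with y hy
      have hy' := (e1_memO h (hO _ hy)).1
      obtain ⟨d1, d2⟩ := ev_d1 (M := M) (ζ0 := ζ0) h z.1.1 hy' (U := U z.1.1)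
        (Tm.diffAt hU.tm _ ⟨hy, mem_univ _⟩)
      rw [S3_frame (P.det y hy') (P.err _ _ _ _ y), e1_qf_err, e1_qf_err, e1_qf_err, d1, d2,
        P.φ1 y hy', P.φ2 y hy']
      simp only [Pc.td, dV, e1_cancel h, Function.comp_apply, mul_one, mul_zero, sub_zero]
  obtain ⟨C, c, hC, hb⟩ := g'.bd k le_rfl
  refine ⟨C, c, hC, fun i x hx => (hb ⟨(i, x), hx⟩).trans (le_of_eq ?_)⟩
  rw [ht, mul_assoc (C * _)]

end Vale.Agent.P205
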