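import Vale.Agent.P205.E1

open Set Filter Topology
open scoped ContDiff

noncomputable section
namespace Vale.Agent.P205

variable {ι : Type*} {P : Pc} {τ s σ0 d : ι → ℝ} {F : ι → E → V} {bh : ι → E → ℝ}
  {l' l r r' c0 M : ℝ} {ζ0 : ℝ → ℝ}

/-! E2: geometric output for the oscillating map. -/

theorem e2_smA (P : Pc) {a : ℝ} {c : E → E} (hc : ContDiffOn ℝ ∞ c P.O) {G : E → V}
    (hG : ContDiffOn ℝ ∞ G P.O) {U : Y → V} {y : Y} (hy : a⁻¹ • y.1 ∈ P.O)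
    (hU : ContDiffAt ℝ ∞ U y) :
    ContDiffAt ℝ ∞ (fun z : Y => dV c G (a⁻¹ • z.1)) y ∧ ContDiffAt ℝ ∞ (dθ U) y ∧
      ContDiffAt ℝ ∞ (dX (fun x => a • c (a⁻¹ • x)) U) y := by
  have h0 : ContDiffAt ℝ ∞ (fun z : Y => a⁻¹ • z.1) y := contDiffAt_fst.const_smul _
  have h1 : ContDiffAt ℝ ∞ (fun z : Y => c (a⁻¹ • z.1)) y :=
    (hc.contDiffAt (P.op.mem_nhds hy)).comp y h0
  have h2 : ContDiffAt ℝ ∞ (fun z : Y => fderiv ℝ G (a⁻¹ • z.1)) y :=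
    ((hG.contDiffAt (P.op.mem_nhds hy)).fderiv_right (m := ∞) le_rfl).comp y h0
  have h3 : ContDiffAt ℝ ∞ (fderiv ℝ U) y := hU.fderiv_right (m := ∞) le_rfl
  exact ⟨h2.clm_apply h1, h3.clm_apply contDiffAt_const,
    h3.clm_apply ((h1.const_smul a).prodMk contDiffAt_const)⟩

theorem ev_geo (h : P.Hyp τ s σ0 d F bh l' l r r' c0) {A' : Fam ι E} (hτ : A'.τ = τ)
    (hO : ∀ i, A'.O i ⊆ (P.fam M τ s σ0 h.hτ).O i) {U : ι → Y → V} {w : ι → E → ℝ}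
    (hU : TmC A' w U) {C : ℝ} {c : ℕ} (i : ι) (x : E) (hx : (σ0 i * s i ^ 2) • x ∈ A'.O i) :
    (GeoC A' (fun i => P.td M (s i) (σ0 i) (d i) (F i) (bh i) ζ0) U C c →
      P.Geo (fun y => F i y + P.ev (s i) (σ0 i) (U i) y) x (C * τ i ^ c) (σ0 i) (s i)) ∧
    (WindC A' (fun i => P.td M (s i) (σ0 i) (d i) (F i) (bh i) ζ0) U C c →
      P.GeoW (fun y => F i y + P.ev (s i) (σ0 i) (U i) y) x (C * τ i ^ c)
        (σ0 i ^ 2 * s i ^ 6)) := by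
  set D := P.td M (s i) (σ0 i) (d i) (F i) (bh i) ζ0 with hD
  set G : E → V := fun y => F i y + P.ev (s i) (σ0 i) (U i) y with hG
  set z : Y := ((σ0 i * s i ^ 2) • x, (σ0 i ^ 2 * s i ^ 6) * P.φ x) with hz
  have hxO := (e1_memO h (hO i hx)).1
  have sG : ContDiffAt ℝ ∞ G x := (e0_sF h i hxO).add (ev_contDiffAt h hO hU i x hx)
  have sU : ContDiffAt ℝ ∞ (U i) z := Tm.contDiffAt hU i (y := z) ⟨hx, mem_univ _⟩
  have hz1 : (σ0 i * s i ^ 2)⁻¹ • z.1 ∈ P.O := by rw [hz, e1_cancel h]; exact hxO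
  obtain ⟨a1, a2, a3⟩ := e2_smA P P.s1 (h.sF i) hz1 sU
  obtain ⟨b1, -, b3⟩ := e2_smA P P.s2 (h.sF i) hz1 sU
  have dA1 : DifferentiableAt ℝ (D.A1 (U i)) z :=
    ((a1.add a2).add (a3.const_smul _)).differentiableAt (by simp)
  have dA2 : DifferentiableAt ℝ (D.A2 (U i)) z := (b1.add (b3.const_smul _)).differentiableAt (by simp)
  have nb : {y | (σ0 i * s i ^ 2) • y ∈ A'.O i} ∈ 𝓝 x :=
    ((A'.op _).preimage (continuous_const_smul _)).mem_nhds hx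
  have ev1 : dV P.c1 G =ᶠ[𝓝 x]
      fun y => D.A1 (U i) ((σ0 i * s i ^ 2) • y, (σ0 i ^ 2 * s i ^ 6) * P.φ y) := by
    filter_upwards [nb] with y hy
    exact (ev_d1 h i (e1_memO h (hO _ hy)).1 (Tm.diffAt hU _ ⟨hy, mem_univ _⟩)).1
  have ev2 : dV P.c2 G =ᶠ[𝓝 x]
      fun y => D.A2 (U i) ((σ0 i * s i ^ 2) • y, (σ0 i ^ 2 * s i ^ 6) * P.φ y) := by
    filter_upwards [nb] with y hy
    exact (ev_d1 h i (e1_memO h (hO _ hy)).1 (Tm.diffAt hU _ ⟨hy, mem_univ _⟩)).2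
  have e1 : D.A1 (U i) z = fderiv ℝ G x (P.c1 x) := ev1.eq_of_nhds.symm
  have e2 : D.A2 (U i) z = fderiv ℝ G x (P.c2 x) := ev2.eq_of_nhds.symm
  have dc1 : DifferentiableAt ℝ P.c1 x :=
    (P.s1.contDiffAt (P.op.mem_nhds hxO)).differentiableAt (by simp)
  have dc2 : DifferentiableAt ℝ P.c2 x :=
    (P.s2.contDiffAt (P.op.mem_nhds hxO)).differentiableAt (by simp)
  have e22 : D.A22 (U i) z = d2 G x (P.c2 x) (P.c2 x) + fderiv ℝ G x (fderiv ℝ P.c2 x (P.c2 x)) := by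
    rw [← dV_dV sG dc2, dV, ev2.fderiv_eq, e1_chain P _ _ hxO dA2, P.φ2 x hxO]
    simp only [TD0.A22, dX, hD, Pc.td, hz, e1_cancel h, mul_zero, zero_smul, add_zero]
  have e12 : D.A12 (U i) z = d2 G x (P.c1 x) (P.c2 x) + fderiv ℝ G x (fderiv ℝ P.c1 x (P.c2 x)) := by
    rw [d2_symm sG, ← dV_dV sG dc1, dV, ev1.fderiv_eq, e1_chain P _ _ hxO dA1, P.φ2 x hxO]
    simp only [TD0.A12, dX, hD, Pc.td, hz, e1_cancel h, mul_zero, zero_smul, add_zero]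
  have e11 : D.A11 (U i) z = d2 G x (P.c1 x) (P.c1 x) + fderiv ℝ G x (fderiv ℝ P.c1 x (P.c1 x)) := by
    rw [← dV_dV sG dc1, dV, ev1.fderiv_eq, e1_chain P _ _ hxO dA1, P.φ1 x hxO]
    simp only [TD0.A11, dX, hD, Pc.td, hz, e1_cancel h, mul_one, inv_inv]
  have s0 : s i ^ 2 ≠ 0 := (pow_pos (lt_of_lt_of_le one_pos (h.hs i)) 2).ne'
  constructor
  · intro hg
    have := hg i z hx
    beta_reduce at this
    rw [← hD, e1, e2, e22, e12, hτ] at this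
    simp only [np, e0_cr_tan _ (P.det x hxO)] at this
    refine ⟨this.1, this.2.1, this.2.2.1.trans (le_of_eq ?_), this.2.2.2⟩
    show _ * (σ0 i * s i ^ 2 * (s i ^ 2)⁻¹) = _
    rw [mul_assoc (σ0 i), mul_inv_cancel₀ s0, mul_one]
  · intro hg
    have := hg i z hx
    beta_reduce at this
    rw [← hD, e1, e2, e11, hτ] at this
    simp only [np, e0_cr_tan _ (P.det x hxO)] at this
    refine le_trans (le_of_eq ?_) this
    show _ = ((σ0 i ^ 2 * s i ^ 6)⁻¹)⁻¹ ^ 2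
    rw [inv_inv]

theorem e2_cb (P : Pc) : ∃ m, 1 ≤ m ∧ ∀ x ∈ P.K, ‖P.c1 x‖ ≤ m ∧ ‖P.c2 x‖ ≤ m := by
  obtain ⟨m1, h1⟩ := P.cp.exists_bound_of_continuousOn (P.s1.continuousOn.mono P.sub)
  obtain ⟨m2, h2⟩ := P.cp.exists_bound_of_continuousOn (P.s2.continuousOn.mono P.sub)
  exact ⟨max 1 (max m1 m2), le_max_left _ _, fun x hx =>
    ⟨(h1 x hx).trans ((le_max_left _ _).trans (le_max_right _ _)),
      (h2 x hx).trans ((le_max_right _ _).trans (le_max_right _ _))⟩⟩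

theorem e2_d2_add {G u : E → V} {x : E} (hG : ContDiffAt ℝ ∞ G x) (hu : ContDiffAt ℝ ∞ u x)
    (v w : E) : d2 (fun y => G y + u y) x v w = d2 G x v w + d2 u x v w := by
  have e : fderiv ℝ (fun y => G y + u y) =ᶠ[𝓝 x] fun y => fderiv ℝ G y + fderiv ℝ u y := by
    filter_upwards [(hG.of_le (t1_nat_le 1)).eventually (by simp),
      (hu.of_le (t1_nat_le 1)).eventually (by simp)] with y h1 h2
    exact fderiv_fun_add (h1.differentiableAt (by simp)) (h2.differentiableAt (by simp))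
  unfold d2
  rw [e.fderiv_eq, fderiv_fun_add ((hG.fderiv_right (m := ∞) le_rfl).differentiableAt (by simp))
    ((hu.fderiv_right (m := ∞) le_rfl).differentiableAt (by simp))]
  rfl

theorem e2_n1 (G : E → V) (x v : E) {b m : ℝ} (hb : ‖iteratedFDeriv ℝ 1 G x‖ ≤ b) (hm : 1 ≤ m)
    (hv : ‖v‖ ≤ m) : ‖fderiv ℝ G x v‖ ≤ b * m ^ 2 := by
  rw [norm_iteratedFDeriv_one] at hb
  exact ((fderiv ℝ G x).le_opNorm v).trans (mul_le_mul hb (hv.trans (le_self_pow₀ hm (by omega)))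
    (norm_nonneg _) ((norm_nonneg _).trans hb))

theorem e2_n2 (G : E → V) (x v w : E) {b m : ℝ} (hb : ‖iteratedFDeriv ℝ 2 G x‖ ≤ b)
    (hv : ‖v‖ ≤ m) (hw : ‖w‖ ≤ m) : ‖d2 G x v w‖ ≤ b * m ^ 2 := by
  refine (norm_d2_le G x v w).trans ?_
  rw [mul_assoc, sq]
  exact mul_le_mul hb (mul_le_mul hv hw (norm_nonneg _) ((norm_nonneg _).trans hv))
    (by positivity) ((norm_nonneg _).trans hb)

theorem e2_np6 {a b u w : V} {R : ℝ} (h1 : ‖a‖ ≤ R) (h2 : ‖b‖ ≤ R) (h3 : ‖u‖ ≤ R) (h4 : ‖w‖ ≤ R) :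
    |np a b u w| ≤ 144 * R ^ 6 := by
  have R0 : 0 ≤ R := (norm_nonneg _).trans h1
  refine (abs_np_le a b u w).trans ?_
  calc 144 * ‖a‖ ^ 2 * ‖b‖ ^ 2 * ‖u‖ * ‖w‖ ≤ 144 * R ^ 2 * R ^ 2 * R * R := by gcongr
    _ = _ := by ring

/-- a perturbation that is small in `C²` keeps the geometric bounds of the unperturbed map -/
theorem geo_small (h : P.Hyp τ s σ0 d F bh l' l r r' c0) : ∃ (C : ℝ) (c : ℕ) (C0 : ℝ) (c1 : ℕ),
    0 < C ∧ ∀ i, C0 * τ i ^ c1 ≤ s i → ∀ x ∈ P.K, ∀ u : E → V, ContDiffAt ℝ ∞ u x →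
      (∀ j ≤ 2, ‖iteratedFDeriv ℝ j u x‖ ≤ (s i)⁻¹) →
      P.Geo (fun y => F i y + u y) x (C * τ i ^ c) (σ0 i) (s i) := by
  obtain ⟨m, hm, hc⟩ := e2_cb P
  obtain ⟨B1, k1, hB1, h1⟩ := h.bF 1
  obtain ⟨B2, k2, hB2, h2⟩ := h.bF 2
  obtain ⟨K, k, hK, hk⟩ := h.mg
  set R0 := (B1 + B2 + 1) * m ^ 2 with hR0
  have m2 : 1 ≤ m ^ 2 := one_le_pow₀ hm
  have R01 : 1 ≤ R0 := one_le_mul_of_one_le_of_one_le (by linarith) m2
  refine ⟨2 * K + 144 * R0 ^ 6, k + (k1 + k2) * 6, 2000 * K * R0 ^ 5 * m ^ 2, k + (k1 + k2) * 5,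
    by positivity, fun i hi x hx u hu hb => ?_⟩
  have t1 := h.hτ i
  have t0 : 0 < τ i := lt_of_lt_of_le one_pos t1
  have s1 := h.hs i
  have s0 : 0 < s i := lt_of_lt_of_le one_pos s1
  set T := τ i ^ (k1 + k2) with hT
  have T1 : 1 ≤ T := one_le_pow₀ t1
  set R := R0 * T with hR
  have R1 : 1 ≤ R := one_le_mul_of_one_le_of_one_le R01 T1
  have sF := e0_sF h i (P.sub hx)
  have g1 : ‖iteratedFDeriv ℝ 1 (F i) x‖ ≤ (B1 + B2) * T := by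
    have a := h1 i x hx
    have b : τ i ^ k1 ≤ T := pow_le_pow_right₀ t1 (by omega)
    simp only [show 1 - 2 = 0 from rfl, pow_zero, mul_one] at a
    nlinarith
  have g2 : ‖iteratedFDeriv ℝ 2 (F i) x‖ ≤ (B1 + B2) * T := by
    have a := h2 i x hx
    have b : τ i ^ k2 ≤ T := pow_le_pow_right₀ t1 (by omega)
    simp only [show 2 - 2 = 0 from rfl, pow_zero, mul_one] at a
    nlinarith
  obtain ⟨c1, c2⟩ := hc x hx
  have si : (s i)⁻¹ ≤ 1 := inv_le_one_of_one_le₀ s1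
  have si0 : 0 < (s i)⁻¹ := inv_pos.2 s0
  have RR : (B1 + B2) * T * m ^ 2 + (s i)⁻¹ * m ^ 2 ≤ R := by
    have : (s i)⁻¹ * m ^ 2 ≤ T * m ^ 2 := mul_le_mul_of_nonneg_right (si.trans T1) (by positivity)
    rw [hR, hR0]
    linarith
  have dd : ∀ v, fderiv ℝ (fun y => F i y + u y) x v = fderiv ℝ (F i) x v + fderiv ℝ u x v :=
    fun v => by
      rw [fderiv_fun_add (sF.differentiableAt (by simp)) (hu.differentiableAt (by simp))]
      rfl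
  have δ0 : 0 ≤ (s i)⁻¹ * m ^ 2 := by positivity
  have p1 := e2_n1 (F i) x _ g1 hm c1
  have p2 := e2_n1 (F i) x _ g1 hm c2
  have p3 := e2_n2 (F i) x _ _ g2 c2 c2
  have p4 := e2_n2 (F i) x _ _ g2 c1 c2
  have q1 := e2_n1 u x _ (hb 1 (by omega)) hm c1
  have q2 := e2_n1 u x _ (hb 1 (by omega)) hm c2
  have q3 := e2_n2 u x _ _ (hb 2 le_rfl) c2 c2
  have q4 := e2_n2 u x _ _ (hb 2 le_rfl) c1 c2
  have o1 := ((norm_add_le _ _).trans (add_le_add p1 q1)).trans RR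
  have o2 := ((norm_add_le _ _).trans (add_le_add p2 q2)).trans RR
  have o3 := ((norm_add_le _ _).trans (add_le_add p3 q3)).trans RR
  have o4 := ((norm_add_le _ _).trans (add_le_add p4 q4)).trans RR
  have up : 144 * R ^ 6 ≤ (2 * K + 144 * R0 ^ 6) * τ i ^ (k + (k1 + k2) * 6) := by
    rw [hR, mul_pow, pow_add, pow_mul, ← hT]
    have a : 1 ≤ τ i ^ k := one_le_pow₀ t1
    have b : T ^ 6 ≤ τ i ^ k * T ^ 6 := le_mul_of_one_le_left (by positivity) a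
    have c : 0 ≤ 2 * K * (τ i ^ k * T ^ 6) := by positivity
    have := mul_le_mul_of_nonneg_left b (show 0 ≤ 144 * R0 ^ 6 by positivity)
    linarith
  have κ0 : 0 ≤ (2 * K + 144 * R0 ^ 6) * τ i ^ (k + (k1 + k2) * 6) := by positivity
  unfold Pc.Geo npG
  rw [dd, dd, e2_d2_add sF hu, e2_d2_add sF hu]
  refine ⟨?_, (le_abs_self _).trans ((e2_np6 o1 o2 o3 o3).trans up),
    ((e2_np6 o1 o2 o3 o4).trans up).trans (le_mul_of_one_le_right κ0 (h.hσ1 i)),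
    (le_abs_self _).trans (((e2_np6 o1 o2 o4 o4).trans up).trans
      (le_mul_of_one_le_right κ0 (one_le_pow₀ (e0_sig h i))))⟩
  have RR' : (B1 + B2) * T * m ^ 2 ≤ R := by linarith
  have lip := np_lip R1 δ0 (p1.trans RR') (p2.trans RR') (p3.trans RR') (p3.trans RR') o1 o2 o3 o3
    (by rwa [add_sub_cancel_left]) (by rwa [add_sub_cancel_left]) (by rwa [add_sub_cancel_left])
    (by rwa [add_sub_cancel_left])
  have n0 := np_nonneg (fderiv ℝ (F i) x (P.c1 x) + fderiv ℝ u x (P.c1 x))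
    (fderiv ℝ (F i) x (P.c2 x) + fderiv ℝ u x (P.c2 x))
    (d2 (F i) x (P.c2 x) (P.c2 x) + d2 u x (P.c2 x) (P.c2 x))
  have lo := hk i x hx
  unfold npG at lo
  set n' := np (fderiv ℝ (F i) x (P.c1 x) + fderiv ℝ u x (P.c1 x))
    (fderiv ℝ (F i) x (P.c2 x) + fderiv ℝ u x (P.c2 x))
    (d2 (F i) x (P.c2 x) (P.c2 x) + d2 u x (P.c2 x) (P.c2 x))
    (d2 (F i) x (P.c2 x) (P.c2 x) + d2 u x (P.c2 x) (P.c2 x))
  set n0' := np (fderiv ℝ (F i) x (P.c1 x)) (fderiv ℝ (F i) x (P.c2 x))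
    (d2 (F i) x (P.c2 x) (P.c2 x)) (d2 (F i) x (P.c2 x) (P.c2 x))
  have k0 : 0 < K * τ i ^ k := by positivity
  have sm : K * τ i ^ k * (1000 * R ^ 5 * ((s i)⁻¹ * m ^ 2)) ≤ 1 / 2 := by
    have := mul_le_mul_of_nonneg_right hi si0.le
    rw [mul_inv_cancel₀ s0.ne', pow_add, pow_mul, ← hT] at this
    rw [hR, mul_pow]
    linarith
  have a1 : n0' ≤ n' + 1000 * R ^ 5 * ((s i)⁻¹ * m ^ 2) := by linarith [(abs_le.1 lip).1]
  have a2 := mul_le_mul_of_nonneg_left a1 k0.le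
  have a3 : 1 ≤ 2 * K * τ i ^ k * n' := by linarith
  refine a3.trans (mul_le_mul_of_nonneg_right ?_ n0)
  exact mul_le_mul (by linarith [show 0 ≤ 144 * R0 ^ 6 by positivity])
    (pow_le_pow_right₀ t1 (by omega)) (by positivity) (by positivity)

/-- the bilinear map behind `met` -/
def e2_mB (L L' : E →L[ℝ] V) : S3 :=
  (L (1, 0) ⬝ᵥ L' (1, 0), L (1, 0) ⬝ᵥ L' (0, 1), L (0, 1) ⬝ᵥ L' (0, 1))

section cx
variable {J : Type*} {Z : eCx J E} {ix : J → ι} {n : ℕ} {lam : J → ℝ}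

theorem e2_mB_GB {w1 w2 : J → ℝ} {u v : J → E → E →L[ℝ] V} (h : eGB Z n lam w1 u)
    (h' : eGB Z n lam w2 v) :
    eGB Z n lam (fun j => w1 j * w2 j) (fun j y => e2_mB (u j y) (v j y)) :=
  ((h.app_const _).dot (h'.app_const _)).prodMk
    (((h.app_const _).dot (h'.app_const _)).prodMk ((h.app_const _).dot (h'.app_const _)))

theorem e2_edge (hs : ∀ i, 1 ≤ s i) (hp : ∀ j, Z.p j ∈ P.K) {M' : ℝ}
    (hf : ∀ j, Real.sqrt (s (ix j)) * P.f (Z.p j) ≤ M') (hl : ∀ j, 1 ≤ lam j) (N : ℕ) :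
    eGB Z n lam (fun j => (s (ix j))⁻¹ ^ N) (fun _ y => expNegInvGlue (P.f y)) := by
  have s0 : ∀ i, 0 < s i := fun i => lt_of_lt_of_le one_pos (hs i)
  refine ⟨fun j => expNegInvGlue.contDiff.contDiffAt.comp _
    (P.sf.contDiffAt (P.op.mem_nhds (P.sub (hp j)))), fun _ => pow_nonneg (inv_pos.2 (s0 _)).le N,
    hl, fun k _ => ?_⟩
  obtain ⟨C, hC, h⟩ := eg_flat P k (2 * N)
  refine eCx.Le.of_const (C * (|M'| + 1) ^ (2 * N)) (fun j => ?_)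
    fun j => mul_nonneg (pow_nonneg (inv_pos.2 (s0 _)).le N) (pow_nonneg (zero_le_one.trans (hl j)) k)
  have q0 : 0 < Real.sqrt (s (ix j)) := Real.sqrt_pos.2 (s0 _)
  refine (h _ (hp j) ((|M'| + 1) / Real.sqrt (s (ix j))) (by positivity) ?_).trans ?_
  · rw [le_div_iff₀ q0]
    linarith [hf j, le_abs_self M']
  · rw [div_pow, pow_mul (Real.sqrt _), Real.sq_sqrt (s0 _).le, div_eq_mul_inv, ← inv_pow,
      ← mul_assoc]
    refine mul_le_mul_of_nonneg_left ?_ (by positivity)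
    exact le_mul_of_one_le_right (pow_nonneg (inv_pos.2 (s0 _)).le N) (one_le_pow₀ (hl j))

end cx

theorem e2_sm_q (P : Pc) : ContDiffOn ℝ ∞ (fun y => sqv (dcov P.φ y)) P.O := by
  have := P.sφ.fderiv_of_isOpen (m := ∞) P.op le_rfl
  exact e1_sm_sqv.comp_contDiffOn
    ((this.clm_apply contDiffOn_const).prodMk (this.clm_apply contDiffOn_const))

/-- the metric error of a perturbation near the edge of the piece -/
theorem err_edge (h : P.Hyp τ s σ0 d F bh l' l r r' c0) (N k : ℕ) : ∃ (C : ℝ) (c : ℕ), 0 < C ∧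
    ∀ i, ∀ x ∈ P.K, ∀ (u : E → V) (b : ℝ), ContDiffAt ℝ ∞ u x → 0 ≤ b → b ≤ 1 →
      Real.sqrt (s i) * P.f x ≤ 2 * M →
      (∀ j ≤ k + 1, ‖iteratedFDeriv ℝ j u x‖ ≤ b * (σ0 i ^ 2 * s i ^ 6) ^ (j - 1)) →
      ‖iteratedFDeriv ℝ k (P.err (d i) (bh i) (F i) u) x‖
        ≤ C * τ i ^ c * (b + (s i)⁻¹ ^ N) * (σ0 i ^ 2 * s i ^ 6) ^ k := by
  let J := {z : ι × E × (E → V) × ℝ // z.2.1 ∈ P.K ∧ ContDiffAt ℝ ∞ z.2.2.1 z.2.1 ∧ 0 ≤ z.2.2.2 ∧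
    z.2.2.2 ≤ 1 ∧ Real.sqrt (s z.1) * P.f z.2.1 ≤ 2 * M ∧
    ∀ j ≤ k + 1, ‖iteratedFDeriv ℝ j z.2.2.1 z.2.1‖ ≤ z.2.2.2 * (σ0 z.1 ^ 2 * s z.1 ^ 6) ^ (j - 1)}
  let Z : eCx J E := ⟨fun z => z.1.2.1, fun z => τ z.1.1, fun z => h.hτ _⟩
  have hp : ∀ z, Z.p z ∈ P.K := fun z => z.2.1
  have ht : ∀ z, Z.τ z = τ z.1.1 := fun _ => rfl
  have hl : ∀ z : J, 1 ≤ σ0 z.1.1 ^ 2 * s z.1.1 ^ 6 := fun z => e1_lam1 h _
  have s0 : ∀ i, 0 < s i := fun i => lt_of_lt_of_le one_pos (h.hs i)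
  have w0 : ∀ z : J, 0 ≤ (s z.1.1)⁻¹ ^ N := fun z => pow_nonneg (inv_pos.2 (s0 _)).le N
  have w1 : ∀ z : J, (s z.1.1)⁻¹ ^ N ≤ 1 := fun z =>
    pow_le_one₀ (inv_pos.2 (s0 _)).le (inv_le_one_of_one_le₀ (h.hs _))
  have gF := (e0_F1 (n := k) h hp ht).relam (eCx.Le.of_le fun z => e1_lam0 h _) hl
  have gu : eGB Z k (fun z => σ0 z.1.1 ^ 2 * s z.1.1 ^ 6) (fun z => z.1.2.2.2)
      (fun z => fderiv ℝ z.1.2.2.1) :=
    eGB.fderiv_of (fun z => z.2.2.1) (fun z => z.2.2.2.1) hl fun j hj =>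
      eCx.Le.of_le fun z => z.2.2.2.2.2.2 (j + 1) (by omega)
  have ga := (e0_amp h hp ht (e2_edge (n := k) (ix := fun z => z.1.1) h.hs hp
    (fun z => z.2.2.2.2.2.1) hl N) fun z => e1_lam0 h _).mono_le
      (w' := fun z => (s z.1.1)⁻¹ ^ N) fun z => mul_le_of_le_one_right (w0 z) (h.hd1 _)
  have g1 := (e2_mB_GB gF gu).mono_le (w' := fun z => z.1.2.2.2 + (s z.1.1)⁻¹ ^ N)
    fun z => by linarith [w0 z]
  have g2 := (e2_mB_GB gu gF).mono_le (w' := fun z => z.1.2.2.2 + (s z.1.1)⁻¹ ^ N)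
    fun z => by linarith [w0 z]
  have g3 := (e2_mB_GB gu gu).mono_le (w' := fun z => z.1.2.2.2 + (s z.1.1)⁻¹ ^ N)
    fun z => by linarith [w0 z, mul_le_of_le_one_right z.2.2.2.1 z.2.2.2.2.1]
  have g4 := ((ga.mul ga).smul (e0_fix (e2_sm_q P) hp hl)).mono_le
    (w' := fun z => z.1.2.2.2 + (s z.1.1)⁻¹ ^ N)
    fun z => by linarith [z.2.2.2.1, mul_le_of_le_one_right (w0 z) (w1 z)]
  have g : eGB Z k (fun z => σ0 z.1.1 ^ 2 * s z.1.1 ^ 6) (fun z => z.1.2.2.2 + (s z.1.1)⁻¹ ^ N)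
      (fun z => P.err (d z.1.1) (bh z.1.1) (F z.1.1) z.1.2.2.1) := by
    refine (((g1.add g2).add g3).sub g4).congr fun z => ?_
    filter_upwards [((e0_sF h z.1.1 (P.sub (hp z))).of_le (t1_nat_le 1)).eventually (by simp),
      (z.2.2.1.of_le (t1_nat_le 1)).eventually (by simp)] with y h1 h2
    unfold Pc.err Pc.Q met e2_mB
    rw [fderiv_fun_add (h1.differentiableAt (by simp)) (h2.differentiableAt (by simp)), sq]
    congr 1
    simp only [ContinuousLinearMap.add_apply, add_dotProduct, dotProduct_add, Prod.mk_add_mk,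
      Prod.mk_sub_mk, Prod.mk.injEq]
    refine ⟨?_, ?_, ?_⟩ <;> ring
  obtain ⟨C, c, hC, hb⟩ := g.bd k le_rfl
  refine ⟨C, c, hC, fun i x hx u b h1 h2 h3 h4 h5 =>
    (hb ⟨(i, x, u, b), hx, h1, h2, h3, h4, h5⟩).trans (le_of_eq ?_)⟩
  rw [mul_assoc (C * _)]

end Vale.Agent.P205
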