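import Vale.Agent.P205.E0
import Vale.Agent.P205.E2
import Vale.Agent.P205.CORE

open Set Filter Topology
open scoped ContDiff

noncomputable section
namespace Vale.Agent.P205

variable {ι : Type*} {P : Pc} {τ s σ0 d : ι → ℝ} {F : ι → E → V} {bh : ι → E → ℝ}
  {l' l r r' c0 M : ℝ} {ζ0 : ℝ → ℝ}

/-! E3: the twist theorem in the plane. -/

section cx
variable {J : Type*} {X W : Type} [NormedAddCommGroup X] [NormedSpace ℝ X]
  [NormedAddCommGroup W] [NormedSpace ℝ W]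

/-- restriction of a family of points -/
def eCx.sub {X : Type} (Z : eCx J X) (q : J → Prop) : eCx {j // q j} X where
  p j := Z.p j.1
  τ j := Z.τ j.1
  hτ j := Z.hτ j.1

theorem eCx.Le.split {X : Type} {Z : eCx J X} {w v : J → ℝ} (q : J → Prop) (h0 : ∀ j, 0 ≤ v j)
    (h1 : (Z.sub q).Le (fun j => w j.1) (fun j => v j.1))
    (h2 : (Z.sub fun j => ¬ q j).Le (fun j => w j.1) (fun j => v j.1)) : Z.Le w v := by
  obtain ⟨C, c, hC, h⟩ := h1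
  obtain ⟨C', c', hC', h'⟩ := h2
  refine ⟨C + C', c + c', by positivity, fun j => ?_⟩
  have a1 : Z.τ j ^ c ≤ Z.τ j ^ (c + c') := pow_le_pow_right₀ (Z.hτ j) (by omega)
  have a2 : Z.τ j ^ c' ≤ Z.τ j ^ (c + c') := pow_le_pow_right₀ (Z.hτ j) (by omega)
  have a3 := Z.pos j (c + c')
  by_cases hq : q j
  · refine (h ⟨j, hq⟩).trans (mul_le_mul_of_nonneg_right ?_ (h0 j))
    show C * Z.τ j ^ c ≤ _
    nlinarith
  · refine (h' ⟨j, hq⟩).trans (mul_le_mul_of_nonneg_right ?_ (h0 j))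
    show C' * Z.τ j ^ c' ≤ _
    nlinarith

theorem eGB.split {Z : eCx J X} {n : ℕ} {lam w : J → ℝ} {u : J → X → W} (q : J → Prop)
    (h1 : eGB (Z.sub q) n (fun j => lam j.1) (fun j => w j.1) (fun j => u j.1))
    (h2 : eGB (Z.sub fun j => ¬ q j) n (fun j => lam j.1) (fun j => w j.1) (fun j => u j.1)) :
    eGB Z n lam w u := by
  have a : ∀ j, ContDiffAt ℝ ∞ (u j) (Z.p j) ∧ 0 ≤ w j ∧ 1 ≤ lam j := fun j => by
    by_cases hq : q j
    · exact ⟨h1.sm ⟨j, hq⟩, h1.nn ⟨j, hq⟩, h1.hl ⟨j, hq⟩⟩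
    · exact ⟨h2.sm ⟨j, hq⟩, h2.nn ⟨j, hq⟩, h2.hl ⟨j, hq⟩⟩
  exact ⟨fun j => (a j).1, fun j => (a j).2.1, fun j => (a j).2.2, fun k hk => eCx.Le.split q
    (fun j => mul_nonneg (a j).2.1 (pow_nonneg (zero_le_one.trans (a j).2.2) k))
    (h1.bd k hk) (h2.bd k hk)⟩

theorem eGB.restrict {Z : eCx J X} {n : ℕ} {lam w : J → ℝ} {u : J → X → W} (h : eGB Z n lam w u)
    (q : J → Prop) : eGB (Z.sub q) n (fun j => lam j.1) (fun j => w j.1) (fun j => u j.1) :=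
  ⟨fun j => h.sm j.1, fun j => h.nn j.1, fun j => h.hl j.1, fun k hk => by
    obtain ⟨C, c, hC, hb⟩ := h.bd k hk
    exact ⟨C, c, hC, fun j => hb j.1⟩⟩

end cx

theorem e3_sT (k : ℕ) : ∃ C, ∀ t, ‖iteratedFDeriv ℝ k Real.smoothTransition t‖ ≤ C := by
  obtain ⟨C, hC⟩ := t2_bdd isOpen_univ (isCompact_Icc (a := (0 : ℝ)) (b := 1)) (subset_univ _)
    Real.smoothTransition.contDiff.contDiffOn k
  have cst : ∀ (c : ℝ) (t : ℝ), |c| ≤ 1 → ‖iteratedFDeriv ℝ k (fun _ : ℝ => c) t‖ ≤ 1 :=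
    fun c t hc => by
      rcases Nat.eq_zero_or_pos k with rfl | hk
      · rw [norm_iteratedFDeriv_zero]; exact hc
      · rw [iteratedFDeriv_const_of_ne hk.ne']; simp
  refine ⟨max C 1, fun t => ?_⟩
  rcases lt_or_ge t 0 with h0 | h0
  · have e : Real.smoothTransition =ᶠ[𝓝 t] fun _ => 0 := by
      filter_upwards [gt_mem_nhds h0] with y hy using Real.smoothTransition.zero_of_nonpos hy.le
    rw [(e.iteratedFDeriv ℝ k).eq_of_nhds]
    exact (cst 0 t (by simp)).trans (le_max_right _ _)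
  rcases lt_or_ge 1 t with h1 | h1
  · have e : Real.smoothTransition =ᶠ[𝓝 t] fun _ => 1 := by
      filter_upwards [lt_mem_nhds h1] with y hy using Real.smoothTransition.one_of_one_le hy.le
    rw [(e.iteratedFDeriv ℝ k).eq_of_nhds]
    exact (cst 1 t (by simp)).trans (le_max_right _ _)
  · exact (hC t ⟨h0, h1⟩).trans (le_max_left _ _)

section cx2
variable {J : Type*} {Z : eCx J E} {ix : J → ι} {n : ℕ}

theorem e3_chi (h : P.Hyp τ s σ0 d F bh l' l r r' c0) (hM1 : 1 ≤ M) (hp : ∀ j, Z.p j ∈ P.K) :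
    eGB Z n (fun j => σ0 (ix j) ^ 2 * s (ix j) ^ 6) (fun _ => 1)
      (fun j y => Real.smoothTransition (4 * Real.sqrt (s (ix j)) / M * P.f y - 5)) := by
  have M0 : 0 < M := lt_of_lt_of_le one_pos hM1
  have l1 : ∀ j, 1 ≤ σ0 (ix j) ^ 2 * s (ix j) ^ 6 := fun j => e1_lam1 h _
  have l0 : ∀ j, 0 ≤ σ0 (ix j) ^ 2 * s (ix j) ^ 6 := fun j => zero_le_one.trans (l1 j)
  have g1 : eGB Z n (fun _ => 1) (fun _ => 1) (fun _ => P.f) := e0_fix P.sf hp fun _ => le_rfl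
  have g : eGB Z n (fun _ => 1) (fun j => σ0 (ix j) ^ 2 * s (ix j) ^ 6)
      (fun j y => 4 * Real.sqrt (s (ix j)) / M * P.f y - 5) := by
    refine ((g1.fam_smul (fun j => 4 * Real.sqrt (s (ix j)) / M) fun j => by positivity).mono
      (eCx.Le.of_const 4 (fun j => ?_) l0) l0).sub
      (eGB.famc (fun _ => 5) (eCx.Le.of_const 5 (fun j => ?_) l0) l0 fun _ => le_rfl)
    · have a : Real.sqrt (s (ix j)) ≤ s (ix j) := by
        rw [Real.sqrt_le_left (zero_le_one.trans (h.hs _))]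
        exact le_self_pow₀ (h.hs _) (by omega)
      have b : s (ix j) ≤ σ0 (ix j) ^ 2 * s (ix j) ^ 6 :=
        (le_self_pow₀ (h.hs _) (by omega)).trans
          (le_mul_of_one_le_left (by have := h.hs (ix j); positivity) (one_le_pow₀ (h.hσ1 _)))
      have c : 4 * Real.sqrt (s (ix j)) / M ≤ 4 * Real.sqrt (s (ix j)) :=
        div_le_self (by positivity) hM1
      linarith
    · have := l1 j
      rw [Real.norm_of_nonneg (by norm_num)]
      linarith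
  refine (eGB.comp (μ := fun _ => 1) (ν := fun j => σ0 (ix j) ^ 2 * s (ix j) ^ 6)
    (Φ := fun _ => Real.smoothTransition) g.sm (fun j => Real.smoothTransition.contDiffAt)
    (fun _ => zero_le_one) (fun _ => le_rfl) l1 (fun k _ => ?_)
    (fun k hk h1 => (g.bd k hk).trans_le fun j => ?_)).relam
      (eCx.Le.of_le fun j => (one_mul _).le) l1
  · obtain ⟨C, hC⟩ := e3_sT k
    exact eCx.Le.of_const C (fun j => by simpa using hC _) fun j => by simp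
  · rw [one_pow, mul_one]
    exact le_self_pow₀ (l1 _) (by omega)

theorem e3_amp_edge (h : P.Hyp τ s σ0 d F bh l' l r r' c0) (hp : ∀ j, Z.p j ∈ P.K)
    (ht : ∀ j, Z.τ j = τ (ix j)) {M' : ℝ} (hf : ∀ j, Real.sqrt (s (ix j)) * P.f (Z.p j) ≤ M')
    (N : ℕ) : eGB Z n (fun j => σ0 (ix j) ^ 2 * s (ix j) ^ 6) (fun j => (s (ix j))⁻¹ ^ N)
      (fun j => P.amp (d (ix j)) (bh (ix j))) :=
  (e0_amp h hp ht (e2_edge h.hs hp hf (fun _ => e1_lam1 h _) N) fun _ => e1_lam0 h _).mono_le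
    fun _ => mul_le_of_le_one_right
      (pow_nonneg (inv_pos.2 (lt_of_lt_of_le one_pos (h.hs _))).le N) (h.hd1 _)

theorem e3_err (h : P.Hyp τ s σ0 d F bh l' l r r' c0) (hp : ∀ j, Z.p j ∈ P.K)
    (ht : ∀ j, Z.τ j = τ (ix j)) {M' : ℝ} (hf : ∀ j, Real.sqrt (s (ix j)) * P.f (Z.p j) ≤ M')
    {N : ℕ} {u : J → E → V} (hu : eGB Z (n + 1) (fun j => σ0 (ix j) ^ 2 * s (ix j) ^ 6)
      (fun j => (σ0 (ix j) ^ 2 * s (ix j) ^ 6)⁻¹ * (s (ix j))⁻¹ ^ N) u) :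
    eGB Z n (fun j => σ0 (ix j) ^ 2 * s (ix j) ^ 6) (fun j => (s (ix j))⁻¹ ^ N)
      (fun j => P.err (d (ix j)) (bh (ix j)) (F (ix j)) (u j)) := by
  have hl : ∀ j, 1 ≤ σ0 (ix j) ^ 2 * s (ix j) ^ 6 := fun z => e1_lam1 h _
  have s0 : ∀ i, 0 < s i := fun i => lt_of_lt_of_le one_pos (h.hs i)
  have w0 : ∀ j, 0 ≤ (s (ix j))⁻¹ ^ N := fun z => pow_nonneg (inv_pos.2 (s0 _)).le N
  have w1 : ∀ j, (s (ix j))⁻¹ ^ N ≤ 1 := fun z =>
    pow_le_one₀ (inv_pos.2 (s0 _)).le (inv_le_one_of_one_le₀ (h.hs _))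
  have gF := (e0_F1 (n := n) h hp ht).relam (eCx.Le.of_le fun z => e1_lam0 h _) hl
  have gu := hu.fderiv.mono_eq (w' := fun j => (s (ix j))⁻¹ ^ N) fun j => by
    rw [mul_right_comm, inv_mul_cancel₀ (lt_of_lt_of_le one_pos (hl j)).ne', one_mul]
  have ga := e3_amp_edge (n := n) h hp ht hf N
  have g1 := (e2_mB_GB gF gu).mono_eq fun z => one_mul _
  have g2 := (e2_mB_GB gu gF).mono_eq fun z => mul_one _
  have g3 := (e2_mB_GB gu gu).mono_le fun z => mul_le_of_le_one_right (w0 z) (w1 z)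
  have g4 := ((ga.mul ga).smul (e0_fix (e2_sm_q P) hp hl)).mono_le
    (w' := fun j => (s (ix j))⁻¹ ^ N) fun z => by linarith [mul_le_of_le_one_right (w0 z) (w1 z)]
  refine (((g1.add g2).add g3).sub g4).congr fun z => ?_
  filter_upwards [((e0_sF h (ix z) (P.sub (hp z))).of_le (t1_nat_le 1)).eventually (by simp),
    ((hu.sm z).of_le (t1_nat_le 1)).eventually (by simp)] with y h1 h2
  unfold Pc.err Pc.Q met e2_mB
  rw [fderiv_fun_add (h1.differentiableAt (by simp)) (h2.differentiableAt (by simp)), sq]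
  congr 1
  simp only [ContinuousLinearMap.add_apply, add_dotProduct, dotProduct_add, Prod.mk_add_mk,
    Prod.mk_sub_mk, Prod.mk.injEq]
  refine ⟨?_, ?_, ?_⟩ <;> ring

theorem e3_ev (h : P.Hyp τ s σ0 d F bh l' l r r' c0) (hM1 : 1 ≤ M) {A' : Fam ι E}
    (hτ : A'.τ = τ) (hO : ∀ i, A'.O i ⊆ (P.fam M τ s σ0 h.hτ).O i) {N : ℕ} {U : ι → Y → V}
    (hU : Out A' (fun i => P.td M (s i) (σ0 i) (d i) (F i) (bh i) ζ0) N U)
    (hp : ∀ j, (σ0 (ix j) * s (ix j) ^ 2) • Z.p j ∈ A'.O (ix j)) (ht : ∀ j, Z.τ j = τ (ix j)) :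
    eGB Z n (fun j => σ0 (ix j) ^ 2 * s (ix j) ^ 6)
      (fun j => (σ0 (ix j) ^ 2 * s (ix j) ^ 6)⁻¹ * P.amp (d (ix j)) (bh (ix j)) (Z.p j))
      (fun j => P.ev (s (ix j)) (σ0 (ix j)) (U (ix j))) :=
  ((e1_fast h hM1 hτ hO hU.tm hp ht n).fam_smul (fun j => (σ0 (ix j) ^ 2 * s (ix j) ^ 6)⁻¹)
    fun j => (inv_pos.2 (lt_of_lt_of_le one_pos (e1_lam1 h _))).le).mono_eq fun j => by
      simp only [Pc.td, e1_cancel h]

end cx2

theorem e3_err_congr (P : Pc) (d : ℝ) (bh : E → ℝ) (F : E → V) {u v : E → V} {x : E}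
    (e : u =ᶠ[𝓝 x] v) : P.err d bh F u =ᶠ[𝓝 x] P.err d bh F v := by
  have e' : (fun y => F y + u y) =ᶠ[𝓝 x] fun y => F y + v y := by
    filter_upwards [e] with y hy
    rw [hy]
  filter_upwards [e'.fderiv (𝕜 := ℝ)] with y hy
  unfold Pc.err met
  rw [hy]

theorem e3_npG_congr {G G' : E → V} {x : E} (e : G =ᶠ[𝓝 x] G') (a b v w v' w' : E) :
    npG G x a b v w v' w' = npG G' x a b v w v' w' := by
  unfold npG d2
  rw [e.fderiv_eq, (e.fderiv (𝕜 := ℝ)).fderiv_eq]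

theorem e3_geo {F u v : E → V} {x : E} (e : u =ᶠ[𝓝 x] v) {κ κ' σ0 s : ℝ} (hκ : κ ≤ κ')
    (hσ : 0 ≤ σ0) (h : P.Geo (fun y => F y + v y) x κ σ0 s) :
    P.Geo (fun y => F y + u y) x κ' σ0 s := by
  have e' : (fun y => F y + u y) =ᶠ[𝓝 x] fun y => F y + v y := by
    filter_upwards [e] with y hy
    rw [hy]
  unfold Pc.Geo at h ⊢
  simp only [e3_npG_congr e']
  exact ⟨h.1.trans (mul_le_mul_of_nonneg_right hκ (np_nonneg _ _ _)), h.2.1.trans hκ,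
    h.2.2.1.trans (mul_le_mul_of_nonneg_right hκ hσ),
    h.2.2.2.trans (mul_le_mul_of_nonneg_right hκ (sq_nonneg _))⟩

theorem e3_geoW {F u v : E → V} {x : E} (e : u =ᶠ[𝓝 x] v) {κ κ' lam : ℝ} (hκ : κ ≤ κ')
    (h : P.GeoW (fun y => F y + v y) x κ lam) : P.GeoW (fun y => F y + u y) x κ' lam := by
  have e' : (fun y => F y + u y) =ᶠ[𝓝 x] fun y => F y + v y := by
    filter_upwards [e] with y hy
    rw [hy]
  unfold Pc.GeoW at h ⊢
  rw [e3_npG_congr e']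
  exact h.trans (mul_le_mul_of_nonneg_right hκ (np_nonneg _ _ _))

theorem e3_thr {t C C' : ℝ} {c c' : ℕ} (ht : 1 ≤ t) (h0 : 0 ≤ C') (hC : C ≤ C') (hc : c ≤ c') :
    C * t ^ c ≤ C' * t ^ c' :=
  (mul_le_mul_of_nonneg_right hC (pow_nonneg (zero_le_one.trans ht) c)).trans
    (mul_le_mul_of_nonneg_left (pow_le_pow_right₀ ht hc) h0)

theorem e3_ab {lam : ℝ} (hl : 0 < lam) (l r : ℝ) : ∃ (a b : ℝ) (na nb : ℤ),
    lam * a = na * (2 * Real.pi) ∧ lam * b = nb * (2 * Real.pi) ∧ a ≤ l ∧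
      l - 2 * Real.pi / lam < a ∧ r ≤ b ∧ b < r + 2 * Real.pi / lam := by
  have p0 : 0 < 2 * Real.pi := by positivity
  have a1 := Int.floor_le (l * lam / (2 * Real.pi))
  have a2 := Int.lt_floor_add_one (l * lam / (2 * Real.pi))
  have b1 := Int.le_ceil (r * lam / (2 * Real.pi))
  have b2 := Int.ceil_lt_add_one (r * lam / (2 * Real.pi))
  rw [le_div_iff₀ p0] at a1
  rw [div_lt_iff₀ p0] at a2
  rw [div_le_iff₀ p0] at b1
  rw [← sub_lt_iff_lt_add, lt_div_iff₀ p0] at b2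
  refine ⟨⌊l * lam / (2 * Real.pi)⌋ * (2 * Real.pi) / lam, ⌈r * lam / (2 * Real.pi)⌉ * (2 * Real.pi) / lam,
    _, _, mul_div_cancel₀ _ hl.ne', mul_div_cancel₀ _ hl.ne', ?_, ?_, ?_, ?_⟩
  · rw [div_le_iff₀ hl]; exact a1
  · rw [sub_lt_iff_lt_add, ← add_div, lt_div_iff₀ hl]; linarith
  · rw [le_div_iff₀ hl]; exact b1
  · rw [← sub_lt_iff_lt_add, ← sub_div, div_lt_iff₀ hl]; linarith

theorem e3_per {O : Set E} {U : Y → V} (h : Per O U) {x : E} (hx : x ∈ O) (n : ℤ) (t : ℝ) :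
    U (x, t + n * (2 * Real.pi)) = U (x, t) :=
  (show Function.Periodic (fun t => U (x, t)) (2 * Real.pi) from h x hx).int_mul n t

theorem e3_glue0 (P : Pc) {a b : ℝ} {u0 u1 : E → V} {x : E} (hx : x ∈ P.O)
    (hq : ¬ (a ≤ P.φ x ∧ P.φ x ≤ b)) :
    (fun y => if a ≤ P.φ y ∧ P.φ y ≤ b then u1 y else u0 y) =ᶠ[𝓝 x] u0 := by
  have hc : ContinuousAt P.φ x := P.sφ.continuousOn.continuousAt (P.op.mem_nhds hx)
  have : (Icc a b)ᶜ ∈ 𝓝 (P.φ x) := isClosed_Icc.isOpen_compl.mem_nhds hq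
  filter_upwards [hc this] with y hy
  exact if_neg hy

theorem e3_glue1 (P : Pc) {s σ0 a b l1 r1 : ℝ} {na nb : ℤ} {U0 U1 : Y → V} {O0 O1 Ω : Set E}
    (hl : 0 < σ0 ^ 2 * s ^ 6) (p0 : Per O0 U0) (p1 : Per O1 U1) (hΩ : IsOpen Ω)
    (h1 : ∀ y ∈ Ω, P.φ y ∈ Ioo l1 r1 → (σ0 * s ^ 2) • y ∈ O0 ∧ (σ0 * s ^ 2) • y ∈ O1 ∧
      ∀ t, |t| < 1 / 100 → U0 ((σ0 * s ^ 2) • y, t) = U1 ((σ0 * s ^ 2) • y, t))
    (ha : σ0 ^ 2 * s ^ 6 * a = na * (2 * Real.pi)) (hb : σ0 ^ 2 * s ^ 6 * b = nb * (2 * Real.pi))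
    (hla : l1 < a) (hbr : b < r1) {x : E} (hx : x ∈ Ω) (hxO : x ∈ P.O)
    (hq : a ≤ P.φ x ∧ P.φ x ≤ b) :
    (fun y => if a ≤ P.φ y ∧ P.φ y ≤ b then P.ev s σ0 U1 y else P.ev s σ0 U0 y) =ᶠ[𝓝 x]
      P.ev s σ0 U1 := by
  have hc : ContinuousAt P.φ x := P.sφ.continuousOn.continuousAt (P.op.mem_nhds hxO)
  set lam := σ0 ^ 2 * s ^ 6 with hlam
  have n1 : Ioo l1 r1 ∈ 𝓝 (P.φ x) := Ioo_mem_nhds (hla.trans_le hq.1) (hq.2.trans_lt hbr)
  have δ0 : 0 < 1 / 100 / lam := by positivity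
  have n2 : Ioo (P.φ x - 1 / 100 / lam) (P.φ x + 1 / 100 / lam) ∈ 𝓝 (P.φ x) :=
    Ioo_mem_nhds (by linarith) (by linarith)
  filter_upwards [hc n1, hc n2, hΩ.mem_nhds hx] with y y1 y2 y3
  split_ifs with hy
  · rfl
  obtain ⟨m0, m1, hU⟩ := h1 y y3 y1
  have e : lam * (1 / 100 / lam) = 1 / 100 := mul_div_cancel₀ _ hl.ne'
  have key : ∀ (c : ℝ) (n : ℤ), lam * c = n * (2 * Real.pi) → |P.φ y - c| < 1 / 100 / lam →
      P.ev s σ0 U0 y = P.ev s σ0 U1 y := fun c n hn hc => by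
    unfold Pc.ev
    have : lam * P.φ y = lam * (P.φ y - c) + n * (2 * Real.pi) := by rw [← hn]; ring
    rw [← hlam, this, e3_per p0 m0, e3_per p1 m1, hU]
    rw [abs_mul, abs_of_pos hl, ← e]
    exact mul_lt_mul_of_pos_left hc hl
  have y21 : P.φ x - 1 / 100 / lam < P.φ y := y2.1
  have y22 : P.φ y < P.φ x + 1 / 100 / lam := y2.2
  rcases not_and_or.1 hy with hy | hy
  · exact key a na ha (abs_lt.2 ⟨by linarith [hq.1], by linarith [not_le.1 hy]⟩)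
  · exact key b nb hb (abs_lt.2 ⟨by linarith [not_le.1 hy], by linarith [hq.2]⟩)

theorem e3_bump (hl : l' < l) (hlr : l ≤ r) (hr : r < r') : ∃ (ζ : ℝ → ℝ) (l1 r1 : ℝ),
    ContDiff ℝ ∞ ζ ∧ tsupport ζ ⊆ Icc l' r' ∧ (∀ t ∈ Ioo l1 r1, ζ t = 1) ∧ l' < l1 ∧ l1 < l ∧
      r < r1 ∧ r1 < r' := by
  refine ⟨fun t => Real.smoothTransition ((t - l') / ((l - l') / 2)) *
    Real.smoothTransition ((r' - t) / ((r' - r) / 2)), (l' + l) / 2, (r + r') / 2, ?_, ?_, ?_,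
    by linarith, by linarith, by linarith, by linarith⟩
  · exact (Real.smoothTransition.contDiff.comp ((contDiff_id.sub contDiff_const).div_const _)).mul
      (Real.smoothTransition.contDiff.comp ((contDiff_const.sub contDiff_id).div_const _))
  · refine closure_minimal (fun t ht => ?_) isClosed_Icc
    have ht' := mul_ne_zero_iff.1 ht
    constructor
    · by_contra hc
      exact ht'.1 (Real.smoothTransition.zero_of_nonpos
        (div_nonpos_of_nonpos_of_nonneg (by linarith [not_le.1 hc]) (by linarith)))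
    · by_contra hc
      exact ht'.2 (Real.smoothTransition.zero_of_nonpos
        (div_nonpos_of_nonpos_of_nonneg (by linarith [not_le.1 hc]) (by linarith)))
  · intro t ht
    show _ * _ = _
    rw [Real.smoothTransition.one_of_one_le, Real.smoothTransition.one_of_one_le, mul_one]
    · rw [one_le_div (by linarith)]; linarith [ht.2]
    · rw [one_le_div (by linarith)]; linarith [ht.1]

theorem TWE (h : P.Hyp τ s σ0 d F bh l' l r r' c0) : ∃ (Cg : ℝ) (cg : ℕ), 0 < Cg ∧ ∀ N : ℕ,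
    ∃ (C0 : ℝ) (c1 : ℕ) (u : ι → E → V),
      (∀ i, ContDiff ℝ ∞ (u i) ∧ tsupport (u i) ⊆ P.K) ∧
      (∀ k, ∃ (C : ℝ) (c : ℕ), 0 < C ∧ ∀ i x, ‖iteratedFDeriv ℝ k (u i) x‖
        ≤ C * τ i ^ c * (d i * (σ0 i ^ 2 * s i ^ 6) ^ k / (σ0 i ^ 2 * s i ^ 6))) ∧
      (∀ k, ∃ (C : ℝ) (c : ℕ), 0 < C ∧ ∀ i, C0 * τ i ^ c1 ≤ s i → ∀ x ∈ P.K,
        ‖iteratedFDeriv ℝ k (P.err (d i) (bh i) (F i) (u i)) x‖
          ≤ C * τ i ^ c * ((s i)⁻¹ ^ N * (σ0 i ^ 2 * s i ^ 6) ^ k)) ∧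
      ∀ i, C0 * τ i ^ c1 ≤ s i → ∀ x ∈ P.K,
        P.Geo (fun y => F i y + u i y) x (Cg * τ i ^ cg) (σ0 i) (s i) ∧
        (0 < P.f x → P.φ x ∈ Icc l r →
          P.GeoW (fun y => F i y + u i y) x (Cg * τ i ^ cg) (σ0 i ^ 2 * s i ^ 6)) := by
  classical
  obtain ⟨M, hM1, hM⟩ : ∃ M, 1 ≤ M ∧ ∀ x ∈ P.K, P.f x ≤ M := by
    obtain ⟨m, hm⟩ := P.cp.exists_bound_of_continuousOn (P.sf.continuousOn.mono P.sub)
    exact ⟨max 1 m, le_max_left _ _, fun x hx =>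
      (le_abs_self _).trans ((hm x hx).trans (le_max_right _ _))⟩
  have M0 : 0 < M := lt_of_lt_of_le one_pos hM1
  obtain ⟨ζ0, l1, r1, hζ, hζs, hζ1, hl1, hl2, hr1, hr2⟩ := e3_bump h.hl h.hlr h.hr
  obtain ⟨m, hm, hc⟩ := e2_cb P
  have m0 : 0 < m := lt_of_lt_of_le one_pos hm
  have c00 := h.hc0
  have H := td_hyp h hM1 hM hζ hζs
  have s0 : ∀ i, 0 < s i := fun i => lt_of_lt_of_le one_pos (h.hs i)
  have l0 : ∀ i, 0 < σ0 i ^ 2 * s i ^ 6 := fun i => lt_of_lt_of_le one_pos (e1_lam1 h i)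
  have opI : ∀ (i : ι) (a b : ℝ), IsOpen ((fun x : E => (σ0 i * s i ^ 2)⁻¹ • x) ⁻¹'
      (P.O ∩ P.φ ⁻¹' Ioo a b)) := fun i a b =>
    (P.sφ.continuousOn.isOpen_inter_preimage P.op isOpen_Ioo).preimage (continuous_const_smul _)
  have memI : ∀ (i : ι) (a b : ℝ) (y : E), y ∈ P.O → P.φ y ∈ Ioo a b → (σ0 i * s i ^ 2) • y ∈
      (fun x : E => (σ0 i * s i ^ 2)⁻¹ • x) ⁻¹' (P.O ∩ P.φ ⁻¹' Ioo a b) := fun i a b y h1 h2 => by
    show (σ0 i * s i ^ 2)⁻¹ • (σ0 i * s i ^ 2) • y ∈ P.O ∩ _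
    rw [e1_cancel h]
    exact ⟨h1, h2⟩
  obtain ⟨C, c, hC, core⟩ := CORE H _ (fun i => opI i l' r') (c0 := c0 / m) (by positivity)
    (fun i x hx => by
      obtain ⟨y1, -, y3, y4⟩ := e0_mem hM1 hx.1
      refine le_trans ?_ (h.hw i _ y1 y3 (Ioo_subset_Icc_self hx.2.2)).2
      have a : ‖dV P.c1 (F i) ((σ0 i * s i ^ 2)⁻¹ • x)‖ ≤
          ‖fderiv ℝ (F i) ((σ0 i * s i ^ 2)⁻¹ • x)‖ * m :=
        (ContinuousLinearMap.le_opNorm _ _).trans
          (mul_le_mul_of_nonneg_left (hc _ y4).1 (norm_nonneg _))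
      show c0 / m * (1 + ‖dV P.c1 (F i) ((σ0 i * s i ^ 2)⁻¹ • x)‖) ≤ _
      rw [div_mul_eq_mul_div, mul_div_assoc]
      refine mul_le_mul_of_nonneg_left ?_ c00.le
      rw [div_le_iff₀ m0]
      linarith)
  obtain ⟨C', c', C0', c1', hC', gs⟩ := geo_small h
  refine ⟨C + C', c + c', by positivity, fun N => ?_⟩
  have κ1 : ∀ i, C * τ i ^ c ≤ (C + C') * τ i ^ (c + c') := fun i =>
    e3_thr (h.hτ i) (by positivity) (by linarith) (by omega)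
  have κ2 : ∀ i, C' * τ i ^ c' ≤ (C + C') * τ i ^ (c + c') := fun i =>
    e3_thr (h.hτ i) (by positivity) (by linarith) (by omega)
  obtain ⟨C0, c1, U0, U1, o0, g0, o1, g1, w1, loc⟩ := core N
  choose a b na nb ha hb hal hla hrb hbr using fun i => e3_ab (l0 i) l r
  set δ := min (l - l1) (r1 - r) with hδ
  have δ0 : 0 < δ := lt_min (by linarith) (by linarith)
  set A := P.fam M τ s σ0 h.hτ with hA
  let good : ι → Prop := fun i => C0 * τ i ^ c1 ≤ s i ∧ 2 * Real.pi / δ ≤ s i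
  have gab : ∀ i, good i → l1 < a i ∧ b i < r1 := fun i hi => by
    have a1 : s i ≤ σ0 i ^ 2 * s i ^ 6 := (le_self_pow₀ (h.hs _) (by omega)).trans
      (le_mul_of_one_le_left (by have := s0 i; positivity) (one_le_pow₀ (h.hσ1 _)))
    have a2 : 2 * Real.pi / (σ0 i ^ 2 * s i ^ 6) ≤ δ := by
      rw [div_le_iff₀ (l0 i), ← div_le_iff₀' δ0]
      exact hi.2.trans a1
    have a3 : δ ≤ l - l1 := min_le_left _ _
    have a4 : δ ≤ r1 - r := min_le_right _ _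
    exact ⟨by linarith [hla i], by linarith [hbr i]⟩
  let Ω : ι → Set E := fun i => {x | (σ0 i * s i ^ 2) • x ∈ A.O i ∧ good i}
  have opΩ : ∀ i, IsOpen (Ω i) := fun i =>
    ((A.op i).preimage (continuous_const_smul _)).inter isOpen_const
  let q : ι → E → Prop := fun i y => a i ≤ P.φ y ∧ P.φ y ≤ b i
  let ut : ι → E → V := fun i y =>
    if q i y then P.ev (s i) (σ0 i) (U1 i) y else P.ev (s i) (σ0 i) (U0 i) y
  let χ : ι → E → ℝ := fun i y => Real.smoothTransition (4 * Real.sqrt (s i) / M * P.f y - 5)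
  let u : ι → E → V := fun i => (Ω i).indicator fun y => χ i y • ut i y
  have ΩO : ∀ i, ∀ x ∈ Ω i, x ∈ P.O := fun i x hx => (e1_memO h hx.1).1
  have ΩK : ∀ i, ∀ x ∈ Ω i, x ∈ P.K := fun i x hx => (e1_memK h hM1 hx.1).1
  have mem0 : ∀ i, ∀ x ∈ Ω i, (σ0 i * s i ^ 2) • x ∈
      (A.cut fun i => C0 * A.τ i ^ c1 ≤ s i).O i := fun i x hx => ⟨hx.1, hx.2.1⟩
  have mem1 : ∀ i, ∀ x ∈ Ω i, P.φ x ∈ Ioo l1 r1 → (σ0 i * s i ^ 2) • x ∈
      ((A.sub _ fun i => opI i l' r').cut fun i => C0 * A.τ i ^ c1 ≤ s i).O i :=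
    fun i x hx hq => ⟨⟨hx.1, memI i l' r' x (ΩO i x hx) ⟨hl1.trans hq.1, hq.2.trans hr2⟩⟩, hx.2.1⟩
  have sub0 : ∀ i, (A.cut fun i => C0 * A.τ i ^ c1 ≤ s i).O i ⊆ A.O i := fun i x hx => hx.1
  have sub1 : ∀ i, ((A.sub _ fun i => opI i l' r').cut fun i => C0 * A.τ i ^ c1 ≤ s i).O i
      ⊆ A.O i := fun i x hx => hx.1.1
  have qI : ∀ i, ∀ x ∈ Ω i, q i x → P.φ x ∈ Ioo l1 r1 := fun i x hx hq =>
    ⟨(gab i hx.2).1.trans_le hq.1, hq.2.trans_lt (gab i hx.2).2⟩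
  have ut0 : ∀ i, ∀ x ∈ Ω i, ¬ q i x → ut i =ᶠ[𝓝 x] P.ev (s i) (σ0 i) (U0 i) :=
    fun i x hx hq => e3_glue0 P (ΩO i x hx) hq
  have ut1 : ∀ i, ∀ x ∈ Ω i, q i x → ut i =ᶠ[𝓝 x] P.ev (s i) (σ0 i) (U1 i) :=
    fun i x hx hq => e3_glue1 P (l0 i) (o0.per i) (o1.per i) (opΩ i)
      (fun y hy hφ => ⟨mem0 i y hy, mem1 i y hy hφ, loc i (A.O i ∩ _)
        ((A.op i).inter (opI i l1 r1))
        (fun z hz => ⟨hz.1, hz.2.1, hl1.trans hz.2.2.1, hz.2.2.2.trans hr2⟩)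
        (fun z hz => hζ1 _ hz.2.2) _ ⟨hy.1, memI i l1 r1 y (ΩO i y hy) hφ⟩⟩)
      (ha i) (hb i) (gab i hx.2).1 (gab i hx.2).2 hx (ΩO i x hx) hq
  have uΩ : ∀ i, ∀ x ∈ Ω i, u i =ᶠ[𝓝 x] fun y => χ i y • ut i y := fun i x hx => by
    filter_upwards [(opΩ i).mem_nhds hx] with y hy using indicator_of_mem hy _
  let S : ι → Set E := fun i =>
    (P.K ∩ (fun y => Real.sqrt (s i) * P.f y) ⁻¹' Ici (5 / 4 * M)) ∩ {_y | good i}
  have clS : ∀ i, IsClosed (S i) := fun i =>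
    (((continuousOn_const.mul P.sf.continuousOn).mono P.sub).preimage_isClosed_of_isClosed
      P.cp.isClosed isClosed_Ici).inter isClosed_const
  have SΩ : ∀ i, S i ⊆ Ω i := fun i x hx => ⟨e1_mem_of h (P.sub hx.1.1) (by
    have : 5 / 4 * M ≤ Real.sqrt (s i) * P.f x := hx.1.2
    linarith), hx.2⟩
  have supp : ∀ i, Function.support (u i) ⊆ S i := fun i x hx => by
    by_contra hS
    apply hx
    by_cases hΩ : x ∈ Ω i
    · have : Real.sqrt (s i) * P.f x < 5 / 4 * M :=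
        not_le.1 fun hc => hS ⟨⟨ΩK i x hΩ, hc⟩, hΩ.2⟩
      have e : χ i x = 0 := Real.smoothTransition.zero_of_nonpos (by
        rw [div_mul_eq_mul_div, sub_nonpos, div_le_iff₀ M0]
        linarith)
      rw [(uΩ i x hΩ).eq_of_nhds, e, zero_smul]
    · exact indicator_of_notMem hΩ _
  have tsupp : ∀ i, tsupport (u i) ⊆ S i := fun i => closure_minimal (supp i) (clS i)
  have uz : ∀ i x, x ∉ Ω i → u i =ᶠ[𝓝 x] fun _ => 0 := fun i x hx =>
    notMem_tsupport_iff_eventuallyEq.1 fun hc => hx (SΩ i (tsupp i hc))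
  have uin : ∀ i, good i → ∀ x ∈ P.K, 3 / 2 * M < Real.sqrt (s i) * P.f x →
      x ∈ Ω i ∧ u i =ᶠ[𝓝 x] ut i := fun i hi x hx hf => by
    have hΩ : x ∈ Ω i := ⟨e1_mem_of h (P.sub hx) (by linarith), hi⟩
    have hc : ContinuousAt (fun y => Real.sqrt (s i) * P.f y) x :=
      continuousAt_const.mul (P.sf.continuousOn.continuousAt (P.op.mem_nhds (P.sub hx)))
    refine ⟨hΩ, ?_⟩
    filter_upwards [uΩ i x hΩ, hc (Ioi_mem_nhds hf)] with y y1 y2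
    have y3 : 3 / 2 * M < Real.sqrt (s i) * P.f y := y2
    have e : χ i y = 1 := Real.smoothTransition.one_of_one_le (by
      rw [div_mul_eq_mul_div, le_sub_iff_add_le, le_div_iff₀ M0]
      linarith)
    rw [y1, e, one_smul]
  let Z : eCx (ι × E) E := ⟨fun z => z.2, fun z => τ z.1, fun z => h.hτ _⟩
  let W0 : ι × E → ℝ := fun z => if z.2 ∈ Ω z.1 then P.amp (d z.1) (bh z.1) z.2 else 0
  have gu : ∀ n, eGB Z n (fun z => σ0 z.1 ^ 2 * s z.1 ^ 6)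
      (fun z => (σ0 z.1 ^ 2 * s z.1 ^ 6)⁻¹ * W0 z) (fun z => u z.1) := fun n => by
    refine eGB.split (fun z => z.2 ∈ Ω z.1) ?_ ?_
    · have gt : eGB (Z.sub fun z => z.2 ∈ Ω z.1) n (fun z => σ0 z.1.1 ^ 2 * s z.1.1 ^ 6)
          (fun z => (σ0 z.1.1 ^ 2 * s z.1.1 ^ 6)⁻¹ * P.amp (d z.1.1) (bh z.1.1) z.1.2)
          (fun z => ut z.1.1) := by
        refine eGB.split (fun z => q z.1.1 z.1.2) ?_ ?_
        · exact (e3_ev (Z := (Z.sub fun z => z.2 ∈ Ω z.1).sub fun z => q z.1.1 z.1.2)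
            (ix := fun z => z.1.1.1) h hM1 rfl sub1 o1
            (fun z => mem1 _ _ z.1.2 (qI _ _ z.1.2 z.2)) fun _ => rfl).congr
              fun z => ut1 _ _ z.1.2 z.2
        · exact (e3_ev (Z := (Z.sub fun z => z.2 ∈ Ω z.1).sub fun z => ¬ q z.1.1 z.1.2)
            (ix := fun z => z.1.1.1) h hM1 rfl sub0 o0
            (fun z => mem0 _ _ z.1.2) fun _ => rfl).congr fun z => ut0 _ _ z.1.2 z.2
      refine (((e3_chi (Z := Z.sub fun z => z.2 ∈ Ω z.1) (ix := fun z => z.1.1) h hM1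
        fun z => ΩK _ _ z.2).smul gt).mono_eq fun z => ?_).congr fun z => uΩ _ _ z.2
      simp only [W0, if_pos z.2, one_mul]
    · refine (eGB.famc (fun _ => (0 : V)) (eCx.Le.of_le fun z => ?_) (fun z => ?_)
        fun z => e1_lam1 h _).congr fun z => uz _ _ z.2
      · simp only [W0, if_neg z.2, norm_zero, mul_zero, le_refl]
      · simp only [W0, if_neg z.2, mul_zero, le_refl]
  let qe : ι × E → Prop := fun z => z.2 ∈ P.K ∧ Real.sqrt (s z.1) * P.f z.2 ≤ 2 * M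
  have ge : ∀ N' n, eGB (Z.sub qe) n (fun z => σ0 z.1.1 ^ 2 * s z.1.1 ^ 6)
      (fun z => (σ0 z.1.1 ^ 2 * s z.1.1 ^ 6)⁻¹ * (s z.1.1)⁻¹ ^ N') (fun z => u z.1.1) :=
    fun N' n => by
      refine ((gu n).restrict qe).mono (eCx.Le.mul_left (eCx.Le.le_trans (fun z => ?_)
        (e3_amp_edge (Z := Z.sub qe) (n := 0) (ix := fun z => z.1.1) h (fun z => z.2.1) (fun _ => rfl)
          (fun z => z.2.2) N').norm_le) fun z => (inv_pos.2 (l0 _)).le)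
        fun z => mul_nonneg (inv_pos.2 (l0 _)).le (pow_nonneg (inv_pos.2 (s0 _)).le N')
      simp only [W0]
      split_ifs
      · exact le_abs_self _
      · exact norm_nonneg _
  obtain ⟨Ce, ce, hCe, he⟩ := eCx.Le.unif 2 (ge 12 2).nn' (ge 12 2).bd
  have π0 : 0 < 2 * Real.pi / δ := by positivity
  have q0 : 0 < (2 * M / c0) ^ 2 := by positivity
  set Cf := |C0| + 2 * Real.pi / δ + |C0'| + (2 * M / c0) ^ 2 + Ce with hCf
  have ab0 := abs_nonneg C0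
  have ab1 := abs_nonneg C0'
  have thr : ∀ i, Cf * τ i ^ (c1 + c1' + ce) ≤ s i → good i ∧ C0' * τ i ^ c1' ≤ s i ∧
      (2 * M / c0) ^ 2 ≤ s i ∧ Ce * τ i ^ ce ≤ s i := fun i hi => by
    have f0 : 0 ≤ Cf := by linarith
    have t : ∀ (C : ℝ) (c : ℕ), C ≤ Cf → c ≤ c1 + c1' + ce → C * τ i ^ c ≤ s i := fun C c a b =>
      (e3_thr (h.hτ i) f0 a b).trans hi
    refine ⟨⟨t _ _ (by linarith [le_abs_self C0]) (by omega), ?_⟩,
      t _ _ (by linarith [le_abs_self C0']) (by omega), ?_, t _ _ (by linarith) (by omega)⟩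
    · simpa using t (2 * Real.pi / δ) 0 (by linarith) (by omega)
    · simpa using t ((2 * M / c0) ^ 2) 0 (by linarith) (by omega)
  refine ⟨Cf, c1 + c1' + ce, u, fun i => ⟨contDiff_iff_contDiffAt.2 fun x => (gu 0).sm (i, x),
    (tsupp i).trans fun x hx => hx.1.1⟩, fun k => ?_, fun k => ?_, fun i hi x hx => ?_⟩
  · have hW : Z.Le W0 (fun z => d z.1) := by
      refine eCx.Le.split (fun z => z.2 ∈ Ω z.1) (fun z => (h.hd0 _).le) ?_
        (eCx.Le.of_le fun z => ?_)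
      · refine eCx.Le.le_trans (fun z => ?_) (((e0_ub (Z := Z.sub fun z => z.2 ∈ Ω z.1)
          (ix := fun z => z.1.1) h (fun z => ΩK _ _ z.2) fun _ => rfl).mul_left (u := fun z => d z.1.1)
            fun z => (h.hd0 _).le).congr (fun _ => rfl) fun _ => (mul_one _).symm)
        simp only [W0, if_pos z.2]
        exact mul_le_mul_of_nonneg_right (mul_le_of_le_one_left (h.hd0 _).le (e0_eg_le_one _))
          (e0_bh_pos h _ (ΩK _ _ z.2)).le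
      · simp only [W0, if_neg z.2]
        exact (h.hd0 _).le
    obtain ⟨C1, k1, hC1, hb⟩ := ((gu k).mono (hW.mul_left fun z => (inv_pos.2 (l0 _)).le)
      fun z => mul_nonneg (inv_pos.2 (l0 _)).le (h.hd0 _).le).bd k le_rfl
    refine ⟨C1, k1, hC1, fun i x => (hb (i, x)).trans (le_of_eq ?_)⟩
    show C1 * τ i ^ k1 * ((σ0 i ^ 2 * s i ^ 6)⁻¹ * d i * (σ0 i ^ 2 * s i ^ 6) ^ k) = _
    rw [div_eq_mul_inv]
    ring
  · obtain ⟨C1, k1, hC1, b1⟩ := (e3_err (Z := Z.sub qe) (ix := fun z => z.1.1) h (fun z => z.2.1)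
      (fun _ => rfl) (fun z => z.2.2) (ge N (k + 1))).bd k le_rfl
    obtain ⟨C2, k2, hC2, b2⟩ := ev_err h hM1 hM rfl sub0 o0 k
    obtain ⟨C3, k3, hC3, b3⟩ := ev_err h hM1 hM rfl sub1 o1 k
    refine ⟨C1 + C2 + C3, k1 + k2 + k3, by positivity, fun i hi x hx => ?_⟩
    have w0 : 0 ≤ (s i)⁻¹ ^ N * (σ0 i ^ 2 * s i ^ 6) ^ k :=
      mul_nonneg (pow_nonneg (inv_pos.2 (s0 _)).le N) (pow_nonneg (l0 i).le k)
    rcases lt_or_ge (3 / 2 * M) (Real.sqrt (s i) * P.f x) with hf | hf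
    · obtain ⟨hΩ, e⟩ := uin i (thr i hi).1 x hx hf
      by_cases hq : q i x
      · rw [((e3_err_congr P _ _ _ (e.trans (ut1 i x hΩ hq))).iteratedFDeriv ℝ k).eq_of_nhds]
        refine (b3 i x (mem1 i x hΩ (qI i x hΩ hq))).trans ?_
        rw [mul_assoc (C3 * _)]
        exact mul_le_mul_of_nonneg_right
          (e3_thr (h.hτ i) (by positivity) (by linarith) (by omega)) w0
      · rw [((e3_err_congr P _ _ _ (e.trans (ut0 i x hΩ hq))).iteratedFDeriv ℝ k).eq_of_nhds]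
        refine (b2 i x (mem0 i x hΩ)).trans ?_
        rw [mul_assoc (C2 * _)]
        exact mul_le_mul_of_nonneg_right
          (e3_thr (h.hτ i) (by positivity) (by linarith) (by omega)) w0
    · exact (b1 ⟨(i, x), hx, by linarith⟩).trans (mul_le_mul_of_nonneg_right
        (e3_thr (h.hτ i) (by positivity) (by linarith) (by omega)) w0)
  · obtain ⟨t1, t2, t3, t4⟩ := thr i hi
    have σ0' := zero_le_one.trans (h.hσ1 i)
    constructor
    · rcases lt_or_ge (3 / 2 * M) (Real.sqrt (s i) * P.f x) with hf | hf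
      · obtain ⟨hΩ, e⟩ := uin i t1 x hx hf
        by_cases hq : q i x
        · exact e3_geo (e.trans (ut1 i x hΩ hq)) (κ1 i) σ0' ((ev_geo h rfl sub1
            o1.tm i x (mem1 i x hΩ (qI i x hΩ hq))).1 g1)
        · exact e3_geo (e.trans (ut0 i x hΩ hq)) (κ1 i) σ0' ((ev_geo h rfl sub0
            o0.tm i x (mem0 i x hΩ)).1 g0)
      · refine e3_geo (EventuallyEq.refl _ _) (κ2 i) σ0' (gs i t2 x hx (u i) ((gu 0).sm (i, x))
          fun j hj => (he j hj ⟨(i, x), hx, by linarith⟩).trans ?_)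
        show Ce * τ i ^ ce * ((σ0 i ^ 2 * s i ^ 6)⁻¹ * (s i)⁻¹ ^ 12 * (σ0 i ^ 2 * s i ^ 6) ^ j) ≤ _
        have a1 : (σ0 i ^ 2 * s i ^ 6) ^ j ≤ (σ0 i ^ 2 * s i ^ 6) ^ 2 :=
          pow_le_pow_right₀ (e1_lam1 h i) hj
        have a2 : σ0 i ^ 2 * s i ^ 6 ≤ (s i ^ 2) ^ 2 * s i ^ 6 :=
          mul_le_mul_of_nonneg_right (pow_le_pow_left₀ σ0' (h.hσ i) 2) (pow_nonneg (s0 i).le 6)
        have a3 := l0 i
        have a4 := s0 i
        calc _ ≤ s i * ((σ0 i ^ 2 * s i ^ 6)⁻¹ * (s i)⁻¹ ^ 12 * (σ0 i ^ 2 * s i ^ 6) ^ 2) := by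
              gcongr
          _ = s i * (s i)⁻¹ ^ 12 * (σ0 i ^ 2 * s i ^ 6) := by field_simp
          _ ≤ s i * (s i)⁻¹ ^ 12 * ((s i ^ 2) ^ 2 * s i ^ 6) := by gcongr
          _ = _ := by field_simp
    · intro hf hφ
      have a1 := (h.hw i x (P.sub hx) hf ⟨h.hl.le.trans hφ.1, hφ.2.trans h.hr.le⟩).1
      have a2 : 2 * M / c0 ≤ Real.sqrt (s i) := Real.le_sqrt_of_sq_le t3
      rw [div_le_iff₀ c00] at a2
      have a3 := mul_le_mul_of_nonneg_left a1 (Real.sqrt_nonneg (s i))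
      obtain ⟨hΩ, e⟩ := uin i t1 x hx (by linarith)
      have hq : q i x := ⟨(hal i).trans hφ.1, hφ.2.trans (hrb i)⟩
      exact e3_geoW (e.trans (ut1 i x hΩ hq)) (κ1 i) ((ev_geo h rfl sub1
        o1.tm i x (mem1 i x hΩ (qI i x hΩ hq))).2 w1)

end Vale.Agent.P205
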