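import Vale.Agent.P205.P3

open Set Filter Topology
open scoped ContDiff

noncomputable section
namespace Vale.Agent.P205

variable {M : Type*} [TopologicalSpace M] [T2Space M] [CompactSpace M] {A : Atl M}

/-! FSA: abstract flexibility step. -/

theorem Pc.Geo.mono {P : Pc} {G : E → V} {x : E} {κ κ' σ0 s : ℝ} (h : P.Geo G x κ σ0 s)
    (hκ : κ ≤ κ') (hσ : 0 ≤ σ0) : P.Geo G x κ' σ0 s :=
  ⟨h.1.trans (mul_le_mul_of_nonneg_right hκ (np_nonneg _ _ _)), h.2.1.trans hκ,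
    h.2.2.1.trans (mul_le_mul_of_nonneg_right hκ hσ),
    h.2.2.2.trans (mul_le_mul_of_nonneg_right hκ (by positivity))⟩

theorem Pc.GeoW.mono {P : Pc} {G : E → V} {x : E} {κ κ' s : ℝ} (h : P.GeoW G x κ s)
    (hκ : κ ≤ κ') : P.GeoW G x κ' s :=
  le_trans h (mul_le_mul_of_nonneg_right hκ (np_nonneg _ _ _))

theorem fsa_loc_congr {Z : Type} {F F' : M → Z} {m : M} (h : F' =ᶠ[𝓝 m] F) {q : Fin A.n}
    (hm : m ∈ (A.ch q).source) : A.loc F' q =ᶠ[𝓝 (A.ch q m)] A.loc F q := by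
  have t : Tendsto (A.ch q).symm (𝓝 (A.ch q m)) (𝓝 m) := (A.ch q).tendsto_symm hm
  exact t.eventually h

theorem fsa_ev (a b : ℝ) (hb : 0 < b) : ∀ᶠ s : ℝ in atTop, a * s⁻¹ ≤ b := by
  have : Tendsto (fun s : ℝ => a * s⁻¹) atTop (𝓝 (a * 0)) := tendsto_inv_atTop_zero.const_mul a
  rw [mul_zero] at this
  exact this.eventually (ge_mem_nhds hb)

theorem FSA {g Ψ G : M → S3} (hg : A.PosD g) (hgs : A.TSm g) (hΨ : A.TSm Ψ) (hG : A.TSm G) {η : ℝ}
    (hfl : A.Flex g Ψ G η) (p : Fin A.n) (P : Pc) (hP : P.O ⊆ Metric.ball 0 3) {bh : E → ℝ}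
    (sb : ContDiffOn ℝ ∞ bh P.O) (pb : ∀ x ∈ P.K, 0 < bh x) {l' l r r' c0 : ℝ} (hl : l' < l)
    (hlr : l ≤ r) (hr : r < r') (hc0 : 0 < c0)
    (hw : ∀ x ∈ P.O, 0 < P.f x → P.φ x ∈ Icc l' r' → c0 ≤ P.f x)
    (hdir : ∀ x ∈ P.K, qf (A.rep Ψ p x) (P.c2 x) (P.c2 x) ≤ η * qf (A.rep g p x) (P.c2 x) (P.c2 x)) :
    ∃ κ : ℝ, 1 ≤ κ ∧ ∀ η' η'' : ℝ, η' ≤ η → 0 ≤ η'' → Nonempty (Pat A g Ψ η' (Ψ + η'' • g)) →
      (∃ μ' s0 γ : ℝ, 0 < μ' ∧ 0 < γ ∧ ∀ s, s0 ≤ s → ∀ (G' : E → V), ∀ x ∈ P.K,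
        ContDiffAt ℝ ∞ G' x →
        (∀ j ≤ 2, ‖iteratedFDeriv ℝ j (fun y => met G' y -
          A.rep (G + A.extT p (P.K.indicator (P.Q 1 bh))) p y) x‖ ≤ γ) →
        P.Geo G' x κ 1 s → (0 < P.f x → P.φ x ∈ Icc l r → P.GeoW G' x κ (s ^ 6)) →
        MgAt G' (A.rep g p) (A.rep Ψ p) μ' η' x) →
      A.Flex g Ψ (G + A.extT p (P.K.indicator (P.Q 1 bh))) η' := by
  obtain ⟨μ, δ0, B, hμ, hδ0, hF⟩ := hfl
  let ι := {x : ℝ × ℝ × ℝ // 1 ≤ x.1 ∧ x.2.1 ∈ Icc 0 δ0 ∧ x.2.2 ∈ Icc 0 δ0}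
  choose F f1 f2 f3 f4 using fun i : ι => hF _ i.2.2.1 _ i.2.2.2
  have K3 : P.K ⊆ Metric.ball 0 3 := P.sub.trans hP
  obtain ⟨b0, hb0, hb⟩ := P.cp.exists_forall_le' (sb.continuousOn.mono P.sub) pb
  obtain ⟨cm, hcm, hmf⟩ := Atl.mg_frame hg hgs p P hP
  have eg0 := expNegInvGlue.pos_of_pos hc0
  have B1 := abs_nonneg (B 1)
  have hyp : P.Hyp (fun _ : ι => 1) (fun i => i.1.1) (fun _ => 1) (fun _ => 1)
      (fun i => A.loc (F i) p) (fun _ => bh) l' l r r'
      (min c0 (expNegInvGlue c0 * b0 / (1 + |B 1|))) :=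
    { hτ := fun _ => le_rfl
      hs := fun i => i.2.1
      hσ1 := fun _ => le_rfl
      hσ := fun i => one_le_pow₀ i.2.1
      hd0 := fun _ => one_pos
      hd1 := fun _ => le_rfl
      sF := fun i => (f1 i p).mono (hP.trans (Atl.ball3_sub' p))
      sb := fun _ => sb
      bF := fun k => ⟨|B k| + 1, 0, by positivity, fun i x hx => by
        have := f3 i k p k le_rfl x (K3 hx)
        have := le_abs_self (B k)
        simp only [pow_zero, one_pow, mul_one]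
        linarith⟩
      bb := fun k => by
        obtain ⟨C, hC⟩ := P.cp.exists_bound_of_continuousOn ((t2_contOn P.op sb k).mono P.sub)
        refine ⟨|C| + 1, 0, by positivity, fun i x hx => ?_⟩
        have := hC x hx
        have := le_abs_self C
        simp only [pow_zero, one_pow, mul_one]
        linarith
      lb := ⟨b0⁻¹, 0, by positivity, fun i x hx => by
        simp only [pow_zero, mul_one]
        rw [← div_eq_inv_mul, le_div_iff₀ hb0, one_mul]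
        exact hb x hx⟩
      mg := ⟨(cm * μ)⁻¹, 0, by positivity, fun i x hx => by
        simp only [pow_zero, mul_one]
        rw [← div_eq_inv_mul, le_div_iff₀ (by positivity), one_mul]
        exact hmf _ _ _ _ hμ.le (f4 i) x hx (hdir x hx)⟩
      hl := hl
      hlr := hlr
      hr := hr
      hc0 := by positivity
      hw := fun i x hx h0 hφ => by
        have a1 := hw x hx h0 hφ
        have hxK := P.fK x hx h0
        refine ⟨(min_le_left _ _).trans a1, ?_⟩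
        have a2 := f3 i 1 p 1 le_rfl x (K3 hxK)
        rw [norm_iteratedFDeriv_one] at a2
        have a3 := le_abs_self (B 1)
        have a4 := expNegInvGlue.monotone a1
        have a5 := hb x hxK
        calc min c0 (expNegInvGlue c0 * b0 / (1 + |B 1|)) * (1 + ‖fderiv ℝ (A.loc (F i) p) x‖)
            ≤ expNegInvGlue c0 * b0 / (1 + |B 1|) * (1 + |B 1|) :=
              mul_le_mul (min_le_right _ _) (by linarith) (by positivity) (by positivity)
          _ = expNegInvGlue c0 * 1 * b0 := by field_simp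
          _ ≤ _ := by
              unfold Pc.amp
              exact mul_le_mul (by linarith) a5 hb0.le (by linarith) }
  obtain ⟨Cg, cg, hCg, htw⟩ := TWG p hP f1 hyp
  refine ⟨max 1 Cg, le_max_left _ _, ?_⟩
  rintro η' η'' hη hη'' ⟨Pt⟩ ⟨μ', s0, γ, hμ', hγ, HM⟩
  set Q := A.extT p (P.K.indicator (P.Q 1 bh)) with hQ
  have hQs : A.TSm Q := TSm_Q p hP 1 sb
  obtain ⟨S, hS, hPT⟩ := PT hg hgs (hΨ.add (hgs.smul η'')) Pt 11
  obtain ⟨C0, c1, u, u1, u2, u3, u4, u5⟩ := htw (6 * S + 13)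
  choose Cu cu hCu hu using u3
  choose Ce ce hCe he using u4
  choose bG hbG0 hbG using (hG.add hQs).tn
  choose bΨ hbΨ0 hbΨ using hΨ.tn
  choose bg hbg0 hbg using hgs.tn
  obtain ⟨CM, hCM, hMg⟩ := Atl.Mg_stable hg hgs
  set Bt : ℕ → ℝ := fun k => 1 + |B k| + Cu k + bG k + bΨ k + bg k + Ce k with hBt
  obtain ⟨τ0, hτ0⟩ := hPT Bt
  set μm := min μ μ' with hμm
  have μ0 : 0 < μm := lt_min hμ hμ'
  have hη0 := Pt.η0pos
  have t6 : Tendsto (fun s : ℝ => s ^ 6) atTop atTop := tendsto_pow_atTop (by norm_num)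
  obtain ⟨s, s1, s2, s3, s4, s5, s6, s7, s8, s9, s10, s11⟩ := ((eventually_ge_atTop 1).and
    ((eventually_ge_atTop C0).and ((eventually_ge_atTop s0).and
    ((t6.eventually (eventually_ge_atTop τ0)).and ((fsa_ev 1 μm μ0).and
    ((fsa_ev (Ce 0) (Pt.η0 / 2) (by positivity)).and ((fsa_ev (Ce 2) (γ / 2) (by positivity)).and
    ((fsa_ev 1 (δ0 / 2) (by positivity)).and ((fsa_ev η'' (δ0 / 2) (by positivity)).and
    ((fsa_ev (bΨ 2 + η'' * bg 2) (γ / 4) (by positivity)).and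
    (fsa_ev (CM * Bt 2 ^ 5) (μm / 2) (by positivity)))))))))))).exists
  have s0' : 0 < s := by linarith
  have si : 0 < s⁻¹ := inv_pos.2 s0'
  have si1 : s⁻¹ ≤ 1 := inv_le_one_of_one_le₀ s1
  set τ := s ^ 6 with hτ
  have τ1 : 1 ≤ τ := one_le_pow₀ s1
  have τi : τ⁻¹ ≤ s⁻¹ := inv_anti₀ s0' (le_self_pow₀ s1 (by norm_num))
  set δ := τ⁻¹ ^ S with hδ
  have δp : 0 < δ := by positivity
  have δe : δ = s⁻¹ ^ (6 * S) := by rw [hδ, hτ, pow_mul, inv_pow s 6]
  have δs : δ ≤ s⁻¹ := (pow_le_of_le_one (by positivity) (τi.trans si1) (by omega)).trans τi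
  obtain ⟨B', hB'⟩ := hτ0 τ s4 τ1
  have p1 := hbΨ0 2
  have p2 := hbg0 2
  refine ⟨μm / 2, min (min (δ0 / 2) 1) (γ / (4 * (bΨ 2 + bg 2))), B', by positivity, by positivity,
    fun δ1 h1 δ2 h2 => ?_⟩
  have h1a : δ1 ≤ δ0 / 2 := h1.2.trans ((min_le_left _ _).trans (min_le_left _ _))
  have h1b : δ1 ≤ 1 := h1.2.trans ((min_le_left _ _).trans (min_le_right _ _))
  have h1c := h1.2.trans (min_le_right _ _)
  have h2a : δ2 ≤ δ0 / 2 := h2.2.trans ((min_le_left _ _).trans (min_le_left _ _))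
  have h2b : δ2 ≤ 1 := h2.2.trans ((min_le_left _ _).trans (min_le_right _ _))
  have h2c := h2.2.trans (min_le_right _ _)
  have h10 := h1.1
  have h20 := h2.1
  have ηδ : η'' * δ ≤ η'' * s⁻¹ := by gcongr
  let i : ι := ⟨(s, δ1 + δ, δ2 + η'' * δ), s1, ⟨by positivity, by simp only; linarith⟩,
    ⟨by positivity, by simp only; linarith⟩⟩
  have good : C0 * 1 ^ c1 ≤ s := by simpa using s2
  set F' : M → V := fun m => F i m + u i m with hF'
  have sF' : A.Sm F' := (f1 i).add (u1 i)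
  have mF : A.metA (F i) = G - (δ1 + δ) • Ψ - (δ2 + η'' * δ) • g := f2 i
  have te : A.TSm (A.metA F' - A.metA (F i) - Q) :=
    ((Atl.TSm_metA sF').sub (Atl.TSm_metA (f1 i))).sub hQs
  have be : ∀ k, A.TN k (A.metA F' - A.metA (F i) - Q) (Ce k * (s⁻¹ ^ (6 * S + 13) * τ ^ k)) := by
    intro k
    have := he k i good
    simpa using this
  have sN : s⁻¹ ^ (6 * S + 13) ≤ δ * s⁻¹ := by
    rw [δe, ← pow_succ]
    exact pow_le_pow_of_le_one si.le si1 (by omega)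
  have bF' : ∀ k, A.Nb k F' (Bt k * τ ^ k) := by
    intro k
    refine (Atl.Nb.add (f1 i) (u1 i) (f3 i k) (hu k i)).mono le_rfl ?_
    have τk : 1 ≤ τ ^ k := one_le_pow₀ τ1
    have a1 : (1 : ℝ) * (1 ^ 2 * s ^ 6) ^ k / (1 ^ 2 * s ^ 6) ≤ τ ^ k := by
      simp only [one_pow, one_mul]
      exact div_le_self (by positivity) τ1
    have a2 := mul_le_mul_of_nonneg_left a1 (hCu k).le
    have a3 : |B k| * 1 ≤ |B k| * τ ^ k := by gcongr
    have a4 := le_abs_self (B k)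
    have a5 : 0 ≤ (1 + bG k + bΨ k + bg k + Ce k) * τ ^ k := by
      have := hbG0 k
      have := hbΨ0 k
      have := hbg0 k
      have := hCe k
      positivity
    simp only [hBt, one_pow, mul_one, i] at *
    linarith
  have mg' : A.Mg F' g Ψ μm η' := by
    refine Atl.Mg_of sF' fun m => ?_
    by_cases hm : m ∈ (A.ch p).symm '' P.K
    · obtain ⟨x, hx, rfl⟩ := hm
      have hxt : x ∈ (A.ch p).target := Atl.ball3_sub' p (K3 hx)
      refine ⟨p, (A.ch p).map_target hxt, ?_⟩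
      rw [(A.ch p).right_inv hxt]
      obtain ⟨g1, g2⟩ := u5 i good x hx
      refine Atl.MgAt_mono (hg.rep hxt) (HM s s3 _ x hx (sF'.contDiffAt hxt) (fun j hj => ?_)
        (g1.mono (by simp) zero_le_one) fun a b => ?_) (min_le_right _ _) le_rfl
      · have e1 : (fun y => met (A.loc F' p) y - A.rep (G + Q) p y) =ᶠ[𝓝 x]
            A.rep (A.metA F' - A.metA (F i) - Q - (δ1 + δ) • Ψ - (δ2 + η'' * δ) • g) p := by
          have : A.metA F' - A.metA (F i) - Q - (δ1 + δ) • Ψ - (δ2 + η'' * δ) • g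
              = A.metA F' - (G + Q) := by rw [mF]; abel
          rw [this, Atl.rep_sub]
          filter_upwards [(A.ch p).open_target.mem_nhds hxt] with y hy
          rw [Atl.rep_metA sF' hy]
        rw [(e1.iteratedFDeriv ℝ j).eq_of_nhds]
        refine ((Atl.TN.sub (te.sub (hΨ.smul _)) (hgs.smul _)
          (Atl.TN.sub te (hΨ.smul _) (be 2) (Atl.TN.smul hΨ _ (hbΨ 2)))
          (Atl.TN.smul hgs _ (hbg 2))) p j hj x (K3 hx)).trans ?_
        rw [abs_of_nonneg (by positivity), abs_of_nonneg (by positivity)]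
        have a1 : s⁻¹ ^ (6 * S + 13) * τ ^ 2 ≤ s⁻¹ := by
          have := p2_pw s1 (a := 6 * 2) (b := 6 * S + 13) (c := 0) (d := 1) (by omega)
          rw [hτ, ← pow_mul, mul_comm]
          simpa using this
        have a2 := mul_le_mul_of_nonneg_left a1 (hCe 2).le
        have a3 : δ1 * bΨ 2 + δ2 * bg 2 ≤ γ / 4 := by
          calc δ1 * bΨ 2 + δ2 * bg 2
              ≤ γ / (4 * (bΨ 2 + bg 2)) * bΨ 2 + γ / (4 * (bΨ 2 + bg 2)) * bg 2 := by gcongr
            _ = γ / 4 := by field_simp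
        have a4 : (bΨ 2 + η'' * bg 2) * δ ≤ (bΨ 2 + η'' * bg 2) * s⁻¹ := by gcongr
        linarith
      · have := (g2 a b).mono (κ' := max 1 Cg) (by simp)
        simpa using this
    · refine ⟨A.idx m, A.mem m, ?_⟩
      have hxt := (A.ch (A.idx m)).map_source (A.mem m)
      refine Atl.MgAt_mono (hg.rep hxt) (Atl.MgAt_congr (f4 i _ _ hxt)
        (fsa_loc_congr ?_ (A.mem m))) (min_le_left _ _) hη
      filter_upwards [u2 i m hm] with y hy
      simp [hF', hy]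
  have tG : A.TSm (G + Q - δ1 • Ψ - δ2 • g) := ((hG.add hQs).sub (hΨ.smul _)).sub (hgs.smul _)
  have eE : G + Q - δ1 • Ψ - δ2 • g - A.metA F' - δ • (Ψ + η'' • g)
      = (-1 : ℝ) • (A.metA F' - A.metA (F i) - Q) := by
    rw [mF]
    module
  obtain ⟨F'', r1, r2, r3, r4⟩ := hB' F' (G + Q - δ1 • Ψ - δ2 • g) sF' tG bF'
    (fun k => by
      refine (Atl.TN.sub ((hG.add hQs).sub (hΨ.smul _)) (hgs.smul _) (Atl.TN.sub (hG.add hQs)
        (hΨ.smul _) (hbG k) (Atl.TN.smul hΨ _ (hbΨ k))) (Atl.TN.smul hgs _ (hbg k))).mono le_rfl ?_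
      rw [abs_of_nonneg h10, abs_of_nonneg h20]
      have := hbG0 k
      have := hbΨ0 k
      have := hbg0 k
      have := hCe k
      have := hCu k
      have a1 : δ1 * bΨ k ≤ 1 * bΨ k := by gcongr
      have a2 : δ2 * bg k ≤ 1 * bg k := by gcongr
      have a3 : Bt k * 1 ≤ Bt k * τ ^ k :=
        mul_le_mul_of_nonneg_left (one_le_pow₀ τ1) (by simp only [hBt]; positivity)
      have a4 := abs_nonneg (B k)
      simp only [hBt] at a3 ⊢
      linarith)
    (mg'.mono hg (by linarith) le_rfl)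
    (fun k => by
      rw [eE]
      refine (Atl.TN.smul te _ (be k)).mono le_rfl ?_
      have := hbG0 k
      have := hbΨ0 k
      have := hbg0 k
      have := hCe k
      have := hCu k
      have a1 : Ce k ≤ Bt k := by
        have := abs_nonneg (B k)
        simp only [hBt]
        linarith
      have a2 : δ * s⁻¹ ≤ δ * 1 := by gcongr
      rw [abs_neg, abs_one, one_mul]
      calc Ce k * (s⁻¹ ^ (6 * S + 13) * τ ^ k) ≤ Bt k * (δ * τ ^ k) := by
            gcongr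
            linarith
        _ = _ := by ring)
    (by
      rw [eE]
      refine (Atl.TN.smul te _ (be 0)).mono le_rfl ?_
      have := hCe 0
      rw [abs_neg, abs_one, one_mul, pow_zero, mul_one]
      calc Ce 0 * s⁻¹ ^ (6 * S + 13) ≤ Ce 0 * (δ * s⁻¹) := by gcongr
        _ = Ce 0 * s⁻¹ * δ := by ring
        _ ≤ _ := by gcongr)
  refine ⟨F'', r1, r2, r4, ?_⟩
  have Bt1 : 1 ≤ Bt 2 := by
    have := hbG0 2
    have := hCe 2
    have := hCu 2
    have := abs_nonneg (B 2)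
    simp only [hBt]
    linarith
  refine (hMg F' F'' Ψ μm η' (Bt 2 * τ ^ 2) (τ⁻¹ ^ 11) sF' r1
    (one_le_mul_of_one_le_of_one_le Bt1 (one_le_pow₀ τ1)) (by positivity)
    (pow_le_one₀ (by positivity) (τi.trans si1)) (bF' 2) r3 mg').mono hg ?_ le_rfl
  have a1 : CM * (Bt 2 * τ ^ 2) ^ 5 * τ⁻¹ ^ 11 = CM * Bt 2 ^ 5 * τ⁻¹ := by field_simp
  have a2 : CM * Bt 2 ^ 5 * τ⁻¹ ≤ CM * Bt 2 ^ 5 * s⁻¹ := by gcongr
  linarith

end Vale.Agent.P205
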