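import Vale.Agent.P205.D4

open Set Filter Topology
open scoped ContDiff

noncomputable section
namespace Vale.Agent.P205

/-! H1: genericity lemmas (easy cases of Sard's theorem). -/

open MeasureTheory in
theorem h1_null {N k : ℕ} {Θ : (Fin N → Fin k → ℝ) → Fin N → Fin k → ℝ} {s : Set (Fin N → Fin k → ℝ)}
    (hd : ∀ x ∈ s, DifferentiableAt ℝ Θ x) {v : Fin N → Fin k → ℝ} (hv : v ≠ 0)
    (hc : ∀ x (t : ℝ), Θ (x + t • v) = Θ x) : volume (Θ '' s) = 0 := by
  refine addHaar_image_eq_zero_of_det_fderivWithin_eq_zero volume (f' := fun x => fderiv ℝ Θ x)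
    (fun x hx => (hd x hx).hasFDerivAt.hasFDerivWithinAt) fun x hx => ?_
  have h1 := (hd x hx).hasFDerivAt.hasLineDerivAt v
  have h2 : HasLineDerivAt ℝ Θ 0 x v := by
    unfold HasLineDerivAt
    simp only [hc]
    exact hasDerivAt_const _ _
  have h3 := h1.unique h2
  refine LinearMap.det_eq_zero_iff_ker_ne_bot.2 ((Submodule.ne_bot_iff _).2 ⟨v, ?_, hv⟩)
  exact h3

/-- affine equations, more equations than parameters: generically unsolvable -/
theorem GS_ae {Z W : Type} [NormedAddCommGroup Z] [NormedSpace ℝ Z] [FiniteDimensional ℝ Z]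
    [NormedAddCommGroup W] [NormedSpace ℝ W] [FiniteDimensional ℝ W] {N k : ℕ}
    (h : Module.finrank ℝ Z < Module.finrank ℝ W) {U : Set Z} (hU : IsOpen U)
    {T : Z → (Fin N → Fin k → ℝ) →L[ℝ] W} {b : Z → W} (hT : ContDiffOn ℝ ∞ T U)
    (hb : ContDiffOn ℝ ∞ b U) (hs : ∀ z ∈ U, Function.Surjective (T z)) :
    ∀ᵐ a : Fin N → Fin k → ℝ, ∀ z ∈ U, T z a ≠ b z := by
  obtain ⟨J, hJ⟩ := finrank_le_iff_exists_linearMap.1 h.le
  obtain ⟨S0, hS0⟩ := J.exists_leftInverse_of_injective (LinearMap.ker_eq_bot.2 hJ)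
  obtain ⟨w0, hw0, hw0'⟩ := (Submodule.ne_bot_iff _).1 (S0.ker_ne_bot_of_finrank_lt h)
  let S : W →L[ℝ] Z := LinearMap.toContinuousLinearMap S0
  have hSJ : ∀ z, S (J z) = z := fun z => LinearMap.congr_fun hS0 z
  have hSw : S w0 = 0 := hw0
  have key : ∀ z0 ∈ U, ∃ V ∈ 𝓝[U] z0, ∀ᵐ a : Fin N → Fin k → ℝ, ∀ z ∈ V, T z a ≠ b z := by
    intro z0 hz0
    obtain ⟨R, hR⟩ := (T z0).exists_rightInverse_of_surjective
      (LinearMap.range_eq_top.2 (hs z0 hz0))
    have hR' : ∀ w, T z0 (R w) = w := fun w => congrArg (fun L : W →L[ℝ] W => L w) hR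
    let V : Set Z := {z | z ∈ U ∧ IsUnit ((T z).comp R)}
    have hV : V ∈ 𝓝[U] z0 := by
      have hc : ContinuousAt (fun z => (T z).comp R) z0 :=
        ((hT.contDiffAt (hU.mem_nhds hz0)).clm_comp contDiffAt_const).continuousAt
      have h1 : ∀ᶠ z in 𝓝 z0, IsUnit ((T z).comp R) :=
        hc.eventually (Units.isOpen.mem_nhds (by
          show IsUnit ((T z0).comp R)
          rw [hR]; exact isUnit_one))
      exact mem_nhdsWithin_of_mem_nhds (inter_mem (hU.mem_nhds hz0) h1)
    refine ⟨V, hV, ?_⟩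
    let P : (Fin N → Fin k → ℝ) → Fin N → Fin k → ℝ := fun x => x - R (T z0 x)
    let ζ : (Fin N → Fin k → ℝ) → Z := fun x => z0 + S (T z0 x)
    let Θ : (Fin N → Fin k → ℝ) → Fin N → Fin k → ℝ := fun x =>
      P x + R (Ring.inverse ((T (ζ x)).comp R) (b (ζ x) - T (ζ x) (P x)))
    have hP : ContDiff ℝ ∞ P := by fun_prop
    have hζ : ContDiff ℝ ∞ ζ := by fun_prop
    have hnull : MeasureTheory.volume (Θ '' (ζ ⁻¹' V)) = 0 := by
      refine h1_null (v := R w0) (fun x hx => ?_) (fun e => hw0' ?_) fun x t => ?_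
      · have hx1 : ζ x ∈ U := hx.1
        obtain ⟨u, hu⟩ : IsUnit ((T (ζ x)).comp R) := hx.2
        have a1 : ContDiffAt ℝ ∞ (fun x => T (ζ x)) x :=
          (hT.contDiffAt (hU.mem_nhds hx1)).comp x hζ.contDiffAt
        have a2 : ContDiffAt ℝ ∞ (fun x => b (ζ x)) x :=
          (hb.contDiffAt (hU.mem_nhds hx1)).comp x hζ.contDiffAt
        have a3 : ContDiffAt ℝ ∞ (fun x => Ring.inverse ((T (ζ x)).comp R)) x := by
          have := contDiffAt_ringInverse ℝ (n := ∞) u
          rw [hu] at this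
          exact this.comp x (a1.clm_comp contDiffAt_const)
        have a4 : ContDiffAt ℝ ∞ Θ x :=
          hP.contDiffAt.add (R.contDiff.contDiffAt.comp x
            (a3.clm_apply (a2.sub (a1.clm_apply hP.contDiffAt))))
        exact a4.differentiableAt (by simp)
      · rw [← hR' w0, e, map_zero]
      · have e1 : P (x + t • R w0) = P x := by
          simp only [P, map_add, map_smul, hR']
          abel
        have e2 : ζ (x + t • R w0) = ζ x := by
          simp only [ζ, map_add, map_smul, hR', hSw, smul_zero, add_zero]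
        simp only [Θ, e1, e2]
    refine MeasureTheory.measure_mono_null ?_ hnull
    intro a ha
    simp only [mem_compl_iff, mem_ofPred_eq, not_forall, not_not] at ha
    obtain ⟨z, hz, e⟩ := ha
    have e1 : P (P a + R (J (z - z0))) = P a := by
      simp only [P, map_add, map_sub, hR']
      abel
    have e2 : ζ (P a + R (J (z - z0))) = z := by
      simp only [ζ, P, map_add, map_sub, hR', sub_self, zero_add]
      rw [hSJ, hSJ]; abel
    refine ⟨P a + R (J (z - z0)), by rw [mem_preimage, e2]; exact hz, ?_⟩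
    simp only [Θ, e1, e2]
    have e3 : b z - T z (P a) = ((T z).comp R) (T z0 a) := by
      simp only [P, map_sub, ← e, ContinuousLinearMap.comp_apply]
      abel
    rw [e3, ← mul_apply_eq_comp, Ring.inverse_mul_cancel _ hz.2]
    simp [P]
  choose! V hV hV' using key
  obtain ⟨t, ht, htc, hcov⟩ := TopologicalSpace.countable_cover_nhdsWithin hV
  filter_upwards [(MeasureTheory.ae_ball_iff htc).2 fun z hz => hV' z (ht hz)] with a ha z hz
  obtain ⟨z0, hz0, hzz⟩ := mem_iUnion₂.1 (hcov hz)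
  exact ha z0 hz0 z hzz
theorem ae_exists_near {N k : ℕ} {P Q : (Fin N → Fin k → ℝ) → Prop} (hP : ∀ᵐ a, P a)
    (hQ : ∀ᶠ a in 𝓝 (0 : Fin N → Fin k → ℝ), Q a) : ∃ a, P a ∧ Q a := by
  have h1 : ∃ᵐ a : Fin N → Fin k → ℝ, Q a :=
    MeasureTheory.frequently_ae_iff.2 (MeasureTheory.Measure.measure_pos_of_mem_nhds _ hQ).ne'
  exact (hP.and_frequently h1).exists
/-- generic linear combinations have isolated zeros -/
theorem ISO {N k : ℕ} {U : Set (Fin k → ℝ)} (hU : IsOpen U) {u : (Fin k → ℝ) → Fin N → ℝ}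
    (hu : ContDiffOn ℝ ∞ u U) (h0 : ∀ z ∈ U, u z ≠ 0) :
    ∀ᵐ a : Fin N → Fin k → ℝ, ∀ z ∈ U, ∑ j, u z j • a j = 0 →
      ∀ᶠ z' in 𝓝[≠] z, ∑ j, u z' j • a j ≠ 0 := by
  classical
  let Θ : Fin N → (Fin N → Fin k → ℝ) → Fin N → Fin k → ℝ := fun i x =>
    Function.update x i (-(u (x i) i)⁻¹ • ∑ j ∈ Finset.univ.erase i, u (x i) j • x j)
  let s : Fin N → Set (Fin N → Fin k → ℝ) := fun i => {x | x i ∈ U ∧ u (x i) i ≠ 0}
  have hd : ∀ i, ∀ x ∈ s i, DifferentiableAt ℝ (Θ i) x := by
    intro i x hx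
    have a1 : DifferentiableAt ℝ (fun x : Fin N → Fin k → ℝ => u (x i)) x :=
      ((hu.contDiffAt (hU.mem_nhds hx.1)).differentiableAt (by simp)).comp x
        (differentiableAt_apply (𝕜 := ℝ) i x)
    have a2 : ∀ j, DifferentiableAt ℝ (fun x : Fin N → Fin k → ℝ => u (x i) j) x :=
      fun j => differentiableAt_pi.1 a1 j
    refine differentiableAt_pi.2 fun j => ?_
    by_cases hj : j = i
    · subst hj
      simp only [Θ, Function.update_self]
      exact ((a2 j).inv hx.2).neg.smul (DifferentiableAt.fun_sum fun l _ =>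
        (a2 l).smul (differentiableAt_apply (𝕜 := ℝ) l x))
    · simp only [Θ, Function.update_of_ne hj]
      exact differentiableAt_apply (𝕜 := ℝ) j x
  have hnull : ∀ i, ∀ᵐ a : Fin N → Fin k → ℝ,
      a ∉ Θ i '' {x ∈ s i | (fderiv ℝ (Θ i) x).det = 0} := fun i =>
    MeasureTheory.measure_eq_zero_iff_ae_notMem.1
      (MeasureTheory.addHaar_image_eq_zero_of_det_fderivWithin_eq_zero MeasureTheory.volume
        (f' := fun x => fderiv ℝ (Θ i) x)
        (fun x hx => (hd i x hx.1).hasFDerivAt.hasFDerivWithinAt) fun x hx => hx.2)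
  filter_upwards [eventually_all.2 hnull] with a ha z hz e
  obtain ⟨i, hi⟩ := Function.ne_iff.1 (h0 z hz)
  have hi' : u z i ≠ 0 := hi
  have hΘ : ∀ w, u w i ≠ 0 → ∑ j, u w j • a j = 0 → Θ i (Function.update a i w) = a := by
    intro w hw e
    funext j
    by_cases hj : j = i
    · subst hj
      simp only [Θ, Function.update_self]
      rw [← Finset.add_sum_erase _ _ (Finset.mem_univ j)] at e
      rw [Finset.sum_congr rfl (g := fun l => u w l • a l) fun l hl => by
        rw [Function.update_of_ne (Finset.ne_of_mem_erase hl)]]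
      rw [eq_neg_of_add_eq_zero_right e, neg_smul, smul_neg, neg_neg, smul_smul,
        inv_mul_cancel₀ hw, one_smul]
    · simp only [Θ, Function.update_of_ne hj]
  have hx : Function.update a i z ∈ s i := by
    simp only [s, mem_ofPred_eq, Function.update_self]
    exact ⟨hz, hi'⟩
  have hdet : (fderiv ℝ (Θ i) (Function.update a i z)).det ≠ 0 := fun h =>
    ha i ⟨_, ⟨hx, h⟩, hΘ z hi' e⟩
  have hker : LinearMap.ker (fderiv ℝ (Θ i) (Function.update a i z) :
      (Fin N → Fin k → ℝ) →ₗ[ℝ] Fin N → Fin k → ℝ) = ⊥ := by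
    by_contra h
    exact hdet (LinearMap.det_eq_zero_iff_ker_ne_bot.2 h)
  obtain ⟨C, -, hC⟩ := LinearMap.exists_antilipschitzWith _ hker
  have h1 := (hd i _ hx).hasFDerivAt.eventually_ne (c := a) ⟨C, hC⟩
  have h2 : Tendsto (fun w => Function.update a i w) (𝓝[≠] z) (𝓝[≠] (Function.update a i z)) := by
    have hcu : Continuous (fun w : Fin k → ℝ => Function.update a i w) := by fun_prop
    refine tendsto_nhdsWithin_of_tendsto_nhds_of_eventually_within _
      ((hcu.tendsto z).mono_left nhdsWithin_le_nhds) ?_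
    filter_upwards [self_mem_nhdsWithin] with w hw h
    exact hw (Function.update_injective a i h)
  have h3 : ∀ᶠ w in 𝓝 z, u w i ≠ 0 :=
    (continuousAt_pi.1 (hu.contDiffAt (hU.mem_nhds hz)).continuousAt i).eventually_ne hi'
  filter_upwards [h2.eventually h1, nhdsWithin_le_nhds h3] with w hw hw' e'
  exact hw (hΘ w hw' e')

end Vale.Agent.P205
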