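import Vale.Agent.P205.D4

open Set Filter Topology
open scoped ContDiff

noncomputable section
namespace Vale.Agent.P205

/-! H10: parity on compact curves. -/

/-- crossing points of the level `t` -/
def Crs {Z : Type*} [TopologicalSpace Z] (D : Set Z) (η : Z → ℝ) (t : ℝ) : Set Z :=
  {z | z ∈ D ∧ η z = t ∧ z ∈ closure {x ∈ D | t < η x} ∧ z ∈ closure {x ∈ D | η x < t}}

/-- sign change of a real function at a zero -/
def h10cr (g : ℝ → ℝ) (s : ℝ) : Prop := g s = 0 ∧ (∃ᶠ x in 𝓝 s, 0 < g x) ∧ ∃ᶠ x in 𝓝 s, g x < 0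

theorem h10_sign {g : ℝ → ℝ} {a b : ℝ} (hab : a ≤ b) (hg : ContinuousOn g (Icc a b))
    (h0 : ∀ x ∈ Icc a b, g x ≠ 0) : 0 < g a * g b := by
  have ha := h0 a (left_mem_Icc.2 hab)
  have hb := h0 b (right_mem_Icc.2 hab)
  rcases lt_or_gt_of_ne ha with ha | ha <;> rcases lt_or_gt_of_ne hb with hb | hb
  · exact mul_pos_of_neg_of_neg ha hb
  · obtain ⟨x, hx, h⟩ := intermediate_value_Icc hab hg ⟨ha.le, hb.le⟩
    exact (h0 x hx h).elim
  · obtain ⟨x, hx, h⟩ := intermediate_value_Icc' hab hg ⟨hb.le, ha.le⟩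
    exact (h0 x hx h).elim
  · exact mul_pos ha hb

theorem h10_one {g : ℝ → ℝ} {a s b : ℝ} (has : a < s) (hsb : s < b) (hg : ContinuousOn g (Icc a b))
    (hs : g s = 0) (h0 : ∀ x ∈ Icc a b, x ≠ s → g x ≠ 0) : h10cr g s ↔ g a * g b < 0 := by
  have hl : ∀ x ∈ Ico a s, 0 < g a * g x := fun x hx =>
    h10_sign hx.1 (hg.mono (Icc_subset_Icc le_rfl (hx.2.le.trans hsb.le)))
      (fun y hy => h0 y ⟨hy.1, hy.2.trans (hx.2.le.trans hsb.le)⟩ (hy.2.trans_lt hx.2).ne)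
  have hr : ∀ x ∈ Ioc s b, 0 < g x * g b := fun x hx =>
    h10_sign hx.2 (hg.mono (Icc_subset_Icc (has.le.trans hx.1.le) le_rfl))
      (fun y hy => h0 y ⟨(has.le.trans hx.1.le).trans hy.1, hy.2⟩ (hx.1.trans_le hy.1).ne')
  have ha := h0 a ⟨le_rfl, (has.trans hsb).le⟩ has.ne
  have hb := h0 b ⟨(has.trans hsb).le, le_rfl⟩ hsb.ne'
  have fl : ∃ᶠ x in 𝓝 s, 0 < g a * g x := by
    have : ∀ᶠ x in 𝓝[<] s, 0 < g a * g x := by
      filter_upwards [Ico_mem_nhdsLT has] with x hx using hl x hx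
    exact this.frequently.filter_mono nhdsWithin_le_nhds
  have fr : ∃ᶠ x in 𝓝 s, 0 < g x * g b := by
    have : ∀ᶠ x in 𝓝[>] s, 0 < g x * g b := by
      filter_upwards [Ioc_mem_nhdsGT hsb] with x hx using hr x hx
    exact this.frequently.filter_mono nhdsWithin_le_nhds
  constructor
  · rintro ⟨-, h1, h2⟩
    by_contra hc
    have hab : 0 < g a * g b := lt_of_le_of_ne (not_lt.1 hc) (mul_ne_zero ha hb).symm
    have key : ∀ᶠ x in 𝓝 s, 0 ≤ g a * g x := by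
      filter_upwards [Icc_mem_nhds has hsb] with x hx
      rcases lt_trichotomy x s with h | h | h
      · exact (hl x ⟨hx.1, h⟩).le
      · rw [h, hs, mul_zero]
      · have h3 := hr x ⟨h, hx.2⟩
        have h4 : 0 < (g a * g x) * (g b * g b) := by nlinarith [mul_pos hab h3]
        exact (pos_of_mul_pos_of_mul_self h4)
    rcases lt_or_gt_of_ne ha with ha | ha
    · obtain ⟨x, hx1, hx2⟩ := (h1.and_eventually key).exists
      nlinarith
    · obtain ⟨x, hx1, hx2⟩ := (h2.and_eventually key).exists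
      nlinarith
  · intro h
    refine ⟨hs, ?_⟩
    rcases lt_or_gt_of_ne ha with ha | ha
    · have hb' : 0 < g b := by nlinarith
      exact ⟨fr.mono fun x hx => by nlinarith, fl.mono fun x hx => by nlinarith⟩
    · have hb' : g b < 0 := by nlinarith
      exact ⟨fl.mono fun x hx => by nlinarith, fr.mono fun x hx => by nlinarith⟩
where
  pos_of_mul_pos_of_mul_self {x y : ℝ} (h : 0 < x * (y * y)) : 0 ≤ x := by
    by_contra hx
    nlinarith [mul_self_nonneg y, not_le.1 hx]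

open Classical in
theorem h10_line {g : ℝ → ℝ} {a : ℝ} (F : Finset ℝ) : ∀ b : ℝ, a < b → ContinuousOn g (Icc a b) →
    (∀ x ∈ Icc a b, g x = 0 ↔ x ∈ F) → (∀ x ∈ F, x ∈ Ioo a b) →
    (Even (F.filter (h10cr g)).card ↔ 0 < g a * g b) := by
  induction F using Finset.induction_on_max with
  | empty =>
    intro b hab hg h0 _
    simpa using h10_sign hab.le hg (fun x hx h => by simpa using (h0 x hx).1 h)
  | insert s F hF ih =>
    intro b hab hg h0 hI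
    have hs := hI s (Finset.mem_insert_self _ _)
    have hsF : s ∉ F := fun h => lt_irrefl _ (hF s h)
    have hev : ∀ᶠ x in 𝓝[<] s, x ∈ Ioo a s ∧ ∀ y ∈ F, y < x := by
      refine (show ∀ᶠ x in 𝓝[<] s, x ∈ Ioo a s from Ioo_mem_nhdsLT hs.1).and ?_
      rw [eventually_all_finset]
      intro y hy
      exact nhdsWithin_le_nhds (Ioi_mem_nhds (hF y hy))
    obtain ⟨a', ha', ha2⟩ := hev.exists
    have h1 := ih a' ha'.1 (hg.mono (Icc_subset_Icc le_rfl (ha'.2.le.trans hs.2.le)))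
      (fun x hx => by
        rw [h0 x ⟨hx.1, hx.2.trans (ha'.2.le.trans hs.2.le)⟩, Finset.mem_insert]
        exact or_iff_right (hx.2.trans_lt ha'.2).ne)
      (fun x hx => ⟨(hI x (Finset.mem_insert_of_mem hx)).1, ha2 x hx⟩)
    have hne : ∀ x ∈ Icc a' b, x ≠ s → g x ≠ 0 := fun x hx hxs h => by
      have := (h0 x ⟨ha'.1.le.trans hx.1, hx.2⟩).1 h
      rcases Finset.mem_insert.1 this with h | h
      · exact hxs h
      · exact absurd (ha2 x h) (not_lt.2 hx.1)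
    have h2 := h10_one ha'.2 hs.2 (hg.mono (Icc_subset_Icc ha'.1.le le_rfl))
      ((h0 s ⟨hs.1.le, hs.2.le⟩).2 (Finset.mem_insert_self _ _)) hne
    have ga : g a ≠ 0 := fun h => lt_irrefl _ (hI a ((h0 a ⟨le_rfl, hab.le⟩).1 h)).1
    have gb : g b ≠ 0 := hne b ⟨(ha'.2.trans hs.2).le, le_rfl⟩ hs.2.ne'
    have ga' : g a' ≠ 0 := hne a' ⟨le_rfl, (ha'.2.trans hs.2).le⟩ ha'.2.ne
    rw [Finset.filter_insert]
    split_ifs with hc
    · rw [Finset.card_insert_of_notMem (fun h => hsF (Finset.mem_filter.1 h).1), Nat.even_add_one,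
        h1]
      have h3 := h2.1 hc
      rcases lt_or_gt_of_ne ga with ga | ga <;> rcases lt_or_gt_of_ne gb with gb | gb <;>
        rcases lt_or_gt_of_ne ga' with ga' | ga' <;>
        constructor <;> intro h <;> first | nlinarith | (intro h'; nlinarith) | skip
    · rw [h1]
      have h3 : ¬ g a' * g b < 0 := fun h => hc (h2.2 h)
      rcases lt_or_gt_of_ne ga with ga | ga <;> rcases lt_or_gt_of_ne gb with gb | gb <;>
        rcases lt_or_gt_of_ne ga' with ga' | ga' <;>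
        constructor <;> intro h <;> first | nlinarith | skip

section
variable {Z : Type*} [TopologicalSpace Z] {D : Set Z} {c : ℝ → Z}

theorem Arc.h10_mem (h : Arc D c) {s : ℝ} (hs : s ∈ Ioo (-1 : ℝ) 1) : c s ∈ D := by
  have h1 : D ∈ map c (𝓝 s) := by rw [h.2 s hs]; exact self_mem_nhdsWithin
  exact mem_of_mem_nhds (s := c ⁻¹' D) h1

theorem Arc.h10_cont (h : Arc D c) {s : ℝ} (hs : s ∈ Ioo (-1 : ℝ) 1) : ContinuousAt c s := by
  change map c (𝓝 s) ≤ _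
  rw [h.2 s hs]; exact nhdsWithin_le_nhds

theorem Arc.h10_clo (h : Arc D c) {s : ℝ} (hs : s ∈ Ioo (-1 : ℝ) 1) (P : Z → Prop) :
    c s ∈ closure {x ∈ D | P x} ↔ ∃ᶠ x in 𝓝 s, P (c x) := by
  rw [mem_closure_iff_frequently, ← frequently_map (m := c) (P := P), h.2 s hs,
    frequently_nhdsWithin_iff]
  exact frequently_congr (Eventually.of_forall fun x => and_comm)

theorem Arc.h10_fin (h : Arc D c) {η : Z → ℝ} (hf : ∀ t, {z ∈ D | η z = t}.Finite) (t : ℝ) :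
    {s ∈ Ioo (-1 : ℝ) 1 | η (c s) = t}.Finite := by
  refine Finite.of_finite_image (f := c) ((hf t).subset ?_) (h.1.mono fun s hs => hs.1)
  rintro _ ⟨s, hs, rfl⟩
  exact ⟨h.h10_mem hs.1, hs.2⟩

theorem Arc.h10_par (h : Arc D c) {η : Z → ℝ} (hη : Continuous η)
    (hf : ∀ t, {z ∈ D | η z = t}.Finite) {δ : ℝ} (hδ : δ ∈ Ioo (0 : ℝ) 1) {τ : ℝ}
    (h1 : η (c (-δ)) ≠ τ) (h2 : η (c δ) ≠ τ) :
    Even (Crs D η τ ∩ c '' Ioo (-δ) δ).ncard ↔ 0 < (η (c (-δ)) - τ) * (η (c δ) - τ) := by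
  classical
  have hsub : Icc (-δ) δ ⊆ Ioo (-1 : ℝ) 1 := fun x hx => ⟨by linarith [hx.1, hδ.2], by linarith [hx.2, hδ.2]⟩
  have hfin : {s ∈ Icc (-δ) δ | η (c s) = τ}.Finite :=
    (h.h10_fin hf τ).subset fun s hs => ⟨hsub hs.1, hs.2⟩
  have hI : ∀ x ∈ hfin.toFinset, x ∈ Ioo (-δ) δ := by
    intro x hx
    rw [Finite.mem_toFinset] at hx
    refine ⟨lt_of_le_of_ne hx.1.1 ?_, lt_of_le_of_ne hx.1.2 ?_⟩
    · rintro rfl; exact h1 hx.2
    · rintro rfl; exact h2 hx.2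
  have key := h10_line (g := fun s => η (c s) - τ) (a := -δ) hfin.toFinset δ (by linarith [hδ.1])
    (fun x hx => ((hη.continuousAt.comp (h.h10_cont (hsub hx))).sub
      continuousAt_const).continuousWithinAt)
    (fun x hx => by simp only [Finite.mem_toFinset, mem_setOf_eq, sub_eq_zero, hx, true_and]) hI
  rw [← key]
  have hcr : ∀ s ∈ Ioo (-1 : ℝ) 1, c s ∈ Crs D η τ ↔ h10cr (fun s => η (c s) - τ) s := by
    intro s hs
    simp only [Crs, mem_setOf_eq, h10cr, h.h10_clo hs, h.h10_mem hs, true_and, sub_eq_zero,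
      sub_pos, sub_neg]
  have he : Crs D η τ ∩ c '' Ioo (-δ) δ =
      c '' (hfin.toFinset.filter (h10cr fun s => η (c s) - τ) : Finset ℝ) := by
    ext z
    constructor
    · rintro ⟨hz, s, hs, rfl⟩
      have hs' := Ioo_subset_Icc_self hs
      refine ⟨s, ?_, rfl⟩
      rw [Finset.mem_coe, Finset.mem_filter, Finite.mem_toFinset]
      exact ⟨⟨hs', hz.2.1⟩, (hcr s (hsub hs')).1 hz⟩
    · rintro ⟨s, hs, rfl⟩
      rw [Finset.mem_coe, Finset.mem_filter] at hs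
      have h3 := hI s hs.1
      exact ⟨(hcr s (hsub (Ioo_subset_Icc_self h3))).2 hs.2, s, h3, rfl⟩
  rw [he, InjOn.ncard_image, ncard_coe_finset]
  refine h.1.mono fun s hs => ?_
  rw [Finset.mem_coe, Finset.mem_filter] at hs
  exact hsub (Ioo_subset_Icc_self (hI s hs.1))

theorem Arc.h10_loc (h : Arc D c) {η : Z → ℝ} (hη : Continuous η)
    (hf : ∀ t, {z ∈ D | η z = t}.Finite) {U : Set Z} (hU : U ∈ 𝓝 (c 0)) (t : ℝ) :
    ∃ W, W ⊆ U ∧ W ∈ 𝓝[D] (c 0) ∧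
      ∀ᶠ τ in 𝓝 t, (Even (Crs D η τ ∩ W).ncard ↔ Even (Crs D η t ∩ W).ncard) := by
  have h0 : (0 : ℝ) ∈ Ioo (-1 : ℝ) 1 := by constructor <;> norm_num
  obtain ⟨ε, hε, hεU⟩ := Metric.mem_nhds_iff.1 ((h.h10_cont h0).preimage_mem_nhds hU)
  have hfin := h.h10_fin hf t
  have hinf : (Ioo (0 : ℝ) (min ε 1)).Infinite := Ioo_infinite (lt_min hε one_pos)
  obtain ⟨δ, hδ, hδ2⟩ := hinf.exists_notMem_finite (hfin.union (hfin.image (fun s => -s)))
  have hδ1 : δ ∈ Ioo (0 : ℝ) 1 := ⟨hδ.1, hδ.2.trans_le (min_le_right _ _)⟩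
  have hδε : δ < ε := hδ.2.trans_le (min_le_left _ _)
  have h1 : η (c (-δ)) ≠ t := fun he => hδ2 (Or.inr ⟨-δ, ⟨⟨by linarith [hδ1.2], by linarith [hδ1.1]⟩, he⟩, neg_neg _⟩)
  have h2 : η (c δ) ≠ t := fun he => hδ2 (Or.inl ⟨⟨by linarith [hδ1.1], hδ1.2⟩, he⟩)
  refine ⟨c '' Ioo (-δ) δ, ?_, ?_, ?_⟩
  · rintro _ ⟨s, hs, rfl⟩
    apply hεU
    rw [Metric.mem_ball, dist_zero_right, Real.norm_eq_abs, abs_lt]
    exact ⟨by linarith [hs.1], by linarith [hs.2]⟩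
  · rw [← h.2 0 h0]
    exact image_mem_map (Ioo_mem_nhds (by linarith [hδ1.1]) hδ1.1)
  · have hc : Continuous fun τ : ℝ => (η (c (-δ)) - τ) * (η (c δ) - τ) := by fun_prop
    have hne : (η (c (-δ)) - t) * (η (c δ) - t) ≠ 0 :=
      mul_ne_zero (sub_ne_zero.2 h1) (sub_ne_zero.2 h2)
    have hev : ∀ᶠ τ in 𝓝 t, (0 < (η (c (-δ)) - τ) * (η (c δ) - τ) ↔
        0 < (η (c (-δ)) - t) * (η (c δ) - t)) := by
      rcases lt_or_gt_of_ne hne with h3 | h3
      · filter_upwards [hc.continuousAt.eventually_lt continuousAt_const h3] with τ hτ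
        exact iff_of_false (not_lt.2 hτ.le) (not_lt.2 h3.le)
      · filter_upwards [continuousAt_const.eventually_lt hc.continuousAt h3] with τ hτ
        exact iff_of_true hτ h3
    filter_upwards [hev, eventually_ne_nhds h1.symm, eventually_ne_nhds h2.symm] with τ a1 a2 a3
    rw [h.h10_par hη hf hδ1 a2.symm a3.symm, h.h10_par hη hf hδ1 h1 h2, a1]
end

theorem crs_even {Z : Type*} [TopologicalSpace Z] [T2Space Z] {D : Set Z} (hD : IsCompact D)
    (ha : ∀ z ∈ D, ∃ c, Arc D c ∧ c 0 = z) {η : Z → ℝ} (hη : Continuous η)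
    (hf : ∀ t, {z ∈ D | η z = t}.Finite) (t : ℝ) : Even (Crs D η t).ncard := by
  classical
  have hcf : ∀ τ, (Crs D η τ).Finite := fun τ => (hf τ).subset fun z hz => ⟨hz.1, hz.2.1⟩
  have hlc : IsLocallyConstant (fun τ => Even (Crs D η τ).ncard) := by
    rw [IsLocallyConstant.iff_eventually_eq]
    intro t
    obtain ⟨U, hU, hUd⟩ := (hf t).t2_separation
    have hW : ∀ z ∈ {z ∈ D | η z = t}, ∃ W, W ⊆ U z ∧ W ∈ 𝓝[D] z ∧
        ∀ᶠ τ in 𝓝 t, (Even (Crs D η τ ∩ W).ncard ↔ Even (Crs D η t ∩ W).ncard) := by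
      intro z hz
      obtain ⟨c, hc, rfl⟩ := ha z hz.1
      exact hc.h10_loc hη hf ((hU _).2.mem_nhds (hU _).1) t
    choose! W hW1 hW2 hW3 using hW
    have hO : ∀ z ∈ {z ∈ D | η z = t}, ∃ O, IsOpen O ∧ z ∈ O ∧ O ∩ D ⊆ W z := fun z hz =>
      mem_nhdsWithin.1 (hW2 z hz)
    choose! O hO1 hO2 hO3 using hO
    have hK : IsCompact (D \ ⋃ z ∈ {z ∈ D | η z = t}, O z) :=
      hD.diff (isOpen_biUnion hO1)
    have ht : t ∉ η '' (D \ ⋃ z ∈ {z ∈ D | η z = t}, O z) := by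
      rintro ⟨z, hz, hzt⟩
      exact hz.2 (mem_biUnion (show z ∈ {z ∈ D | η z = t} from ⟨hz.1, hzt⟩) (hO2 z ⟨hz.1, hzt⟩))
    have hsum : ∀ τ, τ ∉ η '' (D \ ⋃ z ∈ {z ∈ D | η z = t}, O z) →
        (Crs D η τ).ncard = ∑ z ∈ (hf t).toFinset, (Crs D η τ ∩ W z).ncard := by
      intro τ hτ
      have he : Crs D η τ = ⋃ z ∈ {z ∈ D | η z = t}, (Crs D η τ ∩ W z) := by
        apply Subset.antisymm
        · intro z hz
          by_cases hzo : z ∈ ⋃ z ∈ {z ∈ D | η z = t}, O z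
          · obtain ⟨w, hw, hzw⟩ := mem_iUnion₂.1 hzo
            exact mem_biUnion hw ⟨hz, hO3 w hw ⟨hzw, hz.1⟩⟩
          · exact (hτ ⟨z, ⟨hz.1, hzo⟩, hz.2.1⟩).elim
        · exact iUnion₂_subset fun z _ => inter_subset_left
      rw [← finsum_mem_eq_finite_toFinset_sum _ (hf t), ← (hf t).ncard_biUnion
        (fun z _ => (hcf τ).subset inter_subset_left), ← he]
      intro z hz w hw hzw
      exact (hUd hz hw hzw).mono (inter_subset_right.trans (hW1 z hz))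
        (inter_subset_right.trans (hW1 w hw))
    have hall : ∀ᶠ τ in 𝓝 t, ∀ z ∈ {z ∈ D | η z = t},
        (Even (Crs D η τ ∩ W z).ncard ↔ Even (Crs D η t ∩ W z).ncard) :=
      (eventually_all_finite (hf t)).2 hW3
    filter_upwards [hall, (hK.image hη).isClosed.isOpen_compl.mem_nhds ht] with τ h1 h2
    rw [hsum τ h2, hsum t ht, eq_iff_iff, ← ZMod.natCast_eq_zero_iff_even,
      ← ZMod.natCast_eq_zero_iff_even, Nat.cast_sum, Nat.cast_sum]
    have : ∀ z ∈ (hf t).toFinset, ((Crs D η τ ∩ W z).ncard : ZMod 2) = (Crs D η t ∩ W z).ncard := by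
      intro z hz
      rw [Finite.mem_toFinset] at hz
      have h3 := h1 z hz
      rw [ZMod.natCast_eq_natCast_iff, Nat.ModEq]
      rw [Nat.even_iff, Nat.even_iff] at h3
      omega
    rw [Finset.sum_congr rfl this]
  obtain ⟨T, hT⟩ := (hD.image hη).bddAbove
  have he : Crs D η (T + 1) = ∅ := by
    refine eq_empty_of_forall_notMem fun z hz => ?_
    have := hT ⟨z, hz.1, rfl⟩
    linarith [hz.2.1]
  rw [hlc.apply_eq_of_preconnectedSpace t (T + 1), he]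
  simp

theorem no_single_fixed {Z : Type*} [TopologicalSpace Z] [T2Space Z] {D : Set Z} (hD : IsCompact D)
    (ha : ∀ z ∈ D, ∃ c, Arc D c ∧ c 0 = z) {η : Z → ℝ} (hη : Continuous η)
    (hf : ∀ t, {z ∈ D | η z = t}.Finite) {σ : Z → Z} (hσ : Continuous σ) (hi : ∀ z, σ (σ z) = z)
    (hm : MapsTo σ D D) (ho : ∀ z, η (σ z) = -η z) {z0 : Z} (h0 : z0 ∈ D) (hz0 : σ z0 = z0)
    (hu : ∀ z ∈ D, σ z = z → z = z0) : False := by
  classical
  have hev := crs_even hD ha hη hf 0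
  have hcf : (Crs D η 0).Finite := (hf 0).subset fun z hz => ⟨hz.1, hz.2.1⟩
  have m1 : MapsTo σ {x ∈ D | 0 < η x} {x ∈ D | η x < 0} := fun x hx =>
    ⟨hm hx.1, by rw [ho]; linarith [hx.2]⟩
  have m2 : MapsTo σ {x ∈ D | η x < 0} {x ∈ D | 0 < η x} := fun x hx =>
    ⟨hm hx.1, by rw [ho]; linarith [hx.2]⟩
  have hinv : ∀ z ∈ Crs D η 0, σ z ∈ Crs D η 0 := fun z hz =>
    ⟨hm hz.1, by rw [ho, hz.2.1, neg_zero], m2.closure hσ hz.2.2.2, m1.closure hσ hz.2.2.1⟩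
  have hη0 : η z0 = 0 := by
    have := ho z0
    rw [hz0] at this
    linarith
  have hz : z0 ∈ Crs D η 0 := by
    obtain ⟨c, hc, hc0⟩ := ha z0 h0
    have h00 : (0 : ℝ) ∈ Ioo (-1 : ℝ) 1 := by constructor <;> norm_num
    have hfr : ∃ᶠ s in 𝓝 (0 : ℝ), 0 < η (c s) ∨ η (c s) < 0 := by
      have h1 : ∀ᶠ s in 𝓝[≠] (0 : ℝ), s ∉ {s ∈ Ioo (-1 : ℝ) 1 | η (c s) = 0} := by
        have h3 : IsClosed ({s ∈ Ioo (-1 : ℝ) 1 | η (c s) = 0} \ {0}) :=
          ((hc.h10_fin hf 0).subset diff_subset).isClosed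
        have h4 : ({s ∈ Ioo (-1 : ℝ) 1 | η (c s) = 0} \ {0})ᶜ ∈ 𝓝 (0 : ℝ) :=
          h3.isOpen_compl.mem_nhds (fun h => h.2 rfl)
        filter_upwards [nhdsWithin_le_nhds h4, self_mem_nhdsWithin] with s hs1 hs2 hs3
        exact hs1 ⟨hs3, hs2⟩
      have h2 : ∀ᶠ s in 𝓝[≠] (0 : ℝ), s ∈ Ioo (-1 : ℝ) 1 :=
        nhdsWithin_le_nhds (Ioo_mem_nhds h00.1 h00.2)
      refine ((h1.and h2).frequently.filter_mono nhdsWithin_le_nhds).mono fun s hs => ?_
      have : η (c s) ≠ 0 := fun h => hs.1 ⟨hs.2, h⟩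
      exact (lt_or_gt_of_ne this).symm
    rw [frequently_or_distrib, ← hc.h10_clo h00 (fun x => 0 < η x),
      ← hc.h10_clo h00 (fun x => η x < 0), hc0] at hfr
    refine ⟨h0, hη0, ?_⟩
    rcases hfr with h | h
    · exact ⟨h, hz0 ▸ m1.closure hσ h⟩
    · exact ⟨hz0 ▸ m2.closure hσ h, h⟩
  have hs : ∑ _z ∈ hcf.toFinset.erase z0, (1 : ZMod 2) = 0 := by
    refine Finset.sum_involution (fun z _ => σ z) (fun _ _ => by decide) (fun z hz _ h => ?_)
      (fun z hz => ?_) (fun z _ => hi z)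
    · rw [Finset.mem_erase, Finite.mem_toFinset] at hz
      exact hz.1 (hu z hz.2.1 h)
    · rw [Finset.mem_erase, Finite.mem_toFinset] at hz ⊢
      refine ⟨fun h => hz.1 ?_, hinv z hz.2⟩
      rw [← hi z, h, hz0]
  rw [Finset.sum_const, nsmul_one, ZMod.natCast_eq_zero_iff_even] at hs
  rw [ncard_eq_toFinset_card _ hcf, ← Finset.card_erase_add_one (hcf.mem_toFinset.2 hz),
    Nat.even_add_one] at hev
  exact hev hs

end Vale.Agent.P205
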