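import Vale.Agent.P205.HA
import Vale.Agent.P205.H1

open Set Filter Topology
open scoped ContDiff

noncomputable section
namespace Vale.Agent.P205

/-! H8a: local genericity statements for self-transversality. -/

variable {N : ℕ}

/-- the linear combination with vector coefficients `a` -/
def h8L (a : Fin N → R3) : (Fin N → ℝ) →L[ℝ] R3 :=
  ∑ j, (ContinuousLinearMap.proj j : (Fin N → ℝ) →L[ℝ] ℝ).smulRight (a j)

theorem h8L_apply (a : Fin N → R3) (c : Fin N → ℝ) : h8L a c = ∑ j, c j • a j := by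
  simp [h8L]

theorem h8L_add (a a' : Fin N → R3) (c : Fin N → ℝ) : h8L (a + a') c = h8L a c + h8L a' c := by
  simp [h8L_apply, Finset.sum_add_distrib]

theorem h8L_smul (t : ℝ) (a : Fin N → R3) (c : Fin N → ℝ) : h8L (t • a) c = t • h8L a c := by
  simp only [h8L_apply, Finset.smul_sum, Pi.smul_apply]
  exact Finset.sum_congr rfl fun j _ => smul_comm _ _ _

theorem h8L_cont : Continuous (h8L : (Fin N → R3) → (Fin N → ℝ) →L[ℝ] R3) := by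
  refine continuous_finset_sum _ fun j _ => ?_
  exact (ContinuousLinearMap.smulRightL ℝ (Fin N → ℝ) R3 (ContinuousLinearMap.proj j)).continuous.comp
    (continuous_apply j)

theorem h8L_zero : h8L (0 : Fin N → R3) = 0 := by
  ext c
  simp [h8L_apply]

theorem h8L_tr (c : Fin 3 → Fin N → ℝ) (x : Fin N → ℝ) (k : Fin 3) :
    h8L (fun j k => c k j) x k = c k ⬝ᵥ x := by
  simp [h8L_apply, dotProduct, mul_comm]

theorem h8_GS {Z W : Type} [NormedAddCommGroup Z] [NormedSpace ℝ Z] [FiniteDimensional ℝ Z]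
    [NormedAddCommGroup W] [NormedSpace ℝ W] [FiniteDimensional ℝ W]
    (h : Module.finrank ℝ Z < Module.finrank ℝ W) {U : Set Z} (hU : IsOpen U)
    {T : Z → (Fin N → R3) → W} {b : Z → W} (hl : ∀ z, IsLinearMap ℝ (T z))
    (hT : ∀ a, ∀ z ∈ U, ContDiffAt ℝ ∞ (fun z => T z a) z)
    (hb : ∀ z ∈ U, ContDiffAt ℝ ∞ b z) (hs : ∀ z ∈ U, Function.Surjective (T z)) :
    ∀ᵐ a : Fin N → R3, ∀ z ∈ U, T z a ≠ b z :=
  GS_ae (T := fun z => LinearMap.toContinuousLinearMap ((hl z).mk' (T z))) h hU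
    (contDiffOn_clm_apply.2 fun a z hz => (hT a z hz).contDiffWithinAt)
    (fun z hz => (hb z hz).contDiffWithinAt) hs

theorem h8_dot {Z : Type} [NormedAddCommGroup Z] [NormedSpace ℝ Z] {f g : Z → R3} {z : Z}
    (hf : ContDiffAt ℝ ∞ f z) (hg : ContDiffAt ℝ ∞ g z) : ContDiffAt ℝ ∞ (fun z => f z ⬝ᵥ g z) z :=
  ContDiffAt.sum fun i _ => (contDiffAt_pi.1 hf i).mul (contDiffAt_pi.1 hg i)

/-- the pair of values of `l ∘ L` on the basis -/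
def h8P (l : R3) (L : Mat) : E := (l ⬝ᵥ L (1, 0), l ⬝ᵥ L (0, 1))

theorem h8P_add (l : R3) (L L' : Mat) : h8P l (L + L') = h8P l L + h8P l L' := by
  simp [h8P]

theorem h8P_cd {Z : Type} [NormedAddCommGroup Z] [NormedSpace ℝ Z] {f : Z → R3} {L : Z → Mat} {z : Z}
    (hf : ContDiffAt ℝ ∞ f z) (hL : ContDiffAt ℝ ∞ L z) : ContDiffAt ℝ ∞ (fun z => h8P (f z) (L z)) z :=
  (h8_dot hf (hL.clm_apply contDiffAt_const)).prodMk (h8_dot hf (hL.clm_apply contDiffAt_const))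

theorem h8P_surj {l : R3} (hl : l ≠ 0) (ξ : E) : ∃ L : Mat, h8P l L = ξ := by
  have h : l ⬝ᵥ l ≠ 0 := fun e => hl (dotProduct_self_eq_zero.1 e)
  refine ⟨mat2 ((ξ.1 / (l ⬝ᵥ l)) • l) ((ξ.2 / (l ⬝ᵥ l)) • l), Prod.ext ?_ ?_⟩ <;>
    simp [h8P, mat2_apply] <;> field_simp

theorem h8P_lin (l : R3) (D : E →L[ℝ] Fin N → ℝ) :
    IsLinearMap ℝ (fun a : Fin N → R3 => h8P l ((h8L a).comp D)) :=
  ⟨fun a a' => by simp [h8P, h8L_add], fun t a => by simp [h8P, h8L_smul]⟩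

theorem h8_d {Z W : Type} [NormedAddCommGroup Z] [NormedSpace ℝ Z] [NormedAddCommGroup W]
    [NormedSpace ℝ W] {F : E → W} {x : Z → E} {z : Z} (hF : ContDiffAt ℝ ∞ F (x z))
    (hx : ContDiffAt ℝ ∞ x z) : ContDiffAt ℝ ∞ (fun z => fderiv ℝ F (x z)) z :=
  (hF.fderiv_right (m := ∞) (by simp)).comp z hx

theorem h8_A {U : Set (E × E)} (hU : IsOpen U) {F1 F2 : E → R3} {Ψ1 Ψ2 : E → Fin N → ℝ}
    (h1 : ∀ z ∈ U, ContDiffAt ℝ ∞ F1 z.1) (h2 : ∀ z ∈ U, ContDiffAt ℝ ∞ F2 z.2)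
    (h3 : ∀ z ∈ U, ContDiffAt ℝ ∞ Ψ1 z.1) (h4 : ∀ z ∈ U, ContDiffAt ℝ ∞ Ψ2 z.2)
    (hj : ∀ z ∈ U, ∀ (w : R3) (L L' : Mat), ∃ a, h8L a (Ψ1 z.1) = w ∧ h8L a (Ψ2 z.2) = 0 ∧
      (h8L a).comp (fderiv ℝ Ψ1 z.1) = L ∧ (h8L a).comp (fderiv ℝ Ψ2 z.2) = L') (u v w : R3) :
    ∀ᵐ a : Fin N → R3, ∀ z ∈ U, ∀ t : E, u + t.1 • v + t.2 • w ≠ 0 →
      F1 z.1 + h8L a (Ψ1 z.1) = F2 z.2 + h8L a (Ψ2 z.2) →
      h8P (u + t.1 • v + t.2 • w) (fderiv ℝ F1 z.1 + (h8L a).comp (fderiv ℝ Ψ1 z.1)) = 0 →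
      h8P (u + t.1 • v + t.2 • w) (fderiv ℝ F2 z.2 + (h8L a).comp (fderiv ℝ Ψ2 z.2)) ≠ 0 := by
  let l : (E × E) × E → R3 := fun z => u + z.2.1 • v + z.2.2 • w
  have hl : ContDiff ℝ ∞ l := by simp only [l]; fun_prop
  have x1 : ContDiff ℝ ∞ (fun z : (E × E) × E => z.1.1) := by fun_prop
  have x2 : ContDiff ℝ ∞ (fun z : (E × E) × E => z.1.2) := by fun_prop
  have key := h8_GS (Z := (E × E) × E) (W := R3 × E × E) (N := N) (by simp)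
    (U := {z | z.1 ∈ U ∧ l z ≠ 0})
    ((hU.preimage continuous_fst).inter (isOpen_ne_fun hl.continuous continuous_const))
    (T := fun z a => (h8L a (Ψ1 z.1.1) - h8L a (Ψ2 z.1.2),
      h8P (l z) ((h8L a).comp (fderiv ℝ Ψ1 z.1.1)), h8P (l z) ((h8L a).comp (fderiv ℝ Ψ2 z.1.2))))
    (b := fun z => (F2 z.1.2 - F1 z.1.1, -h8P (l z) (fderiv ℝ F1 z.1.1), -h8P (l z) (fderiv ℝ F2 z.1.2)))
    (fun z => ⟨fun a a' => ?_, fun t a => ?_⟩) (fun a z hz => ?_) (fun z hz => ?_) (fun z hz => ?_)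
  · filter_upwards [key] with a ha z hz t ht e1 e2 e3
    refine ha (z, t) ⟨hz, ht⟩ (Prod.ext ?_ (Prod.ext ?_ ?_))
    · exact sub_eq_sub_iff_add_eq_add.2 (by rw [add_comm, e1])
    · rw [h8P_add] at e2
      exact eq_neg_of_add_eq_zero_right e2
    · rw [h8P_add] at e3
      exact eq_neg_of_add_eq_zero_right e3
  · rw [(h8P_lin _ _).map_add, (h8P_lin _ _).map_add, h8L_add, h8L_add, add_sub_add_comm]
    rfl
  · rw [(h8P_lin _ _).map_smul, (h8P_lin _ _).map_smul, h8L_smul, h8L_smul, ← smul_sub]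
    rfl
  · exact (((h8L a).contDiff.contDiffAt.comp z ((h3 _ hz.1).comp z x1.contDiffAt)).sub
      ((h8L a).contDiff.contDiffAt.comp z ((h4 _ hz.1).comp z x2.contDiffAt))).prodMk
      ((h8P_cd hl.contDiffAt (contDiffAt_const.clm_comp (h8_d (h3 _ hz.1) x1.contDiffAt))).prodMk
        (h8P_cd hl.contDiffAt (contDiffAt_const.clm_comp (h8_d (h4 _ hz.1) x2.contDiffAt))))
  · exact (((h2 _ hz.1).comp z x2.contDiffAt).sub ((h1 _ hz.1).comp z x1.contDiffAt)).prodMk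
      ((h8P_cd hl.contDiffAt (h8_d (h1 _ hz.1) x1.contDiffAt)).neg.prodMk
        (h8P_cd hl.contDiffAt (h8_d (h2 _ hz.1) x2.contDiffAt)).neg)
  · rintro ⟨w0, ξ, ξ'⟩
    obtain ⟨L, hL⟩ := h8P_surj hz.2 ξ
    obtain ⟨L', hL'⟩ := h8P_surj hz.2 ξ'
    obtain ⟨a, a1, a2, a3, a4⟩ := hj _ hz.1 w0 L L'
    exact ⟨a, by simp only [a1, a2, a3, a4, hL, hL', sub_zero]⟩

theorem h8_B {O : Set E} (hO : IsOpen O) {F2 : E → R3} {Ψ2 : E → Fin N → ℝ}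
    (h2 : ∀ y ∈ O, ContDiffAt ℝ ∞ F2 y) (h4 : ∀ y ∈ O, ContDiffAt ℝ ∞ Ψ2 y)
    (hj : ∀ y ∈ O, ∀ (w : R3) (L : Mat), ∃ a, h8L a (Ψ2 y) = w ∧ (h8L a).comp (fderiv ℝ Ψ2 y) = L) :
    ∀ᵐ a : Fin N → R3, ∀ x : E, x ≠ 0 → ∀ y ∈ O, umb x = F2 y + h8L a (Ψ2 y) →
      h8P ![2 * x.2 ^ 2, -(2 * x.2), x.1] (fderiv ℝ F2 y + (h8L a).comp (fderiv ℝ Ψ2 y)) ≠ 0 := by
  let l : E × E → R3 := fun z => ![2 * z.1.2 ^ 2, -(2 * z.1.2), z.1.1]
  have hl : ContDiff ℝ ∞ l := by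
    refine contDiff_pi.2 fun i => ?_
    fin_cases i <;> simp [l] <;> fun_prop
  have key := h8_GS (Z := E × E) (W := R3 × E) (N := N) (by simp)
    (U := {z | z.1 ≠ 0 ∧ z.2 ∈ O})
    ((isOpen_ne_fun continuous_fst continuous_const).inter (hO.preimage continuous_snd))
    (T := fun z a => (h8L a (Ψ2 z.2), h8P (l z) ((h8L a).comp (fderiv ℝ Ψ2 z.2))))
    (b := fun z => (umb z.1 - F2 z.2, -h8P (l z) (fderiv ℝ F2 z.2)))
    (fun z => ⟨fun a a' => ?_, fun t a => ?_⟩) (fun a z hz => ?_) (fun z hz => ?_) (fun z hz => ?_)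
  · filter_upwards [key] with a ha x hx y hy e1 e2
    refine ha (x, y) ⟨hx, hy⟩ (Prod.ext ?_ ?_)
    · exact eq_sub_of_add_eq' e1.symm
    · rw [h8P_add] at e2
      exact eq_neg_of_add_eq_zero_right e2
  · rw [(h8P_lin _ _).map_add, h8L_add]
    rfl
  · rw [(h8P_lin _ _).map_smul, h8L_smul]
    rfl
  · exact ((h8L a).contDiff.contDiffAt.comp z ((h4 _ hz.2).comp z contDiffAt_snd)).prodMk
      (h8P_cd hl.contDiffAt (contDiffAt_const.clm_comp (h8_d (h4 _ hz.2) contDiffAt_snd)))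
  · exact ((umb_contDiff.contDiffAt.comp z contDiffAt_fst).sub ((h2 _ hz.2).comp z contDiffAt_snd)).prodMk
      (h8P_cd hl.contDiffAt (h8_d (h2 _ hz.2) contDiffAt_snd)).neg
  · rintro ⟨w0, ξ⟩
    have hl0 : l z ≠ 0 := by
      intro e
      have a1 := congrFun e 1
      have a2 := congrFun e 2
      simp [l] at a1 a2
      exact hz.1 (Prod.ext a2 a1)
    obtain ⟨L, hL⟩ := h8P_surj hl0 ξ
    obtain ⟨a, a1, a2⟩ := hj _ hz.2 w0 L
    exact ⟨a, by simp only [a1, a2, hL]⟩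

theorem h8_C {O : Set E} (hO : IsOpen O) {F2 : E → R3} {Ψ2 : E → Fin N → ℝ}
    (h2 : ∀ y ∈ O, ContDiffAt ℝ ∞ F2 y) (h4 : ∀ y ∈ O, ContDiffAt ℝ ∞ Ψ2 y)
    (hj : ∀ y ∈ O, ∀ (w : R3) (L : Mat), ∃ a, h8L a (Ψ2 y) = w ∧ (h8L a).comp (fderiv ℝ Ψ2 y) = L) :
    ∀ᵐ a : Fin N → R3, ∀ y ∈ O, F2 y + h8L a (Ψ2 y) ≠ 0 := by
  have key := h8_GS (Z := E) (W := R3) (N := N) (by simp) hO
    (T := fun z a => h8L a (Ψ2 z)) (b := fun z => -F2 z)
    (fun z => ⟨fun a a' => h8L_add _ _ _, fun t a => h8L_smul _ _ _⟩)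
    (fun a z hz => (h8L a).contDiff.contDiffAt.comp z (h4 _ hz)) (fun z hz => (h2 z hz).neg)
    (fun z hz w => let ⟨a, ha⟩ := hj z hz w 0; ⟨a, ha.1⟩)
  filter_upwards [key] with a ha y hy e
  exact ha y hy (eq_neg_of_add_eq_zero_right e)

/-- jets of `χ • φ` from jets of `φ` -/
theorem h8_jet {χ : E → ℝ} {φ : E → Fin N → ℝ} {y : E} (hχ : ContDiffAt ℝ ∞ χ y)
    (hφ : ContDiffAt ℝ ∞ φ y) (h0 : χ y ≠ 0) (w : R3) (L : Mat) :
    ∃ (α : Fin 3 → ℝ) (ξ : Fin 3 → E →L[ℝ] ℝ), ∀ c : Fin 3 → Fin N → ℝ, (∀ k, c k ⬝ᵥ φ y = α k) →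
      (∀ k v, c k ⬝ᵥ fderiv ℝ φ y v = ξ k v) →
      h8L (fun j k => c k j) (χ y • φ y) = w ∧
        (h8L (fun j k => c k j)).comp (fderiv ℝ (fun y => χ y • φ y) y) = L := by
  refine ⟨fun k => w k / χ y, fun k => (χ y)⁻¹ • ((ContinuousLinearMap.proj k).comp L -
    (w k / χ y) • fderiv ℝ χ y), fun c h1 h2 => ⟨?_, ?_⟩⟩
  · funext k
    rw [h8L_tr, dotProduct_smul, h1, smul_eq_mul]
    field_simp
  · rw [fderiv_fun_smul (hχ.differentiableAt (by simp)) (hφ.differentiableAt (by simp))]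
    refine ContinuousLinearMap.ext fun v => funext fun k => ?_
    rw [ContinuousLinearMap.comp_apply, h8L_tr]
    simp only [ContinuousLinearMap.add_apply, ContinuousLinearMap.smul_apply,
      ContinuousLinearMap.smulRight_apply, dotProduct_add, dotProduct_smul, h1, h2, smul_eq_mul,
      ContinuousLinearMap.sub_apply, ContinuousLinearMap.comp_apply, ContinuousLinearMap.proj_apply]
    field_simp
    ring

theorem h8_norm {l : R3} (hl : l ≠ 0) : ∃ (k : Fin 3) (s : ℝ) (t : E), s • l =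
    Pi.single k 1 + t.1 • (Pi.single (k + 1) 1 : R3) + t.2 • (Pi.single (k + 2) 1 : R3) ∧ s ≠ 0 := by
  obtain ⟨k, hk⟩ := Function.ne_iff.1 hl
  have hk' : l k ≠ 0 := hk
  refine ⟨k, (l k)⁻¹, ((l k)⁻¹ * l (k + 1), (l k)⁻¹ * l (k + 2)), ?_, inv_ne_zero hk'⟩
  funext i
  fin_cases k <;> fin_cases i <;> simp at hk' ⊢ <;> exact inv_mul_cancel₀ hk'

theorem h8_par {l : R3} {x : E} (hl : l ≠ 0) (h : ∀ v, l ⬝ᵥ fderiv ℝ umb x v = 0) :
    ∃ s : ℝ, (![2 * x.2 ^ 2, -(2 * x.2), x.1] : R3) = s • l := by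
  have a1 := h (1, 0)
  have a2 := h (0, 1)
  simp [fderiv_umb, mat2_apply, dotProduct, Fin.sum_univ_three] at a1 a2
  have hll : l ⬝ᵥ l ≠ 0 := fun e => hl (dotProduct_self_eq_zero.1 e)
  simp only [dotProduct, Fin.sum_univ_three] at hll
  refine ⟨(2 * x.2 ^ 2 * l 0 - 2 * x.2 * l 1 + x.1 * l 2) / (l 0 * l 0 + l 1 * l 1 + l 2 * l 2), ?_⟩
  funext i
  fin_cases i <;> simp <;> rw [div_mul_eq_mul_div, eq_div_iff hll]
  · linear_combination (2 * x.2 * l 1 - x.1 * l 2) * a1 + (x.2 * l 2) * a2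
  · linear_combination (-2 * x.2 * l 0) * a1 + (-(l 2)) * a2
  · linear_combination (x.1 * l 0) * a1 - (x.2 * l 0 - l 1) * a2

end Vale.Agent.P205
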