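import Vale.Agent.P205.HA
import Vale.Agent.P205.H1
import Vale.Agent.P205.H8a

open Set Filter Topology
open scoped ContDiff

noncomputable section
namespace Vale.Agent.P205

set_option linter.unusedSectionVars false

variable {M : Type*} [TopologicalSpace M] [T2Space M] [CompactSpace M] {A : Atl M}

theorem h8_ann {g : M → R3} (hg : A.Sm g) {l : R3} {r : Fin A.n} {y : E} (hy : y ∈ (A.ch r).target)
    (h : ∀ v, l ⬝ᵥ A.dA g ((A.ch r).symm y) v = 0) (v : E) : l ⬝ᵥ fderiv ℝ (A.loc g r) y v = 0 := by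
  rw [← Atl.rep1_dA hg hy]
  exact h _

theorem h8P_zero {l n : R3} {s : ℝ} (hn : n = s • l) {L : Mat} (h : ∀ v, l ⬝ᵥ L v = 0) : h8P n L = 0 := by
  simp [h8P, hn, h]

/-- generic perturbations are transverse away from the zero set of `χ` -/
theorem h8_gen {N : ℕ} {φ : M → Fin N → ℝ} (hφ : A.TP φ) {f : M → R3} (hf : A.Sm f) {χ : M → ℝ}
    (hχ : A.Sm χ) {F : (Fin N → R3) → M → R3} (hF : ∀ a m, F a m = f m + h8L a (χ m • φ m))
    (hd : ∀ a m, A.dA (F a) m = A.dA f m + (h8L a).comp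
      (fderiv ℝ (A.loc (fun m => χ m • φ m) (A.idx m)) (A.ch (A.idx m) m))) :
    ∀ᵐ a : Fin N → R3, (∀ x y, χ x ≠ 0 → χ y ≠ 0 → x ≠ y → F a x = F a y → ∀ l : R3,
      (∀ v, l ⬝ᵥ A.dA (F a) x v = 0) → (∀ v, l ⬝ᵥ A.dA (F a) y v = 0) → l = 0) ∧
      (∀ x : E, x ≠ 0 → ∀ y, χ y ≠ 0 → umb x = F a y → ∀ l : R3,
        (∀ v, l ⬝ᵥ fderiv ℝ umb x v = 0) → (∀ v, l ⬝ᵥ A.dA (F a) y v = 0) → l = 0) ∧
      ∀ y, χ y ≠ 0 → F a y ≠ 0 := by
  let ψ : M → Fin N → ℝ := fun m => χ m • φ m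
  have hψ : A.Sm ψ := hχ.smul hφ.sm
  let O : Fin A.n → Set E := fun r => (A.ch r).target ∩ (A.ch r).symm ⁻¹' {m | χ m ≠ 0}
  have hO : ∀ r, IsOpen (O r) := fun r =>
    (A.ch r).isOpen_inter_preimage_symm (isOpen_ne_fun hχ.continuous continuous_const)
  let U : Fin A.n → Fin A.n → Set (E × E) := fun r s =>
    ((A.ch r).symm.prod (A.ch s).symm).source ∩ ((A.ch r).symm.prod (A.ch s).symm) ⁻¹'
      {w | χ w.1 ≠ 0 ∧ χ w.2 ≠ 0 ∧ w.1 ≠ w.2}
  have hU : ∀ r s, IsOpen (U r s) := fun r s => OpenPartialHomeomorph.isOpen_inter_preimage _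
    ((isOpen_ne_fun (hχ.continuous.comp continuous_fst) continuous_const).inter
      ((isOpen_ne_fun (hχ.continuous.comp continuous_snd) continuous_const).inter
      (isOpen_ne_fun continuous_fst continuous_snd)))
  have hj1 : ∀ r, ∀ y ∈ O r, ∀ (w : R3) (L : Mat), ∃ a, h8L a (A.loc ψ r y) = w ∧
      (h8L a).comp (fderiv ℝ (A.loc ψ r) y) = L := by
    intro r y hy w L
    obtain ⟨α, ξ, H⟩ := h8_jet (hχ.contDiffAt hy.1) (hφ.sm.contDiffAt hy.1) hy.2 w L
    choose c hc using fun k => hφ.jet r y hy.1 (α k) (ξ k)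
    exact ⟨_, H c (fun k => (hc k).1) fun k => (hc k).2⟩
  have hj2 : ∀ r s, ∀ z ∈ U r s, ∀ (w : R3) (L L' : Mat), ∃ a, h8L a (A.loc ψ r z.1) = w ∧
      h8L a (A.loc ψ s z.2) = 0 ∧ (h8L a).comp (fderiv ℝ (A.loc ψ r) z.1) = L ∧
      (h8L a).comp (fderiv ℝ (A.loc ψ s) z.2) = L' := by
    intro r s z hz w L L'
    obtain ⟨α, ξ, H⟩ := h8_jet (hχ.contDiffAt hz.1.1) (hφ.sm.contDiffAt hz.1.1) hz.2.1 w L
    obtain ⟨α', ξ', H'⟩ := h8_jet (hχ.contDiffAt hz.1.2) (hφ.sm.contDiffAt hz.1.2) hz.2.2.1 0 L'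
    choose c hc using fun k => hφ.two r s z.1 hz.1.1 z.2 hz.1.2 hz.2.2.2 (α k) (α' k) (ξ k) (ξ' k)
    have a1 := H c (fun k => (hc k).1) fun k => (hc k).2.2.1
    have a2 := H' c (fun k => (hc k).2.1) fun k => (hc k).2.2.2
    exact ⟨_, a1.1, a2.1, a1.2, a2.2⟩
  have kA := fun (i : Fin A.n × Fin A.n × Fin 3) => h8_A (hU i.1 i.2.1)
    (fun z hz => hf.contDiffAt hz.1.1) (fun z hz => hf.contDiffAt hz.1.2)
    (fun z hz => hψ.contDiffAt hz.1.1) (fun z hz => hψ.contDiffAt hz.1.2) (hj2 i.1 i.2.1)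
    (Pi.single i.2.2 1) (Pi.single (i.2.2 + 1) 1) (Pi.single (i.2.2 + 2) 1)
  have kB := fun r => h8_B (hO r) (fun z hz => hf.contDiffAt hz.1) (fun z hz => hψ.contDiffAt hz.1) (hj1 r)
  have kC := fun r => h8_C (hO r) (fun z hz => hf.contDiffAt hz.1) (fun z hz => hψ.contDiffAt hz.1) (hj1 r)
  have li : ∀ m, (A.ch (A.idx m)).symm (A.ch (A.idx m) m) = m := fun m => (A.ch _).left_inv (A.mem m)
  have mt : ∀ m, A.ch (A.idx m) m ∈ (A.ch (A.idx m)).target := fun m => (A.ch _).map_source (A.mem m)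
  have mO : ∀ m, χ m ≠ 0 → A.ch (A.idx m) m ∈ O (A.idx m) := fun m hm =>
    ⟨mt m, by rw [mem_preimage, li]; exact hm⟩
  have hFl : ∀ a m, A.loc f (A.idx m) (A.ch (A.idx m) m) + h8L a (A.loc ψ (A.idx m) (A.ch (A.idx m) m))
      = F a m := fun a m => by simp only [Atl.loc, li, hF, ψ]
  filter_upwards [eventually_all.2 kA, eventually_all.2 kB, eventually_all.2 kC] with a hA hB hC
  refine ⟨fun x y hx hy hxy e l l1 l2 => ?_, fun x hx y hy e l l1 l2 => ?_, fun y hy => ?_⟩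
  · by_contra hl
    obtain ⟨k, s, t, hst, hs⟩ := h8_norm hl
    rw [hd] at l1 l2
    refine hA (A.idx x, A.idx y, k) (A.ch (A.idx x) x, A.ch (A.idx y) y) ⟨⟨mt x, mt y⟩, ?_⟩ t
      (hst ▸ smul_ne_zero hs hl) (by rw [hFl, hFl, e]) (h8P_zero hst.symm l1) (h8P_zero hst.symm l2)
    show χ ((A.ch _).symm (A.ch _ x)) ≠ 0 ∧ χ ((A.ch _).symm (A.ch _ y)) ≠ 0 ∧
      (A.ch _).symm (A.ch _ x) ≠ (A.ch _).symm (A.ch _ y)
    rw [li, li]
    exact ⟨hx, hy, hxy⟩
  · by_contra hl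
    obtain ⟨s, hs⟩ := h8_par hl l1
    rw [hd] at l2
    exact hB (A.idx y) x hx _ (mO y hy) (by rw [hFl, e]) (h8P_zero hs l2)
  · rw [← hFl]
    exact hC (A.idx y) _ (mO y hy)

theorem h8_model {x y : E} (hx : x ≠ 0) (hxy : x ≠ y) (e : umb x = umb y) {l : R3}
    (l1 : ∀ v, l ⬝ᵥ fderiv ℝ umb x v = 0) (l2 : ∀ v, l ⬝ᵥ fderiv ℝ umb y v = 0) : l = 0 := by
  obtain ⟨a1, a2, a3⟩ := (umb_eq e).resolve_left hxy
  have ht : x.2 ≠ 0 := fun e' => hx (Prod.ext a1 e')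
  have b1 := l1 (1, 0)
  have b2 := l1 (0, 1)
  have b3 := l2 (1, 0)
  simp [fderiv_umb, mat2_apply, dotProduct, Fin.sum_univ_three, a1, a2, a3, ht] at b1 b2 b3
  have c1 : l 1 = 0 := by
    refine mul_right_cancel₀ ht ?_
    linarith
  funext i
  fin_cases i
  · simpa [c1] using b1
  · exact c1
  · exact b2

/-! H8: generic self-transversality. -/
theorem exists_trv {N : ℕ} {φ : M → Fin N → ℝ} (hφ : A.TP φ) {M0 : Set M} {p : M} {f : M → R3}
    (h : Umb A M0 p f) : ∃ f', Umb A M0 p f' ∧ Trv A M0 p f' := by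
  set q := A.idx p
  set c := A.ch q p with hc0
  have l1 := (A.ch q).left_inv (A.mem p)
  have m1 := (A.ch q).map_source (A.mem p)
  obtain ⟨ε, hε, hb⟩ := Metric.mem_nhds_iff.1
    (h.germ.eventuallyEq_nhds.and ((A.ch q).open_target.mem_nhds m1))
  have hb' : ∀ y ∈ Metric.ball c ε, (A.loc f q =ᶠ[𝓝 y] fun y => umb (y - c)) ∧
      y ∈ (A.ch q).target := fun y hy => hb hy
  let β : ContDiffBump c := ⟨ε / 4, ε / 2, by positivity, by linarith⟩
  have hKb : Metric.closedBall c (ε / 2) ⊆ Metric.ball c ε := Metric.closedBall_subset_ball (by linarith)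
  have hβ0 : ∀ y ∈ (A.ch q).target, y ∉ Metric.closedBall c (ε / 2) → β y = 0 := fun y _ hy =>
    β.zero_of_le_dist (not_le.1 (fun h => hy (Metric.mem_closedBall.2 h))).le
  let χ : M → ℝ := fun m => 1 - A.extF q β m
  have hχ : A.Sm χ := (Atl.Sm.const 1).sub (Atl.Sm_extF q (isCompact_closedBall _ _)
    (fun y hy => (hb' y (hKb hy)).2) (fun y _ => β.contDiff.contDiffAt) hβ0)
  have hχ0 : ∀ m, 0 ≤ χ m := by
    intro m
    simp only [χ, Atl.extF]
    split_ifs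
    · exact sub_nonneg.2 β.le_one
    · simp
  have hZ : ∀ m, χ m = 0 → ∃ y ∈ Metric.ball c ε, (A.ch q).symm y = m := by
    intro m hm
    by_contra hh
    have := Atl.extF_eq_zero q hβ0 (m := m) fun ⟨y, hy, e⟩ => hh ⟨y, hKb hy, e⟩
    simp [χ, this] at hm
  let V : Set M := (A.ch q).source ∩ A.ch q ⁻¹' Metric.ball c (ε / 4)
  have hV : IsOpen V := (A.ch q).isOpen_inter_preimage Metric.isOpen_ball
  have hpV : p ∈ V := ⟨A.mem p, Metric.mem_ball_self (by positivity)⟩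
  have hχV : ∀ m ∈ V, χ m = 0 := fun m hm => by
    simp only [χ, Atl.extF, hm.1, if_true]
    rw [β.one_of_mem_closedBall (Metric.ball_subset_closedBall hm.2), sub_self]
  let ψ : M → Fin N → ℝ := fun m => χ m • φ m
  have hψ : A.Sm ψ := hχ.smul hφ.sm
  let F : (Fin N → R3) → M → R3 := fun a m => f m + h8L a (ψ m)
  have hFs : ∀ a, A.Sm (F a) := fun a => h.sm.add (hψ.comp fun m => (h8L a).contDiff.contDiffAt)
  have hd : ∀ a r, ∀ y ∈ (A.ch r).target, fderiv ℝ (A.loc (F a) r) y =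
      fderiv ℝ (A.loc f r) y + (h8L a).comp (fderiv ℝ (A.loc ψ r) y) := fun a r y hy =>
    (((h.sm.contDiffAt hy).differentiableAt (by simp)).hasFDerivAt.add ((h8L a).hasFDerivAt.comp y
      ((hψ.contDiffAt hy).differentiableAt (by simp)).hasFDerivAt)).fderiv
  have hFV : ∀ a, ∀ m ∈ V, F a =ᶠ[𝓝 m] f := fun a m hm => by
    filter_upwards [hV.mem_nhds hm] with z hz
    simp [F, ψ, hχV z hz]
  have hF0 : ∀ a m, χ m = 0 → F a m = f m := fun a m hm => by simp [F, ψ, hm]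
  have hfy : ∀ y ∈ Metric.ball c ε, f ((A.ch q).symm y) = umb (y - c) := fun y hy =>
    (hb' y hy).1.self_of_nhds
  have hd0 : ∀ a, ∀ y ∈ Metric.ball c ε, χ ((A.ch q).symm y) = 0 →
      fderiv ℝ (A.loc (F a) q) y = fderiv ℝ umb (y - c) := by
    intro a y hy h0
    have hyt := (hb' y hy).2
    have e1 : fderiv ℝ (A.loc χ q) y = 0 := by
      refine IsLocalMin.fderiv_eq_zero (Eventually.of_forall fun z => ?_)
      simp only [Atl.loc, h0]
      exact hχ0 _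
    have e2 : fderiv ℝ (A.loc ψ q) y = 0 := by
      have := fderiv_fun_smul ((hχ.contDiffAt hyt).differentiableAt (by simp))
        ((hφ.sm.contDiffAt hyt).differentiableAt (by simp))
      rw [e1, show A.loc χ q y = 0 from h0] at this
      refine Eq.trans this ?_
      ext v
      all_goals simp
    rw [hd a q y hyt, e2, (hb' y hy).1.fderiv_eq, ContinuousLinearMap.comp_zero, add_zero]
    exact fderiv_comp_sub c
  have hst := Atl.inj_stable (A := A) (C := M0 \ V) (h.clo.1.isCompact.diff hV) hFs (fun r => ?_)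
    (fun m hm => ?_)
  rotate_left
  · have a1 : ContinuousOn (fun y => fderiv ℝ (A.loc f r) y) (A.ch r).target := fun y hy =>
      ((h.sm.contDiffAt hy).fderiv_right (m := 0) (by simp)).continuousAt.continuousWithinAt
    have a2 : ContinuousOn (fun y => fderiv ℝ (A.loc ψ r) y) (A.ch r).target := fun y hy =>
      ((hψ.contDiffAt hy).fderiv_right (m := 0) (by simp)).continuousAt.continuousWithinAt
    refine ContinuousOn.congr ?_ fun z hz => hd z.1 r z.2 hz.2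
    exact (a1.comp continuousOn_snd fun z hz => hz.2).add
      ((h8L_cont.comp continuous_fst).continuousOn.clm_comp (a2.comp continuousOn_snd fun z hz => hz.2))
  · have : F 0 = f := funext fun m => by simp [F, h8L_zero]
    rw [this]
    exact h.inj m hm.1 fun e => hm.2 (e ▸ hpV)
  obtain ⟨a, ⟨hA, hB, hC⟩, hS⟩ := ae_exists_near (h8_gen hφ h.sm hχ (F := F) (fun a m => rfl)
    fun a m => hd a _ _ ((A.ch _).map_source (A.mem m))) hst
  have hyc : ∀ y, (A.ch q).symm y ≠ p → y - c ≠ 0 := fun y hy e => hy (by rw [sub_eq_zero.1 e, l1])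
  have hB' : ∀ x y, x ≠ p → χ x = 0 → χ y ≠ 0 → F a x = F a y → ∀ l : R3,
      (∀ v, l ⬝ᵥ A.dA (F a) x v = 0) → (∀ v, l ⬝ᵥ A.dA (F a) y v = 0) → l = 0 := by
    intro x y hxp hx hy e l l1 l2
    obtain ⟨x', hx', rfl⟩ := hZ x hx
    refine hB (x' - c) (hyc _ hxp) y hy (by rw [← e, hF0 a _ hx, hfy _ hx']) l (fun v => ?_) l2
    rw [← hd0 a x' hx' hx]
    exact h8_ann (hFs a) (hb' _ hx').2 l1 v
  refine ⟨F a, ⟨h.clo, h.mem, hFs a, fun m hm hp => ?_, ?_⟩,
    ⟨fun x _ y _ hxp hyp hxy e l l1 l2 => ?_, fun y _ hyp e => ?_⟩⟩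
  · by_cases hmV : m ∈ V
    · rw [(Atl.dA_congr (hFV a m hmV)).self_of_nhds]
      exact h.inj m hm hp
    · exact hS m ⟨hm, hmV⟩
  · exact (Atl.ha_loc_congr (A.mem p) (hFV a p hpV)).trans h.germ
  · by_cases hx : χ x = 0
    · by_cases hy : χ y = 0
      · obtain ⟨x', hx', rfl⟩ := hZ x hx
        obtain ⟨y', hy', rfl⟩ := hZ y hy
        rw [hF0 a _ hx, hF0 a _ hy, hfy _ hx', hfy _ hy'] at e
        refine h8_model (hyc _ hxp) (fun e' => hxy (by rw [sub_left_injective e'])) e (fun v => ?_)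
          fun v => ?_
        · rw [← hd0 a x' hx' hx]
          exact h8_ann (hFs a) (hb' _ hx').2 l1 v
        · rw [← hd0 a y' hy' hy]
          exact h8_ann (hFs a) (hb' _ hy').2 l2 v
      · exact hB' x y hxp hx hy e l l1 l2
    · by_cases hy : χ y = 0
      · exact hB' y x hyp hy hx e.symm l l2 l1
      · exact hA x y hx hy hxy e l l1 l2
  · have hp0 : F a p = umb 0 := by
      rw [hF0 a p (hχV p hpV), ← l1, hfy _ (Metric.mem_ball_self hε), sub_self]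
    by_cases hy : χ y = 0
    · obtain ⟨y', hy', rfl⟩ := hZ y hy
      rw [hp0, hF0 a _ hy, hfy _ hy'] at e
      rcases umb_eq e with e' | e'
      · exact hyc _ hyp e'
      · exact hyc _ hyp (Prod.ext e'.1 (neg_eq_zero.1 e'.2.2.symm))
    · refine hC y hy (e.trans (hp0.trans ?_))
      funext i
      fin_cases i <;> simp [umb]

end Vale.Agent.P205
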