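import Vale.Agent.P205.HA

open Set Filter Topology
open scoped ContDiff

noncomputable section
namespace Vale.Agent.P205

set_option linter.unusedSectionVars false

variable {M : Type*} [TopologicalSpace M] [T2Space M] [CompactSpace M] {A : Atl M}

theorem h9_map {Z : Type*} [TopologicalSpace Z] {D : Set Z} {c : ℝ → Z} {r : Z → ℝ} {s : ℝ}
    (hc : ContinuousAt c s) (hD : ∀ᶠ t in 𝓝 s, c t ∈ D) (hr : ContinuousAt r (c s)) (hrs : r (c s) = s)
    (hcr : ∀ᶠ x in 𝓝 (c s), x ∈ D → c (r x) = x) : map c (𝓝 s) = 𝓝[D] (c s) := by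
  refine le_antisymm (tendsto_nhdsWithin_iff.2 ⟨hc, hD⟩) ?_
  have h1 : (c ∘ r) =ᶠ[𝓝[D] (c s)] id := by
    filter_upwards [nhdsWithin_le_nhds hcr, self_mem_nhdsWithin] with x hx hx'
    exact hx hx'
  have h2 : Tendsto r (𝓝[D] (c s)) (𝓝 s) := by
    have := hr.tendsto.mono_left (nhdsWithin_le_nhds (s := D))
    rwa [hrs] at this
  calc 𝓝[D] (c s) = map (c ∘ r) (𝓝[D] (c s)) := by rw [map_congr h1, map_id]
    _ = map c (map r (𝓝[D] (c s))) := by rw [map_map]
    _ ≤ map c (𝓝 s) := map_mono h2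

theorem h9_equiv {T : E × E →L[ℝ] R3 × ℝ} (h : Function.Injective T) :
    ∃ e : (E × E) ≃L[ℝ] R3 × ℝ, (e : E × E →L[ℝ] R3 × ℝ) = T := by
  have hs : Function.Surjective (T : E × E →ₗ[ℝ] R3 × ℝ) :=
    (LinearMap.injective_iff_surjective_of_finrank_eq_finrank (by simp)).1 h
  exact ⟨(LinearEquiv.ofBijective (T : E × E →ₗ[ℝ] R3 × ℝ) ⟨h, hs⟩).toContinuousLinearEquiv,
    ContinuousLinearMap.ext fun v => rfl⟩

/-! H9: the double point set is a compact curve. -/
theorem ARC {U : Set (E × E)} (hU : IsOpen U) {g : E × E → R3} (hg : ContDiffOn ℝ ∞ g U) {z : E × E}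
    (hz : z ∈ U) (h0 : g z = 0) (hs : Function.Surjective (fderiv ℝ g z)) :
    ∃ c : ℝ → E × E, ContDiffOn ℝ ∞ c (Ioo (-1) 1) ∧ c 0 = z ∧
      (∀ s ∈ Ioo (-1 : ℝ) 1, c s ∈ U ∧ deriv c s ≠ 0) ∧ Arc {x ∈ U | g x = 0} c := by
  have hk : Module.finrank ℝ (LinearMap.ker (fderiv ℝ g z : E × E →ₗ[ℝ] R3)) = 1 := by
    have h1 := LinearMap.finrank_range_add_finrank_ker (fderiv ℝ g z : E × E →ₗ[ℝ] R3)
    rw [LinearMap.range_eq_top.2 hs] at h1
    simp at h1
    omega
  obtain ⟨k, hk0, hk1⟩ := finrank_eq_one_iff'.1 hk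
  obtain ⟨l, hl⟩ := SeparatingDual.exists_eq_one (R := ℝ) (V := E × E) (x := (k : E × E))
    (fun h => hk0 (Subtype.ext h))
  let Φ : E × E → R3 × ℝ := fun x => (g x, l x)
  have hΦ : ∀ x ∈ U, ContDiffAt ℝ ∞ Φ x := fun x hx =>
    (hg.contDiffAt (hU.mem_nhds hx)).prodMk l.contDiff.contDiffAt
  have hd : ∀ x ∈ U, HasFDerivAt Φ (fderiv ℝ Φ x) x := fun x hx =>
    ((hΦ x hx).differentiableAt (by simp)).hasFDerivAt
  have hiz : Function.Injective (fderiv ℝ Φ z) := by
    have e : fderiv ℝ Φ z = (fderiv ℝ g z).prod l :=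
      (((hg.contDiffAt (hU.mem_nhds hz)).differentiableAt (by simp)).hasFDerivAt.prodMk
        l.hasFDerivAt).fderiv
    rw [e, injective_iff_map_eq_zero]
    intro v hv
    have a1 : fderiv ℝ g z v = 0 := congrArg Prod.fst hv
    have a2 : l v = 0 := congrArg Prod.snd hv
    obtain ⟨t, ht⟩ := hk1 ⟨v, a1⟩
    have a3 : t • (k : E × E) = v := congrArg Subtype.val ht
    rw [← a3, map_smul, hl, smul_eq_mul, mul_one] at a2
    rw [← a3, a2, zero_smul]
  let W : Set (E × E) := U ∩ (fun x => fderiv ℝ Φ x) ⁻¹' {T | Function.Injective T}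
  have hW : IsOpen W := by
    refine ContinuousOn.isOpen_inter_preimage ?_ hU ContinuousLinearMap.isOpen_injective
    exact fun x hx => ((hΦ x hx).fderiv_right (m := 0) (by simp)).continuousAt.continuousWithinAt
  obtain ⟨e0, he0⟩ := h9_equiv hiz
  let e1 := (hΦ z hz).toOpenPartialHomeomorph Φ (f' := e0) (by rw [he0]; exact hd z hz) (by simp)
  let e := e1.restrOpen W hW
  have he : ∀ x, e x = Φ x := fun x => rfl
  have hze : z ∈ e.source := ⟨(hΦ z hz).mem_toOpenPartialHomeomorph_source _ _, hz, hiz⟩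
  have hsW : e.source ⊆ W := inter_subset_right
  let a : ℝ → R3 × ℝ := fun t => (0, l z + t)
  have ha : Continuous a := by fun_prop
  have ha0 : a 0 = e z := by simp [a, he, Φ, h0]
  obtain ⟨ε, hε, hεt⟩ := Metric.mem_nhds_iff.1
    (ha.continuousAt.preimage_mem_nhds (e.open_target.mem_nhds (by rw [ha0]; exact e.map_source hze)))
  have hmem : ∀ s ∈ Ioo (-1 : ℝ) 1, a (ε * s) ∈ e.target := fun s hs => hεt (by
    rw [mem_ball_zero_iff, norm_mul, Real.norm_eq_abs, Real.norm_eq_abs, abs_of_pos hε]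
    exact mul_lt_of_lt_one_right hε (abs_lt.2 hs))
  let c : ℝ → E × E := fun s => e.symm (a (ε * s))
  have hcs : ∀ s ∈ Ioo (-1 : ℝ) 1, c s ∈ e.source := fun s hs => e.map_target (hmem s hs)
  have hΦc : ∀ s ∈ Ioo (-1 : ℝ) 1, Φ (c s) = a (ε * s) := fun s hs => e.right_inv (hmem s hs)
  have hl' : ∀ s ∈ Ioo (-1 : ℝ) 1, l (c s) = l z + ε * s := fun s hs => congrArg Prod.snd (hΦc s hs)
  have hg' : ∀ s ∈ Ioo (-1 : ℝ) 1, g (c s) = 0 := fun s hs => congrArg Prod.fst (hΦc s hs)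
  have hcd : ∀ s ∈ Ioo (-1 : ℝ) 1, ContDiffAt ℝ ∞ c s := by
    intro s hs
    obtain ⟨e2, he2⟩ := h9_equiv (hsW (hcs s hs)).2
    have h1 : ContDiffAt ℝ ∞ e.symm (a (ε * s)) :=
      e.contDiffAt_symm (f₀' := e2) (hmem s hs) (by rw [he2]; exact hd _ (hsW (hcs s hs)).1)
        (hΦ _ (hsW (hcs s hs)).1)
    have h2 : ContDiffAt ℝ ∞ (fun s => a (ε * s)) s := by
      simp only [a]; fun_prop
    exact h1.comp s h2
  refine ⟨c, fun s hs => (hcd s hs).contDiffWithinAt, ?_, fun s hs => ⟨(hsW (hcs s hs)).1, ?_⟩,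
    ?_, fun s hs => ?_⟩
  · simp only [c, mul_zero, ha0]
    exact e.left_inv hze
  · intro hh
    have h1 : HasDerivAt (fun s => l (c s)) (l (deriv c s)) s :=
      l.hasFDerivAt.comp_hasDerivAt s ((hcd s hs).differentiableAt (by simp)).hasDerivAt
    have h2 : HasDerivAt (fun s => l (c s)) ε s := by
      have h3 : HasDerivAt (fun s => l z + ε * s) ε s := by
        simpa using ((hasDerivAt_id s).const_mul ε).const_add (l z)
      refine h3.congr_of_eventuallyEq ?_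
      filter_upwards [isOpen_Ioo.mem_nhds hs] with t ht
      exact hl' t ht
    have := h1.unique h2
    rw [hh, map_zero] at this
    exact hε.ne this
  · intro s hs t ht e'
    have h1 := hl' s hs
    rw [e', hl' t ht] at h1
    exact (mul_left_cancel₀ hε.ne' (add_left_cancel h1)).symm
  · refine h9_map (r := fun x => (l x - l z) / ε) (hcd s hs).continuousAt ?_ (by fun_prop) ?_ ?_
    · filter_upwards [isOpen_Ioo.mem_nhds hs] with t ht
      exact ⟨(hsW (hcs t ht)).1, hg' t ht⟩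
    · simp only [hl' s hs]
      field_simp
      ring
    · filter_upwards [e.open_source.mem_nhds (hcs s hs)] with x hx hxD
      have : a (ε * ((l x - l z) / ε)) = e x := by
        simp only [a, he, Φ, hxD.2]
        congr 1
        field_simp
        ring
      simp only [c, this]
      exact e.left_inv hx

theorem h9_locinj {F : E → R3} {y : E} (hF : ContDiffAt ℝ ∞ F y)
    (hi : Function.Injective (fderiv ℝ F y)) :
    ∀ᶠ w : E × E in 𝓝 (y, y), F w.1 = F w.2 → w.1 = w.2 := by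
  obtain ⟨C, hC0, hC⟩ := LinearMap.exists_antilipschitzWith (fderiv ℝ F y : E →ₗ[ℝ] R3)
    (LinearMap.ker_eq_bot.2 hi)
  have hs := (hF.hasStrictFDerivAt (by simp)).isLittleO
  have hC' : (0 : ℝ) < C := hC0
  filter_upwards [hs.def (c := 1 / (2 * C)) (by positivity)] with w hw e
  rw [e, sub_self, zero_sub, norm_neg] at hw
  have h1 : ‖w.1 - w.2‖ ≤ C * ‖fderiv ℝ F y (w.1 - w.2)‖ := by
    have := hC.le_mul_dist (w.1 - w.2) 0
    simpa using this
  have h2 : C * ‖fderiv ℝ F y (w.1 - w.2)‖ ≤ 1 / 2 * ‖w.1 - w.2‖ := by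
    calc _ ≤ C * (1 / (2 * C) * ‖w.1 - w.2‖) := by gcongr
      _ = _ := by field_simp
  have h3 : ‖w.1 - w.2‖ = 0 := by
    have := norm_nonneg (w.1 - w.2)
    linarith
  exact sub_eq_zero.1 (norm_eq_zero.1 h3)

theorem dbl_compact {M0 : Set M} {p : M} {f : M → R3} (h : Umb A M0 p f) :
    IsCompact (Dbl M0 p f) := by
  refine IsClosed.isCompact (isOpen_compl_iff.1 (isOpen_iff_mem_nhds.2 fun z hz => ?_))
  have hfc := h.sm.continuous
  have hC : IsClosed {z : M × M | z.1 ∈ M0 ∧ z.2 ∈ M0 ∧ f z.1 = f z.2} :=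
    (h.clo.1.preimage continuous_fst).inter ((h.clo.1.preimage continuous_snd).inter
      (isClosed_eq (hfc.comp continuous_fst) (hfc.comp continuous_snd)))
  by_cases hzC : z ∈ {z : M × M | z.1 ∈ M0 ∧ z.2 ∈ M0 ∧ f z.1 = f z.2}
  · obtain ⟨m, m'⟩ := z
    have h1 : m = m' ∧ m ≠ p := by
      by_contra hh
      refine hz ⟨hzC.1, hzC.2.1, hzC.2.2, ?_⟩
      by_cases e : m = m'
      · right
        by_contra e'
        exact hh ⟨e, e'⟩
      · exact Or.inl e
    obtain ⟨rfl, hp⟩ := h1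
    set q := A.idx m
    have hq := A.mem m
    have h2 := h9_locinj (h.sm.contDiffAt ((A.ch q).map_source hq)) (h.inj m hzC.1 hp)
    have h3 : ContinuousAt (fun w : M × M => (A.ch q w.1, A.ch q w.2)) (m, m) :=
      (ContinuousAt.comp (g := A.ch q) ((A.ch q).continuousAt hq) continuousAt_fst).prodMk
        (ContinuousAt.comp (g := A.ch q) ((A.ch q).continuousAt hq) continuousAt_snd)
    have h4 : ∀ᶠ w : M × M in 𝓝 (m, m), w.1 ∈ (A.ch q).source ∧ w.1 ≠ p :=
      continuousAt_fst.eventually (p := fun x => x ∈ (A.ch q).source ∧ x ≠ p)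
        (Eventually.and ((A.ch q).open_source.mem_nhds hq) (isOpen_ne.mem_nhds hp))
    have h5 : ∀ᶠ w : M × M in 𝓝 (m, m), w.2 ∈ (A.ch q).source :=
      continuousAt_snd.eventually (p := fun x => x ∈ (A.ch q).source)
        ((A.ch q).open_source.mem_nhds hq)
    filter_upwards [h3.eventually h2, h4, h5] with w a1 a2 a3 hw
    simp only [Atl.loc, (A.ch q).left_inv a2.1, (A.ch q).left_inv a3] at a1
    rcases hw.2.2.2 with e | e
    · exact e ((A.ch q).injOn a2.1 a3 (a1 hw.2.2.1))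
    · exact a2.2 e
  · filter_upwards [hC.isOpen_compl.mem_nhds hzC] with w hw hw'
    exact hw ⟨hw'.1, hw'.2.1, hw'.2.2.1⟩

theorem h9_transfer {D : Set (M × M)} {q1 q2 : Fin A.n} {c : ℝ → E × E} {D' : Set (E × E)}
    (hc : Arc D' c) (t1 : ∀ s ∈ Ioo (-1 : ℝ) 1, (c s).1 ∈ (A.ch q1).target)
    (t2 : ∀ s ∈ Ioo (-1 : ℝ) 1, (c s).2 ∈ (A.ch q2).target)
    (hD : ∀ s ∈ Ioo (-1 : ℝ) 1, ∀ᶠ w in 𝓝 (c s),
      w ∈ D' ↔ ((A.ch q1).symm w.1, (A.ch q2).symm w.2) ∈ D) :
    Arc D (fun s => ((A.ch q1).symm (c s).1, (A.ch q2).symm (c s).2)) := by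
  let ψ := (A.ch q1).symm.prod (A.ch q2).symm
  have hψ : ∀ s ∈ Ioo (-1 : ℝ) 1, c s ∈ ψ.source := fun s hs => ⟨t1 s hs, t2 s hs⟩
  refine ⟨fun s hs t ht e => hc.1 hs ht (ψ.injOn (hψ s hs) (hψ t ht) e), fun s hs => ?_⟩
  have h1 : 𝓝[D'] (c s) = 𝓝[ψ ⁻¹' D] (c s) :=
    nhdsWithin_eq_iff_eventuallyEq.2 (eventuallyEq_set.2 (hD s hs))
  calc map (ψ ∘ c) (𝓝 s) = map ψ (map c (𝓝 s)) := by rw [map_map]
    _ = 𝓝[D] (ψ (c s)) := by rw [hc.2 s hs, h1, ψ.map_nhdsWithin_preimage_eq (hψ s hs)]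

theorem h9_surj {L L' : Mat} (h : ∀ l : R3, (∀ v, l ⬝ᵥ L v = 0) → (∀ v, l ⬝ᵥ L' v = 0) → l = 0) :
    Function.Surjective (L.comp (ContinuousLinearMap.fst ℝ E E) - L'.comp (ContinuousLinearMap.snd ℝ E E)) := by
  set T := L.comp (ContinuousLinearMap.fst ℝ E E) - L'.comp (ContinuousLinearMap.snd ℝ E E)
  by_contra hs
  have h1 : LinearMap.range (T : E × E →ₗ[ℝ] R3) < ⊤ :=
    lt_top_iff_ne_top.2 fun e => hs (LinearMap.range_eq_top.1 e)
  obtain ⟨φ, hφ0, hφ⟩ := Submodule.exists_le_ker_of_lt_top _ h1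
  have hl : ∀ w : R3, (fun i => φ (Pi.single i 1)) ⬝ᵥ w = φ w := by
    intro w
    conv_rhs => rw [pi_eq_sum_univ' w, map_sum]
    simp only [dotProduct, map_smul, smul_eq_mul]
    refine Finset.sum_congr rfl fun i _ => ?_
    rw [mul_comm]
  have h2 := h (fun i => φ (Pi.single i 1)) (fun v => by
    rw [hl]
    have := hφ (LinearMap.mem_range_self _ (v, 0))
    simpa [T] using this) (fun v => by
    rw [hl]
    have := hφ (LinearMap.mem_range_self _ (0, v))
    simpa [T] using this)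
  refine hφ0 (LinearMap.ext fun w => ?_)
  rw [← hl, h2]
  simp

theorem h9_arc1 {M0 : Set M} {p : M} {f : M → R3} (h : Umb A M0 p f) (ht : Trv A M0 p f)
    {x y : M} (hz : (x, y) ∈ Dbl M0 p f) (hxy : x ≠ y) : Nonempty (DArc A (Dbl M0 p f) (x, y)) := by
  have hx : x ∈ M0 := hz.1
  have hy : y ∈ M0 := hz.2.1
  have hf : f x = f y := hz.2.2.1
  have hxp : x ≠ p := fun e => ht.sep y hy (fun e' => hxy (e.trans e'.symm)) (by rw [← e, hf])
  have hyp : y ≠ p := fun e => ht.sep x hx hxp (by rw [← e, hf])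
  set q1 := A.idx x
  set q2 := A.idx y
  let ψ := (A.ch q1).symm.prod (A.ch q2).symm
  let U : Set (E × E) := ψ.source ∩ ψ ⁻¹' {w | w.1 ∈ M0 ∧ w.2 ∈ M0 ∧ w.1 ≠ w.2}
  have hU : IsOpen U := ψ.isOpen_inter_preimage
    ((h.clo.2.preimage continuous_fst).inter ((h.clo.2.preimage continuous_snd).inter
      (isOpen_ne_fun continuous_fst continuous_snd)))
  let g : E × E → R3 := fun w => A.loc f q1 w.1 - A.loc f q2 w.2
  have hg : ContDiffOn ℝ ∞ g U := fun w hw =>
    (((h.sm.contDiffAt hw.1.1).comp w contDiffAt_fst).sub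
      ((h.sm.contDiffAt hw.1.2).comp w contDiffAt_snd)).contDiffWithinAt
  have l1 := (A.ch q1).left_inv (A.mem x)
  have l2 := (A.ch q2).left_inv (A.mem y)
  have m1 := (A.ch q1).map_source (A.mem x)
  have m2 := (A.ch q2).map_source (A.mem y)
  have hzU : (A.ch q1 x, A.ch q2 y) ∈ U := by
    refine ⟨⟨m1, m2⟩, ?_⟩
    show (A.ch q1).symm (A.ch q1 x) ∈ M0 ∧ (A.ch q2).symm (A.ch q2 y) ∈ M0 ∧
      (A.ch q1).symm (A.ch q1 x) ≠ (A.ch q2).symm (A.ch q2 y)
    rw [l1, l2]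
    exact ⟨hx, hy, hxy⟩
  have hg0 : g (A.ch q1 x, A.ch q2 y) = 0 := by
    simp only [g, Atl.loc, l1, l2, hf, sub_self]
  have hgs : Function.Surjective (fderiv ℝ g (A.ch q1 x, A.ch q2 y)) := by
    have d1 := ((h.sm.contDiffAt m1).differentiableAt (by simp)).hasFDerivAt
    have d2 := ((h.sm.contDiffAt m2).differentiableAt (by simp)).hasFDerivAt
    have d3 := (HasFDerivAt.comp (f := Prod.fst) (A.ch q1 x, A.ch q2 y) d1 hasFDerivAt_fst).sub
      (HasFDerivAt.comp (f := Prod.snd) (A.ch q1 x, A.ch q2 y) d2 hasFDerivAt_snd)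
    have e : fderiv ℝ g (A.ch q1 x, A.ch q2 y) = _ := d3.fderiv
    rw [e]
    exact h9_surj (ht.tr x hx y hy hxp hyp hxy hf)
  obtain ⟨c, hc, hc0, hcU, harc⟩ := ARC hU hg hzU hg0 hgs
  refine ⟨⟨q1, q2, fun s => (c s).1, fun s => (c s).2, hc.fst, hc.snd, fun s hs => (hcU s hs).1.1.1,
    fun s hs => (hcU s hs).1.1.2, ?_, ?_, fun s hs => Or.inl ⟨(hcU s hs).1.2.2.2, ?_⟩⟩⟩
  · refine h9_transfer harc (fun s hs => (hcU s hs).1.1.1) (fun s hs => (hcU s hs).1.1.2)
      fun s hs => ?_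
    filter_upwards [hU.mem_nhds (hcU s hs).1] with w hw
    exact ⟨fun a => ⟨hw.2.1, hw.2.2.1, sub_eq_zero.1 a.2, Or.inl hw.2.2.2⟩,
      fun a => ⟨hw, sub_eq_zero.2 a.2.2.1⟩⟩
  · simp only [hc0, l1, l2]
  · have d := ((hc.contDiffAt (isOpen_Ioo.mem_nhds hs)).differentiableAt (by simp)).hasDerivAt
    have e1 : deriv (fun s => (c s).1) s = (deriv c s).1 :=
      ((ContinuousLinearMap.fst ℝ E E).hasFDerivAt.comp_hasDerivAt s d).deriv
    have e2 : deriv (fun s => (c s).2) s = (deriv c s).2 :=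
      ((ContinuousLinearMap.snd ℝ E E).hasFDerivAt.comp_hasDerivAt s d).deriv
    rw [e1, e2]
    by_contra hh
    rw [not_or, not_not, not_not] at hh
    exact (hcU s hs).2 (Prod.ext hh.1 hh.2)

theorem h9_arc2 {M0 : Set M} {p : M} {f : M → R3} (h : Umb A M0 p f) :
    Nonempty (DArc A (Dbl M0 p f) (p, p)) := by
  set q := A.idx p
  set c0 := A.ch q p with hc0
  have l1 := (A.ch q).left_inv (A.mem p)
  have m1 := (A.ch q).map_source (A.mem p)
  have hM : ∀ᶠ y in 𝓝 c0, (A.ch q).symm y ∈ M0 :=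
    ((A.ch q).continuousAt_symm m1).eventually (h.clo.2.mem_nhds (by rw [l1]; exact h.mem))
  obtain ⟨ε, hε, hb⟩ := Metric.mem_nhds_iff.1
    (h.germ.and (hM.and ((A.ch q).open_target.mem_nhds m1)))
  have hb' : ∀ y ∈ Metric.ball c0 ε, A.loc f q y = umb (y - c0) ∧ (A.ch q).symm y ∈ M0 ∧
      y ∈ (A.ch q).target := fun y hy => hb hy
  let c : ℝ → E × E := fun s => (c0 + (0, ε * s), c0 + (0, -(ε * s)))
  have hm : ∀ t : ℝ, |t| < ε → c0 + (0, t) ∈ Metric.ball c0 ε := fun t ht => by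
    rw [mem_ball_iff_norm, add_sub_cancel_left]
    simpa using ht
  have hs' : ∀ s ∈ Ioo (-1 : ℝ) 1, |ε * s| < ε := fun s hs => by
    rw [abs_mul, abs_of_pos hε]
    exact mul_lt_of_lt_one_right hε (abs_lt.2 hs)
  have b1 : ∀ s ∈ Ioo (-1 : ℝ) 1, (c s).1 ∈ Metric.ball c0 ε := fun s hs => hm _ (hs' s hs)
  have b2 : ∀ s ∈ Ioo (-1 : ℝ) 1, (c s).2 ∈ Metric.ball c0 ε := fun s hs =>
    hm _ (by rw [abs_neg]; exact hs' s hs)
  let D' : Set (E × E) := {w | (w.1 - c0).1 = 0 ∧ (w.2 - c0).1 = 0 ∧ (w.2 - c0).2 = -(w.1 - c0).2}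
  have harc : Arc D' c := by
    refine ⟨fun s _ t _ e => ?_, fun s hs => ?_⟩
    · have := congrArg (fun w : E × E => w.1.2) e
      simp only [c, Prod.snd_add, add_right_inj] at this
      exact mul_left_cancel₀ hε.ne' this
    · refine h9_map (r := fun w => (w.1 - c0).2 / ε) (by simp only [c]; fun_prop)
        (Eventually.of_forall fun t => by simp [D', c]) (by fun_prop) ?_
        (Eventually.of_forall fun w hw => ?_)
      · simp only [c, add_sub_cancel_left]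
        field_simp
      · obtain ⟨a1, a2, a3⟩ := hw
        have e : ε * ((w.1 - c0).2 / ε) = (w.1 - c0).2 := by field_simp
        simp only [c, e]
        simp only [Prod.fst_sub, Prod.snd_sub] at a1 a2 a3
        refine Prod.ext (Prod.ext ?_ ?_) (Prod.ext ?_ ?_) <;>
          simp only [Prod.fst_add, Prod.snd_add, Prod.snd_sub] <;> linarith
  have d1 : ∀ s, HasDerivAt (fun s : ℝ => (c s).1) (0, ε) s := fun s => by
    have := ((hasDerivAt_const s (0 : ℝ)).prodMk ((hasDerivAt_id s).const_mul ε)).const_add c0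
    rw [mul_one] at this
    exact this
  have d2 : ∀ s, HasDerivAt (fun s : ℝ => (c s).2) (0, -ε) s := fun s => by
    have := ((hasDerivAt_const s (0 : ℝ)).prodMk ((hasDerivAt_id s).const_mul ε).neg).const_add c0
    rw [mul_one] at this
    exact this
  refine ⟨⟨q, q, fun s => (c s).1, fun s => (c s).2, by simp only [c]; fun_prop,
    by simp only [c]; fun_prop, fun s hs => (hb' _ (b1 s hs)).2.2,
    fun s hs => (hb' _ (b2 s hs)).2.2, ?_, ?_, fun s hs => ?_⟩⟩
  · refine h9_transfer harc (fun s hs => (hb' _ (b1 s hs)).2.2) (fun s hs => (hb' _ (b2 s hs)).2.2)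
      fun s hs => ?_
    filter_upwards [(Metric.isOpen_ball.prod Metric.isOpen_ball).mem_nhds
      (show c s ∈ Metric.ball c0 ε ×ˢ Metric.ball c0 ε from ⟨b1 s hs, b2 s hs⟩)] with w hw
    obtain ⟨u1, u2, u3⟩ := hb' _ hw.1
    obtain ⟨v1, v2, v3⟩ := hb' _ hw.2
    constructor
    · rintro ⟨a1, a2, a3⟩
      refine ⟨u2, v2, ?_, ?_⟩
      · show A.loc f q w.1 = A.loc f q w.2
        rw [u1, v1]
        simp only [umb, a1, a2, a3, zero_mul, even_two.neg_pow]
      · by_cases e : w.1 = w.2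
        · right
          rw [← e] at a3
          have : w.1 = c0 := sub_eq_zero.1 (Prod.ext a1 (by simp only [Prod.snd_zero]; linarith))
          show (A.ch q).symm w.1 = p
          rw [this]; exact l1
        · exact Or.inl fun e' => e ((A.ch q).symm.injOn u3 v3 e')
    · rintro ⟨-, -, a1, a2⟩
      have a3 : A.loc f q w.1 = A.loc f q w.2 := a1
      rw [u1, v1] at a3
      rcases umb_eq a3 with e | e
      · have e' : w.1 = w.2 := sub_left_injective e
        rcases a2 with a2 | a2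
        · exact absurd (congrArg (A.ch q).symm e') a2
        · have : w.1 = c0 := by
            rw [← (A.ch q).right_inv u3]
            exact congrArg (A.ch q) a2
          simp [D', ← e', this]
      · exact e
  · simp only [c, mul_zero, neg_zero, Prod.mk_zero_zero, add_zero, hc0, l1]
  · rw [(d1 s).deriv, (d2 s).deriv]
    by_cases e : s = 0
    · refine Or.inr ⟨rfl, by simp [c, e], fun e' => ?_⟩
      have := congrArg Prod.snd e'
      simp only at this
      linarith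
    · refine Or.inl ⟨fun e' => ?_, Or.inl fun e' => hε.ne' (congrArg Prod.snd e')⟩
      have h1 := (A.ch q).symm.injOn (hb' _ (b1 s hs)).2.2 (hb' _ (b2 s hs)).2.2 e'
      have := congrArg Prod.snd h1
      simp only [c, Prod.snd_add, add_right_inj] at this
      exact e (by nlinarith [mul_pos hε hε, mul_left_cancel₀ hε.ne' (show ε * s = ε * 0 by linarith)])

theorem dbl_arc {M0 : Set M} {p : M} {f : M → R3} (h : Umb A M0 p f) (ht : Trv A M0 p f) :
    ∀ z ∈ Dbl M0 p f, Nonempty (DArc A (Dbl M0 p f) z) := by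
  rintro ⟨x, y⟩ hz
  by_cases e : x = y
  · subst e
    have : x = p := hz.2.2.2.resolve_left (fun h => h rfl)
    subst this
    exact h9_arc2 h
  · exact h9_arc1 h ht hz e

end Vale.Agent.P205
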