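import Vale.Agent.P205.H1
import Vale.Agent.P205.H8
import Vale.Agent.P205.H9
import Vale.Agent.P205.H10

open Set Filter Topology
open scoped ContDiff

noncomputable section
namespace Vale.Agent.P205

variable {M : Type*} [TopologicalSpace M] [T2Space M] [CompactSpace M] {A : Atl M}

/-! H11: a single umbrella is impossible. -/

theorem h11_rolle {g g' : ℝ → ℝ} {s : ℝ} (hd : ∀ᶠ x in 𝓝 s, HasDerivAt g (g' x) x)
    (h : g' s = 0 → ∀ᶠ x in 𝓝[≠] s, g' x ≠ 0) : ∀ᶠ x in 𝓝[≠] s, g x ≠ g s := by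
  by_cases h0 : g' s = 0
  swap
  · exact hd.self_of_nhds.eventually_ne h0
  have h1 := eventually_nhdsWithin_iff.1 (h h0)
  obtain ⟨ε, hε, hb⟩ := Metric.eventually_nhds_iff_ball.1 (hd.and h1)
  rw [Real.ball_eq_Ioo] at hb
  have hm : Ioo (s - ε) (s + ε) ∈ 𝓝 s := Ioo_mem_nhds (by linarith) (by linarith)
  filter_upwards [nhdsWithin_le_nhds hm, self_mem_nhdsWithin] with x hx hxs he
  rcases lt_or_gt_of_ne (show x ≠ s from hxs) with h2 | h2
  · have hs : Icc x s ⊆ Ioo (s - ε) (s + ε) := fun y hy =>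
      ⟨hx.1.trans_le hy.1, by linarith [hy.2]⟩
    obtain ⟨y, hy, hy0⟩ := exists_hasDerivAt_eq_zero h2
      (fun y hy => (hb y (hs hy)).1.continuousAt.continuousWithinAt) he
      (fun y hy => (hb y (hs (Ioo_subset_Icc_self hy))).1)
    exact (hb y (hs (Ioo_subset_Icc_self hy))).2 hy.2.ne hy0
  · have hs : Icc s x ⊆ Ioo (s - ε) (s + ε) := fun y hy =>
      ⟨by linarith [hy.1], hy.2.trans_lt hx.2⟩
    obtain ⟨y, hy, hy0⟩ := exists_hasDerivAt_eq_zero h2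
      (fun y hy => (hb y (hs hy)).1.continuousAt.continuousWithinAt) he.symm
      (fun y hy => (hb y (hs (Ioo_subset_Icc_self hy))).1)
    exact (hb y (hs (Ioo_subset_Icc_self hy))).2 hy.1.ne' hy0

/-- generic linear heights along a regular curve have isolated level points -/
theorem h11_curve {N : ℕ} {Γ : ℝ → Fin N → ℝ} (hΓ : ContDiffOn ℝ ∞ Γ (Ioo (-1) 1))
    (h0 : ∀ s ∈ Ioo (-1 : ℝ) 1, deriv Γ s ≠ 0) :
    ∀ᵐ a : Fin N → Fin 1 → ℝ, ∀ s ∈ Ioo (-1 : ℝ) 1,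
      ∀ᶠ x in 𝓝[≠] s, ∑ j, Γ x j * a j 0 ≠ ∑ j, Γ s j * a j 0 := by
  have hU : IsOpen {z : Fin 1 → ℝ | z 0 ∈ Ioo (-1 : ℝ) 1} :=
    isOpen_Ioo.preimage (continuous_apply 0)
  have hd : ContDiffOn ℝ ∞ (deriv Γ) (Ioo (-1) 1) := hΓ.deriv_of_isOpen isOpen_Ioo (by simp)
  have hu : ContDiffOn ℝ ∞ (fun z : Fin 1 → ℝ => deriv Γ (z 0)) {z | z 0 ∈ Ioo (-1 : ℝ) 1} :=
    hd.comp (contDiff_apply ℝ ℝ (0 : Fin 1)).contDiffOn (fun z hz => hz)
  filter_upwards [ISO hU hu (fun z hz => h0 _ hz)] with a ha s hs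
  refine h11_rolle (g := fun x => ∑ j, Γ x j * a j 0) (g' := fun x => ∑ j, deriv Γ x j * a j 0) ?_ ?_
  · filter_upwards [Ioo_mem_nhds hs.1 hs.2] with x hx
    have h1 : HasDerivAt Γ (deriv Γ x) x :=
      ((hΓ.contDiffAt (Ioo_mem_nhds hx.1 hx.2)).differentiableAt (by simp)).hasDerivAt
    exact HasDerivAt.fun_sum fun j _ => (hasDerivAt_pi.1 h1 j).mul_const _
  · intro h
    have key : ∀ x : ℝ, (∑ j, deriv Γ x j • a j = 0) ↔ ∑ j, deriv Γ x j * a j 0 = 0 := by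
      intro x
      constructor
      · intro h
        simpa [Finset.sum_apply] using congrFun h 0
      · intro h
        funext i
        rw [Subsingleton.elim i 0]
        simpa [Finset.sum_apply] using h
    have h1 := ha (fun _ => s) hs ((key s).2 h)
    have ht : Tendsto (fun x : ℝ => fun _ : Fin 1 => x) (𝓝[≠] s) (𝓝[≠] (fun _ => s)) := by
      refine tendsto_nhdsWithin_iff.2 ⟨?_, ?_⟩
      · exact ((continuous_pi fun _ => continuous_id).tendsto s).mono_left nhdsWithin_le_nhds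
      · filter_upwards [self_mem_nhdsWithin] with x hx h
        exact hx (congrFun h 0)
    filter_upwards [ht.eventually h1] with x hx h
    exact hx ((key x).2 h)

theorem h11_dual {v : E} (hv : v ≠ 0) : ∃ ξ : E →L[ℝ] ℝ, ξ v ≠ 0 := by
  by_cases h1 : v.1 = 0
  · refine ⟨ContinuousLinearMap.snd ℝ ℝ ℝ, fun h2 => hv (Prod.ext h1 h2)⟩
  · exact ⟨ContinuousLinearMap.fst ℝ ℝ ℝ, h1⟩

theorem h11_arc {N : ℕ} {φ : M → Fin N → ℝ} (hφ : A.TP φ) {D : Set (M × M)} {z : M × M}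
    (R : DArc A D z) : ∀ᵐ a : Fin N → Fin 1 → ℝ, ∀ s ∈ Ioo (-1 : ℝ) 1, ∀ᶠ x in 𝓝[≠] s,
      ∑ j, (A.loc φ R.q1 (R.c1 x) - A.loc φ R.q2 (R.c2 x)) j * a j 0 ≠
        ∑ j, (A.loc φ R.q1 (R.c1 s) - A.loc φ R.q2 (R.c2 s)) j * a j 0 := by
  refine h11_curve (Γ := fun x => A.loc φ R.q1 (R.c1 x) - A.loc φ R.q2 (R.c2 x))
    (((hφ.sm R.q1).comp R.s1 R.t1).sub ((hφ.sm R.q2).comp R.s2 R.t2)) ?_
  intro s hs
  have hn := Ioo_mem_nhds hs.1 hs.2
  have d1 : HasDerivAt R.c1 (deriv R.c1 s) s :=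
    ((R.s1.contDiffAt hn).differentiableAt (by simp)).hasDerivAt
  have d2 : HasDerivAt R.c2 (deriv R.c2 s) s :=
    ((R.s2.contDiffAt hn).differentiableAt (by simp)).hasDerivAt
  have f1 := ((hφ.sm.contDiffAt (R.t1 s hs)).differentiableAt (by simp)).hasFDerivAt
  have f2 := ((hφ.sm.contDiffAt (R.t2 s hs)).differentiableAt (by simp)).hasFDerivAt
  have hd : HasDerivAt (fun x => A.loc φ R.q1 (R.c1 x) - A.loc φ R.q2 (R.c2 x))
      (fderiv ℝ (A.loc φ R.q1) (R.c1 s) (deriv R.c1 s) -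
        fderiv ℝ (A.loc φ R.q2) (R.c2 s) (deriv R.c2 s)) s :=
    (f1.comp_hasDerivAt s d1).sub (f2.comp_hasDerivAt s d2)
  rw [hd.deriv, sub_ne_zero]
  intro he
  rcases R.reg s hs with ⟨hne, h | h⟩ | ⟨hq, hc, h⟩
  · obtain ⟨ξ, hξ⟩ := h11_dual h
    obtain ⟨c, -, -, h1, h2⟩ := hφ.two R.q1 R.q2 _ (R.t1 s hs) _ (R.t2 s hs) hne 0 0 ξ 0
    apply hξ
    rw [← h1, he, h2]; rfl
  · obtain ⟨ξ, hξ⟩ := h11_dual h
    obtain ⟨c, -, -, h1, h2⟩ := hφ.two R.q1 R.q2 _ (R.t1 s hs) _ (R.t2 s hs) hne 0 0 0 ξ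
    apply hξ
    rw [← h2, ← he, h1]; rfl
  · rw [← hq, ← hc] at he
    exact h (hφ.one R.q1 _ (R.t1 s hs) he)

theorem exists_height {N : ℕ} {φ : M → Fin N → ℝ} (hφ : A.TP φ) {D : Set (M × M)} (hD : IsCompact D)
    (ha : ∀ z ∈ D, Nonempty (DArc A D z)) :
    ∃ h : M → ℝ, Continuous h ∧ ∀ t, {z ∈ D | h z.1 - h z.2 = t}.Finite := by
  classical
  have R : ∀ z ∈ D, DArc A D z := fun z hz => (ha z hz).some
  let c : ∀ z ∈ D, ℝ → M × M := fun z hz s =>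
    ((A.ch (R z hz).q1).symm ((R z hz).c1 s), (A.ch (R z hz).q2).symm ((R z hz).c2 s))
  have hc : ∀ z hz, Arc D (c z hz) := fun z hz => (R z hz).arc
  have h00 : (0 : ℝ) ∈ Ioo (-1 : ℝ) 1 := by constructor <;> norm_num
  obtain ⟨T, hT⟩ := hD.elim_nhdsWithin_subcover' (fun z hz => c z hz '' Ioo (-1) 1) (fun z hz => by
    have h1 : c z hz 0 = z := (R z hz).at0
    have h2 := (hc z hz).2 0 h00
    rw [h1] at h2
    rw [← h2]
    exact image_mem_map (Ioo_mem_nhds h00.1 h00.2))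
  have hae := (eventually_all_finset T).2 (fun z _ => h11_arc hφ (R z z.2))
  obtain ⟨a, ha, -⟩ := ae_exists_near hae (Eventually.of_forall fun _ => trivial)
  have hφc := hφ.sm.continuous
  have hh : Continuous fun m => ∑ j, φ m j * a j 0 := by fun_prop
  refine ⟨fun m => ∑ j, φ m j * a j 0, hh, fun t => ?_⟩
  have hL : IsCompact {z ∈ D | (∑ j, φ z.1 j * a j 0) - ∑ j, φ z.2 j * a j 0 = t} :=
    hD.inter_right (isClosed_eq (by fun_prop) continuous_const)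
  obtain ⟨S, -, hS⟩ := hL.elim_nhdsWithin_subcover (fun z => {z}) (fun z hz => by
    obtain ⟨w, hw, s, hs, rfl⟩ := mem_iUnion₂.1 (hT hz.1)
    have h1 := eventually_nhdsWithin_iff.1 (ha w hw s hs)
    have key : ∀ x, ∑ j, (A.loc φ (R w w.2).q1 ((R w w.2).c1 x) -
        A.loc φ (R w w.2).q2 ((R w w.2).c2 x)) j * a j 0 =
        (∑ j, φ (c w w.2 x).1 j * a j 0) - ∑ j, φ (c w w.2 x).2 j * a j 0 := by
      intro x
      simp only [Pi.sub_apply, sub_mul, Finset.sum_sub_distrib, c, Atl.loc]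
    have h2 : ∀ᶠ y in 𝓝[D] (c w w.2 s),
        (∑ j, φ y.1 j * a j 0) - ∑ j, φ y.2 j * a j 0 = t → y = c w w.2 s := by
      rw [← (hc w w.2).2 s hs, eventually_map]
      filter_upwards [h1] with x hx hxt
      by_cases hxs : x = s
      · rw [hxs]
      · exact (hx hxs (by rw [key, key, hxt, hz.2])).elim
    filter_upwards [nhdsWithin_mono _ (fun y hy => hy.1) h2, self_mem_nhdsWithin] with y hy1 hy2
    exact hy1 hy2.2)
  refine S.finite_toSet.subset fun z hz => ?_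
  obtain ⟨w, hw, hzw⟩ := mem_iUnion₂.1 (hS hz)
  rw [mem_singleton_iff.1 hzw]
  exact hw

theorem no_umb {N : ℕ} {φ : M → Fin N → ℝ} (hφ : A.TP φ) {M0 : Set M} {p : M} {f : M → R3}
    (h : Umb A M0 p f) : False := by
  obtain ⟨f', hU, hT⟩ := exists_trv hφ h
  have hD := dbl_compact hU
  have ha := dbl_arc hU hT
  obtain ⟨g, hg, hf⟩ := exists_height hφ hD ha
  refine no_single_fixed hD (fun z hz => ?_) (η := fun z => g z.1 - g z.2) (by fun_prop) hf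
    (σ := Prod.swap) continuous_swap (fun z => rfl) (fun z hz => ?_) (fun z => by simp)
    (z0 := (p, p)) ⟨h.mem, h.mem, rfl, Or.inr rfl⟩ rfl (fun z hz hs => ?_)
  · obtain ⟨R⟩ := ha z hz
    exact ⟨_, R.arc, R.at0⟩
  · refine ⟨hz.2.1, hz.1, hz.2.2.1.symm, ?_⟩
    by_cases he : z.1 = z.2
    · rcases hz.2.2.2 with h1 | h1
      · exact (h1 he).elim
      · exact Or.inr (he.symm.trans h1)
    · exact Or.inl (Ne.symm he)
  · have he : z.2 = z.1 := congrArg Prod.fst hs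
    rcases hz.2.2.2 with h1 | h1
    · exact (h1 he.symm).elim
    · exact Prod.ext h1 (he.trans h1)

end Vale.Agent.P205
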