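import Vale.Agent.P205.HA
import Vale.Agent.P205.H1

open Set Filter Topology
open scoped ContDiff

noncomputable section
namespace Vale.Agent.P205

variable {M : Type*} [TopologicalSpace M] [T2Space M] [CompactSpace M] {A : Atl M}

/-! H3: a formal immersion off a finite set. -/
theorem good_finite {N : ℕ} {φ : M → Fin N → ℝ} (h : A.TP φ) : ∃ B : Set M, B.Finite ∧ A.Good B := by
  let π : (Fin 3 → ℝ) → E := fun z => (z 0, z 1)
  have hπ : ContDiff ℝ ∞ π := by fun_prop
  let U : Fin A.n → Set (Fin 3 → ℝ) := fun p => π ⁻¹' (A.ch p).target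
  have hU : ∀ p, IsOpen (U p) := fun p => (A.ch p).open_target.preimage hπ.continuous
  let u : Fin A.n → (Fin 3 → ℝ) → Fin N → ℝ := fun p z =>
    fderiv ℝ (A.loc φ p) (π z) (Real.cos (z 2), Real.sin (z 2))
  have hu : ∀ p, ContDiffOn ℝ ∞ (u p) (U p) := fun p =>
    (((h.sm p).fderiv_of_isOpen (m := ∞) (A.ch p).open_target (by simp)).comp hπ.contDiffOn
      fun z hz => hz).clm_apply (by fun_prop)
  have h0 : ∀ p, ∀ z ∈ U p, u p z ≠ 0 := by
    intro p z hz e
    have := (injective_iff_map_eq_zero _).1 (h.one p _ hz) _ e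
    have h1 : Real.cos (z 2) = 0 := congrArg Prod.fst this
    have h2 : Real.sin (z 2) = 0 := congrArg Prod.snd this
    have := Real.cos_sq_add_sin_sq (z 2)
    rw [h1, h2] at this
    norm_num at this
  obtain ⟨a, ha⟩ := (eventually_all.2 fun p => ISO (hU p) (hu p) (h0 p)).exists
  let T : (Fin N → ℝ) →L[ℝ] R3 := ∑ j, (ContinuousLinearMap.proj j).smulRight (a j)
  have hT : ∀ w, T w = ∑ j, w j • a j := fun w => by simp [T]
  have hf : A.Sm fun m => T (φ m) := h.sm.comp fun m => T.contDiff.contDiffAt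
  let K : Set (Fin 3 → ℝ) := Metric.closedBall 0 4 ∩ π ⁻¹' Metric.closedBall 0 1
  have hKU : ∀ p, K ⊆ U p := fun p z hz =>
    Atl.ball3_sub p (Metric.closedBall_subset_closedBall (by norm_num) hz.2)
  have hKc : IsClosed K := Metric.isClosed_closedBall.inter
    (Metric.isClosed_closedBall.preimage hπ.continuous)
  have hfin : ∀ p, (K ∩ (fun z => ∑ j, u p z j • a j) ⁻¹' {0}).Finite := by
    intro p
    refine IsCompact.finite ?_ (isDiscrete_iff_nhdsNE.2 fun z hz => ?_)
    · refine (isCompact_closedBall (0 : Fin 3 → ℝ) 4).of_isClosed_subset ?_ fun z hz => hz.1.1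
      refine ContinuousOn.preimage_isClosed_of_isClosed ?_ hKc isClosed_singleton
      simp only [← hT]
      exact T.continuous.comp_continuousOn ((hu p).continuousOn.mono (hKU p))
    · rw [inf_principal_eq_bot]
      filter_upwards [ha p z (hKU p hz.1) hz.2] with w hw hw'
      exact hw hw'.2
  refine ⟨⋃ p, (A.ch p).symm '' (π '' (K ∩ (fun z => ∑ j, u p z j • a j) ⁻¹' {0})),
    finite_iUnion fun p => ((hfin p).image _).image _, A.dA fun m => T (φ m),
    Atl.SmOff_dA hf _, fun m hm => ?_⟩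
  rw [injective_iff_map_eq_zero]
  intro v hv
  by_contra hne
  apply hm
  set p := A.idx m
  set y := A.ch p m with hy
  have hyt : y ∈ (A.ch p).target := (A.ch p).map_source (A.mem m)
  let w : ℂ := ⟨v.1, v.2⟩
  have hw : ‖w‖ ≠ 0 := fun e => hne (Prod.ext (congrArg Complex.re (norm_eq_zero.1 e))
    (congrArg Complex.im (norm_eq_zero.1 e)))
  have ev : v = ‖w‖ • (Real.cos w.arg, Real.sin w.arg) :=
    Prod.ext (Complex.norm_mul_cos_arg w).symm (Complex.norm_mul_sin_arg w).symm
  have hb : y ∈ Metric.closedBall (0 : E) 1 := Metric.ball_subset_closedBall (A.b1 m)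
  refine mem_iUnion.2 ⟨p, y, ⟨![y.1, y.2, w.arg], ⟨⟨?_, hb⟩, ?_⟩, rfl⟩, (A.ch p).left_inv (A.mem m)⟩
  · rw [mem_closedBall_zero_iff] at hb ⊢
    refine (pi_norm_le_iff_of_nonneg (by norm_num)).2 fun i => ?_
    fin_cases i
    · exact (norm_fst_le y).trans (hb.trans (by norm_num))
    · exact (norm_snd_le y).trans (hb.trans (by norm_num))
    · exact (Complex.abs_arg_le_pi w).trans Real.pi_le_four
  · have d := (T.hasFDerivAt.comp y
      ((h.sm.contDiffAt hyt).differentiableAt (by simp)).hasFDerivAt).fderiv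
    have e : A.dA (fun m => T (φ m)) m = T.comp (fderiv ℝ (A.loc φ p) y) := d
    rw [e, ev, map_smul, smul_eq_zero, ContinuousLinearMap.comp_apply, hT] at hv
    exact hv.resolve_left hw

end Vale.Agent.P205
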