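import Vale.Agent.P205.HA

open Set Filter Topology
open scoped ContDiff

noncomputable section
namespace Vale.Agent.P205

variable {M : Type*} [TopologicalSpace M] [T2Space M] [CompactSpace M] {A : Atl M}

/-! H4: moving and merging bad points. -/
theorem h4_nsq_smul (a : ℝ) (v : E) : nsq (a • v) = a ^ 2 * nsq v := by
  simp only [nsq, Prod.smul_fst, Prod.smul_snd, smul_eq_mul]; ring
theorem h4_nsq_pos {v : E} (h : v ≠ 0) : 0 < nsq v := by
  rcases eq_or_ne v.1 0 with h1 | h1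
  · have : v.2 ≠ 0 := fun h2 => h (Prod.ext h1 h2)
    unfold nsq; positivity
  · unfold nsq; positivity
theorem h4_norm_le {v : E} {r : ℝ} (hr : 0 ≤ r) (h : nsq v ≤ r ^ 2) : ‖v‖ ≤ r := by
  unfold nsq at h
  rw [Prod.norm_def, Real.norm_eq_abs, Real.norm_eq_abs]
  exact max_le (abs_le_of_sq_le_sq' (by nlinarith [sq_nonneg v.2]) hr |> abs_le.2)
    (abs_le_of_sq_le_sq' (by nlinarith [sq_nonneg v.1]) hr |> abs_le.2)
theorem h4_compact (c : E) {r : ℝ} (hr : 0 ≤ r) : IsCompact {y : E | nsq (y - c) ≤ r ^ 2} := by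
  refine (isCompact_closedBall c r).of_isClosed_subset (isClosed_le ?_ continuous_const) fun y hy => ?_
  · unfold nsq; fun_prop
  · exact mem_closedBall_iff_norm.2 (h4_norm_le hr hy)
theorem good_move {B : Set M} (hB : B.Finite) (h : A.Good B) (p : Fin A.n) (c : E) {r : ℝ} (hr : 0 < r)
    (hs : ∀ y, nsq (y - c) ≤ r ^ 2 → y ∈ (A.ch p).target) :
    A.Good ((B \ (A.ch p).symm '' {y | nsq (y - c) ≤ r ^ 2 / 4}) ∪ {(A.ch p).symm c}) := by
  obtain ⟨L, hL⟩ := h
  have hT : ((fun m => nsq (A.ch p m - c)) '' B).Finite := hB.image _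
  have hlt : r ^ 2 / 4 < r ^ 2 := by nlinarith [sq_pos_of_pos hr]
  obtain ⟨s0, hs0, hs0'⟩ := (Ioo_infinite hlt).exists_notMem_finite hT
  obtain ⟨ε, hε, hεs⟩ := Metric.nhds_basis_closedBall.mem_iff.1
    (inter_mem (isOpen_Ioo.mem_nhds hs0) (hT.isClosed.isOpen_compl.mem_nhds hs0'))
  rw [Real.closedBall_eq_Icc] at hεs
  set s1 := s0 - ε
  set s2 := s0 + ε
  have h12 : s1 < s2 := by simp only [s1, s2]; linarith
  have hs1 : r ^ 2 / 4 < s1 := (hεs ⟨le_rfl, h12.le⟩).1.1
  have hs2 : s2 < r ^ 2 := (hεs ⟨h12.le, le_rfl⟩).1.2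
  have h1pos : 0 < s1 := lt_trans (by positivity) hs1
  let ρ : ℝ → ℝ := fun s => s + Real.smoothTransition ((s2 - s) / (s2 - s1)) * (s1 - s)
  have cρ : ContDiff ℝ ∞ ρ :=
    contDiff_id.add ((Real.smoothTransition.contDiff.comp (by fun_prop)).mul (by fun_prop))
  have ρ1 : ∀ s, s2 ≤ s → ρ s = s := fun s h => by
    simp only [ρ]
    rw [Real.smoothTransition.zero_of_nonpos
      (div_nonpos_of_nonpos_of_nonneg (by linarith) (by linarith)), zero_mul, add_zero]
  have ρ2 : ∀ s, s ≤ s2 → ρ s ∈ Icc s1 s2 := fun s h => by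
    simp only [ρ]
    rcases le_total s s1 with h' | h'
    · rw [Real.smoothTransition.one_of_one_le ((one_le_div (by linarith)).2 (by linarith))]
      constructor <;> linarith
    · have a := Real.smoothTransition.nonneg ((s2 - s) / (s2 - s1))
      have b := Real.smoothTransition.le_one ((s2 - s) / (s2 - s1))
      constructor <;> nlinarith
  have ρ0 : ∀ s, 0 < ρ s := fun s => by
    rcases le_total s s2 with h | h
    · exact h1pos.trans_le (ρ2 s h).1
    · rw [ρ1 s h]; linarith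
  let g : E → E := fun y => c + Real.sqrt (ρ (nsq (y - c)) / nsq (y - c)) • (y - c)
  have g1 : ∀ y, s2 ≤ nsq (y - c) → g y = y := fun y h => by
    simp only [g]
    rw [ρ1 _ h, div_self (by linarith), Real.sqrt_one, one_smul, add_sub_cancel]
  have g2 : ∀ y, y ≠ c → nsq (g y - c) = ρ (nsq (y - c)) := fun y h => by
    have hp := h4_nsq_pos (sub_ne_zero.2 h)
    simp only [g]
    rw [add_sub_cancel_left, h4_nsq_smul, Real.sq_sqrt (div_pos (ρ0 _) hp).le, div_mul_cancel₀ _ hp.ne']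
  have cn : ContDiff ℝ ∞ fun y : E => nsq (y - c) := by unfold nsq; fun_prop
  have g3 : ∀ y, y ≠ c → ContDiffAt ℝ ∞ g y := fun y h => by
    have hp := h4_nsq_pos (sub_ne_zero.2 h)
    exact contDiffAt_const.add ((((cρ.comp cn).contDiffAt.div cn.contDiffAt hp.ne').sqrt
      (div_pos (ρ0 _) hp).ne').smul (contDiffAt_id.sub contDiffAt_const))
  refine (hL.update
    (B' := (B \ (A.ch p).symm '' {y | nsq (y - c) ≤ r ^ 2 / 4}) ∪ {(A.ch p).symm c}) p
    (h4_compact c hr.le) hs (L' := fun y => A.rep1 L p (g y))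
    (fun y _ hy => by rw [g1 y (hs2.le.trans (not_le.1 hy).le)]) (fun y hy hb => ?_)
    fun m hm => Or.inl ⟨hm.1, fun h => hm.2 (image_mono (fun y hy => le_trans hy hlt.le) h)⟩).imp
    fun _ h => h.1
  have hyc : y ≠ c := fun e => hb (Or.inr (by rw [e]; rfl))
  have key : g y ∈ (A.ch p).target ∧ (A.ch p).symm (g y) ∉ B := by
    rcases le_total s2 (nsq (y - c)) with h | h
    · rw [g1 y h]
      refine ⟨hs y hy, fun hB' => hb (Or.inl ⟨hB', ?_⟩)⟩
      rintro ⟨z, hz, e⟩
      have hz' : nsq (z - c) ≤ r ^ 2 / 4 := hz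
      rw [(A.ch p).symm.injOn (hs z (hz'.trans hlt.le)) (hs y hy) e] at hz'
      linarith
    · have h2 := ρ2 _ h
      rw [← g2 y hyc] at h2
      have ht := hs _ (h2.2.trans hs2.le)
      refine ⟨ht, fun hB' => (hεs h2).2 ⟨_, hB', ?_⟩⟩
      simp only [(A.ch p).right_inv ht]
  exact ⟨(hL.1 p _ key.1 key.2).comp y (g3 y hyc), (Atl.rep1_inj_iff L key.1).2 (hL.2 _ key.2)⟩
theorem good_reduce {B : Set M} (hB : B.Finite) (h : A.Good B) {x y : M} (hy : y ∈ B) (hxy : x ≠ y)
    (hc : y ∈ connectedComponent x) : A.Good (B \ {x}) := by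
  let S : Set M := {q | A.Good ((B \ {x}) ∪ {q})}
  have key : ∀ q0 : M, ∃ N ∈ 𝓝 q0, ∀ q ∈ N, ∀ q' ∈ N, q ∈ S → q' ∈ S := by
    intro q0
    set p := A.idx q0
    have hc : ContinuousAt (fun q => nsq (A.ch p q - A.ch p q0)) q0 :=
      (show Continuous fun y : E => nsq (y - A.ch p q0) by unfold nsq; fun_prop).continuousAt.comp
        ((A.ch p).continuousAt (A.mem q0))
    refine ⟨{q | q ∈ (A.ch p).source ∧ nsq (A.ch p q - A.ch p q0) < 1 / 16},
      ((A.ch p).open_source.eventually_mem (A.mem q0)).and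
        (hc.eventually (gt_mem_nhds (by simp [nsq]))), fun q hq q' hq' hS => ?_⟩
    have := good_move ((hB.subset sdiff_subset).union (finite_singleton q)) hS p (A.ch p q') one_pos
      fun y hy => A.tgt p ?_
    · rw [(A.ch p).left_inv hq'.1] at this
      refine this.mono (union_subset_union_left _ fun m hm => hm.1.resolve_right fun e => hm.2 ?_)
      refine ⟨A.ch p q, ?_, by rw [(A.ch p).left_inv hq.1]; exact e.symm⟩
      have a := hq.2
      have b := hq'.2
      simp only [nsq, Prod.fst_sub, Prod.snd_sub, mem_ofPred_eq] at a b ⊢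
      nlinarith [sq_nonneg ((A.ch p q).1 + (A.ch p q').1 - 2 * (A.ch p q0).1),
        sq_nonneg ((A.ch p q).2 + (A.ch p q').2 - 2 * (A.ch p q0).2)]
    · have a := h4_norm_le zero_le_one hy
      have b := h4_norm_le (r := 1) zero_le_one (hq'.2.le.trans (by norm_num))
      have d := mem_ball_zero_iff.1 (A.b1 q0)
      rw [mem_closedBall_zero_iff]
      calc ‖y‖ = ‖(y - A.ch p q') + (A.ch p q' - A.ch p q0) + A.ch p q0‖ := by congr 1; abel
        _ ≤ 1 + 1 + 1 := norm_add₃_le.trans (by gcongr)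
        _ ≤ 4 := by norm_num
  have hS : IsClopen S := by
    refine ⟨isOpen_compl_iff.1 (isOpen_iff_mem_nhds.2 fun q hq => ?_), isOpen_iff_mem_nhds.2 fun q hq => ?_⟩
    · obtain ⟨N, hN, h'⟩ := key q
      exact mem_of_superset hN fun q' hq' hs => hq (h' q' hq' q (mem_of_mem_nhds hN) hs)
    · obtain ⟨N, hN, h'⟩ := key q
      exact mem_of_superset hN fun q' hq' => h' q (mem_of_mem_nhds hN) q' hq' hq
  have hx : x ∈ S := h.mono fun m hm => by
    by_cases e : m = x
    · exact Or.inr e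
    · exact Or.inl ⟨hm, e⟩
  refine Atl.Good.mono (hS.connectedComponent_subset hx hc) (union_subset Subset.rfl ?_)
  rintro m rfl
  exact ⟨hy, hxy.symm⟩

end Vale.Agent.P205
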