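import Vale.Agent.P205.H5

open Set Filter Topology
open scoped ContDiff

noncomputable section
namespace Vale.Agent.P205

/-! H6: filling a punctured disc. -/

theorem h6_cont {H : ℝ × ℝ → Mat} (hc : Continuous H) (hp : ∀ s t, H (s, t + 2 * Real.pi) = H (s, t))
    {s : E → ℝ} {z : E → ℂ} (hs : Continuous s) (hz : Continuous z) {y : E} (h0 : z y ≠ 0) :
    ContinuousAt (fun y => H (s y, Complex.arg (z y))) y := by
  have hper : ∀ s, Function.Periodic (fun t => H (s, t)) (2 * Real.pi) := hp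
  let H' : ℝ × Real.Angle → Mat := fun p => (hper p.1).lift p.2
  have hq : IsOpenQuotientMap (Prod.map (id : ℝ → ℝ) ((↑) : ℝ → Real.Angle)) :=
    IsOpenQuotientMap.id.prodMap QuotientAddGroup.isOpenQuotientMap_mk
  have hH' : Continuous H' := hq.isQuotientMap.continuous_iff.2 hc
  exact hH'.continuousAt.comp (f := fun y => (s y, ((Complex.arg (z y) : ℝ) : Real.Angle)))
    (hs.continuousAt.prodMk ((Complex.continuousAt_arg_coe_angle h0).comp hz.continuousAt))

theorem h6_polar (c : E) : ∃ (ρ : E → ℝ) (z : E → ℂ), Continuous ρ ∧ Continuous z ∧ (∀ y, 0 ≤ ρ y) ∧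
    (∀ y, nsq (y - c) = ρ y ^ 2) ∧ (∀ y, 0 < ρ y → z y ≠ 0) ∧ ρ c = 0 ∧ (∀ y, dist y c ≤ ρ y) ∧
    ∀ y, c + (ρ y * Real.cos (Complex.arg (z y)), ρ y * Real.sin (Complex.arg (z y))) = y := by
  let z : E → ℂ := fun y => ((y - c).1 : ℝ) + ((y - c).2 : ℝ) * Complex.I
  have hz : Continuous z := by simp only [z]; fun_prop
  have hre : ∀ y, (z y).re = (y - c).1 := fun y => by simp [z]
  have him : ∀ y, (z y).im = (y - c).2 := fun y => by simp [z]
  refine ⟨fun y => ‖z y‖, z, hz.norm, hz, fun y => norm_nonneg _, fun y => ?_,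
    fun y => norm_pos_iff.1, by simp [z], fun y => ?_, fun y => ?_⟩
  · rw [Complex.sq_norm, Complex.normSq_apply, hre, him, nsq]
    ring
  · rw [dist_eq_norm, Prod.norm_def, ← hre, ← him]
    exact max_le (Complex.abs_re_le_norm _) (Complex.abs_im_le_norm _)
  · rw [Complex.norm_mul_cos_arg, Complex.norm_mul_sin_arg, hre, him]
    exact add_sub_cancel c y

/-- gluing along a homotopy and smoothing -/
theorem fill_hom {L L0 : E → Mat} {c : E} {r : ℝ} (hr : 0 < r)
    (hL : ∀ y, y ≠ c → nsq (y - c) ≤ r ^ 2 → ContDiffAt ℝ ∞ L y ∧ Function.Injective (L y))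
    (hL0 : ContDiff ℝ ∞ L0) (h0 : ∀ y, y ≠ c → Function.Injective (L0 y))
    (hH : Hom (fun t => L (c + (r / 2 * Real.cos t, r / 2 * Real.sin t)))
      (fun t => L0 (c + (r / 4 * Real.cos t, r / 4 * Real.sin t)))) :
    ∃ L' : E → Mat, (∀ y, r ^ 2 < nsq (y - c) → L' y = L y) ∧ L' =ᶠ[𝓝 c] L0 ∧
      ∀ y, nsq (y - c) ≤ r ^ 2 → ContDiffAt ℝ ∞ L' y ∧ (y ≠ c → Function.Injective (L' y)) := by
  obtain ⟨H, Hc, Hp, Hi, H0, H1⟩ := hH
  beta_reduce at H0 H1
  obtain ⟨ρ, z, ρc, zc, ρ0, ρsq, z0, ρc0, ρd, pol⟩ := h6_polar c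
  have hne : ∀ y, 0 < ρ y → y ≠ c := fun y hy e => by rw [e, ρc0] at hy; exact lt_irrefl _ hy
  have hL' : ∀ y, 0 < ρ y → ρ y ≤ r → ContDiffAt ℝ ∞ L y ∧ Function.Injective (L y) := fun y h1 h2 =>
    hL y (hne y h1) (by rw [ρsq]; exact pow_le_pow_left₀ (ρ0 y) h2 2)
  let χ : E → ℝ := fun y => max 0 (min 1 (16 * (r - ρ y) / r))
  have χc : Continuous χ := by simp only [χ]; fun_prop
  have χ1 : ∀ y, ρ y ≤ 15 * r / 16 → χ y = 1 := fun y hy => by
    have : 1 ≤ 16 * (r - ρ y) / r := by rw [le_div_iff₀ hr]; linarith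
    simp [χ, min_eq_left this]
  have χ0 : ∀ y, r < ρ y → χ y = 0 := fun y hy => by
    have : 16 * (r - ρ y) / r ≤ 0 := div_nonpos_of_nonpos_of_nonneg (by linarith) hr.le
    exact max_eq_left ((min_le_right _ _).trans this)
  let G1 : E → Mat := fun y => if ρ y ≤ r / 4 then L0 y else H (2 - 4 * ρ y / r, Complex.arg (z y))
  have G1c : Continuous G1 := by
    refine continuous_if_le ρc continuous_const hL0.continuous.continuousOn (fun y hy => ?_)
      fun y hy => ?_
    · exact (h6_cont Hc Hp (by fun_prop) zc (z0 y (lt_of_lt_of_le (by positivity) hy))).continuousWithinAt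
    · have : 2 - 4 * ρ y / r = 1 := by rw [hy]; field_simp; norm_num
      rw [this, H1, ← hy, pol]
  let G : E → Mat := fun y => if ρ y ≤ r / 2 then G1 y else χ y • L y
  have Gc : Continuous G := by
    refine continuous_if_le ρc continuous_const G1c.continuousOn (fun y hy => ?_) fun y hy => ?_
    · refine ContinuousAt.continuousWithinAt ?_
      by_cases h : ρ y ≤ r
      · exact χc.continuousAt.smul (hL' y (lt_of_lt_of_le (by positivity) hy) h).1.continuousAt
      · refine (continuousAt_const (y := (0 : Mat))).congr ?_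
        filter_upwards [(isOpen_lt continuous_const ρc).mem_nhds (not_le.1 h)] with w hw
        rw [χ0 w hw, zero_smul]
    · have : 2 - 4 * ρ y / r = 0 := by rw [hy]; field_simp; norm_num
      simp only [G1]
      rw [if_neg (by linarith), this, H0, χ1 y (by linarith), one_smul, ← hy, pol]
  have GL0 : ∀ y, ρ y ≤ r / 4 → G y = L0 y := fun y hy => by
    simp only [G, G1]
    rw [if_pos (by linarith), if_pos hy]
  have GL1 : ∀ y, r / 2 < ρ y → ρ y ≤ 15 * r / 16 → G y = L y := fun y hy hy' => by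
    simp only [G]
    rw [if_neg (by linarith), χ1 y hy', one_smul]
  have Gi : ∀ y, r / 8 ≤ ρ y → ρ y ≤ 5 * r / 8 → Function.Injective (G y) := by
    intro y h1 h2
    by_cases a1 : ρ y ≤ r / 4
    · rw [GL0 y a1]
      exact h0 y (hne y (by linarith))
    · by_cases a2 : ρ y ≤ r / 2
      · simp only [G, G1]
        rw [if_pos a2, if_neg a1]
        exact Hi _
      · rw [GL1 y (not_le.1 a2) (by linarith)]
        exact (hL' y (by linarith) (by linarith)).2
  have hcp : IsCompact (ρ ⁻¹' Icc (r / 8) (5 * r / 8)) :=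
    (isCompact_closedBall c (5 * r / 8)).of_isClosed_subset (isClosed_Icc.preimage ρc)
      fun y hy => (ρd y).trans hy.2
  obtain ⟨δ, hδ, hth⟩ := (hcp.image Gc).exists_thickening_subset_open isOpen_inj
    (by rintro _ ⟨y, hy, rfl⟩; exact Gi y hy.1 hy.2)
  have hU : IsOpen (ρ ⁻¹' (Iio (r / 4) ∪ Ioo (r / 2) (15 * r / 16))) :=
    (isOpen_Iio.union isOpen_Ioo).preimage ρc
  obtain ⟨g, gs, gd, ge, -⟩ := Gc.exists_contDiff_approx_and_eqOn ⊤ (ε := fun _ => δ) continuous_const
    (fun _ => hδ) (S := ρ ⁻¹' (Iic (r / 8) ∪ Icc (5 * r / 8) (7 * r / 8)))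
    ((isClosed_Iic.union isClosed_Icc).preimage ρc) (hU.mem_nhdsSet.2 (by
      rintro y (hy | hy)
      · exact Or.inl (lt_of_le_of_lt hy (show r / 8 < r / 4 by linarith))
      · exact Or.inr ⟨by linarith [hy.1], by linarith [hy.2]⟩)) (by
      rintro y (hy | hy)
      · refine (hL0.contDiffAt.congr_of_eventuallyEq ?_).contDiffWithinAt
        filter_upwards [(isOpen_Iio.preimage ρc).mem_nhds hy] with w hw
        exact GL0 w (le_of_lt hw)
      · refine ((hL' y (by linarith [hy.1]) (by linarith [hy.2])).1.congr_of_eventuallyEq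
          ?_).contDiffWithinAt
        filter_upwards [(isOpen_Ioo.preimage ρc).mem_nhds hy] with w hw
        exact GL1 w hw.1 hw.2.le)
  have gL0 : ∀ y, ρ y ≤ r / 8 → g y = L0 y := fun y hy =>
    (ge (Or.inl hy)).trans (GL0 y (by linarith))
  have gL : ∀ y, 5 * r / 8 ≤ ρ y → ρ y ≤ 7 * r / 8 → g y = L y := fun y hy hy' =>
    (ge (Or.inr ⟨hy, hy'⟩)).trans (GL1 y (by linarith) (by linarith))
  let L' : E → Mat := fun y => if ρ y ≤ 3 * r / 4 then g y else L y
  have e1 : ∀ y, ρ y < 7 * r / 8 → L' y = g y := fun y hy => by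
    simp only [L']
    split_ifs with h
    · rfl
    · exact (gL y (by linarith) hy.le).symm
  have e2 : ∀ y, 3 * r / 4 < ρ y → L' y = L y := fun y hy => if_neg (not_le.2 hy)
  refine ⟨L', fun y hy => e2 y ?_, ?_, fun y hy => ?_⟩
  · rw [ρsq] at hy
    have := lt_of_pow_lt_pow_left₀ 2 (ρ0 y) hy
    linarith
  · filter_upwards [(isOpen_lt ρc continuous_const).mem_nhds
      (show ρ c < r / 8 by rw [ρc0]; positivity)] with w hw
    have hw' : ρ w < r / 8 := hw
    rw [e1 w (by linarith), gL0 w hw'.le]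
  · rw [ρsq] at hy
    have hyr : ρ y ≤ r := le_of_pow_le_pow_left₀ two_ne_zero hr.le hy
    by_cases h : 3 * r / 4 < ρ y
    · have := hL' y (by linarith) hyr
      refine ⟨this.1.congr_of_eventuallyEq ?_, fun _ => by rw [e2 y h]; exact this.2⟩
      filter_upwards [(isOpen_lt continuous_const ρc).mem_nhds h] with w hw
      exact e2 w hw
    · have h' : ρ y < 7 * r / 8 := by linarith
      refine ⟨gs.contDiffAt.congr_of_eventuallyEq ?_, fun hyc => ?_⟩
      · filter_upwards [(isOpen_lt ρc continuous_const).mem_nhds h'] with w hw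
        exact e1 w hw
      · rw [e1 y h']
        by_cases a1 : ρ y ≤ r / 8
        · rw [gL0 y a1]
          exact h0 y hyc
        · by_cases a2 : 5 * r / 8 ≤ ρ y
          · rw [gL y a2 h'.le]
            exact (hL' y (by linarith) hyr).2
          · exact hth (Metric.mem_thickening_iff.2
              ⟨G y, ⟨y, ⟨(not_le.1 a1).le, (not_le.1 a2).le⟩, rfl⟩, gd y⟩)

theorem fill_cases {L : E → Mat} {c : E} {r : ℝ} (hr : 0 < r)
    (hL : ∀ y, y ≠ c → nsq (y - c) ≤ r ^ 2 → ContDiffAt ℝ ∞ L y ∧ Function.Injective (L y)) :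
    ∃ L' : E → Mat, (∀ y, r ^ 2 < nsq (y - c) → L' y = L y) ∧
      (∀ y, nsq (y - c) ≤ r ^ 2 → ContDiffAt ℝ ∞ L' y ∧ (y ≠ c → Function.Injective (L' y))) ∧
      (Function.Injective (L' c) ∨ L' =ᶠ[𝓝 c] fun y => fderiv ℝ umb (y - c)) := by
  have key : ∀ t, ContDiffAt ℝ ∞ L (c + (r / 2 * Real.cos t, r / 2 * Real.sin t)) ∧
      Function.Injective (L (c + (r / 2 * Real.cos t, r / 2 * Real.sin t))) := by
    intro t
    have e : nsq (c + (r / 2 * Real.cos t, r / 2 * Real.sin t) - c) = r ^ 2 / 4 := by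
      rw [add_sub_cancel_left, nsq]
      linear_combination (r ^ 2 / 4) * Real.cos_sq_add_sin_sq t
    refine hL _ (fun h => ?_) (by rw [e]; nlinarith)
    rw [h] at e
    simp [nsq] at e
    nlinarith
  rcases loop_cases (γ := fun t => L (c + (r / 2 * Real.cos t, r / 2 * Real.sin t)))
    (contDiff_iff_contDiffAt.2 fun t => ContDiffAt.comp t (key t).1 (by fun_prop))
    (fun t => by simp) (fun t => (key t).2) (ρ := r / 4) (by positivity) with h | h
  · have hi : Function.Injective (mat2 ![1, 0, 0] ![0, 1, 0]) := by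
      rw [inj_iff_cross]
      intro e
      simpa [mat2_apply, cross_apply] using congrFun e 2
    obtain ⟨L', a1, a2, a3⟩ := fill_hom hr hL (L0 := fun _ => mat2 ![1, 0, 0] ![0, 1, 0])
      contDiff_const (fun _ _ => hi) h
    exact ⟨L', a1, a3, Or.inl (by rw [a2.self_of_nhds]; exact hi)⟩
  · obtain ⟨L', a1, a2, a3⟩ := fill_hom hr hL (L0 := fun y => fderiv ℝ umb (y - c))
      ((umb_contDiff.fderiv_right (m := ∞) (by simp)).comp (contDiff_id.sub contDiff_const))
      (fun y hy => umb_inj (sub_ne_zero.2 hy)) (by simpa only [add_sub_cancel_left] using h)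
    exact ⟨L', a1, a3, Or.inr a2⟩

end Vale.Agent.P205
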