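import Vale.Agent.P205.HA

open Set Filter Topology
open scoped ContDiff Manifold

noncomputable section
namespace Vale.Agent.P205

/-! H7a: one corrugation step. -/

theorem h7_bump {O K : Set E} (hO : IsOpen O) (hK : IsCompact K) (hKO : K ⊆ O) :
    ∃ (β : E → ℝ) (K' : Set E), IsCompact K' ∧ K ⊆ K' ∧ K' ⊆ O ∧ ContDiff ℝ ∞ β ∧ tsupport β ⊆ K' ∧
      (∀ y ∈ K, β y = 1) ∧ ∀ y, 0 ≤ β y := by
  obtain ⟨K', hK', h1, h2⟩ := exists_compact_between hK hO hKO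
  obtain ⟨β, b0, b1, b2⟩ := exists_contMDiffMap_zero_one_of_isClosed (n := ⊤) 𝓘(ℝ, E)
    (isOpen_interior (s := K')).isClosed_compl hK.isClosed
    (disjoint_compl_left_iff_subset.2 h1)
  refine ⟨β, K', hK', h1.trans interior_subset, h2, β.contMDiff.contDiff, ?_, fun y hy => b1 hy,
    fun y => (b2 y).1⟩
  refine closure_minimal (fun y hy => ?_) hK'.isClosed
  by_contra h
  exact hy (b0 fun h' => h (interior_subset h'))

theorem h7_basis {ξ : E →L[ℝ] ℝ} (hξ : ξ ≠ 0) : ∃ e e' : E, ξ e = 1 ∧ ξ e' = 0 ∧ e' ≠ 0 ∧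
    ∀ w, ∃ t : ℝ, w = ξ w • e + t • e' := by
  have hx : ∀ w : E, ξ w = w.1 * ξ (1, 0) + w.2 * ξ (0, 1) := by
    intro w
    rw [← smul_eq_mul, ← smul_eq_mul, ← map_smul, ← map_smul, ← map_add]
    congr 1
    ext <;> simp
  set a := ξ (1, 0)
  set b := ξ (0, 1)
  have hab : a ^ 2 + b ^ 2 ≠ 0 := by
    intro h
    have ha : a = 0 := by nlinarith
    have hb : b = 0 := by nlinarith
    exact hξ (ContinuousLinearMap.ext fun w => by rw [hx, ha, hb]; simp)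
  refine ⟨(a / (a ^ 2 + b ^ 2), b / (a ^ 2 + b ^ 2)), (-b, a), ?_, ?_, ?_,
    fun w => ⟨(-b * w.1 + a * w.2) / (a ^ 2 + b ^ 2), ?_⟩⟩
  · rw [hx]; field_simp
  · rw [hx]; ring
  · intro h
    have h1 : -b = 0 := congrArg Prod.fst h
    have h2 : a = 0 := congrArg Prod.snd h
    exact hab (by rw [h2, neg_eq_zero.1 h1]; simp)
  · rw [hx w]
    ext <;> simp <;> field_simp <;> ring

theorem h7_cross {L : Mat} (hL : Function.Injective L) {ξ : E →L[ℝ] ℝ} {e e' : E} (h1 : ξ e = 1)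
    (h2 : ξ e' = 0) (h3 : e' ≠ 0) : crossProduct (L e) (L e') ≠ 0 := by
  rw [crossProduct_ne_zero_iff_linearIndependent, LinearIndependent.pair_iff]
  intro s t h
  rw [← map_smul, ← map_smul, ← map_add, ← map_zero L] at h
  have h4 := hL h
  have h5 := congrArg ξ h4
  rw [map_add, map_smul, map_smul, h1, h2] at h5
  have hs : s = 0 := by simpa using h5
  rw [hs, zero_smul, zero_add] at h4
  exact ⟨hs, (smul_eq_zero.1 h4).resolve_right h3⟩

theorem h7_pos {a : R3} (h : a ≠ 0) : 0 < a ⬝ᵥ a :=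
  lt_of_le_of_ne (Finset.sum_nonneg fun _ _ => mul_self_nonneg _)
    fun e => h (dotProduct_self_eq_zero.1 e.symm)

theorem h7_n1 {a b : R3} (h : crossProduct a b ≠ 0) : crossProduct b (crossProduct a b) ≠ 0 := by
  intro e
  have : crossProduct b (crossProduct a b) ⬝ᵥ a = crossProduct a b ⬝ᵥ crossProduct a b := by
    simp [cross_apply, dotProduct, Fin.sum_univ_three]; ring
  rw [e, zero_dotProduct] at this
  exact (h7_pos h).ne this

theorem h7_alg {L : Mat} (hL : Function.Injective L) {ξ : E →L[ℝ] ℝ} {e e' : E} (h1 : ξ e = 1)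
    (h2 : ξ e' = 0) (h3 : e' ≠ 0) (h4 : ∀ w, ∃ t : ℝ, w = ξ w • e + t • e') {v n1 n2 : R3}
    (hn2 : n2 = crossProduct (L e) (L e')) (hn1 : n1 = crossProduct (L e') n2) {ρ b : ℝ} (hρ : 0 ≤ ρ)
    (c1 : 2 * |v ⬝ᵥ n1| ≤ ρ * (n1 ⬝ᵥ n1)) (c2 : 2 * |v ⬝ᵥ n2| ≤ ρ * (n2 ⬝ᵥ n2)) :
    Function.Injective (L - ξ.smulRight v + ξ.smulRight (ρ • ((1 - 2 * b ^ 2) • n1 + b • n2))) := by
  have hc := h7_cross hL h1 h2 h3
  have p2 : 0 < n2 ⬝ᵥ n2 := hn2 ▸ h7_pos hc
  have p1 : 0 < n1 ⬝ᵥ n1 := by rw [hn1, hn2]; exact h7_pos (h7_n1 hc)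
  have o1 : L e ⬝ᵥ n2 = 0 := by rw [hn2]; exact dot_self_cross _ _
  have o2 : L e' ⬝ᵥ n2 = 0 := by rw [hn2]; exact dot_cross_self _ _
  have o3 : L e' ⬝ᵥ n1 = 0 := by rw [hn1]; exact dot_self_cross _ _
  have o4 : n2 ⬝ᵥ n1 = 0 := by rw [hn1]; exact dot_cross_self _ _
  have o5 : n1 ⬝ᵥ n2 = 0 := by rw [dotProduct_comm, o4]
  have o6 : L e ⬝ᵥ n1 = n2 ⬝ᵥ n2 := by
    rw [hn1, hn2]
    simp [cross_apply, dotProduct, Fin.sum_univ_three]; ring
  rw [injective_iff_map_eq_zero]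
  intro w hw
  obtain ⟨t, ht⟩ := h4 w
  have hLw : L w = ξ w • L e + t • L e' := by
    conv_lhs => rw [ht]
    rw [map_add, map_smul, map_smul]
  simp only [ContinuousLinearMap.add_apply, ContinuousLinearMap.sub_apply,
    ContinuousLinearMap.smulRight_apply, hLw] at hw
  by_cases hs : ξ w = 0
  · simp only [hs, zero_smul, zero_add, sub_zero, add_zero] at hw hLw
    exact hL (by rw [hLw, hw, map_zero])
  · exfalso
    have d1 := congrArg (· ⬝ᵥ n1) hw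
    have d2 := congrArg (· ⬝ᵥ n2) hw
    simp only [add_dotProduct, sub_dotProduct, smul_dotProduct, o1, o2, o3, o4, o5, o6, smul_eq_mul,
      zero_dotProduct] at d1 d2
    have e1 : n2 ⬝ᵥ n2 - v ⬝ᵥ n1 + ρ * (1 - 2 * b ^ 2) * (n1 ⬝ᵥ n1) = 0 :=
      mul_left_cancel₀ hs (by linear_combination d1)
    have e2 : v ⬝ᵥ n2 = ρ * b * (n2 ⬝ᵥ n2) := mul_left_cancel₀ hs (by linear_combination -d2)
    have a1 := le_abs_self (v ⬝ᵥ n1)
    rcases hρ.eq_or_lt with h0 | h0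
    · rw [← h0] at c1 e1
      linarith
    · rw [e2, abs_mul, abs_mul, abs_of_pos h0, abs_of_pos p2] at c2
      have hb : |b| ≤ 1 / 2 := by
        by_contra hh
        have := mul_pos (mul_pos h0 p2) (sub_pos.2 (not_le.1 hh))
        nlinarith
      have hb2 : b ^ 2 ≤ 1 / 4 := by
        rw [← sq_abs]
        nlinarith [abs_nonneg b]
      have := mul_nonneg (mul_pos h0 p1).le (sub_nonneg.2 hb2)
      nlinarith

theorem h7_cdcross {a b : E → R3} {y : E} (ha : ContDiffAt ℝ ∞ a y) (hb : ContDiffAt ℝ ∞ b y) :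
    ContDiffAt ℝ ∞ (fun y => crossProduct (a y) (b y)) y := by
  have h1 := contDiffAt_pi.1 ha
  have h2 := contDiffAt_pi.1 hb
  refine contDiffAt_pi.2 fun i => ?_
  fin_cases i <;> simp only [cross_apply] <;> simp <;>
    exact ((h1 _).mul (h2 _)).sub ((h1 _).mul (h2 _))

theorem h7_R {K : Set E} (hK : IsCompact K) {v n : E → R3} (hv : ContinuousOn v K)
    (hn : ContinuousOn n K) (h0 : ∀ y ∈ K, n y ≠ 0) :
    ∃ R0 : ℝ, ∀ R, R0 ≤ R → ∀ y ∈ K, 2 * |v y ⬝ᵥ n y| ≤ R * (n y ⬝ᵥ n y) := by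
  have hd : ∀ {a b : E → R3}, ContinuousOn a K → ContinuousOn b K →
      ContinuousOn (fun y => a y ⬝ᵥ b y) K := fun ha hb =>
    continuousOn_finset_sum _ fun i _ => (continuousOn_pi.1 ha i).mul (continuousOn_pi.1 hb i)
  obtain ⟨C, hC⟩ := hK.exists_bound_of_continuousOn (f := fun y => 2 * |v y ⬝ᵥ n y| / (n y ⬝ᵥ n y))
    ((continuousOn_const.mul (hd hv hn).abs).div (hd hn hn) fun y hy => (h7_pos (h0 y hy)).ne')
  refine ⟨C, fun R hR y hy => ?_⟩
  rw [← div_le_iff₀ (h7_pos (h0 y hy))]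
  exact ((le_abs_self _).trans (hC y hy)).trans hR

theorem h7_cut {O K' : Set E} (hKO : K' ⊆ O) {β : E → ℝ} (hβ : ContDiff ℝ ∞ β) (hs : tsupport β ⊆ K')
    {n : E → R3} (hn : ∀ y ∈ O, ContDiffAt ℝ ∞ n y) : ContDiff ℝ ∞ (fun y => β y • n y) := by
  refine contDiff_iff_contDiffAt.2 fun y => ?_
  by_cases hy : y ∈ tsupport β
  · exact hβ.contDiffAt.smul (hn y (hKO (hs hy)))
  · refine (contDiffAt_const (c := (0 : R3))).congr_of_eventuallyEq ?_
    filter_upwards [notMem_tsupport_iff_eventuallyEq.1 hy] with z hz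
    simp [hz]

theorem h7_deriv {P1 P2 : E → R3} (h1 : ContDiff ℝ ∞ P1) (h2 : ContDiff ℝ ∞ P2) (ξ : E →L[ℝ] ℝ)
    (R : ℝ) {N : ℝ} (hN : N ≠ 0) (y : E) :
    fderiv ℝ (fun y => (R / N * (Real.sin (N * ξ y) * Real.cos (N * ξ y))) • P1 y
      - (R / N * Real.cos (N * ξ y)) • P2 y) y =
      ξ.smulRight (R • ((1 - 2 * Real.sin (N * ξ y) ^ 2) • P1 y + Real.sin (N * ξ y) • P2 y)) +
      ((R / N * (Real.sin (N * ξ y) * Real.cos (N * ξ y))) • fderiv ℝ P1 y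
        - (R / N * Real.cos (N * ξ y)) • fderiv ℝ P2 y) := by
  have a0 : HasFDerivAt (fun y => N * ξ y) (N • ξ) y := ξ.hasFDerivAt.const_mul N
  have a1 := (((a0.sin.mul a0.cos).const_mul (R / N)).smul
    (h1.differentiable (by simp) y).hasFDerivAt).sub
    ((a0.cos.const_mul (R / N)).smul (h2.differentiable (by simp) y).hasFDerivAt)
  refine a1.fderiv.trans (ContinuousLinearMap.ext fun w => funext fun i => ?_)
  simp only [ContinuousLinearMap.add_apply, ContinuousLinearMap.sub_apply,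
    ContinuousLinearMap.smul_apply, ContinuousLinearMap.smulRight_apply, Pi.add_apply, Pi.sub_apply,
    Pi.smul_apply, smul_eq_mul, Pi.mul_apply]
  have := Real.sin_sq_add_cos_sq (N * ξ y)
  field_simp
  linear_combination (R * N * ξ w * P1 y i) * this

theorem h7_corrug {O K : Set E} (hO : IsOpen O) (hK : IsCompact K) (hKO : K ⊆ O) {L : E → Mat}
    (hL : ∀ y ∈ O, ContDiffAt ℝ ∞ L y ∧ Function.Injective (L y)) {v : E → R3}
    (h0 : ∀ y ∈ O, y ∉ K → v y = 0) (hv : ContinuousOn v O) (ξ : E →L[ℝ] ℝ) (hξ : ξ ≠ 0) :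
    ∃ (u : E → R3) (K' : Set E), IsCompact K' ∧ K ⊆ K' ∧ K' ⊆ O ∧ ContDiff ℝ ∞ u ∧ tsupport u ⊆ K' ∧
      ∀ y ∈ O, Function.Injective (L y - ξ.smulRight (v y) + fderiv ℝ u y) := by
  obtain ⟨β, K', hK', hKK, hK'O, hβ, hβs, hβ1, hβ0⟩ := h7_bump hO hK hKO
  obtain ⟨e, e', h1, h2, h3, h4⟩ := h7_basis hξ
  let n2 : E → R3 := fun y => crossProduct (L y e) (L y e')
  let n1 : E → R3 := fun y => crossProduct (L y e') (n2 y)
  have s2 : ∀ y ∈ O, ContDiffAt ℝ ∞ n2 y := fun y hy =>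
    h7_cdcross ((hL y hy).1.clm_apply contDiffAt_const) ((hL y hy).1.clm_apply contDiffAt_const)
  have s1 : ∀ y ∈ O, ContDiffAt ℝ ∞ n1 y := fun y hy =>
    h7_cdcross ((hL y hy).1.clm_apply contDiffAt_const) (s2 y hy)
  have z2 : ∀ y ∈ O, n2 y ≠ 0 := fun y hy => h7_cross (hL y hy).2 h1 h2 h3
  have z1 : ∀ y ∈ O, n1 y ≠ 0 := fun y hy => h7_n1 (z2 y hy)
  obtain ⟨R1, hR1⟩ := h7_R hK (hv.mono hKO)
    (fun y hy => (s1 y (hKO hy)).continuousAt.continuousWithinAt) fun y hy => z1 y (hKO hy)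
  obtain ⟨R2, hR2⟩ := h7_R hK (hv.mono hKO)
    (fun y hy => (s2 y (hKO hy)).continuousAt.continuousWithinAt) fun y hy => z2 y (hKO hy)
  obtain ⟨R, hR0, hR1', hR2'⟩ : ∃ R, 0 ≤ R ∧ R1 ≤ R ∧ R2 ≤ R :=
    ⟨max 0 (max R1 R2), le_max_left _ _, by simp, by simp⟩
  let P1 : E → R3 := fun y => β y • n1 y
  let P2 : E → R3 := fun y => β y • n2 y
  have p1 : ContDiff ℝ ∞ P1 := h7_cut hK'O hβ hβs s1
  have p2 : ContDiff ℝ ∞ P2 := h7_cut hK'O hβ hβs s2
  let T : E × ℝ → Mat := fun z => L z.1 - ξ.smulRight (v z.1) +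
    ξ.smulRight (R • ((1 - 2 * z.2 ^ 2) • P1 z.1 + z.2 • P2 z.1))
  have hTi : ∀ y ∈ O, ∀ b, Function.Injective (T (y, b)) := by
    intro y hy b
    have e1 : R • ((1 - 2 * b ^ 2) • P1 y + b • P2 y) =
        (R * β y) • ((1 - 2 * b ^ 2) • n1 y + b • n2 y) := by
      simp only [P1, P2]
      module
    simp only [T, e1]
    refine h7_alg (hL y hy).2 h1 h2 h3 h4 rfl rfl (mul_nonneg hR0 (hβ0 y)) ?_ ?_
    · by_cases hyK : y ∈ K
      · rw [hβ1 y hyK, mul_one]; exact hR1 R hR1' y hyK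
      · rw [h0 y hy hyK]
        simpa using mul_nonneg (mul_nonneg hR0 (hβ0 y)) (h7_pos (z1 y hy)).le
    · by_cases hyK : y ∈ K
      · rw [hβ1 y hyK, mul_one]; exact hR2 R hR2' y hyK
      · rw [h0 y hy hyK]
        simpa using mul_nonneg (mul_nonneg hR0 (hβ0 y)) (h7_pos (z2 y hy)).le
  have hTc : ContinuousOn T (K' ×ˢ Icc (-1) 1) := by
    have c0 := (ContinuousLinearMap.smulRightL ℝ E R3 ξ).continuous
    have c1 : ContinuousOn (fun z : E × ℝ => L z.1) (K' ×ˢ Icc (-1) 1) := fun z hz =>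
      ((hL _ (hK'O hz.1)).1.continuousAt.comp continuousAt_fst).continuousWithinAt
    have c2 : ContinuousOn (fun z : E × ℝ => v z.1) (K' ×ˢ Icc (-1) 1) :=
      hv.comp continuousOn_fst fun z hz => hK'O hz.1
    have c3 := p1.continuous
    have c4 := p2.continuous
    have c5 : Continuous fun z : E × ℝ => R • ((1 - 2 * z.2 ^ 2) • P1 z.1 + z.2 • P2 z.1) := by
      fun_prop
    exact (c1.sub (c0.comp_continuousOn c2)).add (c0.comp c5).continuousOn
  obtain ⟨δ, hδ, hth⟩ := ((hK'.prod isCompact_Icc).image_of_continuousOn hTc).exists_thickening_subset_open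
    isOpen_inj (by rintro _ ⟨z, hz, rfl⟩; exact hTi z.1 (hK'O hz.1) z.2)
  obtain ⟨C1, hC1⟩ := hK'.exists_bound_of_continuousOn (f := fderiv ℝ P1)
    (p1.continuous_fderiv (by simp)).continuousOn
  obtain ⟨C2, hC2⟩ := hK'.exists_bound_of_continuousOn (f := fderiv ℝ P2)
    (p2.continuous_fderiv (by simp)).continuousOn
  obtain ⟨N, hN0, hN⟩ : ∃ N : ℝ, 0 < N ∧ R * (C1 + C2) < δ * N := by
    refine ⟨|R * (C1 + C2)| / δ + 1, by positivity, ?_⟩
    rw [mul_add δ, mul_div_cancel₀ _ hδ.ne']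
    linarith [le_abs_self (R * (C1 + C2))]
  let u : E → R3 := fun y => (R / N * (Real.sin (N * ξ y) * Real.cos (N * ξ y))) • P1 y
      - (R / N * Real.cos (N * ξ y)) • P2 y
  have hus : tsupport u ⊆ K' := by
    refine closure_minimal (fun y hy => ?_) hK'.isClosed
    by_contra h
    have : β y = 0 := image_eq_zero_of_notMem_tsupport fun h' => h (hβs h')
    exact hy (by simp [u, P1, P2, this])
  refine ⟨u, K', hK', hKK, hK'O, ?_, hus, fun y hy => ?_⟩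
  · have := ξ.contDiff (n := ∞)
    simp only [u]
    fun_prop
  · by_cases hyK : y ∈ K'
    · refine hth (Metric.mem_thickening_iff.2 ⟨T (y, Real.sin (N * ξ y)),
        ⟨_, ⟨hyK, Real.neg_one_le_sin _, Real.sin_le_one _⟩, rfl⟩, ?_⟩)
      rw [h7_deriv p1 p2 ξ R hN0.ne', ← add_assoc, dist_eq_norm, add_sub_cancel_left]
      have b1 := Real.abs_sin_le_one (N * ξ y)
      have b2 := Real.abs_cos_le_one (N * ξ y)
      have b3 := hC1 y hyK
      have b4 := hC2 y hyK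
      have b5 : 0 ≤ R / N := div_nonneg hR0 hN0.le
      refine (norm_sub_le _ _).trans_lt ?_
      rw [norm_smul, norm_smul, Real.norm_eq_abs, Real.norm_eq_abs, abs_mul, abs_mul, abs_mul,
        abs_of_nonneg b5]
      calc _ ≤ R / N * (1 * 1) * C1 + R / N * 1 * C2 := by gcongr
        _ = R * (C1 + C2) / N := by ring
        _ < δ := by rwa [div_lt_iff₀ hN0]
    · have e1 : fderiv ℝ u y = 0 := by
        have : u =ᶠ[𝓝 y] 0 := notMem_tsupport_iff_eventuallyEq.1 fun h => hyK (hus h)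
        rw [this.fderiv_eq]
        simp
      rw [e1, h0 y hy fun h => hyK (hKK h)]
      simpa using (hL y hy).2

end Vale.Agent.P205
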