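import Vale.Agent.P205.HA
import Vale.Agent.P205.H7a

open Set Filter Topology
open scoped ContDiff

noncomputable section
namespace Vale.Agent.P205

set_option linter.unusedSectionVars false

variable {M : Type*} [TopologicalSpace M] [T2Space M] [CompactSpace M] {A : Atl M}

/-! H7: the h-principle for immersions of surfaces in space, by corrugation. -/

theorem corrug {O K : Set E} (hO : IsOpen O) (hK : IsCompact K) (hKO : K ⊆ O) {L : E → Mat}
    (hL : ∀ y ∈ O, ContDiffAt ℝ ∞ L y ∧ Function.Injective (L y)) {v : E → R3}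
    (h0 : ∀ y ∈ O, y ∉ K → v y = 0) (hv : ContinuousOn v O) (ξ : E →L[ℝ] ℝ) (hξ : ξ ≠ 0) :
    ∃ (u : E → R3) (K' : Set E), IsCompact K' ∧ K ⊆ K' ∧ K' ⊆ O ∧ ContDiff ℝ ∞ u ∧ tsupport u ⊆ K' ∧
      ∀ y ∈ O, Function.Injective (L y - ξ.smulRight (v y) + fderiv ℝ u y) :=
  h7_corrug hO hK hKO hL h0 hv ξ hξ

theorem h7_step {B : Set M} (hB : IsClosed B) {L : M → Mat} (hL : A.Fml B L) (p : Fin A.n) {K : Set E}
    (hK : IsCompact K) (hKO : K ⊆ (A.ch p).target ∩ (A.ch p).symm ⁻¹' Bᶜ) {v : E → R3}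
    (h0 : ∀ y ∈ (A.ch p).target, y ∉ K → v y = 0)
    (hv : ∀ y ∈ (A.ch p).target ∩ (A.ch p).symm ⁻¹' Bᶜ, ContDiffAt ℝ ∞ v y) {ξ : E →L[ℝ] ℝ} (hξ : ξ ≠ 0) :
    ∃ g : M → R3, A.Sm g ∧ (∀ m ∈ B, g =ᶠ[𝓝 m] 0) ∧
      A.Fml B (L - A.ext1 p (fun y => ξ.smulRight (v y)) + A.dA g) := by
  obtain ⟨u, K', hK', hKK, hK'O, hu, hus, hi⟩ := corrug
    ((A.ch p).isOpen_inter_preimage_symm hB.isOpen_compl) hK hKO (L := A.rep1 L p)
    (fun y hy => ⟨hL.1 p y hy.1 hy.2, (Atl.rep1_inj_iff L hy.1).2 (hL.2 _ hy.2)⟩)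
    (fun y hy => h0 y hy.1) (fun y hy => (hv y hy).continuousAt.continuousWithinAt) ξ hξ
  have hs : K' ⊆ (A.ch p).target := hK'O.trans inter_subset_left
  have hz : ∀ y ∈ (A.ch p).target, y ∉ K' → u y = 0 := fun y _ hy =>
    image_eq_zero_of_notMem_tsupport fun h => hy (hus h)
  have H := hL.update (B' := B) p hK' hs
    (L' := fun y => A.rep1 L p y - ξ.smulRight (v y) + fderiv ℝ u y) (fun y hy hyK => ?_)
    (fun y hy _ => ⟨?_, hi y (hK'O hy)⟩) diff_subset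
  · obtain ⟨L'', hF, e1, e2⟩ := H
    refine ⟨A.extF p u, Atl.Sm_extF p hK' hs (fun y _ => hu.contDiffAt) hz, fun m hm => ?_, ?_⟩
    · have : m ∉ (A.ch p).symm '' K' := by
        rintro ⟨y, hy, rfl⟩
        exact (hK'O hy).2 hm
      filter_upwards [(Atl.isClosed_image p hK' hs).isOpen_compl.mem_nhds this] with z hz'
      exact Atl.extF_eq_zero p hz hz'
    · rw [Atl.dA_extF p hK' hs hu hus]
      convert hF using 1
      funext m
      by_cases hm : m ∈ (A.ch p).source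
      · have hy := (A.ch p).map_source hm
        refine Atl.L_ext (L := L - A.ext1 p (fun y => ξ.smulRight (v y)) +
          A.ext1 p fun y => fderiv ℝ u y) hm ?_
        rw [e1 _ hy, Atl.rep1_add, Atl.rep1_sub]
        simp only [Atl.rep1_ext1 p _ hy]
      · rw [e2 m (by rintro ⟨y, hy, rfl⟩; exact hm ((A.ch p).map_target (hs hy)))]
        simp [Atl.ext1, hm]
  · have e1 : fderiv ℝ u y = 0 := by
      have : u =ᶠ[𝓝 y] 0 := notMem_tsupport_iff_eventuallyEq.1 fun h => hyK (hus h)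
      rw [this.fderiv_eq]
      simp
    rw [e1, h0 y hy fun h => hyK (hKK h)]
    simp
  · exact ((hL.1 p y (hK'O hy).1 (hK'O hy).2).sub
      ((ContinuousLinearMap.smulRightL ℝ E R3 ξ).contDiff.contDiffAt.comp y (hv y (hK'O hy)))).add
      (hu.contDiffAt.fderiv_right (by simp))

theorem h7_ind {B : Set M} (hB : IsClosed B) {L : M → Mat} (hL : A.Fml B L) {ι : Type}
    (p : ι → Fin A.n) {K : ι → Set E} (hK : ∀ j, IsCompact (K j))
    (hKO : ∀ j, K j ⊆ (A.ch (p j)).target ∩ (A.ch (p j)).symm ⁻¹' Bᶜ) {v : ι → E → R3}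
    (h0 : ∀ j, ∀ y ∈ (A.ch (p j)).target, y ∉ K j → v j y = 0)
    (hv : ∀ j, ∀ y ∈ (A.ch (p j)).target ∩ (A.ch (p j)).symm ⁻¹' Bᶜ, ContDiffAt ℝ ∞ (v j) y)
    {ξ : ι → E →L[ℝ] ℝ} (hξ : ∀ j, ξ j ≠ 0) (s : Finset ι) :
    ∃ g : M → R3, A.Sm g ∧ (∀ m ∈ B, g =ᶠ[𝓝 m] 0) ∧
      A.Fml B (L - ∑ j ∈ s, A.ext1 (p j) (fun y => (ξ j).smulRight (v j y)) + A.dA g) := by
  classical
  induction s using Finset.induction_on with
  | empty =>
    refine ⟨fun _ => 0, Atl.Sm.const 0, fun m _ => EventuallyEq.rfl, ?_⟩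
    have : A.dA (fun _ => 0) = 0 := by
      funext m
      exact congrFun (fderiv_fun_const (𝕜 := ℝ) (E := E) (0 : R3)) _
    simpa [this] using hL
  | insert j s hj ih =>
    obtain ⟨g, g1, g2, g3⟩ := ih
    obtain ⟨g', g1', g2', g3'⟩ := h7_step hB g3 (p j) (hK j) (hKO j) (h0 j) (hv j) (hξ j)
    refine ⟨fun m => g m + g' m, g1.add g1', fun m hm => ?_, ?_⟩
    · filter_upwards [g2 m hm, g2' m hm] with z a1 a2
      simp [a1, a2]
    · rw [Atl.dA_add g1 g1', Finset.sum_insert hj]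
      convert g3' using 1
      abel

theorem hprinciple {B : Set M} (hB : IsClosed B) {L : M → Mat} (hL : A.Fml B L) {f : M → R3}
    (hf : A.Sm f) (hh : ∀ m ∈ B, L =ᶠ[𝓝 m] A.dA f) :
    ∃ f' : M → R3, A.Sm f' ∧ (∀ m, m ∉ B → Function.Injective (A.dA f' m)) ∧
      ∀ m ∈ B, f' =ᶠ[𝓝 m] f := by
  obtain ⟨ζ, z1, z2, -, z4⟩ := A.exists_pou
  let Z : Set M := {m | L =ᶠ[𝓝 m] A.dA f}
  have hZ : IsOpen Z := isOpen_iff_mem_nhds.2 fun m hm => hm.eventuallyEq_nhds
  have hs : ∀ p, Metric.closedBall (0 : E) (3/2) ⊆ (A.ch p).target := fun p =>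
    (Metric.closedBall_subset_closedBall (by norm_num)).trans (A.tgt p)
  let b : Bool → E := fun i => if i then (1, 0) else (0, 1)
  let ξ : Bool → E →L[ℝ] ℝ := fun i =>
    if i then ContinuousLinearMap.fst ℝ ℝ ℝ else ContinuousLinearMap.snd ℝ ℝ ℝ
  have H := h7_ind hB hL (ι := Fin A.n × Bool) Prod.fst
    (K := fun j => Metric.closedBall (0 : E) (3/2) ∩ (A.ch j.1).symm ⁻¹' Zᶜ)
    (fun j => (isCompact_closedBall _ _).of_isClosed_subset
      (((A.ch j.1).continuousOn_symm.mono (hs _)).preimage_isClosed_of_isClosed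
        Metric.isClosed_closedBall hZ.isClosed_compl) inter_subset_left)
    (fun j y hy => ⟨hs _ hy.1, fun h => hy.2 (hh _ h)⟩)
    (v := fun j y => ζ j.1 y • A.rep1 (L - A.dA f) j.1 y (b j.2)) (fun j y hy hyK => ?_)
    (fun j y hy => ?_) (ξ := fun j => ξ j.2) (fun j => ?_) Finset.univ
  · obtain ⟨g, g1, g2, g3⟩ := H
    have e : ∑ j : Fin A.n × Bool, A.ext1 j.1
        (fun y => (ξ j.2).smulRight (ζ j.1 y • A.rep1 (L - A.dA f) j.1 y (b j.2))) = L - A.dA f := by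
      rw [Fintype.sum_prod_type]
      have : ∀ p, ∑ i : Bool, A.ext1 p
          (fun y => (ξ i).smulRight (ζ p y • A.rep1 (L - A.dA f) p y (b i))) =
          fun m => A.extF p (ζ p) m • (L - A.dA f) m := by
        intro p
        rw [Fintype.sum_bool, ← Atl.ext1_add, ← Atl.ext1_smul_rep1]
        congr 1
        funext y
        exact mat2_eta (ζ p y • A.rep1 (L - A.dA f) p y)
      simp only [this]
      funext m
      rw [Finset.sum_apply, ← Finset.sum_smul, z4, one_smul]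
    rw [e, sub_sub_cancel, ← Atl.dA_add hf g1] at g3
    refine ⟨_, hf.add g1, g3.2, fun m hm => ?_⟩
    filter_upwards [g2 m hm] with z hz
    simp [hz]
  · by_cases h1 : y ∈ Metric.closedBall (0 : E) (3/2)
    · have h2 : (A.ch j.1).symm y ∈ Z := by
        by_contra h
        exact hyK ⟨h1, h⟩
      have h3 : L ((A.ch j.1).symm y) = A.dA f ((A.ch j.1).symm y) := h2.self_of_nhds
      simp [Atl.rep1, h3]
    · rw [image_eq_zero_of_notMem_tsupport fun h => h1 (z2 _ h), zero_smul]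
  · refine (z1 _).contDiffAt.smul (ContDiffAt.clm_apply ?_ contDiffAt_const)
    rw [Atl.rep1_sub]
    exact (hL.1 _ y hy.1 hy.2).sub (Atl.SmOff_dA hf B _ y hy.1 hy.2)
  · intro h
    have := congrArg (fun T : E →L[ℝ] ℝ => T (1, 1)) h
    rcases j with ⟨p, i⟩
    cases i <;> simp [ξ] at this

end Vale.Agent.P205
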