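import Vale.Agent.P205.H2
import Vale.Agent.P205.H3
import Vale.Agent.P205.H4
import Vale.Agent.P205.H6
import Vale.Agent.P205.H7
import Vale.Agent.P205.H11

open Set Filter Topology
open scoped ContDiff

noncomputable section
namespace Vale.Agent.P205

variable {M : Type*} [TopologicalSpace M] [T2Space M] [CompactSpace M] {A : Atl M}

/-! H12: every closed surface immerses in three-space. -/

theorem h12_norm_le {v : E} {r : ℝ} (hr : 0 ≤ r) (h : nsq v ≤ r ^ 2) : ‖v‖ ≤ r := by
  unfold nsq at h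
  rw [Prod.norm_def, max_le_iff, Real.norm_eq_abs, Real.norm_eq_abs]
  constructor
  · apply abs_le_of_sq_le_sq' _ hr |> fun h => abs_le.2 h
    nlinarith [sq_nonneg v.2]
  · apply abs_le_of_sq_le_sq' _ hr |> fun h => abs_le.2 h
    nlinarith [sq_nonneg v.1]

theorem h12_compact (c : E) {r : ℝ} (hr : 0 ≤ r) : IsCompact {y : E | nsq (y - c) ≤ r ^ 2} := by
  refine (isCompact_closedBall c r).of_isClosed_subset ?_ ?_
  · apply isClosed_le _ continuous_const
    unfold nsq
    fun_prop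
  · intro y hy
    rw [Metric.mem_closedBall, dist_eq_norm]
    exact h12_norm_le hr hy

/-- an umbrella germ in a formal immersion with a single bad point on a clopen set is impossible -/
theorem h12_umb {N : ℕ} {φ : M → Fin N → ℝ} (hφ : A.TP φ) {B M0 : Set M} (hM : IsClopen M0) {x : M}
    (hx : x ∈ M0) (hB : ∀ m ∈ M0, m ≠ x → m ∉ B) {L : M → Mat} (hL : A.Fml B L)
    (hg : A.rep1 L (A.idx x) =ᶠ[𝓝 (A.ch (A.idx x) x)]
      fun y => fderiv ℝ umb (y - A.ch (A.idx x) x)) : False := by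
  classical
  set p := A.idx x with hp
  set c := A.ch p x with hc
  have hxs : x ∈ (A.ch p).source := A.mem x
  have hct : c ∈ (A.ch p).target := (A.ch p).map_source hxs
  obtain ⟨ε, hε, hεs⟩ := Metric.nhds_basis_closedBall.mem_iff.1 ((A.ch p).open_target.mem_nhds hct)
  let χ : ContDiffBump c := ⟨ε / 2, ε, by positivity, by linarith⟩
  set u : E → R3 := fun y => χ y • umb (y - c) with hu
  have hus : ContDiff ℝ ∞ u :=
    χ.contDiff.smul (umb_contDiff.comp (contDiff_id.sub contDiff_const))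
  have hu0 : ∀ y ∈ (A.ch p).target, y ∉ Metric.closedBall c ε → u y = 0 := by
    intro y _ hy
    have : χ y = 0 := χ.zero_of_le_dist (by
      have := not_le.1 (fun h => hy (Metric.mem_closedBall.2 h))
      exact this.le)
    simp [hu, this]
  set f : M → R3 := A.extF p u with hf
  have hfs : A.Sm f := Atl.Sm_extF p (isCompact_closedBall c ε) hεs
    (fun y _ => hus.contDiffAt) hu0
  have hfl : A.loc f p =ᶠ[𝓝 c] fun y => umb (y - c) := by
    filter_upwards [(A.ch p).open_target.mem_nhds hct, χ.eventuallyEq_one] with y hy hy1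
    rw [hf, Atl.loc_extF p u hy, hu]
    simp only [hy1, Pi.one_apply, one_smul]
  set L3 : M → Mat := fun m => if m ∈ M0 then L m else A.dA f m with hL3
  have h3a : ∀ m ∈ M0, L3 =ᶠ[𝓝 m] L := fun m hm => by
    filter_upwards [hM.isOpen.mem_nhds hm] with m' hm'
    simp [hL3, hm']
  have h3b : ∀ m, m ∉ M0 → L3 =ᶠ[𝓝 m] A.dA f := fun m hm => by
    filter_upwards [hM.isClosed.isOpen_compl.mem_nhds hm] with m' hm'
    have : m' ∉ M0 := hm'
    simp [hL3, this]
  have hcl : IsClosed ({x} ∪ M0ᶜ : Set M) := isClosed_singleton.union hM.isOpen.isClosed_compl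
  have hnot : ∀ m, m ∉ ({x} ∪ M0ᶜ : Set M) → m ∈ M0 ∧ m ≠ x := by
    intro m hm
    simp only [mem_union, mem_singleton_iff, mem_compl_iff, not_or, not_not] at hm
    exact ⟨hm.2, hm.1⟩
  have hF : A.Fml ({x} ∪ M0ᶜ) L3 := by
    refine ⟨fun q y hy hyB => ?_, fun m hm => ?_⟩
    · obtain ⟨h1, h2⟩ := hnot _ hyB
      exact (hL.1 q y hy (hB _ h1 h2)).congr_of_eventuallyEq (Atl.rep1_congr hy (h3a _ h1))
    · obtain ⟨h1, h2⟩ := hnot _ hm
      rw [(h3a m h1).eq_of_nhds]
      exact hL.2 m (hB _ h1 h2)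
  have hcont : ContinuousAt (A.ch p) x := (A.ch p).continuousAt hxs
  have hh : ∀ m ∈ ({x} ∪ M0ᶜ : Set M), L3 =ᶠ[𝓝 m] A.dA f := by
    rintro m (hm | hm)
    · rw [mem_singleton_iff.1 hm]
      refine (h3a x hx).trans ?_
      have h1 : ∀ᶠ y in 𝓝 c, A.rep1 L p y = fderiv ℝ (A.loc f p) y := by
        filter_upwards [hg, hfl.fderiv (𝕜 := ℝ)] with y hy1 hy2
        rw [hy1, hy2]
        have hd : HasFDerivAt (fun y => umb (y - c)) (fderiv ℝ umb (y - c)) y := by
          have h1 : HasFDerivAt umb (fderiv ℝ umb (y - c)) (y - c) :=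
            (umb_contDiff.differentiable (by simp) _).hasFDerivAt
          have h2 : HasFDerivAt (fun y : E => y - c) (ContinuousLinearMap.id ℝ E) y :=
            (hasFDerivAt_id y).sub_const c
          simpa using h1.comp y h2
        exact hd.fderiv.symm
      filter_upwards [hcont.eventually h1, (A.ch p).open_source.mem_nhds hxs] with m hm1 hm2
      refine Atl.L_ext hm2 ?_
      rw [hm1, Atl.rep1_dA hfs ((A.ch p).map_source hm2)]
    · exact h3b m hm
  obtain ⟨f', hf's, hf'i, hf'e⟩ := hprinciple hcl hF hfs hh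
  refine no_umb hφ (M0 := M0) (p := x) (f := f') ⟨hM, hx, hf's, fun m hm hmx => hf'i m ?_, ?_⟩
  · rintro (h | h)
    · exact hmx h
    · exact h hm
  · refine EventuallyEq.trans ?_ hfl
    have h1 : ContinuousAt (A.ch p).symm c := (A.ch p).continuousAt_symm hct
    have h2 : (A.ch p).symm c = x := (A.ch p).left_inv hxs
    have h3 : f' =ᶠ[𝓝 ((A.ch p).symm c)] f := by
      rw [h2]; exact hf'e x (Or.inl rfl)
    exact h1.eventually h3

theorem h12_remove {N : ℕ} {φ : M → Fin N → ℝ} (hφ : A.TP φ) {B : Set M} (hB : B.Finite)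
    (h : A.Good B) (x : M) : A.Good (B \ {x}) := by
  by_cases hy : ∃ y ∈ B, x ≠ y ∧ y ∈ connectedComponent x
  · obtain ⟨y, hy, hxy, hc⟩ := hy
    exact good_reduce hB h hy hxy hc
  have hM : IsClopen (connectedComponent x) :=
    ⟨isClosed_connectedComponent, Atl.isOpen_component A x⟩
  set M0 := connectedComponent x with hM0
  have hx : x ∈ M0 := mem_connectedComponent
  have hB' : ∀ m ∈ M0, m ≠ x → m ∉ B := fun m hm hmx hmB => hy ⟨m, hmB, hmx.symm, hm⟩
  obtain ⟨L, hL⟩ := h
  set p := A.idx x with hp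
  set c := A.ch p x with hc
  have hxs : x ∈ (A.ch p).source := A.mem x
  have hct : c ∈ (A.ch p).target := (A.ch p).map_source hxs
  have h2 : (A.ch p).symm c = x := (A.ch p).left_inv hxs
  have hn : (A.ch p).target ∩ (A.ch p).symm ⁻¹' M0 ∈ 𝓝 c := by
    refine inter_mem ((A.ch p).open_target.mem_nhds hct) ?_
    apply ((A.ch p).continuousAt_symm hct).preimage_mem_nhds
    rw [h2]
    exact hM.isOpen.mem_nhds hx
  obtain ⟨r, hr, hrs⟩ := Metric.nhds_basis_closedBall.mem_iff.1 hn
  have hK : ∀ y, nsq (y - c) ≤ r ^ 2 → y ∈ (A.ch p).target ∧ (A.ch p).symm y ∈ M0 := fun y hy =>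
    hrs (by rw [Metric.mem_closedBall, dist_eq_norm]; exact h12_norm_le hr.le hy)
  have hne : ∀ y ∈ (A.ch p).target, y ≠ c → (A.ch p).symm y ≠ x := by
    intro y hy hyc h
    apply hyc
    rw [hc, ← h, (A.ch p).right_inv hy]
  obtain ⟨L', h1, h3, h4⟩ := fill_cases (L := A.rep1 L p) (c := c) hr (fun y hyc hy => by
    obtain ⟨a, b⟩ := hK y hy
    have := hB' _ b (hne y a hyc)
    exact ⟨hL.1 p y a this, (Atl.rep1_inj_iff L a).2 (hL.2 _ this)⟩)
  have hcK : c ∈ {y : E | nsq (y - c) ≤ r ^ 2} := by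
    simp only [mem_setOf_eq, sub_self, nsq, Prod.fst_zero, Prod.snd_zero]
    nlinarith
  have he : ∀ y ∈ (A.ch p).target, y ∉ {y : E | nsq (y - c) ≤ r ^ 2} → L' y = A.rep1 L p y :=
    fun y _ hy => h1 y (not_le.1 hy)
  rcases h4 with h4 | h4
  · obtain ⟨L'', hL'', -, -⟩ := hL.update (B' := B \ {x}) p (h12_compact c hr.le)
      (fun y hy => (hK y hy).1) he (fun y hy _ => ⟨(h3 y hy).1, by
        by_cases hyc : y = c
        · rw [hyc]; exact h4
        · exact (h3 y hy).2 hyc⟩) (by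
        rintro m ⟨hm1, hm2⟩
        refine ⟨hm1, fun hmx => hm2 ⟨c, hcK, ?_⟩⟩
        rw [h2]; exact (mem_singleton_iff.1 hmx).symm)
    exact ⟨L'', hL''⟩
  · exfalso
    obtain ⟨L'', hL'', h5, -⟩ := hL.update (B' := B ∪ {x}) p (h12_compact c hr.le)
      (fun y hy => (hK y hy).1) he (fun y hy hyB => ⟨(h3 y hy).1, (h3 y hy).2 (by
        rintro rfl
        exact hyB (Or.inr h2))⟩) (fun m hm => Or.inl hm.1)
    refine h12_umb hφ hM hx (B := B ∪ {x}) ?_ hL'' ?_
    · rintro m hm hmx (h | h)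
      · exact hB' m hm hmx h
      · exact hmx h
    · refine EventuallyEq.trans ?_ h4
      filter_upwards [(A.ch p).open_target.mem_nhds hct] with y hy
      exact h5 y hy

theorem good_empty (A : Atl M) : A.Good ∅ := by
  obtain ⟨N, φ, hφ⟩ := exists_TP A
  obtain ⟨B, hBf, hB⟩ := good_finite hφ
  have key : ∀ S : Set M, S.Finite → A.Good (B \ S) := by
    intro S hS
    induction S, hS using Set.Finite.induction_on with
    | empty => simpa using hB
    | @insert a s _ _ ih =>
      have := h12_remove hφ (hBf.subset diff_subset) ih a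
      rwa [diff_diff, union_singleton] at this
  simpa using key B hBf

theorem exists_imm (A : Atl M) : ∃ ι : M → Fin 3 → ℝ, A.Sm ι ∧ A.Imm ι := by
  obtain ⟨L, hL⟩ := good_empty A
  obtain ⟨f, hf, hi, -⟩ := hprinciple isClosed_empty hL (Atl.Sm.const (A := A) (0 : R3))
    (fun m hm => hm.elim)
  exact ⟨f, hf, Atl.Imm_of_dA hf (fun m => hi m (notMem_empty m))⟩

end Vale.Agent.P205
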