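import Vale.Agent.P205.HA

open Set Filter Topology
open scoped ContDiff

noncomputable section
namespace Vale.Agent.P205

set_option linter.unusedSectionVars false

variable {M : Type*} [TopologicalSpace M] [T2Space M] [CompactSpace M] {A : Atl M}

/-! H2: functions separating 1-jets. -/
def h2β : ContDiffBump (0 : E) := ⟨1, 2, one_pos, by norm_num⟩
def h2c (i : Fin 3) (y : E) : ℝ := h2β y * ![1, y.1, y.2] i
/-- the basic functions -/
def h2g (A : Atl M) : Option (Fin A.n × Fin 3) → M → ℝ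
  | none => fun _ => 1
  | some q => A.extF q.1 (h2c q.2)
theorem h2g_sm (i : Option (Fin A.n × Fin 3)) : A.Sm (h2g A i) := by
  rcases i with _ | q
  · exact Atl.Sm.const 1
  · refine Atl.Sm_extF q.1 (isCompact_closedBall (0 : E) 3) (Atl.ball3_sub _) (fun y _ => ?_)
      fun y _ hy => ?_
    · refine h2β.contDiff.contDiffAt.mul ?_
      generalize q.2 = i
      fin_cases i <;> simp <;> fun_prop
    · rw [h2c, h2β.zero_of_le_dist, zero_mul]
      exact le_trans (show (2 : ℝ) ≤ 3 by norm_num) (not_le.1 fun h => hy (Metric.mem_closedBall.2 h)).le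
def h2Aff (A : Atl M) (l : M → ℝ) : Prop :=
  ∃ c : Option (Fin A.n × Fin 3) → ℝ, ∀ m, l m = ∑ i, c i * h2g A i m
theorem h2Aff.sm {l : M → ℝ} (h : h2Aff A l) : A.Sm l := by
  obtain ⟨c, hc⟩ := h
  rw [funext hc]
  exact Atl.Sm.sum _ fun i _ => (Atl.Sm.const (c i)).smul (h2g_sm i)
theorem h2Aff_g (i : Option (Fin A.n × Fin 3)) : h2Aff A (h2g A i) := by
  classical
  exact ⟨Pi.single i 1, fun m => by simp [Pi.single_apply]⟩
theorem h2Aff.add {l l' : M → ℝ} (h : h2Aff A l) (h' : h2Aff A l') : h2Aff A fun m => l m + l' m := by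
  obtain ⟨c, hc⟩ := h
  obtain ⟨c', hc'⟩ := h'
  exact ⟨c + c', fun m => by simp only [hc, hc', Pi.add_apply, add_mul, Finset.sum_add_distrib]⟩
theorem h2Aff.mul {l : M → ℝ} (h : h2Aff A l) (a : ℝ) : h2Aff A fun m => a * l m := by
  obtain ⟨c, hc⟩ := h
  exact ⟨a • c, fun m => by simp only [hc, Pi.smul_apply, smul_eq_mul, Finset.mul_sum, mul_assoc]⟩
theorem h2_near (m : M) (i : Fin 3) : h2g A (some (A.idx m, i)) =ᶠ[𝓝 m]
    fun x => ![1, (A.ch (A.idx m) x).1, (A.ch (A.idx m) x).2] i := by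
  filter_upwards [(A.ch _).open_source.mem_nhds (A.mem m), ((A.ch _).continuousAt (A.mem m)).eventually
    (Metric.isOpen_ball.mem_nhds (A.b1 m))] with x hx hx'
  simp only [h2g, Atl.extF, hx, if_true, h2c]
  rw [h2β.one_of_mem_closedBall (Metric.ball_subset_closedBall hx'), one_mul]
theorem h2_jet {p : Fin A.n} {y : E} (hy : y ∈ (A.ch p).target) (a : ℝ) (ξ : E →L[ℝ] ℝ) :
    ∃ l, h2Aff A l ∧ l ((A.ch p).symm y) = a ∧ HasFDerivAt (A.loc l p) ξ y := by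
  set m := (A.ch p).symm y with hm
  set q := A.idx m
  have h := Atl.tr_fderiv_comp hy (A.mem m) ((A.ch p).map_target hy)
  rw [Atl.tr_fderiv_self hy] at h
  set ξ' := ξ.comp (fderiv ℝ (A.tr q p) (A.tr p q y))
  have hl : (fun x => (a - ξ' (A.ch q m)) * h2g A none x + (ξ' (1, 0) * h2g A (some (q, 1)) x +
      ξ' (0, 1) * h2g A (some (q, 2)) x)) =ᶠ[𝓝 m] fun x => a - ξ' (A.ch q m) + ξ' (A.ch q x) := by
    filter_upwards [h2_near (A := A) m 1, h2_near (A := A) m 2] with x h1 h2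
    rw [h1, h2]
    have : ξ' (A.ch q x) = (A.ch q x).1 • ξ' (1, 0) + (A.ch q x).2 • ξ' (0, 1) := by
      rw [← map_smul, ← map_smul, ← map_add]; simp
    rw [this]
    simp [h2g]
    ring
  refine ⟨_, ((h2Aff_g none).mul (a - ξ' (A.ch q m))).add (((h2Aff_g (some (q, 1))).mul (ξ' (1, 0))).add
    ((h2Aff_g (some (q, 2))).mul (ξ' (0, 1)))), ?_, ?_⟩
  · exact hl.self_of_nhds.trans (by ring)
  · have e := ((A.ch p).continuousAt_symm hy).eventually hl
    have d := (ξ'.hasFDerivAt.comp y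
      ((Atl.tr_contDiffAt hy (A.mem m)).differentiableAt (by simp)).hasFDerivAt).const_add
        (a - ξ' (A.ch q m))
    refine (d.congr_of_eventuallyEq e).congr_fderiv ?_
    rw [ContinuousLinearMap.comp_assoc, ← h, ContinuousLinearMap.comp_id]
theorem h2_sep {x y : M} (h : x ≠ y) : ∃ l, h2Aff A l ∧ l x = 1 ∧ l y = 0 := by
  have : ∃ i, h2g A i x ≠ h2g A i y := by
    by_contra hn
    push Not at hn
    have h0 := hn (some (A.idx x, 0))
    have h1 := hn (some (A.idx x, 1))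
    have h2 := hn (some (A.idx x, 2))
    rw [(h2_near x _).self_of_nhds] at h0 h1 h2
    by_cases hy : y ∈ (A.ch (A.idx x)).source
    · simp only [h2g, Atl.extF, hy, if_true, h2c] at h0 h1 h2
      simp at h0 h1 h2
      rw [← h0, one_mul] at h1 h2
      exact h ((A.ch _).injOn (A.mem x) hy (Prod.ext h1 h2))
    · simp [h2g, Atl.extF, hy] at h0
  obtain ⟨i, hi⟩ := this
  have hne := sub_ne_zero.2 hi
  refine ⟨_, (((h2Aff_g i).add ((h2Aff_g none).mul (-h2g A i y))).mul (h2g A i x - h2g A i y)⁻¹), ?_, ?_⟩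
  · show _ * (_ + _ * 1) = _
    rw [mul_one, ← sub_eq_add_neg, inv_mul_cancel₀ hne]
  · show _ * (_ + _ * 1) = _
    simp
theorem h2_sq {l u : E → ℝ} {y : E} {l' u' : E →L[ℝ] ℝ} (hl : HasFDerivAt l l' y)
    (hu : HasFDerivAt u u' y) : HasFDerivAt (fun z => l z * l z * u z)
      ((l y * l y) • u' + (2 * l y * u y) • l') y := by
  refine ((hl.mul hl).mul hu).congr_fderiv ?_
  ext <;> simp <;> ring
theorem exists_TP (A : Atl M) : ∃ (N : ℕ) (φ : M → Fin N → ℝ), A.TP φ := by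
  classical
  let I := Option (Fin A.n × Fin 3)
  let e := Fintype.equivFin (I × I × I)
  let φ : M → Fin (Fintype.card (I × I × I)) → ℝ := fun m j =>
    h2g A (e.symm j).1 m * h2g A (e.symm j).2.1 m * h2g A (e.symm j).2.2 m
  have hφ : A.Sm φ := fun p => contDiffOn_pi.2 fun j =>
    ((h2g_sm _ p).mul (h2g_sm _ p)).mul (h2g_sm _ p)
  have hP : ∀ l1 l2 l3, h2Aff A l1 → h2Aff A l2 → h2Aff A l3 →
      ∃ c, ∀ m, c ⬝ᵥ φ m = l1 m * l2 m * l3 m := by
    rintro l1 l2 l3 ⟨c1, h1⟩ ⟨c2, h2⟩ ⟨c3, h3⟩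
    refine ⟨fun j => c1 (e.symm j).1 * c2 (e.symm j).2.1 * c3 (e.symm j).2.2, fun m => ?_⟩
    rw [h1, h2, h3, dotProduct, e.symm.sum_comp fun z : I × I × I =>
      c1 z.1 * c2 z.2.1 * c3 z.2.2 * (h2g A z.1 m * h2g A z.2.1 m * h2g A z.2.2 m)]
    simp only [Fintype.sum_prod_type, Finset.sum_mul, Finset.mul_sum]
    rw [Finset.sum_comm]
    conv_rhs => rw [Finset.sum_comm]
    refine Finset.sum_congr rfl fun i _ => ?_
    rw [Finset.sum_comm]
    refine Finset.sum_congr rfl fun j _ => Finset.sum_congr rfl fun k _ => by ring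
  have hD : ∀ (c : Fin (Fintype.card (I × I × I)) → ℝ) (f : M → ℝ), (∀ m, c ⬝ᵥ φ m = f m) →
      ∀ p, ∀ y ∈ (A.ch p).target, ∀ ξ : E →L[ℝ] ℝ, HasFDerivAt (A.loc f p) ξ y →
        ∀ v, c ⬝ᵥ fderiv ℝ (A.loc φ p) y v = ξ v := by
    intro c f hf p y hy ξ hξ v
    let T : (Fin (Fintype.card (I × I × I)) → ℝ) →L[ℝ] ℝ :=
      LinearMap.toContinuousLinearMap (dotProductBilin ℝ ℝ c)
    have d := T.hasFDerivAt.comp y ((hφ.contDiffAt hy).differentiableAt (by simp)).hasFDerivAt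
    have e1 : T ∘ A.loc φ p = A.loc f p := funext fun z => hf _
    rw [e1] at d
    rw [← d.unique hξ]
    rfl
  have hjet : ∀ p, ∀ y ∈ (A.ch p).target, ∀ (a : ℝ) (ξ : E →L[ℝ] ℝ), ∃ c,
      c ⬝ᵥ A.loc φ p y = a ∧ ∀ v, c ⬝ᵥ fderiv ℝ (A.loc φ p) y v = ξ v := by
    intro p y hy a ξ
    obtain ⟨l, hl, ha, hξ⟩ := h2_jet hy a ξ
    obtain ⟨c, hc⟩ := hP _ _ _ (h2Aff_g none) (h2Aff_g none) hl
    have hc' : ∀ m, c ⬝ᵥ φ m = l m := fun m => by rw [hc]; simp [h2g]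
    exact ⟨c, (hc' _).trans ha, hD c l hc' p y hy ξ hξ⟩
  refine ⟨_, φ, hφ, fun p y hy => ?_, hjet, fun p q y hy z hz hne a b ξ ξ' => ?_⟩
  · rw [injective_iff_map_eq_zero]
    intro v hv
    obtain ⟨c1, -, h1⟩ := hjet p y hy 0 (ContinuousLinearMap.fst ℝ ℝ ℝ)
    obtain ⟨c2, -, h2⟩ := hjet p y hy 0 (ContinuousLinearMap.snd ℝ ℝ ℝ)
    have a1 := h1 v
    have a2 := h2 v
    rw [hv, dotProduct_zero] at a1 a2
    exact Prod.ext a1.symm a2.symm
  · obtain ⟨l1, al1, x1, y1⟩ := h2_sep (A := A) hne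
    obtain ⟨l2, al2, y2, x2⟩ := h2_sep (A := A) hne.symm
    obtain ⟨u1, au1, v1, d1⟩ := h2_jet hy a (ξ - (2 * a) • fderiv ℝ (A.loc l1 p) y)
    obtain ⟨u2, au2, v2, d2⟩ := h2_jet hz b (ξ' - (2 * b) • fderiv ℝ (A.loc l2 q) z)
    obtain ⟨c1, hc1⟩ := hP _ _ _ al1 al1 au1
    obtain ⟨c2, hc2⟩ := hP _ _ _ al2 al2 au2
    have hc : ∀ m, (c1 + c2) ⬝ᵥ φ m = l1 m * l1 m * u1 m + l2 m * l2 m * u2 m := fun m => by
      rw [add_dotProduct, hc1, hc2]
    have df : ∀ {l : M → ℝ}, h2Aff A l → ∀ {p y}, y ∈ (A.ch p).target →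
        HasFDerivAt (A.loc l p) (fderiv ℝ (A.loc l p) y) y := fun hl _ _ hy =>
      ((hl.sm.contDiffAt hy).differentiableAt (by simp)).hasFDerivAt
    refine ⟨c1 + c2, ?_, ?_, hD _ _ hc p y hy ξ ?_, hD _ _ hc q z hz ξ' ?_⟩
    · rw [Atl.loc, hc, x1, x2, v1]; ring
    · rw [Atl.loc, hc, y1, y2, v2]; ring
    · refine ((h2_sq (df al1 hy) d1).add (h2_sq (df al2 hy) (df au2 hy))).congr_fderiv ?_
      simp only [Atl.loc, x1, x2, v1]
      simp
    · refine ((h2_sq (df al1 hz) (df au1 hz)).add (h2_sq (df al2 hz) d2)).congr_fderiv ?_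
      simp only [Atl.loc, y1, y2, v2]
      simp

end Vale.Agent.P205
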