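import Vale.Agent.P205.HA

open Set Filter Topology
open scoped ContDiff

noncomputable section
namespace Vale.Agent.P205

/-! H5: loops of injective linear maps from the plane to space. -/
theorem Hom.symm {γ γ' : ℝ → Mat} (h : Hom γ γ') : Hom γ' γ := by
  obtain ⟨H, hc, hp, hi, h0, h1⟩ := h
  refine ⟨fun z => H (1 - z.1, z.2), by fun_prop, fun s t => hp _ _, fun z => hi _, fun t => ?_, fun t => ?_⟩
  · simpa using h1 t
  · simpa using h0 t
theorem Hom.trans {γ γ' γ'' : ℝ → Mat} (h : Hom γ γ') (h' : Hom γ' γ'') : Hom γ γ'' := by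
  obtain ⟨H, hc, hp, hi, h0, h1⟩ := h
  obtain ⟨H', hc', hp', hi', h0', h1'⟩ := h'
  refine ⟨fun z => if z.1 ≤ 1 / 2 then H (2 * z.1, z.2) else H' (2 * z.1 - 1, z.2), ?_,
    fun s t => ?_, fun z => ?_, fun t => ?_, fun t => ?_⟩
  · refine Continuous.if_le (by fun_prop) (by fun_prop) continuous_fst continuous_const fun z hz => ?_
    rw [hz]
    norm_num
    rw [h1, h0']
  · simp only [hp, hp']
  · dsimp only
    split_ifs
    · exact hi _
    · exact hi' _
  · norm_num [h0]
  · norm_num [h1']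
theorem h5_inj {a b : R3} (h : ∀ s t : ℝ, s • a + t • b = 0 → s = 0 ∧ t = 0) :
    Function.Injective (mat2 a b) := by
  rw [injective_iff_map_eq_zero]
  intro v hv
  rw [mat2_apply] at hv
  exact Prod.ext (h _ _ hv).1 (h _ _ hv).2
theorem h5_ind {L : Mat} (h : Function.Injective L) (s t : ℝ)
    (e : s • L (1, 0) + t • L (0, 1) = 0) : s = 0 ∧ t = 0 := by
  have := (injective_iff_map_eq_zero L).1 h (s, t) (by rw [← mat2_eta L, mat2_apply]; exact e)
  exact ⟨congrArg Prod.fst this, congrArg Prod.snd this⟩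
theorem h5_cont {X : Type} [TopologicalSpace X] {a b : X → R3} (ha : Continuous a) (hb : Continuous b) :
    Continuous fun x => mat2 (a x) (b x) := by
  refine continuous_clm_apply.2 fun v => ?_
  simp only [mat2_apply]
  fun_prop
theorem h5_of {γ γ' : ℝ → Mat} (a b : ℝ × ℝ → R3) (ha : Continuous a) (hb : Continuous b)
    (pa : ∀ s t, a (s, t + 2 * Real.pi) = a (s, t)) (pb : ∀ s t, b (s, t + 2 * Real.pi) = b (s, t))
    (hi : ∀ z (s t : ℝ), s • a z + t • b z = 0 → s = 0 ∧ t = 0)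
    (h0 : ∀ t, mat2 (a (0, t)) (b (0, t)) = γ t) (h1 : ∀ t, mat2 (a (1, t)) (b (1, t)) = γ' t) :
    Hom γ γ' :=
  ⟨fun z => mat2 (a z) (b z), h5_cont ha hb, fun s t => by simp only [pa, pb],
    fun z => h5_inj (hi z), h0, h1⟩
/-- the rotation by a quaternion without last component -/
def h5rq (w x y : ℝ) (v : R3) : R3 :=
  ![(w ^ 2 + x ^ 2 - y ^ 2) * v 0 + 2 * x * y * v 1 + 2 * w * y * v 2,
    2 * x * y * v 0 + (w ^ 2 - x ^ 2 + y ^ 2) * v 1 - 2 * w * x * v 2,
    -(2 * w * y) * v 0 + 2 * w * x * v 1 + (w ^ 2 - x ^ 2 - y ^ 2) * v 2]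
theorem h5rq_ind {w x y : ℝ} (hq : 0 < w ^ 2 + x ^ 2 + y ^ 2) {a b : R3}
    (h : ∀ s t : ℝ, s • a + t • b = 0 → s = 0 ∧ t = 0) (s t : ℝ)
    (e : s • h5rq w x y a + t • h5rq w x y b = 0) : s = 0 ∧ t = 0 := by
  apply h
  have e0 := congrFun e 0
  have e1 := congrFun e 1
  have e2 := congrFun e 2
  simp [h5rq] at e0 e1 e2
  have hq2 : (w ^ 2 + x ^ 2 + y ^ 2) ^ 2 ≠ 0 := by positivity
  funext i
  fin_cases i
  · refine mul_left_cancel₀ hq2 ?_
    show _ * (s * a 0 + t * b 0) = _ * 0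
    linear_combination (w ^ 2 + x ^ 2 - y ^ 2) * e0 + 2 * x * y * e1 - 2 * w * y * e2
  · refine mul_left_cancel₀ hq2 ?_
    show _ * (s * a 1 + t * b 1) = _ * 0
    linear_combination 2 * x * y * e0 + (w ^ 2 - x ^ 2 + y ^ 2) * e1 + 2 * w * x * e2
  · refine mul_left_cancel₀ hq2 ?_
    show _ * (s * a 2 + t * b 2) = _ * 0
    linear_combination 2 * w * y * e0 - 2 * w * x * e1 + (w ^ 2 - x ^ 2 - y ^ 2) * e2
theorem h5rq_cont {X : Type} [TopologicalSpace X] {w x y : X → ℝ} {v : X → R3} (hw : Continuous w)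
    (hx : Continuous x) (hy : Continuous y) (hv : Continuous v) :
    Continuous fun z => h5rq (w z) (x z) (y z) (v z) := by
  refine continuous_pi fun i => ?_
  fin_cases i <;> simp [h5rq] <;> fun_prop
theorem h5_cs (α s : ℝ) (h1 : s * Real.cos α = 0) (h2 : s * Real.sin α = 0) : s = 0 := by
  have := Real.cos_sq_add_sin_sq α
  linear_combination Real.cos α * h1 + Real.sin α * h2 - s * this
theorem h5_rot_ind (α s t : ℝ) (e : s • (![1, 0, 0] : R3) + t • ![0, Real.cos α, Real.sin α] = 0) :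
    s = 0 ∧ t = 0 := by
  have e0 := congrFun e 0
  have e1 := congrFun e 1
  have e2 := congrFun e 2
  simp only [Pi.add_apply, Pi.smul_apply, smul_eq_mul, Matrix.cons_val_zero, Matrix.cons_val_one,
    Matrix.cons_val, mul_one, mul_zero, add_zero, zero_add, Pi.zero_apply] at e0 e1 e2
  exact ⟨e0, h5_cs α t e1 e2⟩
theorem h5_cos_per (n : ℤ) (t : ℝ) : Real.cos (n * (t + 2 * Real.pi)) = Real.cos (n * t) := by
  rw [mul_add, Real.cos_add_int_mul_two_pi]
theorem h5_sin_per (n : ℤ) (t : ℝ) : Real.sin (n * (t + 2 * Real.pi)) = Real.sin (n * t) := by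
  rw [mul_add, Real.sin_add_int_mul_two_pi]
theorem h5_id (v : R3) : h5rq 1 0 0 v = v := by
  funext i
  fin_cases i <;> simp [h5rq]
/-- the rotation loops -/
def rotL (n : ℤ) (t : ℝ) : Mat := mat2 ![1, 0, 0] ![0, Real.cos (n * t), Real.sin (n * t)]
theorem hom_rot_two (n : ℤ) : Hom (rotL n) (rotL (n + 2)) := by
  have hb : Continuous fun z : ℝ × ℝ => (![0, Real.cos (n * z.2), Real.sin (n * z.2)] : R3) := by
    refine continuous_pi fun i => ?_
    fin_cases i <;> simp <;> fun_prop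
  have h1 : Hom (rotL n) fun t => mat2 (h5rq 0 0 1 ![1, 0, 0])
      (h5rq 0 0 1 ![0, Real.cos (n * t), Real.sin (n * t)]) := by
    refine h5_of (fun z => h5rq (1 - z.1) 0 z.1 ![1, 0, 0])
      (fun z => h5rq (1 - z.1) 0 z.1 ![0, Real.cos (n * z.2), Real.sin (n * z.2)])
      (h5rq_cont (by fun_prop) (by fun_prop) (by fun_prop) (by fun_prop))
      (h5rq_cont (by fun_prop) (by fun_prop) (by fun_prop) hb) (fun s t => rfl)
      (fun s t => by simp only [h5_cos_per, h5_sin_per]) (fun z => h5rq_ind ?_ (h5_rot_ind _))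
      (fun t => by simp only [sub_zero, h5_id, rotL]) (fun t => by simp only [sub_self])
    nlinarith [sq_nonneg (1 - 2 * z.1)]
  have h2 : Hom (rotL (n + 2)) fun t => mat2 (h5rq 0 0 1 ![1, 0, 0])
      (h5rq 0 0 1 ![0, Real.cos (n * t), Real.sin (n * t)]) := by
    refine h5_of (fun z => h5rq ((1 - z.1) * Real.cos z.2) ((1 - z.1) * Real.sin z.2) z.1 ![1, 0, 0])
      (fun z => h5rq ((1 - z.1) * Real.cos z.2) ((1 - z.1) * Real.sin z.2) z.1
        ![0, Real.cos (n * z.2), Real.sin (n * z.2)])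
      (h5rq_cont (by fun_prop) (by fun_prop) (by fun_prop) (by fun_prop))
      (h5rq_cont (by fun_prop) (by fun_prop) (by fun_prop) hb)
      (fun s t => by simp only [Real.cos_add_two_pi, Real.sin_add_two_pi])
      (fun s t => by simp only [h5_cos_per, h5_sin_per, Real.cos_add_two_pi, Real.sin_add_two_pi])
      (fun z => h5rq_ind ?_ (h5_rot_ind _))
      (fun t => ?_) (fun t => by simp only [sub_self, zero_mul])
    · have := Real.cos_sq_add_sin_sq z.2
      have e : ((1 - z.1) * Real.cos z.2) ^ 2 + ((1 - z.1) * Real.sin z.2) ^ 2 = (1 - z.1) ^ 2 := by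
        linear_combination (1 - z.1) ^ 2 * this
      rw [e]
      nlinarith [sq_nonneg (1 - 2 * z.1)]
    · have e : ((n + 2 : ℤ) : ℝ) * t = n * t + 2 * t := by push_cast; ring
      have := Real.cos_sq_add_sin_sq t
      simp only [rotL, e, Real.cos_add, Real.sin_add, Real.cos_two_mul, Real.sin_two_mul, sub_zero,
        one_mul]
      congr 1
      · funext i
        fin_cases i <;> simp [h5rq]
      · funext i
        fin_cases i
        · simp [h5rq]
        · simp [h5rq]
          linear_combination (-Real.cos (n * t)) * this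
        · simp [h5rq]
          linear_combination (-Real.sin (n * t)) * this
  exact h1.trans h2.symm
theorem h5_move {a b : ℝ → R3} (ha : Continuous a) (hb : Continuous b)
    (pa : ∀ t, a (t + 2 * Real.pi) = a t) (pb : ∀ t, b (t + 2 * Real.pi) = b t)
    (hi : ∀ z (s t : ℝ), s • a z + t • b z = 0 → s = 0 ∧ t = 0) {e : R3}
    (he : ∀ t, crossProduct (a t) e ≠ 0) :
    ∃ b' : ℝ → R3, Continuous b' ∧ (∀ t, b' (t + 2 * Real.pi) = b' t) ∧
      (∀ z (s t : ℝ), s • e + t • b' z = 0 → s = 0 ∧ t = 0) ∧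
      Hom (fun t => mat2 (a t) (b t)) (fun t => mat2 e (b' t)) := by
  let G : ℝ → ℝ := fun t => (a t ⬝ᵥ a t) * (e ⬝ᵥ e) - (a t ⬝ᵥ e) ^ 2
  let w : ℝ → R3 := fun t => (e ⬝ᵥ e - a t ⬝ᵥ e) • a t + (a t ⬝ᵥ a t - a t ⬝ᵥ e) • e
  have hG : ∀ t, G t ≠ 0 := by
    intro t h
    apply he t
    rw [← dotProduct_self_eq_zero, cross_dot_cross, dotProduct_comm e (a t), ← sq]
    exact h
  have hwa : ∀ t, w t ⬝ᵥ a t = G t := by
    intro t
    simp only [w, G, add_dotProduct, smul_dotProduct, smul_eq_mul, dotProduct_comm e (a t)]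
    ring
  have hwe : ∀ t, w t ⬝ᵥ e = G t := by
    intro t
    simp only [w, G, add_dotProduct, smul_dotProduct, smul_eq_mul]
    ring
  have cG : Continuous G := by fun_prop
  have cw : Continuous w := by fun_prop
  let c : ℝ → ℝ := fun t => (w t ⬝ᵥ b t) / G t
  have cc : Continuous c := Continuous.div (by fun_prop) cG hG
  have pc : ∀ t, c (t + 2 * Real.pi) = c t := fun t => by simp only [c, w, G, pa, pb]
  have hind : ∀ z : ℝ × ℝ, ∀ s t : ℝ, s • (a z.2 + z.1 • (e - a z.2)) +
      t • (b z.2 + (z.1 * c z.2) • (e - a z.2)) = 0 → s = 0 ∧ t = 0 := by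
    intro z s t h
    have h1 := congrArg (fun v => w z.2 ⬝ᵥ v) h
    simp only [dotProduct_add, dotProduct_smul, dotProduct_sub, hwa, hwe, smul_eq_mul, sub_self,
      mul_zero, add_zero, dotProduct_zero] at h1
    have h2 : s + t * c z.2 = 0 := by
      simp only [c]
      field_simp [hG z.2]
      linarith
    apply hi z.2
    have h3 : s • (a z.2 + z.1 • (e - a z.2)) + t • (b z.2 + (z.1 * c z.2) • (e - a z.2)) =
        s • a z.2 + t • b z.2 + (z.1 * (s + t * c z.2)) • (e - a z.2) := by module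
    rw [h3, h2] at h
    simpa using h
  refine ⟨fun t => b t + c t • (e - a t), by fun_prop, fun t => by simp only [pa, pb, pc],
    fun z s t h => hind (1, z) s t (by simpa using h), ?_⟩
  exact h5_of (fun z => a z.2 + z.1 • (e - a z.2)) (fun z => b z.2 + (z.1 * c z.2) • (e - a z.2))
    (by fun_prop) (by fun_prop) (fun s t => by simp only [pa]) (fun s t => by simp only [pa, pb, pc])
    hind (fun t => by simp) (fun t => by simp)
theorem h5_lift {z : ℝ → ℂ} (hz : Continuous z) (h0 : ∀ t, z t ≠ 0)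
    (pz : ∀ t, z (t + 2 * Real.pi) = z t) : ∃ (f : ℝ → ℂ) (n : ℤ), Continuous f ∧
      (∀ t, Complex.exp (f t) = z t) ∧ ∀ t, f (t + 2 * Real.pi) = f t + n * (2 * Real.pi * Complex.I) := by
  obtain ⟨F, ⟨-, hF⟩, -⟩ := Complex.isCoveringMapOn_exp.existsUnique_continuousMap_lifts
    (⟨z, hz⟩ : C(ℝ, ℂ)) (a₀ := 0) (Complex.exp_log (h0 0)) h0
  have hF' : ∀ t, Complex.exp (F t) = z t := fun t => congrFun hF t
  obtain ⟨n, hn⟩ := Complex.exp_eq_exp_iff_exists_int.1
    (show Complex.exp (F (0 + 2 * Real.pi)) = Complex.exp (F 0) by rw [hF', hF', pz])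
  obtain ⟨G, -, hG⟩ := Complex.isCoveringMapOn_exp.existsUnique_continuousMap_lifts
    (⟨z, hz⟩ : C(ℝ, ℂ)) (a₀ := 0) (e₀ := F (0 + 2 * Real.pi)) (by rw [hF', pz]; rfl) h0
  have e1 := hG ⟨fun t => F (t + 2 * Real.pi), by fun_prop⟩
    ⟨rfl, funext fun t => by simp [hF', pz]⟩
  have e2 := hG ⟨fun t => F t + n * (2 * Real.pi * Complex.I), by fun_prop⟩
    ⟨hn.symm, funext fun t => by
      simp [Complex.exp_add, hF', Complex.exp_int_mul_two_pi_mul_I]⟩
  exact ⟨F, n, F.continuous, hF', fun t => DFunLike.congr_fun (e1.trans e2.symm) t⟩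
theorem hom_rot {γ : ℝ → Mat} (hc : ContDiff ℝ ∞ γ) (hp : ∀ t, γ (t + 2 * Real.pi) = γ t)
    (hi : ∀ t, Function.Injective (γ t)) : ∃ n : ℤ, Hom γ (rotL n) := by
  have ha : ContDiff ℝ ∞ fun t => γ t (1, 0) := hc.clm_apply contDiff_const
  have hb : ContDiff ℝ ∞ fun t => γ t (0, 1) := hc.clm_apply contDiff_const
  have hd : ContDiff ℝ 1 fun z : ℝ × ℝ => z.1 • γ z.2 (1, 0) :=
    contDiff_fst.smul ((ha.of_le (by exact_mod_cast le_top)).comp contDiff_snd)
  have hD := hd.dense_compl_range_of_finrank_lt_finrank (by simp)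
  have hO : IsOpen {e : R3 | e 1 ≠ 0} := isOpen_ne_fun (by fun_prop) continuous_const
  obtain ⟨e, he1, he2⟩ := hD.inter_open_nonempty _ hO ⟨![0, 1, 0], by simp⟩
  have he : ∀ t, crossProduct (γ t (1, 0)) e ≠ 0 := by
    intro t
    have hne : γ t (1, 0) ≠ 0 := fun h => by
      simpa using (h5_ind (hi t) 1 0 (by simp [h])).1
    rw [crossProduct_ne_zero_iff_linearIndependent, LinearIndependent.pair_iff' hne]
    intro c h
    exact he2 ⟨(c, t), h⟩
  obtain ⟨b1, c1, p1, i1, H1⟩ := h5_move ha.continuous hb.continuous (fun t => by rw [hp])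
    (fun t => by rw [hp]) (fun t => h5_ind (hi t)) he
  obtain ⟨b2, c2, p2, i2, H2⟩ := h5_move (a := fun _ => e) (e := ![1, 0, 0]) continuous_const c1
    (fun _ => rfl) p1 i1 (fun _ h => he1 (by simpa [cross_apply] using congrFun h 2))
  have hz : ∀ t, (⟨b2 t 1, b2 t 2⟩ : ℂ) ≠ 0 := by
    intro t h
    have a1 : b2 t 1 = 0 := congrArg Complex.re h
    have a2 : b2 t 2 = 0 := congrArg Complex.im h
    have := (i2 t (-b2 t 0) 1 (by
      funext i
      fin_cases i <;> simp [a1, a2])).2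
    exact one_ne_zero this
  have cz : Continuous fun t => (⟨b2 t 1, b2 t 2⟩ : ℂ) := by
    simp only [Complex.mk_eq_add_mul_I]
    fun_prop
  obtain ⟨f, n, cf, ef, pf⟩ := h5_lift cz hz (fun t => by simp only [p2])
  refine ⟨n, ?_⟩
  simp only [mat2_eta] at H1
  refine H1.trans (H2.trans ?_)
  let u : ℝ × ℝ → ℂ := fun z => Complex.exp ((1 - z.1) * f z.2 + z.1 * (n * z.2 * Complex.I))
  have cu : Continuous u := by fun_prop
  have pu : ∀ s t, u (s, t + 2 * Real.pi) = u (s, t) := by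
    intro s t
    simp only [u, pf]
    refine Complex.exp_eq_exp_iff_exists_int.2 ⟨n, ?_⟩
    push_cast
    ring
  refine h5_of (fun _ => ![1, 0, 0]) (fun z => ![(1 - z.1) * b2 z.2 0, (u z).re, (u z).im])
    continuous_const ?_ (fun _ _ => rfl) (fun s t => by simp only [pu, p2]) (fun z s t h => ?_)
    (fun t => ?_) (fun t => ?_)
  · refine continuous_pi fun i => ?_
    fin_cases i <;> simp <;> fun_prop
  · have e0 := congrFun h 0
    have e1 := congrFun h 1
    have e2 := congrFun h 2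
    simp only [Pi.add_apply, Pi.smul_apply, smul_eq_mul, Matrix.cons_val_zero, Matrix.cons_val_one,
      Matrix.cons_val, mul_one, mul_zero, zero_add, Pi.zero_apply] at e0 e1 e2
    have ht : t = 0 := by
      by_contra hne
      apply Complex.exp_ne_zero ((1 - z.1) * f z.2 + z.1 * (n * z.2 * Complex.I))
      exact Complex.ext ((mul_eq_zero.1 e1).resolve_left hne) ((mul_eq_zero.1 e2).resolve_left hne)
    exact ⟨by simpa [ht] using e0, ht⟩
  · have : u (0, t) = ⟨b2 t 1, b2 t 2⟩ := by simp [u, ef]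
    simp only [this]
    congr 1
    funext i
    fin_cases i <;> simp
  · have : u (1, t) = Complex.exp (((n * t : ℝ) : ℂ) * Complex.I) := by simp [u]
    simp only [this, Complex.exp_ofReal_mul_I_re, Complex.exp_ofReal_mul_I_im, rotL, sub_self,
      zero_mul]
theorem h5_refl (n : ℤ) : Hom (rotL n) (rotL n) := (hom_rot_two n).trans (hom_rot_two n).symm
theorem h5_rot_even (r k : ℤ) : Hom (rotL (r + 2 * k)) (rotL r) := by
  induction k using Int.induction_on with
  | zero => simpa using h5_refl r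
  | succ k ih =>
    have := (hom_rot_two (r + 2 * k)).symm.trans ih
    rwa [show r + 2 * (k : ℤ) + 2 = r + 2 * (k + 1) by ring] at this
  | pred k ih =>
    have := hom_rot_two (r + 2 * (-k - 1))
    rw [show r + 2 * (-(k : ℤ) - 1) + 2 = r + 2 * -k by ring] at this
    exact this.trans ih
theorem loop_cases {γ : ℝ → Mat} (hc : ContDiff ℝ ∞ γ) (hp : ∀ t, γ (t + 2 * Real.pi) = γ t)
    (hi : ∀ t, Function.Injective (γ t)) {ρ : ℝ} (hρ : 0 < ρ) :
    Hom γ (fun _ => mat2 ![1, 0, 0] ![0, 1, 0]) ∨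
      Hom γ (fun t => fderiv ℝ umb (ρ * Real.cos t, ρ * Real.sin t)) := by
  obtain ⟨n, hn⟩ := hom_rot hc hp hi
  rcases Int.even_or_odd' n with ⟨k, hk | hk⟩
  · left
    have := h5_rot_even 0 k
    rw [zero_add, ← hk] at this
    have e : rotL 0 = fun _ => mat2 ![1, 0, 0] ![0, 1, 0] := by
      funext t
      simp [rotL]
    exact e ▸ hn.trans this
  · right
    have := h5_rot_even 1 k
    rw [add_comm, ← hk] at this
    refine hn.trans (this.trans ?_)
    refine h5_of (fun z => ![1, z.1 * ρ * Real.sin z.2, 0])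
      (fun z => ![0, Real.exp (z.1 * Real.log ρ) * Real.cos z.2,
        Real.exp (z.1 * Real.log (2 * ρ)) * Real.sin z.2]) ?_ ?_
      (fun s t => by simp only [Real.sin_add_two_pi])
      (fun s t => by simp only [Real.sin_add_two_pi, Real.cos_add_two_pi]) (fun z s t h => ?_)
      (fun t => by simp [rotL]) (fun t => ?_)
    · refine continuous_pi fun i => ?_
      fin_cases i <;> simp <;> fun_prop
    · refine continuous_pi fun i => ?_
      fin_cases i <;> simp <;> fun_prop
    · have e0 := congrFun h 0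
      have e1 := congrFun h 1
      have e2 := congrFun h 2
      simp only [Pi.add_apply, Pi.smul_apply, smul_eq_mul, Matrix.cons_val_zero, Matrix.cons_val_one,
        Matrix.cons_val, mul_one, mul_zero, add_zero, zero_add, Pi.zero_apply] at e0 e1 e2
      rw [e0, zero_mul, zero_add] at e1
      refine ⟨e0, h5_cs z.2 t ?_ ?_⟩
      · exact mul_left_cancel₀ (Real.exp_pos (z.1 * Real.log ρ)).ne' (by linear_combination e1)
      · exact mul_left_cancel₀ (Real.exp_pos (z.1 * Real.log (2 * ρ))).ne' (by linear_combination e2)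
    · rw [fderiv_umb]
      simp only [one_mul, Real.exp_log hρ, Real.exp_log (show 0 < 2 * ρ by positivity), mul_assoc]

end Vale.Agent.P205
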