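import Vale.Agent.P205.D3

open Set Filter Topology
open scoped ContDiff

noncomputable section
namespace Vale.Agent.P205

set_option linter.unusedSectionVars false

variable {M : Type*} [TopologicalSpace M] [T2Space M] [CompactSpace M] {A : Atl M}
  {W : Type} [NormedAddCommGroup W] [NormedSpace ℝ W]

/-! M1: atlas calculus for maps. -/

namespace Atl
theorem ball3_sub (p : Fin A.n) : Metric.closedBall (0 : E) 3 ⊆ (A.ch p).target := 
  (Metric.closedBall_subset_closedBall (by norm_num)).trans (A.tgt p)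
theorem ball3_sub' (p : Fin A.n) : Metric.ball (0 : E) 3 ⊆ (A.ch p).target := 
  Metric.ball_subset_closedBall.trans (ball3_sub p)
theorem isOpen_ov (p q : Fin A.n) : IsOpen ((A.ch p).target ∩ (A.ch p).symm ⁻¹' (A.ch q).source) := 
  (A.ch p).isOpen_inter_preimage_symm (A.ch q).open_source
theorem tr_contDiffAt {p q : Fin A.n} {y : E} (hy : y ∈ (A.ch p).target)
    (hq : (A.ch p).symm y ∈ (A.ch q).source) : ContDiffAt ℝ ∞ (A.tr p q) y := 
  (A.sm p q).contDiffAt ((isOpen_ov p q).mem_nhds ⟨hy, hq⟩)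
theorem loc_tr {Z : Type} (F : M → Z) {p q : Fin A.n} {y : E} (hy : y ∈ (A.ch p).target)
    (hq : (A.ch p).symm y ∈ (A.ch q).source) : A.loc F p =ᶠ[𝓝 y] A.loc F q ∘ A.tr p q := by
  filter_upwards [(isOpen_ov p q).mem_nhds ⟨hy, hq⟩] with z hz
  simp only [loc, tr, Function.comp, (A.ch q).left_inv hz.2]
theorem m1_tr_mem {p q : Fin A.n} {y : E} (hq : (A.ch p).symm y ∈ (A.ch q).source) :
    A.tr p q y ∈ (A.ch q).target := (A.ch q).map_source hq
theorem m1_tr_symm {p q : Fin A.n} {y : E} (hq : (A.ch p).symm y ∈ (A.ch q).source) :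
    (A.ch q).symm (A.tr p q y) = (A.ch p).symm y := (A.ch q).left_inv hq
theorem tr_fderiv_comp {p q r : Fin A.n} {y : E} (hy : y ∈ (A.ch p).target)
    (hq : (A.ch p).symm y ∈ (A.ch q).source) (hr : (A.ch p).symm y ∈ (A.ch r).source) :
    fderiv ℝ (A.tr p r) y = (fderiv ℝ (A.tr q r) (A.tr p q y)).comp (fderiv ℝ (A.tr p q) y) := by
  have e : A.tr p r =ᶠ[𝓝 y] A.tr q r ∘ A.tr p q := loc_tr (A.ch r) hy hq
  rw [e.fderiv_eq]
  refine fderiv_comp y ?_ ((tr_contDiffAt hy hq).differentiableAt (by simp))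
  exact (tr_contDiffAt (m1_tr_mem hq) (by rw [m1_tr_symm hq]; exact hr)).differentiableAt (by simp)
theorem tr_fderiv_self {p : Fin A.n} {y : E} (hy : y ∈ (A.ch p).target) :
    fderiv ℝ (A.tr p p) y = ContinuousLinearMap.id ℝ E := by
  have e : A.tr p p =ᶠ[𝓝 y] id := by
    filter_upwards [(A.ch p).open_target.mem_nhds hy] with z hz
    exact (A.ch p).right_inv hz
  rw [e.fderiv_eq, fderiv_id]
theorem tr_det_ne {p q : Fin A.n} {y : E} (hy : y ∈ (A.ch p).target)
    (hq : (A.ch p).symm y ∈ (A.ch q).source) :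
    detE (fderiv ℝ (A.tr p q) y (1, 0)) (fderiv ℝ (A.tr p q) y (0, 1)) ≠ 0 := by
  have h := tr_fderiv_comp hy hq ((A.ch p).map_target hy)
  rw [tr_fderiv_self hy] at h
  set L := fderiv ℝ (A.tr p q) y
  set L' := fderiv ℝ (A.tr q p) (A.tr p q y)
  have hL : ∀ v : E, L' v = v.1 • L' (1, 0) + v.2 • L' (0, 1) := by
    intro v
    rw [← map_smul, ← map_smul, ← map_add]
    congr 1
    ext <;> simp
  have h1 : L' (L (1, 0)) = (1, 0) := by
    have := congrArg (fun T : E →L[ℝ] E => T (1, 0)) h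
    simpa using this.symm
  have h2 : L' (L (0, 1)) = (0, 1) := by
    have := congrArg (fun T : E →L[ℝ] E => T (0, 1)) h
    simpa using this.symm
  rw [hL] at h1 h2
  have a1 := congrArg Prod.fst h1
  have a2 := congrArg Prod.snd h1
  have b1 := congrArg Prod.fst h2
  have b2 := congrArg Prod.snd h2
  simp only [Prod.fst_add, Prod.snd_add, Prod.smul_fst, Prod.smul_snd, smul_eq_mul] at a1 a2 b1 b2
  intro h0
  unfold detE at h0
  have : ((L (1, 0)).1 * (L (0, 1)).2 - (L (1, 0)).2 * (L (0, 1)).1) *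
      ((L' (1, 0)).1 * (L' (0, 1)).2 - (L' (1, 0)).2 * (L' (0, 1)).1) = 1 := by
    linear_combination ((L (0, 1)).1 * (L' (1, 0)).2 + (L (0, 1)).2 * (L' (0, 1)).2) * a1 + b2
      - ((L (0, 1)).1 * (L' (1, 0)).1 + (L (0, 1)).2 * (L' (0, 1)).1) * a2
  rw [h0] at this
  simp at this
theorem Sm_of {F : M → W}
    (h : ∀ m, ∃ p, m ∈ (A.ch p).source ∧ ContDiffAt ℝ ∞ (A.loc F p) (A.ch p m)) : A.Sm F := by
  intro q y hy
  obtain ⟨p, hp, hc⟩ := h ((A.ch q).symm y)
  refine ContDiffAt.contDiffWithinAt ?_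
  refine ContDiffAt.congr_of_eventuallyEq ?_ (loc_tr F hy hp)
  exact ContDiffAt.comp y hc (tr_contDiffAt hy hp)
theorem Sm.contDiffAt {F : M → W} (h : A.Sm F) {p : Fin A.n} {y : E} (hy : y ∈ (A.ch p).target) :
    ContDiffAt ℝ ∞ (A.loc F p) y := 
  (h p).contDiffAt ((A.ch p).open_target.mem_nhds hy)
theorem Sm.continuous {F : M → W} (h : A.Sm F) : Continuous F := by
  refine continuous_iff_continuousAt.2 fun m => ?_
  have e : F =ᶠ[𝓝 m] A.loc F (A.idx m) ∘ A.ch (A.idx m) := by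
    filter_upwards [(A.ch (A.idx m)).open_source.mem_nhds (A.mem m)] with z hz
    simp only [loc, Function.comp, (A.ch (A.idx m)).left_inv hz]
  refine ContinuousAt.congr ?_ e.symm
  exact ContinuousAt.comp (h.contDiffAt ((A.ch _).map_source (A.mem m))).continuousAt
    ((A.ch _).continuousAt (A.mem m))
theorem Sm.const (c : W) : A.Sm (fun _ => c) := fun _ => contDiffOn_const
theorem Sm.add {F G : M → W} (h : A.Sm F) (h' : A.Sm G) : A.Sm (fun m => F m + G m) := 
  fun p => (h p).add (h' p)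
theorem Sm.sub {F G : M → W} (h : A.Sm F) (h' : A.Sm G) : A.Sm (fun m => F m - G m) := 
  fun p => (h p).sub (h' p)
theorem Sm.smul {f : M → ℝ} {G : M → W} (h : A.Sm f) (h' : A.Sm G) : A.Sm (fun m => f m • G m) := 
  fun p => (h p).smul (h' p)
theorem Sm.sum {κ : Type*} (s : Finset κ) {F : κ → M → W} (h : ∀ j ∈ s, A.Sm (F j)) :
    A.Sm (fun m => ∑ j ∈ s, F j m) := 
  fun p => ContDiffOn.sum (f := fun j => A.loc (F j) p) fun j hj => h j hj p
theorem Sm.comp {W1 : Type} [NormedAddCommGroup W1] [NormedSpace ℝ W1] {F : M → W} (h : A.Sm F)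
    {Φ : W → W1} (hΦ : ∀ m, ContDiffAt ℝ ∞ Φ (F m)) : A.Sm (fun m => Φ (F m)) := 
  fun _ y hy => (ContDiffAt.comp y (hΦ _) (h.contDiffAt hy)).contDiffWithinAt
theorem m1_bound {X : Type} [NormedAddCommGroup X] [NormedSpace ℝ X] {u : E → X} {K : Set E}
    (hK : IsCompact K) (hu : ∀ y ∈ K, ContDiffAt ℝ ∞ u y) (k : ℕ) :
    ∃ b, 1 ≤ b ∧ ∀ j ≤ k, ∀ y ∈ K, ‖iteratedFDeriv ℝ j u y‖ ≤ b := by
  have h1 : ∀ j : ℕ, ∃ b, ∀ y ∈ K, ‖iteratedFDeriv ℝ j u y‖ ≤ b := by
    intro j
    refine hK.exists_bound_of_continuousOn fun y hy => ?_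
    have : ContDiffAt ℝ 0 (iteratedFDeriv ℝ j u) y :=
      (hu y hy).iteratedFDeriv_right (by simp; exact_mod_cast le_top)
    exact this.continuousAt.continuousWithinAt
  choose b hb using h1
  obtain ⟨B, hB⟩ := Finite.exists_le (fun j : Fin (k + 1) => b j)
  refine ⟨max B 1, le_max_right _ _, fun j hj y hy => ?_⟩
  exact (hb j y hy).trans ((hB ⟨j, by omega⟩).trans (le_max_left _ _))
theorem Sm.nb {F : M → W} (h : A.Sm F) (k : ℕ) : ∃ b, 0 < b ∧ A.Nb k F b := by
  have h1 : ∀ p, ∃ b, 1 ≤ b ∧ ∀ j ≤ k, ∀ y ∈ Metric.closedBall (0 : E) 3,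
      ‖iteratedFDeriv ℝ j (A.loc F p) y‖ ≤ b := fun p =>
    m1_bound (isCompact_closedBall _ _) (fun y hy => h.contDiffAt (ball3_sub p hy)) k
  choose b hb using h1
  obtain ⟨B, hB⟩ := Finite.exists_le b
  refine ⟨max B 1, lt_of_lt_of_le one_pos (le_max_right _ _), fun p j hj y hy => ?_⟩
  exact ((hb p).2 j hj y (Metric.ball_subset_closedBall hy)).trans ((hB p).trans (le_max_left _ _))
theorem Nb.mono {F : M → W} {k k' : ℕ} {b b' : ℝ} (h : A.Nb k F b) (hk : k' ≤ k) (hb : b ≤ b') :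
    A.Nb k' F b' := 
  fun p j hj y hy => (h p j (hj.trans hk) y hy).trans hb
theorem m1_cda {F : M → W} (hF : A.Sm F) (j : ℕ) {p : Fin A.n} {y : E}
    (hy : y ∈ Metric.ball (0 : E) 3) : ContDiffAt ℝ j (A.loc F p) y :=
  (hF.contDiffAt (ball3_sub' p hy)).of_le (by exact_mod_cast le_top)
theorem Nb.add {F G : M → W} (hF : A.Sm F) (hG : A.Sm G) {k : ℕ} {b b' : ℝ} (h : A.Nb k F b)
    (h' : A.Nb k G b') : A.Nb k (fun m => F m + G m) (b + b') := by
  intro p j hj y hy
  have e : A.loc (fun m => F m + G m) p = A.loc F p + A.loc G p := rfl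
  rw [e, iteratedFDeriv_add_apply (m1_cda hF j hy) (m1_cda hG j hy)]
  exact (norm_add_le _ _).trans (add_le_add (h p j hj y hy) (h' p j hj y hy))
theorem Nb.sub {F G : M → W} (hF : A.Sm F) (hG : A.Sm G) {k : ℕ} {b b' : ℝ} (h : A.Nb k F b)
    (h' : A.Nb k G b') : A.Nb k (fun m => F m - G m) (b + b') := by
  intro p j hj y hy
  have e : A.loc (fun m => F m - G m) p = A.loc F p - A.loc G p := rfl
  rw [e, iteratedFDeriv_sub_apply (m1_cda hF j hy) (m1_cda hG j hy)]
  exact (norm_sub_le _ _).trans (add_le_add (h p j hj y hy) (h' p j hj y hy))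
theorem Nb.const_smul {F : M → W} (hF : A.Sm F) {k : ℕ} {b : ℝ} (c : ℝ) (h : A.Nb k F b) :
    A.Nb k (fun m => c • F m) (|c| * b) := by
  intro p j hj y hy
  have e : A.loc (fun m => c • F m) p = c • A.loc F p := rfl
  rw [e, iteratedFDeriv_const_smul_apply (m1_cda hF j hy), norm_smul, Real.norm_eq_abs]
  exact mul_le_mul_of_nonneg_left (h p j hj y hy) (abs_nonneg _)
theorem m1_smul_le {f : E → ℝ} {g : E → W} {U : Set E} (hU : IsOpen U) (hf : ContDiffOn ℝ ∞ f U)
    (hg : ContDiffOn ℝ ∞ g U) {y : E} (hy : y ∈ U) (n : ℕ) :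
    ‖iteratedFDeriv ℝ n (fun z => f z • g z) y‖ ≤ ∑ i ∈ Finset.range (n + 1),
      (n.choose i : ℝ) * ‖iteratedFDeriv ℝ i f y‖ * ‖iteratedFDeriv ℝ (n - i) g y‖ := by
  have := norm_iteratedFDerivWithin_smul_le hf hg hU.uniqueDiffOn hy (n := n) (by exact_mod_cast le_top)
  simpa only [iteratedFDerivWithin_of_isOpen _ hU hy] using this
theorem Nb.smul {f : M → ℝ} {G : M → W} (hf : A.Sm f) (hG : A.Sm G) {k : ℕ} {b b' : ℝ}
    (h : A.Nb k f b) (h' : A.Nb k G b') : A.Nb k (fun m => f m • G m) (2 ^ k * b * b') := by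
  intro p j hj y hy
  have hb : 0 ≤ b := (norm_nonneg _).trans (h p 0 (Nat.zero_le _) y hy)
  have hb' : 0 ≤ b' := (norm_nonneg _).trans (h' p 0 (Nat.zero_le _) y hy)
  refine (m1_smul_le (A.ch p).open_target (hf p) (hG p) (ball3_sub' p hy) j).trans ?_
  calc _ ≤ ∑ i ∈ Finset.range (j + 1), (j.choose i : ℝ) * b * b' := by
        refine Finset.sum_le_sum fun i hi => ?_
        have hi' : i ≤ j := by simpa [Nat.lt_succ_iff] using hi
        have a1 := h p i (hi'.trans hj) y hy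
        have a2 := h' p (j - i) (by omega) y hy
        gcongr
    _ = 2 ^ j * b * b' := by
        rw [← Finset.sum_mul, ← Finset.sum_mul]
        congr 2
        exact_mod_cast Nat.sum_range_choose j
    _ ≤ 2 ^ k * b * b' := by gcongr; norm_num
theorem Nb.sum {κ : Type*} (s : Finset κ) {F : κ → M → W} (hF : ∀ j ∈ s, A.Sm (F j)) {k : ℕ}
    {b : κ → ℝ} (h : ∀ j ∈ s, A.Nb k (F j) (b j)) :
    A.Nb k (fun m => ∑ j ∈ s, F j m) (∑ j ∈ s, b j) := by
  classical
  induction s using Finset.induction_on with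
  | empty =>
    intro p j _ y _
    have e : A.loc (fun m => ∑ j ∈ (∅ : Finset κ), F j m) p = fun _ => 0 := by
      funext z; simp [loc]
    rw [e, iteratedFDeriv_fun_zero]; simp
  | insert a s ha ih =>
    simp only [Finset.sum_insert ha]
    exact Nb.add (hF a (Finset.mem_insert_self _ _))
      (Sm.sum s fun j hj => hF j (Finset.mem_insert_of_mem hj)) (h a (Finset.mem_insert_self _ _))
      (ih (fun j hj => hF j (Finset.mem_insert_of_mem hj)) fun j hj => h j (Finset.mem_insert_of_mem hj))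
theorem Nb.norm_le {F : M → W} {k : ℕ} {b : ℝ} (h : A.Nb k F b) (m : M) : ‖F m‖ ≤ b := by
  have := h (A.idx m) 0 (Nat.zero_le _) (A.ch (A.idx m) m)
    (Metric.ball_subset_ball (by norm_num) (A.b1 m))
  rwa [norm_iteratedFDeriv_zero, loc, (A.ch _).left_inv (A.mem m)] at this
theorem loc_extF (p : Fin A.n) (u : E → W) {y : E} (hy : y ∈ (A.ch p).target) :
    A.loc (A.extF p u) p y = u y := by
  simp only [loc, extF, (A.ch p).map_target hy, if_true, (A.ch p).right_inv hy]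
theorem isClosed_image (p : Fin A.n) {K : Set E} (hK : IsCompact K) (hs : K ⊆ (A.ch p).target) :
    IsClosed ((A.ch p).symm '' K) := 
  (hK.image_of_continuousOn ((A.ch p).continuousOn_symm.mono hs)).isClosed
theorem extF_eq_zero (p : Fin A.n) {u : E → W} {K : Set E} (hu : ∀ y ∈ (A.ch p).target, y ∉ K → u y = 0)
    {m : M} (hm : m ∉ (A.ch p).symm '' K) : A.extF p u m = 0 := by
  unfold extF
  split_ifs with h
  · exact hu _ ((A.ch p).map_source h) fun hK => hm ⟨_, hK, (A.ch p).left_inv h⟩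
  · rfl
theorem m1_extF_zero (p q : Fin A.n) {u : E → W} {K : Set E} (hK : IsCompact K)
    (hs : K ⊆ (A.ch p).target) (h0 : ∀ y ∈ (A.ch p).target, y ∉ K → u y = 0) {y : E}
    (hy : y ∈ (A.ch q).target) (hm : (A.ch q).symm y ∉ (A.ch p).symm '' K) :
    A.loc (A.extF p u) q =ᶠ[𝓝 y] fun _ => 0 := by
  have := ((A.ch q).continuousAt_symm hy).preimage_mem_nhds
    ((isClosed_image p hK hs).isOpen_compl.mem_nhds hm)
  filter_upwards [this] with z hz
  exact extF_eq_zero p h0 hz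
theorem m1_loc_extF (p : Fin A.n) (u : E → W) {y : E} (hy : y ∈ (A.ch p).target) :
    A.loc (A.extF p u) p =ᶠ[𝓝 y] u := by
  filter_upwards [(A.ch p).open_target.mem_nhds hy] with z hz
  exact loc_extF p u hz
theorem Sm_extF (p : Fin A.n) {u : E → W} {K : Set E} (hK : IsCompact K) (hs : K ⊆ (A.ch p).target)
    (hu : ∀ y ∈ K, ContDiffAt ℝ ∞ u y) (h0 : ∀ y ∈ (A.ch p).target, y ∉ K → u y = 0) :
    A.Sm (A.extF p u) := by
  refine Sm_of fun m => ?_
  by_cases hm : m ∈ (A.ch p).symm '' K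
  · obtain ⟨y, hy, rfl⟩ := hm
    refine ⟨p, (A.ch p).map_target (hs hy), ?_⟩
    rw [(A.ch p).right_inv (hs hy)]
    exact (hu y hy).congr_of_eventuallyEq (m1_loc_extF p u (hs hy))
  · refine ⟨A.idx m, A.mem m, ?_⟩
    refine contDiffAt_const.congr_of_eventuallyEq
      (m1_extF_zero p _ hK hs h0 ((A.ch _).map_source (A.mem m)) ?_)
    rwa [(A.ch _).left_inv (A.mem m)]
/-- transfer of bounds from chart `p` to all charts -/
theorem Nb_extF (p : Fin A.n) {K : Set E} (hK : IsCompact K) (hs : K ⊆ (A.ch p).target) (k : ℕ) :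
    ∃ C, 0 < C ∧ ∀ (u : E → W) (b : ℝ), 0 ≤ b → (∀ y ∈ K, ContDiffAt ℝ ∞ u y) →
      (∀ y ∈ (A.ch p).target, y ∉ K → u y = 0) →
      (∀ j ≤ k, ∀ y ∈ K, ‖iteratedFDeriv ℝ j u y‖ ≤ b) → A.Nb k (A.extF p u) (C * b) := by
  have h1 : ∀ q, ∃ D, 1 ≤ D ∧ ∀ j ≤ k,
      ∀ y ∈ Metric.closedBall (0 : E) 3 ∩ (A.ch q).symm ⁻¹' ((A.ch p).symm '' K),
      ‖iteratedFDeriv ℝ j (A.tr q p) y‖ ≤ D := by
    intro q
    refine m1_bound ?_ ?_ k
    · refine (isCompact_closedBall (0 : E) 3).of_isClosed_subset ?_ inter_subset_left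
      exact ((A.ch q).continuousOn_symm.mono (ball3_sub q)).preimage_isClosed_of_isClosed
        Metric.isClosed_closedBall (isClosed_image p hK hs)
    · rintro y ⟨hy, z, hz, e⟩
      exact tr_contDiffAt (ball3_sub q hy) (by rw [← e]; exact (A.ch p).map_target (hs hz))
  choose D hD using h1
  obtain ⟨D0, hD0⟩ := Finite.exists_le D
  set D1 := max D0 1 with hD1
  have h1D : 1 ≤ D1 := le_max_right _ _
  refine ⟨(k.factorial : ℝ) * D1 ^ k, by positivity, fun u b hb hu h0 hbd q j hj y hy => ?_⟩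
  have hyt := ball3_sub' q hy
  by_cases hm : (A.ch q).symm y ∈ (A.ch p).symm '' K
  · obtain ⟨z, hz, e⟩ := hm
    have hp : (A.ch q).symm y ∈ (A.ch p).source := by rw [← e]; exact (A.ch p).map_target (hs hz)
    have ez : A.tr q p y = z := by
      simp only [tr, Function.comp, ← e, (A.ch p).right_inv (hs hz)]
    have e1 : A.loc (A.extF p u) q =ᶠ[𝓝 y] u ∘ A.tr q p := by
      filter_upwards [(isOpen_ov q p).mem_nhds ⟨hyt, hp⟩] with w hw
      have hw2 : (A.ch q).symm w ∈ (A.ch p).source := hw.2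
      simp only [loc, extF, hw2, if_true, tr, Function.comp]
    rw [(e1.iteratedFDeriv ℝ j).self_of_nhds]
    have hus : ContDiffOn ℝ ∞ u (A.ch p).target := by
      intro w hw
      by_cases hwK : w ∈ K
      · exact (hu w hwK).contDiffWithinAt
      · refine (contDiffAt_const (c := (0 : W))).congr_of_eventuallyEq ?_ |>.contDiffWithinAt
        filter_upwards [(A.ch p).open_target.mem_nhds hw, hK.isClosed.isOpen_compl.mem_nhds hwK]
          with x hx hx'
        exact h0 x hx hx'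
    have key := norm_iteratedFDerivWithin_comp_le (n := j) (C := b) (D := D1) hus (A.sm q p)
      (by exact_mod_cast le_top) (A.ch p).open_target.uniqueDiffOn (isOpen_ov q p).uniqueDiffOn
      (fun w hw => (A.ch p).map_source hw.2) (x := y) ⟨hyt, hp⟩ ?_ ?_
    · rw [iteratedFDerivWithin_of_isOpen _ (isOpen_ov q p) ⟨hyt, hp⟩] at key
      refine key.trans ?_
      have f1 : (j.factorial : ℝ) ≤ k.factorial := by exact_mod_cast Nat.factorial_le hj
      have f2 : D1 ^ j ≤ D1 ^ k := pow_le_pow_right₀ h1D hj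
      calc (j.factorial : ℝ) * b * D1 ^ j ≤ k.factorial * b * D1 ^ k := by gcongr
        _ = _ := by ring
    · intro i hi
      have : (A.ch p ∘ (A.ch q).symm) y = z := ez
      rw [this, iteratedFDerivWithin_of_isOpen _ (A.ch p).open_target (hs hz)]
      exact hbd i (hi.trans hj) z hz
    · intro i hi1 hi
      rw [iteratedFDerivWithin_of_isOpen _ (isOpen_ov q p) ⟨hyt, hp⟩]
      refine ((hD q).2 i (hi.trans hj) y ⟨Metric.ball_subset_closedBall hy, z, hz, e⟩).trans ?_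
      exact ((hD0 q).trans (le_max_left _ _)).trans (le_self_pow₀ h1D (by omega))
  · rw [((m1_extF_zero p q hK hs h0 hyt hm).iteratedFDeriv ℝ j).self_of_nhds,
      iteratedFDeriv_fun_zero]
    simp only [Pi.zero_apply, norm_zero]
    positivity
/-- partition of unity -/
theorem exists_pou (A : Atl M) : ∃ ζ : Fin A.n → E → ℝ, (∀ p, ContDiff ℝ ∞ (ζ p)) ∧
    (∀ p, tsupport (ζ p) ⊆ Metric.closedBall 0 (3/2)) ∧ (∀ p y, 0 ≤ ζ p y) ∧
    ∀ m, ∑ p, A.extF p (ζ p) m = 1 := by
  let β : ContDiffBump (0 : E) := ⟨1, 3/2, one_pos, by norm_num⟩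
  have hβ0 : ∀ y, y ∉ Metric.closedBall (0 : E) (3/2) → β y = 0 := fun y hy =>
    β.zero_of_le_dist (not_le.1 (fun h => hy (Metric.mem_closedBall.2 h))).le
  have hs : ∀ p, Metric.closedBall (0 : E) (3/2) ⊆ (A.ch p).target := fun p =>
    (Metric.closedBall_subset_closedBall (by norm_num)).trans (A.tgt p)
  let S : M → ℝ := fun m => ∑ p, A.extF p β m
  have hS : A.Sm S := Sm.sum _ fun p _ =>
    Sm_extF p (isCompact_closedBall _ _) (hs p) (fun y _ => β.contDiff.contDiffAt) fun y _ hy => hβ0 y hy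
  have hnn : ∀ p m, 0 ≤ A.extF p β m := by
    intro p m
    unfold extF
    split_ifs
    · exact β.nonneg
    · exact le_rfl
  have hpos : ∀ m, 0 < S m := by
    intro m
    refine Finset.sum_pos' (fun p _ => hnn p m) ⟨A.idx m, Finset.mem_univ _, ?_⟩
    simp only [extF, A.mem m, if_true]
    rw [β.one_of_mem_closedBall (Metric.ball_subset_closedBall (A.b1 m))]
    exact one_pos
  refine ⟨fun p y => β y * (A.loc S p y)⁻¹, fun p => ?_, fun p => ?_, fun p y => ?_, fun m => ?_⟩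
  · refine contDiff_iff_contDiffAt.2 fun y => ?_
    by_cases hy : y ∈ Metric.closedBall (0 : E) (3/2)
    · exact β.contDiff.contDiffAt.mul ((hS.contDiffAt (hs p hy)).inv (hpos _).ne')
    · refine (contDiffAt_const (c := (0 : ℝ))).congr_of_eventuallyEq ?_
      filter_upwards [Metric.isClosed_closedBall.isOpen_compl.mem_nhds hy] with z hz
      simp [hβ0 z hz]
  · refine tsupport_mul_subset_left.trans ?_
    rw [β.tsupport_eq]
  · exact mul_nonneg β.nonneg (inv_nonneg.2 (hpos _).le)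
  · have : ∀ p, A.extF p (fun y => β y * (A.loc S p y)⁻¹) m = A.extF p β m * (S m)⁻¹ := by
      intro p
      unfold extF
      split_ifs with h
      · simp only [loc, (A.ch p).left_inv h]
      · simp
    simp only [this, ← Finset.sum_mul]
    exact mul_inv_cancel₀ (hpos m).ne'
end Atl

/-- smooth series on an open set -/
theorem contDiffOn_tsum' [CompleteSpace W] {U : Set E} (hU : IsOpen U) {f : ℕ → E → W}
    (hf : ∀ n, ContDiffOn ℝ ∞ (f n) U) {v : ℕ → ℕ → ℝ} (hv : ∀ k, Summable (v k))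
    (hb : ∀ k n, ∀ y ∈ U, ‖iteratedFDeriv ℝ k (f n) y‖ ≤ v k n) :
    ContDiffOn ℝ ∞ (fun y => ∑' n, f n y) U ∧
      ∀ k, ∀ y ∈ U, iteratedFDeriv ℝ k (fun y => ∑' n, f n y) y = ∑' n, iteratedFDeriv ℝ k (f n) y := by
  have key : ∀ y ∈ U, ContDiffAt ℝ ∞ (fun y => ∑' n, f n y) y ∧
      ∀ k, iteratedFDeriv ℝ k (fun y => ∑' n, f n y) y = ∑' n, iteratedFDeriv ℝ k (f n) y := by
    intro y hy
    obtain ⟨r, hr, hrU⟩ := Metric.nhds_basis_closedBall.mem_iff.1 (hU.mem_nhds hy)
    let β : ContDiffBump y := ⟨r / 2, r, by positivity, by linarith⟩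
    have hβ0 : ∀ z, z ∉ Metric.closedBall y r → β z = 0 := fun z hz =>
      β.zero_of_le_dist (by simpa using (not_le.1 hz).le)
    have hz : ∀ n z, z ∉ Metric.closedBall y r → (fun z => β z • f n z) =ᶠ[𝓝 z] fun _ => 0 := by
      intro n z hz
      filter_upwards [Metric.isClosed_closedBall.isOpen_compl.mem_nhds hz] with w hw
      simp [hβ0 w hw]
    have hg : ∀ n, ContDiff ℝ ∞ (fun z => β z • f n z) := by
      intro n
      refine contDiff_iff_contDiffAt.2 fun z => ?_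
      by_cases h : z ∈ Metric.closedBall y r
      · exact β.contDiff.contDiffAt.smul ((hf n).contDiffAt (hU.mem_nhds (hrU h)))
      · exact contDiffAt_const.congr_of_eventuallyEq (hz n z h)
    have hB : ∀ k : ℕ, ∃ b, 1 ≤ b ∧ ∀ j ≤ k, ∀ z ∈ Metric.closedBall y r,
        ‖iteratedFDeriv ℝ j β z‖ ≤ b := fun k =>
      Atl.m1_bound (isCompact_closedBall _ _) (fun z _ => β.contDiff.contDiffAt) k
    choose B hB using hB
    have hv0 : ∀ k n, 0 ≤ v k n := fun k n => (norm_nonneg _).trans (hb k n y hy)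
    let w : ℕ → ℕ → ℝ := fun k n => ∑ i ∈ Finset.range (k + 1), (k.choose i : ℝ) * B k * v (k - i) n
    have hw : ∀ k : ℕ, (k : ℕ∞) ≤ ⊤ → Summable (w k) := fun k _ =>
      summable_sum fun i _ => (hv (k - i)).mul_left _
    have hbd : ∀ (k n : ℕ) (z : E), (k : ℕ∞) ≤ ⊤ →
        ‖iteratedFDeriv ℝ k (fun z => β z • f n z) z‖ ≤ w k n := by
      intro k n z _
      have hB0 : 0 ≤ B k := zero_le_one.trans (hB k).1
      by_cases h : z ∈ Metric.closedBall y r
      · refine (Atl.m1_smul_le hU β.contDiff.contDiffOn (hf n) (hrU h) k).trans ?_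
        refine Finset.sum_le_sum fun i hi => ?_
        have hi' : i ≤ k := by simpa [Nat.lt_succ_iff] using hi
        have a1 := (hB k).2 i hi' z h
        have a2 := hb (k - i) n z (hrU h)
        gcongr
      · rw [((hz n z h).iteratedFDeriv ℝ k).self_of_nhds, iteratedFDeriv_fun_zero]
        simp only [Pi.zero_apply, norm_zero]
        exact Finset.sum_nonneg fun i _ => mul_nonneg (by positivity) (hv0 _ _)
    have h1 : ∀ᶠ z in 𝓝 y, β z = 1 := β.eventuallyEq_one
    have e : (fun y => ∑' n, f n y) =ᶠ[𝓝 y] fun z => ∑' n, β z • f n z := by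
      filter_upwards [h1] with z hz
      simp [hz]
    have en : ∀ n, (fun z => β z • f n z) =ᶠ[𝓝 y] f n := by
      intro n
      filter_upwards [h1] with z hz
      simp [hz]
    refine ⟨(contDiff_tsum (N := ⊤) hg hw hbd).contDiffAt.congr_of_eventuallyEq e, fun k => ?_⟩
    rw [(e.iteratedFDeriv ℝ k).self_of_nhds, iteratedFDeriv_tsum_apply (N := ⊤) hg hw hbd le_top]
    exact tsum_congr fun n => ((en n).iteratedFDeriv ℝ k).self_of_nhds
  exact ⟨fun y hy => (key y hy).1.contDiffWithinAt, fun k y hy => (key y hy).2 k⟩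

end Vale.Agent.P205
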