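import Vale.Agent.P205.D4
import Vale.Agent.P205.M1

open Set Filter Topology
open scoped ContDiff

noncomputable section
namespace Vale.Agent.P205

set_option linter.unusedSectionVars false

variable {M : Type*} [TopologicalSpace M] [T2Space M] [CompactSpace M] {A : Atl M}

/-! HA: calculus of bundle maps. -/

namespace Atl
theorem ha_tr_bij {p q : Fin A.n} {y : E} (hy : y ∈ (A.ch p).target)
    (hq : (A.ch p).symm y ∈ (A.ch q).source) : Function.Bijective (fderiv ℝ (A.tr p q) y) := by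
  have h := tr_fderiv_comp hy hq ((A.ch p).map_target hy)
  rw [tr_fderiv_self hy] at h
  have hi : Function.Injective (fderiv ℝ (A.tr p q) y) := by
    intro v w e
    have h1 := congrArg (fun T : E →L[ℝ] E => T v) h
    have h2 := congrArg (fun T : E →L[ℝ] E => T w) h
    simp only [ContinuousLinearMap.id_apply, ContinuousLinearMap.comp_apply] at h1 h2
    rw [h1, h2, e]
  exact ⟨hi, LinearMap.surjective_of_injective (f := (fderiv ℝ (A.tr p q) y : E →ₗ[ℝ] E)) hi⟩
theorem ha_tr_ch {p q : Fin A.n} {m : M} (hm : m ∈ (A.ch p).source) :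
    A.tr p q (A.ch p m) = A.ch q m := by
  simp only [tr, Function.comp, (A.ch p).left_inv hm]
theorem rep1_idx (L : M → Mat) (m : M) : A.rep1 L (A.idx m) (A.ch (A.idx m) m) = L m := by
  rw [rep1, (A.ch _).left_inv (A.mem m), tr_fderiv_self ((A.ch _).map_source (A.mem m)),
    ContinuousLinearMap.comp_id]
theorem rep1_tr (L : M → Mat) {p q : Fin A.n} {y : E} (hy : y ∈ (A.ch p).target)
    (hq : (A.ch p).symm y ∈ (A.ch q).source) :
    A.rep1 L p y = (A.rep1 L q (A.tr p q y)).comp (fderiv ℝ (A.tr p q) y) := by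
  rw [rep1, rep1, m1_tr_symm hq, tr_fderiv_comp hy hq (A.mem _), ContinuousLinearMap.comp_assoc]
theorem rep1_add (L L' : M → Mat) (p : Fin A.n) :
    A.rep1 (L + L') p = fun y => A.rep1 L p y + A.rep1 L' p y := by
  funext y
  simp only [rep1, Pi.add_apply, ContinuousLinearMap.add_comp]
theorem rep1_sub (L L' : M → Mat) (p : Fin A.n) :
    A.rep1 (L - L') p = fun y => A.rep1 L p y - A.rep1 L' p y := by
  funext y
  simp only [rep1, Pi.sub_apply, ContinuousLinearMap.sub_comp]
theorem rep1_dA {f : M → R3} (hf : A.Sm f) {p : Fin A.n} {y : E} (hy : y ∈ (A.ch p).target) :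
    A.rep1 (A.dA f) p y = fderiv ℝ (A.loc f p) y := by
  rw [(loc_tr f hy (A.mem _)).fderiv_eq, fderiv_comp y
    ((hf.contDiffAt (m1_tr_mem (A.mem _))).differentiableAt (by simp))
    ((tr_contDiffAt hy (A.mem _)).differentiableAt (by simp))]
  rfl
theorem rep1_ext1 (p : Fin A.n) (L : E → Mat) {y : E} (hy : y ∈ (A.ch p).target) :
    A.rep1 (A.ext1 p L) p y = L y := by
  have h := tr_fderiv_comp hy (A.mem ((A.ch p).symm y)) ((A.ch p).map_target hy)
  rw [tr_fderiv_self hy] at h
  simp only [rep1, ext1, (A.ch p).map_target hy, if_true, (A.ch p).right_inv hy]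
  rw [ContinuousLinearMap.comp_assoc]
  erw [← h]
  rw [ContinuousLinearMap.comp_id]
theorem rep1_congr {L L' : M → Mat} {p : Fin A.n} {y : E} (hy : y ∈ (A.ch p).target)
    (h : L =ᶠ[𝓝 ((A.ch p).symm y)] L') : A.rep1 L p =ᶠ[𝓝 y] A.rep1 L' p := by
  filter_upwards [((A.ch p).continuousAt_symm hy).eventually h] with z hz
  simp only [rep1, hz]
theorem rep1_inj_iff (L : M → Mat) {p : Fin A.n} {y : E} (hy : y ∈ (A.ch p).target) :
    Function.Injective (A.rep1 L p y) ↔ Function.Injective (L ((A.ch p).symm y)) := by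
  rw [rep1, ContinuousLinearMap.coe_comp]
  exact Function.Injective.of_comp_iff' _ (ha_tr_bij hy (A.mem _))
theorem L_ext {L L' : M → Mat} {m : M} {p : Fin A.n} (hm : m ∈ (A.ch p).source)
    (h : A.rep1 L p (A.ch p m) = A.rep1 L' p (A.ch p m)) : L m = L' m := by
  rw [rep1, rep1, (A.ch p).left_inv hm] at h
  have hs := (ha_tr_bij (q := A.idx m) ((A.ch p).map_source hm)
    (by rw [(A.ch p).left_inv hm]; exact A.mem m)).2
  refine ContinuousLinearMap.ext fun v => ?_
  obtain ⟨w, rfl⟩ := hs v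
  exact congrArg (fun T : Mat => T w) h
theorem ext1_smul_rep1 (p : Fin A.n) (u : E → ℝ) (L : M → Mat) :
    A.ext1 p (fun y => u y • A.rep1 L p y) = fun m => A.extF p u m • L m := by
  funext m
  by_cases hm : m ∈ (A.ch p).source
  · refine L_ext (L' := fun m => A.extF p u m • L m) hm ?_
    rw [rep1_ext1 p _ ((A.ch p).map_source hm)]
    simp only [rep1, extF, (A.ch p).left_inv hm, hm, if_true, ContinuousLinearMap.smul_comp]
  · simp only [ext1, extF, hm, if_false, zero_smul]
theorem ext1_add (p : Fin A.n) (L L' : E → Mat) :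
    A.ext1 p (fun y => L y + L' y) = A.ext1 p L + A.ext1 p L' := by
  funext m
  simp only [ext1, Pi.add_apply]
  split_ifs
  · rw [ContinuousLinearMap.add_comp]
  · simp
theorem ext1_eq_zero (p : Fin A.n) {L : E → Mat} {K : Set E}
    (h : ∀ y ∈ (A.ch p).target, y ∉ K → L y = 0) {m : M} (hm : m ∉ (A.ch p).symm '' K) :
    A.ext1 p L m = 0 := by
  unfold ext1
  split_ifs with h1
  · rw [h _ ((A.ch p).map_source h1) fun hK => hm ⟨_, hK, (A.ch p).left_inv h1⟩,
      ContinuousLinearMap.zero_comp]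
  · rfl
theorem dA_add {f g : M → R3} (hf : A.Sm f) (hg : A.Sm g) :
    A.dA (fun m => f m + g m) = A.dA f + A.dA g := by
  funext m
  exact fderiv_add
    ((hf.contDiffAt ((A.ch _).map_source (A.mem m))).differentiableAt (by simp))
    ((hg.contDiffAt ((A.ch _).map_source (A.mem m))).differentiableAt (by simp))
theorem ha_loc_congr {Z : Type} {f g : M → Z} {p : Fin A.n} {m : M} (hm : m ∈ (A.ch p).source)
    (h : f =ᶠ[𝓝 m] g) : A.loc f p =ᶠ[𝓝 (A.ch p m)] A.loc g p := by
  have hc := (A.ch p).continuousAt_symm ((A.ch p).map_source hm)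
  rw [ContinuousAt, (A.ch p).left_inv hm] at hc
  exact hc.eventually h
theorem dA_congr {f g : M → R3} {m : M} (h : f =ᶠ[𝓝 m] g) : A.dA f =ᶠ[𝓝 m] A.dA g := by
  filter_upwards [h.eventuallyEq_nhds] with z hz
  exact (ha_loc_congr (A.mem z) hz).fderiv_eq
theorem dA_extF (p : Fin A.n) {u : E → R3} {K : Set E} (hK : IsCompact K) (hs : K ⊆ (A.ch p).target)
    (hu : ContDiff ℝ ∞ u) (h0 : tsupport u ⊆ K) :
    A.dA (A.extF p u) = A.ext1 p (fun y => fderiv ℝ u y) := by
  have hz : ∀ y ∈ (A.ch p).target, y ∉ K → u y = 0 := fun y _ hy =>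
    image_eq_zero_of_notMem_tsupport fun h => hy (h0 h)
  have hS : A.Sm (A.extF p u) := Sm_extF p hK hs (fun y _ => hu.contDiffAt) hz
  funext m
  by_cases hm : m ∈ (A.ch p).source
  · refine L_ext hm ?_
    rw [rep1_ext1 p _ ((A.ch p).map_source hm), rep1_dA hS ((A.ch p).map_source hm)]
    exact (m1_loc_extF p u ((A.ch p).map_source hm)).fderiv_eq
  · have h1 := m1_extF_zero p (A.idx m) hK hs hz ((A.ch _).map_source (A.mem m)) (by
      rw [(A.ch _).left_inv (A.mem m)]
      rintro ⟨y, hy, rfl⟩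
      exact hm ((A.ch p).map_target (hs hy)))
    simp only [ext1, hm, if_false, dA]
    rw [h1.fderiv_eq, fderiv_fun_const]
    rfl
theorem SmOff_of {B : Set M} {L : M → Mat} (h : ∀ m, m ∉ B → ∃ p, m ∈ (A.ch p).source ∧
    ContDiffAt ℝ ∞ (A.rep1 L p) (A.ch p m)) : A.SmOff B L := by
  intro q y hy hB
  obtain ⟨p, hp, hc⟩ := h _ hB
  have e : A.rep1 L q =ᶠ[𝓝 y] fun z => (A.rep1 L p (A.tr q p z)).comp (fderiv ℝ (A.tr q p) z) := by
    filter_upwards [(isOpen_ov q p).mem_nhds ⟨hy, hp⟩] with z hz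
    exact rep1_tr L hz.1 hz.2
  refine ContDiffAt.congr_of_eventuallyEq ?_ e
  exact (ContDiffAt.comp y hc (tr_contDiffAt hy hp)).clm_comp
    ((tr_contDiffAt hy hp).fderiv_right (by simp))
theorem SmOff_dA {f : M → R3} (hf : A.Sm f) (B : Set M) : A.SmOff B (A.dA f) := by
  intro p y hy _
  refine ((hf.contDiffAt hy).fderiv_right (m := ∞) (by simp)).congr_of_eventuallyEq ?_
  filter_upwards [(A.ch p).open_target.mem_nhds hy] with z hz
  exact rep1_dA hf hz
theorem Fml.mono {B B' : Set M} {L : M → Mat} (h : A.Fml B L) (hB : B ⊆ B') : A.Fml B' L := 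
  ⟨fun p y hy hb => h.1 p y hy fun h' => hb (hB h'), fun m hm => h.2 m fun h' => hm (hB h')⟩
theorem Good.mono {B B' : Set M} (h : A.Good B) (hB : B ⊆ B') : A.Good B' := 
  let ⟨L, hL⟩ := h; ⟨L, hL.mono hB⟩
theorem Imm_of_dA {f : M → R3} (hf : A.Sm f) (h : ∀ m, Function.Injective (A.dA f m)) : A.Imm f := by
  intro p y hy
  rw [← rep1_dA hf hy]
  exact (rep1_inj_iff _ hy).2 (h _)
/-- modification of a formal immersion inside a chart -/
theorem Fml.update {B B' : Set M} {L : M → Mat} (h : A.Fml B L) (p : Fin A.n) {K : Set E}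
    (hK : IsCompact K) (hs : K ⊆ (A.ch p).target) {L' : E → Mat}
    (he : ∀ y ∈ (A.ch p).target, y ∉ K → L' y = A.rep1 L p y)
    (hg : ∀ y ∈ K, (A.ch p).symm y ∉ B' → ContDiffAt ℝ ∞ L' y ∧ Function.Injective (L' y))
    (hB : B \ (A.ch p).symm '' K ⊆ B') :
    ∃ L'', A.Fml B' L'' ∧ (∀ y ∈ (A.ch p).target, A.rep1 L'' p y = L' y) ∧
      ∀ m, m ∉ (A.ch p).symm '' K → L'' m = L m := by
  classical
  let L'' : M → Mat := fun m => if m ∈ (A.ch p).symm '' K then A.ext1 p L' m else L m
  have h1 : ∀ y ∈ (A.ch p).target, A.rep1 L'' p y = L' y := by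
    intro y hy
    by_cases hm : (A.ch p).symm y ∈ (A.ch p).symm '' K
    · rw [← rep1_ext1 p L' hy]
      simp only [rep1, L'', hm, if_true]
    · rw [he y hy fun hK => hm ⟨y, hK, rfl⟩]
      simp only [rep1, L'', hm, if_false]
  have h2 : ∀ m, m ∉ (A.ch p).symm '' K → L'' m = L m := fun m hm => by
    simp only [L'', hm, if_false]
  refine ⟨L'', ⟨SmOff_of fun m hm => ?_, fun m hm => ?_⟩, h1, h2⟩
  · by_cases hK' : m ∈ (A.ch p).symm '' K
    · obtain ⟨y, hy, rfl⟩ := hK'
      refine ⟨p, (A.ch p).map_target (hs hy), ?_⟩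
      rw [(A.ch p).right_inv (hs hy)]
      refine (hg y hy hm).1.congr_of_eventuallyEq ?_
      filter_upwards [(A.ch p).open_target.mem_nhds (hs hy)] with z hz
      exact h1 z hz
    · refine ⟨A.idx m, A.mem m, ?_⟩
      have hy := (A.ch _).map_source (A.mem m)
      have hmB : m ∉ B := fun hb => hm (hB ⟨hb, hK'⟩)
      refine (h.1 _ _ hy (by rwa [(A.ch _).left_inv (A.mem m)])).congr_of_eventuallyEq
        (rep1_congr hy ?_)
      rw [(A.ch _).left_inv (A.mem m)]
      filter_upwards [(isClosed_image p hK hs).isOpen_compl.mem_nhds hK'] with z hz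
      exact h2 z hz
  · by_cases hK' : m ∈ (A.ch p).symm '' K
    · obtain ⟨y, hy, rfl⟩ := hK'
      rw [← rep1_inj_iff _ (hs hy), h1 y (hs hy)]
      exact (hg y hy hm).2
    · rw [h2 m hK']
      exact h.2 m fun hb => hm (hB ⟨hb, hK'⟩)
theorem isOpen_component (A : Atl M) (m : M) : IsOpen (connectedComponent m) := by
  refine isOpen_iff_mem_nhds.2 fun x hx => ?_
  set p := A.idx x
  have hx3 : A.ch p x ∈ Metric.ball (0 : E) 3 := Metric.ball_subset_ball (by norm_num) (A.b1 x)
  have hS : IsPreconnected ((A.ch p).symm '' Metric.ball (0 : E) 3) :=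
    (convex_ball _ _).isPreconnected.image _ ((A.ch p).continuousOn_symm.mono (ball3_sub' p))
  have hxS : x ∈ (A.ch p).symm '' Metric.ball (0 : E) 3 := ⟨_, hx3, (A.ch p).left_inv (A.mem x)⟩
  have ho : IsOpen ((A.ch p).symm '' Metric.ball (0 : E) 3) :=
    (A.ch p).isOpen_image_symm_of_subset_target Metric.isOpen_ball (ball3_sub' p)
  refine mem_of_superset (ho.mem_nhds hxS) ?_
  rw [connectedComponent_eq hx]
  exact hS.subset_connectedComponent hxS
/-- injectivity of the differential on a compact set is stable in a continuous family -/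
theorem inj_stable {X : Type} [NormedAddCommGroup X] [NormedSpace ℝ X] {C : Set M} (hC : IsCompact C)
    {F : X → M → R3} (hF : ∀ a, A.Sm (F a))
    (hc : ∀ p, ContinuousOn (fun z : X × E => fderiv ℝ (A.loc (F z.1) p) z.2) (univ ×ˢ (A.ch p).target))
    (h0 : ∀ m ∈ C, Function.Injective (A.dA (F 0) m)) :
    ∀ᶠ a in 𝓝 (0 : X), ∀ m ∈ C, Function.Injective (A.dA (F a) m) := by
  have key : ∀ p, ∀ᶠ a in 𝓝 (0 : X), ∀ y ∈ Metric.closedBall (0 : E) 3 ∩ (A.ch p).symm ⁻¹' C,
      Function.Injective (fderiv ℝ (A.loc (F a) p) y) := by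
    intro p
    have hcp : IsCompact (Metric.closedBall (0 : E) 3 ∩ (A.ch p).symm ⁻¹' C) :=
      (isCompact_closedBall (0 : E) 3).of_isClosed_subset
        (((A.ch p).continuousOn_symm.mono (ball3_sub p)).preimage_isClosed_of_isClosed
          Metric.isClosed_closedBall hC.isClosed) inter_subset_left
    refine hcp.eventually_forall_of_forall_eventually
      (P := fun a y => Function.Injective (fderiv ℝ (A.loc (F a) p) y)) fun y hy => ?_
    have hyt := ball3_sub p hy.1
    have hca := (hc p).continuousAt (x := ((0 : X), y))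
      ((isOpen_univ.prod (A.ch p).open_target).mem_nhds ⟨mem_univ _, hyt⟩)
    have hi : Function.Injective (fderiv ℝ (A.loc (F 0) p) y) := by
      rw [← rep1_dA (hF 0) hyt]
      exact (rep1_inj_iff _ hyt).2 (h0 _ hy.2)
    exact hca.eventually (ContinuousLinearMap.isOpen_injective.mem_nhds hi)
  filter_upwards [eventually_all.2 key] with a ha m hm
  refine ha (A.idx m) _ ⟨Metric.ball_subset_closedBall (Metric.ball_subset_ball (by norm_num) (A.b1 m)), ?_⟩
  show (A.ch _).symm _ ∈ C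
  rwa [(A.ch _).left_inv (A.mem m)]
end Atl

theorem mat2_apply (a b : R3) (v : E) : mat2 a b v = v.1 • a + v.2 • b := by
  simp [mat2]
theorem mat2_eta (L : Mat) : mat2 (L (1, 0)) (L (0, 1)) = L := by
  refine ContinuousLinearMap.ext fun v => ?_
  rw [mat2_apply, ← map_smul, ← map_smul, ← map_add]
  congr 1
  ext <;> simp
theorem inj_iff_cross (L : Mat) : Function.Injective L ↔ crossProduct (L (1, 0)) (L (0, 1)) ≠ 0 := by
  rw [crossProduct_ne_zero_iff_linearIndependent, LinearIndependent.pair_iff,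
    injective_iff_map_eq_zero]
  constructor
  · intro h s t e
    have := h (s, t) (by rw [← mat2_eta L, mat2_apply]; exact e)
    exact ⟨congrArg Prod.fst this, congrArg Prod.snd this⟩
  · intro h v e
    rw [← mat2_eta L, mat2_apply] at e
    exact Prod.ext (h _ _ e).1 (h _ _ e).2
theorem isOpen_inj : IsOpen {L : Mat | Function.Injective L} := 
  ContinuousLinearMap.isOpen_injective
theorem umb_contDiff : ContDiff ℝ ∞ umb := by
  refine contDiff_pi.2 fun i => ?_
  fin_cases i <;> simp [umb] <;> fun_prop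
theorem fderiv_umb (y : E) : fderiv ℝ umb y = mat2 ![1, y.2, 0] ![0, y.1, 2 * y.2] := by
  refine HasFDerivAt.fderiv (hasFDerivAt_pi'' fun i => ?_)
  fin_cases i
  · refine (hasFDerivAt_fst (𝕜 := ℝ) (p := y)).congr_fderiv ?_
    ext <;> simp [mat2]
  · refine ((hasFDerivAt_fst (𝕜 := ℝ) (p := y)).mul (hasFDerivAt_snd (𝕜 := ℝ) (p := y))).congr_fderiv ?_
    ext <;> simp [mat2]
  · refine ((hasFDerivAt_snd (𝕜 := ℝ) (p := y)).pow 2).congr_fderiv ?_
    ext <;> simp [mat2]
theorem umb_inj {y : E} (h : y ≠ 0) : Function.Injective (fderiv ℝ umb y) := by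
  rw [fderiv_umb, injective_iff_map_eq_zero]
  intro v hv
  rw [mat2_apply] at hv
  have h0 := congrFun hv 0
  have h1 := congrFun hv 1
  have h2 := congrFun hv 2
  simp at h0 h1 h2
  rw [h0] at h1
  have : v.2 = 0 := by
    by_contra hne
    apply h
    have a : y.1 = 0 := by simpa [hne] using h1
    have b : y.2 = 0 := by simpa [hne] using h2
    exact Prod.ext a b
  exact Prod.ext h0 this
theorem umb_eq {y z : E} (h : umb y = umb z) : y = z ∨ (y.1 = 0 ∧ z.1 = 0 ∧ z.2 = -y.2) := by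
  have h0 := congrFun h 0
  have h1 := congrFun h 1
  have h2 := congrFun h 2
  simp [umb] at h0 h1 h2
  rw [← h0] at h1
  by_cases hy : y.1 = 0
  · rcases sq_eq_sq_iff_eq_or_eq_neg.1 h2 with e | e
    · exact Or.inl (Prod.ext h0 e)
    · exact Or.inr ⟨hy, h0 ▸ hy, by linarith⟩
  · exact Or.inl (Prod.ext h0 (mul_left_cancel₀ hy h1))

end Vale.Agent.P205
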