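import Vale.Agent.P205.D2
import Vale.Agent.P205.PI
import Vale.Agent.P205.T1

open Set Filter Topology
open scoped ContDiff

noncomputable section
namespace Vale.Agent.P205

/-! L1a: tools for loops. -/

/-- the basic window -/
def laφ : ContDiffBump (0 : ℝ) := ⟨1 / 200, 1 / 100, by norm_num, by norm_num⟩
/-- the small window -/
def laψ (c : ℝ) : ContDiffBump c := ⟨1 / 400, 1 / 200, by norm_num, by norm_num⟩
/-- centres -/
def lac (m : ℕ) : ℝ := (3 + 2 * m) / 100
def laH (t : ℝ) : ℝ := ∫ s in (0 : ℝ)..t, laφ s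
def lag (j : ℕ) (t : ℝ) : ℝ := laφ (t - lac (2 * j)) - laφ (t - lac (2 * j + 1))
def laP (j : ℕ) (t : ℝ) : ℝ := laH (t - lac (2 * j)) - laH (t - lac (2 * j + 1))

theorem la_supp {t : ℝ} (h : laφ t ≠ 0) : |t| < 1 / 100 := by
  have : t ∈ Function.support laφ := h
  rw [laφ.support_eq] at this
  simpa [laφ] using this

theorem la_uniq {t : ℝ} {m m' : ℕ} (h : laφ (t - lac m) ≠ 0) (h' : laφ (t - lac m') ≠ 0) :
    m = m' := by
  have h1 := abs_lt.1 (la_supp h)
  have h2 := abs_lt.1 (la_supp h')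
  simp only [lac] at h1 h2
  have h3 : (m : ℝ) < m' + 1 := by linarith [h1.1, h2.2]
  have h4 : (m' : ℝ) < m + 1 := by linarith [h1.2, h2.1]
  norm_cast at h3 h4
  omega

theorem laH_deriv (t : ℝ) : HasDerivAt laH (laφ t) t :=
  (laφ.continuous.integral_hasStrictDerivAt 0 t).hasDerivAt

theorem laH_sm : ContDiff ℝ ∞ laH := by
  rw [contDiff_infty_iff_deriv]
  refine ⟨fun t => (laH_deriv t).differentiableAt, ?_⟩
  rw [show deriv laH = laφ from funext fun t => (laH_deriv t).deriv]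
  exact laφ.contDiff

theorem laP_deriv (j : ℕ) (t : ℝ) : HasDerivAt (laP j) (lag j t) t :=
  ((laH_deriv _).comp_sub_const t _).sub ((laH_deriv _).comp_sub_const t _)

theorem laP_zero {j : ℕ} (hj : j < 4) {t : ℝ} (h : t ≤ 1 / 50 ∨ 1 / 5 ≤ t) : laP j t = 0 := by
  have i := fun a b => laφ.continuous.intervalIntegrable (μ := MeasureTheory.volume) a b
  rw [laP, laH, laH, intervalIntegral.integral_interval_sub_left (i _ _) (i _ _),
    intervalIntegral.integral_congr (g := fun _ => 0) fun s hs => ?_]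
  · simp
  · by_contra hn
    have h1 := abs_lt.1 (la_supp hn)
    have h2 : (j : ℝ) ≤ 3 := by exact_mod_cast Nat.lt_succ_iff.1 hj
    have h3 : (0 : ℝ) ≤ j := Nat.cast_nonneg j
    rw [uIcc_of_le (by simp only [lac]; push_cast; linarith)] at hs
    simp only [lac, mem_Icc] at hs
    push_cast at hs
    rcases h with h | h <;> linarith [h1.1, h1.2, hs.1, hs.2]

theorem lag_neg (j : ℕ) {t : ℝ} (h : t ≤ 0) : lag j t = 0 := by
  have : ∀ m, laφ (t - lac m) = 0 := fun m => by
    by_contra hn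
    have h1 := abs_lt.1 (la_supp hn)
    have h3 : (0 : ℝ) ≤ m := Nat.cast_nonneg m
    simp only [lac] at h1
    linarith [h1.1]
  simp [lag, this]

theorem la_deriv (j : ℕ) (t : ℝ) : deriv (fun t => laP j t - laP j (-t)) t = lag j |t| := by
  have h := (laP_deriv j t).sub ((laP_deriv j (-t)).comp t (hasDerivAt_neg t))
  refine h.deriv.trans ?_
  rcases le_total t 0 with h | h
  · rw [lag_neg j h, abs_of_nonpos h]; ring
  · rw [lag_neg j (neg_nonpos.2 h), abs_of_nonneg h]; ring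

theorem la_int {c : ℝ} (hc : |c| ≤ 1) :
    ∫ t in (-Real.pi)..Real.pi, (laψ c).normed MeasureTheory.volume t = 1 := by
  rw [intervalIntegral.integral_eq_integral_of_support_subset, (laψ c).integral_normed]
  rw [(laψ c).support_normed_eq]
  intro t ht
  have h1 : |t - c| < 1 / 200 := by simpa [laψ, Real.dist_eq] using ht
  have := abs_lt.1 h1
  have := abs_le.1 hc
  constructor <;> linarith [Real.pi_gt_three]

theorem la_ts {c t : ℝ} (h : t ∈ tsupport ((laψ c).normed MeasureTheory.volume)) :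
    |t - c| ≤ 1 / 200 := by
  rw [(laψ c).tsupport_normed_eq] at h
  simpa [laψ, Real.dist_eq] using h

theorem la_win {m : ℕ} (hm : m ≤ 8) {t : ℝ}
    (h : t ∈ tsupport ((laψ (lac m)).normed MeasureTheory.volume)) :
    t ∈ Icc (1 / 50 : ℝ) (1 / 5) ∧ ∀ m', laφ (|t| - lac m') = if m' = m then 1 else 0 := by
  have h0 := la_ts h
  have h1 := abs_le.1 h0
  have h2 : (m : ℝ) ≤ 8 := by exact_mod_cast hm
  have h3 : (0 : ℝ) ≤ m := Nat.cast_nonneg m
  have h4 : laφ (t - lac m) = 1 := laφ.one_of_mem_closedBall (by simpa [laφ] using h0)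
  simp only [lac] at h1
  refine ⟨⟨by linarith [h1.1], by linarith [h1.2]⟩, fun m' => ?_⟩
  rw [abs_of_nonneg (by linarith [h1.1])]
  split_ifs with e
  · rw [e, h4]
  · by_contra hn
    exact e (la_uniq hn (by rw [h4]; exact one_ne_zero))

theorem la_c {m : ℕ} (hm : m ≤ 8) : |lac m| ≤ 1 := by
  have h2 : (m : ℝ) ≤ 8 := by exact_mod_cast hm
  have h3 : (0 : ℝ) ≤ m := Nat.cast_nonneg m
  rw [lac, abs_le]; constructor <;> linarith

theorem exists_Sh : Nonempty Sh := by
  have sP : ∀ j, ContDiff ℝ ∞ (laP j) := fun j =>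
    (laH_sm.comp (contDiff_id.sub contDiff_const)).sub (laH_sm.comp (contDiff_id.sub contDiff_const))
  refine ⟨{
    bt j t := laP j t - laP j (-t)
    bm j := (laψ (lac (2 * j))).normed MeasureTheory.volume
    b0 := (laψ (lac 8)).normed MeasureTheory.volume
    sbt j := (sP j).sub ((sP j).comp contDiff_neg)
    sbm j := (laψ _).contDiff_normed
    sb0 := (laψ _).contDiff_normed
    odd j t := by simp
    z1 j t h := by
      rw [laP_zero j.2 (Or.inl (abs_le.1 h).2), laP_zero j.2 (Or.inl (by linarith [abs_le.1 h])),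
        sub_zero]
    z2 j t h := by
      rcases le_abs.1 h with h | h
      · rw [laP_zero j.2 (Or.inr h), laP_zero j.2 (Or.inl (by linarith)), sub_zero]
      · rw [laP_zero j.2 (Or.inr h), laP_zero j.2 (Or.inl (by linarith)), sub_zero]
    dle t := ?_
    m1 j t h := (la_win (by omega) (subset_tsupport _ h)).1
    m0 t h := (la_win le_rfl (subset_tsupport _ h)).1
    im j := la_int (la_c (by omega))
    i0 := la_int (la_c le_rfl)
    w1 j i t h := ?_
    w0 i t h := ?_ }⟩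
  · simp only [la_deriv]
    by_cases h : ∃ j : Fin 4, lag j |t| ≠ 0
    · obtain ⟨j, hj⟩ := h
      have k : ∀ {i : ℕ}, lag i |t| ≠ 0 → ∃ m, m / 2 = i ∧ laφ (|t| - lac m) ≠ 0 := by
        intro i hi
        by_contra hn
        push Not at hn
        exact hi (by rw [lag, hn _ (by omega), hn _ (by omega), sub_zero])
      rw [Finset.sum_eq_single j]
      · rw [lag, abs_le]
        constructor <;> linarith [laφ.nonneg' (|t| - lac (2 * j)), laφ.le_one (x := |t| - lac (2 * j)),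
          laφ.nonneg' (|t| - lac (2 * j + 1)), laφ.le_one (x := |t| - lac (2 * j + 1))]
      · intro i _ hi
        by_contra hn
        obtain ⟨m, h1, h2⟩ := k (abs_ne_zero.1 hn)
        obtain ⟨m', h3, h4⟩ := k hj
        exact hi (Fin.ext (by rw [← h1, ← h3, la_uniq h2 h4]))
      · simp
    · push Not at h
      simp [h]
  · have h1 := (la_win (by omega) h).2
    rw [la_deriv, lag, h1, h1, if_neg (show ¬ 2 * (i : ℕ) + 1 = 2 * j by omega), sub_zero]
    simp [Fin.ext_iff]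
  · have h1 := (la_win le_rfl h).2
    rw [la_deriv, lag, h1, h1, if_neg (by omega), if_neg (by omega), sub_zero]

/-- reduction of the angle modulo `2π` -/
def md (t : ℝ) : ℝ := t - 2 * Real.pi * (round (t / (2 * Real.pi)) : ℝ)
theorem md_mem (t : ℝ) : md t ∈ Icc (-Real.pi) Real.pi := by
  have h := abs_sub_round (t / (2 * Real.pi))
  have hp := Real.pi_pos
  have e : md t = 2 * Real.pi * (t / (2 * Real.pi) - round (t / (2 * Real.pi))) := by
    rw [md]; field_simp
  rw [e]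
  have := abs_le.1 h
  constructor <;> nlinarith [this.1, this.2]
theorem md_eq {t : ℝ} (h : |t| < Real.pi) : md t = t := by
  have hp := Real.pi_pos
  have := abs_lt.1 h
  rw [md, round_eq_zero_iff.2 ⟨by rw [le_div_iff₀ (by positivity)]; linarith [this.1],
    by rw [div_lt_iff₀ (by positivity)]; linarith [this.2]⟩]
  simp
theorem md_per (t : ℝ) : md (t + 2 * Real.pi) = md t := by
  have hp := Real.pi_pos
  rw [md, md, add_div, div_self (by positivity), round_add_one]
  push_cast; ring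

theorem md_alt {g : ℝ → ℝ} (h0 : ∀ t, 3 ≤ |t| → g t = 0) {t : ℝ} (n : ℤ)
    (h : |t - 2 * Real.pi * n| < 2 * Real.pi - 3) : g (md t) = g (t - 2 * Real.pi * n) := by
  by_cases e : round (t / (2 * Real.pi)) = n
  · rw [md, e]
  · have h1 : (1 : ℝ) ≤ |(round (t / (2 * Real.pi)) : ℝ) - n| := by
      exact_mod_cast Int.one_le_abs (sub_ne_zero.2 e)
    have hp := Real.pi_gt_three
    have h2 : 2 * Real.pi ≤ |t - 2 * Real.pi * n - md t| := by
      rw [md, show ∀ r : ℝ, t - 2 * Real.pi * n - (t - 2 * Real.pi * r) = 2 * Real.pi * (r - n) from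
        fun r => by ring, abs_mul, abs_of_pos (by positivity)]
      nlinarith
    have h3 := abs_sub (t - 2 * Real.pi * n) (md t)
    have h4 := abs_le.2 (md_mem t)
    rw [h0 _ (by linarith), h0 _ (by linarith)]

/-- periodization of a function vanishing near the ends of the period -/
theorem periodize {U : Set Pm} (hU : IsOpen U) {f : Pm × ℝ → ℝ} (hf : ContDiffOn ℝ ∞ f (U ×ˢ univ))
    (h0 : ∀ p ∈ U, ∀ t, 3 ≤ |t| → f (p, t) = 0) : SP U (fun z => f (z.1, md z.2)) := by
  refine ⟨fun z hz => ContDiffAt.contDiffWithinAt ?_, fun p _ t => by simp only [md_per]⟩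
  set n := round (z.2 / (2 * Real.pi))
  have h1 : ContDiffAt ℝ ∞ (fun y : Pm × ℝ => f (y.1, y.2 - 2 * Real.pi * n)) z :=
    ContDiffAt.comp z (g := f) (hf.contDiffAt ((hU.prod isOpen_univ).mem_nhds ⟨hz.1, trivial⟩))
      (by fun_prop)
  refine h1.congr_of_eventuallyEq ?_
  have h2 : ∀ᶠ y : Pm × ℝ in 𝓝 z, |y.2 - 2 * Real.pi * n| < 2 * Real.pi - 3 :=
    ContinuousAt.eventually_lt (by fun_prop) continuousAt_const
      ((abs_le.2 (md_mem z.2)).trans_lt (by linarith [Real.pi_gt_three]))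
  filter_upwards [h2, (hU.prod isOpen_univ).mem_nhds hz] with y h3 h4
  exact md_alt (g := fun t => f (y.1, t)) (h0 _ h4.1) n h3

theorem md_neg {f : ℝ → ℝ} (h0 : ∀ t, 3 ≤ |t| → f t = 0) (t : ℝ) : f (md (-t)) = f (-md t) := by
  have e : -t - 2 * Real.pi * ((-round (t / (2 * Real.pi)) : ℤ) : ℝ) = -md t := by
    rw [md]; push_cast; ring
  rw [md_alt h0 (-round (t / (2 * Real.pi))), e]
  rw [e, abs_neg]
  exact (abs_le.2 (md_mem t)).trans_lt (by linarith [Real.pi_gt_three])

theorem periodize_odd {f : ℝ → ℝ} (h0 : ∀ t, 3 ≤ |t| → f t = 0) (ho : ∀ t, f (-t) = -f t) (t : ℝ) :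
    f (md (-t)) = -f (md t) := by rw [md_neg h0, ho]
theorem periodize_even {f : ℝ → ℝ} (h0 : ∀ t, 3 ≤ |t| → f t = 0) (ho : ∀ t, f (-t) = f t) (t : ℝ) :
    f (md (-t)) = f (md t) := by rw [md_neg h0, ho]

theorem la_tot_md (f : ℝ → ℝ) :
    ∫ t in (-Real.pi)..Real.pi, f (md t) = ∫ t in (-Real.pi)..Real.pi, f t := by
  have hp := Real.pi_pos
  rw [intervalIntegral.integral_of_le (by linarith), intervalIntegral.integral_of_le (by linarith),
    MeasureTheory.integral_Ioc_eq_integral_Ioo, MeasureTheory.integral_Ioc_eq_integral_Ioo]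
  exact MeasureTheory.setIntegral_congr_fun measurableSet_Ioo fun t ht => by
    simp only [md_eq (abs_lt.2 ht)]

theorem exists_Om : Nonempty Om := by
  have hs : ∀ t, (laψ 0).normed MeasureTheory.volume t ≠ 0 → |t| ≤ 1 / 200 := fun t h => by
    simpa using la_ts (subset_tsupport _ h)
  have h0 : ∀ t, 3 ≤ |t| → (laψ 0).normed MeasureTheory.volume t = 0 := fun t h =>
    by_contra fun hn => by linarith [hs t hn]
  have h1 := periodize isOpen_univ (f := fun z => (laψ 0).normed MeasureTheory.volume z.2)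
    ((laψ 0).contDiff_normed.comp contDiff_snd).contDiffOn fun _ _ => h0
  refine ⟨{
    w t := (laψ 0).normed MeasureTheory.volume (md t)
    sm := ?_
    per t := by rw [md_per]
    ev := periodize_even h0 (laψ 0).normed_neg
    int := by rw [la_tot_md, la_int (by simp)]
    supp t h h' := ?_ }⟩
  · have h2 := h1.sm
    rw [univ_prod_univ, contDiffOn_univ] at h2
    exact h2.comp (contDiff_prodMk_right (0 : Pm))
  · rw [md_alt h0 0 (by simpa using h.trans_lt (by linarith [Real.pi_gt_three]))] at h'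
    have := hs _ h'
    simp only [Int.cast_zero, mul_zero, sub_zero] at this
    linarith

/-- monotone implicit function lemma -/
theorem MIF {U : Set Pm} (hU : IsOpen U) {Φ : Pm × ℝ → ℝ} (hΦ : ContDiffOn ℝ ∞ Φ (U ×ˢ univ))
    {r0 r1 : ℝ} (hr : r0 < r1) (hd : ∀ p ∈ U, ∀ r ∈ Icc r0 r1, 0 < dθ Φ (p, r))
    (h0 : ∀ p ∈ U, Φ (p, r0) < 0) (h1 : ∀ p ∈ U, 0 < Φ (p, r1)) :
    ∃ r : Pm → ℝ, ContDiffOn ℝ ∞ r U ∧ ∀ p ∈ U, r p ∈ Ioo r0 r1 ∧ Φ (p, r p) = 0 := by
  have hc : ∀ p ∈ U, ∀ r, ContDiffAt ℝ ∞ Φ (p, r) := fun p hp r =>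
    hΦ.contDiffAt ((hU.prod isOpen_univ).mem_nhds ⟨hp, trivial⟩)
  have hD : ∀ p ∈ U, ∀ r, HasDerivAt (fun t => Φ (p, t)) (dθ Φ (p, r)) r := fun p hp r =>
    dθ_hasDerivAt ((hc p hp r).differentiableAt (by simp))
  have hC : ∀ p ∈ U, ContinuousOn (fun t => Φ (p, t)) (Icc r0 r1) := fun p hp r _ =>
    (hD p hp r).continuousAt.continuousWithinAt
  have hex : ∀ p, ∃ r, p ∈ U → r ∈ Ioo r0 r1 ∧ Φ (p, r) = 0 := by
    intro p
    by_cases hp : p ∈ U
    · obtain ⟨r, h2, h3⟩ := intermediate_value_Ioo hr.le (hC p hp) ⟨h0 p hp, h1 p hp⟩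
      exact ⟨r, fun _ => ⟨h2, h3⟩⟩
    · exact ⟨0, fun h => absurd h hp⟩
  choose r hr' using hex
  refine ⟨r, fun p hp => ContDiffAt.contDiffWithinAt ?_, hr'⟩
  have hi : (fderiv ℝ Φ (p, r p) ∘L .inr ℝ Pm ℝ).IsInvertible := by
    have h2 := (hd p hp _ (Ioo_subset_Icc_self (hr' p hp).1)).ne'
    have e : fderiv ℝ Φ (p, r p) ∘L .inr ℝ Pm ℝ = dθ Φ (p, r p) • ContinuousLinearMap.id ℝ ℝ := by
      ext; simp [dθ]
    rw [e]
    refine ContinuousLinearMap.IsInvertible.of_inverse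
      (g := (dθ Φ (p, r p))⁻¹ • ContinuousLinearMap.id ℝ ℝ) ?_ ?_ <;> ext <;> simp [h2]
  have h2 := (hc p hp (r p)).contDiffAt_implicitFunction (by simp) hi
  refine h2.congr_of_eventuallyEq ?_
  have h3 := h2.continuousAt.eventually_mem ((isOpen_Ioo (a := r0) (b := r1)).mem_nhds (by
    rw [ContDiffAt.implicitFunction_apply_self]; exact (hr' p hp).1))
  filter_upwards [h3, (hc p hp (r p)).eventually_apply_implicitFunction (by simp) hi,
    hU.mem_nhds hp] with x h4 h5 hx
  have hm : StrictMonoOn (fun t => Φ (x, t)) (Icc r0 r1) :=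
    strictMonoOn_of_deriv_pos (convex_Icc _ _) (hC x hx) fun t ht => by
      rw [(hD x hx t).deriv]; exact hd x hx t (interior_subset ht)
  exact hm.injOn (Ioo_subset_Icc_self (hr' x hx).1) (Ioo_subset_Icc_self h4)
    (((hr' x hx).2.trans (hr' p hp).2.symm).trans h5.symm)

theorem Sh.bk_hasDerivAt (S : Sh) (κ : Fin 4 → ℝ) (t : ℝ) :
    HasDerivAt (S.bk κ) (1 + ∑ j, κ j * deriv (S.bt j) t) t :=
  (hasDerivAt_id t).add (HasDerivAt.fun_sum fun j _ =>
    (((S.sbt j).differentiable (by simp) t).hasDerivAt.const_mul _))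

theorem Sh.bk_deriv_pos (S : Sh) {κ : Fin 4 → ℝ} (h : ‖κ‖ < 3/4) (t : ℝ) :
    1/4 ≤ deriv (S.bk κ) t ∧ deriv (S.bk κ) t ≤ 2 := by
  rw [(S.bk_hasDerivAt κ t).deriv]
  have h1 : |∑ j, κ j * deriv (S.bt j) t| ≤ 3 / 4 := by
    refine (Finset.abs_sum_le_sum_abs _ _).trans ?_
    calc _ ≤ ∑ j, 3 / 4 * |deriv (S.bt j) t| := Finset.sum_le_sum fun j _ => by
          rw [abs_mul]
          exact mul_le_mul_of_nonneg_right ((norm_le_pi_norm κ j).trans h.le) (abs_nonneg _)
      _ ≤ _ := by rw [← Finset.mul_sum]; linarith [S.dle t]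
  have := abs_le.1 h1
  constructor <;> linarith [this.1, this.2]
theorem Sh.bk_contDiff (S : Sh) : ContDiff ℝ ∞ (fun z : Pm × ℝ => S.bk z.1.2.2 z.2) :=
  contDiff_snd.add (ContDiff.sum fun j _ => ContDiff.mul (by fun_prop) ((S.sbt j).comp contDiff_snd))
theorem Sh.bk_odd (S : Sh) (κ : Fin 4 → ℝ) (t : ℝ) : S.bk κ (-t) = -S.bk κ t := by
  simp [Sh.bk, S.odd, add_comm]

end Vale.Agent.P205
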