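import Vale.Agent.P205.M1
import Vale.Agent.P205.G1

open Set Filter Topology
open scoped ContDiff

noncomputable section
namespace Vale.Agent.P205

set_option linter.unusedSectionVars false

variable {M : Type*} [TopologicalSpace M] [T2Space M] [CompactSpace M] {A : Atl M}
  {W : Type} [NormedAddCommGroup W] [NormedSpace ℝ W]

/-! M2: atlas calculus for tensors. -/

/-- pull back as a linear map -/
def m2pull (L : E →L[ℝ] E) : S3 →L[ℝ] S3 :=
  LinearMap.toContinuousLinearMap ⟨⟨pull L, pull_add L⟩, pull_smul L⟩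
theorem m2pull_apply (L : E →L[ℝ] E) (S : S3) : m2pull L S = pull L S := rfl
theorem m2pull_contDiff : ContDiff ℝ ∞ m2pull := by
  refine contDiff_clm_apply_iff.2 fun S => ?_
  simp only [m2pull_apply, pull, qf]
  fun_prop
theorem m2_pull_zero (L : E →L[ℝ] E) : pull L 0 = 0 := (m2pull L).map_zero
theorem m2_pull_sub (L : E →L[ℝ] E) (S T : S3) : pull L (S - T) = pull L S - pull L T :=
  (m2pull L).map_sub S T
theorem m2_bil_le (L L' : E →L[ℝ] V) (v w : E) (hv : ‖v‖ = 1) (hw : ‖w‖ = 1) :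
    |L v ⬝ᵥ L' w| ≤ 4 * ‖L‖ * ‖L'‖ := by
  refine (abs_dot_le _ _).trans ?_
  have h1 := L.le_opNorm v
  have h2 := L'.le_opNorm w
  rw [hv, mul_one] at h1
  rw [hw, mul_one] at h2
  gcongr
/-- the bilinear map giving the induced metric -/
def m2B : (E →L[ℝ] V) →L[ℝ] (E →L[ℝ] V) →L[ℝ] S3 :=
  LinearMap.mkContinuous₂ (LinearMap.mk₂ ℝ
    (fun L L' => (L (1, 0) ⬝ᵥ L' (1, 0), L (1, 0) ⬝ᵥ L' (0, 1), L (0, 1) ⬝ᵥ L' (0, 1)))
    (fun _ _ _ => by simp) (fun _ _ _ => by simp) (fun _ _ _ => by simp) (fun _ _ _ => by simp)) 4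
    (fun L L' => by
      simp only [LinearMap.mk₂_apply, Prod.norm_def, Real.norm_eq_abs]
      exact max_le (m2_bil_le _ _ _ _ (by simp) (by simp))
        (max_le (m2_bil_le _ _ _ _ (by simp) (by simp)) (m2_bil_le _ _ _ _ (by simp) (by simp))))
theorem m2B_apply (L L' : E →L[ℝ] V) : m2B L L' =
    (L (1, 0) ⬝ᵥ L' (1, 0), L (1, 0) ⬝ᵥ L' (0, 1), L (0, 1) ⬝ᵥ L' (0, 1)) := rfl
theorem m2_met (G : E → V) : met G = fun x => m2B (fderiv ℝ G x) (fderiv ℝ G x) := rfl
theorem m2B_bound {F G : E → V} {U : Set E} (hU : IsOpen U) (hF : ContDiffOn ℝ ∞ F U)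
    (hG : ContDiffOn ℝ ∞ G U) {y : E} (hy : y ∈ U) {j k : ℕ} (hj : j ≤ k) {a b lam : ℝ} (hl : 1 ≤ lam)
    (h1 : ∀ i ≤ k, ‖iteratedFDeriv ℝ (i + 1) F y‖ ≤ a * lam ^ i)
    (h2 : ∀ i ≤ k, ‖iteratedFDeriv ℝ (i + 1) G y‖ ≤ b * lam ^ i) :
    ‖iteratedFDeriv ℝ j (fun x => m2B (fderiv ℝ F x) (fderiv ℝ G x)) y‖ ≤
      4 * 2 ^ k * a * b * lam ^ k := by
  have ha : 0 ≤ a := by simpa using (norm_nonneg _).trans (h1 0 (Nat.zero_le _))
  have hb : 0 ≤ b := by simpa using (norm_nonneg _).trans (h2 0 (Nat.zero_le _))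
  have := m2B.norm_iteratedFDerivWithin_le_of_bilinear (N := ∞)
    (hF.fderiv_of_isOpen hU (by simp)) (hG.fderiv_of_isOpen hU (by simp)) hU.uniqueDiffOn hy
    (n := j) (by exact_mod_cast le_top)
  simp only [iteratedFDerivWithin_of_isOpen _ hU hy, norm_iteratedFDeriv_fderiv] at this
  refine this.trans ?_
  have hl0 : 0 ≤ lam := zero_le_one.trans hl
  calc _ ≤ 4 * ∑ i ∈ Finset.range (j + 1), (j.choose i : ℝ) * (a * b * lam ^ j) := by
        refine mul_le_mul (LinearMap.mkContinuous₂_norm_le _ (by norm_num) _) (Finset.sum_le_sum fun i hi => ?_)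
          (Finset.sum_nonneg fun i _ => by positivity) (by norm_num)
        have hi' : i ≤ j := by simpa [Nat.lt_succ_iff] using hi
        have a1 := h1 i (hi'.trans hj)
        have a2 := h2 (j - i) (by omega)
        calc _ ≤ (j.choose i : ℝ) * (a * lam ^ i) * (b * lam ^ (j - i)) := by gcongr
          _ = _ := by rw [← pow_mul_pow_sub lam hi']; ring
    _ = 4 * 2 ^ j * a * b * lam ^ j := by
        rw [← Finset.sum_mul]
        have : ∑ i ∈ Finset.range (j + 1), (j.choose i : ℝ) = 2 ^ j := by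
          exact_mod_cast Nat.sum_range_choose j
        rw [this]; ring
    _ ≤ _ := by gcongr; norm_num

namespace Atl
theorem rep_idx (T : M → S3) (m : M) : A.rep T (A.idx m) (A.ch (A.idx m) m) = T m := by
  rw [rep, (A.ch _).left_inv (A.mem m), tr_fderiv_self ((A.ch _).map_source (A.mem m)), pull_id]
theorem rep_tr (T : M → S3) {p q : Fin A.n} {y : E} (hy : y ∈ (A.ch p).target)
    (hq : (A.ch p).symm y ∈ (A.ch q).source) :
    A.rep T p y = pull (fderiv ℝ (A.tr p q) y) (A.rep T q (A.tr p q y)) := by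
  rw [rep, rep, m1_tr_symm hq, tr_fderiv_comp hy hq (A.mem _), pull_comp]
theorem rep_add (S T : M → S3) (p : Fin A.n) : A.rep (S + T) p = fun y => A.rep S p y + A.rep T p y := by
  funext y
  simp only [rep, Pi.add_apply, pull_add]
theorem rep_sub (S T : M → S3) (p : Fin A.n) : A.rep (S - T) p = fun y => A.rep S p y - A.rep T p y := by
  funext y
  simp only [rep, Pi.sub_apply, m2_pull_sub]
theorem rep_smul (c : ℝ) (T : M → S3) (p : Fin A.n) : A.rep (c • T) p = fun y => c • A.rep T p y := by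
  funext y
  simp only [rep, Pi.smul_apply, pull_smul]
theorem rep_fsmul (f : M → ℝ) (T : M → S3) (p : Fin A.n) :
    A.rep (fun m => f m • T m) p = fun y => A.loc f p y • A.rep T p y := by
  funext y
  simp only [rep, loc, pull_smul]
theorem rep_zero (p : Fin A.n) : A.rep 0 p = fun _ => 0 := by
  funext y
  simp only [rep, Pi.zero_apply, m2_pull_zero]
theorem rep_sum {κ : Type*} (s : Finset κ) (T : κ → M → S3) (p : Fin A.n) :
    A.rep (∑ j ∈ s, T j) p = fun y => ∑ j ∈ s, A.rep (T j) p y := by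
  funext y
  simp only [rep, Finset.sum_apply, ← m2pull_apply, map_sum]
theorem m2_fderiv_loc {F : M → W} (h : A.Sm F) {p q : Fin A.n} {y : E} (hy : y ∈ (A.ch p).target)
    (hq : (A.ch p).symm y ∈ (A.ch q).source) : fderiv ℝ (A.loc F p) y =
      (fderiv ℝ (A.loc F q) (A.tr p q y)).comp (fderiv ℝ (A.tr p q) y) := by
  rw [(loc_tr F hy hq).fderiv_eq, fderiv_comp y
    ((h.contDiffAt (m1_tr_mem hq)).differentiableAt (by simp))
    ((tr_contDiffAt hy hq).differentiableAt (by simp))]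
theorem rep_metA {F : M → V} (h : A.Sm F) {p : Fin A.n} {y : E} (hy : y ∈ (A.ch p).target) :
    A.rep (A.metA F) p y = met (A.loc F p) y := by
  refine S3_ext fun v w => ?_
  rw [rep, qf_pull, metA, qf_met, qf_met, m2_fderiv_loc h hy (A.mem _)]
  rfl
theorem rep_sqA {ψ : M → ℝ} (h : A.Sm ψ) {p : Fin A.n} {y : E} (hy : y ∈ (A.ch p).target) :
    A.rep (A.sqA ψ) p y = sqv (dcov (A.loc ψ p) y) := by
  refine S3_ext fun v w => ?_
  rw [rep, qf_pull, sqA, qf_sqv, qf_sqv, dotE_dcov, dotE_dcov, dotE_dcov, dotE_dcov,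
    m2_fderiv_loc h hy (A.mem _)]
  rfl
theorem rep_extT (p : Fin A.n) (T : E → S3) {y : E} (hy : y ∈ (A.ch p).target) :
    A.rep (A.extT p T) p y = T y := by
  have h := tr_fderiv_comp hy (A.mem ((A.ch p).symm y)) ((A.ch p).map_target hy)
  rw [tr_fderiv_self hy] at h
  simp only [rep, extT, (A.ch p).map_target hy, if_true, (A.ch p).right_inv hy]
  rw [← pull_comp]
  erw [← h]
  rw [pull_id]
theorem extT_eq_zero (p : Fin A.n) {T : E → S3} {K : Set E}
    (hT : ∀ y ∈ (A.ch p).target, y ∉ K → T y = 0) {m : M} (hm : m ∉ (A.ch p).symm '' K) :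
    A.extT p T m = 0 := by
  unfold extT
  split_ifs with h1
  · rw [hT _ ((A.ch p).map_source h1) fun hK => hm ⟨_, hK, (A.ch p).left_inv h1⟩, m2_pull_zero]
  · rfl
theorem extT_add (p : Fin A.n) (S T : E → S3) :
    A.extT p (fun y => S y + T y) = A.extT p S + A.extT p T := by
  funext m
  simp only [extT, Pi.add_apply]
  split_ifs
  · rw [pull_add]
  · simp
theorem extT_sum {κ : Type*} (s : Finset κ) (p : Fin A.n) (T : κ → E → S3) :
    A.extT p (fun y => ∑ j ∈ s, T j y) = ∑ j ∈ s, A.extT p (T j) := by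
  funext m
  simp only [extT, Finset.sum_apply]
  split_ifs
  · simp only [← m2pull_apply, map_sum]
  · simp
theorem extT_congr (p : Fin A.n) {S T : E → S3} (h : ∀ y ∈ (A.ch p).target, S y = T y) :
    A.extT p S = A.extT p T := by
  funext m
  simp only [extT]
  split_ifs with hm
  · rw [h _ ((A.ch p).map_source hm)]
  · rfl
theorem m2_T_ext {S T : M → S3} {m : M} {p : Fin A.n} (hm : m ∈ (A.ch p).source)
    (h : A.rep S p (A.ch p m) = A.rep T p (A.ch p m)) : S m = T m := by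
  have hy := (A.ch _).map_source (A.mem m)
  have hq : (A.ch (A.idx m)).symm (A.ch (A.idx m) m) ∈ (A.ch p).source := by
    rwa [(A.ch _).left_inv (A.mem m)]
  have e : A.tr (A.idx m) p (A.ch (A.idx m) m) = A.ch p m := by
    simp only [tr, Function.comp, (A.ch _).left_inv (A.mem m)]
  rw [← rep_idx (A := A) S, ← rep_idx (A := A) T, rep_tr S hy hq, rep_tr T hy hq, e, h]
theorem extT_smul_rep (p : Fin A.n) (u : E → ℝ) (T : M → S3) :
    A.extT p (fun y => u y • A.rep T p y) = fun m => A.extF p u m • T m := by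
  funext m
  by_cases hm : m ∈ (A.ch p).source
  · refine m2_T_ext (T := fun m => A.extF p u m • T m) hm ?_
    rw [rep_extT p _ ((A.ch p).map_source hm), rep_fsmul]
    simp only [loc_extF p u ((A.ch p).map_source hm)]
  · simp only [extT, extF, hm, if_false, zero_smul]
theorem extT_fsmul (p : Fin A.n) (f : M → ℝ) (T : E → S3) :
    A.extT p (fun y => A.loc f p y • T y) = fun m => f m • A.extT p T m := by
  funext m
  simp only [extT]
  split_ifs with hm
  · rw [pull_smul, loc, (A.ch p).left_inv hm]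
  · simp
theorem T_ext {S T : M → S3} {m : M} {p : Fin A.n} (hm : m ∈ (A.ch p).source)
    (h : A.rep S p (A.ch p m) = A.rep T p (A.ch p m)) : S m = T m := 
  m2_T_ext hm h
theorem metA_congr {F G : M → V} {m : M} (h : F =ᶠ[𝓝 m] G) : A.metA F m = A.metA G m := by
  have hc := (A.ch (A.idx m)).continuousAt_symm ((A.ch _).map_source (A.mem m))
  rw [ContinuousAt, (A.ch _).left_inv (A.mem m)] at hc
  have e : A.loc F (A.idx m) =ᶠ[𝓝 (A.ch (A.idx m) m)] A.loc G (A.idx m) := hc.eventually h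
  simp only [metA, met, e.fderiv_eq]
theorem metA_smul (c : ℝ) {F : M → V} (hF : A.Sm F) : A.metA (fun m => c • F m) = c ^ 2 • A.metA F := by
  funext m
  have e : fderiv ℝ (A.loc (fun m => c • F m) (A.idx m)) (A.ch (A.idx m) m) =
      c • fderiv ℝ (A.loc F (A.idx m)) (A.ch (A.idx m) m) :=
    fderiv_const_smul
      ((hF.contDiffAt ((A.ch _).map_source (A.mem m))).differentiableAt (by simp)) c
  simp only [metA, m2_met, e, map_smul, smul_apply, Pi.smul_apply, smul_smul, sq]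
theorem m2_rep_tr (T : M → S3) {p q : Fin A.n} {y : E} (hy : y ∈ (A.ch p).target)
    (hq : (A.ch p).symm y ∈ (A.ch q).source) :
    A.rep T p =ᶠ[𝓝 y] fun z => m2pull (fderiv ℝ (A.tr p q) z) (A.rep T q (A.tr p q z)) := by
  filter_upwards [(isOpen_ov p q).mem_nhds ⟨hy, hq⟩] with z hz
  exact rep_tr T hz.1 hz.2
theorem m2_pull_tr {p q : Fin A.n} {y : E} (hy : y ∈ (A.ch p).target)
    (hq : (A.ch p).symm y ∈ (A.ch q).source) :
    ContDiffAt ℝ ∞ (fun z => m2pull (fderiv ℝ (A.tr p q) z)) y :=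
  m2pull_contDiff.contDiffAt.comp y ((tr_contDiffAt hy hq).fderiv_right (by simp))
theorem TSm_of {T : M → S3}
    (h : ∀ m, ∃ p, m ∈ (A.ch p).source ∧ ContDiffAt ℝ ∞ (A.rep T p) (A.ch p m)) : A.TSm T := by
  intro q y hy
  obtain ⟨p, hp, hc⟩ := h ((A.ch q).symm y)
  refine ContDiffAt.contDiffWithinAt ?_
  refine ContDiffAt.congr_of_eventuallyEq ?_ (m2_rep_tr T hy hp)
  exact (m2_pull_tr hy hp).clm_apply (ContDiffAt.comp (g := A.rep T p) y hc (tr_contDiffAt hy hp))
theorem TSm.contDiffAt {T : M → S3} (h : A.TSm T) {p : Fin A.n} {y : E} (hy : y ∈ (A.ch p).target) :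
    ContDiffAt ℝ ∞ (A.rep T p) y := 
  (h p).contDiffAt ((A.ch p).open_target.mem_nhds hy)
theorem TSm.zero : A.TSm 0 := fun p => by
  rw [rep_zero]; exact contDiffOn_const
theorem TSm.add {S T : M → S3} (h : A.TSm S) (h' : A.TSm T) : A.TSm (S + T) := fun p => by
  rw [rep_add]; exact (h p).add (h' p)
theorem TSm.sub {S T : M → S3} (h : A.TSm S) (h' : A.TSm T) : A.TSm (S - T) := fun p => by
  rw [rep_sub]; exact (h p).sub (h' p)
theorem TSm.smul (c : ℝ) {T : M → S3} (h : A.TSm T) : A.TSm (c • T) := fun p => by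
  rw [rep_smul]; exact (h p).const_smul c
theorem TSm.fsmul {f : M → ℝ} {T : M → S3} (hf : A.Sm f) (h : A.TSm T) :
    A.TSm (fun m => f m • T m) := fun p => by
  rw [rep_fsmul]; exact (hf p).smul (h p)
theorem TSm.sum {κ : Type*} (s : Finset κ) {T : κ → M → S3} (h : ∀ j ∈ s, A.TSm (T j)) :
    A.TSm (∑ j ∈ s, T j) := fun p => by
  rw [rep_sum]; exact ContDiffOn.sum fun j hj => h j hj p
theorem TSm_metA {F : M → V} (h : A.Sm F) : A.TSm (A.metA F) := fun p => by
  refine ContDiffOn.congr ?_ fun y hy => rep_metA h hy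
  have := (h p).fderiv_of_isOpen (m := ∞) (A.ch p).open_target (by simp)
  rw [m2_met]
  exact (m2B.contDiff.comp_contDiffOn this).clm_apply this
theorem TSm_sqA {ψ : M → ℝ} (h : A.Sm ψ) : A.TSm (A.sqA ψ) := fun p => by
  refine ContDiffOn.congr ?_ fun y hy => rep_sqA h hy
  have := (h p).fderiv_of_isOpen (m := ∞) (A.ch p).open_target (by simp)
  have h1 := this.clm_apply (contDiffOn_const (c := ((1 : ℝ), (0 : ℝ))))
  have h2 := this.clm_apply (contDiffOn_const (c := ((0 : ℝ), (1 : ℝ))))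
  exact (h1.pow 2).prodMk ((h1.mul h2).prodMk (h2.pow 2))
theorem m2_extT_zero (p q : Fin A.n) {T : E → S3} {K : Set E} (hK : IsCompact K)
    (hs : K ⊆ (A.ch p).target) (h0 : ∀ y ∈ (A.ch p).target, y ∉ K → T y = 0) {y : E}
    (hy : y ∈ (A.ch q).target) (hm : (A.ch q).symm y ∉ (A.ch p).symm '' K) :
    A.rep (A.extT p T) q =ᶠ[𝓝 y] fun _ => 0 := by
  have := ((A.ch q).continuousAt_symm hy).preimage_mem_nhds
    ((isClosed_image p hK hs).isOpen_compl.mem_nhds hm)
  filter_upwards [this] with z hz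
  rw [rep, extT_eq_zero p h0 hz, m2_pull_zero]
theorem TSm_extT (p : Fin A.n) {T : E → S3} {K : Set E} (hK : IsCompact K) (hs : K ⊆ (A.ch p).target)
    (hT : ∀ y ∈ K, ContDiffAt ℝ ∞ T y) (h0 : ∀ y ∈ (A.ch p).target, y ∉ K → T y = 0) :
    A.TSm (A.extT p T) := by
  refine TSm_of fun m => ?_
  by_cases hm : m ∈ (A.ch p).symm '' K
  · obtain ⟨y, hy, rfl⟩ := hm
    refine ⟨p, (A.ch p).map_target (hs hy), ?_⟩
    rw [(A.ch p).right_inv (hs hy)]
    refine (hT y hy).congr_of_eventuallyEq ?_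
    filter_upwards [(A.ch p).open_target.mem_nhds (hs hy)] with z hz
    exact rep_extT p T hz
  · refine ⟨A.idx m, A.mem m, ?_⟩
    refine contDiffAt_const.congr_of_eventuallyEq
      (m2_extT_zero p _ hK hs h0 ((A.ch _).map_source (A.mem m)) ?_)
    rwa [(A.ch _).left_inv (A.mem m)]
theorem m2_tn {T : M → S3} (h : A.TSm T) (k : ℕ) : ∃ b, 0 < b ∧ ∀ p, ∀ j ≤ k,
    ∀ y ∈ Metric.closedBall (0 : E) 3, ‖iteratedFDeriv ℝ j (A.rep T p) y‖ ≤ b := by
  have h1 : ∀ p, ∃ b, 1 ≤ b ∧ ∀ j ≤ k, ∀ y ∈ Metric.closedBall (0 : E) 3,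
      ‖iteratedFDeriv ℝ j (A.rep T p) y‖ ≤ b := fun p =>
    m1_bound (isCompact_closedBall _ _) (fun y hy => h.contDiffAt (ball3_sub p hy)) k
  choose b hb using h1
  obtain ⟨B, hB⟩ := Finite.exists_le b
  refine ⟨max B 1, lt_of_lt_of_le one_pos (le_max_right _ _), fun p j hj y hy => ?_⟩
  exact ((hb p).2 j hj y hy).trans ((hB p).trans (le_max_left _ _))
theorem TSm.tn {T : M → S3} (h : A.TSm T) (k : ℕ) : ∃ b, 0 < b ∧ A.TN k T b := 
  let ⟨b, hb, h1⟩ := m2_tn h k
  ⟨b, hb, fun p j hj y hy => h1 p j hj y (Metric.ball_subset_closedBall hy)⟩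
theorem TN.mono {T : M → S3} {k k' : ℕ} {b b' : ℝ} (h : A.TN k T b) (hk : k' ≤ k) (hb : b ≤ b') :
    A.TN k' T b' := 
  fun p j hj y hy => (h p j (hj.trans hk) y hy).trans hb
theorem m2_cda {T : M → S3} (hT : A.TSm T) (j : ℕ) {p : Fin A.n} {y : E}
    (hy : y ∈ Metric.ball (0 : E) 3) : ContDiffAt ℝ j (A.rep T p) y :=
  (hT.contDiffAt (ball3_sub' p hy)).of_le (by exact_mod_cast le_top)
theorem TN.add {S T : M → S3} (hS : A.TSm S) (hT : A.TSm T) {k : ℕ} {b b' : ℝ} (h : A.TN k S b)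
    (h' : A.TN k T b') : A.TN k (S + T) (b + b') := by
  intro p j hj y hy
  have e : A.rep (S + T) p = A.rep S p + A.rep T p := rep_add S T p
  rw [e, iteratedFDeriv_add_apply (m2_cda hS j hy) (m2_cda hT j hy)]
  exact (norm_add_le _ _).trans (add_le_add (h p j hj y hy) (h' p j hj y hy))
theorem TN.sub {S T : M → S3} (hS : A.TSm S) (hT : A.TSm T) {k : ℕ} {b b' : ℝ} (h : A.TN k S b)
    (h' : A.TN k T b') : A.TN k (S - T) (b + b') := by
  intro p j hj y hy
  have e : A.rep (S - T) p = A.rep S p - A.rep T p := rep_sub S T p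
  rw [e, iteratedFDeriv_sub_apply (m2_cda hS j hy) (m2_cda hT j hy)]
  exact (norm_sub_le _ _).trans (add_le_add (h p j hj y hy) (h' p j hj y hy))
theorem TN.smul {T : M → S3} (hT : A.TSm T) {k : ℕ} {b : ℝ} (c : ℝ) (h : A.TN k T b) :
    A.TN k (c • T) (|c| * b) := by
  intro p j hj y hy
  have e : A.rep (c • T) p = c • A.rep T p := rep_smul c T p
  rw [e, iteratedFDeriv_const_smul_apply (m2_cda hT j hy), norm_smul, Real.norm_eq_abs]
  exact mul_le_mul_of_nonneg_left (h p j hj y hy) (abs_nonneg _)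
theorem m2_sum_le {j k : ℕ} (hj : j ≤ k) {u v : ℕ → ℝ} {b b' : ℝ} (hu0 : ∀ i, 0 ≤ u i)
    (hv0 : ∀ i, 0 ≤ v i) (hu : ∀ i ≤ k, u i ≤ b) (hv : ∀ i ≤ k, v i ≤ b') :
    ∑ i ∈ Finset.range (j + 1), (j.choose i : ℝ) * u i * v (j - i) ≤ 2 ^ k * b * b' := by
  have hb : 0 ≤ b := (hu0 0).trans (hu 0 (Nat.zero_le _))
  have hb' : 0 ≤ b' := (hv0 0).trans (hv 0 (Nat.zero_le _))
  calc _ ≤ ∑ i ∈ Finset.range (j + 1), (j.choose i : ℝ) * b * b' := by
        refine Finset.sum_le_sum fun i hi => ?_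
        have hi' : i ≤ j := by simpa [Nat.lt_succ_iff] using hi
        have a1 := hu i (hi'.trans hj)
        have a2 := hv (j - i) (by omega)
        have a3 := hv0 (j - i)
        gcongr
    _ = 2 ^ j * b * b' := by
        rw [← Finset.sum_mul, ← Finset.sum_mul]
        congr 2
        exact_mod_cast Nat.sum_range_choose j
    _ ≤ 2 ^ k * b * b' := by gcongr; norm_num
theorem TN.fsmul {f : M → ℝ} {T : M → S3} (hf : A.Sm f) (hT : A.TSm T) {k : ℕ} {b b' : ℝ}
    (h : A.Nb k f b) (h' : A.TN k T b') : A.TN k (fun m => f m • T m) (2 ^ k * b * b') := by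
  intro p j hj y hy
  rw [rep_fsmul]
  refine (m1_smul_le (A.ch p).open_target (hf p) (hT p) (ball3_sub' p hy) j).trans ?_
  exact m2_sum_le hj (v := fun i => ‖iteratedFDeriv ℝ i (A.rep T p) y‖) (fun _ => norm_nonneg _)
    (fun _ => norm_nonneg _) (fun i hi => h p i hi y hy) fun i hi => h' p i hi y hy
theorem TN.sum {κ : Type*} (s : Finset κ) {T : κ → M → S3} (hT : ∀ j ∈ s, A.TSm (T j)) {k : ℕ}
    {b : κ → ℝ} (h : ∀ j ∈ s, A.TN k (T j) (b j)) : A.TN k (∑ j ∈ s, T j) (∑ j ∈ s, b j) := by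
  classical
  induction s using Finset.induction_on with
  | empty =>
    intro p j _ y _
    rw [Finset.sum_empty, rep_zero, iteratedFDeriv_fun_zero]; simp
  | insert a s ha ih =>
    simp only [Finset.sum_insert ha]
    exact TN.add (hT a (Finset.mem_insert_self _ _))
      (TSm.sum s fun j hj => hT j (Finset.mem_insert_of_mem hj)) (h a (Finset.mem_insert_self _ _))
      (ih (fun j hj => hT j (Finset.mem_insert_of_mem hj)) fun j hj => h j (Finset.mem_insert_of_mem hj))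
theorem TN.norm_le {T : M → S3} {k : ℕ} {b : ℝ} (h : A.TN k T b) (m : M) : ‖T m‖ ≤ b := by
  have := h (A.idx m) 0 (Nat.zero_le _) (A.ch (A.idx m) m)
    (Metric.ball_subset_ball (by norm_num) (A.b1 m))
  rwa [norm_iteratedFDeriv_zero, rep_idx] at this
theorem TN_extT (p : Fin A.n) {K : Set E} (hK : IsCompact K) (hs : K ⊆ (A.ch p).target) (k : ℕ) :
    ∃ C, 0 < C ∧ ∀ (T : E → S3) (b : ℝ), 0 ≤ b → (∀ y ∈ K, ContDiffAt ℝ ∞ T y) →
      (∀ y ∈ (A.ch p).target, y ∉ K → T y = 0) →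
      (∀ j ≤ k, ∀ y ∈ K, ‖iteratedFDeriv ℝ j T y‖ ≤ b) → A.TN k (A.extT p T) (C * b) := by
  obtain ⟨C, hC, hN⟩ := Nb_extF (W := S3) p hK hs k
  have h1 : ∀ q, ∃ D, 1 ≤ D ∧ ∀ j ≤ k,
      ∀ y ∈ Metric.closedBall (0 : E) 3 ∩ (A.ch q).symm ⁻¹' ((A.ch p).symm '' K),
      ‖iteratedFDeriv ℝ j (fun z => m2pull (fderiv ℝ (A.tr q p) z)) y‖ ≤ D := by
    intro q
    refine m1_bound ?_ ?_ k
    · refine (isCompact_closedBall (0 : E) 3).of_isClosed_subset ?_ inter_subset_left
      exact ((A.ch q).continuousOn_symm.mono (ball3_sub q)).preimage_isClosed_of_isClosed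
        Metric.isClosed_closedBall (isClosed_image p hK hs)
    · rintro y ⟨hy, z, hz, e⟩
      exact m2_pull_tr (ball3_sub q hy) (by rw [← e]; exact (A.ch p).map_target (hs hz))
  choose D hD using h1
  obtain ⟨D0, hD0⟩ := Finite.exists_le D
  set D1 := max D0 1 with hD1
  have h1D : 1 ≤ D1 := le_max_right _ _
  refine ⟨2 ^ k * D1 * C, by positivity, fun T b hb hT h0 hbd q j hj y hy => ?_⟩
  have hyt := ball3_sub' q hy
  by_cases hm : (A.ch q).symm y ∈ (A.ch p).symm '' K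
  · have hp : (A.ch q).symm y ∈ (A.ch p).source := by
      obtain ⟨z, hz, e⟩ := hm
      rw [← e]; exact (A.ch p).map_target (hs hz)
    have e1 : A.rep (A.extT p T) q =ᶠ[𝓝 y]
        fun z => m2pull (fderiv ℝ (A.tr q p) z) (A.loc (A.extF p T) q z) := by
      filter_upwards [(isOpen_ov q p).mem_nhds ⟨hyt, hp⟩] with w hw
      have hw2 : (A.ch q).symm w ∈ (A.ch p).source := hw.2
      rw [rep_tr _ hw.1 hw2, rep_extT p T (m1_tr_mem hw2), m2pull_apply]
      simp only [loc, extF, hw2, if_true, tr, Function.comp]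
    rw [(e1.iteratedFDeriv ℝ j).self_of_nhds]
    have key := norm_iteratedFDerivWithin_clm_apply (N := ∞) (n := j)
      (f := fun z => m2pull (fderiv ℝ (A.tr q p) z)) (g := A.loc (A.extF p T) q)
      (fun w hw => (m2_pull_tr hw.1 hw.2).contDiffWithinAt)
      ((Sm_extF p hK hs hT h0 q).mono inter_subset_left) (isOpen_ov q p).uniqueDiffOn ⟨hyt, hp⟩
      (by exact_mod_cast le_top)
    simp only [iteratedFDerivWithin_of_isOpen _ (isOpen_ov q p) ⟨hyt, hp⟩] at key
    refine key.trans ((m2_sum_le hj (b := D1) (b' := C * b)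
      (v := fun i => ‖iteratedFDeriv ℝ i (A.loc (A.extF p T) q) y‖) (fun _ => norm_nonneg _)
      (fun _ => norm_nonneg _) (fun i hi => ?_) fun i hi => hN T b hb hT h0 hbd q i hi y hy).trans
      (le_of_eq (by ring)))
    exact ((hD q).2 i hi y ⟨Metric.ball_subset_closedBall hy, hm⟩).trans
      ((hD0 q).trans (le_max_left _ _))
  · rw [((m2_extT_zero p q hK hs h0 hyt hm).iteratedFDeriv ℝ j).self_of_nhds,
      iteratedFDeriv_fun_zero]
    simp only [Pi.zero_apply, norm_zero]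
    positivity
/-- scaled product estimate for the difference of two induced metrics -/
theorem TN_metA_sub {F G : M → V} (hF : A.Sm F) (hG : A.Sm G) {k : ℕ} {a b lam : ℝ} (hl : 1 ≤ lam)
    (h1 : ∀ j ≤ k, A.Nb (j + 1) F (a * lam ^ j)) (h2 : ∀ j ≤ k, A.Nb (j + 1) G (a * lam ^ j))
    (h3 : ∀ j ≤ k, A.Nb (j + 1) (fun m => F m - G m) (b * lam ^ j)) :
    A.TN k (A.metA F - A.metA G) (8 * 2 ^ k * a * b * lam ^ k) := by
  intro p j hj y hy
  have hyt := ball3_sub' p hy
  have hU := (A.ch p).open_target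
  have dF := (hF p).fderiv_of_isOpen (m := ∞) hU (by simp)
  have dG := (hG p).fderiv_of_isOpen (m := ∞) hU (by simp)
  have dD := ((hF.sub hG) p).fderiv_of_isOpen (m := ∞) hU (by simp)
  have e : A.rep (A.metA F - A.metA G) p =ᶠ[𝓝 y]
      (fun x => m2B (fderiv ℝ (A.loc F p) x) (fderiv ℝ (A.loc (fun m => F m - G m) p) x)) +
      fun x => m2B (fderiv ℝ (A.loc (fun m => F m - G m) p) x) (fderiv ℝ (A.loc G p) x) := by
    filter_upwards [hU.mem_nhds hyt] with z hz
    have e1 : fderiv ℝ (A.loc (fun m => F m - G m) p) z =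
        fderiv ℝ (A.loc F p) z - fderiv ℝ (A.loc G p) z :=
      fderiv_sub ((hF.contDiffAt hz).differentiableAt (by simp))
        ((hG.contDiffAt hz).differentiableAt (by simp))
    simp only [rep_sub, rep_metA hF hz, rep_metA hG hz, m2_met, Pi.add_apply, e1, map_sub,
      sub_apply]
    abel
  have c1 : ContDiffAt ℝ j
      (fun x => m2B (fderiv ℝ (A.loc F p) x) (fderiv ℝ (A.loc (fun m => F m - G m) p) x)) y :=
    (((m2B.contDiff.comp_contDiffOn dF).clm_apply dD).contDiffAt (hU.mem_nhds hyt)).of_le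
      (by exact_mod_cast le_top)
  have c2 : ContDiffAt ℝ j
      (fun x => m2B (fderiv ℝ (A.loc (fun m => F m - G m) p) x) (fderiv ℝ (A.loc G p) x)) y :=
    (((m2B.contDiff.comp_contDiffOn dD).clm_apply dG).contDiffAt (hU.mem_nhds hyt)).of_le
      (by exact_mod_cast le_top)
  rw [(e.iteratedFDeriv ℝ j).self_of_nhds, iteratedFDeriv_add_apply c1 c2]
  have b1 := m2B_bound hU (hF p) ((hF.sub hG) p) hyt hj hl
    (fun i hi => h1 i hi p _ le_rfl y hy) fun i hi => h3 i hi p _ le_rfl y hy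
  have b2 := m2B_bound hU ((hF.sub hG) p) (hG p) hyt hj hl
    (fun i hi => h3 i hi p _ le_rfl y hy) fun i hi => h2 i hi p _ le_rfl y hy
  refine (norm_add_le _ _).trans ((add_le_add b1 b2).trans (le_of_eq (by ring)))
theorem TN_metA {F : M → V} (hF : A.Sm F) {k : ℕ} {a lam : ℝ} (hl : 1 ≤ lam)
    (h1 : ∀ j ≤ k, A.Nb (j + 1) F (a * lam ^ j)) :
    A.TN k (A.metA F) (4 * 2 ^ k * a ^ 2 * lam ^ k) := by
  intro p j hj y hy
  have hyt := ball3_sub' p hy
  have hU := (A.ch p).open_target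
  have e : A.rep (A.metA F) p =ᶠ[𝓝 y]
      fun x => m2B (fderiv ℝ (A.loc F p) x) (fderiv ℝ (A.loc F p) x) := by
    filter_upwards [hU.mem_nhds hyt] with z hz
    rw [rep_metA hF hz, m2_met]
  rw [(e.iteratedFDeriv ℝ j).self_of_nhds]
  refine (m2B_bound hU (hF p) (hF p) hyt hj hl (fun i hi => h1 i hi p _ le_rfl y hy)
    fun i hi => h1 i hi p _ le_rfl y hy).trans (le_of_eq (by ring))
theorem PosD.rep {T : M → S3} (h : A.PosD T) {p : Fin A.n} {y : E} (hy : y ∈ (A.ch p).target) :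
    PD (A.rep T p y) := by
  intro v hv
  rw [Atl.rep, qf_pull]
  refine h _ _ fun e => hv ?_
  have h1 := tr_fderiv_comp hy (A.mem ((A.ch p).symm y)) ((A.ch p).map_target hy)
  rw [tr_fderiv_self hy] at h1
  have := congrArg (fun L : E →L[ℝ] E => L v) h1
  simpa [e] using this
theorem PosD.lower {T : M → S3} (h : A.PosD T) (hT : A.TSm T) : ∃ c, 0 < c ∧ ∀ p,
    ∀ y ∈ Metric.closedBall (0 : E) 3, c ≤ det2 (A.rep T p y) ∧
      ∀ v, c * ‖v‖ ^ 2 ≤ qf (A.rep T p y) v v := by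
  obtain ⟨B, hB, hb⟩ := m2_tn hT 0
  have h1 : ∀ p, ∃ d, 0 < d ∧ ∀ y ∈ Metric.closedBall (0 : E) 3, d ≤ det2 (A.rep T p y) := by
    intro p
    refine (isCompact_closedBall (0 : E) 3).exists_forall_le' (f := fun y => det2 (A.rep T p y)) ?_
      fun y hy => ((PD_iff _).1 (h.rep (ball3_sub p hy))).2
    have hc : Continuous det2 := by unfold det2; fun_prop
    exact hc.comp_continuousOn ((hT p).continuousOn.mono (ball3_sub p))
  choose d hd using h1
  obtain ⟨D, hD⟩ := Finite.exists_le fun p => (d p)⁻¹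
  set D1 := max D 1
  have hD1 : 0 < D1 := lt_of_lt_of_le one_pos (le_max_right _ _)
  have hd1 : ∀ p, D1⁻¹ ≤ d p := fun p =>
    inv_le_of_inv_le₀ (hd p).1 ((hD p).trans (le_max_left _ _))
  refine ⟨min D1⁻¹ (D1⁻¹ / B), by positivity, fun p y hy => ⟨?_, fun v => ?_⟩⟩
  · exact (min_le_left _ _).trans ((hd1 p).trans ((hd p).2 y hy))
  · have hn := hb p 0 le_rfl y hy
    rw [norm_iteratedFDeriv_zero] at hn
    have hP := h.rep (ball3_sub p hy)
    have hdet := (hd1 p).trans ((hd p).2 y hy)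
    set S := A.rep T p y
    have s1 : 0 < S.1 := ((PD_iff _).1 hP).1
    have s3 : 0 < S.2.2 := by simpa [qf] using hP (0, 1) (by simp)
    have b1 : S.1 ≤ B := (le_abs_self _).trans ((norm_fst_le S).trans hn)
    have b3 : S.2.2 ≤ B := (le_abs_self _).trans ((norm_snd_le S.2).trans ((norm_snd_le S).trans hn))
    have q0 : 0 ≤ qf S v v := by
      by_cases hv : v = 0
      · simp [hv, qf]
      · exact (hP v hv).le
    have e1 : S.1 * qf S v v = (S.1 * v.1 + S.2.1 * v.2) ^ 2 + det2 S * v.2 ^ 2 := by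
      simp only [qf, det2]; ring
    have e3 : S.2.2 * qf S v v = (S.2.1 * v.1 + S.2.2 * v.2) ^ 2 + det2 S * v.1 ^ 2 := by
      simp only [qf, det2]; ring
    have key : D1⁻¹ * ‖v‖ ^ 2 ≤ B * qf S v v := by
      rcases max_choice ‖v.1‖ ‖v.2‖ with e | e
      · rw [Prod.norm_def, e, Real.norm_eq_abs, sq_abs]
        nlinarith [sq_nonneg (S.2.1 * v.1 + S.2.2 * v.2), mul_le_mul_of_nonneg_right hdet (sq_nonneg v.1),
          mul_le_mul_of_nonneg_right b3 q0]
      · rw [Prod.norm_def, e, Real.norm_eq_abs, sq_abs]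
        nlinarith [sq_nonneg (S.1 * v.1 + S.2.1 * v.2), mul_le_mul_of_nonneg_right hdet (sq_nonneg v.2),
          mul_le_mul_of_nonneg_right b1 q0]
    calc _ ≤ D1⁻¹ / B * ‖v‖ ^ 2 := by gcongr; exact min_le_right _ _
      _ ≤ _ := by rw [div_mul_eq_mul_div, div_le_iff₀' hB]; exact key
/-- comparison of a smooth tensor with a positive definite one -/
theorem PosD.dominates {g : M → S3} (h : A.PosD g) (hg : A.TSm g) {T : M → S3} (hT : A.TSm T) :
    ∃ C, 0 < C ∧ ∀ p, ∀ y ∈ (A.ch p).target, ∀ v,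
      |qf (A.rep T p y) v v| ≤ C * qf (A.rep g p y) v v := by
  obtain ⟨c, hc, hl⟩ := h.lower hg
  obtain ⟨B, hB, hb⟩ := hT.tn 0
  refine ⟨4 * B / c, by positivity, fun p y _ v => ?_⟩
  rw [Atl.rep, Atl.rep, qf_pull, qf_pull]
  set m := (A.ch p).symm y
  set w := fderiv ℝ (A.tr p (A.idx m)) y v
  have h1 := (hl (A.idx m) (A.ch (A.idx m) m)
    (Metric.ball_subset_closedBall (Metric.ball_subset_ball (by norm_num) (A.b1 m)))).2 w
  rw [rep_idx] at h1
  have h2 := hb.norm_le m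
  calc _ ≤ 4 * ‖T m‖ * ‖w‖ * ‖w‖ := abs_qf_le _ _ _
    _ ≤ 4 * B * ‖w‖ * ‖w‖ := by gcongr
    _ = 4 * B / c * (c * ‖w‖ ^ 2) := by field_simp
    _ ≤ _ := by gcongr
end Atl

end Vale.Agent.P205
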