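import Vale.Agent.P205.M2
import Vale.Agent.P205.T1

open Set Filter Topology
open scoped ContDiff

noncomputable section
namespace Vale.Agent.P205

variable {M : Type*} [TopologicalSpace M] [T2Space M] [CompactSpace M] {A : Atl M}
  {W : Type} [NormedAddCommGroup W] [NormedSpace ℝ W]

/-! M3: invariance and stability of the margin and of convexity. -/

namespace Atl
theorem m3_fderiv {G : E → V} {φ : E → E} {y : E} (hG : ContDiffAt ℝ ∞ G (φ y))
    (hφ : ContDiffAt ℝ ∞ φ y) (v : E) :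
    fderiv ℝ (G ∘ φ) y v = fderiv ℝ G (φ y) (fderiv ℝ φ y v) := by
  rw [fderiv_comp y (hG.differentiableAt (by simp)) (hφ.differentiableAt (by simp))]
  rfl
theorem m3_d2 {G : E → V} {φ : E → E} {y : E} (hG : ContDiffAt ℝ ∞ G (φ y))
    (hφ : ContDiffAt ℝ ∞ φ y) (v w : E) :
    d2 (G ∘ φ) y v w = d2 G (φ y) (fderiv ℝ φ y v) (fderiv ℝ φ y w) + fderiv ℝ G (φ y) (d2 φ y v w) := by
  have e : fderiv ℝ (G ∘ φ) =ᶠ[𝓝 y] fun z => (fderiv ℝ G (φ z)).comp (fderiv ℝ φ z) := by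
    have h1 := (hφ.of_le (t1_nat_le 1)).eventually (by simp)
    have h2 := hφ.continuousAt.eventually ((hG.of_le (t1_nat_le 1)).eventually (by simp))
    filter_upwards [h1, h2] with z a b
    exact fderiv_comp z (b.differentiableAt (by simp)) (a.differentiableAt (by simp))
  have d1 : DifferentiableAt ℝ (fderiv ℝ G) (φ y) :=
    (hG.fderiv_right (m := 1) (t1_nat_le 2)).differentiableAt (by simp)
  have d2' : DifferentiableAt ℝ (fderiv ℝ φ) y :=
    (hφ.fderiv_right (m := 1) (t1_nat_le 2)).differentiableAt (by simp)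
  have d3 := (d1.hasFDerivAt.comp y (hφ.differentiableAt (by simp)).hasFDerivAt).clm_comp
    d2'.hasFDerivAt
  have e2 := d3.fderiv
  simp only [Function.comp_def] at e2
  simp only [d2]
  rw [e.fderiv_eq, e2]
  simp [add_comm]
theorem m3_npG {G : E → V} {φ : E → E} {y : E} (hG : ContDiffAt ℝ ∞ G (φ y))
    (hφ : ContDiffAt ℝ ∞ φ y) (hd : detE (fderiv ℝ φ y (1, 0)) (fderiv ℝ φ y (0, 1)) ≠ 0) (v : E) :
    npG (G ∘ φ) y (1, 0) (0, 1) v v v v = detE (fderiv ℝ φ y (1, 0)) (fderiv ℝ φ y (0, 1)) ^ 2 *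
      npG G (φ y) (1, 0) (0, 1) (fderiv ℝ φ y v) (fderiv ℝ φ y v) (fderiv ℝ φ y v) (fderiv ℝ φ y v) := by
  rw [← npG_frame]
  simp only [npG, np, m3_fderiv hG hφ, m3_d2 hG hφ]
  rw [E_frame hd (d2 φ y v v), map_add, map_smul, map_smul, cr_tan]
theorem m3_jet {G G' : E → V} {y : E} (e : G' =ᶠ[𝓝 y] G) :
    fderiv ℝ G' y = fderiv ℝ G y ∧ fderiv ℝ (fderiv ℝ G') y = fderiv ℝ (fderiv ℝ G) y :=
  ⟨e.fderiv_eq, e.fderiv.fderiv_eq⟩
theorem m3_congr {G G' : E → V} {g Ψ : E → S3} {μ η : ℝ} {y : E} (h : MgAt G g Ψ μ η y)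
    (e : G' =ᶠ[𝓝 y] G) : MgAt G' g Ψ μ η y := by
  intro v hv
  have := h v hv
  simp only [npG, d2, (m3_jet e).1, (m3_jet e).2] at this ⊢
  exact this
theorem m3_lin (L : E →L[ℝ] V) (v : E) : L v = v.1 • L (1, 0) + v.2 • L (0, 1) := by
  rw [← map_smul, ← map_smul, ← map_add]
  simp
theorem m3_unit {G : E → V} {g Ψ : E → S3} {μ η : ℝ} {y : E}
    (h : ∀ v : E, ‖v‖ = 1 → qf (Ψ y) v v ≤ η * qf (g y) v v →
      μ * det2 (g y) * qf (g y) v v ^ 2 ≤ npG G y (1, 0) (0, 1) v v v v) : MgAt G g Ψ μ η y := by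
  intro v hv
  by_cases h0 : v = 0
  · subst h0
    simpa [qf, npG] using np_nonneg _ _ _
  have hn : 0 < ‖v‖ := norm_pos_iff.2 h0
  obtain ⟨u, hu, e⟩ : ∃ u : E, ‖u‖ = 1 ∧ v = ‖v‖ • u :=
    ⟨‖v‖⁻¹ • v, by rw [norm_smul, norm_inv, norm_norm, inv_mul_cancel₀ hn.ne'],
      by rw [smul_smul, mul_inv_cancel₀ hn.ne', one_smul]⟩
  generalize ‖v‖ = t at hn e
  subst e
  have q : ∀ S : S3, qf S (t • u) (t • u) = t ^ 2 * qf S u u := fun S => by simp [qf]; ring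
  have n : npG G y (1, 0) (0, 1) (t • u) (t • u) (t • u) (t • u)
      = t ^ 4 * npG G y (1, 0) (0, 1) u u u u := by
    simp only [npG, np, d2, map_smul, smul_apply, cr_smul3, smul_dotProduct, dotProduct_smul,
      smul_eq_mul]
    ring
  rw [q, q] at hv
  have h2 : 0 < t ^ 2 := by positivity
  have := h u hu (le_of_mul_le_mul_left (by linarith) h2)
  rw [q, n]
  calc _ = t ^ 4 * (μ * det2 (g y) * qf (g y) u u ^ 2) := by ring
    _ ≤ _ := mul_le_mul_of_nonneg_left this (by positivity)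
theorem m3_fin {κ : Type*} [Finite κ] (f : κ → ℝ) (h : ∀ p, 0 < f p) : ∃ μ, 0 < μ ∧ ∀ p, μ ≤ f p := by
  obtain ⟨μ, h1, h2⟩ := (Set.finite_range f).isCompact.exists_forall_le' continuousOn_id (a := 0)
    (by rintro _ ⟨p, rfl⟩; exact h p)
  exact ⟨μ, h1, fun p => h2 _ ⟨p, rfl⟩⟩
theorem m3_cont_np : Continuous fun z : V × V × V => np z.1 z.2.1 z.2.2 z.2.2 := by
  simp only [np_eq, npd, det2, dotProduct]
  fun_prop
theorem m3_cont_q : Continuous fun z : S3 × E => det2 z.1 * qf z.1 z.2 z.2 ^ 2 := by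
  simp only [qf, det2]
  fun_prop
theorem m3_cont_np' {Z : Type} [TopologicalSpace Z] {a b u : Z → V} {z : Z} (ha : ContinuousAt a z)
    (hb : ContinuousAt b z) (hu : ContinuousAt u z) :
    ContinuousAt (fun z => np (a z) (b z) (u z) (u z)) z :=
  ContinuousAt.comp (g := fun z : V × V × V => np z.1 z.2.1 z.2.2 z.2.2)
    (f := fun z => (a z, b z, u z)) m3_cont_np.continuousAt (ha.prodMk (hb.prodMk hu))
theorem m3_cont_q' {Z : Type} [TopologicalSpace Z] {a : Z → S3} {b : Z → E} {z : Z}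
    (ha : ContinuousAt a z) (hb : ContinuousAt b z) :
    ContinuousAt (fun z => det2 (a z) * qf (a z) (b z) (b z) ^ 2) z :=
  ContinuousAt.comp (g := fun z : S3 × E => det2 z.1 * qf z.1 z.2 z.2 ^ 2)
    (f := fun z => (a z, b z)) m3_cont_q.continuousAt (ha.prodMk hb)
theorem m3_q_pos {S : S3} (h : PD S) {v : E} (hv : v ≠ 0) : 0 < det2 S * qf S v v ^ 2 :=
  mul_pos ((PD_iff S).1 h).2 (pow_pos (h v hv) 2)
theorem m3_d1_le (G : E → V) (y v : E) (hv : ‖v‖ = 1) :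
    ‖fderiv ℝ G y v‖ ≤ ‖iteratedFDeriv ℝ 1 G y‖ := by
  rw [norm_iteratedFDeriv_one]
  simpa [hv] using (fderiv ℝ G y).le_opNorm v
theorem m3_d2_le (G : E → V) (y v : E) (hv : ‖v‖ = 1) : ‖d2 G y v v‖ ≤ ‖iteratedFDeriv ℝ 2 G y‖ := by
  simpa [hv] using norm_d2_le G y v v
theorem MgAt_tr {F : M → V} (hF : A.Sm F) (g Ψ : M → S3) (μ η : ℝ) {p q : Fin A.n} {y : E}
    (hy : y ∈ (A.ch p).target) (hq : (A.ch p).symm y ∈ (A.ch q).source)
    (h : MgAt (A.loc F q) (A.rep g q) (A.rep Ψ q) μ η (A.tr p q y)) :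
    MgAt (A.loc F p) (A.rep g p) (A.rep Ψ p) μ η y := by
  have hφ := tr_contDiffAt hy hq
  have hG : ContDiffAt ℝ ∞ (A.loc F q) (A.tr p q y) := hF.contDiffAt ((A.ch q).map_source hq)
  refine m3_congr ?_ (loc_tr F hy hq)
  intro v hv
  rw [rep_tr Ψ hy hq, rep_tr g hy hq, qf_pull, qf_pull] at hv
  have := mul_le_mul_of_nonneg_left (h _ hv)
    (sq_nonneg (detE (fderiv ℝ (A.tr p q) y (1, 0)) (fderiv ℝ (A.tr p q) y (0, 1))))
  rw [m3_npG hG hφ (tr_det_ne hy hq), rep_tr g hy hq, qf_pull, det2_pull]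
  linarith
theorem Mg_of {F : M → V} (hF : A.Sm F) {g Ψ : M → S3} {μ η : ℝ}
    (h : ∀ m, ∃ p, m ∈ (A.ch p).source ∧ MgAt (A.loc F p) (A.rep g p) (A.rep Ψ p) μ η (A.ch p m)) :
    A.Mg F g Ψ μ η := by
  intro p y hy
  obtain ⟨q, hq, h1⟩ := h ((A.ch p).symm y)
  exact MgAt_tr hF g Ψ μ η hy hq h1
theorem Cvx_of {F : M → V} (hF : A.Sm F)
    (h : ∀ m, ∃ p, m ∈ (A.ch p).source ∧ CvxAt (A.loc F p) (A.ch p m)) : A.Cvx F := by
  intro p y hy
  obtain ⟨q, hq, h1, ν, n1, n2, n3⟩ := h ((A.ch p).symm y)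
  have hφ := tr_contDiffAt hy hq
  have hG : ContDiffAt ℝ ∞ (A.loc F q) (A.tr p q y) := hF.contDiffAt ((A.ch q).map_source hq)
  have hd := tr_det_ne hy hq
  have e0 : A.ch q ((A.ch p).symm y) = A.tr p q y := rfl
  rw [e0] at h1 n1 n2 n3
  have n0 : ∀ u, ν ⬝ᵥ fderiv ℝ (A.loc F q) (A.tr p q y) u = 0 := fun u => by
    rw [m3_lin, dotProduct_add, dotProduct_smul, dotProduct_smul, n1, n2]
    simp
  obtain ⟨j1, j2⟩ := m3_jet (loc_tr F hy hq)
  unfold CvxAt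
  rw [j1, j2]
  refine ⟨?_, ν, ?_, ?_, fun v hv => ?_⟩
  · rw [m3_fderiv hG hφ, m3_fderiv hG hφ, m3_lin _ (fderiv ℝ (A.tr p q) y (1, 0)),
      m3_lin _ (fderiv ℝ (A.tr p q) y (0, 1))]
    have := mul_pos (sq_pos_of_ne_zero hd) h1
    refine this.trans_eq ?_
    simp only [gram2, detE, add_dotProduct, dotProduct_add, smul_dotProduct, dotProduct_smul,
      smul_eq_mul, dotProduct_comm (fderiv ℝ (A.loc F q) (A.tr p q y) (0, 1))
        (fderiv ℝ (A.loc F q) (A.tr p q y) (1, 0))]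
    ring
  · rw [m3_fderiv hG hφ, n0]
  · rw [m3_fderiv hG hφ, n0]
  · have e := m3_d2 hG hφ v v
    simp only [d2] at e
    rw [e, dotProduct_add, n0, add_zero]
    refine n3 _ fun h0 => hv ?_
    have e1 : fderiv ℝ (A.tr p q) y v
        = v.1 • fderiv ℝ (A.tr p q) y (1, 0) + v.2 • fderiv ℝ (A.tr p q) y (0, 1) := by
      rw [← map_smul, ← map_smul, ← map_add]
      simp
    rw [h0] at e1
    have a1 := congrArg Prod.fst e1
    have a2 := congrArg Prod.snd e1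
    simp only [Prod.fst_zero, Prod.snd_zero, Prod.fst_add, Prod.snd_add, Prod.smul_fst, Prod.smul_snd,
      smul_eq_mul] at a1 a2
    simp only [detE] at hd
    refine Prod.ext (mul_right_cancel₀ hd ?_) (mul_right_cancel₀ hd ?_)
    · simp only [Prod.fst_zero]
      linear_combination (fderiv ℝ (A.tr p q) y (0, 1)).1 * a2 - (fderiv ℝ (A.tr p q) y (0, 1)).2 * a1
    · simp only [Prod.snd_zero]
      linear_combination (fderiv ℝ (A.tr p q) y (1, 0)).2 * a1 - (fderiv ℝ (A.tr p q) y (1, 0)).1 * a2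
theorem MgAt_mono {G : E → V} {g Ψ : E → S3} {μ μ' η η' : ℝ} {y : E} (hg : PD (g y))
    (h : MgAt G g Ψ μ η y) (hμ : μ' ≤ μ) (hη : η' ≤ η) : MgAt G g Ψ μ' η' y := by
  intro v hv
  have q0 : 0 ≤ qf (g y) v v := by
    by_cases h0 : v = 0
    · simp [h0, qf]
    · exact (hg v h0).le
  have d0 := ((PD_iff _).1 hg).2.le
  refine le_trans ?_ (h v (hv.trans (mul_le_mul_of_nonneg_right hη q0)))
  gcongr
theorem MgAt_congr {G G' : E → V} {g Ψ : E → S3} {μ η : ℝ} {y : E} (h : MgAt G g Ψ μ η y)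
    (e : G' =ᶠ[𝓝 y] G) : MgAt G' g Ψ μ η y := m3_congr h e
theorem CvxAt_congr {G G' : E → V} {y : E} (h : CvxAt G y) (e : G' =ᶠ[𝓝 y] G) : CvxAt G' y := by
  unfold CvxAt at h ⊢
  rw [(m3_jet e).1, (m3_jet e).2]
  exact h
theorem Mg.mono {F : M → V} {g Ψ : M → S3} (hg : A.PosD g) {μ μ' η η' : ℝ} (h : A.Mg F g Ψ μ η)
    (hμ : μ' ≤ μ) (hη : η' ≤ η) : A.Mg F g Ψ μ' η' := fun p y hy => MgAt_mono (hg.rep hy) (h p y hy) hμ hη
/-- stability of the margin under `C²`-small perturbations -/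
theorem Mg_stable {g : M → S3} (hg : A.PosD g) (hgs : A.TSm g) : ∃ C, 0 < C ∧
    ∀ (F F' : M → V) (Ψ : M → S3) (μ η R δ : ℝ), A.Sm F → A.Sm F' → 1 ≤ R → 0 ≤ δ → δ ≤ 1 →
      A.Nb 2 F R → A.Nb 2 (fun m => F' m - F m) δ → A.Mg F g Ψ μ η →
      A.Mg F' g Ψ (μ - C * R ^ 5 * δ) η := by
  obtain ⟨c, hc, hl⟩ := hg.lower hgs
  refine ⟨32000 / c ^ 3, by positivity, fun F F' Ψ μ η R δ hF hF' hR h0 h1 b1 b2 hM => ?_⟩
  refine Mg_of hF' fun m => ⟨A.idx m, A.mem m, m3_unit fun v hv hΨ => ?_⟩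
  set p := A.idx m
  set y := A.ch p m
  have hy3 : y ∈ Metric.ball (0 : E) 3 := Metric.ball_subset_ball (by norm_num) (A.b1 m)
  have hy : y ∈ (A.ch p).target := ball3_sub' p hy3
  have b3 : A.Nb 2 F' (2 * R) := by
    have := Nb.add hF (hF'.sub hF) b1 b2
    simp only [add_sub_cancel] at this
    exact this.mono le_rfl (by linarith)
  have c1 := hF.contDiffAt hy
  have c2 := hF'.contDiffAt hy
  have e0 : A.loc (fun m => F' m - F m) p = fun z => A.loc F' p z - A.loc F p z := rfl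
  have e1 : fderiv ℝ (A.loc (fun m => F' m - F m) p) =ᶠ[𝓝 y]
      fun z => fderiv ℝ (A.loc F' p) z - fderiv ℝ (A.loc F p) z := by
    filter_upwards [(A.ch p).open_target.mem_nhds hy] with z hz
    exact fderiv_fun_sub ((hF'.contDiffAt hz).differentiableAt (by simp))
      ((hF.contDiffAt hz).differentiableAt (by simp))
  have f1 : ∀ u : E, ‖u‖ = 1 → ‖fderiv ℝ (A.loc F' p) y u - fderiv ℝ (A.loc F p) y u‖ ≤ δ := by
    intro u hu
    have := (m3_d1_le _ y u hu).trans (b2 p 1 (by norm_num) y hy3)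
    rw [e1.eq_of_nhds] at this
    exact this
  have f2 : ‖d2 (A.loc F' p) y v v - d2 (A.loc F p) y v v‖ ≤ δ := by
    have := (m3_d2_le _ y v hv).trans (b2 p 2 le_rfl y hy3)
    simp only [d2] at this ⊢
    rw [e1.fderiv_eq, fderiv_fun_sub
      ((c2.fderiv_right (m := 1) (t1_nat_le 2)).differentiableAt (by simp))
      ((c1.fderiv_right (m := 1) (t1_nat_le 2)).differentiableAt (by simp))] at this
    exact this
  have n1 : ‖((1 : ℝ), (0 : ℝ))‖ = 1 := by simp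
  have n2 : ‖((0 : ℝ), (1 : ℝ))‖ = 1 := by simp
  have g1 : ∀ u : E, ‖u‖ = 1 → ‖fderiv ℝ (A.loc F p) y u‖ ≤ 2 * R := fun u hu =>
    ((m3_d1_le _ y u hu).trans (b1 p 1 (by norm_num) y hy3)).trans (by linarith)
  have g2 : ∀ u : E, ‖u‖ = 1 → ‖fderiv ℝ (A.loc F' p) y u‖ ≤ 2 * R := fun u hu =>
    (m3_d1_le _ y u hu).trans (b3 p 1 (by norm_num) y hy3)
  have g3 : ‖d2 (A.loc F p) y v v‖ ≤ 2 * R :=
    ((m3_d2_le _ y v hv).trans (b1 p 2 le_rfl y hy3)).trans (by linarith)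
  have g4 : ‖d2 (A.loc F' p) y v v‖ ≤ 2 * R := (m3_d2_le _ y v hv).trans (b3 p 2 le_rfl y hy3)
  have k := np_lip (by linarith : 1 ≤ 2 * R) h0 (g1 _ n1) (g1 _ n2) g3 g3 (g2 _ n1) (g2 _ n2) g4 g4
    (f1 _ n1) (f1 _ n2) f2 f2
  have k2 := hM p y hy v hΨ
  obtain ⟨l1, l2⟩ := hl p y (Metric.ball_subset_closedBall hy3)
  have l3 : c ≤ qf (A.rep g p y) v v := by simpa [hv] using l2 v
  have l4 : c ^ 3 ≤ det2 (A.rep g p y) * qf (A.rep g p y) v v ^ 2 := by
    calc c ^ 3 = c * c ^ 2 := by ring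
      _ ≤ _ := by gcongr; linarith
  have l5 : 32000 * R ^ 5 * δ ≤
      32000 / c ^ 3 * R ^ 5 * δ * (det2 (A.rep g p y) * qf (A.rep g p y) v v ^ 2) := by
    calc 32000 * R ^ 5 * δ = 32000 / c ^ 3 * R ^ 5 * δ * c ^ 3 := by field_simp
      _ ≤ _ := by gcongr
  simp only [npG] at k2 ⊢
  have k3 := (abs_le.1 k).1
  nlinarith
/-- a convex immersion has a margin in all directions -/
theorem Cvx.mg {F : M → V} (hF : A.Sm F) (h : A.Cvx F) {g : M → S3} (hg : A.PosD g) (hgs : A.TSm g) :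
    ∃ μ, 0 < μ ∧ ∀ Ψ η, A.Mg F g Ψ μ η := by
  have key : ∀ p : Fin A.n, ∃ μ, 0 < μ ∧ ∀ z ∈ Metric.closedBall (0 : E) 3 ×ˢ Metric.sphere (0 : E) 1,
      μ ≤ npG (A.loc F p) z.1 (1, 0) (0, 1) z.2 z.2 z.2 z.2 /
        (det2 (A.rep g p z.1) * qf (A.rep g p z.1) z.2 z.2 ^ 2) := by
    intro p
    have hv : ∀ z ∈ Metric.closedBall (0 : E) 3 ×ˢ Metric.sphere (0 : E) 1, z.2 ≠ 0 := fun z hz h0 => by
      have := hz.2
      simp [h0] at this
    refine ((isCompact_closedBall _ _).prod (isCompact_sphere _ _)).exists_forall_le'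
      (fun z hz => ContinuousAt.continuousWithinAt ?_) fun z hz => ?_
    · have hy := ball3_sub p hz.1
      have c0 := hF.contDiffAt hy
      have c1 : ContinuousAt (fun z : E × E => fderiv ℝ (A.loc F p) z.1) z :=
        ContinuousAt.comp (c0.fderiv_right (m := 1) (t1_nat_le 2)).continuousAt continuousAt_fst
      have c2 : ContinuousAt (fun z : E × E => fderiv ℝ (fderiv ℝ (A.loc F p)) z.1) z :=
        ContinuousAt.comp ((c0.fderiv_right (m := 1) (t1_nat_le 2)).fderiv_right (m := 0)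
          (by norm_num)).continuousAt continuousAt_fst
      have c3 : ContinuousAt (fun z : E × E => A.rep g p z.1) z :=
        ContinuousAt.comp (hgs.contDiffAt hy).continuousAt continuousAt_fst
      exact (m3_cont_np' (c1.clm_apply continuousAt_const) (c1.clm_apply continuousAt_const)
        ((c2.clm_apply continuousAt_snd).clm_apply continuousAt_snd)).div
        (m3_cont_q' c3 continuousAt_snd) (m3_q_pos (hg.rep hy) (hv z hz)).ne'
    · have hy := ball3_sub p hz.1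
      refine div_pos ?_ (m3_q_pos (hg.rep hy) (hv z hz))
      obtain ⟨h1, ν, n1, n2, n3⟩ := h p z.1 hy
      have a1 := np_normal _ _ (d2 (A.loc F p) z.1 z.2 z.2) ν n1 n2
      have a2 := np_cs (fderiv ℝ (A.loc F p) z.1 (1, 0)) (fderiv ℝ (A.loc F p) z.1 (0, 1))
        (d2 (A.loc F p) z.1 z.2 z.2) ν
      have a3 : 0 < d2 (A.loc F p) z.1 z.2 z.2 ⬝ᵥ ν := by
        rw [dotProduct_comm]; exact n3 _ (hv z hz)
      rw [a1] at a2
      refine lt_of_le_of_ne (np_nonneg _ _ _) fun h0 => ?_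
      simp only [npG] at h0
      rw [← h0, zero_mul] at a2
      exact absurd a2 (not_le.2 (pow_pos (mul_pos h1 a3) 2))
  choose μ hμ hb using key
  obtain ⟨μ0, h0, h1⟩ := m3_fin μ hμ
  refine ⟨μ0, h0, fun Ψ η => Mg_of hF fun m => ⟨A.idx m, A.mem m, m3_unit fun v hv _ => ?_⟩⟩
  have hy3 : A.ch (A.idx m) m ∈ Metric.closedBall (0 : E) 3 :=
    Metric.ball_subset_closedBall (Metric.ball_subset_ball (by norm_num) (A.b1 m))
  have := (h1 _).trans (hb (A.idx m) (A.ch (A.idx m) m, v) ⟨hy3, by simpa using hv⟩)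
  rw [le_div_iff₀ (m3_q_pos (hg.rep (ball3_sub _ hy3)) (by rintro rfl; simp at hv))] at this
  rw [mul_assoc]
  exact this
theorem Cvx.posD {F : M → V} (h : A.Cvx F) : A.PosD (A.metA F) := by
  intro m
  have h1 := (h (A.idx m) _ ((A.ch _).map_source (A.mem m))).1
  rw [PD_iff]
  refine ⟨?_, h1⟩
  simp only [gram2] at h1
  simp only [metA, met]
  have a1 := (sq_nonneg _).trans
    (norm_sq_le_dot (fderiv ℝ (A.loc F (A.idx m)) (A.ch (A.idx m) m) (1, 0)))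
  refine lt_of_le_of_ne a1 fun h0 => ?_
  rw [← h0, zero_mul] at h1
  nlinarith [sq_nonneg (fderiv ℝ (A.loc F (A.idx m)) (A.ch (A.idx m) m) (1, 0) ⬝ᵥ
    fderiv ℝ (A.loc F (A.idx m)) (A.ch (A.idx m) m) (0, 1))]
theorem Mg.const_smul {F : M → V} (hF : A.Sm F) {g Ψ : M → S3} {μ η : ℝ} (h : A.Mg F g Ψ μ η)
    (c : ℝ) : A.Mg (fun m => c • F m) g Ψ (c ^ 6 * μ) η := by
  intro p y hy v hv
  have e1 : fderiv ℝ (A.loc (fun m => c • F m) p) =ᶠ[𝓝 y] fun z => c • fderiv ℝ (A.loc F p) z := by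
    filter_upwards [(A.ch p).open_target.mem_nhds hy] with z hz
    exact fderiv_fun_const_smul ((hF.contDiffAt hz).differentiableAt (by simp)) c
  have e2 := e1.fderiv_eq (𝕜 := ℝ)
  rw [fderiv_fun_const_smul
    (((hF.contDiffAt hy).fderiv_right (m := 1) (t1_nat_le 2)).differentiableAt (by simp))] at e2
  have e3 : ∀ a b u : V, np (c • a) (c • b) (c • u) (c • u) = c ^ 6 * np a b u u := fun a b u => by
    simp only [np_eq, npd, det2, smul_dotProduct, dotProduct_smul, smul_eq_mul]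
    ring
  have := mul_le_mul_of_nonneg_left (h p y hy v hv) (by positivity : 0 ≤ c ^ 6)
  simp only [npG, d2, e1.eq_of_nhds, e2, smul_apply, e3] at this ⊢
  linarith
/-- lower bound for the margin in a frame, on a compact set -/
theorem mg_frame {g : M → S3} (hg : A.PosD g) (hgs : A.TSm g) (p : Fin A.n) (P : Pc)
    (hP : P.O ⊆ Metric.ball 0 3) : ∃ c, 0 < c ∧ ∀ (F : M → V) (Ψ : M → S3) (μ η : ℝ), 0 ≤ μ →
      A.Mg F g Ψ μ η → ∀ x ∈ P.K,
      qf (A.rep Ψ p x) (P.c2 x) (P.c2 x) ≤ η * qf (A.rep g p x) (P.c2 x) (P.c2 x) →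
      c * μ ≤ npG (A.loc F p) x (P.c1 x) (P.c2 x) (P.c2 x) (P.c2 x) (P.c2 x) (P.c2 x) := by
  have hT : ∀ x ∈ P.K, x ∈ (A.ch p).target := fun x hx => ball3_sub' p (hP (P.sub hx))
  obtain ⟨c, hc, hl⟩ := P.cp.exists_forall_le' (a := 0) (f := fun x => detE (P.c1 x) (P.c2 x) ^ 2 *
      (det2 (A.rep g p x) * qf (A.rep g p x) (P.c2 x) (P.c2 x) ^ 2)) (by
      have c1 := P.s1.continuousOn.mono P.sub
      have c2 := P.s2.continuousOn.mono P.sub
      have c3 : ContinuousOn (A.rep g p) P.K := fun x hx =>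
        (hgs.contDiffAt (hT x hx)).continuousAt.continuousWithinAt
      refine ContinuousOn.mul ?_ (m3_cont_q.comp_continuousOn (c3.prodMk c2))
      simp only [detE]
      fun_prop)
    fun x hx => mul_pos (sq_pos_of_ne_zero (P.det x (P.sub hx))) (m3_q_pos (hg.rep (hT x hx))
      fun h0 => P.det x (P.sub hx) (by simp [h0, detE]))
  refine ⟨c, hc, fun F Ψ μ η hμ hM x hx hΨ => ?_⟩
  have a1 := mul_le_mul_of_nonneg_left (hM p x (hT x hx) _ hΨ) (sq_nonneg (detE (P.c1 x) (P.c2 x)))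
  have a2 := mul_le_mul_of_nonneg_right (hl x hx) hμ
  rw [npG_frame]
  linarith
end Atl

end Vale.Agent.P205
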