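import Vale.Agent.P205.D1

open Set Filter Topology MeasureTheory
open scoped ContDiff Convolution Pointwise

noncomputable section
namespace Vale.Agent.P205

/-! S1: smoothing operators of high order in the plane. -/

theorem s1_left {W : Type} [NormedAddCommGroup W] [NormedSpace ℝ W] {f : E → W}
    (hf : Continuous f) {b : ℝ} (hb : ∀ x, ‖f x‖ ≤ b) (n : ℕ) :
    ∀ (A B : Type) [NormedAddCommGroup A] [NormedSpace ℝ A] [NormedAddCommGroup B]
      [NormedSpace ℝ B] (L : A →L[ℝ] W →L[ℝ] B) (φ : E → A), ContDiff ℝ ∞ φ →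
      HasCompactSupport φ → ∀ x, ‖iteratedFDeriv ℝ n (φ ⋆[L, volume] f) x‖ ≤
        ‖L‖ * (∫ t, ‖iteratedFDeriv ℝ n φ t‖) * b := by
  induction n with
  | zero =>
    intro A B _ _ _ _ L φ hφ hc x
    simp only [norm_iteratedFDeriv_zero]
    rw [convolution_def, ← integral_const_mul, ← integral_mul_const]
    refine norm_integral_le_of_norm_le
      (((hφ.continuous.integrable_of_hasCompactSupport hc).norm.const_mul _).mul_const _)
      (Eventually.of_forall fun t => ?_)
    exact (L.le_opNorm₂ _ _).trans (mul_le_mul_of_nonneg_left (hb _) (by positivity))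
  | succ n ih =>
    intro A B _ _ _ _ L φ hφ hc x
    have h1 : fderiv ℝ (φ ⋆[L, volume] f) = fderiv ℝ φ ⋆[L.precompL E, volume] f :=
      funext fun y => (hc.hasFDerivAt_convolution_left L (hφ.of_le (by simp))
        hf.locallyIntegrable y).fderiv
    simp only [← norm_iteratedFDeriv_fderiv]
    rw [h1]
    refine (ih _ _ (L.precompL E) _ (hφ.fderiv_right (by simp)) (hc.fderiv ℝ) x).trans ?_
    have hb0 : 0 ≤ b := (norm_nonneg _).trans (hb 0)
    have : 0 ≤ ∫ t, ‖iteratedFDeriv ℝ n (fderiv ℝ φ) t‖ := integral_nonneg fun _ => norm_nonneg _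
    gcongr
    exact L.norm_precompL_le E

theorem s1_fderiv {W : Type} [NormedAddCommGroup W] [NormedSpace ℝ W] {φ : E → ℝ}
    (hφ : Continuous φ) {f : E → W} (hf : ContDiff ℝ ∞ f) (hc : HasCompactSupport f) :
    fderiv ℝ (φ ⋆[ContinuousLinearMap.lsmul ℝ ℝ, volume] f) =
      φ ⋆[ContinuousLinearMap.lsmul ℝ ℝ, volume] fderiv ℝ f := by
  funext y
  rw [(hc.hasFDerivAt_convolution_right _ hφ.locallyIntegrable (hf.of_le (by simp)) y).fderiv]
  rfl

theorem s1_right {φ : E → ℝ} (hφ : ContDiff ℝ ∞ φ) (hφc : HasCompactSupport φ) (n j : ℕ) :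
    ∀ (W : Type) [NormedAddCommGroup W] [NormedSpace ℝ W] (f : E → W), ContDiff ℝ ∞ f →
      HasCompactSupport f → ∀ b, (∀ x, ‖iteratedFDeriv ℝ j f x‖ ≤ b) → ∀ x,
      ‖iteratedFDeriv ℝ (n + j) (φ ⋆[ContinuousLinearMap.lsmul ℝ ℝ, volume] f) x‖ ≤
        (∫ t, ‖iteratedFDeriv ℝ n φ t‖) * b := by
  induction j with
  | zero =>
    intro W _ _ f hf _ b hb x
    simp only [norm_iteratedFDeriv_zero] at hb
    refine (s1_left hf.continuous hb n _ _ _ φ hφ hφc x).trans ?_
    have hb0 : 0 ≤ b := (norm_nonneg _).trans (hb 0)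
    have : 0 ≤ ∫ t, ‖iteratedFDeriv ℝ n φ t‖ := integral_nonneg fun _ => norm_nonneg _
    rw [mul_assoc]
    exact mul_le_of_le_one_left (by positivity) ContinuousLinearMap.opNorm_lsmul_le
  | succ j ih =>
    intro W _ _ f hf hc b hb x
    simp only [← norm_iteratedFDeriv_fderiv] at hb
    rw [← add_assoc, ← norm_iteratedFDeriv_fderiv, s1_fderiv hφ.continuous hf hc]
    exact ih _ _ (hf.fderiv_right (by simp)) (hc.fderiv ℝ) b hb x

theorem s1_diff {φ : E → ℝ} (hφ : ContDiff ℝ ∞ φ) {r : ℝ} (hr : 0 ≤ r)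
    (hs : Function.support φ ⊆ Metric.ball 0 r) (h0 : ∀ x, 0 ≤ φ x) (h1 : ∫ x, φ x = 1) (k : ℕ) :
    ∀ (W : Type) [NormedAddCommGroup W] [NormedSpace ℝ W] [CompleteSpace W] (f : E → W),
      ContDiff ℝ ∞ f → HasCompactSupport f → ∀ b, (∀ x, ‖iteratedFDeriv ℝ (k + 1) f x‖ ≤ b) → ∀ x,
      ‖iteratedFDeriv ℝ k (f - φ ⋆[ContinuousLinearMap.lsmul ℝ ℝ, volume] f) x‖ ≤ r * b := by
  induction k with
  | zero =>
    intro W _ _ _ f hf _ b hb x
    simp only [← norm_iteratedFDeriv_fderiv, norm_iteratedFDeriv_zero] at hb ⊢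
    have hb0 : 0 ≤ b := (norm_nonneg _).trans (hb 0)
    rw [Pi.sub_apply, ← dist_eq_norm, dist_comm]
    refine dist_convolution_le (by positivity) hs h0 h1 hf.continuous.aestronglyMeasurable
      fun y hy => ?_
    have := convex_univ.norm_image_sub_le_of_norm_fderiv_le (𝕜 := ℝ) (f := f)
      (fun z _ => hf.differentiable (by simp) z) (fun z _ => hb z) (mem_univ x) (mem_univ y)
    rw [dist_eq_norm]
    refine this.trans ?_
    rw [mul_comm]
    exact mul_le_mul_of_nonneg_right (mem_ball_iff_norm.1 hy).le hb0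
  | succ k ih =>
    intro W _ _ _ f hf hc b hb x
    simp only [← norm_iteratedFDeriv_fderiv (n := k + 1)] at hb
    have hR : ContDiff ℝ ∞ (φ ⋆[ContinuousLinearMap.lsmul ℝ ℝ, volume] f) :=
      hc.contDiff_convolution_right _ hφ.continuous.locallyIntegrable hf
    have h2 : fderiv ℝ (f - φ ⋆[ContinuousLinearMap.lsmul ℝ ℝ, volume] f) =
        fderiv ℝ f - φ ⋆[ContinuousLinearMap.lsmul ℝ ℝ, volume] fderiv ℝ f := by
      rw [← s1_fderiv hφ.continuous hf hc]
      funext y
      exact fderiv_sub (hf.differentiable (by simp) y) (hR.differentiable (by simp) y)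
    rw [← norm_iteratedFDeriv_fderiv, h2]
    exact ih _ _ (hf.fderiv_right (by simp)) (hc.fderiv ℝ) b hb x

theorem s1_kernel : ∃ J : ℕ → ℝ, (∀ n, 0 ≤ J n) ∧ ∀ r : ℝ, 0 < r → ∃ φ : E → ℝ,
    ContDiff ℝ ∞ φ ∧ HasCompactSupport φ ∧ Function.support φ ⊆ Metric.ball 0 r ∧
    (∀ x, 0 ≤ φ x) ∧ ∫ x, φ x = 1 ∧
    ∀ n, ∫ t, ‖iteratedFDeriv ℝ n φ t‖ = J n * r⁻¹ ^ n := by
  let β : ContDiffBump (0 : E) := ⟨1 / 2, 1, by norm_num, by norm_num⟩
  have hρ : ContDiff ℝ ∞ (β.normed volume) := β.contDiff_normed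
  refine ⟨fun n => ∫ t, ‖iteratedFDeriv ℝ n (β.normed volume) t‖,
    fun n => integral_nonneg fun _ => norm_nonneg _, fun r hr => ?_⟩
  have hfin : Module.finrank ℝ E = 2 := by simp
  have hs : Function.support (fun x : E => (r ^ 2)⁻¹ • β.normed volume (r⁻¹ • x)) ⊆
      Metric.ball 0 r := by
    intro x hx
    have h1 : r⁻¹ • x ∈ Function.support (β.normed volume) := right_ne_zero_of_smul hx
    rw [β.support_normed_eq, mem_ball_zero_iff, norm_smul, norm_inv, Real.norm_of_nonneg hr.le,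
      inv_mul_lt_iff₀ hr] at h1
    simpa [β] using h1
  have hc : ContDiff ℝ ∞ fun x : E => β.normed volume (r⁻¹ • x) :=
    hρ.comp (contDiff_id.const_smul r⁻¹)
  refine ⟨fun x => (r ^ 2)⁻¹ • β.normed volume (r⁻¹ • x), hc.const_smul _,
    HasCompactSupport.of_support_subset_isCompact (isCompact_closedBall 0 r)
      (hs.trans Metric.ball_subset_closedBall), hs,
    fun x => smul_nonneg (by positivity) (β.nonneg_normed _), ?_, fun n => ?_⟩
  · rw [integral_smul, Measure.integral_comp_inv_smul_of_nonneg _ _ hr.le, β.integral_normed, hfin]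
    simp [hr.ne']
  · have h1 : ∀ t, ‖iteratedFDeriv ℝ n (fun x : E => (r ^ 2)⁻¹ • β.normed volume (r⁻¹ • x)) t‖ =
        ((r ^ 2)⁻¹ * r⁻¹ ^ n) * ‖iteratedFDeriv ℝ n (β.normed volume) (r⁻¹ • t)‖ := by
      intro t
      rw [iteratedFDeriv_const_smul_apply' (hc.of_le (by exact_mod_cast le_top)).contDiffAt,
        iteratedFDeriv_comp_const_smul _ (hρ.of_le (by exact_mod_cast le_top)), norm_smul,
        norm_smul, Real.norm_of_nonneg (by positivity), Real.norm_of_nonneg (by positivity),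
        mul_assoc]
    simp only [h1]
    rw [integral_const_mul, Measure.integral_comp_inv_smul_of_nonneg _
      (fun t => ‖iteratedFDeriv ℝ n (β.normed volume) t‖) hr.le, hfin, smul_eq_mul]
    field_simp

theorem smoothing {W : Type} [NormedAddCommGroup W] [NormedSpace ℝ W] [CompleteSpace W] (m : ℕ) :
    ∃ C : ℕ → ℝ, (∀ k, 0 < C k) ∧ ∀ ℓ : ℝ, 0 < ℓ → ℓ ≤ 1 → ∀ f : E → W, ContDiff ℝ ∞ f →
      tsupport f ⊆ Metric.closedBall 0 (3/2) → ∃ g : E → W, ContDiff ℝ ∞ g ∧
        tsupport g ⊆ Metric.closedBall 0 2 ∧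
        (∀ j k, j ≤ k → ∀ b, (∀ x, ‖iteratedFDeriv ℝ j f x‖ ≤ b) →
          ∀ x, ‖iteratedFDeriv ℝ k g x‖ ≤ C k * b * ℓ⁻¹ ^ (k - j)) ∧
        (∀ k ≤ m, ∀ b, (∀ x, ‖iteratedFDeriv ℝ m f x‖ ≤ b) →
          ∀ x, ‖iteratedFDeriv ℝ k (fun y => f y - g y) x‖ ≤ C k * b * ℓ ^ (m - k)) := by
  obtain ⟨J, hJ, hker⟩ := s1_kernel
  refine ⟨fun k => 2 ^ m + m * 2 ^ m * ∑ n ∈ Finset.range (k + 1), J n * (2 * (m + 1)) ^ n,
    fun k => ?_, fun ℓ hℓ hℓ1 f hf hs => ?_⟩
  · have : 0 ≤ ∑ n ∈ Finset.range (k + 1), J n * (2 * (m + 1) : ℝ) ^ n :=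
      Finset.sum_nonneg fun n _ => mul_nonneg (hJ n) (by positivity)
    positivity
  set r : ℝ := ℓ / (2 * (m + 1)) with hr
  have hr0 : 0 < r := by positivity
  have hrℓ : r ≤ ℓ := div_le_self hℓ.le (by have : (0 : ℝ) ≤ m := Nat.cast_nonneg m; linarith)
  obtain ⟨φ, hφ, hφc, hφs, hφ0, hφ1, hφJ⟩ := hker r hr0
  let e : ℕ → E → W := fun i =>
    (fun u : E → W => u - φ ⋆[ContinuousLinearMap.lsmul ℝ ℝ, volume] u)^[i] f
  have he : ∀ i, e (i + 1) = e i - φ ⋆[ContinuousLinearMap.lsmul ℝ ℝ, volume] e i := fun i =>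
    Function.iterate_succ_apply' _ _ _
  have he0 : e 0 = f := rfl
  clear_value e
  have hsup : ∀ i : ℕ, Function.support (e i) ⊆ Metric.closedBall 0 (3 / 2 + i * r) := by
    intro i
    induction i with
    | zero => simpa [he0] using (subset_tsupport f).trans hs
    | succ i ih =>
      rw [he]
      refine (Function.support_sub _ _).trans (union_subset (ih.trans
        (Metric.closedBall_subset_closedBall (by push_cast; linarith))) ?_)
      refine (support_convolution_subset _).trans ?_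
      rintro _ ⟨x, hx, y, hy, rfl⟩
      have h1 := mem_ball_zero_iff.1 (hφs hx)
      have h2 := mem_closedBall_zero_iff.1 (ih hy)
      rw [mem_closedBall_zero_iff]
      push_cast
      linarith [norm_add_le x y]
  have hcs : ∀ i, HasCompactSupport (e i) := fun i =>
    HasCompactSupport.of_support_subset_isCompact (isCompact_closedBall _ _) (hsup i)
  have hsm : ∀ i, ContDiff ℝ ∞ (e i) := by
    intro i
    induction i with
    | zero => exact he0 ▸ hf
    | succ i ih =>
      rw [he]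
      exact ih.sub ((hcs i).contDiff_convolution_right _ hφ.continuous.locallyIntegrable ih)
  have hR : ∀ i, ContDiff ℝ ∞ (φ ⋆[ContinuousLinearMap.lsmul ℝ ℝ, volume] e i) := fun i =>
    (hcs i).contDiff_convolution_right _ hφ.continuous.locallyIntegrable (hsm i)
  have hI0 : ∫ t, ‖iteratedFDeriv ℝ 0 φ t‖ = 1 := by
    simp only [norm_iteratedFDeriv_zero, Real.norm_of_nonneg (hφ0 _), hφ1]
  have hle : ∀ k : ℕ, (k : WithTop ℕ∞) ≤ ∞ := fun k => by exact_mod_cast le_top
  have htwo : ∀ j i0 b, (∀ x, ‖iteratedFDeriv ℝ j (e i0) x‖ ≤ b) → ∀ i x,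
      ‖iteratedFDeriv ℝ j (e (i0 + i)) x‖ ≤ 2 ^ i * b := by
    intro j i0 b hb i
    induction i with
    | zero => simpa using hb
    | succ i ih =>
      intro x
      rw [← add_assoc, he, iteratedFDeriv_sub_apply ((hsm _).of_le (hle j)).contDiffAt
        ((hR _).of_le (hle j)).contDiffAt]
      have h1 := s1_right hφ hφc 0 j W _ (hsm _) (hcs _) _ ih x
      rw [zero_add, hI0] at h1
      refine (norm_sub_le _ _).trans ?_
      linarith [ih x, pow_succ (2 : ℝ) i ▸ (by ring : (2 : ℝ) ^ i * 2 * b = 2 ^ i * b + 2 ^ i * b)]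
  refine ⟨f - e m, hf.sub (hsm m), ?_, fun j k hjk b hb x => ?_, fun k hk b hb x => ?_⟩
  · refine closure_minimal ((Function.support_sub _ _).trans (union_subset
      (((subset_tsupport f).trans hs).trans (Metric.closedBall_subset_closedBall (by norm_num)))
      ((hsup m).trans (Metric.closedBall_subset_closedBall ?_)))) Metric.isClosed_closedBall
    have : (m : ℝ) * r ≤ 1 / 2 := by
      rw [hr, ← mul_div_assoc, div_le_iff₀ (by positivity)]
      have : (0 : ℝ) ≤ m := Nat.cast_nonneg m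
      nlinarith
    linarith
  · have hb0 : 0 ≤ b := (norm_nonneg _).trans (hb 0)
    obtain ⟨n, rfl⟩ : ∃ n, k = n + j := ⟨k - j, by omega⟩
    have hJ' : 0 ≤ J n * r⁻¹ ^ n := mul_nonneg (hJ n) (by positivity)
    have key : ∀ i ≤ m, ‖iteratedFDeriv ℝ (n + j) (f - e i) x‖ ≤
        i * (J n * r⁻¹ ^ n * (2 ^ m * b)) := by
      intro i hi
      induction i with
      | zero => simp [he0, iteratedFDeriv_zero_fun]
      | succ i ih =>
        have h1 : f - e (i + 1) =
            (f - e i) + φ ⋆[ContinuousLinearMap.lsmul ℝ ℝ, volume] e i := by rw [he]; abel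
        rw [h1, iteratedFDeriv_add_apply (f := f - e i) ((hf.sub (hsm i)).of_le (hle _)).contDiffAt
          ((hR _).of_le (hle _)).contDiffAt]
        have h2 := s1_right hφ hφc n j W _ (hsm i) (hcs i) (2 ^ m * b) (fun y => by
          have h3 := htwo j 0 b (he0 ▸ hb) i y
          rw [zero_add] at h3
          refine h3.trans (mul_le_mul_of_nonneg_right
            (pow_le_pow_right₀ one_le_two (by omega)) hb0)) x
        rw [hφJ] at h2
        refine (norm_add_le _ _).trans ?_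
        push_cast
        linarith [ih (by omega)]
    refine (key m le_rfl).trans ?_
    have h3 : J n * (2 * (m + 1) : ℝ) ^ n ≤
        ∑ n ∈ Finset.range (n + j + 1), J n * (2 * (m + 1) : ℝ) ^ n :=
      Finset.single_le_sum (f := fun n => J n * (2 * (m + 1) : ℝ) ^ n)
        (fun n _ => mul_nonneg (hJ n) (by positivity)) (Finset.mem_range.2 (by omega))
    have h4 : r⁻¹ ^ n = (2 * (m + 1) : ℝ) ^ n * ℓ⁻¹ ^ n := by
      rw [← mul_pow, hr, inv_div, div_eq_mul_inv]
    rw [Nat.add_sub_cancel, h4]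
    calc (m : ℝ) * (J n * ((2 * (m + 1) : ℝ) ^ n * ℓ⁻¹ ^ n) * (2 ^ m * b))
        = (0 + m * 2 ^ m * (J n * (2 * (m + 1) : ℝ) ^ n)) * b * ℓ⁻¹ ^ n := by ring
      _ ≤ _ := by
        beta_reduce
        gcongr
        positivity
  · have hb0 : 0 ≤ b := (norm_nonneg _).trans (hb 0)
    have key : ∀ i ≤ m, ∀ y, ‖iteratedFDeriv ℝ (m - i) (e i) y‖ ≤ r ^ i * b := by
      intro i hi
      induction i with
      | zero => simpa [he0] using hb
      | succ i ih =>
        intro y
        have h1 := ih (by omega)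
        rw [show m - i = m - (i + 1) + 1 by omega] at h1
        have h2 := s1_diff hφ hr0.le hφs hφ0 hφ1 _ W _ (hsm i) (hcs i) _ h1 y
        rw [he, pow_succ', mul_assoc]
        exact h2
    have h1 := key (m - k) (by omega)
    rw [show m - (m - k) = k by omega] at h1
    have h2 := htwo k (m - k) _ h1 k x
    rw [show m - k + k = m by omega] at h2
    have h3 : (fun y => f y - (f - e m) y) = e m := by funext y; simp
    rw [h3]
    refine h2.trans ?_
    have h4 : 0 ≤ ∑ n ∈ Finset.range (k + 1), J n * (2 * (m + 1) : ℝ) ^ n :=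
      Finset.sum_nonneg fun n _ => mul_nonneg (hJ n) (by positivity)
    calc (2 : ℝ) ^ k * (r ^ (m - k) * b) = (2 ^ k + 0) * b * r ^ (m - k) := by ring
      _ ≤ _ := by
        beta_reduce
        gcongr
        · exact one_le_two
        · positivity

end Vale.Agent.P205
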