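import Vale.Agent.P205.T1
import Vale.Agent.P205.M2
import Vale.Agent.P205.S1

open Set Filter Topology
open scoped ContDiff

noncomputable section
namespace Vale.Agent.P205

variable {M : Type*} [TopologicalSpace M] [T2Space M] [CompactSpace M] {A : Atl M}
  {W : Type} [NormedAddCommGroup W] [NormedSpace ℝ W]

/-! SG: global smoothing of maps and of tensors. -/

theorem sg_cut {ζ : E → ℝ} (hζ : ContDiff ℝ ∞ ζ) (hs : tsupport ζ ⊆ Metric.closedBall 0 (3/2))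
    {u : E → W} (hu : ContDiffOn ℝ ∞ u (Metric.ball 0 3)) :
    ContDiff ℝ ∞ (fun y => ζ y • u y) ∧ tsupport (fun y => ζ y • u y) ⊆ Metric.closedBall 0 (3/2) := by
  have h1 : tsupport (fun y => ζ y • u y) ⊆ Metric.closedBall 0 (3/2) :=
    (tsupport_smul_subset_left ζ u).trans hs
  refine ⟨contDiff_iff_contDiffAt.2 fun y => ?_, h1⟩
  by_cases hy : y ∈ Metric.closedBall (0 : E) (3/2)
  · exact hζ.contDiffAt.smul (hu.contDiffAt (Metric.isOpen_ball.mem_nhds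
      (Metric.closedBall_subset_ball (by norm_num) hy)))
  · exact contDiffAt_const.congr_of_eventuallyEq
      (notMem_tsupport_iff_eventuallyEq.1 fun h => hy (h1 h))

theorem sg_bd {ζ : E → ℝ} (hζ : ContDiff ℝ ∞ ζ) (hs : tsupport ζ ⊆ Metric.closedBall 0 (3/2))
    (j : ℕ) : ∃ Z, 0 < Z ∧ ∀ u : E → W, ContDiffOn ℝ ∞ u (Metric.ball 0 3) → ∀ b,
      (∀ i ≤ j, ∀ y ∈ Metric.ball (0 : E) 3, ‖iteratedFDeriv ℝ i u y‖ ≤ b) →
      ∀ x, ‖iteratedFDeriv ℝ j (fun y => ζ y • u y) x‖ ≤ Z * b := by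
  have h1 : ∀ i : ℕ, ∃ C, ∀ x ∈ Metric.closedBall (0 : E) (3/2), ‖iteratedFDeriv ℝ i ζ x‖ ≤ C :=
    fun i => (isCompact_closedBall _ _).exists_bound_of_continuousOn
      (hζ.continuous_iteratedFDeriv (t1_nat_le i)).continuousOn
  choose C hC using h1
  have C0 : ∀ i, 0 ≤ C i := fun i => (norm_nonneg _).trans (hC i 0 (by simp; norm_num))
  have p : 0 ≤ ∑ i ∈ Finset.range (j + 1), (j.choose i : ℝ) * C i :=
    Finset.sum_nonneg fun i _ => mul_nonneg (Nat.cast_nonneg _) (C0 i)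
  refine ⟨∑ i ∈ Finset.range (j + 1), (j.choose i : ℝ) * C i + 1, by linarith, fun u hu b hb x => ?_⟩
  have b0 : 0 ≤ b := (norm_nonneg _).trans (hb 0 (Nat.zero_le _) 0 (by simp))
  by_cases hx : x ∈ Metric.closedBall (0 : E) (3/2)
  · have hx3 : x ∈ Metric.ball (0 : E) 3 := Metric.closedBall_subset_ball (by norm_num) hx
    have := t1_bilin (ContinuousLinearMap.lsmul ℝ ℝ) Metric.isOpen_ball hζ.contDiffOn hu hx3 j
    refine this.trans ((mul_le_of_le_one_left (by positivity)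
      ContinuousLinearMap.opNorm_lsmul_le).trans ?_)
    rw [add_mul, Finset.sum_mul]
    refine le_trans (Finset.sum_le_sum fun i _ => ?_) (le_add_of_nonneg_right (by linarith))
    rw [mul_assoc]
    exact mul_le_mul_of_nonneg_left (mul_le_mul (hC i x hx) (hb _ (Nat.sub_le _ _) x hx3)
      (norm_nonneg _) (C0 i)) (Nat.cast_nonneg _)
  · have e := notMem_tsupport_iff_eventuallyEq.1 fun h => hx ((sg_cut hζ hs hu).2 h)
    rw [(e.iteratedFDeriv ℝ j).eq_of_nhds]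
    simp only [iteratedFDeriv_zero, Pi.zero_apply, norm_zero]
    positivity

theorem sg_local [CompleteSpace W] {ζ : E → ℝ} (hζ : ContDiff ℝ ∞ ζ)
    (hs : tsupport ζ ⊆ Metric.closedBall 0 (3/2)) (m : ℕ) :
    ∃ C : ℕ → ℝ, (∀ k, 0 < C k) ∧ ∀ ℓ : ℝ, 0 < ℓ → ℓ ≤ 1 → ∀ u : E → W,
      ContDiffOn ℝ ∞ u (Metric.ball 0 3) → ∃ g : E → W, ContDiff ℝ ∞ g ∧
        (∀ y, y ∉ Metric.closedBall (0 : E) 2 → g y = 0) ∧
        (∀ j k, j ≤ k → ∀ b, (∀ i ≤ j, ∀ y ∈ Metric.ball (0 : E) 3, ‖iteratedFDeriv ℝ i u y‖ ≤ b) →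
          ∀ i ≤ k, ∀ x, ‖iteratedFDeriv ℝ i g x‖ ≤ C k * b * ℓ⁻¹ ^ (k - j)) ∧
        (∀ k ≤ m, ∀ b, (∀ i ≤ m, ∀ y ∈ Metric.ball (0 : E) 3, ‖iteratedFDeriv ℝ i u y‖ ≤ b) →
          ∀ i ≤ k, ∀ x, ‖iteratedFDeriv ℝ i (fun y => ζ y • u y - g y) x‖ ≤ C k * b * ℓ ^ (m - k)) := by
  obtain ⟨C, hC, H⟩ := smoothing (W := W) m
  choose Z hZ hb using sg_bd (W := W) hζ hs
  have s1 : ∀ (f : ℕ → ℝ), (∀ i, 0 < f i) → ∀ i k, i ≤ k → f i ≤ ∑ a ∈ Finset.range (k + 1), f a :=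
    fun f hf i k h => Finset.single_le_sum (fun a _ => (hf a).le) (Finset.mem_range.2 (by omega))
  have s2 : ∀ (f : ℕ → ℝ), (∀ i, 0 < f i) → ∀ k, 0 < ∑ a ∈ Finset.range (k + 1), f a :=
    fun f hf k => (hf 0).trans_le (s1 f hf 0 k (Nat.zero_le _))
  refine ⟨fun k => (∑ a ∈ Finset.range (k + 1), C a) * ∑ a ∈ Finset.range (k + m + 1), Z a,
    fun k => mul_pos (s2 C hC k) (s2 Z hZ _), fun ℓ h0 h1 u hu => ?_⟩
  obtain ⟨g, g1, g2, g3, g4⟩ := H ℓ h0 h1 _ (sg_cut hζ hs hu).1 (sg_cut hζ hs hu).2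
  refine ⟨g, g1, fun y hy => image_eq_zero_of_notMem_tsupport fun h => hy (g2 h),
    fun j k hjk b h i hi x => ?_, fun k hk b h i hi x => ?_⟩
  · have b0 : 0 ≤ b := (norm_nonneg _).trans (h 0 (Nat.zero_le _) 0 (by simp))
    refine (g3 (min i j) i (min_le_left _ _) _
      (hb _ u hu b fun a ha => h a (ha.trans (min_le_right _ _))) x).trans ?_
    have a1 := s1 C hC i k hi
    have a2 := s1 Z hZ (min i j) (k + m) (by omega)
    have a3 : ℓ⁻¹ ^ (i - min i j) ≤ ℓ⁻¹ ^ (k - j) :=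
      pow_le_pow_right₀ (one_le_inv₀ h0 |>.2 h1) (by omega)
    have := hC i
    have := hZ (min i j)
    have := s2 C hC k
    have := s2 Z hZ (k + m)
    rw [← mul_assoc]
    beta_reduce
    gcongr
  · have b0 : 0 ≤ b := (norm_nonneg _).trans (h 0 (Nat.zero_le _) 0 (by simp))
    refine (g4 i (hi.trans hk) _ (hb m u hu b h) x).trans ?_
    have a1 := s1 C hC i k hi
    have a2 := s1 Z hZ m (k + m) (by omega)
    have a3 : ℓ ^ (m - i) ≤ ℓ ^ (m - k) := pow_le_pow_of_le_one h0.le h1 (by omega)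
    have := hC i
    have := hZ m
    have := s2 C hC k
    have := s2 Z hZ (k + m)
    rw [← mul_assoc]
    beta_reduce
    gcongr

theorem sg_sum {n : ℕ} (a c : Fin n → ℝ) {b t : ℝ} (hb : 0 ≤ b) (ht : 0 ≤ t) :
    ∑ p, a p * (c p * b * t) ≤ (∑ p, a p * c p + 1) * b * t := by
  have : ∑ p, a p * (c p * b * t) = (∑ p, a p * c p) * b * t := by
    rw [Finset.sum_mul, Finset.sum_mul]
    exact Finset.sum_congr rfl fun p _ => by ring
  rw [this]
  gcongr
  linarith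
theorem SGF (A : Atl M) (m : ℕ) : ∃ C : ℕ → ℝ, (∀ k, 0 < C k) ∧ ∀ ℓ : ℝ, 0 < ℓ → ℓ ≤ 1 →
    ∀ F : M → V, A.Sm F → ∃ G : M → V, A.Sm G ∧
      (∀ j k, j ≤ k → ∀ b, A.Nb j F b → A.Nb k G (C k * b * ℓ⁻¹ ^ (k - j))) ∧
      (∀ k ≤ m, ∀ b, A.Nb m F b → A.Nb k (fun x => F x - G x) (C k * b * ℓ ^ (m - k))) := by
  obtain ⟨ζ, z1, z2, -, z4⟩ := A.exists_pou
  have hK : IsCompact (Metric.closedBall (0 : E) 2) := isCompact_closedBall _ _
  have hs : ∀ p, Metric.closedBall (0 : E) 2 ⊆ (A.ch p).target := fun p =>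
    (Metric.closedBall_subset_closedBall (by norm_num)).trans (Atl.ball3_sub p)
  choose C hC H using fun p => sg_local (W := V) (z1 p) (z2 p) m
  choose D hD HD using fun p k => Atl.Nb_extF (W := V) p hK (hs p) k
  refine ⟨fun k => ∑ p, D p k * C p k + 1, fun k => ?_, fun ℓ h0 h1 F hF => ?_⟩
  · have := Finset.sum_nonneg fun p (_ : p ∈ Finset.univ) => (mul_pos (hD p k) (hC p k)).le
    linarith
  have hu : ∀ p, ContDiffOn ℝ ∞ (A.loc F p) (Metric.ball 0 3) := fun p => (hF p).mono (Atl.ball3_sub' p)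
  choose g g1 g2 g3 g4 using fun p => H p ℓ h0 h1 _ (hu p)
  have sm : ∀ p, A.Sm (A.extF p (g p)) := fun p =>
    Atl.Sm_extF p hK (hs p) (fun _ _ => (g1 p).contDiffAt) fun y _ hy => g2 p y hy
  have d1 : ∀ p, ContDiff ℝ ∞ fun y => ζ p y • A.loc F p y - g p y := fun p =>
    (sg_cut (z1 p) (z2 p) (hu p)).1.sub (g1 p)
  have d2 : ∀ p, ∀ y ∈ (A.ch p).target, y ∉ Metric.closedBall (0 : E) 2 →
      ζ p y • A.loc F p y - g p y = 0 := fun p y _ hy => by
    rw [g2 p y hy, image_eq_zero_of_notMem_tsupport fun h =>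
      hy (Metric.closedBall_subset_closedBall (by norm_num) (z2 p h)), zero_smul, sub_zero]
  refine ⟨fun x => ∑ p, A.extF p (g p) x, Atl.Sm.sum _ fun p _ => sm p,
    fun j k hjk b hb q => ?_, fun k hk b hb q => ?_⟩
  · have b0 : 0 ≤ b := (norm_nonneg _).trans (hb q 0 (Nat.zero_le _) 0 (by simp))
    refine (Atl.Nb.sum _ (fun p _ => sm p) fun p _ => HD p k (g p) _ ?_ (fun _ _ => (g1 p).contDiffAt)
      (fun y _ hy => g2 p y hy) fun i hi y _ => g3 p j k hjk b (hb p) i hi y).mono le_rfl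
      (sg_sum _ _ b0 (by positivity)) q
    have := hC p k
    positivity
  · have b0 : 0 ≤ b := (norm_nonneg _).trans (hb q 0 (Nat.zero_le _) 0 (by simp))
    have e : (fun x => F x - ∑ p, A.extF p (g p) x)
        = fun x => ∑ p, A.extF p (fun y => ζ p y • A.loc F p y - g p y) x := by
      funext x
      have e1 : F x = ∑ p, A.extF p (ζ p) x • F x := by rw [← Finset.sum_smul, z4, one_smul]
      rw [e1, ← Finset.sum_sub_distrib]
      refine Finset.sum_congr rfl fun p _ => ?_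
      simp only [Atl.extF, Atl.loc]
      split_ifs with h
      · rw [(A.ch p).left_inv h]
      · simp
    rw [e]
    refine (Atl.Nb.sum _ (fun p _ => Atl.Sm_extF p hK (hs p) (fun _ _ => (d1 p).contDiffAt) (d2 p))
      fun p _ => HD p k _ _ ?_ (fun _ _ => (d1 p).contDiffAt) (d2 p)
      fun i hi y _ => g4 p k hk b (hb p) i hi y).mono le_rfl (sg_sum _ _ b0 (by positivity)) q
    have := hC p k
    positivity
theorem SGT (A : Atl M) (m : ℕ) : ∃ C : ℕ → ℝ, (∀ k, 0 < C k) ∧ ∀ ℓ : ℝ, 0 < ℓ → ℓ ≤ 1 →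
    ∀ T : M → S3, A.TSm T → ∃ G : M → S3, A.TSm G ∧
      (∀ j k, j ≤ k → ∀ b, A.TN j T b → A.TN k G (C k * b * ℓ⁻¹ ^ (k - j))) ∧
      (∀ k ≤ m, ∀ b, A.TN m T b → A.TN k (T - G) (C k * b * ℓ ^ (m - k))) := by
  obtain ⟨ζ, z1, z2, -, z4⟩ := A.exists_pou
  have hK : IsCompact (Metric.closedBall (0 : E) 2) := isCompact_closedBall _ _
  have hs : ∀ p, Metric.closedBall (0 : E) 2 ⊆ (A.ch p).target := fun p =>
    (Metric.closedBall_subset_closedBall (by norm_num)).trans (Atl.ball3_sub p)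
  choose C hC H using fun p => sg_local (W := S3) (z1 p) (z2 p) m
  choose D hD HD using fun p k => Atl.TN_extT p hK (hs p) k
  refine ⟨fun k => ∑ p, D p k * C p k + 1, fun k => ?_, fun ℓ h0 h1 F hF => ?_⟩
  · have := Finset.sum_nonneg fun p (_ : p ∈ Finset.univ) => (mul_pos (hD p k) (hC p k)).le
    linarith
  have hu : ∀ p, ContDiffOn ℝ ∞ (A.rep F p) (Metric.ball 0 3) := fun p => (hF p).mono (Atl.ball3_sub' p)
  choose g g1 g2 g3 g4 using fun p => H p ℓ h0 h1 _ (hu p)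
  have sm : ∀ p, A.TSm (A.extT p (g p)) := fun p =>
    Atl.TSm_extT p hK (hs p) (fun _ _ => (g1 p).contDiffAt) fun y _ hy => g2 p y hy
  have d1 : ∀ p, ContDiff ℝ ∞ fun y => ζ p y • A.rep F p y - g p y := fun p =>
    (sg_cut (z1 p) (z2 p) (hu p)).1.sub (g1 p)
  have d2 : ∀ p, ∀ y ∈ (A.ch p).target, y ∉ Metric.closedBall (0 : E) 2 →
      ζ p y • A.rep F p y - g p y = 0 := fun p y _ hy => by
    rw [g2 p y hy, image_eq_zero_of_notMem_tsupport fun h =>
      hy (Metric.closedBall_subset_closedBall (by norm_num) (z2 p h)), zero_smul, sub_zero]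
  refine ⟨∑ p, A.extT p (g p), Atl.TSm.sum _ fun p _ => sm p,
    fun j k hjk b hb q => ?_, fun k hk b hb q => ?_⟩
  · have b0 : 0 ≤ b := (norm_nonneg _).trans (hb q 0 (Nat.zero_le _) 0 (by simp))
    refine (Atl.TN.sum _ (fun p _ => sm p) fun p _ => HD p k (g p) _ ?_ (fun _ _ => (g1 p).contDiffAt)
      (fun y _ hy => g2 p y hy) fun i hi y _ => g3 p j k hjk b (hb p) i hi y).mono le_rfl
      (sg_sum _ _ b0 (by positivity)) q
    have := hC p k
    positivity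
  · have b0 : 0 ≤ b := (norm_nonneg _).trans (hb q 0 (Nat.zero_le _) 0 (by simp))
    have e : F - ∑ p, A.extT p (g p) = ∑ p, A.extT p (fun y => ζ p y • A.rep F p y - g p y) := by
      have e1 : F = ∑ p, A.extT p (fun y => ζ p y • A.rep F p y) := by
        funext x
        simp only [Atl.extT_smul_rep, Finset.sum_apply]
        rw [← Finset.sum_smul, z4, one_smul]
      conv_lhs => rw [e1]
      rw [← Finset.sum_sub_distrib]
      refine Finset.sum_congr rfl fun p _ => ?_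
      rw [sub_eq_iff_eq_add, ← Atl.extT_add]
      simp only [sub_add_cancel]
    rw [e]
    refine (Atl.TN.sum _ (fun p _ => Atl.TSm_extT p hK (hs p) (fun _ _ => (d1 p).contDiffAt) (d2 p))
      fun p _ => HD p k _ _ ?_ (fun _ _ => (d1 p).contDiffAt) (d2 p)
      fun i hi y _ => g4 p k hk b (hb p) i hi y).mono le_rfl (sg_sum _ _ b0 (by positivity)) q
    have := hC p k
    positivity

end Vale.Agent.P205
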