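import Vale.Agent.P205.TWS
import Vale.Agent.P205.PD0
import Vale.Agent.P205.SG

open Set Filter Topology
open scoped ContDiff

noncomputable section
namespace Vale.Agent.P205

variable {M : Type*} [TopologicalSpace M] [T2Space M] [CompactSpace M] {A : Atl M}

/-! P2: one stage of the iteration, with explicit constants. -/

theorem p2_l (s : ℝ) (b : ℕ) : (s ^ 2)⁻¹ ^ b = s⁻¹ ^ (2 * b) := by
  rw [pow_mul, inv_pow s 2]

/-- admissible input of a stage -/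
structure Adm (A : Atl M) (g Ψ H0 : M → S3) (η η0 : ℝ) (q p m : ℕ) (C1 : ℝ)
    (x : ℝ × ℝ × ℝ × ℝ × (M → V) × (M → S3)) : Prop where
  h1 : 1 ≤ x.1
  h2 : 1 ≤ x.2.1
  h3 : C1 * x.1 ^ 7 ≤ x.2.1
  h4 : 0 < x.2.2.1
  h5 : x.2.2.1 ≤ x.2.1⁻¹ ^ (2 * q * p)
  h6 : 0 < x.2.2.2.1
  h7 : x.2.2.2.1 ≤ x.2.2.1 / x.2.1
  h8 : A.Sm x.2.2.2.2.1
  h9 : A.TSm x.2.2.2.2.2
  h10 : ∀ k ≤ m + 1, A.Nb k x.2.2.2.2.1 (x.1 * x.2.1 ^ (k - 2))
  h11 : A.Mg x.2.2.2.2.1 g Ψ x.1⁻¹ η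
  h12 : ∀ k ≤ m, A.TN k (x.2.2.2.2.2 - A.metA x.2.2.2.2.1 - x.2.2.1 • H0)
    (η0 / 2 * x.2.2.1 * x.2.1 ^ k)

/-- the smoothed data -/
theorem p2_smooth {g Ψ H0 : M → S3} (hg : A.PosD g) (hgs : A.TSm g) (hH : A.TSm H0) {η η0 : ℝ}
    (hη0 : 0 < η0) (q p m : ℕ) (hm : 2 ≤ m) : ∃ (C1 : ℝ) (CF CH : ℕ → ℝ), (∀ k, 1 ≤ CF k) ∧
    (∀ k, 1 ≤ CH k) ∧ Monotone CF ∧ Monotone CH ∧
    ∀ τ s δ δ' F G, Adm A g Ψ H0 η η0 q p m C1 (τ, s, δ, δ', F, G) →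
      ∃ (Ft : M → V) (H' : M → S3), A.Sm Ft ∧ A.TSm H' ∧
        (∀ k, A.Nb k Ft (CF k * τ * (s ^ 2) ^ (k - 2))) ∧
        (∀ k ≤ m + 1, A.Nb k (fun x => F x - Ft x) (CF k * τ * (s ^ (2 * k) * s⁻¹ ^ (m + 3)))) ∧
        A.Mg Ft g Ψ (2 * τ ^ 1)⁻¹ η ∧ A.TN 0 (H' - H0) η0 ∧ (∀ k, A.TN k H' (CH k * (s ^ 2) ^ k)) ∧
        ∀ k ≤ m, A.TN k (G - A.metA F - δ' • H0 - δ • H') (CH k * (s ^ (2 * k) * s⁻¹ ^ m)) := by
  obtain ⟨CF, hCF, hF⟩ := SGF A (m + 1)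
  obtain ⟨CT, hCT, hT⟩ := SGT A m
  choose H hH0 hHb using hH.tn
  obtain ⟨CM, hCM, hMg⟩ := Atl.Mg_stable hg hgs
  have mono : ∀ f : ℕ → ℝ, (∀ k, 0 ≤ f k) →
      Monotone (fun k => 1 + ∑ j ∈ Finset.range (k + 3), f j) ∧
      (∀ k, 1 ≤ 1 + ∑ j ∈ Finset.range (k + 3), f j) ∧
      ∀ k j, j ≤ k + 2 → f j ≤ 1 + ∑ j ∈ Finset.range (k + 3), f j := fun f hf =>
    ⟨fun a b hab => by
      have := Finset.sum_le_sum_of_subset_of_nonneg (f := f)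
        (Finset.range_mono (show a + 3 ≤ b + 3 by omega)) fun j _ _ => hf j
      simpa using this,
     fun k => by have := Finset.sum_nonneg (s := Finset.range (k + 3)) fun j _ => hf j; linarith,
     fun k j hj => by
      have := Finset.single_le_sum (f := f) (s := Finset.range (k + 3)) (fun j _ => hf j)
        (Finset.mem_range.2 (show j < k + 3 by omega))
      linarith⟩
  obtain ⟨m1, m2, m3⟩ := mono CF fun k => (hCF k).le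
  obtain ⟨n1, n2, n3⟩ := mono (fun k => 2 * H k + CT k * (η0 / 2)) fun k => by
    have := hH0 k
    have := hCT k
    positivity
  refine ⟨(2 * CM + 1) * CF 2 + (CT 0 * η0 + 2 * H 0) / η0, _, _, m2, n2, m1, n1, ?_⟩
  intro τ s δ δ' F G h
  have h1 : 1 ≤ τ := h.h1
  have h2 : 1 ≤ s := h.h2
  have h4 : 0 < δ := h.h4
  have h6 : 0 < δ' := h.h6
  have h7 : δ' ≤ δ / s := h.h7
  have h8 : A.Sm F := h.h8
  have h9 : A.TSm G := h.h9
  have s0 : 0 < s := by linarith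
  have si : 0 < s⁻¹ := inv_pos.2 s0
  have τ7 : 1 ≤ τ ^ 7 := one_le_pow₀ h1
  have c2 := hCF 2
  have c0 := hCT 0
  have c3 := hH0 0
  have h3 : ((2 * CM + 1) * CF 2 + (CT 0 * η0 + 2 * H 0) / η0) * τ ^ 7 ≤ s := h.h3
  have h3a : (2 * CM + 1) * CF 2 * τ ^ 7 ≤ s := by
    have : 0 ≤ (CT 0 * η0 + 2 * H 0) / η0 * τ ^ 7 := by positivity
    linarith
  have h3b : (CT 0 * η0 + 2 * H 0) / η0 ≤ s := by
    have a1 : 0 ≤ (2 * CM + 1) * CF 2 * τ ^ 7 := by positivity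
    have a2 : (CT 0 * η0 + 2 * H 0) / η0 * 1 ≤ (CT 0 * η0 + 2 * H 0) / η0 * τ ^ 7 := by gcongr
    linarith
  have l0 : 0 < (s ^ 2)⁻¹ := by positivity
  have l1 : (s ^ 2)⁻¹ ≤ 1 := inv_le_one_of_one_le₀ (one_le_pow₀ h2)
  have hE : A.TSm (G - A.metA F - δ • H0) := (h9.sub (Atl.TSm_metA h8)).sub (hH.smul _)
  obtain ⟨Ft, f1, f2, f3⟩ := hF _ l0 l1 F h8
  obtain ⟨Et, e1, e2, e3⟩ := hT _ l0 l1 _ hE
  have nF2 : A.Nb 2 F τ := by simpa using h.h10 2 (by omega)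
  have dF : ∀ k ≤ m + 1, A.Nb k (fun x => F x - Ft x) (CF k * τ * (s ^ (2 * k) * s⁻¹ ^ (m + 3))) := by
    intro k hk
    refine (f3 k hk _ (h.h10 (m + 1) le_rfl)).mono le_rfl ?_
    rw [p2_l]
    have := p2_pw h2 (a := m + 1 - 2) (b := 2 * (m + 1 - k)) (c := 2 * k) (d := m + 3) (by omega)
    have c := hCF k
    calc CF k * (τ * s ^ (m + 1 - 2)) * s⁻¹ ^ (2 * (m + 1 - k))
        = CF k * τ * (s ^ (m + 1 - 2) * s⁻¹ ^ (2 * (m + 1 - k))) := by ring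
      _ ≤ _ := by gcongr
  have dE : ∀ k ≤ m, A.TN k (G - A.metA F - δ • H0 - Et)
      (CT k * (η0 / 2) * δ * (s ^ (2 * k) * s⁻¹ ^ m)) := by
    intro k hk
    refine (e3 k hk _ (h.h12 m le_rfl)).mono le_rfl ?_
    rw [p2_l]
    have := p2_pw h2 (a := m) (b := 2 * (m - k)) (c := 2 * k) (d := m) (by omega)
    have c := hCT k
    calc CT k * (η0 / 2 * δ * s ^ m) * s⁻¹ ^ (2 * (m - k))
        = CT k * (η0 / 2) * δ * (s ^ m * s⁻¹ ^ (2 * (m - k))) := by ring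
      _ ≤ _ := by gcongr
  have r1 : δ' / δ ≤ s⁻¹ := by
    rw [div_le_iff₀ h4]
    rw [div_eq_mul_inv] at h7
    linarith
  have r0 : 0 < δ' / δ := by positivity
  have si1 : s⁻¹ ≤ 1 := inv_le_one_of_one_le₀ h2
  have δ1 : δ ≤ 1 := le_trans h.h5 (pow_le_one₀ si.le si1)
  refine ⟨Ft, H0 + δ⁻¹ • Et - (δ' / δ) • H0, f1, (hH.add (e1.smul _)).sub (hH.smul _),
    fun k => ?_, fun k hk => (dF k hk).mono le_rfl ?_, ?_, ?_, fun k => ?_, fun k hk => ?_⟩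
  · rcases Nat.lt_or_ge k 2 with e | e
    · refine (f2 2 2 le_rfl _ nF2).mono e.le ?_
      rw [Nat.sub_eq_zero_of_le e.le]
      have := m3 k 2 (by omega)
      simp only [Nat.sub_self, pow_zero, mul_one]
      gcongr
    · refine (f2 2 k e _ nF2).mono le_rfl ?_
      rw [inv_inv]
      have := m3 k k (by omega)
      gcongr
  · have := m3 k k (by omega)
    gcongr
  · have a1 : s ^ (2 * 2) * s⁻¹ ^ (m + 3) ≤ s⁻¹ := by
      simpa using p2_pw h2 (a := 2 * 2) (b := m + 3) (c := 0) (d := 1) (by omega)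
    have a2 : A.Nb 2 (fun x => Ft x - F x) (CF 2 * τ * s⁻¹) := by
      have := Atl.Nb.const_smul (h8.sub f1) (-1) (dF 2 (by omega))
      simp only [neg_smul, one_smul, neg_sub, abs_neg, abs_one, one_mul] at this
      exact this.mono le_rfl (by gcongr)
    have τ1 : τ ≤ τ ^ 7 := le_self_pow₀ h1 (by norm_num)
    have a3 : CF 2 * τ * s⁻¹ ≤ 1 := by
      rw [← div_eq_mul_inv, div_le_one s0]
      have : CF 2 * τ ≤ CF 2 * τ ^ 7 := by gcongr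
      have : 0 ≤ 2 * CM * CF 2 * τ ^ 7 := by positivity
      linarith
    refine (hMg F Ft Ψ τ⁻¹ η τ _ h8 f1 h1 (by positivity) a3 nF2 a2 h.h11).mono hg ?_ le_rfl
    have a4 : CM * τ ^ 5 * (CF 2 * τ * s⁻¹) ≤ (2 * τ)⁻¹ := by
      rw [inv_eq_one_div (2 * τ), le_div_iff₀ (by positivity)]
      have : CM * τ ^ 5 * (CF 2 * τ * s⁻¹) * (2 * τ) = 2 * CM * CF 2 * τ ^ 7 / s := by ring
      rw [this, div_le_one s0]
      have : 0 ≤ CF 2 * τ ^ 7 := by positivity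
      linarith
    have a5 : τ⁻¹ = (2 * τ)⁻¹ + (2 * τ)⁻¹ := by field_simp; ring
    rw [pow_one]
    linarith
  · have a1 := Atl.TN.sub hE (hE.sub e1) (h.h12 0 (Nat.zero_le _)) (dE 0 (Nat.zero_le _))
    rw [sub_sub_cancel] at a1
    have a2 := Atl.TN.sub (e1.smul _) (hH.smul _) (Atl.TN.smul e1 δ⁻¹ a1)
      (Atl.TN.smul hH (δ' / δ) (hHb 0))
    have e : H0 + δ⁻¹ • Et - (δ' / δ) • H0 - H0 = δ⁻¹ • Et - (δ' / δ) • H0 := by abel
    rw [e]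
    refine a2.mono le_rfl ?_
    rw [abs_of_pos r0, abs_of_pos (inv_pos.2 h4)]
    have a3 : s ^ (2 * 0) * s⁻¹ ^ m ≤ s⁻¹ := by
      simpa using p2_pw h2 (a := 2 * 0) (b := m) (c := 0) (d := 1) (by omega)
    have a4 : δ⁻¹ * (η0 / 2 * δ * s ^ 0 + CT 0 * (η0 / 2) * δ * (s ^ (2 * 0) * s⁻¹ ^ m))
        = η0 / 2 + CT 0 * (η0 / 2) * (s ^ (2 * 0) * s⁻¹ ^ m) := by field_simp
    have a5 : CT 0 * (η0 / 2) * (s ^ (2 * 0) * s⁻¹ ^ m) ≤ CT 0 * (η0 / 2) * s⁻¹ := by gcongr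
    have a6 : δ' / δ * H 0 ≤ s⁻¹ * H 0 := by gcongr
    have a7 : (CT 0 * η0 + 2 * H 0) * s⁻¹ ≤ η0 := by
      rw [← div_eq_mul_inv, div_le_iff₀ s0]
      rw [div_le_iff₀ hη0] at h3b
      linarith
    simp only at a4 ⊢
    rw [a4]
    linarith
  · have a1 := e2 0 k (Nat.zero_le _) _ (h.h12 0 (Nat.zero_le _))
    have a2 := Atl.TN.sub (hH.add (e1.smul _)) (hH.smul _)
      (Atl.TN.add hH (e1.smul _) (hHb k) (Atl.TN.smul e1 δ⁻¹ a1)) (Atl.TN.smul hH (δ' / δ) (hHb k))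
    refine a2.mono le_rfl ?_
    rw [abs_of_pos r0, abs_of_pos (inv_pos.2 h4), inv_inv, Nat.sub_zero]
    have a3 : δ⁻¹ * (CT k * (η0 / 2 * δ * s ^ 0) * (s ^ 2) ^ k) = CT k * (η0 / 2) * (s ^ 2) ^ k := by
      field_simp
    simp only at a3 ⊢
    rw [a3]
    have a4 : 1 ≤ (s ^ 2) ^ k := one_le_pow₀ (one_le_pow₀ h2)
    have a5 := hH0 k
    have a6 : δ' / δ * H k ≤ 1 * H k := by gcongr; linarith
    have a7 : H k * 1 ≤ H k * (s ^ 2) ^ k := by gcongr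
    have a8 := mul_le_mul_of_nonneg_right (n3 k k (by omega)) (show 0 ≤ (s ^ 2) ^ k by positivity)
    linarith
  · have e : G - A.metA F - δ' • H0 - δ • (H0 + δ⁻¹ • Et - (δ' / δ) • H0)
        = G - A.metA F - δ • H0 - Et := by
      rw [smul_sub, smul_add, smul_smul, smul_smul, mul_inv_cancel₀ h4.ne', one_smul,
        mul_div_cancel₀ _ h4.ne']
      abel
    rw [e]
    refine (dE k hk).mono le_rfl ?_
    have a1 := n3 k k (by omega)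
    have a2 := hH0 k
    have a3 := hCT k
    have a4 : CT k * (η0 / 2) * δ ≤ CT k * (η0 / 2) * 1 := by gcongr
    exact mul_le_mul_of_nonneg_right (by linarith) (by positivity)

theorem stage {g Ψ H0 : M → S3} (hg : A.PosD g) (hgs : A.TSm g) (hH : A.TSm H0) {η : ℝ}
    (Pt : Pat A g Ψ η H0) : ∃ q : ℕ, 3 ≤ q ∧ ∀ p : ℕ, 2 ≤ p →
    ∃ (m : ℕ) (C0 : ℝ) (c0 : ℕ) (C : ℕ → ℝ) (c : ℕ → ℕ), 2 * q ^ 2 * (p + 1) + 2 ≤ m ∧
      ∀ (τ s δ δ' : ℝ) (F : M → V) (G : M → S3), 1 ≤ τ → 1 ≤ s → C0 * τ ^ c0 ≤ s → 0 < δ →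
        δ ≤ s⁻¹ ^ (2 * q * p) → s⁻¹ ^ (2 * q ^ 2 * (p + 1)) ≤ δ' → δ' ≤ δ / s →
        A.Sm F → A.TSm G → (∀ k ≤ m + 1, A.Nb k F (τ * s ^ (k - 2))) → A.Mg F g Ψ τ⁻¹ η →
        (∀ k ≤ m, A.TN k (G - A.metA F - δ • H0) (Pt.η0 / 2 * δ * s ^ k)) →
        ∃ F' : M → V, A.Sm F' ∧ A.Nb p (fun x => F' x - F x) s⁻¹ ∧
          (∀ k, A.Nb k F' (C k * τ ^ c k * (s ^ (q - 1)) ^ (k - 2))) ∧
          ∀ k ≤ m, A.TN k (G - A.metA F' - δ' • H0) (δ' * s⁻¹ * (s ^ (q - 1)) ^ k) := by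
  obtain ⟨J, pp, P, hP, hdir, bh, cb, Cb, hcb, hCb, hdec⟩ := Pt.decomp
  have J1 : 1 ≤ 5 ^ J := Nat.one_le_pow _ _ (by norm_num)
  refine ⟨2 * 5 ^ J + 1, by omega, fun p hp => ?_⟩
  set q := 2 * 5 ^ J + 1 with hq
  set m := 2 * q ^ 2 * (p + 1) + 2 with hm
  have q1 : q - 1 = 2 * 5 ^ J := by omega
  have pm : 2 * p ≤ m := by
    have : 1 ≤ q ^ 2 := Nat.one_le_pow _ _ (by omega)
    nlinarith
  obtain ⟨C1, CF, CH, hCF, hCH, mF, mH, hsm⟩ :=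
    p2_smooth (Ψ := Ψ) (η := η) hg hgs hH Pt.η0pos q p m (by omega)
  let ι := {x // Adm A g Ψ H0 η Pt.η0 q p m C1 x}
  have hsm' := fun i : ι => hsm _ _ _ _ _ _ i.2
  choose Ft H' f1 f2 f3 f4 f5 f6 f7 f8 using hsm'
  have dle : ∀ i : ι, Real.sqrt i.1.2.2.1 ≤ i.1.2.1⁻¹ ^ (q * p) := fun i => by
    have a1 := i.2.h2
    apply Real.sqrt_le_iff.2 ⟨by positivity, ?_⟩
    rw [← pow_mul]
    convert i.2.h5 using 2
    ring
  obtain ⟨C0', c1, u, u1, u2, u3⟩ := TWS hg hgs J pp P hP hdir m (ι := ι) (τ := fun i => i.1.1)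
    (s := fun i => i.1.2.1) (d := fun i => Real.sqrt i.1.2.2.1) (F := Ft)
    (bh := fun j i => bh j (H' i)) (fun i => i.2.h1) (fun i => i.2.h2)
    (fun i => Real.sqrt_pos.2 i.2.h4)
    (fun i => (dle i).trans (pow_le_pow_of_le_one (inv_pos.2 (by linarith [i.2.h2])).le
      (inv_le_one_of_one_le₀ i.2.h2) (by nlinarith)))
    f1 (fun k => ⟨CF k, 1, by linarith [hCF k], fun i => by simpa using f3 i k⟩)
    ⟨2, 1, two_pos, f5⟩ (fun j i => (hdec _ (f2 i) (f6 i)).1 j)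
    (fun j k => ⟨Cb k * CH k ^ (k + 1), 0, mul_pos (hCb k) (pow_pos (by linarith [hCH k]) _),
      fun i x hx => by
        have := (hdec _ (f2 i) (f6 i)).2.2.2 k (CH k) (i.1.2.1 ^ 2) (hCH k) (one_le_pow₀ i.2.h2)
          (fun l hl => (f7 i l).mono le_rfl
            (mul_le_mul_of_nonneg_right (mH hl) (by positivity))) j x hx
        simpa using this⟩)
    (fun j => ⟨cb⁻¹, 0, inv_pos.2 hcb, fun i x hx => by
      have := (hdec _ (f2 i) (f6 i)).2.1 j x hx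
      simp only [pow_zero, mul_one]
      rw [← div_eq_inv_mul, le_div_iff₀ hcb]
      linarith⟩)
  choose Cu cu hCu hu using u2
  choose Ce ce hCe he using u3
  obtain ⟨C0, c0, -, hB⟩ := ((Big.base C1 7).and (Big.base C0' c1)).and
    (((Big.base (2 * CF p) 1).and (Big.base (2 * Cu p) (cu p))).and
      (Big.all (fun k => (Big.base (3 * CH k) 0).and ((Big.base (3 * Ce k) (ce k)).and
        (Big.base (3 * (8 * 2 ^ k * CF (m + 1) ^ 2)) 2))) m))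
  refine ⟨m, C0, c0, fun k => CF k + Cu k, fun k => cu k + 1, le_rfl, ?_⟩
  intro τ s δ δ' F G h1 h2 h3 h4 h5 h6 h7 h8 h9 h10 h11 h12
  obtain ⟨⟨b1, b2⟩, ⟨b3, b4⟩, b5⟩ := hB τ s h1 h3
  have s0 : 0 < s := by linarith
  have si : 0 < s⁻¹ := inv_pos.2 s0
  let i : ι := ⟨(τ, s, δ, δ', F, G),
    ⟨h1, h2, b1, h4, h5, lt_of_lt_of_le (by positivity) h6, h7, h8, h9, h10, h11, h12⟩⟩
  have d1 : Real.sqrt δ ≤ s⁻¹ ^ (q * p) := dle i
  have g3 : ∀ k, A.Nb k (Ft i) (CF k * τ * (s ^ 2) ^ (k - 2)) := f3 i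
  have g4 : ∀ k ≤ m + 1, A.Nb k (fun x => F x - Ft i x)
      (CF k * τ * (s ^ (2 * k) * s⁻¹ ^ (m + 3))) := f4 i
  have gu : ∀ k, A.Nb k (u i) (Cu k * τ ^ cu k * (Real.sqrt δ * (s ^ (q - 1)) ^ (k - 1))) := by
    intro k
    rw [q1]
    exact hu k i
  have sq2 : s ^ 2 ≤ s ^ (q - 1) := pow_le_pow_right₀ h2 (by omega)
  have half : ∀ X : ℝ, ∀ n : ℝ, n * X ≤ s → 0 < n → X * s⁻¹ ^ 2 ≤ s⁻¹ / n := fun X n h hn => by
    rw [le_div_iff₀ hn]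
    calc X * s⁻¹ ^ 2 * n = n * X * s⁻¹ ^ 2 := by ring
      _ ≤ s * s⁻¹ ^ 2 := by gcongr
      _ = s⁻¹ := by field_simp
  refine ⟨fun x => Ft i x + u i x, (f1 i).add (u1 i), ?_, fun k => ?_, fun k hk => ?_⟩
  · have a1 := Atl.Nb.sub (u1 i) (h8.sub (f1 i)) (gu p) (g4 p (by omega))
    have e : (fun x => u i x - (F x - Ft i x)) = fun x => Ft i x + u i x - F x := by
      funext x; abel
    rw [e] at a1
    refine a1.mono le_rfl ?_
    have a2 : s ^ (2 * p) * s⁻¹ ^ (m + 3) ≤ s⁻¹ ^ 2 := by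
      simpa using p2_pw h2 (a := 2 * p) (b := m + 3) (c := 0) (d := 2) (by omega)
    have a3 : Real.sqrt δ * (s ^ (q - 1)) ^ (p - 1) ≤ s⁻¹ ^ 2 := by
      have := p2_pw h2 (a := (q - 1) * (p - 1)) (b := q * p) (c := 0) (d := 2) (by
        obtain ⟨p', rfl⟩ : ∃ p', p = p' + 1 := ⟨p - 1, by omega⟩
        rw [q1, hq]
        simp only [Nat.add_sub_cancel]
        nlinarith)
      rw [← pow_mul]
      calc Real.sqrt δ * s ^ ((q - 1) * (p - 1)) ≤ s⁻¹ ^ (q * p) * s ^ ((q - 1) * (p - 1)) := by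
            gcongr
        _ ≤ _ := by rw [mul_comm]; simpa using this
    have a4 := half (CF p * τ) 2 (by linarith) two_pos
    have a5 := half (Cu p * τ ^ cu p) 2 (by linarith) two_pos
    have := hCF p
    have := hCu p
    have a6 : CF p * τ * (s ^ (2 * p) * s⁻¹ ^ (m + 3)) ≤ CF p * τ * s⁻¹ ^ 2 := by gcongr
    have a7 : Cu p * τ ^ cu p * (Real.sqrt δ * (s ^ (q - 1)) ^ (p - 1))
        ≤ Cu p * τ ^ cu p * s⁻¹ ^ 2 := by gcongr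
    linarith
  · refine (Atl.Nb.add (f1 i) (u1 i) (g3 k) (gu k)).mono le_rfl ?_
    have a1 : Real.sqrt δ * (s ^ (q - 1)) ^ (k - 1) ≤ (s ^ (q - 1)) ^ (k - 2) := by
      have := p2_pw h2 (a := (q - 1) * (k - 1)) (b := q * p) (c := (q - 1) * (k - 2)) (d := 0) (by
        have a : (q - 1) * (k - 1) ≤ (q - 1) * (k - 2 + 1) := Nat.mul_le_mul_left _ (by omega)
        have b : q - 1 ≤ q * p := by nlinarith [Nat.sub_le q 1]
        rw [mul_add] at a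
        omega)
      rw [← pow_mul, ← pow_mul]
      calc Real.sqrt δ * s ^ ((q - 1) * (k - 1)) ≤ s⁻¹ ^ (q * p) * s ^ ((q - 1) * (k - 1)) := by
            gcongr
        _ ≤ _ := by rw [mul_comm]; simpa using this
    have := hCF k
    have := hCu k
    have t1 : τ ≤ τ ^ (cu k + 1) := le_self_pow₀ h1 (by omega)
    have t2 : τ ^ cu k ≤ τ ^ (cu k + 1) := pow_le_pow_right₀ h1 (by omega)
    have a2 : CF k * τ * (s ^ 2) ^ (k - 2) ≤ CF k * τ ^ (cu k + 1) * (s ^ (q - 1)) ^ (k - 2) := by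
      gcongr
    have a3 : Cu k * τ ^ cu k * (Real.sqrt δ * (s ^ (q - 1)) ^ (k - 1))
        ≤ Cu k * τ ^ (cu k + 1) * (s ^ (q - 1)) ^ (k - 2) := by gcongr
    linarith
  · have a0 := he k i b2
    rw [(hdec _ (f2 i) (f6 i)).2.2.1, Real.sq_sqrt h4.le, ← q1] at a0
    have a1 : A.TN k (G - A.metA F - δ' • H0 - δ • H' i) (CH k * (s ^ (2 * k) * s⁻¹ ^ m)) := f8 i k hk
    have cm := hCF (m + 1)
    have s2 : 1 ≤ s ^ 2 := one_le_pow₀ h2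
    have a2 := Atl.TN_metA_sub h8 (f1 i) (k := k) (a := CF (m + 1) * τ)
      (b := CF (m + 1) * τ * s⁻¹ ^ m) s2
      (fun j hj => (h10 (j + 1) (by omega)).mono le_rfl (by
        have : s ^ (j + 1 - 2) ≤ (s ^ 2) ^ j := by
          rw [← pow_mul]; exact pow_le_pow_right₀ h2 (by omega)
        calc τ * s ^ (j + 1 - 2) = 1 * τ * s ^ (j + 1 - 2) := by ring
          _ ≤ _ := by gcongr))
      (fun j hj => (g3 (j + 1)).mono le_rfl (by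
        have a := mF (show j + 1 ≤ m + 1 by omega)
        have b : (s ^ 2) ^ (j + 1 - 2) ≤ (s ^ 2) ^ j := pow_le_pow_right₀ s2 (by omega)
        gcongr))
      (fun j hj => (g4 (j + 1) (by omega)).mono le_rfl (by
        have a := mF (show j + 1 ≤ m + 1 by omega)
        have b := p2_pw h2 (a := 2 * (j + 1)) (b := m + 3) (c := 2 * j) (d := m) (by omega)
        rw [← pow_mul]
        calc CF (j + 1) * τ * (s ^ (2 * (j + 1)) * s⁻¹ ^ (m + 3))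
            ≤ CF (m + 1) * τ * (s ^ (2 * j) * s⁻¹ ^ m) := by gcongr
          _ = _ := by ring))
    have t0 := Atl.TSm_metA h8
    have t1 := Atl.TSm_metA (f1 i)
    have t2 := Atl.TSm_metA ((f1 i).add (u1 i))
    have a3 := Atl.TN.sub ((((h9.sub t0).sub (hH.smul _)).sub ((f2 i).smul _)).add (t0.sub t1))
      ((t2.sub t1).sub ((f2 i).smul _))
      (Atl.TN.add (((h9.sub t0).sub (hH.smul _)).sub ((f2 i).smul _)) (t0.sub t1) a1 a2) a0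
    have e : G - A.metA F - δ' • H0 - δ • H' i + (A.metA F - A.metA (Ft i)) -
        (A.metA (fun x => Ft i x + u i x) - A.metA (Ft i) - δ • H' i)
        = G - A.metA (fun x => Ft i x + u i x) - δ' • H0 := by abel
    rw [e] at a3
    refine a3.mono le_rfl ?_
    obtain ⟨c1, c2, c3⟩ := b5 k hk
    have w1 := half (CH k) 3 (by simpa using c1) (by norm_num)
    have w2 := half (Ce k * τ ^ ce k) 3 (by linarith) (by norm_num)
    have w3 := half (8 * 2 ^ k * CF (m + 1) ^ 2 * τ ^ 2) 3 (by linarith) (by norm_num)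
    have w4 : s⁻¹ ^ m ≤ δ' * s⁻¹ ^ 2 := by
      rw [hm, pow_add]
      gcongr
    set L := (s ^ (q - 1)) ^ k with hL
    have w5 : (s ^ 2) ^ k ≤ L := by rw [hL]; gcongr
    have L0 : 0 < L := by positivity
    have := hCH k
    have := hCe k
    have δ0 : 0 < δ' := lt_of_lt_of_le (by positivity) h6
    have v1 : CH k * (s ^ (2 * k) * s⁻¹ ^ m) ≤ δ' * (s⁻¹ / 3) * L := by
      rw [pow_mul]
      calc CH k * ((s ^ 2) ^ k * s⁻¹ ^ m) ≤ CH k * (L * (δ' * s⁻¹ ^ 2)) := by gcongr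
        _ = δ' * (CH k * s⁻¹ ^ 2) * L := by ring
        _ ≤ _ := by gcongr
    have v2 : Ce k * τ ^ ce k * (s⁻¹ ^ m * L) ≤ δ' * (s⁻¹ / 3) * L := by
      calc Ce k * τ ^ ce k * (s⁻¹ ^ m * L) ≤ Ce k * τ ^ ce k * (δ' * s⁻¹ ^ 2 * L) := by gcongr
        _ = δ' * (Ce k * τ ^ ce k * s⁻¹ ^ 2) * L := by ring
        _ ≤ _ := by gcongr
    have v3 : 8 * 2 ^ k * (CF (m + 1) * τ) * (CF (m + 1) * τ * s⁻¹ ^ m) * (s ^ 2) ^ k
        ≤ δ' * (s⁻¹ / 3) * L := by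
      calc 8 * 2 ^ k * (CF (m + 1) * τ) * (CF (m + 1) * τ * s⁻¹ ^ m) * (s ^ 2) ^ k
          ≤ 8 * 2 ^ k * (CF (m + 1) * τ) * (CF (m + 1) * τ * (δ' * s⁻¹ ^ 2)) * L := by gcongr
        _ = δ' * (8 * 2 ^ k * CF (m + 1) ^ 2 * τ ^ 2 * s⁻¹ ^ 2) * L := by ring
        _ ≤ _ := by gcongr
    simp only [i] at *
    linarith

end Vale.Agent.P205
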