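import Vale.Agent.P205.P2

open Set Filter Topology
open scoped ContDiff

noncomputable section
namespace Vale.Agent.P205

variable {M : Type*} [TopologicalSpace M] [T2Space M] [CompactSpace M] {A : Atl M}

/-! P3: the perturbation theorem. -/

/-- passage to the limit -/
theorem limit_map {F : ℕ → M → V} (hF : ∀ n, A.Sm (F n)) {v : ℕ → ℕ → ℝ} (hv : ∀ k, Summable (v k))
    (hb : ∀ k n, A.Nb k (fun x => F (n + 1) x - F n x) (v k n)) {G : M → S3} (hG : A.TSm G)
    {e : ℕ → ℝ} (he : Tendsto e atTop (𝓝 0)) (hm : ∀ n, A.TN 0 (G - A.metA (F n)) (e n)) :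
    ∃ F' : M → V, A.Sm F' ∧ A.metA F' = G ∧
      ∀ k, A.Nb k (fun x => F' x - F 0 x) (∑' n, v k n) := by
  have _ := hG
  set d : ℕ → M → V := fun n x => F (n + 1) x - F n x with hd
  have hds : ∀ n, A.Sm (d n) := fun n => (hF (n + 1)).sub (hF n)
  set S : M → V := fun x => ∑' n, d n x with hS
  have key : ∀ p, ContDiffOn ℝ ∞ (A.loc S p) (Metric.ball 0 3) ∧ ∀ k, ∀ y ∈ Metric.ball (0 : E) 3,
      iteratedFDeriv ℝ k (A.loc S p) y = ∑' n, iteratedFDeriv ℝ k (A.loc (d n) p) y := fun p =>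
    contDiffOn_tsum' (f := fun n => A.loc (d n) p) Metric.isOpen_ball
      (fun n => (hds n p).mono (Atl.ball3_sub' p)) hv (fun k n y hy => hb k n p k le_rfl y hy)
  have b13 : ∀ m, A.ch (A.idx m) m ∈ Metric.ball (0 : E) 3 := fun m =>
    Metric.ball_subset_ball (by norm_num) (A.b1 m)
  have hSs : A.Sm S := Atl.Sm_of fun m => ⟨A.idx m, A.mem m,
    (key _).1.contDiffAt (Metric.isOpen_ball.mem_nhds (b13 m))⟩
  refine ⟨fun x => F 0 x + S x, (hF 0).add hSs, ?_, fun k p j hj y hy => ?_⟩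
  · funext m
    set p := A.idx m
    set y := A.ch p m
    have hy : y ∈ Metric.ball (0 : E) 3 := b13 m
    have hyt : y ∈ (A.ch p).target := Atl.ball3_sub' p hy
    have dF : ∀ n, DifferentiableAt ℝ (A.loc (F n) p) y := fun n =>
      ((hF n).contDiffAt hyt).differentiableAt (by simp)
    have dS : DifferentiableAt ℝ (A.loc S p) y := (hSs.contDiffAt hyt).differentiableAt (by simp)
    have hs : Summable fun n => iteratedFDeriv ℝ 1 (A.loc (d n) p) y :=
      Summable.of_norm_bounded (hv 1) fun n => hb 1 n p 1 le_rfl y hy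
    have t1 : ∀ w : E, Tendsto (fun n => fderiv ℝ (A.loc (F n) p) y w) atTop
        (𝓝 (fderiv ℝ (A.loc (fun x => F 0 x + S x) p) y w)) := by
      intro w
      have a1 := hs.hasSum.tendsto_sum_nat
      rw [← (key p).2 1 y hy] at a1
      have a2 := ((ContinuousMultilinearMap.apply ℝ (fun _ : Fin 1 => E) V
        (fun _ => w)).continuous.tendsto _).comp a1
      have a3 : fderiv ℝ (A.loc (fun x => F 0 x + S x) p) y w
          = fderiv ℝ (A.loc (F 0) p) y w + fderiv ℝ (A.loc S p) y w := by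
        have : A.loc (fun x => F 0 x + S x) p = fun z => A.loc (F 0) p z + A.loc S p z := rfl
        rw [this, fderiv_fun_add (dF 0) dS]
        rfl
      rw [a3]
      have a4 := a2.const_add (fderiv ℝ (A.loc (F 0) p) y w)
      simp only [ContinuousMultilinearMap.apply_apply, iteratedFDeriv_one_apply] at a4
      refine a4.congr fun n => ?_
      simp only [Function.comp, ContinuousMultilinearMap.apply_apply,
        sum_apply, iteratedFDeriv_one_apply]
      have a5 : ∀ j, fderiv ℝ (A.loc (d j) p) y w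
          = fderiv ℝ (A.loc (F (j + 1)) p) y w - fderiv ℝ (A.loc (F j) p) y w := by
        intro j
        have : A.loc (d j) p = fun z => A.loc (F (j + 1)) p z - A.loc (F j) p z := rfl
        rw [this, fderiv_fun_sub (dF _) (dF _)]
        rfl
      simp only [a5]
      rw [Finset.sum_range_sub (fun j => fderiv ℝ (A.loc (F j) p) y w)]
      abel
    have cd : Continuous fun z : V × V => z.1 ⬝ᵥ z.2 := by fun_prop
    have t2 : Tendsto (fun n => A.metA (F n) m) atTop (𝓝 (A.metA (fun x => F 0 x + S x) m)) :=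
      ((cd.tendsto _).comp ((t1 _).prodMk_nhds (t1 _))).prodMk_nhds
        (((cd.tendsto _).comp ((t1 _).prodMk_nhds (t1 _))).prodMk_nhds
          ((cd.tendsto _).comp ((t1 _).prodMk_nhds (t1 _))))
    have t3 : Tendsto (fun n => A.metA (F n) m) atTop (𝓝 (G m)) := by
      rw [tendsto_iff_norm_sub_tendsto_zero]
      refine squeeze_zero (fun n => norm_nonneg _) (fun n => ?_) he
      rw [norm_sub_rev]
      exact (hm n).norm_le m
    exact tendsto_nhds_unique t2 t3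
  · have : A.loc (fun x => F 0 x + S x - F 0 x) p = A.loc S p := by
      funext z
      simp [Atl.loc]
    rw [this, (key p).2 j y hy]
    exact tsum_of_norm_bounded (hv k).hasSum fun n => hb k n p j hj y hy

theorem p3_seq {α : Type*} {P : ℕ → α → Prop} {Q : ℕ → α → α → Prop} {a0 : α} (h0 : P 0 a0)
    (hs : ∀ n a, P n a → ∃ b, P (n + 1) b ∧ Q n a b) :
    ∃ f : ℕ → α, f 0 = a0 ∧ ∀ n, P n (f n) ∧ Q n (f n) (f (n + 1)) := by
  choose g hg using hs
  let f : ∀ n, {a // P n a} := fun n => Nat.rec ⟨a0, h0⟩ (fun n a => ⟨g n a.1 a.2, (hg n a.1 a.2).1⟩) n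
  exact ⟨fun n => (f n).1, rfl, fun n => ⟨(f n).2, (hg n (f n).1 (f n).2).2⟩⟩

theorem p3_levels {T : ℕ → ℝ → Prop} {s : ℕ → ℝ} (hs : Monotone s) (hs' : Tendsto s atTop atTop)
    (hm : ∀ p a b, T p a → s 0 ≤ a → a ≤ b → T p b) (he : ∀ p, ∀ᶠ a in atTop, T p a)
    (h0 : T 0 (s 0)) : ∃ p : ℕ → ℕ, p 0 = 0 ∧ (∀ n, T (p n) (s n)) ∧ (∀ n, p n ≤ p (n + 1)) ∧
      (∀ n, p (n + 1) ≤ p n + 1) ∧ ∀ k, ∀ᶠ n in atTop, k ≤ p n := by
  classical
  let p : ℕ → ℕ := fun n => Nat.rec 0 (fun n a => if T (a + 1) (s (n + 1)) then a + 1 else a) n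
  have e : ∀ n, p (n + 1) = if T (p n + 1) (s (n + 1)) then p n + 1 else p n := fun n => rfl
  have h1 : ∀ n, p n ≤ p (n + 1) := fun n => by rw [e]; split_ifs <;> omega
  have h2 : Monotone p := monotone_nat_of_le_succ h1
  refine ⟨p, rfl, fun n => ?_, h1, fun n => by rw [e]; split_ifs <;> omega, fun k => ?_⟩
  · induction n with
    | zero => exact h0
    | succ n ih =>
      rw [e]
      split_ifs with h
      · exact h
      · exact hm _ _ _ ih (hs (Nat.zero_le n)) (hs (Nat.le_succ n))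
  · induction k with
    | zero => exact Eventually.of_forall fun n => Nat.zero_le _
    | succ k ih =>
      have a1 : ∀ᶠ n in atTop, T (k + 1) (s (n + 1)) :=
        (hs'.comp (tendsto_add_atTop_nat 1)).eventually (he (k + 1))
      obtain ⟨n, hn1, hn2⟩ := (ih.and a1).exists
      have : k + 1 ≤ p (n + 1) := by
        rcases Nat.lt_or_ge k (p n) with h | h
        · exact le_trans h (h1 n)
        · have : p n = k := le_antisymm h hn1
          rw [e, this, if_pos hn2]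
      exact (eventually_ge_atTop (n + 1)).mono fun m hm => this.trans (h2 hm)

theorem p3_geom {s0 : ℝ} (h : 2 ≤ s0) {q : ℕ} (hq : 2 ≤ q) (n : ℕ) :
    2 * s0 ^ q ^ n ≤ s0 ^ q ^ (n + 1) ∧ 2 ≤ s0 ^ q ^ n := by
  have a1 : 2 ≤ s0 ^ q ^ n :=
    h.trans (le_self_pow₀ (by linarith) (pow_ne_zero _ (by omega)))
  refine ⟨?_, a1⟩
  rw [pow_succ, pow_mul]
  calc 2 * s0 ^ q ^ n ≤ (s0 ^ q ^ n) ^ 2 := by nlinarith
    _ ≤ _ := pow_le_pow_right₀ (by linarith) hq

/-- one step of the iteration -/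
theorem p3_step {H0 G : M → S3} (hH : A.TSm H0) (hG : A.TSm G) {η0 : ℝ} (hη0 : 0 < η0)
    {q m m' lv lv' : ℕ} (hq : 3 ≤ q) (hm : 2 * q ^ 2 * (lv + 1) + 2 ≤ m) (hl : lv' ≤ lv + 1)
    {C : ℕ → ℝ} {τ' s : ℝ} (hτ : 1 ≤ τ') (hs : 2 ≤ s) {F' : M → V} (hF : A.Sm F')
    (h2 : A.Nb 2 F' τ') (hb : ∀ k, A.Nb k F' (C k * (s ^ (q - 1)) ^ (k - 2)))
    (he : ∀ k ≤ m, A.TN k (G - A.metA F' - ((s ^ q)⁻¹ ^ (2 * q * lv')) • H0)
      ((s ^ q)⁻¹ ^ (2 * q * lv') * s⁻¹ * (s ^ (q - 1)) ^ k))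
    (ht : ∀ k ≤ m' + 1, C k ≤ s ∧ A.TN k G (s ^ 2) ∧ A.TN k H0 (s ^ 2) ∧ 2 * (4 * 2 ^ k + 2) / η0 ≤ s) :
    (∀ k ≤ m' + 1, A.Nb k F' (τ' * (s ^ q) ^ (k - 2))) ∧
      ∀ k ≤ m', A.TN k (G - A.metA F' - ((s ^ q)⁻¹ ^ (2 * q * lv')) • H0)
        (η0 / 2 * (s ^ q)⁻¹ ^ (2 * q * lv') * (s ^ q) ^ k) := by
  have s1 : 1 ≤ s := by linarith
  have s0 : 0 < s := by linarith
  set lam := s ^ (q - 1) with hlam
  have l1 : 1 ≤ lam := one_le_pow₀ s1
  have eq : s ^ q = s * lam := by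
    rw [hlam, ← pow_succ']
    congr 1
    omega
  set δ' := (s ^ q)⁻¹ ^ (2 * q * lv') with hδ
  have d0 : 0 < δ' := by positivity
  have d1 : δ' ≤ 1 := pow_le_one₀ (by positivity) (inv_le_one_of_one_le₀ (one_le_pow₀ s1))
  refine ⟨fun k hk => ?_, fun k hk => ?_⟩
  · rcases Nat.lt_or_ge 2 k with h | h
    · refine (hb k).mono le_rfl ?_
      rw [eq, mul_pow]
      have a1 : s ≤ s ^ (k - 2) := le_self_pow₀ s1 (by omega)
      have a2 : C k ≤ τ' * s ^ (k - 2) := by
        have := (ht k hk).1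
        nlinarith [pow_pos s0 (k - 2)]
      have := mul_le_mul_of_nonneg_right a2 (pow_nonneg (by linarith : 0 ≤ lam) (k - 2))
      linarith
    · refine h2.mono h ?_
      rw [Nat.sub_eq_zero_of_le h]
      simp
  · obtain ⟨-, t2, t3, t4⟩ := ht k (by omega)
    have a0 : (4 * 2 ^ k + 2 : ℝ) ≤ η0 / 2 * s := by
      rw [div_le_iff₀ hη0] at t4
      linarith
    rcases Nat.lt_or_ge m k with h | h
    · have a1 := Atl.TN_metA hF (k := k) (a := s) l1 fun j hj => by
        refine (hb (j + 1)).mono le_rfl ?_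
        exact mul_le_mul (ht (j + 1) (by omega)).1 (pow_le_pow_right₀ l1 (by omega))
          (by positivity) s0.le
      have a2 := Atl.TN.sub (hG.sub (Atl.TSm_metA hF)) (hH.smul δ')
        (Atl.TN.sub hG (Atl.TSm_metA hF) t2 a1) (Atl.TN.smul hH δ' t3)
      refine a2.mono le_rfl ?_
      rw [abs_of_pos d0, eq, mul_pow]
      have lk : 1 ≤ lam ^ k := one_le_pow₀ l1
      have a3 : s ^ 3 ≤ δ' * s ^ k := by
        have b1 : δ' = (s ^ (q * (2 * q * lv')))⁻¹ := by rw [hδ, inv_pow, ← pow_mul]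
        rw [b1, ← div_eq_inv_mul, le_div_iff₀ (by positivity), ← pow_add]
        apply pow_le_pow_right₀ s1
        have : q * (2 * q * lv') ≤ 2 * q ^ 2 * (lv + 1) := by
          calc q * (2 * q * lv') = 2 * q ^ 2 * lv' := by ring
            _ ≤ _ := Nat.mul_le_mul_left _ hl
        omega
      have s2 : 0 < s ^ 2 := by positivity
      calc s ^ 2 + 4 * 2 ^ k * s ^ 2 * lam ^ k + δ' * s ^ 2
          ≤ s ^ 2 * lam ^ k + 4 * 2 ^ k * s ^ 2 * lam ^ k + s ^ 2 * lam ^ k := by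
            have := mul_le_mul_of_nonneg_left lk s2.le
            have := mul_le_mul_of_nonneg_right d1 s2.le
            linarith
        _ = (4 * 2 ^ k + 2) * (s ^ 2 * lam ^ k) := by ring
        _ ≤ η0 / 2 * s * (s ^ 2 * lam ^ k) := mul_le_mul_of_nonneg_right a0 (by positivity)
        _ = η0 / 2 * s ^ 3 * lam ^ k := by ring
        _ ≤ η0 / 2 * (δ' * s ^ k) * lam ^ k := by gcongr
        _ = _ := by ring
    · refine (he k h).mono le_rfl ?_
      have a1 : s⁻¹ ≤ η0 / 2 := by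
        rw [inv_le_iff_one_le_mul₀ s0]
        have : (0 : ℝ) ≤ 4 * 2 ^ k := by positivity
        linarith
      have a2 : lam ^ k ≤ (s ^ q) ^ k := by
        apply pow_le_pow_left₀ (by linarith)
        rw [eq]
        nlinarith
      calc δ' * s⁻¹ * lam ^ k ≤ δ' * (η0 / 2) * (s ^ q) ^ k := by gcongr
        _ = _ := by ring

theorem PT {g Ψ H0 : M → S3} (hg : A.PosD g) (hgs : A.TSm g) (hH : A.TSm H0) {η : ℝ}
    (Pt : Pat A g Ψ η H0) (R : ℕ) : ∃ S : ℕ, 1 ≤ S ∧ ∀ B : ℕ → ℝ, ∃ τ0 : ℝ, ∀ τ : ℝ, τ0 ≤ τ → 1 ≤ τ →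
      ∃ B' : ℕ → ℝ, ∀ (F : M → V) (G : M → S3), A.Sm F → A.TSm G →
        (∀ k, A.Nb k F (B k * τ ^ k)) → (∀ k, A.TN k G (B k * τ ^ k)) → A.Mg F g Ψ τ⁻¹ η →
        (∀ k, A.TN k (G - A.metA F - (τ⁻¹ ^ S) • H0) (τ⁻¹ ^ S * (B k * τ ^ k))) →
        A.TN 0 (G - A.metA F - (τ⁻¹ ^ S) • H0) (Pt.η0 / 2 * τ⁻¹ ^ S) →
        ∃ F' : M → V, A.Sm F' ∧ A.metA F' = G ∧ A.Nb 2 (fun x => F' x - F x) (τ⁻¹ ^ R) ∧
          ∀ k, A.Nb k F' (B' k) := by
  obtain ⟨q, hq, hst⟩ := stage hg hgs hH Pt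
  choose m C0 c0 C c hm hst using fun p : ℕ => hst (p + 2) (by omega)
  choose H hH0 hHb using hH.tn
  obtain ⟨CM, hCM, hMg⟩ := Atl.Mg_stable hg hgs
  have hη0 := Pt.η0pos
  set Mx : ℕ → ℕ := fun p => max (m p) (m (p + 1)) + 1 with hMx
  set S' : ℕ := 3 * c0 0 + 3 * ∑ k ∈ Finset.range (Mx 0 + 1), c 0 k + Mx 0 + R + 18 with hS'
  refine ⟨S' * (2 * q * 2), Nat.one_le_iff_ne_zero.2 (by positivity), fun B => ?_⟩
  have ev : ∀ᶠ τ : ℝ in atTop, 2 ≤ τ ∧ C0 0 ≤ τ ∧ 2 * CM + 1 ≤ τ ∧ B 2 + 1 ≤ τ ∧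
      ∀ k ∈ Finset.range (Mx 0 + 1), C 0 k ≤ τ ∧ B k ≤ τ ∧ H k ≤ τ ∧
        2 * (4 * 2 ^ k + 2) / Pt.η0 ≤ τ ∧ 2 * B k / Pt.η0 ≤ τ := by
    refine (eventually_ge_atTop _).and ((eventually_ge_atTop _).and ((eventually_ge_atTop _).and
      ((eventually_ge_atTop _).and ((Filter.eventually_all_finset _).2 fun k _ => ?_))))
    exact (eventually_ge_atTop _).and ((eventually_ge_atTop _).and ((eventually_ge_atTop _).and
      ((eventually_ge_atTop _).and (eventually_ge_atTop _))))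
  obtain ⟨τ0, hτ0⟩ := eventually_atTop.1 ev
  refine ⟨τ0, fun τ hτ hτ1 => ?_⟩
  obtain ⟨t2, tC0, tCM, tB2, tk⟩ := hτ0 τ hτ
  have τp : 0 < τ := by linarith
  set s0 := τ ^ S' with hs0
  have pw : ∀ j, j ≤ S' → τ ^ j ≤ s0 := fun j hj => pow_le_pow_right₀ hτ1 hj
  have τs : τ ≤ s0 := by simpa using pw 1 (by omega)
  have s02 : 2 ≤ s0 := t2.trans τs
  set s : ℕ → ℝ := fun n => s0 ^ q ^ n with hs
  have gs := p3_geom s02 (q := q) (by omega)
  have ss : ∀ n, s (n + 1) = s n ^ q := fun n => by simp only [hs]; rw [pow_succ, pow_mul]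
  have s00 : s 0 = s0 := by simp [hs]
  have sm : Monotone s := monotone_nat_of_le_succ fun n => by
    have := gs n
    simp only [hs]
    linarith [this.1, this.2]
  have sg : ∀ n, (s n)⁻¹ ≤ s0⁻¹ * (1 / 2) ^ n := by
    intro n
    induction n with
    | zero => simp [s00]
    | succ n ih =>
      have a1 : (s (n + 1))⁻¹ ≤ (2 * s n)⁻¹ :=
        inv_anti₀ (by have := (gs n).2; positivity) (gs n).1
      rw [mul_inv] at a1
      rw [pow_succ]
      linarith
  have sp : ∀ n, 0 < s n := fun n => by have := (gs n).2; simp only [hs]; linarith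
  have smb : Summable fun n => s0⁻¹ * (1 / 2 : ℝ) ^ n := summable_geometric_two.mul_left _
  have sms : Summable fun n => (s n)⁻¹ :=
    Summable.of_nonneg_of_le (fun n => (inv_pos.2 (sp n)).le) sg smb
  have st0 : Tendsto (fun n => (s n)⁻¹) atTop (𝓝 0) := sms.tendsto_atTop_zero
  have st : Tendsto s atTop atTop := by
    have : Tendsto (fun n => (s n)⁻¹) atTop (𝓝[>] 0) :=
      tendsto_nhdsWithin_iff.2 ⟨st0, Eventually.of_forall fun n => inv_pos.2 (sp n)⟩
    exact (tendsto_inv_nhdsGT_zero.comp this).congr fun n => by simp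
  let T : ℕ → ℝ → Prop := fun p a => C0 p * (τ ^ 3) ^ c0 p ≤ a ∧ ∀ k ∈ Finset.range (Mx p + 1),
    C p k * (τ ^ 3) ^ c p k ≤ a ∧ B k * τ ^ k ≤ a ∧ H k ≤ a ∧ 2 * (4 * 2 ^ k + 2) / Pt.η0 ≤ a
  obtain ⟨p, p0, pT, pm, pl, pe⟩ := p3_levels (T := T) sm st
    (fun p a b h _ hab => ⟨h.1.trans hab, fun k hk => ⟨(h.2 k hk).1.trans hab,
      (h.2 k hk).2.1.trans hab, (h.2 k hk).2.2.1.trans hab, (h.2 k hk).2.2.2.trans hab⟩⟩)
    (fun p => (eventually_ge_atTop _).and ((Filter.eventually_all_finset _).2 fun k _ =>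
      (eventually_ge_atTop _).and ((eventually_ge_atTop _).and ((eventually_ge_atTop _).and
        (eventually_ge_atTop _)))))
    (by
      rw [s00]
      refine ⟨?_, fun k hk => ⟨?_, ?_, (tk k hk).2.2.1.trans τs, (tk k hk).2.2.2.1.trans τs⟩⟩
      · refine le_trans ?_ (pw (3 * c0 0 + 1) (by omega))
        rw [← pow_mul, pow_succ']
        exact mul_le_mul_of_nonneg_right tC0 (by positivity)
      · have := Finset.single_le_sum (f := fun k => c 0 k) (fun _ _ => Nat.zero_le _) hk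
        refine le_trans ?_ (pw (3 * c 0 k + 1) (by omega))
        rw [← pow_mul, pow_succ']
        exact mul_le_mul_of_nonneg_right (tk k hk).1 (by positivity)
      · have := Finset.mem_range.1 hk
        refine le_trans ?_ (pw (k + 1) (by omega))
        rw [pow_succ']
        exact mul_le_mul_of_nonneg_right (tk k hk).2.1 (by positivity))
  let Φ : ℕ → ℕ → ℝ := fun k n => Nat.casesOn n (B k * τ ^ k)
    (fun n => C (p n) k * (τ ^ 3) ^ c (p n) k * (s n ^ (q - 1)) ^ (k - 2))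
  let v : ℕ → ℕ → ℝ := fun k n => if k ≤ p n + 2 then (s n)⁻¹ else Φ k (n + 1) + Φ k n
  have hv : ∀ k, Summable (v k) := fun k => by
    refine Summable.of_norm_bounded_eventually_nat sms ((pe k).mono fun n hn => ?_)
    simp only [v, if_pos (show k ≤ p n + 2 by omega)]
    rw [Real.norm_of_nonneg (inv_pos.2 (sp n)).le]
  refine ⟨fun k => B k * τ ^ k + ∑' n, v k n, fun F G hF hG bF bG mF eF e0 => ?_⟩
  let δ : ℕ → ℝ := fun n => (s n)⁻¹ ^ (2 * q * (p n + 2))
  have δp : ∀ n, 0 < δ n := fun n => pow_pos (inv_pos.2 (sp n)) _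
  have si : ∀ n, (s n)⁻¹ ≤ 1 := fun n => inv_le_one_of_one_le₀ (by linarith [(gs n).2])
  have τ3 : 1 ≤ τ ^ 3 := one_le_pow₀ hτ1
  have i2 : 2 * s0⁻¹ ≤ 1 := by
    have : s0⁻¹ ≤ 2⁻¹ := inv_anti₀ (by norm_num) s02
    linarith
  have bF2 : B 2 * τ ^ 2 + 1 ≤ τ ^ 3 := by
    have : 1 ≤ τ ^ 2 := one_le_pow₀ hτ1
    nlinarith
  obtain ⟨f, f0, hf⟩ := p3_seq (a0 := F)
    (P := fun n F1 => A.Sm F1 ∧ (∀ k ≤ m (p n) + 1, A.Nb k F1 (τ ^ 3 * s n ^ (k - 2))) ∧
      (∀ k ≤ m (p n), A.TN k (G - A.metA F1 - δ n • H0) (Pt.η0 / 2 * δ n * s n ^ k)) ∧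
      A.Nb 2 (fun x => F1 x - F x) (2 * s0⁻¹ - 2 * (s n)⁻¹) ∧ ∀ k, A.Nb k F1 (Φ k n))
    (Q := fun n F1 F2 => A.Nb (p n + 2) (fun x => F2 x - F1 x) (s n)⁻¹)
    (by
      have d0 : δ 0 = τ⁻¹ ^ (S' * (2 * q * 2)) := by
        simp only [δ, p0, s00, hs0]
        rw [pow_mul τ⁻¹ S', inv_pow τ S']
      refine ⟨hF, fun k hk => (bF k).mono le_rfl ?_, fun k hk => ?_, ?_, bF⟩
      · have hk' : k ∈ Finset.range (Mx 0 + 1) := by
          rw [p0] at hk
          simp only [hMx, Finset.mem_range]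
          omega
        calc B k * τ ^ k ≤ τ * τ ^ k := mul_le_mul_of_nonneg_right (tk k hk').2.1 (by positivity)
          _ = τ ^ (k + 1) := by ring
          _ ≤ τ ^ (3 + (k - 2)) := pow_le_pow_right₀ hτ1 (by omega)
          _ = τ ^ 3 * τ ^ (k - 2) := by ring
          _ ≤ _ := by rw [s00]; gcongr
      · rw [d0]
        rcases Nat.eq_zero_or_pos k with h | h
        · subst h
          simpa using e0
        · have hk' : k ∈ Finset.range (Mx 0 + 1) := by
            rw [p0] at hk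
            simp only [hMx, Finset.mem_range]
            omega
          refine (eF k).mono le_rfl ?_
          have a1 := (tk k hk').2.2.2.2
          rw [div_le_iff₀ hη0] at a1
          have a2 : B k * τ ^ k ≤ Pt.η0 / 2 * s 0 ^ k := by
            calc B k * τ ^ k ≤ Pt.η0 / 2 * τ * τ ^ k :=
                  mul_le_mul_of_nonneg_right (by linarith) (by positivity)
              _ = Pt.η0 / 2 * τ ^ (k + 1) := by ring
              _ ≤ Pt.η0 / 2 * (τ ^ 2) ^ k := by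
                  rw [← pow_mul]
                  exact mul_le_mul_of_nonneg_left (pow_le_pow_right₀ hτ1 (by omega)) (by positivity)
              _ ≤ _ := by
                  rw [s00]
                  have := pw 2 (by omega)
                  gcongr
          have := mul_le_mul_of_nonneg_left a2 (show 0 ≤ τ⁻¹ ^ (S' * (2 * q * 2)) by positivity)
          linarith
      · intro p j hj y hy
        have : A.loc (fun x => F x - F x) p = fun _ => 0 := by funext z; simp [Atl.loc]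
        rw [this, s00]
        simp)
    (by
      rintro n F1 ⟨a1, a2, a3, a4, a5⟩
      have sn := (gs n).2
      have ip := inv_pos.2 (sp n)
      have a4' : A.Nb 2 (fun x => F1 x - F x) (2 * s0⁻¹) := a4.mono le_rfl (by linarith)
      have mg : A.Mg F1 g Ψ (τ ^ 3)⁻¹ η := by
        refine (hMg F F1 Ψ τ⁻¹ η (τ ^ 3) (2 * s0⁻¹) hF a1 τ3 (by positivity) i2
          ((bF 2).mono le_rfl (by linarith)) a4' mF).mono hg ?_ le_rfl
        have b1 : s0⁻¹ ≤ (τ ^ 18)⁻¹ := inv_anti₀ (by positivity) (pw 18 (by omega))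
        have b2 : CM * (τ ^ 3) ^ 5 * (2 * s0⁻¹) ≤ CM * (τ ^ 3) ^ 5 * (2 * (τ ^ 18)⁻¹) := by gcongr
        have b3 : CM * (τ ^ 3) ^ 5 * (2 * (τ ^ 18)⁻¹) = 2 * CM * (τ ^ 3)⁻¹ := by field_simp
        have b4 : τ⁻¹ = τ ^ 2 * (τ ^ 3)⁻¹ := by field_simp
        have b5 : (2 * CM + 1) * (τ ^ 3)⁻¹ ≤ τ ^ 2 * (τ ^ 3)⁻¹ :=
          mul_le_mul_of_nonneg_right (by nlinarith) (by positivity)
        linarith
      have dn : δ (n + 1) = (s n)⁻¹ ^ (q * (2 * q * (p (n + 1) + 2))) := by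
        simp only [δ]
        rw [ss, pow_mul (s n)⁻¹ q, inv_pow (s n) q]
      obtain ⟨F2, b1, b2, b3, b4⟩ := hst (p n) (τ ^ 3) (s n) (δ n) (δ (n + 1)) F1 G τ3
        (by linarith) (pT n).1 (δp n) le_rfl
        (by
          rw [dn]
          apply pow_le_pow_of_le_one ip.le (si n)
          have := pl n
          calc q * (2 * q * (p (n + 1) + 2)) = 2 * q ^ 2 * (p (n + 1) + 2) := by ring
            _ ≤ _ := Nat.mul_le_mul_left _ (by omega))
        (by
          rw [dn, div_eq_mul_inv]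
          simp only [δ]
          rw [← pow_succ]
          apply pow_le_pow_of_le_one ip.le (si n)
          have := pm n
          have c1 : 2 * q * (p n + 2) ≤ 2 * q * (p (n + 1) + 2) := Nat.mul_le_mul_left _ (by omega)
          have c2 : 3 * (2 * q * (p (n + 1) + 2)) ≤ q * (2 * q * (p (n + 1) + 2)) :=
            Nat.mul_le_mul_right _ hq
          have c3 : 0 < 2 * q * (p (n + 1) + 2) := by positivity
          omega)
        a1 hG a2 mg a3
      have c1 : A.Nb 2 (fun x => F2 x - F x) (2 * s0⁻¹ - 2 * (s (n + 1))⁻¹) := by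
        have := Atl.Nb.add (b1.sub a1) (a1.sub hF) (b2.mono (k' := 2) (by omega) le_rfl) a4
        simp only [sub_add_sub_cancel] at this
        refine this.mono le_rfl ?_
        have a1 : (s (n + 1))⁻¹ ≤ (2 * s n)⁻¹ := inv_anti₀ (by positivity) (gs n).1
        rw [mul_inv] at a1
        linarith
      have c2 : A.Nb 2 F2 (τ ^ 3) := by
        have := Atl.Nb.add hF (b1.sub hF) (bF 2) c1
        simp only [add_sub_cancel] at this
        refine this.mono le_rfl ?_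
        have := inv_pos.2 (sp (n + 1))
        linarith
      have ssq : s n ≤ s n ^ 2 := by nlinarith
      have c3 := p3_step (m' := m (p (n + 1))) (lv := p n + 2) (lv' := p (n + 1) + 2)
        (C := fun k => C (p n) k * (τ ^ 3) ^ c (p n) k) hH hG hη0 hq (hm (p n))
        (by have := pl n; omega) τ3 sn b1 c2 b3 (by simpa only [δ, ss] using b4)
        (fun k hk => by
          have hk' : k ∈ Finset.range (Mx (p n) + 1) := by
            have e1 := pm n
            have e2 := pl n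
            have e3 : p (n + 1) = p n ∨ p (n + 1) = p n + 1 := by omega
            simp only [hMx, Finset.mem_range]
            rcases e3 with e | e <;> rw [e] at hk <;> omega
          obtain ⟨u1, u2, u3, u4⟩ := (pT n).2 k hk'
          exact ⟨u1, (bG k).mono le_rfl (u2.trans ssq), (hHb k).mono le_rfl (u3.trans ssq), u4⟩)
      refine ⟨F2, ⟨b1, ?_, ?_, c1, b3⟩, b2⟩
      · simpa only [ss] using c3.1
      · simpa only [δ, ss] using c3.2)
  obtain ⟨F', r1, r2, r3⟩ := limit_map (F := f) (fun n => (hf n).1.1) hv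
    (fun k n => by
      simp only [v]
      split_ifs with h
      · exact (hf n).2.mono h le_rfl
      · exact Atl.Nb.sub (hf (n + 1)).1.1 (hf n).1.1 ((hf (n + 1)).1.2.2.2.2 k) ((hf n).1.2.2.2.2 k))
    hG (e := fun n => (Pt.η0 / 2 + H 0) * (s n)⁻¹) (by simpa using st0.const_mul (Pt.η0 / 2 + H 0))
    (fun n => by
      have a1 := Atl.TN.add ((hG.sub (Atl.TSm_metA (hf n).1.1)).sub (hH.smul _)) (hH.smul _)
        ((hf n).1.2.2.1 0 (Nat.zero_le _)) (Atl.TN.smul hH (δ n) (hHb 0))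
      rw [sub_add_cancel] at a1
      refine a1.mono le_rfl ?_
      have a2 : δ n ≤ (s n)⁻¹ := pow_le_of_le_one (inv_pos.2 (sp n)).le (si n) (by positivity)
      rw [abs_of_pos (δp n)]
      have := hH0 0
      nlinarith)
  rw [f0] at r3
  refine ⟨F', r1, r2, (r3 2).mono le_rfl ?_, fun k => ?_⟩
  · have a1 : ∀ n, v 2 n = (s n)⁻¹ := fun n => by simp [v]
    simp only [a1]
    calc ∑' n, (s n)⁻¹ ≤ ∑' n, s0⁻¹ * (1 / 2 : ℝ) ^ n := sms.tsum_le_tsum sg smb
      _ = s0⁻¹ * 2 := by rw [tsum_mul_left, tsum_geometric_two]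
      _ ≤ (τ ^ (R + 1))⁻¹ * τ := by
          have : s0⁻¹ ≤ (τ ^ (R + 1))⁻¹ := inv_anti₀ (by positivity) (pw _ (by omega))
          gcongr
      _ = τ⁻¹ ^ R := by rw [inv_pow, pow_succ]; field_simp
  · have := Atl.Nb.add hF (r1.sub hF) (bF k) (r3 k)
    simpa using this

end Vale.Agent.P205
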