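import Vale.Agent.P205.D3

open Set Filter Topology
open scoped ContDiff

noncomputable section
namespace Vale.Agent.P205

/-! R0: profile functions of a ridge. -/
def r0P (f : ℝ → ℝ) (x : ℝ) : ℝ := ∫ t in (0 : ℝ)..x, f t

theorem r0_hasDerivAt {f : ℝ → ℝ} (hf : Continuous f) (x : ℝ) : HasDerivAt (r0P f) (f x) x :=
  (hf.integral_hasStrictDerivAt 0 x).hasDerivAt

theorem r0_deriv {f : ℝ → ℝ} (hf : Continuous f) : deriv (r0P f) = f :=
  funext fun x => (r0_hasDerivAt hf x).deriv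

theorem r0_smooth {f : ℝ → ℝ} (hf : ContDiff ℝ ∞ f) : ContDiff ℝ ∞ (r0P f) := by
  rw [contDiff_infty_iff_deriv, r0_deriv hf.continuous]
  exact ⟨fun x => (r0_hasDerivAt hf.continuous x).differentiableAt, hf⟩

theorem r0_bound {f : ℝ → ℝ} {c x : ℝ} (h : ∀ t, |t| ≤ |x| → |f t| ≤ c) : |r0P f x| ≤ c * |x| := by
  have := intervalIntegral.norm_integral_le_of_norm_le_const (a := 0) (b := x) (C := c) (f := f)
    (fun t ht => h t (by
      rcases Set.mem_uIoc.1 ht with h1 | h1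
      · rw [abs_of_pos h1.1]; exact h1.2.trans (le_abs_self x)
      · rw [abs_of_nonpos h1.2]; linarith [neg_abs_le x, h1.1]))
  simpa [r0P] using this

theorem r0_bound' {f : ℝ → ℝ} (hf : Continuous f) {c r : ℝ} (hc : 0 ≤ c) (hr : 0 ≤ r)
    (h : ∀ t, |f t| ≤ c) (h0 : ∀ t, r ≤ |t| → f t = 0) (x : ℝ) : |r0P f x| ≤ c * r := by
  have key : ∀ y, |y| ≤ r → |r0P f y| ≤ c * r := fun y hy =>
    (r0_bound fun t _ => h t).trans (mul_le_mul_of_nonneg_left hy hc)
  have hadd : ∀ y, r0P f x = r0P f y + ∫ t in y..x, f t := fun y =>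
    (intervalIntegral.integral_add_adjacent_intervals (hf.intervalIntegrable _ _)
      (hf.intervalIntegrable _ _)).symm
  rcases le_total x r with h1 | h1
  · rcases le_total (-r) x with h2 | h2
    · exact key x (abs_le.2 ⟨h2, h1⟩)
    · rw [hadd (-r), intervalIntegral.integral_congr (g := fun _ => 0) (fun t ht => h0 t (by
        rw [uIcc_of_ge h2] at ht
        linarith [neg_abs_le t, ht.2]))]
      simpa using key (-r) (by rw [abs_neg, abs_of_nonneg hr])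
  · rw [hadd r, intervalIntegral.integral_congr (g := fun _ => 0) (fun t ht => h0 t (by
      rw [uIcc_of_le h1] at ht
      exact ht.1.trans (le_abs_self t)))]
    simpa using key r (by rw [abs_of_nonneg hr])

theorem r0_mul {x y a b : ℝ} (hx : |x| ≤ a) (hy : |y| ≤ b) : |x * y| ≤ a * b := by
  rw [abs_mul]
  exact mul_le_mul hx hy (abs_nonneg _) ((abs_nonneg _).trans hx)

theorem r0_add {x y a b : ℝ} (hx : |x| ≤ a) (hy : |y| ≤ b) : |x + y| ≤ a + b :=
  (abs_add_le _ _).trans (add_le_add hx hy)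

theorem r0_final {Mx R γ δ T w : ℝ} {h2 h3 : ℝ → ℝ} (hw0 : 0 < w) (hγ : 0 < γ)
    (s2 : ContDiff ℝ ∞ h2) (d2 : ∀ x, HasDerivAt h2 (h3 x) x) (n2 : ∀ x, 0 ≤ h2 x ∧ h2 x ≤ Mx)
    (hcore : ∀ x, |x| ≤ w → h2 x = Mx) (hδ1 : δ ≤ 1) (hT1 : 1 ≤ T) (hT2 : T ≤ T ^ 2)
    (g0 : δ ≤ γ / 5) (g1 : δ * T ≤ γ / 5) (g2 : δ * T ^ 2 ≤ γ / 5) (g3 : δ * T ^ 3 ≤ γ / 5)
    (b1 : ∀ x, |r0P h2 x| ≤ δ) (bsq : ∀ x, |r0P h2 x ^ 2| ≤ δ)
    (b13 : ∀ x, |r0P h2 x * h3 x| ≤ T * T)
    (key : ∀ x ∈ Icc (-R) R, |h2 x| ≤ T ∧ |r0P (r0P h2) x| ≤ δ * T ∧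
      |r0P (r0P (r0P h2)) x| ≤ δ * T ^ 2 ∧ |r0P (fun x => r0P h2 x ^ 2) x| ≤ δ * T ∧
      |h3 x * r0P (r0P h2) x| ≤ δ * T ∧ |h3 x * r0P (r0P (r0P h2)) x| ≤ δ * T ^ 2 ∧
      |h3 x * r0P (fun x => r0P h2 x ^ 2) x| ≤ δ * T) : Nonempty (Rdg Mx R (4 * T ^ 2) γ) := by
  have s1 := r0_smooth s2
  have s0 := r0_smooth s1
  have sm : ContDiff ℝ ∞ fun x => r0P h2 x ^ 2 := s1.pow 2
  have d1 := r0_hasDerivAt s2.continuous
  have d0 := r0_hasDerivAt s1.continuous
  have dk := r0_hasDerivAt s0.continuous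
  have dk1 := r0_hasDerivAt sm.continuous
  have e1 := r0_deriv s2.continuous
  have e0 := r0_deriv s1.continuous
  have ek := r0_deriv s0.continuous
  have ek1 := r0_deriv sm.continuous
  have q1 : T * (δ * T) = δ * T ^ 2 := by ring
  have q2 : T * (δ * T ^ 2) = δ * T ^ 3 := by ring
  have q3 : T * δ = δ * T := by ring
  have q4 : T * T = T ^ 2 := by ring
  have dsq : ∀ x, HasDerivAt (fun x => r0P h2 x ^ 2) (2 * (r0P h2 x * h2 x)) x := fun x => by
    have := (d1 x).fun_mul (d1 x)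
    simp only [← sq] at this
    exact this.congr_deriv (by ring)
  have esq : deriv (fun x => r0P h2 x ^ 2) = fun x => 2 * (r0P h2 x * h2 x) :=
    funext fun x => (dsq x).deriv
  refine ⟨⟨w, r0P (r0P h2), r0P (r0P (r0P h2)), r0P fun x => r0P h2 x ^ 2, hw0, s0, r0_smooth s0,
    r0_smooth sm, fun x => by rw [ek], fun x => by rw [ek1, e0], fun x => by rw [e0, e1]; exact n2 x,
    fun x hx => ?_, fun x hx => ?_, fun x hx => ?_, fun x hx => ?_, fun x hx => ?_, fun x hx => ?_,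
    fun x hx => ?_, fun x hx => ?_⟩⟩
  · rw [e0, e1]
    exact hcore x hx
  all_goals obtain ⟨k2, k0, kk, kk1, k30, k3k, k3k1⟩ := key x hx
  all_goals have k1 := b1 x
  all_goals have k12 := r0_mul k1 k2
  all_goals have ksq := bsq x
  · rw [e0, e1]
    exact ⟨by linarith, by linarith, by linarith⟩
  · rw [e0, esq, (((d1 x).fun_mul (d2 x)).const_mul 2).deriv]
    refine ⟨by linarith, ?_, ?_⟩
    · rw [abs_mul, abs_two]; linarith
    · rw [abs_mul, abs_two]
      have := r0_add (r0_mul k2 k2) (b13 x)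
      linarith
  · rw [ek, e0]
    exact ⟨by linarith, by linarith, by linarith⟩
  · rw [ek1, esq]
    refine ⟨by linarith, by linarith, ?_⟩
    rw [abs_mul, abs_two]; linarith
  · have e : deriv (fun x => r0P h2 x * r0P (r0P h2) x) =
        fun x => h2 x * r0P (r0P h2) x + r0P h2 x * r0P h2 x :=
      funext fun x => ((d1 x).fun_mul (d0 x)).deriv
    rw [e0, e, (((d2 x).fun_mul (d0 x)).fun_add ((d1 x).fun_mul (d1 x))).deriv]
    have m1 := r0_mul (k1.trans hδ1) k0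
    have m2 := r0_add (r0_mul k2 k0) (r0_mul (k1.trans hδ1) k1)
    have m3 := r0_add (r0_add k30 (r0_mul k2 k1)) (r0_add (r0_mul k2 k1) k12)
    exact ⟨by linarith, m2.trans (by linarith), m3.trans (by linarith)⟩
  · have e : deriv (fun x => r0P h2 x * r0P (r0P (r0P h2)) x) =
        fun x => h2 x * r0P (r0P (r0P h2)) x + r0P h2 x * r0P (r0P h2) x :=
      funext fun x => ((d1 x).fun_mul (dk x)).deriv
    rw [e0, e, (((d2 x).fun_mul (dk x)).fun_add ((d1 x).fun_mul (d0 x))).deriv]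
    have m1 := r0_mul (k1.trans hδ1) kk
    have m2 := r0_add (r0_mul k2 kk) (r0_mul (k1.trans hδ1) k0)
    have m3 := r0_add (r0_add k3k (r0_mul k2 k0)) (r0_add (r0_mul k2 k0)
      (r0_mul (k1.trans hδ1) k1))
    exact ⟨by linarith, m2.trans (by linarith), m3.trans (by linarith)⟩
  · have e : deriv (fun x => r0P h2 x * r0P (fun x => r0P h2 x ^ 2) x) =
        fun x => h2 x * r0P (fun x => r0P h2 x ^ 2) x + r0P h2 x * r0P h2 x ^ 2 :=
      funext fun x => ((d1 x).fun_mul (dk1 x)).deriv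
    rw [e0, e, (((d2 x).fun_mul (dk1 x)).fun_add ((d1 x).fun_mul (dsq x))).deriv]
    have m1 := r0_mul (k1.trans hδ1) kk1
    have m2 := r0_add (r0_mul k2 kk1) (r0_mul (k1.trans hδ1) ksq)
    have m3 := r0_add (r0_add k3k1 (r0_mul k2 ksq)) (r0_add (r0_mul k2 ksq)
      (r0_mul (k1.trans hδ1) (r0_mul (le_of_eq abs_two) k12)))
    exact ⟨by linarith, m2.trans (by linarith), m3.trans (by linarith)⟩


theorem exists_Rdg {Mx R : ℝ} (hM : 0 < Mx) (hR : 0 < R) :
    ∃ C : ℝ, 0 < C ∧ ∀ γ : ℝ, 0 < γ → Nonempty (Rdg Mx R C γ) := by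
  let b : ContDiffBump (0 : ℝ) := ⟨1, 2, by norm_num, by norm_num⟩
  have hbs : ContDiff ℝ ∞ b := b.contDiff
  obtain ⟨B, hB⟩ := (hbs.continuous_deriv (by simp)).bounded_above_of_compact_support
    b.hasCompactSupport.deriv
  have hB0 : 0 ≤ B := (norm_nonneg _).trans (hB 0)
  have hb0 : ∀ y : ℝ, 2 ≤ |y| → b y = 0 := fun y hy => b.zero_of_le_dist (by simpa [b] using hy)
  have hb' : ∀ y : ℝ, |y * deriv b y| ≤ 2 * B := by
    intro y
    rcases le_or_gt |y| 2 with h | h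
    · exact r0_mul h (hB y)
    · have : deriv b y = 0 := by
        have h1 : (b : ℝ → ℝ) =ᶠ[𝓝 y] fun _ => 0 := by
          filter_upwards [(isOpen_lt continuous_const continuous_abs).mem_nhds h] with z hz
          exact hb0 z hz.le
        rw [h1.deriv_eq]; simp
      rw [this]; simp [hB0]
  set T := 1 + Mx + R + 2 * Mx * B with hT
  have hMB : 0 ≤ 2 * Mx * B := by positivity
  have hT1 : 1 ≤ T := by linarith
  have hMT : Mx ≤ T := by linarith
  have hRT : R ≤ T := by linarith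
  have hBT : 2 * Mx * B ≤ T := by linarith
  refine ⟨4 * T ^ 2, by positivity, fun γ hγ => ?_⟩
  set δ := min 1 (γ / (5 * T ^ 3)) with hδ
  have hδ0 : 0 < δ := lt_min one_pos (by positivity)
  have hδ1 : δ ≤ 1 := min_le_left _ _
  have hδγ : δ * (5 * T ^ 3) ≤ γ := (le_div_iff₀ (by positivity)).1 (min_le_right _ _)
  set w := δ / (2 * Mx) with hw
  have hw0 : 0 < w := by positivity
  set h2 : ℝ → ℝ := fun x => Mx * b (x / w) with hh2
  set h3 : ℝ → ℝ := fun x => Mx * (deriv b (x / w) / w) with hh3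
  have s2 : ContDiff ℝ ∞ h2 := contDiff_const.mul (hbs.comp (contDiff_id.div_const w))
  have d2 : ∀ x, HasDerivAt h2 (h3 x) x := fun x => by
    have h1 := ((hbs.differentiable (by simp)) (x / w)).hasDerivAt.comp x
      ((hasDerivAt_id x).div_const w)
    have := h1.const_mul Mx
    exact this.congr_deriv (by rw [hh3]; ring)
  have n2 : ∀ x, 0 ≤ h2 x ∧ h2 x ≤ Mx := fun x =>
    ⟨mul_nonneg hM.le b.nonneg, mul_le_of_le_one_right hM.le b.le_one⟩
  have b2 : ∀ x, |h2 x| ≤ Mx := fun x => by rw [abs_of_nonneg (n2 x).1]; exact (n2 x).2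
  have b1 : ∀ x, |r0P h2 x| ≤ δ := fun x => by
    have := r0_bound' s2.continuous hM.le (r := 2 * w) (by positivity) b2 (fun t ht => by
      simp only [hh2]
      rw [hb0 _ (by rw [abs_div, abs_of_pos hw0, le_div_iff₀ hw0]; exact ht), mul_zero]) x
    refine this.trans (le_of_eq ?_)
    rw [hw]; field_simp
  have b0 : ∀ x, |r0P (r0P h2) x| ≤ δ * |x| := fun x => r0_bound fun t _ => b1 t
  have bk : ∀ x, |r0P (r0P (r0P h2)) x| ≤ δ * |x| * |x| := fun x =>
    r0_bound fun t ht => (b0 t).trans (mul_le_mul_of_nonneg_left ht hδ0.le)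
  have bsq : ∀ x, |r0P h2 x ^ 2| ≤ δ := fun x => by
    rw [sq]; exact (r0_mul (b1 x) ((b1 x).trans hδ1)).trans (by linarith)
  have bk1 : ∀ x, |r0P (fun x => r0P h2 x ^ 2) x| ≤ δ * |x| := fun x => r0_bound fun t _ => bsq t
  have b3 : ∀ x, |h3 x| * |x| ≤ T := fun x => by
    have h1 : h3 x * x = Mx * (x / w * deriv b (x / w)) := by simp only [hh3]; ring
    rw [← abs_mul, h1]
    exact (r0_mul (le_of_eq (abs_of_pos hM)) (hb' _)).trans (by linarith)
  have b13 : ∀ x, |r0P h2 x * h3 x| ≤ T * T := fun x => by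
    have h1 : |h3 x| ≤ Mx * (B / w) := by
      refine r0_mul (le_of_eq (abs_of_pos hM)) ?_
      rw [abs_div, abs_of_pos hw0]
      exact div_le_div_of_nonneg_right (hB _) hw0.le
    refine (r0_mul (b1 x) h1).trans ?_
    have : δ * (Mx * (B / w)) = Mx * (2 * Mx * B) := by rw [hw]; field_simp
    rw [this]
    exact mul_le_mul hMT hBT hMB (by linarith)
  have hT2 : T ≤ T ^ 2 := by nlinarith
  have hT3 : T ^ 2 ≤ T ^ 3 := by nlinarith
  have g3 : δ * T ^ 3 ≤ γ / 5 := by linarith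
  have g2 : δ * T ^ 2 ≤ γ / 5 := (mul_le_mul_of_nonneg_left hT3 hδ0.le).trans g3
  have g1 : δ * T ≤ γ / 5 := (mul_le_mul_of_nonneg_left hT2 hδ0.le).trans g2
  have g0 : δ ≤ γ / 5 := le_trans (by nlinarith) g1
  have key : ∀ x ∈ Icc (-R) R, |h2 x| ≤ T ∧ |r0P (r0P h2) x| ≤ δ * T ∧
      |r0P (r0P (r0P h2)) x| ≤ δ * T ^ 2 ∧ |r0P (fun x => r0P h2 x ^ 2) x| ≤ δ * T ∧
      |h3 x * r0P (r0P h2) x| ≤ δ * T ∧ |h3 x * r0P (r0P (r0P h2)) x| ≤ δ * T ^ 2 ∧
      |h3 x * r0P (fun x => r0P h2 x ^ 2) x| ≤ δ * T := by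
    intro x hx
    have hx' : |x| ≤ T := (abs_le.2 hx).trans hRT
    have hx0 := abs_nonneg x
    have h30 := abs_nonneg (h3 x)
    have h4 := b3 x
    refine ⟨(b2 x).trans hMT, (b0 x).trans (by gcongr), (bk x).trans ?_,
      (bk1 x).trans (by gcongr), (r0_mul le_rfl (b0 x)).trans ?_, (r0_mul le_rfl (bk x)).trans ?_,
      (r0_mul le_rfl (bk1 x)).trans ?_⟩
    · rw [mul_assoc, sq]; gcongr
    · rw [mul_left_comm]; gcongr
    · calc |h3 x| * (δ * |x| * |x|) = δ * (|h3 x| * |x| * |x|) := by ring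
        _ ≤ δ * (T * T) := by gcongr
        _ = _ := by ring
    · rw [mul_left_comm]; gcongr
  exact r0_final hw0 hγ s2 d2 n2 (fun x hx => by
    simp only [hh2]
    rw [b.one_of_mem_closedBall (by
      simpa [b, abs_div, abs_of_pos hw0, div_le_one hw0] using hx), mul_one]) hδ1 hT1 hT2
    g0 g1 g2 g3 b1 bsq b13 key

end Vale.Agent.P205
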