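import Vale.Agent.P205.D3
import Vale.Agent.P205.T1
import Vale.Agent.P205.G1

open Set Filter Topology
open scoped ContDiff Manifold

noncomputable section
namespace Vale.Agent.P205

theorem r1_cut {Z U : Set E} (hZ : IsCompact Z) (hU : IsOpen U) (h : Z ⊆ U) :
    ∃ (ζ : E → ℝ) (K : Set E), IsCompact K ∧ Z ⊆ K ∧ K ⊆ U ∧ ContDiff ℝ ∞ ζ ∧
      (∀ y ∈ Z, ζ =ᶠ[𝓝 y] fun _ => 1) ∧ tsupport ζ ⊆ K ∧ ∀ y, 0 ≤ ζ y := by
  obtain ⟨K, h1, h2, h3⟩ := exists_compact_between hZ hU h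
  obtain ⟨f, f1, f2, f3⟩ := exists_contMDiffMap_one_nhds_of_subset_interior 𝓘(ℝ, E) (n := ⊤)
    hZ.isClosed h2
  exact ⟨f, K, h1, h2.trans interior_subset, h3, f.contMDiff.contDiff,
    fun y hy => eventually_nhdsSet_iff_forall.1 f1 y hy,
    closure_minimal (fun y hy => by_contra fun h => hy (f2 y h)) h1.isClosed, fun y => (f3 y).1⟩

theorem r1_glue {W : Type} [NormedAddCommGroup W] [NormedSpace ℝ W] {ζ : E → ℝ} {f : E → W}
    (hζ : ContDiff ℝ ∞ ζ) (hf : ∀ y ∈ tsupport ζ, ContDiffAt ℝ ∞ f y) :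
    ContDiff ℝ ∞ fun y => ζ y • f y := by
  refine contDiff_iff_contDiffAt.2 fun y => ?_
  by_cases h : y ∈ tsupport ζ
  · exact hζ.contDiffAt.smul (hf y h)
  · refine (contDiffAt_const (c := (0 : W))).congr_of_eventuallyEq ?_
    filter_upwards [notMem_tsupport_iff_eventuallyEq.1 h] with z hz
    simp [hz]

@[fun_prop]
theorem r1_dot {X : Type} [NormedAddCommGroup X] [NormedSpace ℝ X] {n : WithTop ℕ∞} {u v : X → V}
    {y : X} (hu : ContDiffAt ℝ n u y) (hv : ContDiffAt ℝ n v y) :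
    ContDiffAt ℝ n (fun z => u z ⬝ᵥ v z) y :=
  ContDiffAt.sum fun j _ => (contDiffAt_pi.1 hu j).mul (contDiffAt_pi.1 hv j)

/-- normal projection, times the Gram determinant -/
def r1N (a b u : V) : V := gram2 a b • u - ((u ⬝ᵥ a) * (b ⬝ᵥ b) - (u ⬝ᵥ b) * (a ⬝ᵥ b)) • a -
  ((u ⬝ᵥ b) * (a ⬝ᵥ a) - (u ⬝ᵥ a) * (a ⬝ᵥ b)) • b
/-- the tangent vector dual to a covector -/
def r1T (a b : V) (ξ : E) : V := (gram2 a b)⁻¹ • (((b ⬝ᵥ b) * ξ.1 - (a ⬝ᵥ b) * ξ.2) • a +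
  ((a ⬝ᵥ a) * ξ.2 - (a ⬝ᵥ b) * ξ.1) • b)
def r1X (T : S3) (p q : E) : E :=
  ((2 * qf T (rot q) (1, 0) - qf T (rot q) (rot q) * p.1 / dotE p (rot q)) / dotE p (rot q),
    (2 * qf T (rot q) (0, 1) - qf T (rot q) (rot q) * p.2 / dotE p (rot q)) / dotE p (rot q))
def r1S (T : S3) (p q : E) : ℝ := 2 * qf T (rot p) (rot p) / dotE p (rot q) ^ 2
/-- second fundamental form in the direction `N` -/
def r1B (N : V) (B : E →L[ℝ] E →L[ℝ] V) : S3 :=
  (N ⬝ᵥ B (1, 0) (1, 0), N ⬝ᵥ B (1, 0) (0, 1), N ⬝ᵥ B (0, 1) (0, 1))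

theorem r1N_a (a b u : V) : r1N a b u ⬝ᵥ a = 0 := by
  simp only [r1N, gram2, sub_dotProduct, smul_dotProduct, smul_eq_mul, dotProduct_comm b a]; ring
theorem r1N_b (a b u : V) : r1N a b u ⬝ᵥ b = 0 := by
  simp only [r1N, gram2, sub_dotProduct, smul_dotProduct, smul_eq_mul]; ring
theorem r1N_L (L : E →L[ℝ] V) (u : V) (v : E) : r1N (L (1, 0)) (L (0, 1)) u ⬝ᵥ L v = 0 := by
  rw [g1_lin L v, dotProduct_add, dotProduct_smul, dotProduct_smul, r1N_a, r1N_b]; simp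
theorem r1N_T (a b u : V) (ξ : E) : r1N a b u ⬝ᵥ r1T a b ξ = 0 := by
  simp only [r1T, dotProduct_add, dotProduct_smul, r1N_a, r1N_b, smul_zero, add_zero]
theorem r1N_lin (a b u w z : V) (s t : ℝ) :
    r1N a b (s • u + t • w) ⬝ᵥ z = s * (r1N a b u ⬝ᵥ z) + t * (r1N a b w ⬝ᵥ z) := by
  simp only [r1N, sub_dotProduct, add_dotProduct, smul_dotProduct, smul_eq_mul]; ring
theorem r1T_L (L : E →L[ℝ] V) (h : gram2 (L (1, 0)) (L (0, 1)) ≠ 0) (ξ v : E) :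
    L v ⬝ᵥ r1T (L (1, 0)) (L (0, 1)) ξ = dotE ξ v := by
  rw [g1_lin L v]
  generalize L (1, 0) = a at *
  generalize L (0, 1) = b at *
  simp only [r1T, dotProduct_add, dotProduct_smul, add_dotProduct, smul_dotProduct, smul_eq_mul,
    dotProduct_comm b a, dotE]
  field_simp
  simp only [gram2]
  ring
theorem r1_alg (T : S3) (p q v w : E) (h : dotE p (rot q) ≠ 0) :
    -2 * qf T v w + dotE (r1X T p q) v * dotE p w + dotE (r1X T p q) w * dotE p v =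
      -(r1S T p q * (dotE q v * dotE q w)) := by
  simp only [r1X, r1S]
  generalize hD : dotE p (rot q) = D at *
  simp only [dotE]
  field_simp
  subst hD
  simp only [dotE, rot, qf]
  ring
theorem r1B_qf (N : V) (B : E →L[ℝ] E →L[ℝ] V) (h : B (0, 1) (1, 0) = B (1, 0) (0, 1)) (v w : E) :
    qf (r1B N B) v w = N ⬝ᵥ B v w := by
  rw [g1_lin B v, add_apply, smul_apply,
    smul_apply, g1_lin (B (1, 0)) w, g1_lin (B (0, 1)) w, h]
  simp only [qf, r1B, dotProduct_add, dotProduct_smul, smul_eq_mul]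
  ring

theorem r1_sm {O : Set E} (hO : IsOpen O) {W : Type} [NormedAddCommGroup W] [NormedSpace ℝ W]
    {G : E → W} (hG : ContDiffOn ℝ ∞ G O) {y : E} (hy : y ∈ O) :
    ContDiffAt ℝ ∞ (fderiv ℝ G) y ∧ ContDiffAt ℝ ∞ (fderiv ℝ (fderiv ℝ G)) y :=
  have h1 : ContDiffOn ℝ ∞ (fderiv ℝ G) O := hG.fderiv_of_isOpen hO (by simp)
  have h2 : ContDiffOn ℝ ∞ (fderiv ℝ (fderiv ℝ G)) O := h1.fderiv_of_isOpen hO (by simp)
  ⟨h1.contDiffAt (hO.mem_nhds hy), h2.contDiffAt (hO.mem_nhds hy)⟩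

theorem r1_nu {O : Set E} (hO : IsOpen O) {G : E → V} (hG : ContDiffOn ℝ ∞ G O)
    (hc : ∀ y ∈ O, CvxAt G y) {K : Set E} (hK : IsClosed K) (hKO : K ⊆ O) :
    ∃ ν : E → V, ContDiff ℝ ∞ ν ∧ ∀ y ∈ K, PD (r1B (r1N (fderiv ℝ G y (1, 0))
      (fderiv ℝ G y (0, 1)) (ν y)) (fderiv ℝ (fderiv ℝ G) y)) := by
  have hs : ∀ y ∈ O, fderiv ℝ (fderiv ℝ G) y (0, 1) (1, 0) = fderiv ℝ (fderiv ℝ G) y (1, 0) (0, 1) :=
    fun y hy => t1_d2_symm (hG.contDiffAt (hO.mem_nhds hy)) _ _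
  obtain ⟨ν, h⟩ := exists_contMDiffMap_forall_mem_convex_of_local_const 𝓘(ℝ, E) (n := ⊤)
    (t := fun y => {u : V | y ∈ K → PD (r1B (r1N (fderiv ℝ G y (1, 0))
      (fderiv ℝ G y (0, 1)) u) (fderiv ℝ (fderiv ℝ G) y))}) (fun y u hu w hw s t h0 h1 h2 hy v hv => by
      have a1 := hu hy v hv
      have a2 := hw hy v hv
      rw [r1B_qf _ _ (hs y (hKO hy))] at a1 a2 ⊢
      rw [r1N_lin]
      rcases h0.eq_or_lt with rfl | h3
      · rw [zero_add] at h2; rw [h2]; linarith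
      · positivity) (fun x => by
      by_cases hx : x ∈ K
      · obtain ⟨g0, u, u1, u2, u3⟩ := hc x (hKO hx)
        refine ⟨u, ?_⟩
        obtain ⟨s1, s2⟩ := r1_sm hO hG (hKO hx)
        have c : ContinuousAt (fun y => r1B (r1N (fderiv ℝ G y (1, 0))
            (fderiv ℝ G y (0, 1)) u) (fderiv ℝ (fderiv ℝ G) y)) x := by
          refine ContDiffAt.continuousAt (𝕜 := ℝ) (n := ∞) ?_
          unfold r1B r1N gram2
          fun_prop
        have p : PD (r1B (r1N (fderiv ℝ G x (1, 0)) (fderiv ℝ G x (0, 1)) u)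
            (fderiv ℝ (fderiv ℝ G) x)) := fun v hv => by
          rw [r1B_qf _ _ (hs x (hKO hx))]
          simp only [r1N, u1, u2, zero_mul, sub_zero, zero_smul, smul_dotProduct, smul_eq_mul]
          exact mul_pos g0 (u3 v hv)
        have o : IsOpen {S : S3 | PD S} := by
          simp only [PD_iff, det2]
          exact (isOpen_lt continuous_const continuous_fst).inter
            (isOpen_lt (g := fun S : S3 => S.1 * S.2.2 - S.2.1 ^ 2) continuous_const (by fun_prop))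
        filter_upwards [c.eventually (o.mem_nhds p)] with y hy _ using hy
      · exact ⟨0, (hK.isOpen_compl.eventually_mem hx).mono fun y hy h => absurd h hy⟩)
  exact ⟨ν, ν.contMDiff.contDiff, h⟩

/-! R1: the fields of a ridge. -/
theorem exists_RdF {O : Set E} (hO : IsOpen O) {G : E → V} (hG : ContDiffOn ℝ ∞ G O)
    (hc : ∀ y ∈ O, CvxAt G y) {ψ φ : E → ℝ} (hψ : ContDiffOn ℝ ∞ ψ O) (hφ : ContDiffOn ℝ ∞ φ O)
    {Z : Set E} (hZ : IsCompact Z) (hZO : Z ⊆ O) (ht : ∀ y ∈ Z, fderiv ℝ φ y (rot (dcov ψ y)) ≠ 0) :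
    ∃ R : RdF G ψ O, ∀ y ∈ Z, 0 < R.S y ∧ R.φ =ᶠ[𝓝 y] φ := by
  obtain ⟨p, sp, dp⟩ : ∃ p : E → E, (∀ y ∈ O, ContDiffAt ℝ ∞ p y) ∧
      ∀ y v, dotE (p y) v = fderiv ℝ φ y v := ⟨dcov φ, fun y hy => by
    have := (r1_sm hO hφ hy).1
    unfold dcov; fun_prop, dotE_dcov φ⟩
  obtain ⟨q, hq, sq, dq⟩ : ∃ q : E → E, q = dcov ψ ∧ (∀ y ∈ O, ContDiffAt ℝ ∞ q y) ∧
      ∀ y v, dotE (q y) v = fderiv ℝ ψ y v := ⟨dcov ψ, rfl, fun y hy => by
    have := (r1_sm hO hψ hy).1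
    unfold dcov; fun_prop, dotE_dcov ψ⟩
  rw [← hq] at ht
  have sD : ∀ y ∈ O, ContDiffAt ℝ ∞ (fun y => dotE (p y) (rot (q y))) y := fun y hy => by
    have := sp y hy
    have := sq y hy
    unfold dotE rot; fun_prop
  have o1 : IsOpen (O ∩ (fun y => dotE (p y) (rot (q y))) ⁻¹' {0}ᶜ) :=
    ContinuousOn.isOpen_inter_preimage (fun y hy => (sD y hy).continuousAt.continuousWithinAt) hO
      isOpen_compl_singleton
  obtain ⟨ζ, K1, k1, k2, k3, z1, z2, z3, z4⟩ := r1_cut hZ o1 fun y hy =>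
    ⟨hZO hy, by rw [mem_preimage, dp]; exact ht y hy⟩
  have kO : K1 ⊆ O := fun y hy => (k3 hy).1
  have kD : ∀ y ∈ K1, dotE (p y) (rot (q y)) ≠ 0 := fun y hy => (k3 hy).2
  obtain ⟨χ, K, l1, l2, l3, x1, x2, x3, -⟩ := r1_cut k1 hO kO
  obtain ⟨ν, n1, n2⟩ := r1_nu hO hG hc k1.isClosed kO
  obtain ⟨N, hN⟩ : ∃ N : E → V, N = fun y => r1N (fderiv ℝ G y (1, 0)) (fderiv ℝ G y (0, 1)) (ν y) :=
    ⟨_, rfl⟩
  obtain ⟨T, hT⟩ : ∃ T : E → S3, T = fun y => r1B (N y) (fderiv ℝ (fderiv ℝ G) y) := ⟨_, rfl⟩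
  have tP : ∀ y ∈ K1, PD (T y) := fun y hy => by rw [hT, hN]; exact n2 y hy
  have tq : ∀ y ∈ O, ∀ v w, qf (T y) v w = N y ⬝ᵥ d2 G y v w := fun y hy v w => by
    rw [hT]; exact r1B_qf _ _ (t1_d2_symm (hG.contDiffAt (hO.mem_nhds hy)) _ _) v w
  have g0 : ∀ y ∈ O, gram2 (fderiv ℝ G y (1, 0)) (fderiv ℝ G y (0, 1)) ≠ 0 :=
    fun y hy => (hc y hy).1.ne'
  have sN : ∀ y ∈ O, ContDiffAt ℝ ∞ N y := fun y hy => by
    have := (r1_sm hO hG hy).1
    have := n1.contDiffAt (x := y)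
    rw [hN]; unfold r1N gram2; fun_prop
  have sT : ∀ y ∈ O, ContDiffAt ℝ ∞ T y := fun y hy => by
    have := (r1_sm hO hG hy).2
    have := sN y hy
    rw [hT]; unfold r1B; fun_prop
  have sL : ∀ ξ : E → E, ∀ y ∈ O, ContDiffAt ℝ ∞ ξ y → ContDiffAt ℝ ∞
      (fun y => r1T (fderiv ℝ G y (1, 0)) (fderiv ℝ G y (0, 1)) (ξ y)) y := fun ξ y hy h => by
    have := (r1_sm hO hG hy).1
    have h2 : ContDiffAt ℝ ∞ (fun y => (gram2 (fderiv ℝ G y (1, 0)) (fderiv ℝ G y (0, 1)))⁻¹) y :=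
      ContDiffAt.inv (by unfold gram2; fun_prop) (g0 y hy)
    unfold r1T
    exact h2.smul (by fun_prop)
  have sX : ∀ y ∈ K1, ContDiffAt ℝ ∞ (fun y => r1X (T y) (p y) (q y)) y := fun y hy => by
    have := sp y (kO hy)
    have := sq y (kO hy)
    have := sT y (kO hy)
    have h3 := sD y (kO hy)
    have h4 := kD y hy
    unfold r1X
    refine ContDiffAt.prodMk (ContDiffAt.div (ContDiffAt.sub ?_ (ContDiffAt.div ?_ h3 h4)) h3 h4)
      (ContDiffAt.div (ContDiffAt.sub ?_ (ContDiffAt.div ?_ h3 h4)) h3 h4) <;>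
    · unfold qf rot; fun_prop
  have sS : ∀ y ∈ K1, ContDiffAt ℝ ∞ (fun y => r1S (T y) (p y) (q y)) y := fun y hy => by
    have := sp y (kO hy)
    have := sT y (kO hy)
    unfold r1S
    refine ContDiffAt.div ?_ ((sD y (kO hy)).pow 2) (pow_ne_zero 2 (kD y hy))
    unfold qf rot; fun_prop
  have pS : ∀ y ∈ K1, 0 < r1S (T y) (p y) (q y) := fun y hy => by
    have h1 := kD y hy
    refine div_pos (mul_pos two_pos (tP y hy _ fun h => h1 ?_)) (by positivity)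
    simp only [rot, Prod.mk_eq_zero, neg_eq_zero] at h
    simp [dotE, h.1, h.2]
  have eφ : ∀ y ∈ K1, (fun y => χ y • φ y) =ᶠ[𝓝 y] φ := fun y hy => by
    filter_upwards [x2 y hy] with z hz
    simp [hz]
  have mK : ∀ y, ζ y ≠ 0 → y ∈ K1 := fun y hy => z3 (subset_tsupport _ hy)
  have nor : ∀ y v, N y ⬝ᵥ fderiv ℝ G y v = 0 := fun y v => by rw [hN]; exact r1N_L _ _ _
  have nT : ∀ y ξ, N y ⬝ᵥ r1T (fderiv ℝ G y (1, 0)) (fderiv ℝ G y (0, 1)) ξ = 0 := fun y ξ => by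
    rw [hN]; exact r1N_T _ _ _ _
  refine ⟨
    { K := K
      φ := fun y => χ y • φ y
      N := fun y => ζ y • N y
      V0 := fun y => ζ y • r1T (fderiv ℝ G y (1, 0)) (fderiv ℝ G y (0, 1))
        (r1X (T y) (p y) (q y))
      V1 := fun y => ζ y • (-(1/2) * ζ y * (N y ⬝ᵥ N y)) •
        r1T (fderiv ℝ G y (1, 0)) (fderiv ℝ G y (0, 1)) (p y)
      S := fun y => ζ y • r1S (T y) (p y) (q y)
      cp := l1
      sub := l3
      sφ := r1_glue x1 fun y hy => hφ.contDiffAt (hO.mem_nhds (l3 (x3 hy)))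
      sN := r1_glue z1 fun y hy => sN y (kO (z3 hy))
      sV0 := r1_glue z1 fun y hy => sL _ y (kO (z3 hy)) (sX y (z3 hy))
      sV1 := r1_glue z1 fun y hy => by
        have := sN y (kO (z3 hy))
        have := z1.contDiffAt (x := y)
        have h3 : ContDiffAt ℝ ∞ (fun y => -(1/2) * ζ y * (N y ⬝ᵥ N y)) y := by fun_prop
        exact h3.smul (sL _ y (kO (z3 hy)) (sp y (kO (z3 hy))))
      sS := r1_glue z1 fun y hy => sS y (z3 hy)
      tφ := (tsupport_smul_subset_left _ _).trans x3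
      tN := (tsupport_smul_subset_left _ _).trans (z3.trans l2)
      tV0 := (tsupport_smul_subset_left _ _).trans (z3.trans l2)
      tV1 := (tsupport_smul_subset_left _ _).trans (z3.trans l2)
      tS := (tsupport_smul_subset_left _ _).trans (z3.trans l2)
      S0 := fun y => ?_
      nor := fun y _ v => by rw [smul_dotProduct, nor, smul_zero]
      nV := fun y _ => by simp only [smul_dotProduct, dotProduct_smul, nT, smul_zero, and_self]
      cvx := fun y hy => ?_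
      id0 := fun y hy v w => ?_
      id1 := fun y hy v => ?_ }, fun y hy => ⟨?_, eφ y (k2 hy)⟩⟩
  · by_cases h : ζ y = 0
    · simp [h]
    · exact smul_nonneg (z4 y) (pS y (mK y h)).le
  · by_cases h : ζ y = 0
    · obtain ⟨-, u, u1, u2, u3⟩ := hc y hy
      refine ⟨u, 0, le_rfl, by simp [h], fun v => ?_, u3⟩
      rw [g1_lin _ v, dotProduct_add, dotProduct_smul, dotProduct_smul, u1, u2]; simp
    · exact ⟨N y, ζ y, z4 y, rfl, nor y, fun v hv => by rw [← tq y hy]; exact tP y (mK y h) v hv⟩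
  · by_cases h : ζ y = 0
    · simp [h]
    · have a := r1_alg (T y) (p y) (q y) v w (kD y (mK y h))
      rw [(eφ y (mK y h)).fderiv_eq]
      simp only [smul_dotProduct, dotProduct_smul, smul_eq_mul, r1T_L _ (g0 y hy), ← tq y hy,
        ← dp, ← dq]
      linear_combination ζ y * a
  · by_cases h : ζ y = 0
    · simp [h]
    · rw [(eφ y (mK y h)).fderiv_eq]
      simp only [smul_dotProduct, dotProduct_smul, smul_eq_mul, r1T_L _ (g0 y hy), dp]
      ring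
  · have := (z2 y hy).eq_of_nhds
    simp only [this, one_smul]
    exact pS y (k2 hy)

end Vale.Agent.P205
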