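import Vale.Agent.P205.D3
import Vale.Agent.P205.G2
import Vale.Agent.P205.R1

open Set Filter Topology
open scoped ContDiff

noncomputable section
namespace Vale.Agent.P205
set_option maxSynthPendingDepth 3

section
variable {W : Type} [NormedAddCommGroup W] [NormedSpace ℝ W] {ι : Type}

theorem r2_bd {K : Set E} (hK : IsCompact K) {f : E → W} (hf : ∀ y ∈ K, ContDiffAt ℝ ∞ f y) :
    ∃ B : ℝ, 1 ≤ B ∧ ∀ y ∈ K, ∀ j ≤ 2, ‖iteratedFDeriv ℝ j f y‖ ≤ B := by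
  have h : ∀ j : ℕ, ∃ B : ℝ, ∀ y ∈ K, ‖iteratedFDeriv ℝ j f y‖ ≤ B := fun j =>
    hK.exists_bound_of_continuousOn fun y hy =>
      ((hf y hy).continuousAt_iteratedFDeriv (t1_nat_le j)).continuousWithinAt
  choose B hB using h
  refine ⟨max 1 (max (B 0) (max (B 1) (B 2))), le_max_left _ _, fun y hy j hj => ?_⟩
  refine (hB j y hy).trans ?_
  interval_cases j <;> simp

/-- families that are `O(γ)` in `C²` on `K` -/
def R2S (K : Set E) (γ : ι → ℝ) (u : ι → E → W) : Prop :=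
  ∃ c : ℝ, 0 < c ∧ ∀ i, ∀ y ∈ K, ContDiffAt ℝ ∞ (u i) y ∧
    ∀ j ≤ 2, ‖iteratedFDeriv ℝ j (u i) y‖ ≤ c * γ i

theorem R2S.add {K : Set E} {γ : ι → ℝ} {u v : ι → E → W} (h : R2S K γ u) (h' : R2S K γ v) :
    R2S K γ fun i x => u i x + v i x := by
  obtain ⟨c, c0, h⟩ := h
  obtain ⟨c', c0', h'⟩ := h'
  refine ⟨c + c', by positivity, fun i y hy => ⟨(h i y hy).1.add (h' i y hy).1, fun j hj => ?_⟩⟩
  rw [fun_iteratedFDeriv_add_apply ((h i y hy).1.of_le (t1_nat_le j))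
    ((h' i y hy).1.of_le (t1_nat_le j)), add_mul]
  exact (norm_add_le _ _).trans (add_le_add ((h i y hy).2 j hj) ((h' i y hy).2 j hj))

theorem r2_base {O K : Set E} (hO : IsOpen O) (hK : IsCompact K) (hKO : K ⊆ O) {φ : E → ℝ}
    (hφ : ContDiff ℝ ∞ φ) {R0 c : ℝ} (hR0 : ∀ y, |φ y| ≤ R0) (hc : 0 < c) {γ : ι → ℝ}
    {p : ι → ℝ → ℝ} (hp : ∀ i, ContDiff ℝ ∞ (p i) ∧ SmA R0 (c * γ i) (p i)) {f : E → W}
    (hf : ∀ y ∈ O, ContDiffAt ℝ ∞ f y) : R2S K γ fun i x => p i (φ x) • f x := by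
  obtain ⟨B, B1, hB⟩ := r2_bd hK fun y hy => hf y (hKO hy)
  obtain ⟨D, D1, hD⟩ := r2_bd hK fun y _ => hφ.contDiffAt (x := y)
  refine ⟨12 * D ^ 2 * B * c, by positivity, fun i y hy =>
    ⟨((hp i).1.comp hφ).contDiffAt.smul (hf y (hKO hy)), fun k hk => ?_⟩⟩
  obtain ⟨a0, a1, a2⟩ := (hp i).2 (φ y) (abs_le.1 (hR0 y))
  have g0 : 0 ≤ c * γ i := (abs_nonneg _).trans a0
  have b1 : ∀ j ≤ 2, ‖iteratedFDeriv ℝ j (fun x => p i (φ x)) y‖ ≤ 2 * (c * γ i) * D ^ 2 := by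
    intro j hj
    refine (norm_iteratedFDeriv_comp_le (hp i).1 hφ (t1_nat_le j) y (C := c * γ i) (D := D)
      (fun l hl => ?_) fun l l1 hl => (hD y hy l (hl.trans hj)).trans
        (le_self_pow₀ D1 (by omega))).trans ?_
    · rw [norm_iteratedFDeriv_eq_norm_iteratedDeriv]
      have := hl.trans hj
      interval_cases l
      · simpa using a0
      · simpa using a1
      · rw [iteratedDeriv_succ, iteratedDeriv_one]; exact a2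
    · gcongr
      interval_cases j <;> simp
  have b2 := t1_bilin (ContinuousLinearMap.lsmul ℝ ℝ) (u := fun x => p i (φ x)) (v := f) hO
    ((hp i).1.comp hφ).contDiffOn (fun y hy => (hf y hy).contDiffWithinAt) (hKO hy) k
  refine b2.trans ((mul_le_of_le_one_left (by positivity)
    ContinuousLinearMap.opNorm_lsmul_le).trans ?_)
  refine (Finset.sum_le_card_nsmul _ _ (2 * (2 * (c * γ i) * D ^ 2 * B)) fun j hj => ?_).trans ?_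
  · have j1 : j ≤ k := Nat.lt_succ_iff.1 (Finset.mem_range.1 hj)
    have : (k.choose j : ℝ) ≤ 2 := by
      interval_cases k <;> interval_cases j <;> simp
    gcongr
    exacts [b1 j (j1.trans hk), hB y hy _ (by omega)]
  · rw [Finset.card_range, nsmul_eq_mul]
    have : ((k + 1 : ℕ) : ℝ) ≤ 3 := by exact_mod_cast Nat.succ_le_succ hk
    calc _ ≤ 3 * (2 * (2 * (c * γ i) * D ^ 2 * B)) := by gcongr
      _ = _ := by ring

end

theorem r2_AB {R γ C : ℝ} {p : ℝ → ℝ} (h : SmA R γ p) (h1 : γ ≤ 1) : SmB R γ (max C 1) p :=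
  fun x hx => ⟨(h x hx).1, (h x hx).2.1, (h x hx).2.2.trans (h1.trans (le_max_right _ _))⟩
theorem r2_BB {R γ C : ℝ} {p : ℝ → ℝ} (h : SmB R γ C p) : SmB R γ (max C 1) p :=
  fun x hx => ⟨(h x hx).1, (h x hx).2.1, (h x hx).2.2.trans (le_max_left _ _)⟩
theorem r2_AA {R γ : ℝ} {p : ℝ → ℝ} (h : SmA R γ p) : SmA R (1 * γ) p := by rwa [one_mul]

theorem r2_mul {R γ C : ℝ} {p q : ℝ → ℝ} (hp : ContDiff ℝ ∞ p) (hq : ContDiff ℝ ∞ q)
    (h : SmB R γ C p) (h' : SmB R γ C q) (h1 : γ ≤ 1) (hC : 1 ≤ C) :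
    ContDiff ℝ ∞ (fun x => p x * q x) ∧ SmA R ((2 * C + 2) * γ) fun x => p x * q x := by
  refine ⟨hp.mul hq, fun x hx => ?_⟩
  obtain ⟨a0, a1, a2⟩ := h x hx
  obtain ⟨b0, b1, b2⟩ := h' x hx
  have p0 := hp.differentiable (by simp)
  have q0 := hq.differentiable (by simp)
  have p1 := (contDiff_infty_iff_deriv.1 hp).2.differentiable (by simp)
  have q1 := (contDiff_infty_iff_deriv.1 hq).2.differentiable (by simp)
  have e1 : deriv (fun x => p x * q x) = fun x => deriv p x * q x + p x * deriv q x :=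
    funext fun x => deriv_fun_mul (p0 x) (q0 x)
  have e2 : deriv (fun x => deriv p x * q x + p x * deriv q x) x = deriv (deriv p) x * q x +
      deriv p x * deriv q x + (deriv p x * deriv q x + p x * deriv (deriv q) x) :=
    (((p1 x).hasDerivAt.mul (q0 x).hasDerivAt).add ((p0 x).hasDerivAt.mul (q1 x).hasDerivAt)).deriv
  have g0 : 0 ≤ γ := (abs_nonneg _).trans a0
  have m : ∀ {s t a b : ℝ}, |s| ≤ a → |t| ≤ b → -(a * b) ≤ s * t ∧ s * t ≤ a * b := fun h1 h2 => by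
    rw [← abs_le, abs_mul]
    exact mul_le_mul h1 h2 (abs_nonneg _) ((abs_nonneg _).trans h1)
  have g1 : γ * γ ≤ γ := mul_le_of_le_one_left g0 h1
  have g2 : γ ≤ C * γ := le_mul_of_one_le_left g0 hC
  rw [e1, e2]
  have m1 := m a0 b0
  have m2 := m a1 b0
  have m3 := m a0 b1
  have m4 := m a2 b0
  have m5 := m a1 b1
  have m6 := m a0 b2
  refine ⟨abs_le.2 ⟨?_, ?_⟩, abs_le.2 ⟨?_, ?_⟩, abs_le.2 ⟨?_, ?_⟩⟩ <;> linarith

/-- twice the symmetric product of two vector valued one-forms -/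
def r2P (a b : E → V) : S3 :=
  (2 * (a (1, 0) ⬝ᵥ b (1, 0)), a (1, 0) ⬝ᵥ b (0, 1) + a (0, 1) ⬝ᵥ b (1, 0), 2 * (a (0, 1) ⬝ᵥ b (0, 1)))

theorem r2P_sm {a b : E → E → V} {y : E} (ha : ∀ v, ContDiffAt ℝ ∞ (fun x => a x v) y)
    (hb : ∀ v, ContDiffAt ℝ ∞ (fun x => b x v) y) :
    ContDiffAt ℝ ∞ (fun x => r2P (a x) (b x)) y := by
  have := ha (1, 0)
  have := ha (0, 1)
  have := hb (1, 0)
  have := hb (0, 1)
  unfold r2P
  fun_prop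

theorem r2_line {W : Type} [NormedAddCommGroup W] [NormedSpace ℝ W] {p : ℝ → ℝ} {φ : E → ℝ}
    {f : E → W} {x : E} (hp : ContDiff ℝ ∞ p) (hφ : ContDiff ℝ ∞ φ) (hf : ContDiffAt ℝ ∞ f x) :
    HasFDerivAt (fun z => p (φ z) • f z)
      (p (φ x) • fderiv ℝ f x + deriv p (φ x) • (fderiv ℝ φ x).smulRight (f x)) x := by
  have h := ((hp.differentiable (by simp) (φ x)).hasDerivAt.comp_hasFDerivAt x
    (hφ.differentiable (by simp) x).hasFDerivAt).smul (hf.differentiableAt (by simp)).hasFDerivAt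
  refine h.congr_fderiv ?_
  ext <;> simp [mul_smul]

theorem r2_alg (g1 g2 n1 n2 c1 c2 f1 f2 N V0 V1 : V) (h h' k k1 p1 p2 q1 q2 S : ℝ)
    (a1 : N ⬝ᵥ g1 = 0) (a2 : N ⬝ᵥ g2 = 0) (a3 : N ⬝ᵥ V0 = 0) (a4 : N ⬝ᵥ V1 = 0)
    (i0 : n1 ⬝ᵥ g2 + n2 ⬝ᵥ g1 + (g1 ⬝ᵥ V0) * p2 + (g2 ⬝ᵥ V0) * p1 = -(S * (q1 * q2)))
    (i1 : g1 ⬝ᵥ V1 = -(1/2) * (N ⬝ᵥ N) * p1) (i2 : g2 ⬝ᵥ V1 = -(1/2) * (N ⬝ᵥ N) * p2) :
    (g1 + (h • n1 + h' • p1 • N + (k • c1 + h • p1 • V0) + (k1 • f1 + h' ^ 2 • p1 • V1))) ⬝ᵥ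
      (g2 + (h • n2 + h' • p2 • N + (k • c2 + h • p2 • V0) + (k1 • f2 + h' ^ 2 • p2 • V1))) -
      g1 ⬝ᵥ g2 + h * S * (q1 * q2) =
    k * (g1 ⬝ᵥ c2 + g2 ⬝ᵥ c1) + k1 * (g1 ⬝ᵥ f2 + g2 ⬝ᵥ f1) +
      h' * h * ((p1 • N) ⬝ᵥ n2 + (p2 • N) ⬝ᵥ n1) + h' * k * ((p1 • N) ⬝ᵥ c2 + (p2 • N) ⬝ᵥ c1) +
      h' * k1 * ((p1 • N) ⬝ᵥ f2 + (p2 • N) ⬝ᵥ f1) +
      (h • (n1 + p1 • V0) + k • c1 + h' ^ 2 • p1 • V1 + k1 • f1) ⬝ᵥ
        (h • (n2 + p2 • V0) + k • c2 + h' ^ 2 • p2 • V1 + k1 • f2) := by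
  have e1 : h • n1 + h' • p1 • N + (k • c1 + h • p1 • V0) + (k1 • f1 + h' ^ 2 • p1 • V1) =
      (h' * p1) • N + (h • (n1 + p1 • V0) + k • c1 + h' ^ 2 • p1 • V1 + k1 • f1) := by module
  have e2 : h • n2 + h' • p2 • N + (k • c2 + h • p2 • V0) + (k1 • f2 + h' ^ 2 • p2 • V1) =
      (h' * p2) • N + (h • (n2 + p2 • V0) + k • c2 + h' ^ 2 • p2 • V1 + k1 • f2) := by module
  rw [e1, e2]
  have w1 : g2 ⬝ᵥ (h • (n1 + p1 • V0) + k • c1 + h' ^ 2 • p1 • V1 + k1 • f1) =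
      h * (n1 ⬝ᵥ g2 + p1 * (g2 ⬝ᵥ V0)) + k * (g2 ⬝ᵥ c1) + h' ^ 2 * p1 * (g2 ⬝ᵥ V1) +
        k1 * (g2 ⬝ᵥ f1) := by
    simp only [dotProduct_add, dotProduct_smul, smul_eq_mul, dotProduct_comm g2 n1]; ring
  have w2 : g1 ⬝ᵥ (h • (n2 + p2 • V0) + k • c2 + h' ^ 2 • p2 • V1 + k1 • f2) =
      h * (n2 ⬝ᵥ g1 + p2 * (g1 ⬝ᵥ V0)) + k * (g1 ⬝ᵥ c2) + h' ^ 2 * p2 * (g1 ⬝ᵥ V1) +
        k1 * (g1 ⬝ᵥ f2) := by
    simp only [dotProduct_add, dotProduct_smul, smul_eq_mul, dotProduct_comm g1 n2]; ring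
  have w3 : N ⬝ᵥ (h • (n1 + p1 • V0) + k • c1 + h' ^ 2 • p1 • V1 + k1 • f1) =
      h * (N ⬝ᵥ n1) + k * (N ⬝ᵥ c1) + k1 * (N ⬝ᵥ f1) := by
    simp only [dotProduct_add, dotProduct_smul, smul_eq_mul, a3, a4]; ring
  have w4 : N ⬝ᵥ (h • (n2 + p2 • V0) + k • c2 + h' ^ 2 • p2 • V1 + k1 • f2) =
      h * (N ⬝ᵥ n2) + k * (N ⬝ᵥ c2) + k1 * (N ⬝ᵥ f2) := by
    simp only [dotProduct_add, dotProduct_smul, smul_eq_mul, a3, a4]; ring
  generalize h • (n1 + p1 • V0) + k • c1 + h' ^ 2 • p1 • V1 + k1 • f1 = W1 at *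
  generalize h • (n2 + p2 • V0) + k • c2 + h' ^ 2 • p2 • V1 + k1 • f2 = W2 at *
  simp only [dotProduct_add, add_dotProduct, dotProduct_smul, smul_dotProduct, smul_eq_mul,
    dotProduct_comm g1 N, dotProduct_comm W1 g2, dotProduct_comm W1 N, a1, a2, w1, w2, w3, w4]
  linear_combination h * i0 + h' ^ 2 * p2 * i1 + h' ^ 2 * p1 * i2

theorem r2_quad (b c d f : E → V) (h k m l : ℝ) :
    (1 / 2 : ℝ) • r2P (fun v => h • b v + k • c v + m • d v + l • f v)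
      (fun v => h • b v + k • c v + m • d v + l • f v) =
    (h * h) • (1 / 2 : ℝ) • r2P b b + (k * k) • (1 / 2 : ℝ) • r2P c c +
      (m * m) • (1 / 2 : ℝ) • r2P d d + (l * l) • (1 / 2 : ℝ) • r2P f f +
      (h * k) • r2P b c + (h * m) • r2P b d + (h * l) • r2P b f +
      (k * m) • r2P c d + (k * l) • r2P c f + (m * l) • r2P d f := by
  refine Prod.ext ?_ (Prod.ext ?_ ?_) <;>
  · simp only [r2P, dotProduct, Fin.sum_univ_four, Prod.fst_add, Prod.snd_add, Prod.smul_fst,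
      Prod.smul_snd, Pi.add_apply, Pi.smul_apply, smul_eq_mul]
    ring

section
variable {O : Set E} {G : E → V} {ψ : E → ℝ} (R : RdF G ψ O) {Mx R0 C γ : ℝ} (D : Rdg Mx R0 C γ)

theorem r2_fd (x : E) : HasFDerivAt (R.u D.h D.k D.k1)
    (D.h (R.φ x) • fderiv ℝ R.N x + deriv D.h (R.φ x) • (fderiv ℝ R.φ x).smulRight (R.N x) +
      (D.k (R.φ x) • fderiv ℝ R.V0 x + D.h (R.φ x) • (fderiv ℝ R.φ x).smulRight (R.V0 x)) +
      (D.k1 (R.φ x) • fderiv ℝ R.V1 x +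
        deriv D.h (R.φ x) ^ 2 • (fderiv ℝ R.φ x).smulRight (R.V1 x))) x := by
  have h := ((r2_line D.sh R.sφ (R.sN.contDiffAt (x := x))).add
    (r2_line D.sk R.sφ R.sV0.contDiffAt)).add (r2_line D.sk1 R.sφ R.sV1.contDiffAt)
  rw [D.dk, D.dk1] at h
  exact h

theorem r2_dN (hO : IsOpen O) (hG : ContDiffOn ℝ ∞ G O) {x : E} (hx : x ∈ O) (v w : E) :
    fderiv ℝ R.N x v ⬝ᵥ fderiv ℝ G x w = -(R.N x ⬝ᵥ d2 G x v w) := by
  have h1 := ((r1_sm hO hG hx).1.differentiableAt (by simp)).hasFDerivAt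
  have h2 : HasFDerivAt (fun z => fderiv ℝ G z w)
      ((ContinuousLinearMap.apply ℝ V w).comp (fderiv ℝ (fderiv ℝ G) x)) x :=
    (ContinuousLinearMap.apply ℝ V w).hasFDerivAt.comp x h1
  have h3 := fderiv_dot (R.sN.differentiable (by simp) x) h2.differentiableAt v
  have h4 : (fun z => R.N z ⬝ᵥ fderiv ℝ G z w) =ᶠ[𝓝 x] fun _ => 0 := by
    filter_upwards [hO.mem_nhds hx] with z hz using R.nor z hz w
  rw [h4.fderiv_eq, h2.fderiv] at h3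
  simp only [fderiv_fun_const, Pi.zero_apply, zero_apply] at h3
  exact eq_neg_of_add_eq_zero_left h3.symm

theorem r2_id (hO : IsOpen O) (hG : ContDiffOn ℝ ∞ G O) {x : E} (hx : x ∈ O) :
    met (fun z => G z + R.u D.h D.k D.k1 z) x - met G x + (D.h (R.φ x) * R.S x) • sqv (dcov ψ x) =
    D.k (R.φ x) • r2P (fderiv ℝ G x) (fderiv ℝ R.V0 x) +
      D.k1 (R.φ x) • r2P (fderiv ℝ G x) (fderiv ℝ R.V1 x) +
      (deriv D.h (R.φ x) * D.h (R.φ x)) • r2P (fun v => fderiv ℝ R.φ x v • R.N x) (fderiv ℝ R.N x) +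
      (deriv D.h (R.φ x) * D.k (R.φ x)) • r2P (fun v => fderiv ℝ R.φ x v • R.N x) (fderiv ℝ R.V0 x) +
      (deriv D.h (R.φ x) * D.k1 (R.φ x)) •
        r2P (fun v => fderiv ℝ R.φ x v • R.N x) (fderiv ℝ R.V1 x) +
      (1 / 2 : ℝ) • r2P (fun v => D.h (R.φ x) • (fderiv ℝ R.N x v + fderiv ℝ R.φ x v • R.V0 x) +
          D.k (R.φ x) • fderiv ℝ R.V0 x v + deriv D.h (R.φ x) ^ 2 • fderiv ℝ R.φ x v • R.V1 x +
          D.k1 (R.φ x) • fderiv ℝ R.V1 x v)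
        (fun v => D.h (R.φ x) • (fderiv ℝ R.N x v + fderiv ℝ R.φ x v • R.V0 x) +
          D.k (R.φ x) • fderiv ℝ R.V0 x v + deriv D.h (R.φ x) ^ 2 • fderiv ℝ R.φ x v • R.V1 x +
          D.k1 (R.φ x) • fderiv ℝ R.V1 x v) := by
  have g := hG.contDiffAt (hO.mem_nhds hx)
  have e := ((g.differentiableAt (by simp)).hasFDerivAt.add (r2_fd R D x)).fderiv
  have key := fun v w => r2_alg (fderiv ℝ G x v) (fderiv ℝ G x w) (fderiv ℝ R.N x v)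
    (fderiv ℝ R.N x w) (fderiv ℝ R.V0 x v) (fderiv ℝ R.V0 x w) (fderiv ℝ R.V1 x v)
    (fderiv ℝ R.V1 x w) (R.N x) (R.V0 x) (R.V1 x) (D.h (R.φ x)) (deriv D.h (R.φ x)) (D.k (R.φ x))
    (D.k1 (R.φ x)) (fderiv ℝ R.φ x v) (fderiv ℝ R.φ x w) (fderiv ℝ ψ x v) (fderiv ℝ ψ x w) (R.S x)
    (R.nor x hx v) (R.nor x hx w) (R.nV x hx).1 (R.nV x hx).2 (by
      rw [r2_dN R hO hG hx, r2_dN R hO hG hx, d2_symm g w v, ← R.id0 x hx v w]; ring)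
    (R.id1 x hx v) (R.id1 x hx w)
  have e' : fderiv ℝ (fun z => G z + R.u D.h D.k D.k1 z) x = _ := e
  have k1 := key (1, 0) (1, 0)
  have k2 := key (1, 0) (0, 1)
  have k3 := key (0, 1) (0, 1)
  refine Prod.ext ?_ (Prod.ext ?_ ?_) <;>
    simp only [met, e', r2P, sqv, dcov, Prod.fst_add, Prod.snd_add, Prod.fst_sub, Prod.snd_sub,
      Prod.smul_fst, Prod.smul_snd, smul_eq_mul, add_apply, smul_apply,
      ContinuousLinearMap.smulRight_apply]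
  · linear_combination k1
  · rw [dotProduct_comm (D.h (R.φ x) • (fderiv ℝ R.N x (0, 1) + _) + _ + _ + _)]
    linear_combination k2
  · linear_combination k3

end

theorem r2_fin {W : Type} [NormedAddCommGroup W] [NormedSpace ℝ W] {K : Set E} {Mx R0 C : ℝ}
    {u : (Σ γ : {γ : ℝ // γ ≤ 1}, Rdg Mx R0 C γ) → E → W} (h : R2S K (fun i => i.1.1) u) {γ : ℝ}
    (hγ : 0 < γ) : ∃ γ', 0 < γ' ∧ ∃ h1 : γ' ≤ 1, ∀ γ'' (h2 : γ'' ≤ γ'), ∀ D : Rdg Mx R0 C γ'',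
      ∀ y ∈ K, ∀ j ≤ 2, ‖iteratedFDeriv ℝ j (u ⟨⟨γ'', h2.trans h1⟩, D⟩) y‖ ≤ γ := by
  obtain ⟨c, c0, h⟩ := h
  refine ⟨min 1 (γ / c), by positivity, min_le_left _ _, fun γ'' h2 D y hy j hj => ?_⟩
  refine ((h _ y hy).2 j hj).trans ?_
  have := (le_div_iff₀ c0).1 (h2.trans (min_le_right _ _))
  linarith

/-! R2: the ridge perturbation in a chart. -/
theorem ridge_met {O : Set E} (hO : IsOpen O) {G : E → V} (hG : ContDiffOn ℝ ∞ G O) {ψ : E → ℝ}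
    (hψ : ContDiffOn ℝ ∞ ψ O) (R : RdF G ψ O) {R0 : ℝ} (hR0 : ∀ y, |R.φ y| ≤ R0) (Mx C : ℝ) {γ : ℝ}
    (hγ : 0 < γ) : ∃ γ', 0 < γ' ∧ ∀ γ'' ≤ γ', ∀ D : Rdg Mx R0 C γ'', ∀ y ∈ R.K, ∀ j ≤ 2,
      ‖iteratedFDeriv ℝ j (fun x => met (fun z => G z + R.u D.h D.k D.k1 z) x - met G x
        + (D.h (R.φ x) * R.S x) • sqv (dcov ψ x)) y‖ ≤ γ := by
  have _ := hψ
  let ι := Σ γ : {γ : ℝ // γ ≤ 1}, Rdg Mx R0 C γ
  have sd : ∀ i : ι, ContDiff ℝ ∞ (deriv i.2.h) := fun i => (contDiff_infty_iff_deriv.1 i.2.sh).2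
  have fd : ∀ {W : Type} [NormedAddCommGroup W] [NormedSpace ℝ W] {f : E → W}, ContDiff ℝ ∞ f →
      ∀ y v, ContDiffAt ℝ ∞ (fun x => fderiv ℝ f x v) y := fun hf y v =>
    (r1_sm isOpen_univ hf.contDiffOn (mem_univ y)).1.clm_apply contDiffAt_const
  have sg : ∀ y ∈ O, ∀ v, ContDiffAt ℝ ∞ (fun x => fderiv ℝ G x v) y := fun y hy v =>
    (r1_sm hO hG hy).1.clm_apply contDiffAt_const
  have sA : ∀ y v, ContDiffAt ℝ ∞ (fun x => fderiv ℝ R.φ x v • R.N x) y := fun y v =>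
    (fd R.sφ y v).smul R.sN.contDiffAt
  have sb : ∀ y v, ContDiffAt ℝ ∞ (fun x => fderiv ℝ R.N x v + fderiv ℝ R.φ x v • R.V0 x) y :=
    fun y v => (fd R.sN y v).add ((fd R.sφ y v).smul R.sV0.contDiffAt)
  have sD : ∀ y v, ContDiffAt ℝ ∞ (fun x => fderiv ℝ R.φ x v • R.V1 x) y := fun y v =>
    (fd R.sφ y v).smul R.sV1.contDiffAt
  have sc := fd R.sV0
  have sf := fd R.sV1
  have A : ∀ {p : ι → ℝ → ℝ}, (∀ i, ContDiff ℝ ∞ (p i) ∧ SmA R0 i.1.1 (p i)) → ∀ {f : E → S3},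
      (∀ y ∈ O, ContDiffAt ℝ ∞ f y) → R2S R.K (fun i : ι => i.1.1) fun i x => p i (R.φ x) • f x :=
    fun hp _ hf => r2_base hO R.cp R.sub R.sφ hR0 one_pos
      (fun i => ⟨(hp i).1, r2_AA (hp i).2⟩) hf
  have B : ∀ {p q : ι → ℝ → ℝ}, (∀ i, ContDiff ℝ ∞ (p i) ∧ SmB R0 i.1.1 (max C 1) (p i)) →
      (∀ i, ContDiff ℝ ∞ (q i) ∧ SmB R0 i.1.1 (max C 1) (q i)) → ∀ {f : E → S3},
      (∀ y ∈ O, ContDiffAt ℝ ∞ f y) →
      R2S R.K (fun i : ι => i.1.1) fun i x => (p i (R.φ x) * q i (R.φ x)) • f x :=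
    fun hp hq _ hf => r2_base hO R.cp R.sub R.sφ hR0 (c := 2 * max C 1 + 2) (by positivity)
      (fun i => r2_mul (hp i).1 (hq i).1 (hp i).2 (hq i).2 i.1.2 (le_max_right _ _)) hf
  have bh : ∀ i : ι, ContDiff ℝ ∞ i.2.h ∧ SmB R0 i.1.1 (max C 1) i.2.h :=
    fun i => ⟨i.2.sh, r2_BB i.2.bh⟩
  have bk : ∀ i : ι, ContDiff ℝ ∞ i.2.k ∧ SmB R0 i.1.1 (max C 1) i.2.k :=
    fun i => ⟨i.2.sk, r2_AB i.2.ak i.1.2⟩
  have bl : ∀ i : ι, ContDiff ℝ ∞ i.2.k1 ∧ SmB R0 i.1.1 (max C 1) i.2.k1 :=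
    fun i => ⟨i.2.sk1, r2_AB i.2.ak1 i.1.2⟩
  have bm : ∀ i : ι, ContDiff ℝ ∞ (fun x => deriv i.2.h x ^ 2) ∧
      SmB R0 i.1.1 (max C 1) (fun x => deriv i.2.h x ^ 2) := fun i => ⟨(sd i).pow 2, r2_BB i.2.bm⟩
  have hf : ∀ {f : E → S3} {y : E}, ContDiffAt ℝ ∞ f y →
      ContDiffAt ℝ ∞ (fun x => (1 / 2 : ℝ) • f x) y := fun h => h.const_smul _
  have T := (((((A (fun i => ⟨i.2.sk, i.2.ak⟩) fun y hy => r2P_sm (sg y hy) (sc y)).add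
    (A (fun i => ⟨i.2.sk1, i.2.ak1⟩) fun y hy => r2P_sm (sg y hy) (sf y))).add
    (A (fun i => ⟨(sd i).mul i.2.sh, i.2.a1⟩) fun y _ => r2P_sm (sA y) (fd R.sN y))).add
    (A (fun i => ⟨(sd i).mul i.2.sk, i.2.a2⟩) fun y _ => r2P_sm (sA y) (sc y))).add
    (A (fun i => ⟨(sd i).mul i.2.sk1, i.2.a3⟩) fun y _ => r2P_sm (sA y) (sf y))).add
    ((((((((((B bh bh fun y _ => hf (r2P_sm (sb y) (sb y))).add
      (B bk bk fun y _ => hf (r2P_sm (sc y) (sc y)))).add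
      (B bm bm fun y _ => hf (r2P_sm (sD y) (sD y)))).add
      (B bl bl fun y _ => hf (r2P_sm (sf y) (sf y)))).add
      (B bh bk fun y _ => r2P_sm (sb y) (sc y))).add
      (B bh bm fun y _ => r2P_sm (sb y) (sD y))).add
      (B bh bl fun y _ => r2P_sm (sb y) (sf y))).add
      (B bk bm fun y _ => r2P_sm (sc y) (sD y))).add
      (B bk bl fun y _ => r2P_sm (sc y) (sf y))).add
      (B bm bl fun y _ => r2P_sm (sD y) (sf y)))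
  obtain ⟨γ', g0, g1, h⟩ := r2_fin T hγ
  refine ⟨γ', g0, fun γ'' h2 D y hy j hj => le_of_eq_of_le ?_ (h γ'' h2 D y hy j hj)⟩
  refine congrArg norm (t1_congr hO (fun x hx => ?_) (R.sub hy) j)
  rw [r2_id R D hO hG hx, r2_quad]

theorem r2_tube {W1 W2 : Type} [NormedAddCommGroup W1] [NormedSpace ℝ W1] [NormedAddCommGroup W2]
    [NormedSpace ℝ W2] {U : Set (W1 × W2)} (hU : IsOpen U) {K : Set E} (hK : IsCompact K) (Mx : ℝ)
    {L n A : E → W1} {B m1 m2 m3 m4 : E → W2} (hL : ∀ y ∈ K, ContinuousAt L y)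
    (hB : ∀ y ∈ K, ContinuousAt B y) (c1 : Continuous n) (c2 : Continuous A) (c3 : Continuous m1)
    (c4 : Continuous m2) (c5 : Continuous m3) (c6 : Continuous m4)
    (h : ∀ y ∈ K, ∀ t ∈ Icc 0 Mx, (L y, B y + t • m4 y) ∈ U) :
    ∃ ε > 0, ∀ (a b : ℝ) (J : W1) (J' : W2), |a| < ε → |b| < ε → ‖J‖ < ε →
      ‖J'‖ < ε → ∀ y ∈ K, ∀ t ∈ Icc 0 Mx, (L y + (a • n y + b • A y + J),
        B y + (a • m1 y + b • m2 y + (b • m3 y + t • m4 y) + J')) ∈ U := by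
  have tube := (hK.prod (isCompact_Icc (a := 0) (b := Mx))).eventually_forall_of_forall_eventually
    (x₀ := (0 : ℝ × ℝ × W1 × W2))
    (P := fun z w => (L w.1 + (z.1 • n w.1 + z.2.1 • A w.1 + z.2.2.1),
      B w.1 + (z.1 • m1 w.1 + z.2.1 • m2 w.1 + (z.2.1 • m3 w.1 + w.2 • m4 w.1) + z.2.2.2)) ∈ U)
    fun w hw => by
      have t : ContinuousAt (fun z : (ℝ × ℝ × W1 × W2) × E × ℝ => z.2.1) (0, w) := by fun_prop
      have d1 : Continuous fun z : (ℝ × ℝ × W1 × W2) × E × ℝ =>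
        z.1.1 • n z.2.1 + z.1.2.1 • A z.2.1 + z.1.2.2.1 := by fun_prop
      have d2 : Continuous fun z : (ℝ × ℝ × W1 × W2) × E × ℝ =>
        z.1.1 • m1 z.2.1 + z.1.2.1 • m2 z.2.1 + (z.1.2.1 • m3 z.2.1 + z.2.2 • m4 z.2.1) +
          z.1.2.2.2 := by fun_prop
      have c := (((hL _ hw.1).comp_of_eq t rfl).add d1.continuousAt).prodMk
        (((hB _ hw.1).comp_of_eq t rfl).add d2.continuousAt)
      refine c.eventually (hU.mem_nhds ?_)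
      simpa using h w.1 hw.1 w.2 hw.2
  obtain ⟨ε, ε0, hε⟩ := Metric.eventually_nhds_iff_ball.1 tube
  refine ⟨ε, ε0, fun a b J J' h1 h2 h3 h4 y hy t ht => hε (a, b, J, J') ?_ (y, t) ⟨hy, ht⟩⟩
  rw [mem_ball_zero_iff]
  simp only [Prod.norm_mk, Real.norm_eq_abs, max_lt_iff]
  exact ⟨h1, h2, h3, h4⟩

theorem r2_jet {O : Set E} (hO : IsOpen O) {G N u : E → V} (hG : ContDiffOn ℝ ∞ G O) {φ : E → ℝ}
    {h : ℝ → ℝ} (hh : ContDiff ℝ ∞ h) (hφ : ContDiff ℝ ∞ φ) (hN : ContDiff ℝ ∞ N)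
    (hu : ContDiff ℝ ∞ u) {A : E → E →L[ℝ] V} (hA : A = fun x => (fderiv ℝ φ x).smulRight (N x))
    {y : E} (hy : y ∈ O) :
    fderiv ℝ (fun z => G z + (h (φ z) • N z + u z)) y =
      fderiv ℝ G y + (h (φ y) • fderiv ℝ N y + deriv h (φ y) • A y + fderiv ℝ u y) ∧
    fderiv ℝ (fderiv ℝ fun z => G z + (h (φ z) • N z + u z)) y = fderiv ℝ (fderiv ℝ G) y +
      (h (φ y) • fderiv ℝ (fderiv ℝ N) y + deriv h (φ y) • (fderiv ℝ φ y).smulRight (fderiv ℝ N y) +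
        (deriv h (φ y) • fderiv ℝ A y + deriv (deriv h) (φ y) • (fderiv ℝ φ y).smulRight (A y)) +
        fderiv ℝ (fderiv ℝ u) y) := by
  have sA : ContDiff ℝ ∞ A := by rw [hA]; exact (hφ.fderiv_right (by simp)).smulRight hN
  have e1 : ∀ x ∈ O, fderiv ℝ (fun z => G z + (h (φ z) • N z + u z)) x = fderiv ℝ G x +
      (h (φ x) • fderiv ℝ N x + deriv h (φ x) • A x + fderiv ℝ u x) := fun x hx => by
    rw [hA]
    exact (((hG.contDiffAt (hO.mem_nhds hx)).differentiableAt (by simp)).hasFDerivAt.add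
      ((r2_line hh hφ hN.contDiffAt).add (hu.differentiable (by simp) x).hasFDerivAt)).fderiv
  refine ⟨e1 y hy, ?_⟩
  rw [(eventuallyEq_of_mem (hO.mem_nhds hy) e1).fderiv_eq]
  exact (((r1_sm hO hG hy).1.differentiableAt (by simp)).hasFDerivAt.add
    (((r2_line hh hφ (hN.fderiv_right (by simp)).contDiffAt).add
      (r2_line (contDiff_infty_iff_deriv.1 hh).2 hφ sA.contDiffAt)).add
      ((hu.fderiv_right (m := ∞) (by simp)).differentiable (by simp) y).hasFDerivAt)).fderiv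

theorem ridge_cvx {O : Set E} (hO : IsOpen O) {G : E → V} (hG : ContDiffOn ℝ ∞ G O)
    (hc : ∀ y ∈ O, CvxAt G y) {ψ : E → ℝ} (R : RdF G ψ O) {R0 : ℝ} (hR0 : ∀ y, |R.φ y| ≤ R0)
    (Mx C : ℝ) : ∃ γ', 0 < γ' ∧ ∀ γ'' ≤ γ', ∀ D : Rdg Mx R0 C γ'', ∀ y ∈ R.K,
      CvxAt (fun z => G z + R.u D.h D.k D.k1 z) y := by
  obtain ⟨A, hA⟩ : ∃ A : E → E →L[ℝ] V, A = fun x => (fderiv ℝ R.φ x).smulRight (R.N x) := ⟨_, rfl⟩
  have p1 : ContDiff ℝ ∞ (fderiv ℝ R.φ) := R.sφ.fderiv_right (by simp)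
  have n1 : ContDiff ℝ ∞ (fderiv ℝ R.N) := R.sN.fderiv_right (by simp)
  have sA : ContDiff ℝ ∞ A := by rw [hA]; exact p1.smulRight R.sN
  obtain ⟨ε, ε0, hε⟩ := r2_tube (W1 := E →L[ℝ] V) (W2 := E →L[ℝ] E →L[ℝ] V)
    isOpen_CvxJ R.cp Mx (fun y hy => (r1_sm hO hG (R.sub hy)).1.continuousAt)
    (fun y hy => (r1_sm hO hG (R.sub hy)).2.continuousAt) n1.continuous sA.continuous
    (n1.fderiv_right (m := ∞) (by simp)).continuous (p1.smulRight n1).continuous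
    (sA.fderiv_right (m := ∞) (by simp)).continuous (p1.smulRight sA).continuous
    fun y hy t ht => by
      obtain ⟨ν, s, s0, e, h1, h2⟩ := R.cvx y (R.sub hy)
      refine ⟨(hc _ (R.sub hy)).1, ν, h1 _, h1 _, fun v hv => ?_⟩
      have a2 := g1_dot_nonneg ν
      have a3 := ht.1
      simp only [hA, e, add_apply, smul_apply, ContinuousLinearMap.smulRight_apply, dotProduct_add,
        dotProduct_smul, smul_eq_mul]
      have : 0 ≤ t * (fderiv ℝ R.φ y v * (fderiv ℝ R.φ y v * (s * ν ⬝ᵥ ν))) := by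
        rw [← mul_assoc (fderiv ℝ R.φ y v), ← sq]; positivity
      exact add_pos_of_pos_of_nonneg (h2 v hv) this
  let ι := Σ γ : {γ : ℝ // γ ≤ 1}, Rdg Mx R0 C γ
  have T := (r2_base (ι := ι) (γ := fun i => i.1.1) hO R.cp R.sub R.sφ hR0 one_pos
    (fun i => ⟨i.2.sk, r2_AA i.2.ak⟩) fun y _ => R.sV0.contDiffAt).add
    (r2_base (ι := ι) (γ := fun i => i.1.1) hO R.cp R.sub R.sφ hR0 one_pos
    (fun i => ⟨i.2.sk1, r2_AA i.2.ak1⟩) fun y _ => R.sV1.contDiffAt)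
  obtain ⟨γ', g0, g1, h⟩ := r2_fin T (half_pos ε0)
  refine ⟨min γ' (ε / 2), by positivity, fun γ'' h2 D y hy => ?_⟩
  have b := h γ'' (h2.trans (min_le_left _ _)) D y hy
  obtain ⟨u, hu⟩ : ∃ u : E → V, u = fun x => D.k (R.φ x) • R.V0 x + D.k1 (R.φ x) • R.V1 x :=
    ⟨_, rfl⟩
  have su : ContDiff ℝ ∞ u := by
    rw [hu]; exact ((D.sk.comp R.sφ).smul R.sV0).add ((D.sk1.comp R.sφ).smul R.sV1)
  have b1 : ‖fderiv ℝ u y‖ ≤ ε / 2 := by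
    rw [← norm_iteratedFDeriv_one, hu]; exact b 1 one_le_two
  have b2 : ‖fderiv ℝ (fderiv ℝ u) y‖ ≤ ε / 2 := by
    rw [← norm_iteratedFDeriv_one, norm_iteratedFDeriv_fderiv, hu]; exact b 2 le_rfl
  obtain ⟨a0, a1, -⟩ := D.bh (R.φ y) (abs_le.1 (hR0 y))
  have g2 := h2.trans (min_le_right _ _)
  have key := hε _ _ _ _ (a0.trans_lt (by linarith)) (a1.trans_lt (by linarith))
    (b1.trans_lt (by linarith)) (b2.trans_lt (by linarith)) y hy _ (D.h2 (R.φ y))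
  have e0 : (fun z => G z + R.u D.h D.k D.k1 z) = fun z => G z + (D.h (R.φ z) • R.N z + u z) := by
    funext z; simp only [hu, RdF.u, add_assoc]
  obtain ⟨e1, e2⟩ := r2_jet hO hG D.sh R.sφ R.sN su hA (R.sub hy)
  unfold CvxAt
  rw [e0, e1, e2]
  exact key

end Vale.Agent.P205
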