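import Vale.Agent.P205.R0
import Vale.Agent.P205.R1
import Vale.Agent.P205.R2
import Vale.Agent.P205.M3

open Set Filter Topology
open scoped ContDiff

noncomputable section
namespace Vale.Agent.P205

variable {M : Type*} [TopologicalSpace M] [T2Space M] [CompactSpace M] {A : Atl M}

/-! RG: a ridge on the surface. -/

/-- output of a ridge construction -/
structure RidgeOut (A : Atl M) (ψ : M → ℝ) (F : M → V) (U : Set M) (γ : ℝ) (F' : M → V) (f : M → ℝ)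
    (T : M → S3) : Prop where
  sF : A.Sm F'
  cv : A.Cvx F'
  sf : A.Sm f
  supp : tsupport f ⊆ U
  sT : A.TSm T
  met : A.metA F' = A.metA F - (fun m => f m • A.sqA ψ m) + T
  bT : A.TN 2 T γ
  bf : A.Nb 1 f γ
  lo : ∀ q, ∀ y ∈ Metric.ball (0 : E) 3, -γ ≤ hs (A.loc f q) (A.loc ψ q) y

theorem rg_d1 {h : ℝ → ℝ} (hh : ContDiff ℝ ∞ h) {φ S : E → ℝ} {y : E}
    (hφ : DifferentiableAt ℝ φ y) (hS : DifferentiableAt ℝ S y) :
    fderiv ℝ (fun x => h (φ x) * S x) y =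
      (deriv h (φ y) * S y) • fderiv ℝ φ y + h (φ y) • fderiv ℝ S y := by
  have h1 : HasDerivAt h (deriv h (φ y)) (φ y) := (hh.differentiable (by simp) _).hasDerivAt
  have h2 := (h1.comp_hasFDerivAt y hφ.hasFDerivAt).mul hS.hasFDerivAt
  have h3 : fderiv ℝ (fun x => h (φ x) * S x) y = _ := h2.fderiv
  rw [h3]
  ext <;> simp <;> ring

theorem rg_d2 {h : ℝ → ℝ} (hh : ContDiff ℝ ∞ h) {φ S : E → ℝ} {y : E}
    (hφ : ContDiffAt ℝ ∞ φ y) (hS : ContDiffAt ℝ ∞ S y) (v : E) :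
    d2 (fun x => h (φ x) * S x) y v v = deriv (deriv h) (φ y) * (fderiv ℝ φ y v ^ 2 * S y)
      + deriv h (φ y) * (d2 φ y v v * S y + 2 * (fderiv ℝ φ y v * fderiv ℝ S y v))
      + h (φ y) * d2 S y v v := by
  have hh' : ContDiff ℝ ∞ (deriv h) := (contDiff_infty_iff_deriv.1 hh).2
  have e : fderiv ℝ (fun x => h (φ x) * S x) =ᶠ[𝓝 y] fun z =>
      (deriv h (φ z) * S z) • fderiv ℝ φ z + h (φ z) • fderiv ℝ S z := by
    filter_upwards [(hφ.of_le (m := 1) (by simp)).eventually (by simp),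
      (hS.of_le (m := 1) (by simp)).eventually (by simp)] with z h1 h2
    exact rg_d1 hh (h1.differentiableAt (by simp)) (h2.differentiableAt (by simp))
  have dφ := hφ.differentiableAt (by simp)
  have dS := hS.differentiableAt (by simp)
  have dφ' : DifferentiableAt ℝ (fderiv ℝ φ) y :=
    (hφ.fderiv_right (m := 1) (by norm_cast)).differentiableAt (by simp)
  have dS' : DifferentiableAt ℝ (fderiv ℝ S) y :=
    (hS.fderiv_right (m := 1) (by norm_cast)).differentiableAt (by simp)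
  have a1 : HasFDerivAt (fun z => deriv h (φ z) * S z) _ y :=
    ((hh'.differentiable (by simp) _).hasDerivAt.comp_hasFDerivAt y dφ.hasFDerivAt).mul dS.hasFDerivAt
  have a2 : HasFDerivAt (fun z => h (φ z)) _ y :=
    (hh.differentiable (by simp) _).hasDerivAt.comp_hasFDerivAt y dφ.hasFDerivAt
  have a3 := (a1.smul dφ'.hasFDerivAt).add (a2.smul dS'.hasFDerivAt)
  have a4 : fderiv ℝ (fun z => (deriv h (φ z) * S z) • fderiv ℝ φ z + h (φ z) • fderiv ℝ S z) y = _ :=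
    a3.fderiv
  unfold d2
  rw [e.fderiv_eq, a4]
  simp
  ring

theorem rg_rot (ψ : E → ℝ) (y : E) : ‖rot (dcov ψ y)‖ ≤ ‖iteratedFDeriv ℝ 1 ψ y‖ := by
  rw [norm_iteratedFDeriv_one]
  have h1 := (fderiv ℝ ψ y).le_opNorm (1, 0)
  have h2 := (fderiv ℝ ψ y).le_opNorm (0, 1)
  simp only [rot, dcov, Prod.norm_def, norm_neg, norm_one, norm_zero] at *
  norm_num at h1 h2 ⊢
  exact ⟨h2, h1⟩

theorem rg_abs {x y a b : ℝ} (hx : |x| ≤ a) (hy : |y| ≤ b) : |x * y| ≤ a * b := by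
  rw [abs_mul]; exact mul_le_mul hx hy (abs_nonneg _) ((abs_nonneg _).trans hx)

theorem rg_low {h : ℝ → ℝ} (hh : ContDiff ℝ ∞ h) {φ S ψ : E → ℝ} {y : E}
    (hφ : ContDiffAt ℝ ∞ φ y) (hS : ContDiffAt ℝ ∞ S y) {b g : ℝ} (hb : 1 ≤ b)
    (h0 : |h (φ y)| ≤ g) (h1 : |deriv h (φ y)| ≤ g)
    (bφ : ∀ j ≤ 2, ‖iteratedFDeriv ℝ j φ y‖ ≤ b) (bS : ∀ j ≤ 2, ‖iteratedFDeriv ℝ j S y‖ ≤ b)
    (bψ : ‖iteratedFDeriv ℝ 1 ψ y‖ ≤ b) :
    deriv (deriv h) (φ y) * (fderiv ℝ φ y (rot (dcov ψ y)) ^ 2 * S y) - g * (4 * b ^ 4)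
      ≤ hs (fun x => h (φ x) * S x) ψ y ∧
    ∀ j ≤ 1, ‖iteratedFDeriv ℝ j (fun x => h (φ x) * S x) y‖ ≤ g * (4 * b ^ 4) := by
  have g0 : 0 ≤ g := (abs_nonneg _).trans h0
  have b0 : 0 ≤ b := by linarith
  have s0 : |S y| ≤ b := by simpa using bS 0 (by norm_num)
  have n1 : ‖fderiv ℝ φ y‖ ≤ b := by rw [← norm_iteratedFDeriv_one]; exact bφ 1 (by norm_num)
  have n2 : ‖fderiv ℝ S y‖ ≤ b := by rw [← norm_iteratedFDeriv_one]; exact bS 1 (by norm_num)
  have p2 : b ≤ b ^ 2 := le_self_pow₀ hb (by norm_num)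
  have p3 : b ^ 2 ≤ b ^ 4 := pow_le_pow_right₀ hb (by norm_num)
  have p4 : b ^ 3 ≤ b ^ 4 := pow_le_pow_right₀ hb (by norm_num)
  refine ⟨?_, fun j hj => ?_⟩
  · unfold hs
    have hv := (rg_rot ψ y).trans bψ
    generalize rot (dcov ψ y) = v at hv ⊢
    rw [rg_d2 hh hφ hS]
    have k : ∀ L : E →L[ℝ] ℝ, ‖L‖ ≤ b → |L v| ≤ b * b := fun L hL =>
      (L.le_opNorm v).trans (mul_le_mul hL hv (norm_nonneg _) b0)
    have k2 : ∀ u : E → ℝ, ‖iteratedFDeriv ℝ 2 u y‖ ≤ b → |d2 u y v v| ≤ b * b * b := fun u hu =>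
      (norm_d2_le u y v v).trans (mul_le_mul (mul_le_mul hu hv (norm_nonneg _) b0) hv (norm_nonneg _)
        (by positivity))
    have t1 := rg_abs (k2 φ (bφ 2 le_rfl)) s0
    have t2 := rg_abs (k _ n1) (k _ n2)
    have t3 : |d2 φ y v v * S y + 2 * (fderiv ℝ φ y v * fderiv ℝ S y v)| ≤ 3 * b ^ 4 := by
      rw [abs_le] at t1 t2 ⊢
      constructor <;> nlinarith [t1.1, t1.2, t2.1, t2.2]
    have t4 := abs_le.1 (rg_abs h1 t3)
    have t5 := abs_le.1 (rg_abs h0 (k2 S (bS 2 le_rfl)))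
    have t6 : g * (b * b * b) ≤ g * b ^ 4 := mul_le_mul_of_nonneg_left (by nlinarith) g0
    nlinarith [t4.1, t5.1]
  · interval_cases j
    · have := rg_abs h0 s0
      have t6 : g * b ≤ g * (4 * b ^ 4) := mul_le_mul_of_nonneg_left (by nlinarith) g0
      simpa using this.trans t6
    · rw [norm_iteratedFDeriv_one, rg_d1 hh (hφ.differentiableAt (by simp))
        (hS.differentiableAt (by simp))]
      refine (norm_add_le _ _).trans ?_
      rw [norm_smul, norm_smul, Real.norm_eq_abs, Real.norm_eq_abs]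
      have u1 := mul_le_mul (rg_abs h1 s0) n1 (norm_nonneg _) (by positivity)
      have u2 := mul_le_mul h0 n2 (norm_nonneg _) g0
      have t6 : g * (b ^ 2 + b) ≤ g * (4 * b ^ 4) := mul_le_mul_of_nonneg_left (by nlinarith) g0
      nlinarith

theorem rg_ext (p : Fin A.n) {K : Set E} (hs : K ⊆ (A.ch p).target) {T : M → S3}
    (h : ∀ m, m ∉ (A.ch p).symm '' K → T m = 0) : A.extT p (A.rep T p) = T := by
  funext m
  by_cases hm : m ∈ (A.ch p).source
  · exact Atl.T_ext hm (Atl.rep_extT p _ ((A.ch p).map_source hm))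
  · rw [h m]
    · simp [Atl.extT, hm]
    · rintro ⟨y, hy, rfl⟩
      exact hm ((A.ch p).map_target (hs hy))

theorem RG {ψ : M → ℝ} (hψ : A.Sm ψ) {F : M → V} (hF : A.Sm F) (hc : A.Cvx F) (p : Fin A.n)
    {φ : E → ℝ} (hφ : ContDiffOn ℝ ∞ φ (Metric.ball 0 3)) {Z : Set E} (hZ : IsCompact Z)
    (hZ3 : Z ⊆ Metric.ball 0 3)
    (ht : ∀ y ∈ Z, φ y = 0 ∧ fderiv ℝ φ y (rot (dcov (A.loc ψ p) y)) ≠ 0) {U : Set M} (hU : IsOpen U)
    (hZU : ∀ y ∈ Z, (A.ch p).symm y ∈ U) (C : ℝ) {γ : ℝ} (hγ : 0 < γ) :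
    ∃ F' f T, RidgeOut A ψ F U γ F' f T ∧
      ∀ y ∈ Z, ∀ᶠ x in 𝓝 y, C ≤ hs (A.loc f p) (A.loc ψ p) x := by
  have h3 := Atl.ball3_sub' (A := A) p
  set O : Set E := Metric.ball 0 3 ∩ ((A.ch p).target ∩ (A.ch p).symm ⁻¹' U) with hOd
  have hO : IsOpen O := Metric.isOpen_ball.inter ((A.ch p).isOpen_inter_preimage_symm hU)
  have hOt : O ⊆ (A.ch p).target := fun y hy => hy.2.1
  have hG : ContDiffOn ℝ ∞ (A.loc F p) O := (hF p).mono hOt
  have hψ' : ContDiffOn ℝ ∞ (A.loc ψ p) O := (hψ p).mono hOt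
  have hcv : ∀ y ∈ O, CvxAt (A.loc F p) y := fun y hy => hc p y (hOt hy)
  have hZO : Z ⊆ O := fun y hy => ⟨hZ3 hy, h3 (hZ3 hy), hZU y hy⟩
  obtain ⟨R, hR⟩ := exists_RdF hO hG hcv hψ' (hφ.mono inter_subset_left) hZ hZO
    fun y hy => (ht y hy).2
  have hK : R.K ⊆ (A.ch p).target := R.sub.trans hOt
  have z0 : ∀ {W : Type} [NormedAddCommGroup W] {u : E → W}, tsupport u ⊆ R.K → ∀ y, y ∉ R.K →
      u y = 0 := fun hu y hy => image_eq_zero_of_notMem_tsupport fun h => hy (hu h)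
  obtain ⟨R1, hR1⟩ := R.sφ.continuous.bounded_above_of_compact_support
    (R.cp.of_isClosed_subset (isClosed_tsupport _) R.tφ)
  have hR0 : ∀ y, |R.φ y| ≤ |R1| + 1 := fun y => by
    have := hR1 y
    rw [Real.norm_eq_abs] at this
    linarith [le_abs_self R1]
  have sΦ : A.Sm (A.extF p R.φ) :=
    Atl.Sm_extF p R.cp hK (fun y _ => R.sφ.contDiffAt) fun y _ hy => z0 R.tφ y hy
  have sS : A.Sm (A.extF p R.S) :=
    Atl.Sm_extF p R.cp hK (fun y _ => R.sS.contDiffAt) fun y _ hy => z0 R.tS y hy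
  obtain ⟨b1, b1p, hb1⟩ := sΦ.nb 2
  obtain ⟨b2, b2p, hb2⟩ := sS.nb 2
  obtain ⟨b3, b3p, hb3⟩ := hψ.nb 1
  obtain ⟨b, hb, e1, e2, e3⟩ : ∃ b : ℝ, 1 ≤ b ∧ b1 ≤ b ∧ b2 ≤ b ∧ b3 ≤ b :=
    ⟨1 + b1 + b2 + b3, by linarith, by linarith, by linarith, by linarith⟩
  set q : E → ℝ := fun x => fderiv ℝ R.φ x (rot (dcov (A.loc ψ p) x)) ^ 2 * R.S x with hq
  have qc : ∀ y ∈ Z, ContinuousAt q y := fun y hy => by
    have c1 : ContinuousAt (fderiv ℝ (A.loc ψ p)) y :=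
      ((hψ.contDiffAt (hOt (hZO hy))).fderiv_right (m := 0) (by norm_cast)).continuousAt
    have c2 : ContinuousAt (fderiv ℝ R.φ) y :=
      (R.sφ.contDiffAt.fderiv_right (m := 0) (by norm_cast)).continuousAt
    have c3 : ContinuousAt (fun x => rot (dcov (A.loc ψ p) x)) y :=
      (c1.clm_apply continuousAt_const).neg.prodMk (c1.clm_apply continuousAt_const)
    exact ((c2.clm_apply c3).pow 2).mul R.sS.continuous.continuousAt
  obtain ⟨c, c0, hc0⟩ := hZ.exists_forall_le' (a := 0) (fun y hy => (qc y hy).continuousWithinAt)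
    fun y hy => by
      have : fderiv ℝ R.φ y (rot (dcov (A.loc ψ p) y)) ≠ 0 := by
        rw [(hR y hy).2.fderiv_eq]; exact (ht y hy).2
      exact mul_pos (by positivity) (hR y hy).1
  obtain ⟨C0, -, hD⟩ := exists_Rdg (Mx := (|C| + γ) / (c / 2)) (R := |R1| + 1) (by positivity)
    (by positivity)
  obtain ⟨CT, CT0, hCT⟩ := Atl.TN_extT p R.cp hK 2
  obtain ⟨g1, g1p, hg1⟩ := ridge_met hO hG hψ' R hR0 ((|C| + γ) / (c / 2)) C0 (γ := γ / CT)
    (by positivity)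
  obtain ⟨g2, g2p, hg2⟩ := ridge_cvx hO hG hcv R hR0 ((|C| + γ) / (c / 2)) C0
  obtain ⟨g, g0, l1, l2, l3⟩ : ∃ g : ℝ, 0 < g ∧ g ≤ g1 ∧ g ≤ g2 ∧ g * (4 * b ^ 4) ≤ γ :=
    ⟨min (min g1 g2) (γ / (4 * b ^ 4)), by positivity, (min_le_left _ _).trans (min_le_left _ _),
      (min_le_left _ _).trans (min_le_right _ _),
      (le_div_iff₀ (by positivity)).1 (min_le_right _ _)⟩
  obtain ⟨D⟩ := hD g g0
  have su : ContDiff ℝ ∞ (R.u D.h D.k D.k1) :=
    (((D.sh.comp R.sφ).smul R.sN).add ((D.sk.comp R.sφ).smul R.sV0)).add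
      ((D.sk1.comp R.sφ).smul R.sV1)
  have zu : ∀ y ∈ (A.ch p).target, y ∉ R.K → R.u D.h D.k D.k1 y = 0 := fun y _ hy => by
    simp [RdF.u, z0 R.tN y hy, z0 R.tV0 y hy, z0 R.tV1 y hy]
  have sU := Atl.Sm_extF p R.cp hK (fun y _ => su.contDiffAt) zu
  set F' : M → V := fun m => F m + A.extF p (R.u D.h D.k D.k1) m with hF'
  set f : M → ℝ := fun m => D.h (A.extF p R.φ m) * A.extF p R.S m with hf
  have sF' : A.Sm F' := hF.add sU
  have sf : A.Sm f := (sΦ.comp fun m => D.sh.contDiffAt).smul sS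
  have f0 : ∀ m, m ∉ (A.ch p).symm '' R.K → f m = 0 := fun m hm => by
    simp [hf, Atl.extF_eq_zero p (fun y _ hy => z0 R.tS y hy) hm]
  have cl := Atl.isClosed_image p R.cp hK
  have F0 : ∀ m, m ∉ (A.ch p).symm '' R.K → F' =ᶠ[𝓝 m] F := fun m hm => by
    filter_upwards [cl.isOpen_compl.mem_nhds hm] with m' hm'
    simp [hF', Atl.extF_eq_zero p zu hm']
  have lF : ∀ y ∈ (A.ch p).target,
      A.loc F' p =ᶠ[𝓝 y] fun z => A.loc F p z + R.u D.h D.k D.k1 z := fun y hy => by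
    filter_upwards [Atl.m1_loc_extF p (R.u D.h D.k D.k1) hy] with z hz
    rw [← hz]; rfl
  set T : M → S3 := A.metA F' - A.metA F + fun m => f m • A.sqA ψ m with hT
  have sT : A.TSm T := ((Atl.TSm_metA sF').sub (Atl.TSm_metA hF)).add ((Atl.TSm_sqA hψ).fsmul sf)
  have T0 : ∀ m, m ∉ (A.ch p).symm '' R.K → T m = 0 := fun m hm => by
    simp [hT, Atl.metA_congr (F0 m hm), f0 m hm]
  have low : ∀ r, ∀ y ∈ Metric.ball (0 : E) 3, _ := fun r y hy =>
    rg_low (ψ := A.loc ψ r) (g := g) D.sh (sΦ.contDiffAt (Atl.ball3_sub' r hy))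
      (sS.contDiffAt (Atl.ball3_sub' r hy)) hb
      (by
        refine (D.bh _ (abs_le.1 ?_)).1
        unfold Atl.loc Atl.extF
        split_ifs
        · exact hR0 _
        · simp; positivity)
      (by
        refine (D.bh _ (abs_le.1 ?_)).2.1
        unfold Atl.loc Atl.extF
        split_ifs
        · exact hR0 _
        · simp; positivity)
      (fun j hj => (hb1 r j hj y hy).trans e1) (fun j hj => (hb2 r j hj y hy).trans e2)
      ((hb3 r 1 le_rfl y hy).trans e3)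
  refine ⟨F', f, T, ⟨sF', Atl.Cvx_of sF' fun m => ?_, sf, ?_, sT, ?_, ?_, ?_, ?_⟩, ?_⟩
  · by_cases hm : m ∈ (A.ch p).symm '' R.K
    · obtain ⟨y, hy, rfl⟩ := hm
      refine ⟨p, (A.ch p).map_target (hK hy), ?_⟩
      rw [(A.ch p).right_inv (hK hy)]
      exact Atl.CvxAt_congr (hg2 g l2 D y hy) (lF y (hK hy))
    · refine ⟨A.idx m, A.mem m, Atl.CvxAt_congr (hc _ _ ((A.ch _).map_source (A.mem m))) ?_⟩
      have := Atl.m1_extF_zero p (A.idx m) R.cp hK zu ((A.ch _).map_source (A.mem m))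
        (by rwa [(A.ch _).left_inv (A.mem m)])
      filter_upwards [this] with z hz
      show A.loc F _ z + A.loc (A.extF p (R.u D.h D.k D.k1)) _ z = _
      rw [hz, add_zero]
  · have : Function.support f ⊆ (A.ch p).symm '' R.K := fun m hm => by_contra fun h => hm (f0 m h)
    refine (closure_minimal this cl).trans ?_
    rintro _ ⟨y, hy, rfl⟩
    exact (R.sub hy).2.2
  · rw [hT]; abel
  · rw [← rg_ext p hK T0, ← mul_div_cancel₀ γ CT0.ne']
    refine hCT _ _ (by positivity) (fun y hy => sT.contDiffAt (hK hy)) (fun y hy hy' => ?_)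
      fun j hj y hy => ?_
    · unfold Atl.rep
      rw [T0, m2_pull_zero]
      rintro ⟨z, hz, e⟩
      exact hy' (by rwa [← (A.ch p).symm.injOn (hK hz) hy e])
    · refine le_of_eq_of_le ?_ (hg1 g l1 D y hy j hj)
      congr 1
      refine (EventuallyEq.iteratedFDeriv ℝ ?_ j).eq_of_nhds
      filter_upwards [(A.ch p).open_target.mem_nhds (hK hy)] with z hz
      rw [hT, Atl.rep_add, Atl.rep_sub, Atl.rep_fsmul]
      simp only
      rw [Atl.rep_metA sF' hz, Atl.rep_metA hF hz, Atl.rep_sqA hψ hz]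
      have a1 : A.loc f p z = D.h (R.φ z) * R.S z := by
        rw [← Atl.loc_extF p R.φ hz, ← Atl.loc_extF p R.S hz]; rfl
      rw [a1]
      simp only [met, (lF z hz).fderiv_eq]
  · exact fun r j hj y hy => ((low r y hy).2 j hj).trans l3
  · intro r y hy
    refine le_trans ?_ (low r y hy).1
    have : 0 ≤ A.loc (A.extF p R.S) r y := by
      unfold Atl.loc Atl.extF
      split_ifs
      · exact R.S0 _
      · rfl
    have := mul_nonneg (D.h2 (A.loc (A.extF p R.φ) r y)).1 (mul_nonneg (sq_nonneg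
      (fderiv ℝ (A.loc (A.extF p R.φ) r) y (rot (dcov (A.loc ψ r) y)))) this)
    linarith
  · intro y hy
    have w1 : ∀ᶠ x in 𝓝 y, c / 2 < q x :=
      (qc y hy).eventually (lt_mem_nhds (by linarith [hc0 y hy]))
    have w2 : ∀ᶠ x in 𝓝 y, |R.φ x| < D.w := by
      refine (R.sφ.continuous.abs.continuousAt (x := y)).eventually (gt_mem_nhds ?_)
      simp only
      rw [(hR y hy).2.eq_of_nhds, (ht y hy).1, abs_zero]
      exact D.wpos
    filter_upwards [w1, w2, Metric.isOpen_ball.mem_nhds (hZ3 hy)] with x x1 x2 x3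
    refine le_trans ?_ (low p x x3).1
    rw [Atl.loc_extF p R.φ (h3 x3), Atl.loc_extF p R.S (h3 x3),
      (Atl.m1_loc_extF p R.φ (h3 x3)).fderiv_eq, D.core _ x2.le]
    have : (|C| + γ) / (c / 2) * (c / 2) ≤ (|C| + γ) / (c / 2) * q x :=
      mul_le_mul_of_nonneg_left x1.le (by positivity)
    rw [div_mul_cancel₀ _ (by positivity)] at this
    linarith [le_abs_self C]

end Vale.Agent.P205
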