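import Vale.Agent.P205.E3
import Vale.Agent.P205.M3

open Set Filter Topology
open scoped ContDiff

noncomputable section
namespace Vale.Agent.P205

variable {M : Type*} [TopologicalSpace M] [T2Space M] [CompactSpace M] {A : Atl M}

/-! TWG: the twist theorem on the surface. -/

theorem twg_fin {ι : Type*} {τ : ι → ℝ} (hτ : ∀ i, 1 ≤ τ i) {w : ι → ℕ → ℝ} (h0 : ∀ i k, 0 ≤ w i k)
    (hw : ∀ i j k, j ≤ k → w i j ≤ w i k) {Z : Type} {f : ℕ → ι → Z → ℝ} {c : ι → Z → Prop}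
    (h : ∀ k, ∃ (C : ℝ) (e : ℕ), 0 < C ∧ ∀ i x, c i x → f k i x ≤ C * τ i ^ e * w i k) (k : ℕ) :
    ∃ (C : ℝ) (e : ℕ), 0 < C ∧ ∀ i, ∀ j ≤ k, ∀ x, c i x → f j i x ≤ C * τ i ^ e * w i k := by
  choose C e hC H using h
  have s1 : ∀ j ≤ k, C j ≤ ∑ a ∈ Finset.range (k + 1), C a := fun j hj =>
    Finset.single_le_sum (fun a _ => (hC a).le) (Finset.mem_range.2 (by omega))
  have s0 := (hC 0).trans_le (s1 0 (Nat.zero_le _))
  refine ⟨∑ a ∈ Finset.range (k + 1), C a, ∑ a ∈ Finset.range (k + 1), e a, s0,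
    fun i j hj x hx => (H j i x hx).trans ?_⟩
  have s2 : τ i ^ e j ≤ τ i ^ ∑ a ∈ Finset.range (k + 1), e a := pow_le_pow_right₀ (hτ i)
    (Finset.single_le_sum (fun a _ => Nat.zero_le (e a)) (Finset.mem_range.2 (by omega)))
  have := s1 j hj
  have := hw i j k hj
  have := h0 i j
  have : 0 ≤ τ i := zero_le_one.trans (hτ i)
  gcongr

theorem twg_Q0 (P : Pc) (d : ℝ) (bh : E → ℝ) {x : E} (hx : x ∈ P.O) (hK : x ∉ P.K) :
    P.Q d bh x = 0 := by
  have : expNegInvGlue (P.f x) = 0 := expNegInvGlue.zero_of_nonpos (not_lt.1 fun h => hK (P.fK x hx h))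
  simp [Pc.Q, Pc.amp, this]

theorem twg_ind (P : Pc) (d : ℝ) (bh : E → ℝ) {x : E} (hx : x ∈ P.O) :
    P.K.indicator (P.Q d bh) =ᶠ[𝓝 x] P.Q d bh := by
  filter_upwards [P.op.mem_nhds hx] with z hz
  by_cases hK : z ∈ P.K
  · exact indicator_of_mem hK _
  · rw [indicator_of_notMem hK, twg_Q0 P d bh hz hK]

theorem twg_TSm (p : Fin A.n) {P : Pc} (hP : P.O ⊆ Metric.ball 0 3) (d : ℝ) {bh : E → ℝ}
    (hb : ContDiffOn ℝ ∞ bh P.O) : A.TSm (A.extT p (P.K.indicator (P.Q d bh))) := by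
  refine Atl.TSm_extT p P.cp (P.sub.trans (hP.trans (Atl.ball3_sub' p))) (fun y hy => ?_)
    fun y _ hy => indicator_of_notMem hy _
  refine ContDiffAt.congr_of_eventuallyEq ?_ (twg_ind P d bh (P.sub hy))
  have hn := P.op.mem_nhds (P.sub hy)
  have a1 : ContDiffAt ℝ ∞ (P.amp d bh) y :=
    ((expNegInvGlue.contDiff.contDiffAt.comp y (P.sf.contDiffAt hn)).mul contDiffAt_const).mul
      (hb.contDiffAt hn)
  have a2 : ContDiffAt ℝ ∞ (fderiv ℝ P.φ) y := (P.sφ.contDiffAt hn).fderiv_right (by simp)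
  have a3 := a2.clm_apply (contDiffAt_const (c := ((1 : ℝ), (0 : ℝ))))
  have a4 := a2.clm_apply (contDiffAt_const (c := ((0 : ℝ), (1 : ℝ))))
  exact (a1.pow 2).smul ((a3.pow 2).prodMk ((a3.mul a4).prodMk (a4.pow 2)))

theorem twg_met {G G' : E → V} {y : E} (e : G' =ᶠ[𝓝 y] G) : met G' y = met G y := by
  simp only [met, e.fderiv_eq]

theorem twg_off {F u : E → V} {K : Set E} (hu : tsupport u ⊆ K) {y : E} (hy : y ∉ K) :
    met (fun z => F z + u z) y = met F y := by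
  refine twg_met ?_
  filter_upwards [notMem_tsupport_iff_eventuallyEq.1 fun h => hy (hu h)] with z hz
  simp [hz]
theorem TWG {ι : Type*} (p : Fin A.n) {P : Pc} (hP : P.O ⊆ Metric.ball 0 3) {τ s σ0 d : ι → ℝ}
    {F : ι → M → V} {bh : ι → E → ℝ} {l' l r r' c0 : ℝ} (hF : ∀ i, A.Sm (F i))
    (h : P.Hyp τ s σ0 d (fun i => A.loc (F i) p) bh l' l r r' c0) :
    ∃ (Cg : ℝ) (cg : ℕ), 0 < Cg ∧ ∀ N : ℕ, ∃ (C0 : ℝ) (c1 : ℕ) (u : ι → M → V),
      (∀ i, A.Sm (u i)) ∧ (∀ i m, m ∉ (A.ch p).symm '' P.K → u i =ᶠ[𝓝 m] fun _ => 0) ∧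
      A.GB τ (fun i k => d i * (σ0 i ^ 2 * s i ^ 6) ^ k / (σ0 i ^ 2 * s i ^ 6)) u ∧
      (∀ k, ∃ (C : ℝ) (c : ℕ), 0 < C ∧ ∀ i, C0 * τ i ^ c1 ≤ s i →
        A.TN k (A.metA (fun m => F i m + u i m) - A.metA (F i)
            - A.extT p (P.K.indicator (P.Q (d i) (bh i))))
          (C * τ i ^ c * ((s i)⁻¹ ^ N * (σ0 i ^ 2 * s i ^ 6) ^ k))) ∧
      ∀ i, C0 * τ i ^ c1 ≤ s i → ∀ x ∈ P.K,
        P.Geo (A.loc (fun m => F i m + u i m) p) x (Cg * τ i ^ cg) (σ0 i) (s i) ∧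
        (0 < P.f x → P.φ x ∈ Icc l r →
          P.GeoW (A.loc (fun m => F i m + u i m) p) x (Cg * τ i ^ cg) (σ0 i ^ 2 * s i ^ 6)) := by
  obtain ⟨Cg, cg, hCg, H⟩ := TWE h
  refine ⟨Cg, cg, hCg, fun N => ?_⟩
  obtain ⟨C0, c1, u, hu, b1, b2, b3⟩ := H N
  have hK : P.K ⊆ (A.ch p).target := P.sub.trans (hP.trans (Atl.ball3_sub' p))
  have u0 : ∀ i, ∀ y ∈ (A.ch p).target, y ∉ P.K → u i y = 0 := fun i y _ hy =>
    image_eq_zero_of_notMem_tsupport fun h => hy ((hu i).2 h)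
  have sm : ∀ i, A.Sm (A.extF p (u i)) := fun i =>
    Atl.Sm_extF p P.cp hK (fun _ _ => (hu i).1.contDiffAt) (u0 i)
  have z0 : ∀ i m, m ∉ (A.ch p).symm '' P.K → A.extF p (u i) =ᶠ[𝓝 m] fun _ => 0 := fun i m hm => by
    filter_upwards [(Atl.isClosed_image p P.cp hK).isOpen_compl.mem_nhds hm] with z hz
    exact Atl.extF_eq_zero p (u0 i) hz
  have ev : ∀ i, ∀ y ∈ (A.ch p).target, A.loc (fun m => F i m + A.extF p (u i) m) p =ᶠ[𝓝 y]
      fun z => A.loc (F i) p z + u i z := fun i y hy => by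
    filter_upwards [(A.ch p).open_target.mem_nhds hy] with z hz
    rw [← Atl.loc_extF p (u i) hz]
    rfl
  have l1 : ∀ i, 1 ≤ σ0 i ^ 2 * s i ^ 6 := fun i =>
    one_le_mul_of_one_le_of_one_le (one_le_pow₀ (h.hσ1 i)) (one_le_pow₀ (h.hs i))
  refine ⟨C0, c1, fun i => A.extF p (u i), sm, z0, fun k => ?_, fun k => ?_, fun i hi x hx => ?_⟩
  · obtain ⟨D, hD, HD⟩ := Atl.Nb_extF (W := V) p P.cp hK k
    have w0 : ∀ i k, 0 ≤ d i * (σ0 i ^ 2 * s i ^ 6) ^ k / (σ0 i ^ 2 * s i ^ 6) := fun i k => by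
      have := h.hd0 i
      have := l1 i
      positivity
    obtain ⟨C, e, hC, HC⟩ := twg_fin h.hτ w0 (fun i j k hjk => by
        have := h.hd0 i
        have := l1 i
        gcongr)
      (f := fun k i x => ‖iteratedFDeriv ℝ k (u i) x‖) (c := fun _ _ => True)
      (fun k => by
        obtain ⟨C, e, hC, HC⟩ := b1 k
        exact ⟨C, e, hC, fun i x _ => HC i x⟩) k
    refine ⟨D * C, e, mul_pos hD hC, fun i => ?_⟩
    have hτ : 0 ≤ τ i := zero_le_one.trans (h.hτ i)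
    have := HD (u i) _ (by have := w0 i k; positivity) (fun _ _ => (hu i).1.contDiffAt) (u0 i)
      fun j hj y _ => HC i j hj y trivial
    exact this.mono le_rfl (le_of_eq (by ring))
  · obtain ⟨D, hD, HD⟩ := Atl.TN_extT p P.cp hK k
    have w0 : ∀ i k, 0 ≤ (s i)⁻¹ ^ N * (σ0 i ^ 2 * s i ^ 6) ^ k := fun i k => by
      have := h.hs i
      have := l1 i
      positivity
    obtain ⟨C, e, hC, HC⟩ := twg_fin h.hτ w0 (fun i j k hjk => by
        have := h.hs i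
        have := l1 i
        gcongr)
      (f := fun k i x => ‖iteratedFDeriv ℝ k (P.err (d i) (bh i) (A.loc (F i) p) (u i)) x‖)
      (c := fun i x => C0 * τ i ^ c1 ≤ s i ∧ x ∈ P.K)
      (fun k => by
        obtain ⟨C, e, hC, HC⟩ := b2 k
        exact ⟨C, e, hC, fun i x hx => HC i hx.1 x hx.2⟩) k
    refine ⟨D * C, e, mul_pos hD hC, fun i hi => ?_⟩
    have hτ : 0 ≤ τ i := zero_le_one.trans (h.hτ i)
    have s1 := (hF i).add (sm i)
    have rp : ∀ y ∈ (A.ch p).target, A.rep (A.metA (fun m => F i m + A.extF p (u i) m) - A.metA (F i)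
        - A.extT p (P.K.indicator (P.Q (d i) (bh i)))) p y
        = P.K.indicator (P.err (d i) (bh i) (A.loc (F i) p) (u i)) y := fun y hy => by
      simp only [Atl.rep_sub]
      rw [Atl.rep_metA s1 hy, Atl.rep_metA (hF i) hy, Atl.rep_extT p _ hy, twg_met (ev i y hy)]
      by_cases hyK : y ∈ P.K
      · rw [indicator_of_mem hyK, indicator_of_mem hyK]
        rfl
      · rw [indicator_of_notMem hyK, indicator_of_notMem hyK, twg_off (hu i).2 hyK]
        simp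
    have e1 : A.metA (fun m => F i m + A.extF p (u i) m) - A.metA (F i)
        - A.extT p (P.K.indicator (P.Q (d i) (bh i)))
        = A.extT p (P.K.indicator (P.err (d i) (bh i) (A.loc (F i) p) (u i))) := by
      funext m
      by_cases hm : m ∈ (A.ch p).source
      · refine Atl.T_ext hm ?_
        rw [rp _ ((A.ch p).map_source hm), Atl.rep_extT p _ ((A.ch p).map_source hm)]
      · have hm' : m ∉ (A.ch p).symm '' P.K := by
          rintro ⟨y, hy, rfl⟩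
          exact hm ((A.ch p).map_target (hK hy))
        have e2 : A.metA (fun m => F i m + A.extF p (u i) m) m = A.metA (F i) m := by
          refine Atl.metA_congr ?_
          filter_upwards [z0 i m hm'] with z hz
          simp [hz]
        simp [e2, Atl.extT, hm]
    have ts := ((Atl.TSm_metA s1).sub (Atl.TSm_metA (hF i))).sub (twg_TSm p hP (d i) (h.sb i))
    have e3 : ∀ y ∈ P.O, P.K.indicator (P.err (d i) (bh i) (A.loc (F i) p) (u i)) y
        = P.err (d i) (bh i) (A.loc (F i) p) (u i) y := fun y hy => by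
      by_cases hyK : y ∈ P.K
      · exact indicator_of_mem hyK _
      · rw [indicator_of_notMem hyK, Pc.err, twg_off (hu i).2 hyK, twg_Q0 P _ _ hy hyK]
        simp
    rw [e1]
    refine (HD _ _ (by have := w0 i k; positivity) (fun y hy => ?_)
      (fun y _ hy => indicator_of_notMem hy _) fun j hj y hy => ?_).mono le_rfl
      (le_of_eq (b := D * C * τ i ^ e * ((s i)⁻¹ ^ N * (σ0 i ^ 2 * s i ^ 6) ^ k))
        (a := D * (C * τ i ^ e * ((s i)⁻¹ ^ N * (σ0 i ^ 2 * s i ^ 6) ^ k))) (by ring))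
    · refine (ts.contDiffAt (hK hy)).congr_of_eventuallyEq ?_
      filter_upwards [(A.ch p).open_target.mem_nhds (hK hy)] with z hz
      exact (rp z hz).symm
    · rw [t1_congr P.op e3 (P.sub hy) j]
      exact HC i j hj y ⟨hi, hy⟩
  · obtain ⟨j1, j2⟩ := Atl.m3_jet (ev i x (hK hx))
    have := b3 i hi x hx
    simp only [Pc.Geo, Pc.GeoW, npG, d2, j1, j2] at this ⊢
    exact this
theorem TSm_Q (p : Fin A.n) {P : Pc} (hP : P.O ⊆ Metric.ball 0 3) (d : ℝ) {bh : E → ℝ}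
    (hb : ContDiffOn ℝ ∞ bh P.O) : A.TSm (A.extT p (P.K.indicator (P.Q d bh))) := twg_TSm p hP d hb
theorem indicator_Q_eventuallyEq (P : Pc) (d : ℝ) (bh : E → ℝ) {x : E} (hx : x ∈ P.O) :
    P.K.indicator (P.Q d bh) =ᶠ[𝓝 x] P.Q d bh := twg_ind P d bh hx
/-- levels that make the winding hypothesis vacuous -/
theorem Pc.exists_vacuous (P : Pc) : ∃ l' : ℝ, ∀ x ∈ P.O, 0 < P.f x → P.φ x < l' := by
  obtain ⟨C, hC⟩ := P.cp.exists_bound_of_continuousOn (P.sφ.continuousOn.mono P.sub)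
  refine ⟨C + 1, fun x hx hf => ?_⟩
  have := (le_abs_self _).trans (hC x (P.fK x hx hf))
  linarith

end Vale.Agent.P205
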