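import Vale.Agent.P205.TWG

open Set Filter Topology
open scoped ContDiff

noncomputable section
namespace Vale.Agent.P205

variable {M : Type*} [TopologicalSpace M] [T2Space M] [CompactSpace M] {A : Atl M}

/-! TWS: a finite sequence of small twists. -/

/-- `P τ s` holds as soon as `s` dominates a fixed power of `τ` -/
def Big (P : ℝ → ℝ → Prop) : Prop :=
  ∃ (C0 : ℝ) (c0 : ℕ), 0 ≤ C0 ∧ ∀ τ s, 1 ≤ τ → C0 * τ ^ c0 ≤ s → P τ s

theorem Big.base (X : ℝ) (x : ℕ) : Big (fun τ s => X * τ ^ x ≤ s) :=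
  ⟨|X|, x, abs_nonneg _, fun τ s hτ h =>
    (mul_le_mul_of_nonneg_right (le_abs_self X) (by positivity)).trans h⟩

theorem Big.and {P Q : ℝ → ℝ → Prop} (h : Big P) (h' : Big Q) : Big (fun τ s => P τ s ∧ Q τ s) := by
  obtain ⟨C, c, hC, h⟩ := h
  obtain ⟨C', c', hC', h'⟩ := h'
  refine ⟨C + C', c + c', by positivity, fun τ s hτ hs => ⟨h τ s hτ ?_, h' τ s hτ ?_⟩⟩
  · exact le_trans (mul_le_mul (by linarith) (pow_le_pow_right₀ hτ (by omega)) (by positivity)
      (by positivity)) hs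
  · exact le_trans (mul_le_mul (by linarith) (pow_le_pow_right₀ hτ (by omega)) (by positivity)
      (by positivity)) hs

theorem Big.all {P : ℕ → ℝ → ℝ → Prop} (h : ∀ k, Big (P k)) (n : ℕ) :
    Big (fun τ s => ∀ k ≤ n, P k τ s) := by
  induction n with
  | zero =>
    obtain ⟨C, c, hC, h0⟩ := h 0
    exact ⟨C, c, hC, fun τ s hτ hs k hk => by rw [Nat.le_zero.1 hk]; exact h0 τ s hτ hs⟩
  | succ n ih =>
    obtain ⟨C, c, hC, h0⟩ := ih.and (h (n + 1))
    refine ⟨C, c, hC, fun τ s hτ hs k hk => ?_⟩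
    rcases Nat.lt_or_ge k (n + 1) with e | e
    · exact (h0 τ s hτ hs).1 k (by omega)
    · rw [le_antisymm hk e]; exact (h0 τ s hτ hs).2

theorem p2_pw {s : ℝ} (hs : 1 ≤ s) {a b c d : ℕ} (h : a + d ≤ c + b) :
    s ^ a * s⁻¹ ^ b ≤ s ^ c * s⁻¹ ^ d := by
  have s0 : 0 < s := by linarith
  rw [inv_pow, inv_pow, ← div_eq_mul_inv, ← div_eq_mul_inv, div_le_div_iff₀ (by positivity)
    (by positivity), ← pow_add, ← pow_add]
  exact pow_le_pow_right₀ hs h

theorem tws_nb0 (A : Atl M) (k : ℕ) {b : ℝ} (hb : 0 ≤ b) : A.Nb k (fun _ => (0 : V)) b := by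
  intro p j _ y _
  have : A.loc (fun _ => (0 : V)) p = fun _ => 0 := rfl
  rw [this]
  simpa using hb

theorem tws_cc {τ C C' : ℝ} {c c' : ℕ} (hτ : 1 ≤ τ) (h0 : 0 ≤ C) (hC : C ≤ C') (hc : c ≤ c') :
    C * τ ^ c ≤ C' * τ ^ c' :=
  mul_le_mul hC (pow_le_pow_right₀ hτ hc) (by positivity) (h0.trans hC)

theorem TWS {g Ψ : M → S3} (hg : A.PosD g) (hgs : A.TSm g) {η : ℝ} (J : ℕ) (p : Fin J → Fin A.n)
    (P : Fin J → Pc) (hP : ∀ j, (P j).O ⊆ Metric.ball 0 3)
    (hdir : ∀ j, ∀ x ∈ (P j).K, qf (A.rep Ψ (p j) x) ((P j).c2 x) ((P j).c2 x)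
      ≤ η * qf (A.rep g (p j) x) ((P j).c2 x) ((P j).c2 x))
    (N : ℕ) {ι : Type*} {τ s d : ι → ℝ} {F : ι → M → V} {bh : Fin J → ι → E → ℝ}
    (hτ : ∀ i, 1 ≤ τ i) (hs : ∀ i, 1 ≤ s i) (hd0 : ∀ i, 0 < d i)
    (hd : ∀ i, d i ≤ (s i)⁻¹ ^ (4 * 5 ^ J)) (hF : ∀ i, A.Sm (F i))
    (bF : A.GB τ (fun i k => (s i ^ 2) ^ (k - 2)) F)
    (mg : ∃ (C : ℝ) (c : ℕ), 0 < C ∧ ∀ i, A.Mg (F i) g Ψ (C * τ i ^ c)⁻¹ η)
    (sb : ∀ j i, ContDiffOn ℝ ∞ (bh j i) (P j).O)
    (bb : ∀ j, KB (P j).K τ (fun i k => (s i ^ 2) ^ k) (bh j))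
    (lb : ∀ j, ∃ (C : ℝ) (c : ℕ), 0 < C ∧ ∀ i, ∀ x ∈ (P j).K, 1 ≤ C * τ i ^ c * bh j i x) :
    ∃ (C0 : ℝ) (c1 : ℕ) (u : ι → M → V), (∀ i, A.Sm (u i)) ∧
      A.GB τ (fun i k => d i * (s i ^ (2 * 5 ^ J)) ^ (k - 1)) u ∧
      ∀ k, ∃ (C : ℝ) (c : ℕ), 0 < C ∧ ∀ i, C0 * τ i ^ c1 ≤ s i →
        A.TN k (A.metA (fun m => F i m + u i m) - A.metA (F i)
            - ∑ j, A.extT (p j) ((P j).K.indicator ((P j).Q (d i) (bh j i))))
          (C * τ i ^ c * ((s i)⁻¹ ^ N * (s i ^ (2 * 5 ^ J)) ^ k)) := by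
  classical
  induction J generalizing ι with
  | zero =>
    refine ⟨0, 0, fun _ _ => 0, fun i => Atl.Sm.const _, fun k => ⟨1, 0, one_pos, fun i =>
      tws_nb0 A k (by have := hs i; have := hd0 i; positivity)⟩, fun k => ⟨1, 0, one_pos,
      fun i _ q j _ y _ => ?_⟩⟩
    simp only [add_zero, sub_self, Finset.univ_eq_empty, Finset.sum_empty, Atl.rep_zero]
    have := hs i
    simp only [iteratedFDeriv_fun_zero, Pi.zero_apply, norm_zero]
    positivity
  | succ J ih =>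
    have J1 : 1 ≤ 5 ^ J := Nat.one_le_pow _ _ (by norm_num)
    have s0 : ∀ i, 0 < s i := fun i => by linarith [hs i]
    have τ0 : ∀ i, 0 < τ i := fun i => by linarith [hτ i]
    have si1 : ∀ i, (s i)⁻¹ ≤ 1 := fun i => inv_le_one_of_one_le₀ (hs i)
    obtain ⟨l', hl'⟩ := (P 0).exists_vacuous
    obtain ⟨Cm, cm, hCm, hmg⟩ := mg
    obtain ⟨cf, hcf, hmf⟩ := Atl.mg_frame hg hgs (p 0) (P 0) (hP 0)
    have K3 : (P 0).K ⊆ Metric.ball 0 3 := (P 0).sub.trans (hP 0)
    have hyp : (P 0).Hyp τ s (fun i => s i ^ 2) d (fun i => A.loc (F i) (p 0)) (bh 0) l' (l' + 1)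
        (l' + 1) (l' + 2) 1 :=
      { hτ := hτ
        hs := hs
        hσ1 := fun i => one_le_pow₀ (hs i)
        hσ := fun _ => le_rfl
        hd0 := hd0
        hd1 := fun i => (hd i).trans (pow_le_one₀ (inv_pos.2 (s0 i)).le (si1 i))
        sF := fun i => (hF i (p 0)).mono ((hP 0).trans (Atl.ball3_sub' _))
        sb := sb 0
        bF := fun k => by
          obtain ⟨C, c, hC, h⟩ := bF k
          exact ⟨C, c, hC, fun i x hx => h i (p 0) k le_rfl x (K3 hx)⟩
        bb := bb 0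
        lb := lb 0
        mg := ⟨Cm / cf, cm, by positivity, fun i x hx => by
          have := τ0 i
          have a := hmf _ _ _ _ (by positivity) (hmg i) x hx (hdir 0 x hx)
          calc (1 : ℝ) = Cm / cf * τ i ^ cm * (cf * (Cm * τ i ^ cm)⁻¹) := by field_simp
            _ ≤ _ := by gcongr⟩
        hl := by linarith
        hlr := le_rfl
        hr := by linarith
        hc0 := one_pos
        hw := fun i x hx h0 hφ => absurd (hl' x hx h0) (not_lt.2 hφ.1) }
    obtain ⟨Cg, cg, -, htw⟩ := TWG (p 0) (hP 0) hF hyp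
    obtain ⟨C0, c1, u, u1, -, u3, u4, -⟩ := htw N
    have lam : ∀ i, (s i ^ 2) ^ 2 * s i ^ 6 = s i ^ 10 := fun i => by ring
    simp only [lam] at u3 u4
    obtain ⟨CM, hCM, hMg⟩ := Atl.Mg_stable hg hgs
    obtain ⟨CF, cF, hCF, hF2⟩ := bF 2
    obtain ⟨Cu, cu, hCu, hu2⟩ := u3 2
    let good : ι → Prop := fun i => C0 * τ i ^ c1 ≤ s i ∧ Cu * τ i ^ cu ≤ s i ∧
      2 * Cm * CM * (CF + 1) ^ 5 * Cu * τ i ^ (cm + 5 * cF + cu) ≤ s i
    have wu : ∀ i k, d i * (s i ^ 10) ^ k / s i ^ 10 ≤ d i * (s i ^ 10) ^ (k - 1) := by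
      intro i k
      have := s0 i
      have := hd0 i
      rw [div_le_iff₀ (by positivity), mul_assoc, ← pow_succ]
      exact mul_le_mul_of_nonneg_left (pow_le_pow_right₀ (one_le_pow₀ (hs i)) (by omega)) this.le
    have dl : ∀ i, d i * s i ^ 10 ≤ (s i)⁻¹ := by
      intro i
      have a := p2_pw (hs i) (a := 10) (b := 4 * 5 ^ (J + 1)) (c := 0) (d := 1)
        (by rw [pow_succ]; omega)
      have := s0 i
      have := hd i
      calc d i * s i ^ 10 ≤ (s i)⁻¹ ^ (4 * 5 ^ (J + 1)) * s i ^ 10 := by gcongr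
        _ ≤ _ := by rw [mul_comm]; simpa using a
    obtain ⟨C0', c1', u', v1, v2, v3⟩ := ih (fun j => p j.succ) (fun j => P j.succ)
      (fun j => hP j.succ) (fun j => hdir j.succ) (ι := {i // good i}) (τ := fun i => τ i.1)
      (s := fun i => s i.1 ^ 5) (d := fun i => d i.1) (F := fun i m => F i.1 m + u i.1 m)
      (bh := fun j i => bh j.succ i.1) (fun i => hτ i.1) (fun i => one_le_pow₀ (hs i.1))
      (fun i => hd0 i.1)
      (fun i => (hd i.1).trans (le_of_eq (by rw [← inv_pow, ← pow_mul]; congr 1; ring)))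
      (fun i => (hF i.1).add (u1 i.1))
      (fun k => by
        obtain ⟨C, c, hC, h⟩ := bF k
        obtain ⟨C', c', hC', h'⟩ := u3 k
        refine ⟨C + C', c + c', by positivity, fun i => ?_⟩
        refine (Atl.Nb.add (hF i.1) (u1 i.1) (h i.1) (h' i.1)).mono le_rfl ?_
        have t := s0 i.1
        have t' := τ0 i.1
        have t'' := hd0 i.1
        have a1 : (s i.1 ^ 2) ^ (k - 2) ≤ ((s i.1 ^ 5) ^ 2) ^ (k - 2) := by
          gcongr
          exact le_self_pow₀ (hs i.1) (by norm_num)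
        have a2 : d i.1 * (s i.1 ^ 10) ^ k / s i.1 ^ 10 ≤ ((s i.1 ^ 5) ^ 2) ^ (k - 2) := by
          refine (wu i.1 k).trans ?_
          rw [← pow_mul (s i.1) 5 2]
          calc d i.1 * (s i.1 ^ 10) ^ (k - 1) ≤ d i.1 * (s i.1 ^ 10) ^ (k - 2 + 1) :=
                mul_le_mul_of_nonneg_left
                  (pow_le_pow_right₀ (one_le_pow₀ (hs i.1)) (by omega)) t''.le
            _ = d i.1 * s i.1 ^ 10 * (s i.1 ^ 10) ^ (k - 2) := by ring
            _ ≤ 1 * (s i.1 ^ 10) ^ (k - 2) := by gcongr; exact (dl i.1).trans (si1 i.1)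
            _ = _ := by simp
        have a3 := tws_cc (hτ i.1) hC.le (le_refl C) (Nat.le_add_right c c')
        have a4 := tws_cc (hτ i.1) hC'.le (le_refl C') (Nat.le_add_left c' c)
        have a5 := mul_le_mul a3 a1 (by positivity) (by positivity)
        have a6 := mul_le_mul a4 a2 (by positivity) (by positivity)
        simp only at a5 a6 ⊢
        linarith)
      ⟨2 * Cm, cm, by positivity, fun i => by
        obtain ⟨i, g1, g2, g3⟩ := i
        have t := s0 i
        have t' := τ0 i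
        have t'' := hd0 i
        have a1 : A.Nb 2 (fun m => F i m + u i m - F i m) (Cu * τ i ^ cu * (s i)⁻¹) := by
          simp only [add_sub_cancel_left]
          refine (hu2 i).mono le_rfl (mul_le_mul_of_nonneg_left ((wu i 2).trans ?_) (by positivity))
          simpa using dl i
        have a2 : 1 ≤ (CF + 1) * τ i ^ cF :=
          one_le_mul_of_one_le_of_one_le (by linarith) (one_le_pow₀ (hτ i))
        refine (hMg (F i) _ Ψ _ η ((CF + 1) * τ i ^ cF) _ (hF i) ((hF i).add (u1 i)) a2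
          (by positivity) (by rw [← div_eq_mul_inv, div_le_one t]; exact g2)
          ((hF2 i).mono le_rfl ?_) a1 (hmg i)).mono hg ?_ le_rfl
        · simp only [Nat.sub_self, pow_zero, mul_one]
          gcongr
          linarith
        · have a3 : CM * ((CF + 1) * τ i ^ cF) ^ 5 * (Cu * τ i ^ cu * (s i)⁻¹)
              ≤ (2 * Cm * τ i ^ cm)⁻¹ := by
            rw [inv_eq_one_div (2 * Cm * τ i ^ cm), le_div_iff₀ (by positivity)]
            have : CM * ((CF + 1) * τ i ^ cF) ^ 5 * (Cu * τ i ^ cu * (s i)⁻¹) * (2 * Cm * τ i ^ cm)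
                = 2 * Cm * CM * (CF + 1) ^ 5 * Cu * τ i ^ (cm + 5 * cF + cu) / s i := by ring
            rw [this, div_le_one t]
            exact g3
          have a4 : (Cm * τ i ^ cm)⁻¹ = (2 * Cm * τ i ^ cm)⁻¹ + (2 * Cm * τ i ^ cm)⁻¹ := by
            field_simp; ring
          simp only
          linarith⟩
      (fun j i => sb j.succ i.1)
      (fun j k => by
        obtain ⟨C, c, hC, h⟩ := bb j.succ k
        refine ⟨C, c, hC, fun i x hx => (h i.1 x hx).trans ?_⟩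
        have t := s0 i.1
        have t' := τ0 i.1
        simp only
        gcongr
        exact le_self_pow₀ (hs i.1) (by norm_num))
      (fun j => by
        obtain ⟨C, c, hC, h⟩ := lb j.succ
        exact ⟨C, c, hC, fun i => h i.1⟩)
    have fr : ∀ i, (s i ^ 5) ^ (2 * 5 ^ J) = s i ^ (2 * 5 ^ (J + 1)) := fun i => by
      rw [← pow_mul]; congr 1; ring
    simp only [fr] at v2 v3
    have fr2 : ∀ i, s i ^ 10 ≤ s i ^ (2 * 5 ^ (J + 1)) := fun i =>
      pow_le_pow_right₀ (hs i) (by rw [pow_succ]; omega)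
    obtain ⟨C1, c2, -, hB⟩ := ((Big.base C0 c1).and ((Big.base Cu cu).and
      (Big.base (2 * Cm * CM * (CF + 1) ^ 5 * Cu) (cm + 5 * cF + cu)))).and (Big.base C0' c1')
    refine ⟨C1, c2, fun i => if h : good i then fun m => u i m + u' ⟨i, h⟩ m else fun _ => 0,
      fun i => ?_, fun k => ?_, fun k => ?_⟩
    · by_cases h : good i
      · simp only [dif_pos h]
        exact (u1 i).add (v1 _)
      · simp only [dif_neg h]
        exact Atl.Sm.const _
    · obtain ⟨C, c, hC, h⟩ := u3 k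
      obtain ⟨C', c', hC', h'⟩ := v2 k
      refine ⟨C + C', c + c', by positivity, fun i => ?_⟩
      have t := s0 i
      have t' := τ0 i
      have t'' := hd0 i
      by_cases hi : good i
      · simp only [dif_pos hi]
        refine (Atl.Nb.add (u1 i) (v1 _) (h i) (h' ⟨i, hi⟩)).mono le_rfl ?_
        have a2 : d i * (s i ^ 10) ^ k / s i ^ 10 ≤ d i * (s i ^ (2 * 5 ^ (J + 1))) ^ (k - 1) := by
          refine (wu i k).trans ?_
          have := fr2 i
          gcongr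
        have a3 := tws_cc (hτ i) hC.le (le_refl C) (Nat.le_add_right c c')
        have a4 := tws_cc (hτ i) hC'.le (le_refl C') (Nat.le_add_left c' c)
        have a5 := mul_le_mul a3 a2 (by positivity) (by positivity)
        have a6 := mul_le_mul_of_nonneg_right a4
          (show 0 ≤ d i * (s i ^ (2 * 5 ^ (J + 1))) ^ (k - 1) by positivity)
        simp only at a5 a6 ⊢
        linarith
      · simp only [dif_neg hi]
        exact tws_nb0 A k (by positivity)
    · obtain ⟨C, c, hC, h⟩ := u4 k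
      obtain ⟨C', c', hC', h'⟩ := v3 k
      refine ⟨C + C', c + c', by positivity, fun i hi => ?_⟩
      obtain ⟨b1, b2⟩ := hB _ _ (hτ i) hi
      have hi' : good i := b1
      have t := s0 i
      have t' := τ0 i
      simp only [dif_pos hi']
      have s5 : s i ≤ s i ^ 5 := le_self_pow₀ (hs i) (by norm_num)
      have a0 := h' ⟨i, hi'⟩ (b2.trans s5)
      have t1 := Atl.TSm_metA (hF i)
      have t2 := Atl.TSm_metA ((hF i).add (u1 i))
      have t3 := Atl.TSm_metA (((hF i).add (u1 i)).add (v1 ⟨i, hi'⟩))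
      have a1 := Atl.TN.add ((t2.sub t1).sub (TSm_Q (p 0) (hP 0) (d i) (sb 0 i)))
        ((t3.sub t2).sub (Atl.TSm.sum _ fun j _ => TSm_Q (p j.succ) (hP j.succ) (d i) (sb j.succ i)))
        (h i b1.1) a0
      rw [Fin.sum_univ_succ]
      have e : (fun m => F i m + (u i m + u' ⟨i, hi'⟩ m)) = fun m => F i m + u i m + u' ⟨i, hi'⟩ m := by
        funext m; abel
      rw [e]
      convert a1.mono le_rfl _ using 1
      · abel
      have a2 : (s i)⁻¹ ^ N * (s i ^ 10) ^ k ≤ (s i)⁻¹ ^ N * (s i ^ (2 * 5 ^ (J + 1))) ^ k := by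
        have := fr2 i
        gcongr
      have a2' : (s i ^ 5)⁻¹ ^ N * (s i ^ (2 * 5 ^ (J + 1))) ^ k
          ≤ (s i)⁻¹ ^ N * (s i ^ (2 * 5 ^ (J + 1))) ^ k := by
        have := inv_anti₀ t s5
        gcongr
      have a3 := tws_cc (hτ i) hC.le (le_refl C) (Nat.le_add_right c c')
      have a4 := tws_cc (hτ i) hC'.le (le_refl C') (Nat.le_add_left c' c)
      have a5 := mul_le_mul a3 a2 (by positivity) (by positivity)
      have a6 := mul_le_mul a4 a2' (by positivity) (by positivity)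
      simp only at a5 a6 ⊢
      linarith

end Vale.Agent.P205
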