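import Vale.Agent.P205.M2
import Vale.Agent.P205.D4

open Set Filter Topology
open scoped ContDiff

noncomputable section
namespace Vale.Agent.P205

open scoped Manifold

section aux
variable {M : Type*} [TopologicalSpace M] [ChartedSpace (EuclideanSpace ℝ (Fin 2)) M]

/-- a chart compatible with the manifold structure -/
structure X1C (e : OpenPartialHomeomorph M E) : Prop where
  a : ContMDiffOn (𝓡 2) 𝓘(ℝ, E) ∞ e e.source
  b : ContMDiffOn 𝓘(ℝ, E) (𝓡 2) ∞ e.symm e.target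

theorem X1C.md {e : OpenPartialHomeomorph M E} (h : X1C e) : e.MDifferentiable (𝓡 2) 𝓘(ℝ, E) :=
  ⟨h.a.mdifferentiableOn (by simp), h.b.mdifferentiableOn (by simp)⟩

theorem x1_chart [IsManifold (𝓡 2) ∞ M] (x : M) : ∃ e : OpenPartialHomeomorph M E,
    x ∈ e.source ∧ e x = 0 ∧ Metric.closedBall 0 4 ⊆ e.target ∧ X1C e := by
  let c := chartAt (EuclideanSpace ℝ (Fin 2)) x
  let L : EuclideanSpace ℝ (Fin 2) ≃L[ℝ] E :=
    (EuclideanSpace.equiv (Fin 2) ℝ).trans (ContinuousLinearEquiv.finTwoArrow ℝ ℝ)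
  have hx : x ∈ c.source := mem_chart_source _ x
  have ho : IsOpen (L.symm ⁻¹' c.target) := c.open_target.preimage L.symm.continuous
  obtain ⟨r, hr, hb⟩ := Metric.isOpen_iff.1 ho (L (c x)) (by simpa using c.map_source hx)
  have hr5 : r / 5 ≠ 0 := by positivity
  have s1 : ContDiff ℝ ∞ fun u : EuclideanSpace ℝ (Fin 2) => (r / 5)⁻¹ • (L u - L (c x)) :=
    (L.contDiff.sub contDiff_const).const_smul _
  have s2 : ContDiff ℝ ∞ fun y : E => L.symm ((r / 5) • y + L (c x)) :=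
    L.symm.contDiff.comp ((contDiff_id.const_smul _).add contDiff_const)
  let H : EuclideanSpace ℝ (Fin 2) ≃ₜ E :=
    { toFun := fun u => (r / 5)⁻¹ • (L u - L (c x))
      invFun := fun y => L.symm ((r / 5) • y + L (c x))
      left_inv := fun u => by simp only [smul_smul, mul_inv_cancel₀ hr5, one_smul, sub_add_cancel,
        ContinuousLinearEquiv.symm_apply_apply]
      right_inv := fun y => by simp only [ContinuousLinearEquiv.apply_symm_apply, add_sub_cancel_right,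
        smul_smul, inv_mul_cancel₀ hr5, one_smul]
      continuous_toFun := s1.continuous
      continuous_invFun := s2.continuous }
  refine ⟨c.transHomeomorph H, hx, ?_, fun y hy => ?_, ?_, ?_⟩
  · show (r / 5)⁻¹ • (L (c x) - L (c x)) = 0
    rw [sub_self, smul_zero]
  · refine hb (?_ : (r / 5) • y + L (c x) ∈ Metric.ball (L (c x)) r)
    have h1 : ‖y‖ ≤ 4 := by simpa using hy
    rw [mem_ball_iff_norm, add_sub_cancel_right, norm_smul, Real.norm_of_nonneg (by positivity)]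
    nlinarith
  · exact s1.contMDiff.comp_contMDiffOn contMDiffOn_chart
  · exact (contMDiffOn_chart_symm (x := x)).comp s2.contMDiff.contMDiffOn fun y hy => hy

theorem x1_atlas [IsManifold (𝓡 2) ∞ M] [CompactSpace M] : ∃ A : Atl M, ∀ p, X1C (A.ch p) := by
  choose e h1 h2 h3 h4 using x1_chart (M := M)
  obtain ⟨t, -, ht⟩ := isCompact_univ.elim_nhds_subcover
    (fun x => (e x).source ∩ e x ⁻¹' Metric.ball 0 1) fun x _ =>
      ((e x).isOpen_inter_preimage Metric.isOpen_ball).mem_nhds ⟨h1 x, by simp [h2 x]⟩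
  have hc : ∀ m, ∃ p : Fin t.card, m ∈ (e (t.equivFin.symm p)).source ∧
      e (t.equivFin.symm p) m ∈ Metric.ball (0 : E) 1 := by
    intro m
    obtain ⟨x, hx, hm⟩ := mem_iUnion₂.1 (ht (mem_univ m))
    refine ⟨t.equivFin ⟨x, hx⟩, ?_⟩
    rw [Equiv.symm_apply_apply]
    exact hm
  choose idx hi1 hi2 using hc
  exact ⟨⟨t.card, fun p => e (t.equivFin.symm p), fun p => h3 _, idx, hi1, hi2, fun p q =>
    contMDiffOn_iff_contDiffOn.1 ((h4 _).a.comp' (h4 _).b)⟩, fun p => h4 _⟩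

/-- derivative of an inverse chart -/
def x1D (e : OpenPartialHomeomorph M E) (y : E) : E →L[ℝ] EuclideanSpace ℝ (Fin 2) :=
  mfderiv 𝓘(ℝ, E) (𝓡 2) e.symm y
/-- derivative of a chart -/
def x1D' (e : OpenPartialHomeomorph M E) (x : M) : EuclideanSpace ℝ (Fin 2) →L[ℝ] E :=
  mfderiv (𝓡 2) 𝓘(ℝ, E) e x

theorem X1C.DD {e : OpenPartialHomeomorph M E} (h : X1C e) {x : M} (hx : x ∈ e.source)
    (v : EuclideanSpace ℝ (Fin 2)) : x1D e (e x) (x1D' e x v) = v :=
  DFunLike.congr_fun (h.md.symm_comp_deriv hx) v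
theorem X1C.inj {e : OpenPartialHomeomorph M E} (h : X1C e) {y : E} (hy : y ∈ e.target) :
    Function.Injective (x1D e y) := h.md.symm.mfderiv_injective hy
theorem x1_tr {e e' : OpenPartialHomeomorph M E} (h : X1C e) (h' : X1C e') {y : E} (hy : y ∈ e.target)
    (hq : e.symm y ∈ e'.source) (v : E) :
    x1D e' (e' (e.symm y)) (fderiv ℝ (e' ∘ e.symm) y v) = x1D e y v := by
  have d := mfderiv_comp y (h'.md.mdifferentiableAt hq) (h.md.mdifferentiableAt_symm hy)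
  rw [mfderiv_eq_fderiv] at d
  have e1 : fderiv ℝ (e' ∘ e.symm) y = _ := d
  rw [e1]
  exact h'.DD hq _

/-- the components of a bilinear form pulled back to the plane -/
def x1S (B : EuclideanSpace ℝ (Fin 2) →L[ℝ] EuclideanSpace ℝ (Fin 2) →L[ℝ] ℝ)
    (D : E →L[ℝ] EuclideanSpace ℝ (Fin 2)) : S3 :=
  (B (D (1, 0)) (D (1, 0)), B (D (1, 0)) (D (0, 1)), B (D (0, 1)) (D (0, 1)))
theorem x1_qf {B : EuclideanSpace ℝ (Fin 2) →L[ℝ] EuclideanSpace ℝ (Fin 2) →L[ℝ] ℝ}
    (hB : ∀ v w, B v w = B w v) (D : E →L[ℝ] EuclideanSpace ℝ (Fin 2)) (v w : E) :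
    qf (x1S B D) v w = B (D v) (D w) := by
  have e : ∀ u : E, D u = u.1 • D (1, 0) + u.2 • D (0, 1) := fun u => by
    rw [← map_smul, ← map_smul, ← map_add]
    simp
  rw [e v, e w]
  simp only [qf, x1S, map_add, map_smul, add_apply, smul_apply, smul_eq_mul, hB (D (0, 1)) (D (1, 0))]
  ring

variable [IsManifold (𝓡 2) ∞ M]
  (g : Bundle.ContMDiffRiemannianMetric (𝓡 2) ∞ (EuclideanSpace ℝ (Fin 2))
    (fun x : M => TangentSpace (𝓡 2) x))

/-- the metric as a map to a fixed space -/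
def x1g (m : M) : EuclideanSpace ℝ (Fin 2) →L[ℝ] EuclideanSpace ℝ (Fin 2) →L[ℝ] ℝ := g.inner m

open Bundle in
theorem x1_smooth {e : OpenPartialHomeomorph M E} (h : X1C e) (v w : E) :
    ContDiffOn ℝ ∞ (fun y => x1g g (e.symm y) (x1D e y v) (x1D e y w)) e.target := by
  have T : ∀ v : E, ContMDiffOn 𝓘(ℝ, E) ((𝓡 2).prod (𝓡 2)) ∞ (fun a => Bundle.TotalSpace.mk'
      (EuclideanSpace ℝ (Fin 2)) (E := fun x : M => TangentSpace (𝓡 2) x) (e.symm a) (x1D e a v))
      e.target := fun v => by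
    have h1 := (h.b.contMDiffOn_tangentMapWithin (m := ∞) (by simp) e.open_target.uniqueMDiffOn).comp
      (contMDiff_vectorSpace_iff_contDiff.2 (contDiff_const (c := v))).contMDiffOn
      (s := e.target) (fun a ha => ha)
    refine h1.congr fun a ha => ?_
    exact (tangentMapWithin_eq_tangentMap (p := ⟨a, v⟩)
      (e.open_target.uniqueMDiffOn a ha) (h.md.mdifferentiableAt_symm ha)).symm
  let _ : Bundle.RiemannianBundle (fun x : M => TangentSpace (𝓡 2) x) := ⟨g.toRiemannianMetric⟩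
  exact contMDiffOn_iff_contDiffOn.1 (ContMDiffOn.inner_bundle (IB := 𝓡 2)
    (F := EuclideanSpace ℝ (Fin 2)) (E := fun x : M => TangentSpace (𝓡 2) x) (T v) (T w))

theorem x1_main [T2Space M] [CompactSpace M] {A : Atl M} (hA : ∀ p, X1C (A.ch p)) :
    ∃ g0 : M → S3, A.TSm g0 ∧ A.PosD g0 ∧ ∀ F0 : M → V, A.Sm F0 → A.metA F0 = g0 →
      ∃ F : M → EuclideanSpace ℝ (Fin 4), ContMDiff (𝓡 2) (𝓡 4) ∞ F ∧
        ∀ (x : M) (v w : TangentSpace (𝓡 2) x),
          @inner ℝ (EuclideanSpace ℝ (Fin 4)) _ (mfderiv (𝓡 2) (𝓡 4) F x v)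
            (mfderiv (𝓡 2) (𝓡 4) F x w) = g.inner x v w := by
  have sy : ∀ m v w, x1g g m v w = x1g g m w v := fun m v w => g.symm m v w
  refine ⟨fun m => x1S (x1g g m) (x1D (A.ch (A.idx m)) (A.ch (A.idx m) m)), fun p => ?_,
    fun m v hv => ?_, fun F0 hF he => ?_⟩
  · refine ((x1_smooth g (hA p) (1, 0) (1, 0)).prodMk ((x1_smooth g (hA p) (1, 0) (0, 1)).prodMk
      (x1_smooth g (hA p) (0, 1) (0, 1)))).congr fun y hy => ?_
    simp only [Atl.rep, pull, x1_qf (sy _), Atl.tr, x1_tr (hA p) (hA _) hy (A.mem _)]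
  · rw [x1_qf (sy _)]
    exact g.pos m _ fun h0 => hv ((hA _).inj ((A.ch _).map_source (A.mem m))
      (h0.trans (map_zero _).symm))
  · let L := (EuclideanSpace.equiv (Fin 4) ℝ).symm
    have ev : ∀ x, (fun m => L (F0 m)) =ᶠ[𝓝 x] (L ∘ A.loc F0 (A.idx x)) ∘ A.ch (A.idx x) := fun x => by
      filter_upwards [(A.ch (A.idx x)).open_source.mem_nhds (A.mem x)] with z hz
      simp only [Function.comp, Atl.loc, (A.ch _).left_inv hz]
    have c1 : ∀ x, ContDiffAt ℝ ∞ (A.loc F0 (A.idx x)) (A.ch (A.idx x) x) := fun x =>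
      hF.contDiffAt ((A.ch _).map_source (A.mem x))
    refine ⟨fun m => L (F0 m), fun x => ?_, fun x v w => ?_⟩
    · exact ((L.contDiff.contDiffAt.comp _ (c1 x)).contMDiffAt.comp x
        ((hA _).a.contMDiffAt ((A.ch _).open_source.mem_nhds (A.mem x)))).congr_of_eventuallyEq (ev x)
    · have d1 := (L.hasFDerivAt.comp _ ((c1 x).differentiableAt (by simp)).hasFDerivAt).hasMFDerivAt
      have d2 := (d1.comp x ((hA _).md.mdifferentiableAt (A.mem x)).hasMFDerivAt).congr_of_eventuallyEq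
        (ev x)
      have d3 : ∀ u, mfderiv (𝓡 2) (𝓡 4) (fun m => L (F0 m)) x u
          = L (fderiv ℝ (A.loc F0 (A.idx x)) (A.ch (A.idx x) x) (x1D' (A.ch (A.idx x)) x u)) :=
        fun u => DFunLike.congr_fun d2.mfderiv u
      have e1 := congrArg (fun S => qf S (x1D' (A.ch (A.idx x)) x v) (x1D' (A.ch (A.idx x)) x w))
        (congrFun he x)
      simp only [Atl.metA, qf_met, x1_qf (sy _)] at e1
      have a1 := (hA (A.idx x)).DD (A.mem x) v
      have a2 := (hA (A.idx x)).DD (A.mem x) w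
      rw [a1, a2] at e1
      rw [d3, d3]
      refine Eq.trans ?_ e1
      rw [dotProduct_comm]
      exact EuclideanSpace.inner_toLp_toLp _ _
end aux
/-! X1: from finite atlases to Mathlib manifolds. -/
theorem of_core {M : Type*} [TopologicalSpace M] [T2Space M] [CompactSpace M]
    [ChartedSpace (EuclideanSpace ℝ (Fin 2)) M] [IsManifold (𝓡 2) ∞ M] (hc : Core M)
    (g : Bundle.ContMDiffRiemannianMetric (𝓡 2) ∞ (EuclideanSpace ℝ (Fin 2))
      (fun x : M => TangentSpace (𝓡 2) x))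
    (ι : M → EuclideanSpace ℝ (Fin 3)) (hι : ContMDiff (𝓡 2) (𝓡 3) ∞ ι)
    (hi : ∀ x, Function.Injective (mfderiv (𝓡 2) (𝓡 3) ι x)) :
    ∃ F : M → EuclideanSpace ℝ (Fin 4), ContMDiff (𝓡 2) (𝓡 4) ∞ F ∧
      ∀ (x : M) (v w : TangentSpace (𝓡 2) x),
        @inner ℝ (EuclideanSpace ℝ (Fin 4)) _ (mfderiv (𝓡 2) (𝓡 4) F x v)
          (mfderiv (𝓡 2) (𝓡 4) F x w) = g.inner x v w := by
  obtain ⟨A, hA⟩ := x1_atlas (M := M)
  obtain ⟨g0, h1, h2, h3⟩ := x1_main g hA
  let L := EuclideanSpace.equiv (Fin 3) ℝ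
  obtain ⟨F0, hF, he⟩ := hc A g0 (fun m => L (ι m)) h1 h2 (fun p => contMDiffOn_iff_contDiffOn.1
    (L.contDiff.contMDiff.comp_contMDiffOn (hι.comp_contMDiffOn (hA p).b))) fun p y hy => by
      have d1 := L.hasFDerivAt.hasMFDerivAt.comp y ((hι.mdifferentiable (by simp) _).hasMFDerivAt.comp y
        ((hA p).md.mdifferentiableAt_symm hy).hasMFDerivAt)
      have d2 : HasFDerivAt (A.loc (fun m => L (ι m)) p) (_ : E →L[ℝ] (Fin 3 → ℝ)) y :=
        hasMFDerivAt_iff_hasFDerivAt.1 d1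
      rw [d2.fderiv]
      exact L.injective.comp ((hi _).comp ((hA p).inj hy))
  exact h3 F0 hF he
theorem of_core0 {M : Type*} [TopologicalSpace M] [T2Space M] [CompactSpace M]
    [ChartedSpace (EuclideanSpace ℝ (Fin 2)) M] [IsManifold (𝓡 2) ∞ M] (hc : Core0 M)
    (g : Bundle.ContMDiffRiemannianMetric (𝓡 2) ∞ (EuclideanSpace ℝ (Fin 2))
      (fun x : M => TangentSpace (𝓡 2) x)) :
    ∃ F : M → EuclideanSpace ℝ (Fin 4), ContMDiff (𝓡 2) (𝓡 4) ∞ F ∧
      ∀ (x : M) (v w : TangentSpace (𝓡 2) x),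
        @inner ℝ (EuclideanSpace ℝ (Fin 4)) _ (mfderiv (𝓡 2) (𝓡 4) F x v)
          (mfderiv (𝓡 2) (𝓡 4) F x w) = g.inner x v w := by
  obtain ⟨A, hA⟩ := x1_atlas (M := M)
  obtain ⟨g0, h1, h2, h3⟩ := x1_main g hA
  obtain ⟨F0, hF, he⟩ := hc A g0 h1 h2
  exact h3 F0 hF he

end Vale.Agent.P205
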