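import Vale.Agent.P205.M2
import Vale.Agent.P205.T1

open Set Filter Topology
open scoped ContDiff

noncomputable section
namespace Vale.Agent.P205

variable {M : Type*} [TopologicalSpace M] [T2Space M] [CompactSpace M] {A : Atl M}

/-! Za: small tools shared by the Z parts. -/

@[fun_prop]
theorem za_nsq {X : Type} [NormedAddCommGroup X] [NormedSpace ℝ X] {u : X → E} {x : X}
    (h : ContDiffAt ℝ ∞ u x) : ContDiffAt ℝ ∞ (fun y => nsq (u y)) x := by
  unfold nsq; fun_prop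

@[fun_prop]
theorem za_sqv {X : Type} [NormedAddCommGroup X] [NormedSpace ℝ X] {u : X → E} {x : X}
    (h : ContDiffAt ℝ ∞ u x) : ContDiffAt ℝ ∞ (fun y => sqv (u y)) x := by
  unfold sqv; fun_prop

@[fun_prop]
theorem za_annf (o x : E) : ContDiffAt ℝ ∞ (annf o) x := by
  unfold annf; fun_prop

theorem za_eg {u : E → ℝ} {x : E} (h : ContDiffAt ℝ ∞ u x) :
    ContDiffAt ℝ ∞ (fun y => expNegInvGlue (u y) ^ 2) x :=
  (expNegInvGlue.contDiff.contDiffAt.comp x h).pow 2

theorem za_dcov {φ : E → ℝ} {x : E} (h : ContDiffAt ℝ ∞ φ x) : ContDiffAt ℝ ∞ (dcov φ) x := by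
  have := h.fderiv_right (m := ∞) (by simp)
  exact (this.clm_apply contDiffAt_const).prodMk (this.clm_apply contDiffAt_const)

theorem za_theta {φ : E → ℝ} {x : E} (h : ContDiffAt ℝ ∞ φ x) (o : E) :
    ContDiffAt ℝ ∞ (fun y => dotE (y - o) (rot (dcov φ y))) x := by
  have := za_dcov h
  unfold dotE rot; fun_prop

theorem za_cont_nsq (o : E) : Continuous fun y : E => nsq (y - o) := by unfold nsq; fun_prop

theorem za_norm_le {v : E} {r : ℝ} (hr : 0 ≤ r) (h : nsq v ≤ r ^ 2) : ‖v‖ ≤ r := by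
  unfold nsq at h
  rw [Prod.norm_def, max_le_iff, Real.norm_eq_abs, Real.norm_eq_abs]
  exact ⟨abs_le_of_sq_le_sq (by nlinarith [sq_nonneg v.2]) hr,
    abs_le_of_sq_le_sq (by nlinarith [sq_nonneg v.1]) hr⟩

theorem za_mem_ball {o y : E} (ho : ‖o‖ ≤ 2) (h : nsq (y - o) ≤ 1/4) :
    y ∈ Metric.closedBall (0 : E) (5/2) := by
  have h1 := za_norm_le (r := 1/2) (by norm_num) (h.trans (by norm_num))
  have h2 := norm_add_le o (y - o)
  rw [add_sub_cancel] at h2
  rw [mem_closedBall_zero_iff]; linarith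

theorem za_mem_ball3 {o y : E} (ho : ‖o‖ ≤ 2) (h : nsq (y - o) ≤ 1/4) :
    y ∈ Metric.ball (0 : E) 3 :=
  Metric.closedBall_subset_ball (by norm_num) (za_mem_ball ho h)

theorem za_disc (o : E) (c : ℝ) : IsCompact {y : E | nsq (y - o) ≤ c} := by
  refine (isCompact_closedBall o √c).of_isClosed_subset
    (isClosed_le (za_cont_nsq o) continuous_const) fun y hy => ?_
  rw [mem_closedBall_iff_norm]
  have h0 : 0 ≤ nsq (y - o) := by unfold nsq; positivity
  exact za_norm_le (Real.sqrt_nonneg c) (hy.trans (Real.sq_sqrt (h0.trans hy)).ge)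

theorem za_circle (o : E) (c : ℝ) : IsCompact {y : E | nsq (y - o) = c} :=
  (za_disc o c).of_isClosed_subset (isClosed_eq (za_cont_nsq o) continuous_const) fun _ hy => hy.le

theorem za_hs_add {f g : E → ℝ} {x : E} (hf : ContDiffAt ℝ ∞ f x) (hg : ContDiffAt ℝ ∞ g x)
    (ψ : E → ℝ) : hs (fun y => f y + g y) ψ x = hs f ψ x + hs g ψ x := by
  have e : fderiv ℝ (fun y => f y + g y) =ᶠ[𝓝 x] fun y => fderiv ℝ f y + fderiv ℝ g y := by
    filter_upwards [(hf.of_le (m := 1) (by simp)).eventually (by simp),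
      (hg.of_le (m := 1) (by simp)).eventually (by simp)] with y h1 h2
    exact fderiv_fun_add (h1.differentiableAt (by simp)) (h2.differentiableAt (by simp))
  unfold hs d2
  rw [e.fderiv_eq, fderiv_fun_add
    ((hf.fderiv_right (m := ∞) (by simp)).differentiableAt (by simp))
    ((hg.fderiv_right (m := ∞) (by simp)).differentiableAt (by simp))]
  rfl

/-- finite covers of finitely many compact sets -/
theorem za_cover {X : Type*} [TopologicalSpace X] {α : Type*} {κ : Type} [Fintype κ]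
    {Z : κ → Set X} (hZ : ∀ j, IsCompact (Z j)) {P : α → κ → X → Prop}
    (h : ∀ j, ∀ y ∈ Z j, ∃ a, ∀ᶠ x in 𝓝 y, P a j x) :
    ∃ (n : ℕ) (a : Fin n → α), ∀ j, ∀ y ∈ Z j, ∃ l, P (a l) j y := by
  choose a ha using h
  choose t ht using fun j => (hZ j).elim_nhds_subcover' (fun y hy => {x | P (a j y hy) j x}) (ha j)
  let e := Fintype.equivFin (Σ j, t j)
  let b : (Σ j, t j) → α := fun i => a _ i.2.1.1 i.2.1.2
  refine ⟨_, fun l => b (e.symm l), fun j y hy => ?_⟩
  obtain ⟨z, hz, hy'⟩ := mem_iUnion₂.1 (ht j hy)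
  refine ⟨e ⟨j, z, hz⟩, ?_⟩
  simp only [e.symm_apply_apply]
  exact hy'

theorem za_pos_le {κ : Type} [Finite κ] {r : κ → ℝ} (hr : ∀ k, 0 < r k) :
    ∃ η, 0 < η ∧ ∀ k, η ≤ r k :=
  ((eventually_mem_nhdsWithin (a := (0 : ℝ)) (s := Ioi 0)).and (eventually_all.2 fun k =>
    nhdsWithin_le_nhds (ge_mem_nhds (hr k)))).exists

omit [T2Space M] [CompactSpace M] in
theorem za_extF_nonneg (p : Fin A.n) {u : E → ℝ} (hu : ∀ y, 0 ≤ u y) (m : M) :
    0 ≤ A.extF p u m := by
  unfold Atl.extF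
  split_ifs
  exacts [hu _, le_rfl]

end Vale.Agent.P205
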