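import Vale.Agent.P205.M3
import Vale.Agent.P205.Za

open Set Filter Topology
open scoped ContDiff

noncomputable section
namespace Vale.Agent.P205

variable {M : Type*} [TopologicalSpace M] [T2Space M] [CompactSpace M] {A : Atl M}

/-! Z0: the convex short starting map, and the discs along the foliation. -/

/-- the lift to the paraboloid -/
def z0P (x : Fin 3 → ℝ) : V := ![x 0, x 1, x 2, (x 0 ^ 2 + x 1 ^ 2 + x 2 ^ 2) / 2]
/-- its normal -/
def z0N (x : Fin 3 → ℝ) : V := ![-x 0, -x 1, -x 2, 1]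

theorem z0P_sm : ContDiff ℝ ∞ z0P :=
  contDiff_pi.2 fun i => by fin_cases i <;> simp [z0P] <;> fun_prop
theorem z0N_sm : ContDiff ℝ ∞ z0N :=
  contDiff_pi.2 fun i => by fin_cases i <;> simp [z0N] <;> fun_prop

theorem z0_line {Φ : (Fin 3 → ℝ) → V} (hΦ : ContDiff ℝ ∞ Φ) {x w : Fin 3 → ℝ} {r : V}
    (h : ∀ i, HasDerivAt (fun t : ℝ => Φ (x + t • w) i) (r i) 0) : fderiv ℝ Φ x w = r :=
  ((hΦ.differentiable (by simp) x).hasFDerivAt.hasLineDerivAt w).unique (hasDerivAt_pi.2 h)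

theorem z0P_d (x w : Fin 3 → ℝ) :
    fderiv ℝ z0P x w = ![w 0, w 1, w 2, x 0 * w 0 + x 1 * w 1 + x 2 * w 2] := by
  have h : ∀ i, HasDerivAt (fun t : ℝ => x i + t * w i) (w i) 0 := fun i => by
    simpa using ((hasDerivAt_id (0 : ℝ)).mul_const (w i)).const_add (x i)
  refine z0_line z0P_sm fun i => ?_
  fin_cases i
  · exact h 0
  · exact h 1
  · exact h 2
  · have := ((((h 0).pow 2).add ((h 1).pow 2)).add ((h 2).pow 2)).div_const 2
    refine HasDerivAt.congr_deriv this ?_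
    simp; ring

theorem z0N_d (x w : Fin 3 → ℝ) : fderiv ℝ z0N x w = ![-w 0, -w 1, -w 2, 0] := by
  have h : ∀ i, HasDerivAt (fun t : ℝ => -(x i + t * w i)) (-w i) 0 := fun i => by
    simpa using (((hasDerivAt_id (0 : ℝ)).mul_const (w i)).const_add (x i)).fun_neg
  refine z0_line z0N_sm fun i => ?_
  fin_cases i
  · exact h 0
  · exact h 1
  · exact h 2
  · exact hasDerivAt_const _ _

theorem z0_pos {w : Fin 3 → ℝ} (hw : w ≠ 0) : 0 < w 0 ^ 2 + w 1 ^ 2 + w 2 ^ 2 := by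
  by_contra h
  refine hw (funext fun i => ?_)
  fin_cases i <;> simp <;> nlinarith [sq_nonneg (w 0), sq_nonneg (w 1), sq_nonneg (w 2)]

theorem z0_cvx {u : E → Fin 3 → ℝ} {O : Set E} (hO : IsOpen O) (hu : ContDiffOn ℝ ∞ u O) {y : E}
    (hy : y ∈ O) (hi : Function.Injective (fderiv ℝ u y)) : CvxAt (fun x => z0P (u x)) y := by
  have hd : ∀ {Φ : (Fin 3 → ℝ) → V}, ContDiff ℝ ∞ Φ → ∀ x ∈ O, ∀ v,
      fderiv ℝ (fun x => Φ (u x)) x v = fderiv ℝ Φ (u x) (fderiv ℝ u x v) := by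
    intro Φ hΦ x hx v
    rw [fderiv_fun_comp x (hΦ.differentiable (by simp) _)
      ((hu.contDiffAt (hO.mem_nhds hx)).differentiableAt (by simp))]
    rfl
  have hne : ∀ v : E, v ≠ 0 → fderiv ℝ u y v ≠ 0 := fun v hv h =>
    hv (hi (h.trans (map_zero _).symm))
  have h0 : ∀ x ∈ O, ∀ v, z0N (u x) ⬝ᵥ fderiv ℝ (fun x => z0P (u x)) x v = 0 := by
    intro x hx v
    rw [hd z0P_sm x hx, z0P_d]
    simp [z0N, dotProduct, Fin.sum_univ_four]
    ring
  have uy := hu.contDiffAt (hO.mem_nhds hy)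
  refine ⟨?_, z0N (u y), h0 y hy _, h0 y hy _, fun v hv => ?_⟩
  · have : PD (met (fun x => z0P (u x)) y) := fun v hv => by
      rw [qf_met, hd z0P_sm y hy, z0P_d]
      have := z0_pos (hne v hv)
      simp only [dotProduct, Fin.sum_univ_four]
      simp
      nlinarith [mul_self_nonneg (u y 0 * fderiv ℝ u y v 0 + u y 1 * fderiv ℝ u y v 1 +
        u y 2 * fderiv ℝ u y v 2)]
    exact ((PD_iff _).1 this).2
  · have g := z0P_sm.contDiffAt.comp y uy
    have e : (fun x => z0N (u x) ⬝ᵥ fderiv ℝ (fun x => z0P (u x)) x v) =ᶠ[𝓝 y] fun _ => 0 :=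
      eventually_of_mem (hO.mem_nhds hy) fun x hx => h0 x hx v
    have g1 : DifferentiableAt ℝ (fderiv ℝ fun x => z0P (u x)) y :=
      (g.fderiv_right (m := ∞) (by simp)).differentiableAt (by simp)
    have h1 := fderiv_dot (u := fun x => z0N (u x))
      (v := fun x => fderiv ℝ (fun x => z0P (u x)) x v)
      ((z0N_sm.contDiffAt.comp y uy).differentiableAt (by simp))
      (g1.clm_apply (differentiableAt_const v)) v
    rw [e.fderiv_eq, fderiv_clm_apply g1 (differentiableAt_const v), hd z0N_sm y hy,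
      hd z0P_sm y hy, z0P_d, z0N_d] at h1
    have := z0_pos (hne v hv)
    simp only [fderiv_fun_const, Pi.zero_apply, zero_apply,
      ContinuousLinearMap.comp_zero, zero_add, ContinuousLinearMap.flip_apply] at h1
    rw [eq_neg_of_add_eq_zero_right h1.symm]
    simp [dotProduct, Fin.sum_univ_four]
    linarith

theorem z0_smul {G : E → V} {y : E} (h : CvxAt G y) {c : ℝ} (hc : 0 < c) :
    CvxAt (fun x => c • G x) y := by
  obtain ⟨h1, ν, h2, h3, h4⟩ := h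
  have e : fderiv ℝ (fun x => c • G x) = c • fderiv ℝ G := fderiv_const_smul_field (f := G) c
  have e2 : fderiv ℝ (c • fderiv ℝ G) = c • fderiv ℝ (fderiv ℝ G) :=
    fderiv_const_smul_field (𝕜 := ℝ) (f := fderiv ℝ G) c
  unfold CvxAt
  rw [e, e2]
  refine ⟨?_, ν, ?_, ?_, fun v hv => ?_⟩
  · have := mul_pos (pow_pos hc 4) h1
    simp only [gram2, Pi.smul_apply, smul_apply, smul_dotProduct,
      dotProduct_smul, smul_eq_mul] at this ⊢
    linarith
  · simp [h2]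
  · simp [h3]
  · simpa using mul_pos hc (h4 v hv)

theorem exists_start {g : M → S3} (hg : A.PosD g) (hgs : A.TSm g) {ι : M → Fin 3 → ℝ} (hι : A.Sm ι)
    (hi : A.Imm ι) : ∃ F : M → V, A.Sm F ∧ A.Cvx F ∧ A.PosD (g - A.metA F) := by
  have h0 : A.Sm fun m => z0P (ι m) := hι.comp fun _ => z0P_sm.contDiffAt
  obtain ⟨C, C0, hC⟩ := hg.dominates hgs (Atl.TSm_metA h0)
  have c0 : 0 < 1 / (C + 1) := by positivity
  refine ⟨fun m => (1 / (C + 1)) • z0P (ι m), (Atl.Sm.const _).smul h0, fun p y hy =>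
    z0_smul (z0_cvx (A.ch p).open_target (hι p) hy (hi p y hy)) c0, fun m v hv => ?_⟩
  have h1 := hC (A.idx m) _ ((A.ch _).map_source (A.mem m)) v
  rw [Atl.rep_idx, Atl.rep_idx] at h1
  rw [Atl.metA_smul _ h0, Pi.sub_apply, Pi.smul_apply, sub_eq_add_neg, ← neg_smul, qf_add, qf_smul]
  have h2 := hg m v hv
  have h3 : (1 / (C + 1)) ^ 2 * C < 1 := by
    rw [div_pow, div_mul_eq_mul_div, div_lt_one (by positivity)]; nlinarith
  nlinarith [mul_le_mul_of_nonneg_left (abs_le.1 h1).2 (sq_nonneg (1 / (C + 1)))]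

theorem exists_PsiD {ψ : M → ℝ} (hψ : A.Sm ψ) {κ : Type} [Fintype κ] (p : κ → Fin A.n)
    (Z : κ → Set E) (hZ : ∀ j, IsCompact (Z j)) (hZ3 : ∀ j, Z j ⊆ Metric.ball 0 3)
    (hn : ∀ j, ∀ y ∈ Z j, dcov (A.loc ψ (p j)) y ≠ 0) :
    ∃ (n : ℕ) (a : Fin n → PsiD A ψ), ∀ j, ∀ y ∈ Z j,
      0 < ∑ l, A.extF (a l).p (fun x => expNegInvGlue ((a l).f x) ^ 2) ((A.ch (p j)).symm y) := by
  obtain ⟨n, a, ha⟩ := za_cover (P := fun (a : PsiD A ψ) j x => a.p = p j ∧ 0 < a.f x) hZ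
    fun j y hy => by
    have c := (za_dcov (hψ.contDiffAt (Atl.ball3_sub' (p j) (hZ3 j hy)))).continuousAt
    have c1 : ContinuousAt (fun x => dotE (dcov (A.loc ψ (p j)) x) (dcov (A.loc ψ (p j)) y)) y :=
      (c.fst.mul continuousAt_const).add (c.snd.mul continuousAt_const)
    have h1 : dotE (dcov (A.loc ψ (p j)) y) (dcov (A.loc ψ (p j)) y) ≠ 0 := fun h =>
      hn j y hy (Prod.ext (mul_self_add_mul_self_eq_zero.1 h).1 (mul_self_add_mul_self_eq_zero.1 h).2)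
    obtain ⟨r, r0, hr⟩ := Metric.nhds_basis_closedBall.eventually_iff.1
      ((c1.eventually_ne h1).and (Metric.isOpen_ball.mem_nhds (hZ3 j hy)))
    have h2 : ∀ x, nsq (x - y) ≤ r ^ 2 → x ∈ Metric.closedBall y r := fun x hx =>
      mem_closedBall_iff_norm.2 (za_norm_le r0.le hx)
    refine ⟨⟨p j, y, r, _, r0, fun x hx => (hr (h2 x hx)).2, fun x hx => (hr (h2 x hx)).1⟩, ?_⟩
    have h3 : ∀ᶠ x in 𝓝 y, nsq (x - y) < r ^ 2 :=
      (za_cont_nsq y).continuousAt.eventually_lt continuousAt_const (by simp [nsq, r0])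
    filter_upwards [h3] with x hx
    exact ⟨rfl, sub_pos.2 hx⟩
  refine ⟨n, a, fun j y hy => ?_⟩
  obtain ⟨l, h1, h2⟩ := ha j y hy
  refine Finset.sum_pos' (fun l _ => za_extF_nonneg _ (fun _ => sq_nonneg _) _)
    ⟨l, Finset.mem_univ _, ?_⟩
  rw [h1]
  exact (pow_pos (expNegInvGlue.pos_of_pos h2) 2).trans_eq
    (Atl.loc_extF (p j) (fun x => expNegInvGlue ((a l).f x) ^ 2)
      (Atl.ball3_sub' (p j) (hZ3 j hy))).symm

theorem PsiD.sm {ψ : M → ℝ} (a : PsiD A ψ) :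
    A.Sm (A.extF a.p (fun x => expNegInvGlue (a.f x) ^ 2)) := by
  refine Atl.Sm_extF a.p (za_disc a.z (a.r ^ 2)) (fun y hy => Atl.ball3_sub' _ (a.sub y hy))
    (fun y _ => za_eg (by unfold PsiD.f; fun_prop)) fun y _ hy => ?_
  rw [PsiD.f, expNegInvGlue.zero_of_nonpos (sub_nonpos.2 (not_le.1 hy).le)]
  simp

theorem z0_div {f W : M → ℝ} (hf : A.Sm f) (hW : A.Sm W) (h : ∀ m ∈ tsupport f, W m ≠ 0) :
    A.Sm fun m => f m * (W m)⁻¹ := by
  intro p y hy
  refine ContDiffAt.contDiffWithinAt ?_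
  by_cases hm : (A.ch p).symm y ∈ tsupport f
  · exact (hf.contDiffAt hy).mul ((hW.contDiffAt hy).inv (h _ hm))
  · refine (contDiffAt_const (c := (0 : ℝ))).congr_of_eventuallyEq ?_
    filter_upwards [(A.ch p).continuousAt_symm hy (notMem_tsupport_iff_eventuallyEq.1 hm)] with x hx
    have : f ((A.ch p).symm x) = 0 := hx
    simp [Atl.loc, this]

/-- a small function supported where `W > w0` is absorbed in the amplitudes -/
theorem psi_absorb {ψ : M → ℝ} (hψ : A.Sm ψ) {n : ℕ} (a : Fin n → PsiD A ψ) {f : M → ℝ}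
    (hf : A.Sm f) {w0 lam : ℝ} (hw : 0 < w0)
    (hs : tsupport f ⊆ {m | w0 < ∑ l, A.extF (a l).p (fun x => expNegInvGlue ((a l).f x) ^ 2) m})
    (hl : ∀ m, |f m| < lam * w0) : ∃ b : Fin n → PsiP A ψ, ∑ l, (b l).Q = fun m =>
      (f m + lam * ∑ l, A.extF (a l).p (fun x => expNegInvGlue ((a l).f x) ^ 2) m) • A.sqA ψ m := by
  obtain ⟨W, hW⟩ : ∃ W : M → ℝ,
    W = fun m => ∑ l, A.extF (a l).p (fun x => expNegInvGlue ((a l).f x) ^ 2) m := ⟨_, rfl⟩
  have sW : A.Sm W := hW ▸ Atl.Sm.sum _ fun l _ => (a l).sm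
  have hs' : ∀ m ∈ tsupport f, w0 < W m := fun m hm => hW ▸ hs hm
  have h1 : ∀ m, 0 < lam + f m * (W m)⁻¹ ∧ (lam + f m * (W m)⁻¹) * W m = f m + lam * W m := by
    intro m
    have l0 : 0 < lam := (mul_pos_iff_of_pos_right hw).1 ((abs_nonneg _).trans_lt (hl m))
    by_cases h : f m = 0
    · simp [h, l0]
    have h2 := hs' m (subset_tsupport _ h)
    have h3 : 0 < W m := hw.trans h2
    have h4 : (lam + f m * (W m)⁻¹) * W m = f m + lam * W m := by field_simp; ring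
    refine ⟨(mul_pos_iff_of_pos_right h3).1 ?_, h4⟩
    nlinarith [(abs_lt.1 (hl m)).1]
  have sB : A.Sm fun m => √(lam + f m * (W m)⁻¹) :=
    ((Atl.Sm.const lam).add (z0_div hf sW fun m hm => (hw.trans (hs' m hm)).ne')).comp
      (Φ := Real.sqrt) fun m => Real.contDiffAt_sqrt (h1 m).1.ne'
  refine ⟨fun l => ⟨a l, A.loc (fun m => √(lam + f m * (W m)⁻¹)) (a l).p,
    (sB _).mono (Atl.ball3_sub' _), fun y _ => Real.sqrt_pos.2 (h1 _).1⟩, ?_⟩
  have h2 : ∀ l, A.extT (a l).p (fun y => (expNegInvGlue ((a l).f y) *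
      A.loc (fun m => √(lam + f m * (W m)⁻¹)) (a l).p y) ^ 2 • sqv (dcov (A.loc ψ (a l).p) y)) =
      fun m => (lam + f m * (W m)⁻¹) •
        A.extF (a l).p (fun x => expNegInvGlue ((a l).f x) ^ 2) m • A.sqA ψ m := by
    intro l
    rw [Atl.extT_congr (T := fun y => A.loc (fun m => lam + f m * (W m)⁻¹) (a l).p y •
      expNegInvGlue ((a l).f y) ^ 2 • A.rep (A.sqA ψ) (a l).p y), Atl.extT_fsmul, Atl.extT_smul_rep]
    intro y hy
    rw [Atl.rep_sqA hψ hy, mul_pow, smul_smul, mul_comm]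
    simp only [Atl.loc]
    rw [Real.sq_sqrt (h1 _).1.le]
  funext m
  simp only [PsiP.Q, h2, Finset.sum_apply, smul_smul, ← Finset.sum_smul, ← Finset.mul_sum]
  rw [← congrFun hW m, (h1 m).2]

end Vale.Agent.P205
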