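import Vale.Agent.P205.M1
import Vale.Agent.P205.G1
import Vale.Agent.P205.T1
import Vale.Agent.P205.Za

open Set Filter Topology
open scoped ContDiff

noncomputable section
namespace Vale.Agent.P205

variable {M : Type*} [TopologicalSpace M] [T2Space M] [CompactSpace M] {A : Atl M}

/-! Z1: a generic height function makes finitely many circles good. -/

open MeasureTheory in
theorem z1_null {Θ : (Fin 3 → ℝ) → Fin 3 → ℝ} {s : Set (Fin 3 → ℝ)}
    (hd : ∀ x ∈ s, DifferentiableAt ℝ Θ x) {i : Fin 3}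
    (hc : ∀ x ∈ s, HasLineDerivAt ℝ Θ 0 x (Pi.single i 1)) : ∀ᵐ u, u ∉ Θ '' s := by
  refine measure_eq_zero_iff_ae_notMem.1 (addHaar_image_eq_zero_of_det_fderivWithin_eq_zero volume
    (f' := fun x => fderiv ℝ Θ x) (fun x hx => (hd x hx).hasFDerivAt.hasFDerivWithinAt)
    fun x hx => ?_)
  exact LinearMap.det_eq_zero_iff_ker_ne_bot.2 ((Submodule.ne_bot_iff _).2 ⟨Pi.single i 1,
    ((hd x hx).hasFDerivAt.hasLineDerivAt _).unique (hc x hx), by simp⟩)

theorem z1_dot (u : Fin 3 → ℝ) {d : ℝ → Fin 3 → ℝ} {d' : Fin 3 → ℝ} {t : ℝ}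
    (h : HasDerivAt d d' t) : HasDerivAt (fun s => u ⬝ᵥ d s) (u ⬝ᵥ d') t :=
  HasDerivAt.fun_sum fun i _ => (hasDerivAt_pi.1 h i).const_mul (u i)

theorem z1_tan {d : ℝ → Fin 3 → ℝ} (hd : Differentiable ℝ d) (i : Fin 3) :
    ∀ᵐ u : Fin 3 → ℝ, ∀ t, d t i ≠ 0 → u ⬝ᵥ d t ≠ 0 ∨ u ⬝ᵥ deriv d t ≠ 0 := by
  let Θ : (Fin 3 → ℝ) → Fin 3 → ℝ := fun x => x - (x ⬝ᵥ d (x i) / d (x i) i) • Pi.single i 1
  have hj : ∀ j, Differentiable ℝ fun x : Fin 3 → ℝ => d (x i) j := fun j =>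
    (differentiable_pi.1 hd j).comp (differentiable_apply i)
  have h := z1_null (Θ := Θ) (i := i)
    (s := {x | d (x i) i ≠ 0 ∧ HasLineDerivAt ℝ Θ 0 x (Pi.single i 1)}) (fun x hx => by
      simp only [Θ, div_eq_mul_inv]
      exact differentiableAt_id.sub (((DifferentiableAt.fun_sum fun j _ =>
        (differentiableAt_apply j x).mul (hj j x)).mul ((hj i x).inv hx.1)).smul_const _))
    fun x hx => hx.2
  filter_upwards [h] with u hu t ht
  by_contra hc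
  obtain ⟨h1, h2⟩ := not_or.1 hc
  rw [not_not] at h1 h2
  have key : ∀ s, d (t + s) i ≠ 0 → Θ (u + (t - u i) • Pi.single i 1 + s • Pi.single i 1) =
      u - (u ⬝ᵥ d (t + s) / d (t + s) i) • Pi.single i 1 := by
    intro s hs
    have e : (u + (t - u i) • Pi.single i (1 : ℝ) + s • Pi.single i (1 : ℝ) : Fin 3 → ℝ) i =
        t + s := by simp
    simp only [Θ, e, add_dotProduct, smul_dotProduct, single_dotProduct, smul_eq_mul, one_mul,
      add_div, mul_div_cancel_right₀ _ hs, add_smul]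
    abel
  have e0 : (u + (t - u i) • Pi.single i (1 : ℝ) : Fin 3 → ℝ) i = t := by simp
  refine hu ⟨u + (t - u i) • Pi.single i 1, ⟨by rwa [e0], ?_⟩, ?_⟩
  · have d0 : HasDerivAt (fun s => d (t + s)) (deriv d t) 0 :=
      HasDerivAt.comp_const_add t 0 (by rw [add_zero]; exact (hd t).hasDerivAt)
    have d1 := hasDerivAt_pi.1 d0 i
    have ht' : d (t + 0) i ≠ 0 := by rwa [add_zero]
    have d2 := (((z1_dot u d0).fun_div d1 ht').smul_const (Pi.single i (1 : ℝ) : Fin 3 → ℝ)).const_sub u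
    rw [add_zero, h1, h2] at d2
    refine (d2.congr_deriv (by simp)).congr_of_eventuallyEq ?_
    filter_upwards [d1.continuousAt.eventually_ne ht'] with s hs
    exact key s hs
  · simpa [h1] using key 0 (by rwa [add_zero])

theorem z1_cone {n : ℝ → Fin 3 → ℝ} (hn : Differentiable ℝ n) :
    ∀ᵐ u : Fin 3 → ℝ, ∀ t (a : ℝ), u ≠ a • n t := by
  have h := z1_null (Θ := fun x => x 0 • n (x 1)) (i := 2) (s := univ)
    (fun x _ => (differentiableAt_apply 0 x).smul ((hn _).comp x (differentiableAt_apply 1 x)))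
    fun x _ => by simpa [HasLineDerivAt] using hasDerivAt_const _ _
  filter_upwards [h] with u hu t a e
  exact hu ⟨![a, t, 0], trivial, by simp [e]⟩

theorem generic_dir {κ : Type} [Fintype κ] (c n : κ → ℝ → Fin 3 → ℝ) (hc : ∀ j, ContDiff ℝ ∞ (c j))
    (hn : ∀ j, ContDiff ℝ ∞ (n j)) (h1 : ∀ j t, deriv (c j) t ≠ 0) : ∃ u : Fin 3 → ℝ, ∀ j t,
      (u ⬝ᵥ deriv (c j) t ≠ 0 ∨ u ⬝ᵥ deriv (deriv (c j)) t ≠ 0) ∧ ∀ a : ℝ, u ≠ a • n j t := by
  obtain ⟨u, h2, h3⟩ := ((eventually_all.2 fun j => eventually_all.2 fun i =>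
    z1_tan ((contDiff_infty_iff_deriv.1 (hc j)).2.differentiable (by simp)) i).and
    (eventually_all.2 fun j => z1_cone ((hn j).differentiable (by simp)))).exists
  refine ⟨u, fun j t => ⟨?_, h3 j t⟩⟩
  obtain ⟨i, hi⟩ := Function.ne_iff.1 (h1 j t)
  exact h2 j i t hi

/-- the parametrised circle -/
def z1c (o : E) (ρ t : ℝ) : E := o + (ρ * Real.cos t, ρ * Real.sin t)

theorem z1c_sm (o : E) (ρ : ℝ) : ContDiff ℝ ∞ (z1c o ρ) := by unfold z1c; fun_prop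

theorem z1c_d (o : E) (ρ t : ℝ) : HasDerivAt (z1c o ρ) (rot (z1c o ρ t - o)) t := by
  have := (((Real.hasDerivAt_cos t).const_mul ρ).prodMk
    ((Real.hasDerivAt_sin t).const_mul ρ)).const_add o
  exact this.congr_deriv (by simp [z1c, rot])

theorem z1c_nsq (o : E) (ρ t : ℝ) : nsq (z1c o ρ t - o) = ρ ^ 2 := by
  simp only [z1c, add_sub_cancel_left, nsq]
  linear_combination ρ ^ 2 * Real.cos_sq_add_sin_sq t

theorem z1c_surj (o y : E) : ∃ t, y = z1c o √(nsq (y - o)) t := by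
  have e : √(nsq (y - o)) = ‖(⟨(y - o).1, (y - o).2⟩ : ℂ)‖ := by
    rw [Complex.norm_eq_sqrt_sq_add_sq]; rfl
  refine ⟨Complex.arg ⟨(y - o).1, (y - o).2⟩, ?_⟩
  rw [e, z1c, Complex.norm_mul_cos_arg, Complex.norm_mul_sin_arg]
  exact (add_sub_cancel o y).symm

theorem z1_par {u a b : Fin 3 → ℝ} (h : crossProduct a b ≠ 0) (ha : u ⬝ᵥ a = 0) (hb : u ⬝ᵥ b = 0) :
    ∃ s : ℝ, u = s • crossProduct a b := by
  have h1 : crossProduct a b ⬝ᵥ crossProduct a b ≠ 0 := fun e => h (dotProduct_self_eq_zero.1 e)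
  have h2 : (crossProduct a b ⬝ᵥ crossProduct a b) • u = (u ⬝ᵥ a) • crossProduct b (crossProduct a b)
      + (u ⬝ᵥ b) • crossProduct (crossProduct a b) a + (u ⬝ᵥ crossProduct a b) • crossProduct a b := by
    ext i
    fin_cases i <;> simp [cross_apply, dotProduct, Fin.sum_univ_three] <;> ring
  rw [ha, hb, zero_smul, zero_smul, zero_add, zero_add] at h2
  exact ⟨_, by rw [← (inv_smul_smul₀ h1 u), h2, smul_smul]⟩

theorem z1_good {G : E → Fin 3 → ℝ} {o : E} {ρ2 : ℝ} (u : Fin 3 → ℝ)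
    (hG : ∀ t, ContDiffAt ℝ ∞ G (z1c o √ρ2 t))
    (hi : ∀ t, Function.Injective (fderiv ℝ G (z1c o √ρ2 t)))
    (h : ∀ t, (u ⬝ᵥ deriv (fun s => G (z1c o √ρ2 s)) t ≠ 0 ∨
      u ⬝ᵥ deriv (deriv fun s => G (z1c o √ρ2 s)) t ≠ 0) ∧ ∀ a : ℝ, u ≠ a • crossProduct
        (fderiv ℝ G (z1c o √ρ2 t) (1, 0)) (fderiv ℝ G (z1c o √ρ2 t) (0, 1))) :
    GoodC (fun x => u ⬝ᵥ G x) o ρ2 := by
  intro y hy
  obtain ⟨t, ht⟩ := z1c_surj o y
  rw [hy] at ht
  have hψ : ∀ t, ContDiffAt ℝ ∞ (fun x => u ⬝ᵥ G x) (z1c o √ρ2 t) := fun t =>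
    ContDiffAt.sum fun i _ => contDiffAt_const.mul (contDiffAt_pi.1 (hG t) i)
  have hd : ∀ t v, fderiv ℝ (fun x => u ⬝ᵥ G x) (z1c o √ρ2 t) v =
      u ⬝ᵥ fderiv ℝ G (z1c o √ρ2 t) v := fun t v =>
    (((hψ t).differentiableAt (by simp)).hasFDerivAt.hasLineDerivAt v).unique
      (z1_dot u (((hG t).differentiableAt (by simp)).hasFDerivAt.hasLineDerivAt v))
  have h0 : dcov (fun x => u ⬝ᵥ G x) y ≠ 0 := by
    intro e
    obtain ⟨s, hs⟩ := z1_par (u := u) (crossProduct_ne_zero_iff_linearIndependent.2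
      (LinearIndependent.pair_iff.2 fun a b e => by
        rw [← map_smul, ← map_smul, ← map_add, ← map_zero (fderiv ℝ G (z1c o √ρ2 t))] at e
        simpa using hi t e))
      ((hd t (1, 0)).symm.trans (ht ▸ congrArg Prod.fst e))
      ((hd t (0, 1)).symm.trans (ht ▸ congrArg Prod.snd e))
    exact (h t).2 s hs
  refine ⟨h0, ?_⟩
  obtain ⟨θ, hθ⟩ : ∃ θ : E → ℝ, θ = fun x => dotE (x - o) (rot (dcov (fun x => u ⬝ᵥ G x) x)) :=
    ⟨_, rfl⟩
  have hc : ContDiff ℝ ∞ fun s => G (z1c o √ρ2 s) :=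
    contDiff_iff_contDiffAt.2 fun s => (hG s).comp s (z1c_sm o _).contDiffAt
  have e1 : (fun s => u ⬝ᵥ deriv (fun s => G (z1c o √ρ2 s)) s) = fun s => -θ (z1c o √ρ2 s) := by
    funext s
    have := (((hG s).differentiableAt (by simp)).hasFDerivAt.comp_hasDerivAt s (z1c_d o √ρ2 s)).deriv
    rw [show deriv (fun s => G (z1c o √ρ2 s)) s = _ from this, ← hd, ← dotE_dcov, hθ]
    simp only [dotE, rot]; ring
  have d1 := z1_dot u (((contDiff_infty_iff_deriv.1 hc).2.differentiable (by simp)) t).hasDerivAt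
  have d2 := (((hθ ▸ za_theta (hψ t) o : ContDiffAt ℝ ∞ θ _).differentiableAt
    (by simp)).hasFDerivAt.comp_hasDerivAt t (z1c_d o √ρ2 t)).fun_neg
  rw [e1] at d1
  have e2 := d1.unique d2
  have e3 := congrFun e1 t
  rw [← ht] at e2 e3
  rw [← hθ, ← congrFun hθ y]
  by_cases hz : θ y = 0
  · refine Or.inr fun e => ?_
    have a0 : dotE (y - o) (rot (dcov (fun x => u ⬝ᵥ G x) y)) = 0 := (congrFun hθ y).symm.trans hz
    have a1 : fderiv ℝ θ y (rot (y - o)) ≠ 0 := fun e' =>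
      (h t).1.elim (fun h' => h' (by rw [e3, hz, neg_zero])) fun h' => h' (by rw [e2, e', neg_zero])
    generalize dcov (fun x => u ⬝ᵥ G x) y = a at h0 a0 e
    have a2 : nsq a • rot (y - o) = dotE a (y - o) • rot a := by
      simp only [dotE, rot] at a0
      ext
      · simp only [nsq, dotE, rot, Prod.smul_fst, smul_eq_mul]; linear_combination (-a.1) * a0
      · simp only [nsq, dotE, rot, Prod.smul_snd, smul_eq_mul]; linear_combination (-a.2) * a0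
    have a3 := congrArg (fderiv ℝ θ y) a2
    rw [map_smul, map_smul, e, smul_zero, smul_eq_zero, nsq, sq, sq,
      mul_self_add_mul_self_eq_zero] at a3
    exact a3.elim (fun h => h0 (Prod.ext h.1 h.2)) a1
  · exact Or.inl hz

theorem exists_good {ι : M → Fin 3 → ℝ} (hι : A.Sm ι) (hi : A.Imm ι) {κ : Type} [Fintype κ]
    (p : κ → Fin A.n) (o : κ → E) (ho : ∀ j, ‖o j‖ ≤ 2) (ρ2 : κ → ℝ) (hρ0 : ∀ j, 0 < ρ2 j)
    (hρ : ∀ j, ρ2 j ≤ 1/4) :
    ∃ ψ : M → ℝ, A.Sm ψ ∧ ∀ j, GoodC (A.loc ψ (p j)) (o j) (ρ2 j) := by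
  have hm : ∀ j t, z1c (o j) √(ρ2 j) t ∈ (A.ch (p j)).target := fun j t => Atl.ball3_sub' _
    (za_mem_ball3 (ho j) (by rw [z1c_nsq, Real.sq_sqrt (hρ0 j).le]; exact hρ j))
  have hG := fun j t => hι.contDiffAt (hm j t)
  have hD : ∀ j v, ContDiff ℝ ∞ fun t => fderiv ℝ (A.loc ι (p j)) (z1c (o j) √(ρ2 j) t) v :=
    fun j v => contDiff_iff_contDiffAt.2 fun t => (((hG j t).fderiv_right (m := ∞) (by simp)).comp t
      (z1c_sm _ _).contDiffAt).clm_apply contDiffAt_const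
  obtain ⟨u, hu⟩ := generic_dir (fun j s => A.loc ι (p j) (z1c (o j) √(ρ2 j) s))
    (fun j t => crossProduct (fderiv ℝ (A.loc ι (p j)) (z1c (o j) √(ρ2 j) t) (1, 0))
      (fderiv ℝ (A.loc ι (p j)) (z1c (o j) √(ρ2 j) t) (0, 1)))
    (fun j => contDiff_iff_contDiffAt.2 fun s => (hG j s).comp s (z1c_sm _ _).contDiffAt)
    (fun j => by
      have h1 := contDiff_pi.1 (hD j (1, 0))
      have h2 := contDiff_pi.1 (hD j (0, 1))
      refine contDiff_pi.2 fun i => ?_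
      fin_cases i
      exacts [((h1 1).mul (h2 2)).sub ((h1 2).mul (h2 1)), ((h1 2).mul (h2 0)).sub ((h1 0).mul (h2 2)),
        ((h1 0).mul (h2 1)).sub ((h1 1).mul (h2 0))])
    fun j t e => by
      have := (((hG j t).differentiableAt (by simp)).hasFDerivAt.comp_hasDerivAt t
        (z1c_d (o j) √(ρ2 j) t)).deriv
      have h1 := hi _ _ (hm j t) ((this.symm.trans e).trans (map_zero _).symm)
      have h2 := z1c_nsq (o j) √(ρ2 j) t
      rw [Real.sq_sqrt (hρ0 j).le, nsq, neg_eq_zero.1 (congrArg Prod.fst h1),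
        show (z1c (o j) √(ρ2 j) t - o j).1 = 0 from congrArg Prod.snd h1] at h2
      linarith [hρ0 j]
  exact ⟨fun m => u ⬝ᵥ ι m, hι.comp fun _ =>
    ContDiffAt.sum fun i _ => contDiffAt_const.mul (contDiffAt_apply ℝ ℝ i _),
    fun j => z1_good u (hG j) (fun t => hi _ _ (hm j t)) (hu j)⟩

end Vale.Agent.P205
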