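import Vale.Agent.P205.PATCH
import Vale.Agent.P205.Za

open Set Filter Topology
open scoped ContDiff

noncomputable section
namespace Vale.Agent.P205

variable {M : Type*} [TopologicalSpace M] [T2Space M] [CompactSpace M] {A : Atl M}

/-! Z2: decomposition of tensors near a positive definite one along annuli. -/

/-- numerator and denominator of the Cramer coefficient -/
def z2N (ξ : Fin 3 → E) (j : Fin 3) (S : S3) : ℝ := det3 (Function.update (fun i => sqv (ξ i)) j S)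
def z2D (ξ : Fin 3 → E) : ℝ := det3 fun i => sqv (ξ i)
/-- the numerator as a linear map -/
def z2L (ξ : Fin 3 → E) (j : Fin 3) : S3 →L[ℝ] ℝ :=
  z2N ξ j (1, 0, 0) • ContinuousLinearMap.fst ℝ ℝ (ℝ × ℝ) +
    z2N ξ j (0, 1, 0) • (ContinuousLinearMap.fst ℝ ℝ ℝ).comp (ContinuousLinearMap.snd ℝ ℝ (ℝ × ℝ)) +
    z2N ξ j (0, 0, 1) • (ContinuousLinearMap.snd ℝ ℝ ℝ).comp (ContinuousLinearMap.snd ℝ ℝ (ℝ × ℝ))

theorem z2L_apply (ξ : Fin 3 → E) (j : Fin 3) (S : S3) : z2L ξ j S = z2N ξ j S := by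
  fin_cases j <;> simp [z2L, z2N, det3] <;> ring

theorem z2N_sm (o : Fin 3 → E) (j : Fin 3) (S : S3) :
    ContDiff ℝ ∞ fun y => z2N (fun i => y - o i) j S := by
  fin_cases j <;> simp [z2N, det3, sqv] <;> fun_prop

theorem z2D_sm (o : Fin 3 → E) : ContDiff ℝ ∞ fun y => z2D (fun i => y - o i) := by
  simp only [z2D, det3, sqv]; fun_prop

theorem z2L_sm (o : Fin 3 → E) (j : Fin 3) : ContDiff ℝ ∞ fun y => z2L (fun i => y - o i) j :=
  (((z2N_sm o j _).smul contDiff_const).add ((z2N_sm o j _).smul contDiff_const)).add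
    ((z2N_sm o j _).smul contDiff_const)

theorem z2D_smul (c : Fin 3 → ℝ) (ξ : Fin 3 → E) :
    z2D (fun i => c i • ξ i) = (c 0 * c 1 * c 2) ^ 2 * z2D ξ := by
  simp [z2D, det3, sqv]; ring

theorem z2N_smul (c : Fin 3 → ℝ) (ξ : Fin 3 → E) (j : Fin 3) (S : S3) :
    c j ^ 2 * z2N (fun i => c i • ξ i) j S = (c 0 * c 1 * c 2) ^ 2 * z2N ξ j S := by
  fin_cases j <;> simp [z2N, det3, sqv] <;> ring

theorem z2_ne {ξ : Fin 3 → E} (h : z2D ξ ≠ 0) (j : Fin 3) : 0 < nsq (ξ j) := by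
  refine lt_of_le_of_ne (by unfold nsq; positivity) fun e => h ?_
  rw [nsq, sq, sq, eq_comm, mul_self_add_mul_self_eq_zero] at e
  fin_cases j <;> simp at e <;> simp [z2D, det3, sqv, e]

theorem z2_point {x : E} (hx : ‖x‖ ≤ 1) {S : S3} (hS : PD S) : ∃ o : Fin 3 → E, (∀ j, ‖o j‖ ≤ 2) ∧
    z2D (fun j => x - o j) ≠ 0 ∧ ∀ j, 0 < annf (o j) x ∧ 0 < Lc (fun j => x - o j) j S := by
  obtain ⟨ξ, h1, h2, -⟩ := triple_thin S hS 0 (η := 4) (by norm_num)
  have h3 : ∀ j, 0 < √(nsq (ξ j)) := fun j => Real.sqrt_pos.2 (z2_ne h1 j)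
  let c : Fin 3 → ℝ := fun j => 1 / (4 * √(nsq (ξ j)))
  have c0 : ∀ j, 0 < c j := fun j => by have := h3 j; positivity
  have h4 : ∀ j, nsq (c j • ξ j) = 1 / 16 := fun j => by
    have e : nsq (c j • ξ j) = c j ^ 2 * nsq (ξ j) := by simp [nsq]; ring
    have := (z2_ne h1 j).ne'
    rw [e, div_pow, mul_pow, Real.sq_sqrt (z2_ne h1 j).le]
    field_simp; norm_num
  have cc : 0 < (c 0 * c 1 * c 2) ^ 2 := pow_pos (mul_pos (mul_pos (c0 0) (c0 1)) (c0 2)) 2
  refine ⟨fun j => x - c j • ξ j, fun j => ?_, ?_, fun j => ⟨?_, ?_⟩⟩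
  · linarith [norm_sub_le x (c j • ξ j),
      za_norm_le (r := 1 / 4) (by norm_num) ((h4 j).trans_le (by norm_num))]
  · simp only [sub_sub_cancel, z2D_smul]
    exact mul_ne_zero cc.ne' h1
  · simp only [annf, sub_sub_cancel, h4]; norm_num
  · simp only [sub_sub_cancel]
    have h5 : 0 < z2N ξ j S / z2D ξ := by
      have e : sqv 0 + ((4 : ℝ) / 4) • S = S := by ext <;> simp [sqv]
      exact (h2 j).trans_eq (by rw [e]; rfl)
    have h6 : c j ^ 2 * (z2N (fun i => c i • ξ i) j S / z2D fun i => c i • ξ i) =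
        z2N ξ j S / z2D ξ := by
      rw [← mul_div_assoc, z2N_smul, z2D_smul, mul_div_mul_left _ _ cc.ne']
    exact (mul_pos_iff_of_pos_left (pow_pos (c0 j) 2)).1 (h6 ▸ h5)

/-- local data for the decomposition -/
structure Z2D (A : Atl M) (h : M → S3) where
  p : Fin A.n
  x : E
  o : Fin 3 → E
  r : ℝ
  r0 : 0 < r
  ho : ∀ j, ‖o j‖ ≤ 2
  loc : ∀ y ∈ Metric.closedBall x r, y ∈ (A.ch p).target ∧ z2D (fun j => y - o j) ≠ 0 ∧
    ∀ j, 0 < annf (o j) y ∧ ∀ S : S3, ‖S - A.rep h p y‖ ≤ r → 0 ≤ Lc (fun j => y - o j) j S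

theorem z2_local {h : M → S3} (hp : A.PosD h) (hs : A.TSm h) (m : M) : ∃ a : Z2D A h,
    ∀ᶠ m' in 𝓝 m, m' ∈ (A.ch a.p).source ∧ A.ch a.p m' ∈ Metric.ball a.x (a.r / 2) := by
  have hx := (A.ch _).map_source (A.mem m)
  set x := A.ch (A.idx m) m with hxd
  obtain ⟨o, h1, h2, h3⟩ := z2_point (mem_ball_zero_iff.1 (A.b1 m)).le (hp.rep hx)
  have cf : Tendsto (Prod.fst : E × S3 → E) (𝓝 (x, 0)) (𝓝 x) := continuous_fst.tendsto _
  have cD := (z2D_sm o).continuous.continuousAt (x := x)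
  have e1 : ∀ j, ∀ᶠ q : E × S3 in 𝓝 (x, 0), 0 < annf (o j) q.1 ∧
      0 < Lc (fun j => q.1 - o j) j (A.rep h (A.idx m) q.1 + q.2) := fun j => by
    refine (cf.eventually ((za_annf (o j) x).continuousAt.eventually (lt_mem_nhds (h3 j).1))).and ?_
    have c1 : ContinuousAt (fun q : E × S3 => z2L (fun i => q.1 - o i) j
        (A.rep h (A.idx m) q.1 + q.2) / z2D fun i => q.1 - o i) (x, 0) :=
      (((z2L_sm o j).continuous.comp continuous_fst).continuousAt.clm_apply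
        (((hs.contDiffAt hx).continuousAt.comp_of_eq continuousAt_fst rfl).add
          continuousAt_snd)).div (cD.comp_of_eq continuousAt_fst rfl) h2
    simp only [z2L_apply] at c1
    exact c1.eventually (lt_mem_nhds (by simp only [add_zero]; exact (h3 j).2))
  obtain ⟨r, r0, hr⟩ := Metric.nhds_basis_closedBall.eventually_iff.1
    ((cf.eventually ((A.ch _).open_target.eventually_mem hx)).and
      ((cf.eventually (cD.eventually_ne h2)).and (eventually_all.2 e1)))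
  have mem : ∀ y ∈ Metric.closedBall x r, ∀ D : S3, ‖D‖ ≤ r →
      (y, D) ∈ Metric.closedBall (x, (0 : S3)) r := fun y hy D hD => by
    rw [← closedBall_prod_same]; exact ⟨hy, mem_closedBall_zero_iff.2 hD⟩
  refine ⟨⟨A.idx m, x, o, r, r0, h1, fun y hy => ?_⟩, ?_⟩
  · obtain ⟨a1, a2, a3⟩ := hr (mem y hy 0 (by simpa using r0.le))
    refine ⟨a1, a2, fun j => ⟨(a3 j).1, fun S hS => ?_⟩⟩
    have := ((hr (mem y hy _ hS)).2.2 j).2
    rw [add_sub_cancel] at this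
    exact this.le
  · exact Eventually.and ((A.ch _).open_source.mem_nhds (A.mem m))
      ((A.ch _).continuousAt (A.mem m) (Metric.ball_mem_nhds _ (half_pos r0)))

theorem z2_bump {β R : E → ℝ} {K : Set E} (hK : IsClosed K) (hβ : ContDiff ℝ ∞ β)
    (h0 : ∀ y ∉ K, β y = 0) (hR : ∀ y ∈ K, ContDiffAt ℝ ∞ R y ∧ R y ≠ 0) :
    ContDiff ℝ ∞ fun y => β y * (R y)⁻¹ := by
  refine contDiff_iff_contDiffAt.2 fun y => ?_
  by_cases hy : y ∈ K
  · exact hβ.contDiffAt.mul ((hR y hy).1.inv (hR y hy).2)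
  · refine (contDiffAt_const (c := (0 : ℝ))).congr_of_eventuallyEq ?_
    filter_upwards [hK.isOpen_compl.mem_nhds hy] with z hz
    simp [h0 z hz]

theorem exists_annuli {h : M → S3} (hp : A.PosD h) (hs : A.TSm h) :
    ∃ (n : ℕ) (p : Fin n → Fin A.n) (o : Fin n → E) (Λ : Fin n → E → (S3 →L[ℝ] ℝ)) (η1 : ℝ),
      0 < η1 ∧ (∀ j, ‖o j‖ ≤ 2) ∧ (∀ j, ContDiff ℝ ∞ (Λ j)) ∧
      (∀ j, ∀ y ∈ Metric.ball (0 : E) 3, ∀ S : S3, ‖S - A.rep h (p j) y‖ ≤ η1 → 0 ≤ Λ j y S) ∧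
      ∀ T : M → S3, ∑ j, A.extT (p j) (fun y =>
        (expNegInvGlue (annf (o j) y) ^ 2 * Λ j y (A.rep T (p j) y)) • sqv (y - o j)) = T := by
  obtain ⟨N, a, ha⟩ := za_cover (κ := Unit) (Z := fun _ => univ) (P := fun (a : Z2D A h) _ m =>
    m ∈ (A.ch a.p).source ∧ A.ch a.p m ∈ Metric.ball a.x (a.r / 2)) (fun _ => isCompact_univ)
    fun _ m _ => z2_local hp hs m
  obtain ⟨η, η0, hη⟩ := za_pos_le fun k => (a k).r0
  let β : ∀ k, ContDiffBump (a k).x := fun k =>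
    ⟨(a k).r / 2, (a k).r, half_pos (a k).r0, half_lt_self (a k).r0⟩
  have hβ : ∀ k, ∀ y ∉ Metric.closedBall (a k).x (a k).r, β k y = 0 := fun k y hy =>
    (β k).zero_of_le_dist (not_le.1 hy).le
  obtain ⟨W, hW⟩ : ∃ W : M → ℝ, W = fun m => ∑ k, A.extF (a k).p (β k) m := ⟨_, rfl⟩
  have sW : A.Sm W := hW ▸ Atl.Sm.sum _ fun k _ => Atl.Sm_extF _ (isCompact_closedBall _ _)
    (fun y hy => ((a k).loc y hy).1) (fun y _ => (β k).contDiff.contDiffAt) fun y _ => hβ k y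
  have W0 : ∀ m, 0 < W m := fun m => by
    obtain ⟨k, h1, h2⟩ := ha () m trivial
    rw [hW]
    refine Finset.sum_pos' (fun k _ => za_extF_nonneg _ (fun _ => (β k).nonneg) _)
      ⟨k, Finset.mem_univ _, ?_⟩
    rw [Atl.extF, if_pos h1, (β k).one_of_mem_closedBall (Metric.ball_subset_closedBall h2)]
    exact one_pos
  let Λ : Fin N × Fin 3 → E → S3 →L[ℝ] ℝ := fun i y => (β i.1 y * (A.loc W (a i.1).p y *
    expNegInvGlue (annf ((a i.1).o i.2) y) ^ 2 * z2D fun j => y - (a i.1).o j)⁻¹) •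
      z2L (fun j => y - (a i.1).o j) i.2
  have hΛ : ∀ i y S, Λ i y S = β i.1 y * (A.loc W (a i.1).p y)⁻¹ *
      (expNegInvGlue (annf ((a i.1).o i.2) y) ^ 2)⁻¹ * Lc (fun j => y - (a i.1).o j) i.2 S := by
    intro i y S
    simp only [Λ, smul_apply, z2L_apply, smul_eq_mul, Lc, z2N, z2D]
    ring
  let e := (finProdFinEquiv (m := N) (n := 3)).symm
  refine ⟨_, fun l => (a (e l).1).p, fun l => (a (e l).1).o (e l).2, fun l => Λ (e l), η, η0,
    fun l => (a _).ho _, fun l => ?_, fun l y _ S hS => ?_, fun T => ?_⟩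
  · refine (z2_bump Metric.isClosed_closedBall (β _).contDiff (hβ _) fun y hy => ?_).smul (z2L_sm _ _)
    obtain ⟨h1, h2, h3⟩ := (a _).loc y hy
    exact ⟨((sW.contDiffAt h1).mul (za_eg (za_annf _ _))).mul (z2D_sm _).contDiffAt,
      mul_ne_zero (mul_ne_zero (W0 _).ne' (pow_pos (expNegInvGlue.pos_of_pos (h3 _).1) 2).ne') h2⟩
  · rw [hΛ]
    by_cases hy : y ∈ Metric.closedBall (a (e l).1).x (a (e l).1).r
    · exact mul_nonneg (mul_nonneg (mul_nonneg (β _).nonneg (inv_nonneg.2 (W0 _).le))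
        (by positivity)) ((((a _).loc y hy).2.2 _).2 S (hS.trans (hη _)))
    · simp [hβ _ y hy]
  · rw [e.sum_comp fun i => A.extT (a i.1).p fun y => (expNegInvGlue (annf ((a i.1).o i.2) y) ^ 2 *
      Λ i y (A.rep T (a i.1).p y)) • sqv (y - (a i.1).o i.2), Fintype.sum_prod_type]
    have h1 : ∀ k, ∑ j, A.extT (a k).p (fun y => (expNegInvGlue (annf ((a k).o j) y) ^ 2 *
        Λ (k, j) y (A.rep T (a k).p y)) • sqv (y - (a k).o j)) =
        fun m => (W m)⁻¹ • A.extF (a k).p (β k) m • T m := by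
      intro k
      rw [← Atl.extT_sum, Atl.extT_congr (T := fun y => A.loc (fun m => (W m)⁻¹) (a k).p y •
        β k y • A.rep T (a k).p y), Atl.extT_fsmul, Atl.extT_smul_rep]
      intro y _
      by_cases hy : y ∈ Metric.closedBall (a k).x (a k).r
      · obtain ⟨-, h2, h3⟩ := (a k).loc y hy
        conv_rhs => rw [← Lc_sum h2 (A.rep T (a k).p y)]
        simp only [Finset.smul_sum, smul_smul, hΛ]
        refine Finset.sum_congr rfl fun j _ => congrArg (· • _) ?_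
        have := (expNegInvGlue.pos_of_pos (h3 j).1).ne'
        simp only [Atl.loc]
        field_simp
      · simp [hΛ, hβ _ y hy]
    funext m
    simp only [h1, Finset.sum_apply, ← Finset.smul_sum, ← Finset.sum_smul]
    rw [← congrFun hW m, inv_smul_smul₀ (W0 m).ne']

theorem annf_nonneg {o y : E} (h : 0 ≤ annf o y) : 1/64 ≤ nsq (y - o) ∧ nsq (y - o) ≤ 1/4 := by
  unfold annf at h
  constructor <;> nlinarith [sq_nonneg (nsq (y - o) - 1 / 64), sq_nonneg (nsq (y - o) - 1 / 4)]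

theorem ann_mem_ball {o y : E} (ho : ‖o‖ ≤ 2) (h : nsq (y - o) ≤ 1/4) :
    y ∈ Metric.closedBall (0 : E) (5/2) := za_mem_ball ho h

theorem z2_eg {o y : E} (h : ¬ nsq (y - o) ≤ 1 / 4) : expNegInvGlue (annf o y) = 0 :=
  expNegInvGlue.zero_of_nonpos (not_lt.1 fun h' => h (annf_nonneg h'.le).2)

/-- the linear map from tensors to the annulus tensor is bounded in `C²` -/
theorem ann_lin (p : Fin A.n) {o : E} (ho : ‖o‖ ≤ 2) {Λ : E → (S3 →L[ℝ] ℝ)} (hΛ : ContDiff ℝ ∞ Λ) :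
    ∃ C, 0 < C ∧ ∀ T : M → S3, A.TSm T →
      A.TSm (A.extT p (fun y => (expNegInvGlue (annf o y) ^ 2 * Λ y (A.rep T p y)) • sqv (y - o))) ∧
      ∀ b, A.TN 2 T b → A.TN 2 (A.extT p (fun y =>
        (expNegInvGlue (annf o y) ^ 2 * Λ y (A.rep T p y)) • sqv (y - o))) (C * b) := by
  have hK := za_disc o (1 / 4)
  have h3 : ∀ y ∈ {y : E | nsq (y - o) ≤ 1 / 4}, y ∈ Metric.ball (0 : E) 3 := fun y hy =>
    za_mem_ball3 ho hy
  have hs : {y : E | nsq (y - o) ≤ 1 / 4} ⊆ (A.ch p).target := fun y hy =>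
    Atl.ball3_sub' p (h3 y hy)
  let B : E → S3 →L[ℝ] S3 := fun y => (Λ y).smulRight (expNegInvGlue (annf o y) ^ 2 • sqv (y - o))
  have sB : ContDiff ℝ ∞ B := hΛ.smulRight (contDiff_iff_contDiffAt.2 fun y =>
    (za_eg (za_annf o y)).smul (za_sqv (by fun_prop)))
  obtain ⟨b0, b1, hb⟩ := Atl.m1_bound hK (fun y _ => sB.contDiffAt) 2
  obtain ⟨C, C0, hC⟩ := Atl.TN_extT p hK hs 2
  refine ⟨C * (4 * b0), by positivity, fun T hT => ?_⟩
  have e : (fun y => (expNegInvGlue (annf o y) ^ 2 * Λ y (A.rep T p y)) • sqv (y - o)) =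
      fun y => B y (A.rep T p y) := by
    funext y; simp only [B, ContinuousLinearMap.smulRight_apply, smul_smul, mul_comm]
  have h1 : ∀ y ∈ {y : E | nsq (y - o) ≤ 1 / 4}, ContDiffAt ℝ ∞ (fun y => B y (A.rep T p y)) y :=
    fun y hy => sB.contDiffAt.clm_apply (hT.contDiffAt (hs hy))
  have h0 : ∀ y ∈ (A.ch p).target, y ∉ {y : E | nsq (y - o) ≤ 1 / 4} → B y (A.rep T p y) = 0 :=
    fun y _ hy => by simp [B, z2_eg hy]
  rw [e]
  refine ⟨Atl.TSm_extT p hK hs h1 h0, fun b hTb => ?_⟩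
  have b0' : 0 ≤ b := (norm_nonneg _).trans (hTb p 0 (by norm_num) 0 (by simp))
  rw [mul_assoc]
  refine hC _ _ (by positivity) h1 h0 fun j hj y hy => ?_
  refine (t1_bilin (ContinuousLinearMap.id ℝ (S3 →L[ℝ] S3)) (A.ch p).open_target sB.contDiffOn
    (hT p) (hs hy) j).trans ?_
  calc _ ≤ 1 * ∑ i ∈ Finset.range (j + 1), (j.choose i : ℝ) * (b0 * b) := by
        gcongr with i hi
        · exact ContinuousLinearMap.norm_id_le
        · exact hb i (by linarith [Finset.mem_range.1 hi]) y hy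
        · exact hTb p _ (by omega) y (h3 y hy)
    _ = 2 ^ j * (b0 * b) := by
        rw [one_mul, ← Finset.sum_mul, ← Nat.cast_sum, Nat.sum_range_choose]; norm_num
    _ ≤ 2 ^ 2 * (b0 * b) := by gcongr; norm_num
    _ = _ := by ring

theorem ann_tsm0 (p : Fin A.n) {o : E} (ho : ‖o‖ ≤ 2) :
    A.TSm (A.extT p (fun y => expNegInvGlue (annf o y) ^ 2 • sqv (y - o))) :=
  Atl.TSm_extT p (za_disc o (1 / 4)) (fun _ hy => Atl.ball3_sub' p (za_mem_ball3 ho hy))
    (fun y _ => (za_eg (za_annf o y)).smul (za_sqv (by fun_prop))) fun y _ hy => by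
      simp [z2_eg hy]

end Vale.Agent.P205
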