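import Vale.Agent.P205.RG
import Vale.Agent.P205.Za

open Set Filter Topology
open scoped ContDiff

noncomputable section
namespace Vale.Agent.P205

variable {M : Type*} [TopologicalSpace M] [T2Space M] [CompactSpace M] {A : Atl M}

/-! Z4: ridges along finitely many good circles. -/

theorem z4_hs {f1 f2 : M → ℝ} (h1 : A.Sm f1) (h2 : A.Sm f2) (ψ : E → ℝ) (q : Fin A.n) {y : E}
    (hy : y ∈ Metric.ball (0 : E) 3) :
    hs (A.loc (fun m => f1 m + f2 m) q) ψ y = hs (A.loc f1 q) ψ y + hs (A.loc f2 q) ψ y :=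
  za_hs_add (h1.contDiffAt (Atl.ball3_sub' q hy)) (h2.contDiffAt (Atl.ball3_sub' q hy)) ψ

theorem RidgeOut.trans {ψ : M → ℝ} (hψ : A.Sm ψ) {F F1 F2 : M → V} {U : Set M} {γ1 γ2 : ℝ}
    {f1 f2 : M → ℝ} {T1 T2 : M → S3} (h1 : RidgeOut A ψ F U γ1 F1 f1 T1)
    (h2 : RidgeOut A ψ F1 U γ2 F2 f2 T2) :
    RidgeOut A ψ F U (γ1 + γ2) F2 (fun m => f1 m + f2 m) (T1 + T2) where
  sF := h2.sF
  cv := h2.cv
  sf := h1.sf.add h2.sf
  supp := (tsupport_add f1 f2).trans (union_subset h1.supp h2.supp)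
  sT := h1.sT.add h2.sT
  met := by
    have _ := hψ
    rw [h2.met, h1.met]
    funext m
    simp only [Pi.add_apply, Pi.sub_apply, add_smul]
    abel
  bT := Atl.TN.add h1.sT h2.sT h1.bT h2.bT
  bf := Atl.Nb.add h1.sf h2.sf h1.bf h2.bf
  lo := fun q y hy => by
    rw [z4_hs h1.sf h2.sf _ q hy]
    linarith [h1.lo q y hy, h2.lo q y hy]

theorem z4_fderiv (o y v : E) (c : ℝ) :
    fderiv ℝ (fun x => (nsq (x - o) - c) / 2) y v = dotE (y - o) v := by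
  have h1 := ((hasFDerivAt_fst (𝕜 := ℝ) (p := y)).sub_const o.1).pow 2
  have h2 := ((hasFDerivAt_snd (𝕜 := ℝ) (p := y)).sub_const o.2).pow 2
  have h3 := ((h1.add h2).sub_const c).mul_const (2⁻¹ : ℝ)
  have h4 : fderiv ℝ (fun x => (nsq (x - o) - c) / 2) y = _ := h3.fderiv
  rw [h4]
  simp [dotE]
  ring

theorem ridge_circle {ψ : M → ℝ} (hψ : A.Sm ψ) {F : M → V} (hF : A.Sm F) (hc : A.Cvx F) (p : Fin A.n)
    {o : E} (ho : ‖o‖ ≤ 2) {ρ2 : ℝ} (hρ : ρ2 ≤ 1/4) (hg : GoodC (A.loc ψ p) o ρ2) {U : Set M}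
    (hU : IsOpen U) (hZU : ∀ y, nsq (y - o) = ρ2 → (A.ch p).symm y ∈ U) (C : ℝ) {γ : ℝ} (hγ : 0 < γ) :
    ∃ F' f T, RidgeOut A ψ F U γ F' f T ∧
      ∀ y, nsq (y - o) = ρ2 → C ≤ hs (A.loc f p) (A.loc ψ p) y := by
  have hb : ∀ y, nsq (y - o) = ρ2 → y ∈ Metric.ball (0 : E) 3 := fun y hy =>
    za_mem_ball3 ho (hy.trans_le hρ)
  have hθ : ∀ y ∈ Metric.ball (0 : E) 3,
      ContDiffAt ℝ ∞ (fun x => dotE (x - o) (rot (dcov (A.loc ψ p) x))) y := fun y hy =>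
    za_theta (hψ.contDiffAt (Atl.ball3_sub' p hy)) o
  have k0 : IsCompact ({y | nsq (y - o) = ρ2} ∩
      (fun x => dotE (x - o) (rot (dcov (A.loc ψ p) x))) ⁻¹' {0}) :=
    (za_circle o ρ2).of_isClosed_subset (ContinuousOn.preimage_isClosed_of_isClosed
      (fun y hy => (hθ y (hb y hy)).continuousAt.continuousWithinAt) (za_circle o ρ2).isClosed
      isClosed_singleton) inter_subset_left
  obtain ⟨F1, f1, T1, r1, c1⟩ := RG hψ hF hc p (fun y hy => (hθ y hy).contDiffWithinAt) k0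
    (fun y hy => hb y hy.1) (fun y hy => ⟨hy.2, (hg y hy.1).2.resolve_left (not_not.2 hy.2)⟩) hU
    (fun y hy => hZU y hy.1) (C + γ / 2) (half_pos hγ)
  have k1 : IsCompact ({y | nsq (y - o) = ρ2} \
      interior {x | C + γ / 2 ≤ hs (A.loc f1 p) (A.loc ψ p) x}) :=
    (za_circle o ρ2).diff isOpen_interior
  obtain ⟨F2, f2, T2, r2, c2⟩ := RG hψ r1.sF r1.cv p (φ := fun x => (nsq (x - o) - ρ2) / 2)
    (fun y _ => ContDiffAt.contDiffWithinAt (by fun_prop)) k1 (fun y hy => hb y hy.1)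
    (fun y hy => ⟨by rw [show nsq (y - o) = ρ2 from hy.1]; simp, by
      rw [z4_fderiv]
      exact fun h => hy.2 (mem_interior_iff_mem_nhds.2 (c1 y ⟨hy.1, h⟩))⟩) hU
    (fun y hy => hZU y hy.1) (C + γ / 2) (half_pos hγ)
  have r := r1.trans hψ r2
  rw [add_halves] at r
  refine ⟨_, _, _, r, fun y hy => ?_⟩
  rw [z4_hs r1.sf r2.sf _ p (hb y hy)]
  by_cases h : y ∈ interior {x | C + γ / 2 ≤ hs (A.loc f1 p) (A.loc ψ p) x}
  · have := mem_ofPred_eq ▸ interior_subset h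
    linarith [r2.lo p y (hb y hy)]
  · linarith [r1.lo p y (hb y hy), (c2 y ⟨hy, h⟩).self_of_nhds]

theorem z4_zero (ψ : M → ℝ) {F : M → V} (hF : A.Sm F) (hc : A.Cvx F) (U : Set M) {γ : ℝ}
    (hγ : 0 < γ) : RidgeOut A ψ F U γ F (fun _ => 0) 0 where
  sF := hF
  cv := hc
  sf := Atl.Sm.const 0
  supp := by simp
  sT := Atl.TSm.zero
  met := by funext m; simp
  bT := fun p j _ y _ => by rw [Atl.rep_zero]; simpa using hγ.le
  bf := fun p j _ y _ => by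
    rw [show A.loc (fun _ => (0 : ℝ)) p = fun _ => 0 from rfl]; simpa using hγ.le
  lo := fun p y _ => by
    rw [show A.loc (fun _ => (0 : ℝ)) p = fun _ => 0 from rfl]; simpa [hs, d2] using hγ.le

theorem ridge_all {ψ : M → ℝ} (hψ : A.Sm ψ) {F : M → V} (hF : A.Sm F) (hc : A.Cvx F) {κ : Type}
    [Fintype κ] (p : κ → Fin A.n) (o : κ → E) (ho : ∀ j, ‖o j‖ ≤ 2) (ρ2 : κ → ℝ)
    (hρ : ∀ j, ρ2 j ≤ 1/4) (hg : ∀ j, GoodC (A.loc ψ (p j)) (o j) (ρ2 j)) {U : Set M} (hU : IsOpen U)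
    (hZU : ∀ j y, nsq (y - o j) = ρ2 j → (A.ch (p j)).symm y ∈ U) (C : ℝ) {γ : ℝ} (hγ : 0 < γ) :
    ∃ F' f T, RidgeOut A ψ F U γ F' f T ∧
      ∀ j y, nsq (y - o j) = ρ2 j → C ≤ hs (A.loc f (p j)) (A.loc ψ (p j)) y := by
  classical
  have key : ∀ (s : Finset κ) (C γ : ℝ), 0 < γ → ∃ F' f T, RidgeOut A ψ F U γ F' f T ∧
      ∀ j ∈ s, ∀ y, nsq (y - o j) = ρ2 j → C ≤ hs (A.loc f (p j)) (A.loc ψ (p j)) y := by
    intro s
    induction s using Finset.induction_on with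
    | empty => exact fun C γ hγ => ⟨_, _, _, z4_zero ψ hF hc U hγ, by simp⟩
    | insert i s _ ih =>
      intro C γ hγ
      obtain ⟨F1, f1, T1, r1, c1⟩ := ih (C + γ / 2) _ (half_pos hγ)
      obtain ⟨F2, f2, T2, r2, c2⟩ := ridge_circle hψ r1.sF r1.cv (p i) (ho i) (hρ i) (hg i) hU
        (hZU i) (C + γ / 2) (half_pos hγ)
      have r := r1.trans hψ r2
      rw [add_halves] at r
      refine ⟨_, _, _, r, fun j hj y hy => ?_⟩
      have hb := za_mem_ball3 (ho j) (hy.trans_le (hρ j))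
      rw [z4_hs r1.sf r2.sf _ _ hb]
      rcases Finset.mem_insert.1 hj with rfl | hj
      · linarith [r1.lo (p j) y hb, c2 y hy]
      · linarith [r2.lo (p j) y hb, c1 j hj y hy]
  obtain ⟨F', f, T, r, c⟩ := key Finset.univ C γ hγ
  exact ⟨F', f, T, r, fun j => c j (Finset.mem_univ j)⟩

end Vale.Agent.P205
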