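import Vale.Agent.P205.Z0
import Vale.Agent.P205.Z1
import Vale.Agent.P205.Z2
import Vale.Agent.P205.Z4
import Vale.Agent.P205.G2

open Set Filter Topology
open scoped ContDiff

noncomputable section
namespace Vale.Agent.P205

variable {M : Type*} [TopologicalSpace M] [T2Space M] [CompactSpace M] {A : Atl M}

/-! Z3: the geometric decomposition of the metric. -/

/-- the basic annulus tensor -/
def z3A (A : Atl M) (p : Fin A.n) (o : E) : M → S3 :=
  A.extT p (fun y => expNegInvGlue (annf o y) ^ 2 • sqv (y - o))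
/-- the annulus component of a tensor -/
def z3L (A : Atl M) (p : Fin A.n) (o : E) (Λ : E → S3 →L[ℝ] ℝ) (T : M → S3) : M → S3 :=
  A.extT p (fun y => (expNegInvGlue (annf o y) ^ 2 * Λ y (A.rep T p y)) • sqv (y - o))

theorem z3L_add (p : Fin A.n) (o : E) (Λ : E → S3 →L[ℝ] ℝ) (S T : M → S3) :
    z3L A p o Λ (S + T) = z3L A p o Λ S + z3L A p o Λ T := by
  unfold z3L
  rw [← Atl.extT_add, Atl.rep_add]
  simp only [map_add, mul_add, add_smul]

theorem z3_ann (p : Fin A.n) {o : E} (ho : ‖o‖ ≤ 2) {Λ : E → S3 →L[ℝ] ℝ} (hΛ : ContDiff ℝ ∞ Λ)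
    {T : M → S3} (hT : A.TSm T) {e : ℝ} (he : 0 < e)
    (h0 : ∀ y ∈ Metric.ball (0 : E) 3, 0 ≤ Λ y (A.rep T p y)) :
    ∃ a : AnnP A, a.p = p ∧ a.o = o ∧ a.Q = e • z3A A p o + z3L A p o Λ T := by
  have h1 : ∀ y ∈ Metric.ball (0 : E) 3, 0 < e + Λ y (A.rep T p y) := fun y hy => by
    linarith [h0 y hy]
  refine ⟨⟨p, o, fun y => √(e + Λ y (A.rep T p y)), ho, fun y hy => ((contDiffAt_const.add
    (hΛ.contDiffAt.clm_apply (hT.contDiffAt (Atl.ball3_sub' p hy)))).sqrt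
      (h1 y hy).ne').contDiffWithinAt, fun y hy => Real.sqrt_pos.2 (h1 y hy)⟩, rfl, rfl, ?_⟩
  have e1 : e • z3A A p o = A.extT p fun y => e • expNegInvGlue (annf o y) ^ 2 • sqv (y - o) :=
    (Atl.extT_fsmul p (fun _ => e) _).symm
  rw [e1, z3L, ← Atl.extT_add]
  refine Atl.extT_congr p fun y _ => ?_
  by_cases hy : nsq (y - o) ≤ 1 / 4
  · simp only [mul_pow, Real.sq_sqrt (h1 y (za_mem_ball3 ho hy)).le, smul_smul, ← add_smul]
    congr 1; ring
  · simp [z2_eg hy]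

omit [T2Space M] [CompactSpace M] in
theorem z3_psd (a : AnnP A) (m : M) (v : E) : 0 ≤ qf (a.Q m) v v := by
  unfold AnnP.Q Atl.extT
  split_ifs
  · rw [qf_pull, qf_smul, qf_sqv]; exact mul_nonneg (sq_nonneg _) (mul_self_nonneg _)
  · simp [qf]

omit [T2Space M] [CompactSpace M] in
theorem z3_pos {T : M → S3} (hT : A.PosD T) {n : ℕ} (a : Fin n → AnnP A) (s : Finset (Fin n)) :
    A.PosD (T + ∑ j ∈ s, (a j).Q) := by
  induction s using Finset.induction_on with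
  | empty => simpa using hT
  | insert i s hi ih =>
    intro m v hv
    rw [Finset.sum_insert hi, add_left_comm, Pi.add_apply, qf_add]
    exact add_pos_of_nonneg_of_pos (z3_psd _ m v) (ih m v hv)

theorem z3_small {B : M → S3} (hB : A.TSm B) {η : ℝ} (hη : 0 < η) :
    ∃ e : ℝ, 0 < e ∧ A.TN 0 (e • B) η := by
  obtain ⟨b, b0, hb⟩ := hB.tn 0
  refine ⟨η / b, by positivity, (Atl.TN.smul hB _ hb).mono le_rfl (le_of_eq ?_)⟩
  rw [abs_of_pos (by positivity), div_mul_cancel₀ _ b0.ne']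

theorem GEO {g : M → S3} (hg : A.PosD g) (hgs : A.TSm g) {ι : M → Fin 3 → ℝ} (hι : A.Sm ι)
    (hi : A.Imm ι) : ∃ (ψ : M → ℝ) (F : M → V) (n : ℕ) (an : Fin n → AnnP A) (m : ℕ)
      (ps : Fin m → PsiP A ψ), A.Sm ψ ∧ A.Sm F ∧ A.Cvx F ∧
      g = A.metA F + ∑ j, (an j).Q + ∑ l, (ps l).Q ∧
      ∀ i y, (nsq (y - (an i).o) = 1/64 ∨ nsq (y - (an i).o) = 1/4) →
        0 < curN (A.rep (A.metA F + ∑ j ∈ Finset.univ.filter (· ≤ i), (an j).Q) (an i).p) y := by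
  obtain ⟨F0, sF0, cF0, hp⟩ := exists_start hg hgs hι hi
  have sh := hgs.sub (Atl.TSm_metA sF0)
  obtain ⟨n, p, o, Λ, η, η0, ho, sΛ, hΛ, hdec⟩ := exists_annuli hp sh
  replace hdec : ∀ T, ∑ j, z3L A (p j) (o j) (Λ j) T = T := hdec
  let ρ2 : Fin n × Bool → ℝ := fun i => bif i.2 then 1 / 64 else 1 / 4
  have hρ : ∀ i, 0 < ρ2 i ∧ ρ2 i ≤ 1 / 4 := fun ⟨_, b⟩ => by cases b <;> norm_num [ρ2]
  have hb : ∀ i y, nsq (y - o i.1) = ρ2 i → y ∈ Metric.ball (0 : E) 3 := fun i y hy =>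
    za_mem_ball3 (ho i.1) (hy.trans_le (hρ i).2)
  obtain ⟨ψ, sψ, gψ⟩ := exists_good hι hi (fun i : Fin n × Bool => p i.1) (fun i => o i.1)
    (fun i => ho i.1) ρ2 (fun i => (hρ i).1) fun i => (hρ i).2
  obtain ⟨m, a, ha⟩ := exists_PsiD sψ (fun i : Fin n × Bool => p i.1)
    (fun i => {y | nsq (y - o i.1) = ρ2 i}) (fun i => za_circle _ _) hb fun i y hy => (gψ i y hy).1
  obtain ⟨W, hW⟩ : ∃ W : M → ℝ,
    W = fun x => ∑ l, A.extF (a l).p (fun x => expNegInvGlue ((a l).f x) ^ 2) x := ⟨_, rfl⟩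
  have sW : A.Sm W := hW ▸ Atl.Sm.sum _ fun l _ => (a l).sm
  choose w w0 hw using fun i : Fin n × Bool => (za_circle (o i.1) (ρ2 i)).exists_forall_le'
    (f := A.loc W (p i.1)) (a := 0)
    ((sW _).continuousOn.mono fun y hy => Atl.ball3_sub' _ (hb i y hy)) (hW ▸ ha i)
  obtain ⟨w1, w10, hw1⟩ := za_pos_le w0
  have sA : ∀ j, A.TSm (z3A A (p j) (o j)) := fun j => ann_tsm0 (p j) (ho j)
  have sB := Atl.TSm.sum Finset.univ fun j _ => sA j
  have sΨ := Atl.TSm.fsmul sW (Atl.TSm_sqA sψ)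
  obtain ⟨e, e0, he⟩ := z3_small sB (half_pos (half_pos η0))
  obtain ⟨lam, l0, hl⟩ := z3_small sΨ (half_pos (half_pos η0))
  obtain ⟨D, hD⟩ : ∃ D, D = e • ∑ j, z3A A (p j) (o j) + lam • fun x => W x • A.sqA ψ x := ⟨_, rfl⟩
  have sD : A.TSm D := hD ▸ (sB.smul e).add (sΨ.smul lam)
  have bD : A.TN 0 D (η / 2) :=
    hD ▸ (Atl.TN.add (sB.smul e) (sΨ.smul lam) he hl).mono le_rfl (add_halves _).le
  have key : ∀ D' : M → S3, A.TSm D' → A.TN 0 D' η → ∀ j, ∃ a : AnnP A, a.p = p j ∧ a.o = o j ∧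
      a.Q = e • z3A A (p j) (o j) + z3L A (p j) (o j) (Λ j) (g - A.metA F0 - D') := by
    intro D' s b j
    refine z3_ann (p j) (ho j) (sΛ j) (sh.sub s) e0 fun y hy => hΛ j y hy _ ?_
    have := b (p j) 0 le_rfl y hy
    rw [norm_iteratedFDeriv_zero] at this
    rwa [Atl.rep_sub (g - A.metA F0), sub_sub_cancel_left, norm_neg]
  choose an0 _ _ q0 using key D sD (bD.mono le_rfl (half_le_self η0.le))
  choose CL CL0 hCL using fun j => ann_lin (A := A) (p j) (ho j) (sΛ j)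
  have sG : ∀ s : Finset (Fin n), A.TSm (A.metA F0 + ∑ j ∈ s, (an0 j).Q) := fun s =>
    (Atl.TSm_metA sF0).add (Atl.TSm.sum s fun j _ =>
      q0 j ▸ ((sA j).smul e).add (hCL j _ (sh.sub sD)).1)
  choose C γ γ0 hC using fun i : Fin n × Bool => curN_ridge Metric.isOpen_ball
    (za_circle (o i.1) (ρ2 i)) (hb i)
    ((sG (Finset.univ.filter (· ≤ i.1)) (p i.1)).mono (Atl.ball3_sub' _))
    (fun y hy => (z3_pos cF0.posD an0 _).rep (Atl.ball3_sub' _ (hb i y hy)))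
    ((sψ (p i.1)).mono (Atl.ball3_sub' _))
  obtain ⟨γ1, γ10, hγ1⟩ := za_pos_le γ0
  obtain ⟨C1, hC1⟩ := Finite.exists_le C
  have S0 : 0 ≤ ∑ j, CL j := Finset.sum_nonneg fun j _ => (CL0 j).le
  obtain ⟨δ, δ0, hδ⟩ := za_pos_le (r := ![γ1 / (1 + ∑ j, CL j), η / 2, lam * (w1 / 2) / 2])
    fun k => by fin_cases k <;> simp <;> positivity
  have δ1 : δ * (1 + ∑ j, CL j) ≤ γ1 := (le_div_iff₀ (by positivity)).1 (hδ 0)
  have δ2 : δ ≤ η / 2 := hδ 1
  have δ3 : δ ≤ lam * (w1 / 2) / 2 := hδ 2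
  obtain ⟨F, f, T, r, hr⟩ := ridge_all sψ sF0 cF0 (fun i : Fin n × Bool => p i.1) (fun i => o i.1)
    (fun i => ho i.1) ρ2 (fun i => (hρ i).2) gψ (isOpen_lt (continuous_const (y := w1 / 2))
      sW.continuous) (fun i y hy => (half_lt_self w10).trans_le ((hw1 i).trans (hw i y hy))) C1 δ0
  choose an pa oa qa using key (D + T) (sD.add r.sT)
    ((Atl.TN.add sD r.sT bD (r.bT.mono (Nat.zero_le 2) δ2)).mono le_rfl (add_halves _).le)
  obtain ⟨ps, hps⟩ := psi_absorb sψ a r.sf (lam := lam) (half_pos w10) (by have := r.supp; rw [hW] at this; exact this) fun x =>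
    (r.bf.norm_le x).trans_lt (δ3.trans_lt (half_lt_self (by positivity)))
  refine ⟨ψ, F, n, an, m, ps, sψ, r.sF, r.cv, ?_, fun i y hy => ?_⟩
  · simp only [qa, Finset.sum_add_distrib, ← Finset.smul_sum, hdec, hps, r.met, ← congrFun hW]
    funext x
    simp only [hD, Pi.add_apply, Pi.sub_apply, Pi.smul_apply]
    module
  · rw [oa] at hy
    obtain ⟨b, hy⟩ : ∃ b, nsq (y - o i) = ρ2 (i, b) := hy.elim (⟨true, ·⟩) (⟨false, ·⟩)
    have y3 := hb (i, b) y hy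
    have yt := Atl.ball3_sub' (p i) y3
    have e1 : ∀ j, (an j).Q = (an0 j).Q - z3L A (p j) (o j) (Λ j) T := fun j => by
      rw [qa, q0, ← sub_add_cancel (g - A.metA F0 - D) T, z3L_add, sub_sub _ D T]; abel
    have sL : ∀ j ∈ Finset.univ.filter (· ≤ i), A.TSm (z3L A (p j) (o j) (Λ j) T) := fun j _ =>
      (hCL j T r.sT).1
    have b1 := Atl.TN.sub r.sT (Atl.TSm.sum _ sL) r.bT
      (Atl.TN.sum _ sL fun j _ => (hCL j T r.sT).2 δ r.bT)
    have b2 : δ + ∑ j ∈ Finset.univ.filter (· ≤ i), CL j * δ ≤ γ (i, b) := by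
      have := mul_le_mul_of_nonneg_right (Finset.sum_le_sum_of_subset_of_nonneg
        (Finset.subset_univ (Finset.univ.filter (· ≤ i))) fun j _ _ => (CL0 j).le) δ0.le
      rw [← Finset.sum_mul]
      linarith [hγ1 (i, b)]
    have b3 : δ ≤ γ (i, b) := by nlinarith [hγ1 (i, b)]
    have c := hC (i, b) y hy (A.loc f (p i)) _ (r.sf.contDiffAt yt)
      ((r.sT.sub (Atl.TSm.sum _ sL)).contDiffAt yt) (fun j hj => (r.bf _ j hj y y3).trans b3)
      (fun j hj => (b1 _ j hj y y3).trans b2) ((hC1 _).trans (hr (i, b) y hy))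
    have e2 : A.metA F + ∑ j ∈ Finset.univ.filter (· ≤ i), (an j).Q =
        A.metA F0 + ∑ j ∈ Finset.univ.filter (· ≤ i), (an0 j).Q - (fun x => f x • A.sqA ψ x) +
          (T - ∑ j ∈ Finset.univ.filter (· ≤ i), z3L A (p j) (o j) (Λ j) T) := by
      simp only [e1, Finset.sum_sub_distrib, r.met]; abel
    rw [pa, e2]
    refine c.trans_eq (curN_congr ?_)
    filter_upwards [(A.ch (p i)).open_target.mem_nhds yt] with x hx
    rw [Atl.rep_add _ (T - _), Atl.rep_sub _ fun x => f x • A.sqA ψ x, Atl.rep_fsmul]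
    simp only [Atl.rep_sqA sψ hx]

end Vale.Agent.P205
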